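import Vale.Agent.P347.Defs

/-!
# P347: Mehler operators, elementary properties
-/

open MeasureTheory ProbabilityTheory
open scoped ENNReal NNReal RealInnerProductSpace Topology

namespace Vale.Agent.P347

namespace MehlerAux

variable {d : ℕ} {F : Type*} [NormedAddCommGroup F] [NormedSpace ℝ F]

theorem memLp_norm (d : ℕ) (p : ℕ) : MemLp (fun z : E d => ‖z‖) (p : ℝ≥0∞) (gam d) := by
  have h : MemLp (id : E d → E d) (p : ℝ≥0∞) (gam d) :=
    IsGaussian.memLp_id (stdGaussian (E d)) (p : ℝ≥0∞) (ENNReal.natCast_ne_top p)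
  exact h.norm

theorem pow_int (d p : ℕ) : Integrable (fun z : E d => (1 + ‖z‖) ^ p) (gam d) := by
  rcases Nat.eq_zero_or_pos p with h | h
  · subst h
    simp only [pow_zero]
    exact integrable_const 1
  have h0 : MemLp (fun _ : E d => (1 : ℝ)) (p : ℝ≥0∞) (gam d) := memLp_const 1
  have h1 : MemLp (fun z : E d => (1 : ℝ) + ‖z‖) (p : ℝ≥0∞) (gam d) := h0.add (memLp_norm d p)
  have h2 := h1.integrable_norm_pow (by omega)
  refine h2.congr (Filter.Eventually.of_forall fun z => ?_)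
  show ‖(1 : ℝ) + ‖z‖‖ ^ p = (1 + ‖z‖) ^ p
  rw [Real.norm_of_nonneg (by positivity)]

theorem growth {f : E d → F} (hg : PolyGrowth f) :
    ∃ (C : ℝ) (p : ℕ), 0 ≤ C ∧ ∀ x, ‖f x‖ ≤ C * (1 + ‖x‖) ^ p := by
  obtain ⟨C, p, h⟩ := hg
  refine ⟨|C|, p, abs_nonneg C, fun x => (h x).trans ?_⟩
  exact mul_le_mul_of_nonneg_right (le_abs_self C) (by positivity)

theorem comb_le (a b : ℝ) (x z : E d) :
    1 + ‖a • x + b • z‖ ≤ (1 + |a|) * (1 + |b|) * (1 + ‖x‖) * (1 + ‖z‖) := by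
  have h1 : ‖a • x + b • z‖ ≤ |a| * ‖x‖ + |b| * ‖z‖ := by
    refine (norm_add_le _ _).trans ?_
    rw [norm_smul, norm_smul, Real.norm_eq_abs, Real.norm_eq_abs]
  have ha := abs_nonneg a
  have hb := abs_nonneg b
  have hx := norm_nonneg x
  have hz := norm_nonneg z
  have h2 : 1 + (|a| * ‖x‖ + |b| * ‖z‖) ≤ (1 + |a| * ‖x‖) * (1 + |b| * ‖z‖) := by
    nlinarith [mul_nonneg (mul_nonneg ha hx) (mul_nonneg hb hz)]
  have h3 : 1 + |a| * ‖x‖ ≤ (1 + |a|) * (1 + ‖x‖) := by nlinarith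
  have h4 : 1 + |b| * ‖z‖ ≤ (1 + |b|) * (1 + ‖z‖) := by nlinarith
  have h5 : (1 + |a| * ‖x‖) * (1 + |b| * ‖z‖) ≤
      ((1 + |a|) * (1 + ‖x‖)) * ((1 + |b|) * (1 + ‖z‖)) :=
    mul_le_mul h3 h4 (by positivity) (by positivity)
  calc 1 + ‖a • x + b • z‖ ≤ 1 + (|a| * ‖x‖ + |b| * ‖z‖) := by linarith
    _ ≤ (1 + |a| * ‖x‖) * (1 + |b| * ‖z‖) := h2
    _ ≤ _ := h5
    _ = _ := by ring

theorem comb_pow_le {f : E d → F} {C : ℝ} (hC : 0 ≤ C) {p : ℕ}
    (h : ∀ x, ‖f x‖ ≤ C * (1 + ‖x‖) ^ p) (a b : ℝ) (x z : E d) :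
    ‖f (a • x + b • z)‖ ≤ C * ((1 + |a|) * (1 + |b|) * (1 + ‖x‖)) ^ p * (1 + ‖z‖) ^ p := by
  refine (h _).trans ?_
  rw [mul_assoc, ← mul_pow]
  refine mul_le_mul_of_nonneg_left ?_ hC
  exact pow_le_pow_left₀ (by positivity) (comb_le a b x z) p

theorem int_comb {f : E d → F} (hc : Continuous f) (hg : PolyGrowth f) (a b : ℝ) (x : E d) :
    Integrable (fun z => f (a • x + b • z)) (gam d) := by
  obtain ⟨C, p, hC, h⟩ := growth hg
  refine ((pow_int d p).const_mul (C * ((1 + |a|) * (1 + |b|) * (1 + ‖x‖)) ^ p)).mono'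
    ?_ (Filter.Eventually.of_forall fun z => comb_pow_le hC h a b x z)
  exact (hc.comp (by fun_prop)).aestronglyMeasurable

theorem polyGrowth_sq {f : E d → F} (hg : PolyGrowth f) :
    PolyGrowth (fun z => ‖f z‖ ^ 2) := by
  obtain ⟨C, p, hC, h⟩ := growth hg
  refine ⟨C ^ 2, 2 * p, fun x => ?_⟩
  rw [Real.norm_of_nonneg (by positivity)]
  calc ‖f x‖ ^ 2 ≤ (C * (1 + ‖x‖) ^ p) ^ 2 := pow_le_pow_left₀ (norm_nonneg _) (h x) 2
    _ = _ := by rw [mul_pow, ← pow_mul, mul_comm p 2]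

theorem polyGrowth_norm {f : E d → F} (hg : PolyGrowth f) :
    PolyGrowth (fun z => ‖f z‖) := by
  obtain ⟨C, p, hC, h⟩ := growth hg
  exact ⟨C, p, fun x => by rw [norm_norm]; exact h x⟩

theorem polyGrowth_of_bound {f : E d → F} {L : ℝ} (h : ∀ x, ‖f x‖ ≤ L) : PolyGrowth f :=
  ⟨L, 0, fun x => by simpa using h x⟩

/-- Jensen for the square of the norm. -/
theorem jensen {α : Type*} [MeasurableSpace α] (μ : Measure α) [IsProbabilityMeasure μ]
    {f : α → F} (h1 : Integrable f μ) (h2 : Integrable (fun z => ‖f z‖ ^ 2) μ) :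
    ‖∫ z, f z ∂μ‖ ^ 2 ≤ ∫ z, ‖f z‖ ^ 2 ∂μ := by
  set m := ∫ z, ‖f z‖ ∂μ with hm
  have h3 : 0 ≤ ∫ z, (‖f z‖ - m) ^ 2 ∂μ := integral_nonneg fun z => sq_nonneg _
  have h4 : ∫ z, (‖f z‖ - m) ^ 2 ∂μ = ∫ z, ‖f z‖ ^ 2 ∂μ - m ^ 2 := by
    have e : (fun z => (‖f z‖ - m) ^ 2) = fun z => (‖f z‖ ^ 2 - 2 * m * ‖f z‖) + m ^ 2 := by
      funext z
      ring
    have e1 : ∫ z, (‖f z‖ ^ 2 - 2 * m * ‖f z‖) + m ^ 2 ∂μ =
        ∫ z, (‖f z‖ ^ 2 - 2 * m * ‖f z‖) ∂μ + ∫ _z, m ^ 2 ∂μ :=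
      integral_add (h2.sub (h1.norm.const_mul (2 * m))) (integrable_const _)
    have e2 : ∫ z, (‖f z‖ ^ 2 - 2 * m * ‖f z‖) ∂μ =
        ∫ z, ‖f z‖ ^ 2 ∂μ - ∫ z, 2 * m * ‖f z‖ ∂μ :=
      integral_sub h2 (h1.norm.const_mul (2 * m))
    rw [e, e1, e2, integral_const_mul, ← hm, integral_const, probReal_univ, one_smul]
    ring
  have h5 : ‖∫ z, f z ∂μ‖ ≤ m := norm_integral_le_integral_norm _
  have h6 : ‖∫ z, f z ∂μ‖ ^ 2 ≤ m ^ 2 := pow_le_pow_left₀ (norm_nonneg _) h5 2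
  linarith

theorem sqrt_le_one (ρ : ℝ) : Real.sqrt (1 - ρ ^ 2) ≤ 1 := by
  rw [Real.sqrt_le_one]
  nlinarith [sq_nonneg ρ]

theorem abs_sqrt (ρ : ℝ) : |Real.sqrt (1 - ρ ^ 2)| = Real.sqrt (1 - ρ ^ 2) :=
  abs_of_nonneg (Real.sqrt_nonneg _)

/-- differentiation under the integral -/
theorem hasFDerivAt {k : ℕ} {φ : E d → E k} (hφ : ContDiff ℝ 1 φ) {L : ℝ}
    (hL : ∀ x, ‖fderiv ℝ φ x‖ ≤ L) (ρ : ℝ) (x : E d) :
    HasFDerivAt (mehler ρ φ) (ρ • mehler ρ (fderiv ℝ φ) x) x := by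
  have hL0 : 0 ≤ L := (norm_nonneg _).trans (hL 0)
  have hg : PolyGrowth φ := by
    refine ⟨‖φ 0‖ + L, 1, fun y => ?_⟩
    have h1 : ‖φ y - φ 0‖ ≤ L * ‖y - 0‖ :=
      Convex.norm_image_sub_le_of_norm_fderiv_le (s := Set.univ)
        (fun z _ => hφ.differentiable (by norm_num) z) (fun z _ => hL z) convex_univ
        (Set.mem_univ _) (Set.mem_univ _)
    rw [sub_zero] at h1
    have h2 : ‖φ y‖ ≤ ‖φ y - φ 0‖ + ‖φ 0‖ := by
      simpa using norm_add_le (φ y - φ 0) (φ 0)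
    have h3 := norm_nonneg (φ 0)
    have h4 := norm_nonneg y
    rw [pow_one]
    nlinarith
  have hcd : Continuous (fderiv ℝ φ) := hφ.continuous_fderiv (by norm_num)
  have key := hasFDerivAt_integral_of_dominated_of_fderiv_le (𝕜 := ℝ) (μ := gam d)
    (F := fun y z => φ (ρ • y + Real.sqrt (1 - ρ ^ 2) • z))
    (F' := fun y z => ρ • fderiv ℝ φ (ρ • y + Real.sqrt (1 - ρ ^ 2) • z))
    (x₀ := x) (bound := fun _ => |ρ| * L) (s := Set.univ) Filter.univ_mem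
    (Filter.Eventually.of_forall fun y => (hφ.continuous.comp (by fun_prop)).aestronglyMeasurable)
    (int_comb hφ.continuous hg _ _ x)
    (((hcd.comp (by fun_prop)).const_smul ρ).aestronglyMeasurable)
    (Filter.Eventually.of_forall fun z y _ => by
      rw [norm_smul, Real.norm_eq_abs]
      exact mul_le_mul_of_nonneg_left (hL _) (abs_nonneg _))
    (integrable_const _)
    (Filter.Eventually.of_forall fun z y _ => by
      have h1 : HasFDerivAt (fun y : E d => ρ • y + Real.sqrt (1 - ρ ^ 2) • z)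
          (ρ • ContinuousLinearMap.id ℝ (E d)) y :=
        ((hasFDerivAt_id y).const_smul ρ).add_const _
      have h2 : HasFDerivAt φ (fderiv ℝ φ (ρ • y + Real.sqrt (1 - ρ ^ 2) • z))
          (ρ • y + Real.sqrt (1 - ρ ^ 2) • z) :=
        (hφ.differentiable (by norm_num) _).hasFDerivAt
      have h3 := h2.comp y h1
      have e : (fderiv ℝ φ (ρ • y + Real.sqrt (1 - ρ ^ 2) • z)).comp
          (ρ • ContinuousLinearMap.id ℝ (E d)) =
          ρ • fderiv ℝ φ (ρ • y + Real.sqrt (1 - ρ ^ 2) • z) := by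
        ext v
        simp
      rw [← e]
      exact h3)
  have e : (∫ z, ρ • fderiv ℝ φ (ρ • x + Real.sqrt (1 - ρ ^ 2) • z) ∂gam d) =
      ρ • mehler ρ (fderiv ℝ φ) x := by
    rw [integral_smul]
    rfl
  rw [← e]
  exact key

theorem norm_le_of_hs2 {k : ℕ} {M : ℝ} (T : E d →L[ℝ] E k) (h : hs2 T ≤ M ^ 2) :
    ‖T‖ ≤ Real.sqrt d * |M| := by
  have h1 : ∀ i : Fin d, ‖T (eb i)‖ ≤ |M| := by
    intro i
    have h2 : ‖T (eb i)‖ ^ 2 ≤ M ^ 2 :=
      (Finset.single_le_sum (f := fun i : Fin d => ‖T (eb i)‖ ^ 2)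
        (fun j _ => by positivity) (Finset.mem_univ i)).trans h
    rw [← sq_abs M] at h2
    exact (sq_le_sq₀ (norm_nonneg _) (abs_nonneg _)).mp h2
  refine T.opNorm_le_bound (by positivity) fun x => ?_
  have e : x = ∑ i, x i • (eb i : E d) := by
    ext j
    simp [eb, Finset.sum_apply, Pi.single_apply]
  have h3 : ‖T x‖ ≤ ∑ i, |x i| * |M| := by
    conv_lhs => rw [e]
    rw [map_sum]
    refine (norm_sum_le _ _).trans (Finset.sum_le_sum fun i _ => ?_)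
    rw [map_smul, norm_smul, Real.norm_eq_abs]
    exact mul_le_mul_of_nonneg_left (h1 i) (abs_nonneg _)
  have h4 : (∑ i, |x i|) ≤ Real.sqrt d * ‖x‖ := by
    have h5 : (∑ i, |x i|) ^ 2 ≤ (d : ℝ) * ‖x‖ ^ 2 := by
      have h6 := sq_sum_le_card_mul_sum_sq (s := (Finset.univ : Finset (Fin d)))
        (f := fun i => |x i|)
      rw [Finset.card_univ, Fintype.card_fin] at h6
      refine h6.trans (le_of_eq ?_)
      rw [EuclideanSpace.norm_sq_eq]
      simp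
    rw [← Real.sqrt_sq (norm_nonneg x), ← Real.sqrt_mul (Nat.cast_nonneg d)]
    exact Real.le_sqrt_of_sq_le h5
  calc ‖T x‖ ≤ ∑ i, |x i| * |M| := h3
    _ = (∑ i, |x i|) * |M| := by rw [Finset.sum_mul]
    _ ≤ (Real.sqrt d * ‖x‖) * |M| := mul_le_mul_of_nonneg_right h4 (abs_nonneg _)
    _ = _ := by ring

end MehlerAux

open MehlerAux

section mehler
variable {d k : ℕ} {ρ : ℝ}

theorem mehler_norm_le {F : Type*} [NormedAddCommGroup F] [NormedSpace ℝ F] {f : E d → F} {C : ℝ}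
    (hf : ∀ x, ‖f x‖ ≤ C) (x : E d) : ‖mehler ρ f x‖ ≤ C := by
  have h := norm_integral_le_of_norm_le_const (μ := gam d)
    (f := fun z => f (ρ • x + Real.sqrt (1 - ρ ^ 2) • z)) (C := C)
    (Filter.Eventually.of_forall fun z => hf _)
  simpa [mehler] using h

/-- Jensen, pointwise. -/
theorem mehler_sq_le (φ : E d → E k) (hc : Continuous φ) (hg : PolyGrowth φ) (x : E d) :
    ‖mehler ρ φ x‖ ^ 2 ≤ mehler ρ (fun z => ‖φ z‖ ^ 2) x :=
  jensen (gam d) (int_comb hc hg _ _ x)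
    (int_comb (f := fun z => ‖φ z‖ ^ 2) (by fun_prop) (polyGrowth_sq hg) _ _ x)

theorem mehler_continuous {φ : E d → E k} (hc : Continuous φ) (hg : PolyGrowth φ) :
    Continuous (mehler ρ φ) := by
  obtain ⟨C, p, hC, h⟩ := growth hg
  refine continuous_iff_continuousAt.mpr fun x => ?_
  refine continuousAt_of_dominated (bound := fun z =>
    C * ((1 + |ρ|) * (1 + |Real.sqrt (1 - ρ ^ 2)|) * (1 + (‖x‖ + 1))) ^ p * (1 + ‖z‖) ^ p)
    (Filter.Eventually.of_forall fun y => (hc.comp (by fun_prop)).aestronglyMeasurable) ?_ ?_ ?_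
  · filter_upwards [Metric.ball_mem_nhds x one_pos] with y hy
    refine Filter.Eventually.of_forall fun z => (comb_pow_le hC h _ _ y z).trans ?_
    have h1 : ‖y‖ ≤ ‖x‖ + 1 := by
      have h2 : ‖y‖ ≤ ‖y - x‖ + ‖x‖ := by simpa using norm_add_le (y - x) x
      rw [Metric.mem_ball, dist_eq_norm] at hy
      linarith
    refine mul_le_mul_of_nonneg_right (mul_le_mul_of_nonneg_left ?_ hC) (by positivity)
    refine pow_le_pow_left₀ (by positivity) ?_ p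
    exact mul_le_mul_of_nonneg_left (by linarith) (by positivity)
  · exact (pow_int d p).const_mul _
  · exact Filter.Eventually.of_forall fun z => by
      have h1 : Continuous fun y : E d => φ (ρ • y + Real.sqrt (1 - ρ ^ 2) • z) :=
        hc.comp (by fun_prop)
      exact h1.continuousAt

theorem mehler_polyGrowth (h0 : 0 ≤ ρ) (h1 : ρ ≤ 1) {φ : E d → E k} (hc : Continuous φ)
    (hg : PolyGrowth φ) : PolyGrowth (mehler ρ φ) := by
  obtain ⟨C, p, hC, h⟩ := growth hg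
  set a := (1 + |ρ|) * (1 + |Real.sqrt (1 - ρ ^ 2)|) with ha
  refine ⟨C * a ^ p * ∫ z, (1 + ‖z‖) ^ p ∂gam d, p, fun x => ?_⟩
  have h2 : ‖mehler ρ φ x‖ ≤ ∫ z, C * (a * (1 + ‖x‖)) ^ p * (1 + ‖z‖) ^ p ∂gam d :=
    norm_integral_le_of_norm_le ((pow_int d p).const_mul _)
      (Filter.Eventually.of_forall fun z => comb_pow_le hC h _ _ x z)
  rw [integral_const_mul, mul_pow] at h2
  refine h2.trans (le_of_eq ?_)
  ring

theorem mehler_contDiff (h0 : 0 ≤ ρ) (h1 : ρ ≤ 1) {φ : E d → E k} (hφ : ContDiff ℝ 1 φ) {L : ℝ}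
    (hL : ∀ x, ‖fderiv ℝ φ x‖ ≤ L) : ContDiff ℝ 1 (mehler ρ φ) := by
  rw [contDiff_one_iff_fderiv]
  refine ⟨fun x => (MehlerAux.hasFDerivAt hφ hL ρ x).differentiableAt, ?_⟩
  have e : fderiv ℝ (mehler ρ φ) = fun x => ρ • mehler ρ (fderiv ℝ φ) x := by
    funext x
    exact (MehlerAux.hasFDerivAt hφ hL ρ x).fderiv
  rw [e]
  refine Continuous.const_smul ?_ ρ
  have hcd : Continuous (fderiv ℝ φ) := hφ.continuous_fderiv (by norm_num)
  refine continuous_of_dominated (bound := fun _ => L) (fun x => ?_) (fun x => ?_)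
    (integrable_const _) ?_
  · exact (hcd.comp (by fun_prop)).aestronglyMeasurable
  · exact Filter.Eventually.of_forall fun z => hL _
  · exact Filter.Eventually.of_forall fun z => hcd.comp (by fun_prop)

theorem mehler_fderiv (h0 : 0 ≤ ρ) (h1 : ρ ≤ 1) {φ : E d → E k} (hφ : ContDiff ℝ 1 φ) {L : ℝ}
    (hL : ∀ x, ‖fderiv ℝ φ x‖ ≤ L) (x : E d) :
    fderiv ℝ (mehler ρ φ) x = ρ • mehler ρ (fderiv ℝ φ) x :=
  (MehlerAux.hasFDerivAt hφ hL ρ x).fderiv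

theorem mehler_fderiv_le (h0 : 0 ≤ ρ) (h1 : ρ ≤ 1) {φ : E d → E k} (hφ : ContDiff ℝ 1 φ) {L : ℝ}
    (hL : ∀ x, ‖fderiv ℝ φ x‖ ≤ L) (x : E d) : ‖fderiv ℝ (mehler ρ φ) x‖ ≤ L := by
  rw [mehler_fderiv h0 h1 hφ hL, norm_smul, Real.norm_of_nonneg h0]
  have h2 := mehler_norm_le (ρ := ρ) hL x
  have h3 := norm_nonneg (mehler ρ (fderiv ℝ φ) x)
  nlinarith

theorem mehler_hs2_le (h0 : 0 ≤ ρ) (h1 : ρ ≤ 1) {φ : E d → E k} (hφ : ContDiff ℝ 1 φ) {M : ℝ}
    (hM : ∀ x, hs2 (fderiv ℝ φ x) ≤ M ^ 2) (x : E d) :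
    hs2 (fderiv ℝ (mehler ρ φ) x) ≤ M ^ 2 := by
  have hM0 : ∀ y, ‖fderiv ℝ φ y‖ ≤ Real.sqrt d * |M| := fun y =>
    MehlerAux.norm_le_of_hs2 (fderiv ℝ φ y) (hM y)
  have hcd : Continuous (fderiv ℝ φ) := hφ.continuous_fderiv (by norm_num)
  rw [mehler_fderiv h0 h1 hφ hM0]
  set T : E d → E d → (E d →L[ℝ] E k) :=
    fun x z => fderiv ℝ φ (ρ • x + Real.sqrt (1 - ρ ^ 2) • z) with hT
  have hTc : Continuous (T x) := hcd.comp (by fun_prop)
  have hTi : Integrable (T x) (gam d) :=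
    (integrable_const (Real.sqrt d * |M|)).mono' hTc.aestronglyMeasurable
      (Filter.Eventually.of_forall fun z => hM0 _)
  have hev : ∀ i : Fin d, Integrable (fun z => T x z (eb i)) (gam d) := fun i =>
    (ContinuousLinearMap.apply ℝ (E k) (eb i : E d)).integrable_comp hTi
  have heb : ∀ i : Fin d, ‖(eb i : E d)‖ = 1 := fun i => by simp [eb]
  have hevb : ∀ (i : Fin d) (z : E d), ‖T x z (eb i)‖ ≤ Real.sqrt d * |M| := fun i z => by
    refine ((T x z).le_opNorm _).trans ?_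
    rw [heb, mul_one]
    exact hM0 _
  have hev2 : ∀ i : Fin d, Integrable (fun z => ‖T x z (eb i)‖ ^ 2) (gam d) := fun i => by
    refine (integrable_const ((Real.sqrt d * |M|) ^ 2)).mono' ?_
      (Filter.Eventually.of_forall fun z => ?_)
    · exact ((hev i).aestronglyMeasurable.norm.pow 2)
    · rw [Real.norm_of_nonneg (by positivity)]
      exact pow_le_pow_left₀ (norm_nonneg _) (hevb i z) 2
  have h2 : ∀ i : Fin d, ‖(ρ • mehler ρ (fderiv ℝ φ) x) (eb i)‖ ^ 2 ≤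
      ∫ z, ‖T x z (eb i)‖ ^ 2 ∂gam d := by
    intro i
    have e1 : (mehler ρ (fderiv ℝ φ) x) (eb i) = ∫ z, T x z (eb i) ∂gam d :=
      ((ContinuousLinearMap.apply ℝ (E k) (eb i : E d)).integral_comp_comm hTi).symm
    rw [_root_.ContinuousLinearMap.smul_apply, norm_smul, Real.norm_of_nonneg h0, mul_pow, e1]
    have h3 := MehlerAux.jensen (gam d) (hev i) (hev2 i)
    have h4 : ρ ^ 2 ≤ 1 := by nlinarith
    have h5 : 0 ≤ ‖∫ z, T x z (eb i) ∂gam d‖ ^ 2 := by positivity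
    nlinarith
  calc hs2 (ρ • mehler ρ (fderiv ℝ φ) x)
      ≤ ∑ i : Fin d, ∫ z, ‖T x z (eb i)‖ ^ 2 ∂gam d := Finset.sum_le_sum fun i _ => h2 i
    _ = ∫ z, ∑ i : Fin d, ‖T x z (eb i)‖ ^ 2 ∂gam d :=
        (integral_finsetSum _ fun i _ => hev2 i).symm
    _ ≤ ∫ _z, M ^ 2 ∂gam d := by
        refine integral_mono (integrable_finsetSum _ fun i _ => hev2 i) (integrable_const _) ?_
        intro z
        exact hM _
    _ = M ^ 2 := by simp

end mehler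

end Vale.Agent.P347
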