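import Vale.Agent.P347.DefsB
import Vale.Agent.P347.Mehler

/-! P347, piece B3a: the one-level scheme `lev1`. -/

open MeasureTheory ProbabilityTheory
open scoped ENNReal NNReal RealInnerProductSpace

namespace Vale.Agent.P347

namespace AlgAux

variable {d : ℕ}

/-- a derivative bound gives a Lipschitz bound -/
theorem lip {k : ℕ} {w : E d → E k} (hw : ContDiff ℝ 1 w) {L : ℝ} (hw2 : ∀ x, ‖fderiv ℝ w x‖ ≤ L)
    (x y : E d) : ‖w x - w y‖ ≤ L * ‖x - y‖ :=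
  Convex.norm_image_sub_le_of_norm_fderiv_le (𝕜 := ℝ) (s := Set.univ)
    (fun z _ => (hw.differentiable (by norm_num)).differentiableAt) (fun z _ => hw2 z)
    convex_univ (Set.mem_univ y) (Set.mem_univ x)

theorem polyGrowth_of_lip {k : ℕ} {w : E d → E k} (hw : ContDiff ℝ 1 w) {L : ℝ}
    (hw2 : ∀ x, ‖fderiv ℝ w x‖ ≤ L) : PolyGrowth w := by
  refine ⟨‖w 0‖ + L, 1, fun x => ?_⟩
  have h1 := lip hw hw2 x 0
  rw [sub_zero] at h1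
  have hL : 0 ≤ L := (norm_nonneg _).trans (hw2 0)
  have h2 : ‖w x‖ ≤ ‖w x - w 0‖ + ‖w 0‖ := by
    have := norm_add_le (w x - w 0) (w 0)
    rwa [sub_add_cancel] at this
  have h3 := norm_nonneg x
  have h4 := norm_nonneg (w 0)
  rw [pow_one]
  nlinarith

theorem sqrt_le_one' (t : ℝ) : Real.sqrt (1 - t ^ 2) ≤ 1 := by
  rw [Real.sqrt_le_left zero_le_one]
  nlinarith [sq_nonneg t]

/-- `‖ρ u + σ ω‖² ≤ ‖u‖² + ‖ω‖²` -/
theorem norm_rot_le {ρ : ℝ} (h0 : 0 ≤ ρ) (h1 : ρ ≤ 1) (u z : E d) :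
    ‖ρ • u + Real.sqrt (1 - ρ ^ 2) • z‖ ^ 2 ≤ ‖u‖ ^ 2 + ‖z‖ ^ 2 := by
  have hs : Real.sqrt (1 - ρ ^ 2) ^ 2 = 1 - ρ ^ 2 := Real.sq_sqrt (by nlinarith)
  have hs0 := Real.sqrt_nonneg (1 - ρ ^ 2)
  set s := Real.sqrt (1 - ρ ^ 2) with hsdef
  have h2 : ‖ρ • u + s • z‖ ≤ ρ * ‖u‖ + s * ‖z‖ := by
    refine (norm_add_le _ _).trans ?_
    rw [norm_smul, norm_smul, Real.norm_of_nonneg h0, Real.norm_of_nonneg hs0]
  calc ‖ρ • u + s • z‖ ^ 2 ≤ (ρ * ‖u‖ + s * ‖z‖) ^ 2 := pow_le_pow_left₀ (norm_nonneg _) h2 2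
    _ ≤ (ρ ^ 2 + s ^ 2) * (‖u‖ ^ 2 + ‖z‖ ^ 2) := by
        nlinarith [sq_nonneg (ρ * ‖z‖ - s * ‖u‖)]
    _ = ‖u‖ ^ 2 + ‖z‖ ^ 2 := by rw [hs]; ring

/-- weighted Cauchy-Schwarz: `‖∑ p_i v_i‖² ≤ ∑ p_i ‖v_i‖²` if `∑ p_i ≤ 1`. -/
theorem norm_wsum_sq {ι : Type} [Fintype ι] {p : ι → ℝ} (hp : ∀ i, 0 ≤ p i) (hs : ∑ i, p i ≤ 1)
    (v : ι → E d) : ‖∑ i, p i • v i‖ ^ 2 ≤ ∑ i, p i * ‖v i‖ ^ 2 := by
  have h1 : ‖∑ i, p i • v i‖ ≤ ∑ i, p i * ‖v i‖ := by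
    refine (norm_sum_le _ _).trans (Finset.sum_le_sum fun i _ => ?_)
    rw [norm_smul, Real.norm_of_nonneg (hp i)]
  have h2 : (∑ i, p i * ‖v i‖) ^ 2 ≤ (∑ i, p i) * ∑ i, p i * ‖v i‖ ^ 2 :=
    Finset.sum_sq_le_sum_mul_sum_of_sq_le_mul Finset.univ (fun i _ => hp i)
      (fun i _ => mul_nonneg (hp i) (sq_nonneg _)) (fun i _ => le_of_eq (by ring))
  have h3 : 0 ≤ ∑ i, p i * ‖v i‖ ^ 2 :=
    Finset.sum_nonneg fun i _ => mul_nonneg (hp i) (sq_nonneg _)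
  calc ‖∑ i, p i • v i‖ ^ 2 ≤ (∑ i, p i * ‖v i‖) ^ 2 := pow_le_pow_left₀ (norm_nonneg _) h1 2
    _ ≤ (∑ i, p i) * ∑ i, p i * ‖v i‖ ^ 2 := h2
    _ ≤ _ := mul_le_of_le_one_left h3 hs

theorem norm_wsum {ι : Type} [Fintype ι] {p : ι → ℝ} (hp : ∀ i, 0 ≤ p i) (hs : ∑ i, p i ≤ 1)
    (v : ι → E d) {C : ℝ} (hC : 0 ≤ C) (h : ∀ i, ‖v i‖ ≤ C) : ‖∑ i, p i • v i‖ ≤ C := by
  calc ‖∑ i, p i • v i‖ ≤ ∑ i, p i * C := by
        refine (norm_sum_le _ _).trans (Finset.sum_le_sum fun i _ => ?_)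
        rw [norm_smul, Real.norm_of_nonneg (hp i)]
        exact mul_le_mul_of_nonneg_left (h i) (hp i)
    _ = (∑ i, p i) * C := by rw [Finset.sum_mul]
    _ ≤ C := mul_le_of_le_one_left hC hs

theorem p_le_one {ι : Type} [Fintype ι] {p : ι → ℝ} (hp : ∀ i, 0 ≤ p i) (hs : ∑ i, p i ≤ 1)
    (i : ι) : p i ≤ 1 :=
  (Finset.single_le_sum (f := p) (fun j _ => hp j) (Finset.mem_univ i)).trans hs

theorem int_eval {ι : Type} [Fintype ι] {F : Type*} [NormedAddCommGroup F] [NormedSpace ℝ F]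
    {f : E d → F} (hf : Integrable f (gam d)) (i : ι) :
    Integrable (fun ω : ι → E d => f (ω i)) (gamPi d ι) :=
  (measurePreserving_eval (fun _ : ι => gam d) i).integrable_comp_of_integrable hf

theorem integral_eval {ι : Type} [Fintype ι] {F : Type*} [NormedAddCommGroup F] [NormedSpace ℝ F]
    {f : E d → F} (hf : AEStronglyMeasurable f (gam d)) (i : ι) :
    ∫ ω : ι → E d, f (ω i) ∂gamPi d ι = ∫ z, f z ∂gam d := by
  have hm := measurePreserving_eval (fun _ : ι => gam d) i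
  have h1 := integral_map (μ := gamPi d ι) hm.measurable.aemeasurable (f := f)
    (by rw [hm.map_eq]; exact hf)
  rw [hm.map_eq] at h1
  exact h1.symm

end AlgAux

open AlgAux

section alg
variable {d : ℕ} {ι : Type} [Fintype ι] {w : E d → E d} {p ρ : ι → ℝ} {ε : ℝ}

theorem lev1_contDiff (hw : ContDiff ℝ 1 w) :
    ContDiff ℝ 1 (fun q : E d × (ι → E d) => lev1 w p ρ q.1 q.2) := by
  unfold lev1
  refine ContDiff.sum fun i _ => ?_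
  refine ContDiff.const_smul _ (hw.comp ?_)
  fun_prop

theorem lev1_lipU (hw : ContDiff ℝ 1 w) (hw2 : ∀ x, ‖fderiv ℝ w x‖ ≤ 2) (hp : ∀ i, 0 ≤ p i)
    (hs : ∑ i, p i ≤ 1) (h0 : ∀ i, 0 ≤ ρ i) (h1 : ∀ i, ρ i ≤ 1) (U U' : E d) (ω : ι → E d) :
    ‖lev1 w p ρ U ω - lev1 w p ρ U' ω‖ ≤ 2 * ‖U - U'‖ := by
  unfold lev1
  rw [← Finset.sum_sub_distrib]
  simp_rw [← smul_sub]
  refine norm_wsum hp hs _ (by positivity) fun i => ?_
  refine (lip hw hw2 _ _).trans ?_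
  rw [add_sub_add_right_eq_sub, ← smul_sub, norm_smul, Real.norm_of_nonneg (h0 i)]
  have := mul_le_of_le_one_left (norm_nonneg (U - U')) (h1 i)
  linarith

theorem lev1_lipω (hw : ContDiff ℝ 1 w) (hw2 : ∀ x, ‖fderiv ℝ w x‖ ≤ 2) (hp : ∀ i, 0 ≤ p i)
    (hs : ∑ i, p i ≤ 1) (h0 : ∀ i, 0 ≤ ρ i) (h1 : ∀ i, ρ i ≤ 1) (U : E d) (ω ω' : ι → E d) :
    ‖lev1 w p ρ U ω - lev1 w p ρ U ω'‖ ^ 2 ≤ 2 ^ 2 * sq2 (ω - ω') := by
  unfold lev1 sq2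
  rw [← Finset.sum_sub_distrib]
  simp_rw [← smul_sub]
  refine (norm_wsum_sq hp hs _).trans ?_
  rw [Finset.mul_sum]
  refine Finset.sum_le_sum fun i _ => ?_
  have h2 : ‖w (ρ i • U + Real.sqrt (1 - ρ i ^ 2) • ω i) -
      w (ρ i • U + Real.sqrt (1 - ρ i ^ 2) • ω' i)‖ ≤ 2 * ‖(ω - ω') i‖ := by
    refine (lip hw hw2 _ _).trans ?_
    rw [add_sub_add_left_eq_sub, ← smul_sub, norm_smul, Real.norm_of_nonneg (Real.sqrt_nonneg _)]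
    have := mul_le_of_le_one_left (norm_nonneg (ω i - ω' i)) (sqrt_le_one' (ρ i))
    rw [Pi.sub_apply]
    linarith
  calc p i * _ ≤ 1 * (2 * ‖(ω - ω') i‖) ^ 2 :=
        mul_le_mul (p_le_one hp hs i) (pow_le_pow_left₀ (norm_nonneg _) h2 2) (sq_nonneg _)
          zero_le_one
    _ = _ := by ring

theorem lev1_mean (hw : ContDiff ℝ 1 w) (hw2 : ∀ x, ‖fderiv ℝ w x‖ ≤ 2) (U : E d) :
    ∫ ω, lev1 w p ρ U ω ∂gamPi d ι = avg p ρ w U := by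
  have hi : ∀ i, Integrable (fun z => w (ρ i • U + Real.sqrt (1 - ρ i ^ 2) • z)) (gam d) :=
    fun i => MehlerAux.int_comb hw.continuous (polyGrowth_of_lip hw hw2) _ _ U
  unfold lev1 avg mehler
  rw [integral_finsetSum]
  · refine Finset.sum_congr rfl fun i _ => ?_
    rw [integral_smul]
    congr 1
    exact integral_eval (hi i).aestronglyMeasurable i
  · intro i _
    exact (int_eval (hi i) i).smul (p i)

end alg

end Vale.Agent.P347
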