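import Vale.Agent.P347.ModelOps

/-!
# P347: from query bounds to the dimension exponent
-/

open MeasureTheory ProbabilityTheory Filter
open scoped ENNReal NNReal

namespace Vale.Agent.P347

/-- `Q(d) ≤ d^{a+ε}` eventually for every `ε > 0` implies `gammaStar ≤ a`. -/
theorem gammaStar_le {a : ℝ} (h : ∀ ε : ℝ, 0 < ε → ∀ᶠ d : ℕ in atTop,
    ∃ q : ℕ, (q : ℝ) ≤ (d : ℝ) ^ (a + ε) ∧ ∃ A : Alg d q, A.Samples) :
    gammaStar ≤ (a : EReal) := by
  unfold gammaStar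
  refine EReal.le_of_forall_lt_iff_le.1 fun b hb => ?_
  have hb' : a < b := by exact_mod_cast hb
  have h1 := h (b - a) (by linarith)
  refine limsup_le_of_le (h := ?_)
  filter_upwards [h1, eventually_ge_atTop 2] with d hd hd2
  obtain ⟨q, hq, hA⟩ := hd
  have e : a + (b - a) = b := by ring
  rw [e] at hq
  have hd1 : (1 : ℝ) < d := by exact_mod_cast (by omega : 1 < d)
  have hlog : 0 < Real.log d := Real.log_pos hd1
  have hQ : ((Q d : ℕ∞) : ℝ≥0∞) ≤ ENNReal.ofReal ((d : ℝ) ^ b) := by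
    calc ((Q d : ℕ∞) : ℝ≥0∞) ≤ ((q : ℕ∞) : ℝ≥0∞) := by
          exact_mod_cast (ENat.toENNReal_le.2 (Q_le hA))
      _ = (q : ℝ≥0∞) := by simp
      _ ≤ _ := by
          rw [← ENNReal.ofReal_natCast]
          exact ENNReal.ofReal_le_ofReal hq
  have h2 : ENNReal.log ((Q d : ℕ∞) : ℝ≥0∞) ≤ ((b * Real.log d : ℝ) : EReal) := by
    refine (ENNReal.log_monotone hQ).trans ?_
    rw [ENNReal.log_ofReal_of_pos (by positivity), Real.log_rpow (by linarith)]
  rw [EReal.div_le_iff_le_mul (by exact_mod_cast hlog) (EReal.coe_ne_top _)]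
  rw [← EReal.coe_mul, mul_comm (Real.log d) b]
  exact h2

/-- `Q(d) ≤ C d^a (log d)^k` for large `d` implies `gammaStar ≤ a`. -/
theorem gammaStar_le_of_polylog {a C : ℝ} {k d₀ : ℕ} (h : ∀ d : ℕ, d₀ ≤ d →
    ∃ q : ℕ, (q : ℝ) ≤ C * (d : ℝ) ^ a * Real.log d ^ k ∧ ∃ A : Alg d q, A.Samples) :
    gammaStar ≤ (a : EReal) := by
  refine gammaStar_le fun ε hε => ?_
  have h1 : (fun x : ℝ => Real.log x ^ (k : ℝ)) =o[atTop] fun x => x ^ ε :=
    isLittleO_log_rpow_rpow_atTop _ hε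
  have h2 := (h1.comp_tendsto tendsto_natCast_atTop_atTop).bound
    (show (0 : ℝ) < 1 / (|C| + 1) by positivity)
  filter_upwards [h2, eventually_ge_atTop (max d₀ 1)] with d hd hd2
  obtain ⟨q, hq, hA⟩ := h d (le_trans (le_max_left _ _) hd2)
  refine ⟨q, hq.trans ?_, hA⟩
  have hd1 : (1 : ℝ) ≤ d := by exact_mod_cast le_trans (le_max_right _ _) hd2
  have hlog : 0 ≤ Real.log d := Real.log_nonneg hd1
  simp only [Function.comp, Real.rpow_natCast, Real.norm_eq_abs] at hd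
  have hda : 0 ≤ (d : ℝ) ^ a := by positivity
  have hde : 0 ≤ (d : ℝ) ^ ε := by positivity
  rw [abs_of_nonneg (pow_nonneg hlog k), abs_of_nonneg hde] at hd
  rw [Real.rpow_add (by linarith)]
  have hC : |C| * (1 / (|C| + 1)) ≤ 1 := by
    rw [mul_one_div, div_le_one (by positivity)]; linarith
  calc C * (d : ℝ) ^ a * Real.log d ^ k ≤ |C| * (d : ℝ) ^ a * Real.log d ^ k := by
        gcongr; exact le_abs_self C
    _ ≤ |C| * (d : ℝ) ^ a * (1 / (|C| + 1) * (d : ℝ) ^ ε) := by gcongr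
    _ = (|C| * (1 / (|C| + 1))) * ((d : ℝ) ^ a * (d : ℝ) ^ ε) := by ring
    _ ≤ 1 * ((d : ℝ) ^ a * (d : ℝ) ^ ε) := by gcongr
    _ = _ := one_mul _

end Vale.Agent.P347
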