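import Vale.Agent.P347.Defs

/-!
# P347: definitions for the local lemma
-/

open MeasureTheory ProbabilityTheory
open scoped ENNReal NNReal RealInnerProductSpace

namespace Vale.Agent.P347

/-- one-level scheme `∑ p_j w(ρ_j U + σ_j ξ_j)` -/
noncomputable def lev1 {d : ℕ} {ι : Type} [Fintype ι] (w : E d → E d) (p ρ : ι → ℝ) (U : E d)
    (ξ : ι → E d) : E d := ∑ j, p j • w (ρ j • U + Real.sqrt (1 - ρ j ^ 2) • ξ j)

/-- two-level scheme (the algorithm) -/
noncomputable def lev2 {d : ℕ} {ι : Type} [Fintype ι] (w : E d → E d) (p ρ : ι → ℝ) (ε : ℝ)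
    (G : E d) (ω : ι ⊕ ι × ι → E d) : E d :=
  ∑ i, p i • w (ρ i • G + Real.sqrt (1 - ρ i ^ 2) • ω (Sum.inl i) -
    ε • lev1 w p ρ (ρ i • G + Real.sqrt (1 - ρ i ^ 2) • ω (Sum.inl i)) fun j => ω (Sum.inr (i, j)))

/-- reversed stationary AR(1) path started at `G` -/
noncomputable def rev {d : ℕ} (a : ℝ) (G : E d) (ξ : ℕ → E d) : ℕ → E d
  | 0 => G
  | j + 1 => a • rev a G ξ j + Real.sqrt (1 - a ^ 2) • ξ j

/-- extension by zero -/
def extz {d n : ℕ} (ξ : Fin n → E d) : ℕ → E d := fun j => if h : j < n then ξ ⟨j, h⟩ else 0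

/-- one-level reference scheme -/
noncomputable def ref1 {d : ℕ} (w : E d → E d) (a : ℝ) (K : ℕ) (U : E d) (ξ : Fin K → E d) : E d :=
  ∑ i : Fin K, ((1 - a) * a ^ (i : ℕ)) • w (rev a U (extz ξ) (i + 1))

/-- two-level reference scheme -/
noncomputable def ref2 {d : ℕ} (w : E d → E d) (a ε : ℝ) (K : ℕ) (G : E d)
    (ξ : Fin (2 * K) → E d) : E d :=
  ∑ j : Fin K, ((1 - a) * a ^ (j : ℕ)) • w (rev a G (extz ξ) (j + 1) -
    ε • ∑ i : Fin K, ((1 - a) * a ^ (i : ℕ)) • w (rev a G (extz ξ) (j + 1 + (i + 1))))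

/-- the exact (non-truncated) chain along the path: `revX … m` is the position at time `-(N-m)`. -/
noncomputable def revX {d : ℕ} (w : E d → E d) (a ε : ℝ) (N : ℕ) (G : E d) (ξ : ℕ → E d) : ℕ → E d
  | 0 => rev a G ξ N
  | m + 1 => a • revX w a ε N G ξ m - ((1 - a) * ε) • w (revX w a ε N G ξ m) +
      (rev a G ξ (N - (m + 1)) - a • rev a G ξ (N - m))

/-- one step of a chain `x ↦ F x + s Z`, acting on functions -/
noncomputable def stepOp {d : ℕ} (F : E d → E d) (s : ℝ) (g : E d → ℝ) (x : E d) : ℝ :=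
  ∫ z, g (F x + s • z) ∂gam d

end Vale.Agent.P347
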