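import Vale.Agent.P347.GP
import Vale.Agent.P347.DefsB

/-!
# P347, B'2: centred perturbations cost only second order
-/

open MeasureTheory ProbabilityTheory
open scoped ENNReal NNReal RealInnerProductSpace

namespace Vale.Agent.P347

namespace CP

theorem cs {Ω : Type*} [MeasurableSpace Ω] {μ : Measure Ω} {F : Type*} [NormedAddCommGroup F]
    {A B : Ω → F} (hA : MemLp A 2 μ) (hB : MemLp B 2 μ) {α β : ℝ} (hα : 0 ≤ α) (hβ : 0 ≤ β)
    (h1 : ∫ ω, ‖A ω‖ ^ 2 ∂μ ≤ α ^ 2) (h2 : ∫ ω, ‖B ω‖ ^ 2 ∂μ ≤ β ^ 2) :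
    ∫ ω, ‖A ω‖ * ‖B ω‖ ∂μ ≤ α * β := by
  have h := integral_mul_norm_le_Lp_mul_Lq (μ := μ) (f := A) (g := B) (p := 2) (q := 2)
    (by constructor <;> norm_num) (by simpa using hA) (by simpa using hB)
  simp only [Real.rpow_two] at h
  refine h.trans ?_
  have e : ∀ {I γ : ℝ}, 0 ≤ I → 0 ≤ γ → I ≤ γ ^ 2 → I ^ ((1 : ℝ) / 2) ≤ γ := by
    intro I γ hI hγ hle
    rw [← Real.sqrt_eq_rpow]
    exact Real.sqrt_le_iff.2 ⟨hγ, hle⟩
  refine mul_le_mul (e (integral_nonneg fun _ => by positivity) hα h1)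
    (e (integral_nonneg fun _ => by positivity) hβ h2) ?_ hα
  exact Real.rpow_nonneg (integral_nonneg fun _ => by positivity) _

theorem gradient_contDiff {d : ℕ} {φ : E d → ℝ} (hφ : ContDiff ℝ 2 φ) :
    ContDiff ℝ 1 (gradient φ) := by
  have h1 : ContDiff ℝ 1 (fderiv ℝ φ) := hφ.fderiv_right (by norm_num)
  exact (InnerProductSpace.toDual ℝ (E d)).symm.contDiff.comp h1

theorem fderiv_eq {d : ℕ} {φ : E d → ℝ} (x v : E d) :
    fderiv ℝ φ x v = ⟪gradient φ x, v⟫ := by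
  rw [gradient, InnerProductSpace.toDual_symm_apply]

theorem fix {d : ℕ} {κ : Type} [Fintype κ] {φ : E d → ℝ}
    (hφ : ContDiff ℝ 2 φ) {a1 a2 : ℝ} (h1 : ∀ x, ‖gradient φ x‖ ≤ a1)
    (h2 : ∀ x, hs2 (fderiv ℝ (gradient φ) x) ≤ a2 ^ 2) (ha2 : 0 ≤ a2)
    {a0 : ℝ} (h0 : ∀ x, |φ x| ≤ a0)
    (b : E d) {H : E d → E d} (hH : ContDiff ℝ 1 H) {ε : ℝ} (hε0 : 0 ≤ ε)
    (hε1 : ε ≤ 1 / 8) (hH1 : ∀ x x', ‖(H x - x) - (H x' - x')‖ ≤ 2 * ε * ‖x - x'‖)
    {F : (κ → E d) → E d} (hF : ContDiff ℝ 1 F)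
    (hFω : ∀ ω ω', ‖F ω - F ω'‖ ^ 2 ≤ 4 ^ 2 * sq2 (ω - ω'))
    (hF0 : ∫ ω, F ω ∂gamPi d κ = 0) :
    |∫ ω, φ (H (b + ε • F ω)) ∂gamPi d κ - φ (H b)| ≤
      100 * ε ^ 2 * Real.sqrt d * (a1 + a2) := by
  classical
  have ha1 : 0 ≤ a1 := (norm_nonneg _).trans (h1 0)
  have cF := hF.continuous
  have cH := hH.continuous
  have cφ := hφ.continuous
  have hφ1 : ContDiff ℝ 1 φ := hφ.of_le (by norm_num)
  have hg := gradient_contDiff hφ
  have cg := hg.continuous
  have mF : MemLp F 2 (gamPi d κ) := GPAux.memLp_lip F cF hFω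
  have iF : Integrable (fun ω => ‖F ω‖) (gamPi d κ) := (mF.integrable (by norm_num)).norm
  have hF2 : ∫ ω, ‖F ω‖ ^ 2 ∂gamPi d κ ≤ (Real.sqrt (32 * d)) ^ 2 := by
    have := poincare_lip F hF hFω
    rw [hF0] at this
    simp only [sub_zero] at this
    rw [Real.sq_sqrt (by positivity)]
    linarith
  have hFn : ∫ ω, ‖F ω‖ ∂gamPi d κ ≤ Real.sqrt (32 * d) := by
    have := cs (A := fun _ : κ → E d => (1 : ℝ)) (B := fun ω => ‖F ω‖) (α := 1)
      (β := Real.sqrt (32 * d)) (memLp_const (μ := gamPi d κ) (1 : ℝ)) mF.norm (by norm_num)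
      (by positivity) (by simp) (by simpa using hF2)
    simpa using this
  -- derivative of H
  have hD : ∀ x, ‖fderiv ℝ H x - ContinuousLinearMap.id ℝ (E d)‖ ≤ 2 * ε := by
    intro x
    have hx : HasFDerivAt (fun y => H y - y) (fderiv ℝ H x - ContinuousLinearMap.id ℝ (E d)) x :=
      ((hH.differentiable one_ne_zero x).hasFDerivAt).sub (hasFDerivAt_id x)
    exact hx.le_of_lip' (by positivity) (Filter.Eventually.of_forall fun y => hH1 y x)
  have hDn : ∀ x v, ‖fderiv ℝ H x v - v‖ ≤ 2 * ε * ‖v‖ := fun x v => by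
    have := (fderiv ℝ H x - ContinuousLinearMap.id ℝ (E d)).le_of_opNorm_le (hD x) v
    simpa using this
  have hHlip : ∀ x x', ‖H x - H x'‖ ≤ (5 / 4) * ‖x - x'‖ := by
    intro x x'
    have e1 : H x - H x' = ((H x - x) - (H x' - x')) + (x - x') := by abel
    rw [e1]
    refine (norm_add_le _ _).trans ?_
    have := hH1 x x'
    nlinarith [norm_nonneg (x - x')]
  -- the derivative in θ
  set S : ℝ → ℝ := fun θ => ∫ ω, φ (H (b + θ • (ε • F ω))) ∂gamPi d κ with hS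
  set S' : ℝ → ℝ := fun θ => ∫ ω, fderiv ℝ φ (H (b + θ • (ε • F ω)))
    (fderiv ℝ H (b + θ • (ε • F ω)) (ε • F ω)) ∂gamPi d κ with hS'
  have cfφ : Continuous (fderiv ℝ φ) := hφ1.continuous_fderiv one_ne_zero
  have cfH : Continuous (fderiv ℝ H) := hH.continuous_fderiv one_ne_zero
  have hbd : ∀ (θ : ℝ) (ω : κ → E d), ‖fderiv ℝ φ (H (b + θ • (ε • F ω)))
      (fderiv ℝ H (b + θ • (ε • F ω)) (ε • F ω))‖ ≤ 2 * a1 * ‖F ω‖ := by
    intro θ ω
    rw [fderiv_eq]
    refine (norm_inner_le_norm _ _).trans ?_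
    have e1 : ‖fderiv ℝ H (b + θ • (ε • F ω)) (ε • F ω)‖ ≤ 2 * ‖F ω‖ := by
      have e2 := hDn (b + θ • (ε • F ω)) (ε • F ω)
      have e3 := norm_add_le (fderiv ℝ H (b + θ • (ε • F ω)) (ε • F ω) - ε • F ω) (ε • F ω)
      rw [sub_add_cancel] at e3
      have e4 : ‖ε • F ω‖ = ε * ‖F ω‖ := by rw [norm_smul, Real.norm_of_nonneg hε0]
      rw [e4] at e2 e3
      nlinarith [norm_nonneg (F ω), mul_nonneg hε0 (norm_nonneg (F ω)),
        mul_nonneg hε0 (mul_nonneg hε0 (norm_nonneg (F ω)))]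
    calc _ ≤ a1 * (2 * ‖F ω‖) := mul_le_mul (h1 _) e1 (norm_nonneg _) ha1
      _ = _ := by ring
  have hder : ∀ θ, HasDerivAt S (S' θ) θ := by
    intro θ
    refine (hasDerivAt_integral_of_dominated_loc_of_deriv_le (𝕜 := ℝ) (s := Set.univ)
      (bound := fun ω => 2 * a1 * ‖F ω‖)
      (F := fun (θ : ℝ) (ω : κ → E d) => φ (H (b + θ • (ε • F ω))))
      (F' := fun θ ω => fderiv ℝ φ (H (b + θ • (ε • F ω)))
        (fderiv ℝ H (b + θ • (ε • F ω)) (ε • F ω)))
      Filter.univ_mem ?_ ?_ ?_ ?_ ?_ ?_).2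
    · exact Filter.Eventually.of_forall fun θ =>
        (Continuous.aestronglyMeasurable (by fun_prop))
    · refine Integrable.mono' (integrable_const a0)
        (Continuous.aestronglyMeasurable (by fun_prop))
        (Filter.Eventually.of_forall fun ω => h0 _)
    · refine Continuous.aestronglyMeasurable ?_
      exact (cfφ.comp (by fun_prop)).clm_apply ((cfH.comp (by fun_prop)).clm_apply (by fun_prop))
    · exact Filter.Eventually.of_forall fun ω θ _ => hbd θ ω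
    · exact iF.const_mul _
    · refine Filter.Eventually.of_forall fun ω θ _ => ?_
      have e1 : HasDerivAt (fun θ : ℝ => b + θ • (ε • F ω)) (ε • F ω) θ := by
        simpa using ((hasDerivAt_id θ).smul_const (ε • F ω)).const_add b
      have e2 := ((hH.differentiable one_ne_zero (b + θ • (ε • F ω))).hasFDerivAt).comp_hasDerivAt
        θ e1
      exact ((hφ1.differentiable one_ne_zero
        (H (b + θ • (ε • F ω)))).hasFDerivAt).comp_hasDerivAt θ e2
  -- bound for the derivative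
  have hbound : ∀ θ ∈ Set.Ico (0 : ℝ) 1, ‖S' θ‖ ≤ 100 * ε ^ 2 * Real.sqrt d * (a1 + a2) := by
    intro θ hθ
    set Ψ : (κ → E d) → E d := fun ω => H (b + θ • (ε • F ω)) with hΨ
    have cΨ : Continuous Ψ := by rw [hΨ]; fun_prop
    have dΨ : ContDiff ℝ 1 Ψ := by
      rw [hΨ]
      exact hH.comp (contDiff_const.add ((contDiff_const (c := θ)).smul
        ((contDiff_const (c := ε)).smul hF)))
    set m : E d := ∫ ω, gradient φ (Ψ ω) ∂gamPi d κ with hm
    have hΨl : ∀ ω ω', ‖Ψ ω - Ψ ω'‖ ^ 2 ≤ (5 * ε) ^ 2 * sq2 (ω - ω') := by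
      intro ω ω'
      have e1 := hHlip (b + θ • (ε • F ω)) (b + θ • (ε • F ω'))
      have e2 : (b + θ • (ε • F ω)) - (b + θ • (ε • F ω')) = (θ * ε) • (F ω - F ω') := by
        rw [smul_smul, smul_smul, smul_sub]
        abel
      rw [e2, norm_smul, Real.norm_of_nonneg (mul_nonneg hθ.1 hε0)] at e1
      have e3 : ‖Ψ ω - Ψ ω'‖ ≤ 5 / 4 * ε * ‖F ω - F ω'‖ := by
        refine e1.trans ?_
        have : θ * ε ≤ ε := by nlinarith [hθ.1, hθ.2]
        nlinarith [norm_nonneg (F ω - F ω'), mul_le_mul_of_nonneg_right this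
          (norm_nonneg (F ω - F ω'))]
      calc ‖Ψ ω - Ψ ω'‖ ^ 2 ≤ (5 / 4 * ε * ‖F ω - F ω'‖) ^ 2 :=
            pow_le_pow_left₀ (norm_nonneg _) e3 2
        _ = (5 / 4 * ε) ^ 2 * ‖F ω - F ω'‖ ^ 2 := by ring
        _ ≤ (5 / 4 * ε) ^ 2 * (4 ^ 2 * sq2 (ω - ω')) :=
            mul_le_mul_of_nonneg_left (hFω ω ω') (by positivity)
        _ = _ := by ring
    have hvar := poincare_comp (gradient φ) Ψ hg dΨ h2 hΨl
    rw [← hm] at hvar
    have cgΨ : Continuous fun ω => gradient φ (Ψ ω) := cg.comp cΨ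
    have bg : ∀ ω, ‖gradient φ (Ψ ω)‖ ≤ a1 := fun ω => h1 _
    have mg : MemLp (fun ω => gradient φ (Ψ ω)) 2 (gamPi d κ) :=
      MemLp.of_bound cgΨ.aestronglyMeasurable a1 (Filter.Eventually.of_forall bg)
    have mgm : MemLp (fun ω => gradient φ (Ψ ω) - m) 2 (gamPi d κ) := mg.sub (memLp_const m)
    -- splitting
    have split : ∀ ω, fderiv ℝ φ (H (b + θ • (ε • F ω)))
        (fderiv ℝ H (b + θ • (ε • F ω)) (ε • F ω)) =
        ε * ⟪gradient φ (Ψ ω) - m, F ω⟫ + (ε * ⟪m, F ω⟫ +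
          ⟪gradient φ (Ψ ω), fderiv ℝ H (b + θ • (ε • F ω)) (ε • F ω) - ε • F ω⟫) := by
      intro ω
      rw [fderiv_eq, inner_sub_right, inner_sub_left, real_inner_smul_right]
      ring
    have i1 : Integrable (fun ω => ε * (⟪gradient φ (Ψ ω) - m, F ω⟫ : ℝ)) (gamPi d κ) := by
      refine Integrable.const_mul ?_ ε
      refine Integrable.mono' ((iF.const_mul (a1 + ‖m‖)))
        (Continuous.aestronglyMeasurable (by fun_prop))
        (Filter.Eventually.of_forall fun ω => ?_)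
      refine (norm_inner_le_norm _ _).trans ?_
      refine mul_le_mul_of_nonneg_right ?_ (norm_nonneg _)
      exact (norm_sub_le _ _).trans (by linarith [bg ω])
    have iFF : Integrable F (gamPi d κ) := mF.integrable (by norm_num)
    have i2 : Integrable (fun ω => ε * (⟪m, F ω⟫ : ℝ)) (gamPi d κ) :=
      (iFF.const_inner m).const_mul ε
    have c3 : Continuous fun ω => (⟪gradient φ (Ψ ω),
        fderiv ℝ H (b + θ • (ε • F ω)) (ε • F ω) - ε • F ω⟫ : ℝ) := by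
      refine cgΨ.inner (Continuous.sub ?_ (by fun_prop))
      exact (cfH.comp (by fun_prop)).clm_apply (by fun_prop)
    have b3 : ∀ ω, ‖(⟪gradient φ (Ψ ω),
        fderiv ℝ H (b + θ • (ε • F ω)) (ε • F ω) - ε • F ω⟫ : ℝ)‖ ≤
        (2 * a1 * ε ^ 2) * ‖F ω‖ := by
      intro ω
      refine (norm_inner_le_norm _ _).trans ?_
      have e1 := hDn (b + θ • (ε • F ω)) (ε • F ω)
      rw [norm_smul, Real.norm_of_nonneg hε0] at e1
      calc _ ≤ a1 * (2 * ε * (ε * ‖F ω‖)) := mul_le_mul (bg ω) e1 (norm_nonneg _) ha1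
        _ = _ := by ring
    have i3 : Integrable (fun ω => (⟪gradient φ (Ψ ω),
        fderiv ℝ H (b + θ • (ε • F ω)) (ε • F ω) - ε • F ω⟫ : ℝ)) (gamPi d κ) :=
      Integrable.mono' (iF.const_mul _) c3.aestronglyMeasurable (Filter.Eventually.of_forall b3)
    have hz : ∫ ω, ε * (⟪m, F ω⟫ : ℝ) ∂gamPi d κ = 0 := by
      rw [integral_const_mul, integral_inner iFF, hF0, inner_zero_right, mul_zero]
    have e1 : |∫ ω, ε * (⟪gradient φ (Ψ ω) - m, F ω⟫ : ℝ) ∂gamPi d κ| ≤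
        ε * ((Real.sqrt 2 * (5 * ε * a2)) * Real.sqrt (32 * d)) := by
      rw [integral_const_mul, abs_mul, abs_of_nonneg hε0]
      refine mul_le_mul_of_nonneg_left ?_ hε0
      refine (abs_integral_le_integral_abs).trans ?_
      refine le_trans ?_ (cs mgm mF (α := Real.sqrt 2 * (5 * ε * a2))
        (β := Real.sqrt (32 * d)) (by positivity) (by positivity) ?_ hF2)
      · refine integral_mono_of_nonneg (Filter.Eventually.of_forall fun _ => abs_nonneg _) ?_
          (Filter.Eventually.of_forall fun ω => abs_real_inner_le_norm _ _)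
        exact (mgm.norm).integrable_mul (mF.norm)
      · rw [mul_pow, Real.sq_sqrt (by norm_num)]
        exact hvar
    have e3 : |∫ ω, (⟪gradient φ (Ψ ω),
        fderiv ℝ H (b + θ • (ε • F ω)) (ε • F ω) - ε • F ω⟫ : ℝ) ∂gamPi d κ| ≤
        (2 * a1 * ε ^ 2) * Real.sqrt (32 * d) := by
      rw [← Real.norm_eq_abs]
      refine (norm_integral_le_of_norm_le (iF.const_mul (2 * a1 * ε ^ 2))
        (Filter.Eventually.of_forall b3)).trans ?_
      rw [integral_const_mul]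
      exact mul_le_mul_of_nonneg_left hFn (by positivity)
    have hS'θ : S' θ = ∫ ω, ε * (⟪gradient φ (Ψ ω) - m, F ω⟫ : ℝ) ∂gamPi d κ +
        ∫ ω, (⟪gradient φ (Ψ ω),
          fderiv ℝ H (b + θ • (ε • F ω)) (ε • F ω) - ε • F ω⟫ : ℝ) ∂gamPi d κ := by
      rw [hS']
      simp only [split]
      have i23 : Integrable (fun ω => ε * (⟪m, F ω⟫ : ℝ) + (⟪gradient φ (Ψ ω),
          fderiv ℝ H (b + θ • (ε • F ω)) (ε • F ω) - ε • F ω⟫ : ℝ)) (gamPi d κ) := i2.add i3
      rw [integral_add i1 i23]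
      congr 1
      have := integral_add i2 i3
      rw [hz, zero_add] at this
      exact this
    rw [hS'θ, Real.norm_eq_abs]
    refine (abs_add_le _ _).trans ((add_le_add e1 e3).trans ?_)
    have s1 : Real.sqrt (32 * d) = 4 * Real.sqrt 2 * Real.sqrt d := by
      rw [show (32 * (d : ℝ)) = 4 ^ 2 * (2 * d) by ring, Real.sqrt_mul (by norm_num),
        Real.sqrt_sq (by norm_num), Real.sqrt_mul (by norm_num)]
      ring
    have s2 : Real.sqrt 2 * Real.sqrt 2 = 2 := Real.mul_self_sqrt (by norm_num)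
    have s3 : Real.sqrt 2 ≤ 2 := by
      rw [Real.sqrt_le_left (by norm_num)]; norm_num
    rw [s1]
    have hq : 0 ≤ ε ^ 2 * Real.sqrt d := by positivity
    have t1 : ε * ((Real.sqrt 2 * (5 * ε * a2)) * (4 * Real.sqrt 2 * Real.sqrt d)) =
        40 * a2 * (ε ^ 2 * Real.sqrt d) := by
      calc _ = (Real.sqrt 2 * Real.sqrt 2) * (20 * a2 * (ε ^ 2 * Real.sqrt d)) := by ring
        _ = _ := by rw [s2]; ring
    have t2 : (2 * a1 * ε ^ 2) * (4 * Real.sqrt 2 * Real.sqrt d) ≤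
        16 * a1 * (ε ^ 2 * Real.sqrt d) := by
      calc _ = Real.sqrt 2 * (8 * a1 * (ε ^ 2 * Real.sqrt d)) := by ring
        _ ≤ 2 * (8 * a1 * (ε ^ 2 * Real.sqrt d)) :=
            mul_le_mul_of_nonneg_right s3 (by positivity)
        _ = _ := by ring
    rw [t1]
    have q1 := mul_nonneg ha1 hq
    have q2 := mul_nonneg ha2 hq
    nlinarith
  have hmv := norm_image_sub_le_of_norm_deriv_le_segment_01'
    (f := S) (f' := S') (fun x _ => (hder x).hasDerivWithinAt) hbound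
  have hS1 : S 1 = ∫ ω, φ (H (b + ε • F ω)) ∂gamPi d κ := by simp [hS]
  have hS0 : S 0 = φ (H b) := by simp [hS]
  rw [hS1, hS0, Real.norm_eq_abs] at hmv
  exact hmv

end CP

theorem centred_pert {d : ℕ} {κ κ' : Type} [Fintype κ] [Fintype κ'] {φ : E d → ℝ}
    (hφ : ContDiff ℝ 2 φ) {a0 a1 a2 : ℝ} (h0 : ∀ x, |φ x| ≤ a0) (h1 : ∀ x, ‖gradient φ x‖ ≤ a1)
    (h2 : ∀ x, hs2 (fderiv ℝ (gradient φ) x) ≤ a2 ^ 2) (ha2 : 0 ≤ a2)
    {b : E d → E d} (hb : Continuous b) {h : E d → (κ' → E d) → E d}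
    (hh : ContDiff ℝ 1 (fun q : E d × (κ' → E d) => h q.1 q.2)) {ε : ℝ} (hε0 : 0 ≤ ε)
    (hε1 : ε ≤ 1 / 8) (hh1 : ∀ x x' ζ, ‖(h x ζ - x) - (h x' ζ - x')‖ ≤ 2 * ε * ‖x - x'‖)
    {F : E d → (κ → E d) → E d} (hF : ContDiff ℝ 1 (fun q : E d × (κ → E d) => F q.1 q.2))
    (hFω : ∀ G ω ω', ‖F G ω - F G ω'‖ ^ 2 ≤ 4 ^ 2 * sq2 (ω - ω'))
    (hF0 : ∀ G, ∫ ω, F G ω ∂gamPi d κ = 0) :
    |∫ G, ∫ ω, ∫ ζ, φ (h (b G + ε • F G ω) ζ) ∂gamPi d κ' ∂gamPi d κ ∂gam d -
        ∫ G, ∫ ζ, φ (h (b G) ζ) ∂gamPi d κ' ∂gam d| ≤ 100 * ε ^ 2 * Real.sqrt d * (a1 + a2) := by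
  have ch : Continuous (fun q : E d × (κ' → E d) => h q.1 q.2) := hh.continuous
  have cF : Continuous (fun q : E d × (κ → E d) => F q.1 q.2) := hF.continuous
  have cφ := hφ.continuous
  have cA : Continuous fun q : E d × ((κ → E d) × (κ' → E d)) =>
      φ (h (b q.1 + ε • F q.1 q.2.1) q.2.2) := by
    refine cφ.comp (ch.comp (Continuous.prodMk ?_ (by fun_prop)))
    refine (hb.comp continuous_fst).add (Continuous.const_smul ?_ ε)
    exact cF.comp (by fun_prop : Continuous fun q : E d × ((κ → E d) × (κ' → E d)) => (q.1, q.2.1))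
  have cB : Continuous fun q : E d × (κ' → E d) => φ (h (b q.1) q.2) :=
    cφ.comp (ch.comp ((hb.comp continuous_fst).prodMk continuous_snd))
  have iA : ∀ G, Integrable (fun q : (κ → E d) × (κ' → E d) => φ (h (b G + ε • F G q.1) q.2))
      ((gamPi d κ).prod (gamPi d κ')) := fun G =>
    Integrable.mono' (integrable_const a0)
      (cA.comp (continuous_const.prodMk continuous_id)).aestronglyMeasurable
      (Filter.Eventually.of_forall fun q => h0 _)
  have iB : ∀ G, Integrable (fun ζ : κ' → E d => φ (h (b G) ζ)) (gamPi d κ') := fun G =>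
    Integrable.mono' (integrable_const a0)
      (cB.comp (continuous_const.prodMk continuous_id)).aestronglyMeasurable
      (Filter.Eventually.of_forall fun q => h0 _)
  have eA : ∀ G, ∫ ω, ∫ ζ, φ (h (b G + ε • F G ω) ζ) ∂gamPi d κ' ∂gamPi d κ =
      ∫ q, φ (h (b G + ε • F G q.1) q.2) ∂((gamPi d κ).prod (gamPi d κ')) := fun G =>
    (integral_prod _ (iA G)).symm
  have bA : ∀ G, ‖∫ q, φ (h (b G + ε • F G q.1) q.2) ∂((gamPi d κ).prod (gamPi d κ'))‖ ≤ a0 := by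
    intro G
    have := norm_integral_le_of_norm_le_const (μ := (gamPi d κ).prod (gamPi d κ'))
      (f := fun q => φ (h (b G + ε • F G q.1) q.2)) (C := a0)
      (Filter.Eventually.of_forall fun q => h0 _)
    simpa using this
  have bB : ∀ G, ‖∫ ζ, φ (h (b G) ζ) ∂gamPi d κ'‖ ≤ a0 := by
    intro G
    have := norm_integral_le_of_norm_le_const (μ := gamPi d κ')
      (f := fun ζ => φ (h (b G) ζ)) (C := a0) (Filter.Eventually.of_forall fun q => h0 _)
    simpa using this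
  have IA : Integrable (fun G => ∫ q, φ (h (b G + ε • F G q.1) q.2)
      ∂((gamPi d κ).prod (gamPi d κ'))) (gam d) :=
    Integrable.mono' (integrable_const a0)
      (cA.stronglyMeasurable.integral_prod_right'
        (ν := (gamPi d κ).prod (gamPi d κ'))).aestronglyMeasurable
      (Filter.Eventually.of_forall bA)
  have IB : Integrable (fun G => ∫ ζ, φ (h (b G) ζ) ∂gamPi d κ') (gam d) :=
    Integrable.mono' (integrable_const a0)
      (cB.stronglyMeasurable.integral_prod_right' (ν := gamPi d κ')).aestronglyMeasurable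
      (Filter.Eventually.of_forall bB)
  have key : ∀ G, ‖∫ q, φ (h (b G + ε • F G q.1) q.2) ∂((gamPi d κ).prod (gamPi d κ')) -
      ∫ ζ, φ (h (b G) ζ) ∂gamPi d κ'‖ ≤ 100 * ε ^ 2 * Real.sqrt d * (a1 + a2) := by
    intro G
    rw [integral_prod_symm _ (iA G), ← integral_sub (iA G).integral_prod_right (iB G)]
    have := norm_integral_le_of_norm_le_const (μ := gamPi d κ')
      (f := fun ζ => (∫ ω, φ (h (b G + ε • F G ω) ζ) ∂gamPi d κ) - φ (h (b G) ζ))
      (C := 100 * ε ^ 2 * Real.sqrt d * (a1 + a2)) (Filter.Eventually.of_forall fun ζ => by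
        rw [Real.norm_eq_abs]
        exact CP.fix hφ h1 h2 ha2 h0 (b G) (H := fun x => h x ζ)
          (hh.comp (contDiff_id.prodMk contDiff_const)) hε0 hε1 (fun x x' => hh1 x x' ζ)
          (F := F G) (hF.comp (contDiff_const.prodMk contDiff_id)) (hFω G) (hF0 G))
    simpa using this
  simp only [eA]
  rw [← integral_sub IA IB, ← Real.norm_eq_abs]
  have := norm_integral_le_of_norm_le_const (μ := gam d)
    (C := 100 * ε ^ 2 * Real.sqrt d * (a1 + a2)) (Filter.Eventually.of_forall key)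
  simpa using this

end Vale.Agent.P347
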