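import Vale.Agent.P347.Defs

/-!
# P347, A3: Gaussian integration by parts for fields of polynomial growth
-/

open MeasureTheory ProbabilityTheory
open scoped ENNReal NNReal RealInnerProductSpace

namespace Vale.Agent.P347

namespace IBPAux

theorem pdf_eq (x : ℝ) :
    gaussianPDFReal 0 1 x = (Real.sqrt (2 * Real.pi))⁻¹ * Real.exp (-x ^ 2 / 2) := by
  rw [gaussianPDFReal_def]
  simp

theorem hasDerivAt_pdf (x : ℝ) :
    HasDerivAt (gaussianPDFReal 0 1) (-(x * gaussianPDFReal 0 1 x)) x := by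
  have h : gaussianPDFReal 0 1 =
      fun x : ℝ => (Real.sqrt (2 * Real.pi))⁻¹ * Real.exp (-x ^ 2 / 2) := by
    funext y
    exact pdf_eq y
  rw [pdf_eq, h]
  have h1 : HasDerivAt (fun y : ℝ => -y ^ 2 / 2) (-x) x := by
    have := ((hasDerivAt_pow 2 x).neg).div_const 2
    refine this.congr_deriv ?_
    norm_num
    ring
  refine ((h1.exp).const_mul ((Real.sqrt (2 * Real.pi))⁻¹)).congr_deriv ?_
  ring

theorem integrable_pow_of_gaussian {F : Type*} [NormedAddCommGroup F] [NormedSpace ℝ F]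
    [MeasurableSpace F] [BorelSpace F] [SecondCountableTopology F] [CompleteSpace F]
    (μ : Measure F) [IsGaussian μ] (p : ℕ) : Integrable (fun x : F => (1 + ‖x‖) ^ p) μ := by
  have h1 : MemLp (fun x : F => x) p μ := IsGaussian.memLp_id μ p (ENNReal.natCast_ne_top p)
  have h2 : MemLp (fun x : F => (1 : ℝ) + ‖x‖) p μ := (memLp_const (1 : ℝ)).add h1.norm
  have h3 := h2.integrable_norm_pow'
  refine h3.congr ?_
  filter_upwards with x
  rw [Real.norm_eq_abs, abs_of_nonneg (by positivity)]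

theorem integrable_pdf_mul {f : ℝ → ℝ} (hf : Continuous f) {C : ℝ} {p : ℕ}
    (h : ∀ x, |f x| ≤ C * (1 + |x|) ^ p) : Integrable (fun x => f x * gaussianPDFReal 0 1 x) := by
  have h1 : Integrable f (gaussianReal 0 1) := by
    refine ((integrable_pow_of_gaussian (gaussianReal 0 1) p).const_mul C).mono'
      hf.aestronglyMeasurable ?_
    filter_upwards with x
    exact h x
  rw [gaussianReal_of_var_ne_zero 0 one_ne_zero] at h1
  have h3 := (integrable_withDensity_iff_integrable_smul' (measurable_gaussianPDF 0 1)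
    (by filter_upwards with x; exact gaussianPDF_lt_top)).1 h1
  refine h3.congr ?_
  filter_upwards with x
  rw [toReal_gaussianPDF, smul_eq_mul, mul_comm]

theorem gauss_one (f f' : ℝ → ℝ) (hf : Continuous f) (hf' : Continuous f')
    (bf : ∃ (C : ℝ) (p : ℕ), ∀ x, |f x| ≤ C * (1 + |x|) ^ p)
    (bf' : ∃ (C : ℝ) (p : ℕ), ∀ x, |f' x| ≤ C * (1 + |x|) ^ p)
    (hd : ∀ x, HasDerivAt f (f' x) x) :
    ∫ x, x * f x ∂(gaussianReal 0 1) = ∫ x, f' x ∂(gaussianReal 0 1) := by
  rw [integral_gaussianReal_eq_integral_smul one_ne_zero,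
    integral_gaussianReal_eq_integral_smul one_ne_zero]
  simp only [smul_eq_mul]
  obtain ⟨C, p, hC⟩ := bf
  obtain ⟨C', p', hC'⟩ := bf'
  have i0 := integrable_pdf_mul hf hC
  have i1 := integrable_pdf_mul hf' hC'
  have i2 : Integrable (fun x => (x * f x) * gaussianPDFReal 0 1 x) := by
    refine integrable_pdf_mul (C := C) (p := p + 1) (continuous_id.mul hf) ?_
    intro x
    rw [abs_mul, pow_succ]
    have h1 := hC x
    have h2 : 0 ≤ C * (1 + |x|) ^ p := (abs_nonneg _).trans h1
    calc |x| * |f x| ≤ (1 + |x|) * (C * (1 + |x|) ^ p) := by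
          apply mul_le_mul _ h1 (abs_nonneg _) (by positivity)
          linarith [abs_nonneg x]
      _ = _ := by ring
  have key := integral_mul_deriv_eq_deriv_mul_of_integrable (u := f)
    (v := gaussianPDFReal 0 1) (u' := f') (v' := fun x => -(x * gaussianPDFReal 0 1 x))
    (fun x _ => hd x) (fun x _ => hasDerivAt_pdf x)
    (by
      refine i2.neg.congr ?_
      filter_upwards with x
      simp only [Pi.neg_apply, Pi.mul_apply]
      ring)
    i1 i0
  have e1 : ∫ x, gaussianPDFReal 0 1 x * (x * f x) = - ∫ x, f x * -(x * gaussianPDFReal 0 1 x) := by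
    rw [← integral_neg]
    refine integral_congr_ae ?_
    filter_upwards with x
    ring
  rw [e1, key, neg_neg]
  refine integral_congr_ae ?_
  filter_upwards with x
  ring

/-- resampling one coordinate of a product measure -/
theorem map_update {κ : Type} [Fintype κ] [DecidableEq κ] (μ : Measure ℝ) [IsProbabilityMeasure μ]
    (k : κ) :
    MeasurePreserving (fun p : (κ → ℝ) × ℝ => Function.update p.1 k p.2)
      ((Measure.pi fun _ : κ => μ).prod μ) (Measure.pi fun _ : κ => μ) := by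
  have hm : Measurable (fun p : (κ → ℝ) × ℝ => Function.update p.1 k p.2) := by
    refine measurable_pi_iff.2 (fun j => ?_)
    by_cases hj : j = k
    · subst hj
      simpa using! measurable_snd
    · simp only [Function.update_of_ne hj]
      exact (measurable_pi_apply j).comp measurable_fst
  refine ⟨hm, ?_⟩
  symm
  refine Measure.pi_eq (fun s hs => ?_)
  rw [Measure.map_apply hm (MeasurableSet.univ_pi hs)]
  have e : (fun p : (κ → ℝ) × ℝ => Function.update p.1 k p.2) ⁻¹' (Set.pi Set.univ s) =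
      (Set.pi Set.univ (Function.update s k Set.univ)) ×ˢ (s k) := by
    ext p
    simp only [Set.mem_preimage, Set.mem_pi, Set.mem_univ, forall_true_left, Set.mem_prod]
    constructor
    · intro h
      refine ⟨fun j => ?_, by simpa using h k⟩
      by_cases hj : j = k
      · subst hj
        simp
      · have := h j
        simpa [Function.update_of_ne hj] using this
    · rintro ⟨h1, h2⟩ j
      by_cases hj : j = k
      · subst hj
        simpa using h2
      · have := h1 j
        simpa [Function.update_of_ne hj] using this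
  rw [e, Measure.prod_prod, Measure.pi_pi, ← Finset.mul_prod_erase Finset.univ _ (Finset.mem_univ k),
    ← Finset.mul_prod_erase Finset.univ (fun i => μ (s i)) (Finset.mem_univ k)]
  have e2 : ∏ x ∈ Finset.univ.erase k, μ (Function.update s k Set.univ x) =
      ∏ x ∈ Finset.univ.erase k, μ (s x) := by
    refine Finset.prod_congr rfl (fun x hx => ?_)
    rw [Function.update_of_ne (Finset.ne_of_mem_erase hx)]
  rw [e2]
  simp [mul_comm]

end IBPAux

open IBPAux

theorem eb_apply {d : ℕ} (k j : Fin d) : (eb k : E d) j = if j = k then 1 else 0 := by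
  unfold eb
  rw [EuclideanSpace.single, PiLp.single_apply]

theorem norm_eb {d : ℕ} (k : Fin d) : ‖(eb k : E d)‖ = 1 := by
  unfold eb
  simp

theorem inner_eb {d : ℕ} (x : E d) (k : Fin d) : ⟪x, eb k⟫ = x k := by
  rw [PiLp.inner_apply]
  simp [eb_apply]

theorem abs_coord_le {d : ℕ} (x : E d) (k : Fin d) : |x k| ≤ ‖x‖ := by
  rw [← inner_eb]
  refine (abs_real_inner_le_norm _ _).trans ?_
  rw [norm_eb, mul_one]

/-- resampling one coordinate -/
theorem mp_resample {d : ℕ} (k : Fin d) :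
    MeasurePreserving (fun p : E d × ℝ => p.1 + (p.2 - p.1 k) • eb k)
      ((gam d).prod (gaussianReal 0 1)) (gam d) := by
  have hm : Measurable (fun p : E d × ℝ => p.1 + (p.2 - p.1 k) • (eb k : E d)) := by
    fun_prop
  refine ⟨hm, ?_⟩
  have hT : Measurable (WithLp.toLp 2 : (Fin d → ℝ) → E d) := by fun_prop
  have h1 : MeasurePreserving (WithLp.toLp 2 : (Fin d → ℝ) → E d)
      (Measure.pi fun _ => gaussianReal 0 1) (gam d) := ⟨hT, map_pi_eq_stdGaussian⟩
  have h2 := (h1.prod (MeasurePreserving.id (gaussianReal 0 1))).map_eq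
  rw [← h2, Measure.map_map hm (h1.prod (MeasurePreserving.id (gaussianReal 0 1))).measurable]
  have h3 : (fun p : E d × ℝ => p.1 + (p.2 - p.1 k) • (eb k : E d)) ∘
      (Prod.map (WithLp.toLp 2 : (Fin d → ℝ) → E d) id) =
      (WithLp.toLp 2 : (Fin d → ℝ) → E d) ∘
        (fun p : (Fin d → ℝ) × ℝ => Function.update p.1 k p.2) := by
    funext p
    ext j
    simp only [Function.comp, Prod.map, id, PiLp.add_apply, PiLp.smul_apply, eb_apply, smul_eq_mul]
    by_cases hj : j = k
    · subst hj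
      simp
    · simp [hj]
  rw [h3, ← Measure.map_map hT (map_update (gaussianReal 0 1) k).measurable,
    (map_update (gaussianReal 0 1) k).map_eq]
  exact map_pi_eq_stdGaussian

theorem PolyGrowth.integrable {d : ℕ} {F : Type*} [NormedAddCommGroup F] {f : E d → F}
    (h : PolyGrowth f) (hm : AEStronglyMeasurable f (gam d)) : Integrable f (gam d) := by
  obtain ⟨C, p, hC⟩ := h
  refine ((integrable_pow_of_gaussian (gam d) p).const_mul C).mono' hm ?_
  filter_upwards with x
  exact hC x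

theorem PolyGrowth.exists_pos {d : ℕ} {F : Type*} [NormedAddCommGroup F] {f : E d → F}
    (h : PolyGrowth f) : ∃ (C : ℝ) (p : ℕ), 0 ≤ C ∧ ∀ x, ‖f x‖ ≤ C * (1 + ‖x‖) ^ p := by
  obtain ⟨C, p, hC⟩ := h
  refine ⟨|C|, p, abs_nonneg _, fun x => (hC x).trans ?_⟩
  exact mul_le_mul_of_nonneg_right (le_abs_self C) (by positivity)

theorem PolyGrowth.mul {d : ℕ} {f g : E d → ℝ} (hf : PolyGrowth f) (hg : PolyGrowth g) :
    PolyGrowth (fun x => f x * g x) := by
  obtain ⟨C, p, h0, hC⟩ := hf.exists_pos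
  obtain ⟨C', p', h0', hC'⟩ := hg.exists_pos
  refine ⟨C * C', p + p', fun x => ?_⟩
  rw [norm_mul, pow_add]
  calc ‖f x‖ * ‖g x‖ ≤ (C * (1 + ‖x‖) ^ p) * (C' * (1 + ‖x‖) ^ p') :=
        mul_le_mul (hC x) (hC' x) (norm_nonneg _) (by positivity)
    _ = _ := by ring

theorem PolyGrowth.add {d : ℕ} {F : Type*} [NormedAddCommGroup F] {f g : E d → F}
    (hf : PolyGrowth f) (hg : PolyGrowth g) : PolyGrowth (fun x => f x + g x) := by
  obtain ⟨C, p, h0, hC⟩ := hf.exists_pos
  obtain ⟨C', p', h0', hC'⟩ := hg.exists_pos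
  refine ⟨C + C', p + p', fun x => ?_⟩
  have h1 : (1 : ℝ) ≤ 1 + ‖x‖ := by linarith [norm_nonneg x]
  have h2 : (1 + ‖x‖) ^ p ≤ (1 + ‖x‖) ^ (p + p') := pow_le_pow_right₀ h1 (by omega)
  have h3 : (1 + ‖x‖) ^ p' ≤ (1 + ‖x‖) ^ (p + p') := pow_le_pow_right₀ h1 (by omega)
  calc ‖f x + g x‖ ≤ ‖f x‖ + ‖g x‖ := norm_add_le _ _
    _ ≤ C * (1 + ‖x‖) ^ p + C' * (1 + ‖x‖) ^ p' := add_le_add (hC x) (hC' x)
    _ ≤ C * (1 + ‖x‖) ^ (p + p') + C' * (1 + ‖x‖) ^ (p + p') :=
        add_le_add (mul_le_mul_of_nonneg_left h2 h0) (mul_le_mul_of_nonneg_left h3 h0')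
    _ = _ := by ring

theorem PolyGrowth.neg {d : ℕ} {F : Type*} [NormedAddCommGroup F] {f : E d → F}
    (hf : PolyGrowth f) : PolyGrowth (fun x => -f x) := by
  obtain ⟨C, p, hC⟩ := hf
  exact ⟨C, p, fun x => by rw [norm_neg]; exact hC x⟩

theorem PolyGrowth.sub {d : ℕ} {F : Type*} [NormedAddCommGroup F] {f g : E d → F}
    (hf : PolyGrowth f) (hg : PolyGrowth g) : PolyGrowth (fun x => f x - g x) := by
  simpa only [sub_eq_add_neg] using hf.add hg.neg

theorem polyGrowth_of_bdd {d : ℕ} {F : Type*} [NormedAddCommGroup F] {f : E d → F} {C : ℝ}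
    (h : ∀ x, ‖f x‖ ≤ C) : PolyGrowth f := ⟨C, 0, fun x => by simpa using h x⟩

theorem polyGrowth_coord {d : ℕ} (k : Fin d) : PolyGrowth (fun x : E d => x k) :=
  ⟨1, 1, fun x => by
    rw [Real.norm_eq_abs, pow_one, one_mul]
    linarith [abs_coord_le x k]⟩

/-- Integration by parts in one coordinate: only the partial derivative is used. -/
theorem ibp_dir {d : ℕ} (k : Fin d) (F F' : E d → ℝ) (hF : Continuous F) (hF' : Continuous F')
    (bF : PolyGrowth F) (bF' : PolyGrowth F')
    (hd : ∀ x, HasDerivAt (fun t : ℝ => F (x + t • eb k)) (F' x) 0) :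
    ∫ x, x k * F x ∂gam d = ∫ x, F' x ∂gam d := by
  have hmp := mp_resample k
  have hI' : Integrable F' (gam d) := bF'.integrable hF'.aestronglyMeasurable
  have hck : Continuous (fun x : E d => x k) := by fun_prop
  have hI : Integrable (fun x : E d => x k * F x) (gam d) :=
    ((polyGrowth_coord k).mul bF).integrable (hck.mul hF).aestronglyMeasurable
  obtain ⟨C, p, h0, hC⟩ := bF.exists_pos
  obtain ⟨C', p', h0', hC'⟩ := bF'.exists_pos
  have e1 : ∫ x, x k * F x ∂gam d = ∫ q : E d × ℝ, (q.1 + (q.2 - q.1 k) • (eb k : E d)) k *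
      F (q.1 + (q.2 - q.1 k) • eb k) ∂(gam d).prod (gaussianReal 0 1) := by
    rw [← hmp.map_eq, integral_map hmp.measurable.aemeasurable, hmp.map_eq]
    rw [hmp.map_eq]
    exact (hck.mul hF).aestronglyMeasurable
  have e2 : ∫ x, F' x ∂gam d = ∫ q : E d × ℝ, F' (q.1 + (q.2 - q.1 k) • eb k)
      ∂(gam d).prod (gaussianReal 0 1) := by
    rw [← hmp.map_eq, integral_map hmp.measurable.aemeasurable, hmp.map_eq]
    rw [hmp.map_eq]
    exact hF'.aestronglyMeasurable
  have i1 : Integrable (fun q : E d × ℝ => (q.1 + (q.2 - q.1 k) • (eb k : E d)) k *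
      F (q.1 + (q.2 - q.1 k) • eb k)) ((gam d).prod (gaussianReal 0 1)) :=
    hmp.integrable_comp_of_integrable hI
  have i2 : Integrable (fun q : E d × ℝ => F' (q.1 + (q.2 - q.1 k) • eb k))
      ((gam d).prod (gaussianReal 0 1)) := hmp.integrable_comp_of_integrable hI'
  rw [e1, e2, integral_prod _ i1, integral_prod _ i2]
  refine integral_congr_ae ?_
  filter_upwards with x
  have hk : ∀ s : ℝ, (x + (s - x k) • (eb k : E d)) k = s := by
    intro s
    simp [eb_apply]
  simp only [hk]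
  have hcs : Continuous (fun s : ℝ => x + (s - x k) • (eb k : E d)) := by fun_prop
  have bound : ∀ s : ℝ, 1 + ‖x + (s - x k) • (eb k : E d)‖ ≤ (1 + 2 * ‖x‖) * (1 + |s|) := by
    intro s
    have h1 : ‖x + (s - x k) • (eb k : E d)‖ ≤ ‖x‖ + (|s| + ‖x‖) := by
      refine (norm_add_le _ _).trans ?_
      rw [norm_smul, norm_eb, mul_one, Real.norm_eq_abs]
      have := abs_sub s (x k)
      have := abs_coord_le x k
      linarith
    nlinarith [norm_nonneg x, abs_nonneg s, mul_nonneg (norm_nonneg x) (abs_nonneg s)]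
  refine gauss_one (fun s => F (x + (s - x k) • eb k)) (fun s => F' (x + (s - x k) • eb k))
    (hF.comp hcs) (hF'.comp hcs) ⟨C * (1 + 2 * ‖x‖) ^ p, p, fun s => ?_⟩
    ⟨C' * (1 + 2 * ‖x‖) ^ p', p', fun s => ?_⟩ fun s => ?_
  · refine (hC _).trans ?_
    rw [mul_assoc, ← mul_pow]
    exact mul_le_mul_of_nonneg_left (pow_le_pow_left₀ (by positivity) (bound s) p) h0
  · refine (hC' _).trans ?_
    rw [mul_assoc, ← mul_pow]
    exact mul_le_mul_of_nonneg_left (pow_le_pow_left₀ (by positivity) (bound s) p') h0'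
  · have h1 := hd (x + (s - x k) • eb k)
    have h2 : HasDerivAt (fun t : ℝ => t - s) 1 s := (hasDerivAt_id s).sub_const s
    have h3 : HasDerivAt (fun t : ℝ => F (x + (s - x k) • eb k + t • eb k))
        (F' (x + (s - x k) • eb k)) ((fun t : ℝ => t - s) s) := by
      simpa using h1
    have h4 := HasDerivAt.comp (h := fun t : ℝ => t - s) s h3 h2
    rw [mul_one] at h4
    refine h4.congr_of_eventuallyEq ?_
    filter_upwards with t
    simp only [Function.comp]
    congr 1
    rw [add_assoc, ← add_smul]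
    congr 2
    ring

/-- Integration by parts in one coordinate. -/
theorem ibp_coord {d : ℕ} (k : Fin d) (f : E d → ℝ) (hf : ContDiff ℝ 1 f) (h0 : PolyGrowth f)
    (h1 : PolyGrowth (fderiv ℝ f)) :
    ∫ x, x k * f x ∂gam d = ∫ x, fderiv ℝ f x (eb k) ∂gam d := by
  have hc : Continuous (fun x => fderiv ℝ f x (eb k)) :=
    (hf.continuous_fderiv one_ne_zero).clm_apply continuous_const
  refine ibp_dir k f _ hf.continuous hc h0 ?_ fun x => ?_
  · obtain ⟨C, p, hC⟩ := h1
    refine ⟨C, p, fun x => ?_⟩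
    refine (ContinuousLinearMap.le_opNorm _ _).trans ?_
    rw [norm_eb, mul_one]
    exact hC x
  · have h2 : HasFDerivAt f (fderiv ℝ f x) (x + (0 : ℝ) • eb k) := by
      rw [zero_smul, add_zero]
      exact (hf.differentiable one_ne_zero x).hasFDerivAt
    have h3 : HasDerivAt (fun t : ℝ => x + t • (eb k : E d)) (eb k) 0 := by
      have := ((hasDerivAt_id (0 : ℝ)).smul_const (eb k : E d)).const_add x
      simpa using this
    exact h2.comp_hasDerivAt (0 : ℝ) h3

theorem fderiv_coord {d : ℕ} {v : E d → E d} (hv : ContDiff ℝ 1 v) (i : Fin d) (x h : E d) :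
    fderiv ℝ (fun x => v x i) x h = (fderiv ℝ v x h) i := by
  have h1 : HasFDerivAt (fun x => v x i) ((EuclideanSpace.proj i).comp (fderiv ℝ v x)) x :=
    (EuclideanSpace.proj (𝕜 := ℝ) i : E d →L[ℝ] ℝ).hasFDerivAt.comp x
      (hv.differentiable one_ne_zero x).hasFDerivAt
  rw [h1.fderiv]
  rfl

theorem contDiff_coord {d : ℕ} {v : E d → E d} (hv : ContDiff ℝ 1 v) (i : Fin d) :
    ContDiff ℝ 1 (fun x => v x i) :=
  (EuclideanSpace.proj (𝕜 := ℝ) i : E d →L[ℝ] ℝ).contDiff.comp hv

theorem polyGrowth_comp_coord {d : ℕ} {v : E d → E d} (h : PolyGrowth v) (i : Fin d) :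
    PolyGrowth (fun x => v x i) := by
  obtain ⟨C, p, hC⟩ := h
  exact ⟨C, p, fun x => (abs_coord_le (v x) i).trans (hC x)⟩

theorem norm_fderiv_coord_le {d : ℕ} {v : E d → E d} (hv : ContDiff ℝ 1 v) (i : Fin d) (x : E d) :
    ‖fderiv ℝ (fun x => v x i) x‖ ≤ ‖fderiv ℝ v x‖ := by
  refine ContinuousLinearMap.opNorm_le_bound _ (norm_nonneg _) fun h => ?_
  rw [fderiv_coord hv]
  exact (abs_coord_le _ i).trans (ContinuousLinearMap.le_opNorm _ _)

theorem gauss_ibp {d : ℕ} (v : E d → E d) (hv : ContDiff ℝ 1 v) (h0 : PolyGrowth v)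
    (h1 : PolyGrowth (fderiv ℝ v)) :
    ∫ x, ⟪x, v x⟫ ∂gam d = ∫ x, diverg v x ∂gam d := by
  have hg : ∀ i, PolyGrowth (fderiv ℝ (fun x => v x i)) := by
    intro i
    obtain ⟨C, p, hC⟩ := h1
    exact ⟨C, p, fun x => (norm_fderiv_coord_le hv i x).trans (hC x)⟩
  have e1 : ∀ x, ⟪x, v x⟫ = ∑ i, x i * v x i := by
    intro x
    rw [PiLp.inner_apply]
    refine Finset.sum_congr rfl fun i _ => ?_
    simp [mul_comm]
  have e2 : ∀ x, diverg v x = ∑ i, fderiv ℝ (fun x => v x i) x (eb i) := by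
    intro x
    unfold diverg
    refine Finset.sum_congr rfl fun i _ => ?_
    rw [inner_eb, fderiv_coord hv]
  simp only [e1, e2]
  rw [integral_finsetSum, integral_finsetSum]
  · refine Finset.sum_congr rfl fun i _ => ?_
    exact ibp_coord i _ (contDiff_coord hv i) (polyGrowth_comp_coord h0 i) (hg i)
  · intro i _
    refine PolyGrowth.integrable ?_ ?_
    · obtain ⟨C, p, hC⟩ := hg i
      refine ⟨C, p, fun x => ?_⟩
      refine (ContinuousLinearMap.le_opNorm _ _).trans ?_
      rw [norm_eb, mul_one]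
      exact hC x
    · exact (((contDiff_coord hv i).continuous_fderiv one_ne_zero).clm_apply
        continuous_const).aestronglyMeasurable
  · intro i _
    refine PolyGrowth.integrable ((polyGrowth_coord i).mul (polyGrowth_comp_coord h0 i)) ?_
    have : Continuous (fun x : E d => x i) := by fun_prop
    exact (this.mul (contDiff_coord hv i).continuous).aestronglyMeasurable

end Vale.Agent.P347
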