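import Vale.Agent.P347.GP
import Vale.Agent.P347.IBP
import Vale.Agent.P347.DefsB

/-!
# P347, B2: comparison of two randomised one-step maps
-/

open MeasureTheory ProbabilityTheory
open scoped ENNReal NNReal RealInnerProductSpace

namespace Vale.Agent.P347

namespace CmpAux

/-- Cauchy-Schwarz -/
theorem cs {Ω : Type*} [MeasurableSpace Ω] {μ : Measure Ω} {k : ℕ} {X Y : Ω → E k}
    (hX : MemLp X 2 μ) (hY : MemLp Y 2 μ) {A B : ℝ} (hA : ∫ ω, ‖X ω‖ ^ 2 ∂μ ≤ A ^ 2)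
    (hB : ∫ ω, ‖Y ω‖ ^ 2 ∂μ ≤ B ^ 2) (hA0 : 0 ≤ A) (hB0 : 0 ≤ B) :
    |∫ ω, ⟪X ω, Y ω⟫ ∂μ| ≤ A * B := by
  have h1 : |∫ ω, ⟪X ω, Y ω⟫ ∂μ| ≤ ∫ ω, ‖X ω‖ * ‖Y ω‖ ∂μ := by
    have := norm_integral_le_integral_norm (μ := μ) (fun ω => ⟪X ω, Y ω⟫)
    refine this.trans ?_
    refine integral_mono_of_nonneg (Filter.Eventually.of_forall fun _ => norm_nonneg _) ?_
      (Filter.Eventually.of_forall fun ω => norm_inner_le_norm (𝕜 := ℝ) (X ω) (Y ω))
    exact hX.norm.integrable_mul hY.norm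
  have h2 := integral_mul_norm_le_Lp_mul_Lq (μ := μ) (p := 2) (q := 2)
    (Real.HolderConjugate.two_two) (f := X) (g := Y) (by simpa using hX) (by simpa using hY)
  refine h1.trans (h2.trans ?_)
  have e : ∀ (Z : Ω → E k) {C : ℝ}, 0 ≤ C → ∫ ω, ‖Z ω‖ ^ 2 ∂μ ≤ C ^ 2 →
      (∫ ω, ‖Z ω‖ ^ (2 : ℝ) ∂μ) ^ (1 / (2 : ℝ)) ≤ C := by
    intro Z C hC h
    have h3 : (∫ ω, ‖Z ω‖ ^ (2 : ℝ) ∂μ) = ∫ ω, ‖Z ω‖ ^ 2 ∂μ := by
      refine integral_congr_ae (Filter.Eventually.of_forall fun ω => ?_)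
      simp
    rw [h3, ← Real.sqrt_eq_rpow]
    exact Real.sqrt_le_iff.2 ⟨hC, h⟩
  exact mul_le_mul (e X hA0 hA) (e Y hB0 hB) (by positivity) hA0

variable {d k : ℕ} {κ : Type} [Fintype κ]

theorem partial_hasFDerivAt {F : E d → (κ → E d) → E k}
    (hF : ContDiff ℝ 1 (fun q : E d × (κ → E d) => F q.1 q.2)) (U : E d) (ω : κ → E d) :
    HasFDerivAt (fun U => F U ω) ((fderiv ℝ (fun q : E d × (κ → E d) => F q.1 q.2) (U, ω)).comp
      (ContinuousLinearMap.inl ℝ (E d) (κ → E d))) U := by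
  have h1 := (hF.differentiable one_ne_zero (U, ω)).hasFDerivAt
  exact HasFDerivAt.comp (f := fun e : E d => (e, ω)) U h1 (hasFDerivAt_prodMk_left U ω)

theorem partial_continuous {F : E d → (κ → E d) → E k}
    (hF : ContDiff ℝ 1 (fun q : E d × (κ → E d) => F q.1 q.2)) :
    Continuous (fun q : E d × (κ → E d) =>
      (fderiv ℝ (fun q : E d × (κ → E d) => F q.1 q.2) q).comp
      (ContinuousLinearMap.inl ℝ (E d) (κ → E d))) :=
  (hF.continuous_fderiv one_ne_zero).clm_comp continuous_const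

theorem partial_norm_le {F : E d → (κ → E d) → E k}
    (hF : ContDiff ℝ 1 (fun q : E d × (κ → E d) => F q.1 q.2)) {c : ℝ} (hc : 0 ≤ c)
    (hU : ∀ U U' ω, ‖F U ω - F U' ω‖ ≤ c * ‖U - U'‖) (U : E d) (ω : κ → E d) :
    ‖(fderiv ℝ (fun q : E d × (κ → E d) => F q.1 q.2) (U, ω)).comp
      (ContinuousLinearMap.inl ℝ (E d) (κ → E d))‖ ≤ c :=
  (partial_hasFDerivAt hF U ω).le_of_lip' hc (Filter.Eventually.of_forall fun U' => hU U' U ω)

/-- derivative of a parameter integral -/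
theorem param_hasFDerivAt {F : E d → (κ → E d) → E k}
    (hF : ContDiff ℝ 1 (fun q : E d × (κ → E d) => F q.1 q.2)) {c : ℝ} (hc : 0 ≤ c)
    (hU : ∀ U U' ω, ‖F U ω - F U' ω‖ ≤ c * ‖U - U'‖)
    (hi : ∀ U, Integrable (F U) (gamPi d κ)) (U : E d) :
    HasFDerivAt (fun U => ∫ ω, F U ω ∂gamPi d κ)
      (∫ ω, (fderiv ℝ (fun q : E d × (κ → E d) => F q.1 q.2) (U, ω)).comp
      (ContinuousLinearMap.inl ℝ (E d) (κ → E d)) ∂gamPi d κ) U := by
  refine hasFDerivAt_integral_of_dominated_of_fderiv_le (𝕜 := ℝ) (s := Set.univ)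
    (bound := fun _ => c) (F := fun U ω => F U ω)
    (F' := fun U ω => (fderiv ℝ (fun q : E d × (κ → E d) => F q.1 q.2) (U, ω)).comp
      (ContinuousLinearMap.inl ℝ (E d) (κ → E d))) Filter.univ_mem ?_ (hi U) ?_ ?_ ?_ ?_
  · exact Filter.Eventually.of_forall fun U => (hi U).aestronglyMeasurable
  · exact ((partial_continuous hF).comp (by fun_prop : Continuous fun ω : κ → E d =>
      (U, ω))).aestronglyMeasurable
  · exact Filter.Eventually.of_forall fun ω U _ => partial_norm_le hF hc hU U ω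
  · exact integrable_const c
  · exact Filter.Eventually.of_forall fun ω U _ => partial_hasFDerivAt hF U ω

theorem param_contDiff {F : E d → (κ → E d) → E k}
    (hF : ContDiff ℝ 1 (fun q : E d × (κ → E d) => F q.1 q.2)) {c : ℝ} (hc : 0 ≤ c)
    (hU : ∀ U U' ω, ‖F U ω - F U' ω‖ ≤ c * ‖U - U'‖)
    (hi : ∀ U, Integrable (F U) (gamPi d κ)) :
    ContDiff ℝ 1 (fun U => ∫ ω, F U ω ∂gamPi d κ) := by
  rw [contDiff_one_iff_fderiv]
  refine ⟨fun U => (param_hasFDerivAt hF hc hU hi U).differentiableAt, ?_⟩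
  have e : fderiv ℝ (fun U => ∫ ω, F U ω ∂gamPi d κ) = fun U =>
      ∫ ω, (fderiv ℝ (fun q : E d × (κ → E d) => F q.1 q.2) (U, ω)).comp
      (ContinuousLinearMap.inl ℝ (E d) (κ → E d)) ∂gamPi d κ := by
    funext U
    exact (param_hasFDerivAt hF hc hU hi U).fderiv
  rw [e]
  refine continuous_of_dominated (bound := fun _ => c) ?_ ?_ (integrable_const c) ?_
  · intro U
    exact ((partial_continuous hF).comp (by fun_prop : Continuous fun ω : κ → E d =>
      (U, ω))).aestronglyMeasurable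
  · intro U
    exact Filter.Eventually.of_forall fun ω => partial_norm_le hF hc hU U ω
  · exact Filter.Eventually.of_forall fun ω =>
      (partial_continuous hF).comp (by fun_prop : Continuous fun U : E d => (U, ω))

theorem param_lip {F : E d → (κ → E d) → E k} {c : ℝ}
    (hU : ∀ U U' ω, ‖F U ω - F U' ω‖ ≤ c * ‖U - U'‖)
    (hi : ∀ U, Integrable (F U) (gamPi d κ)) (U U' : E d) :
    ‖∫ ω, F U ω ∂gamPi d κ - ∫ ω, F U' ω ∂gamPi d κ‖ ≤ c * ‖U - U'‖ := by
  rw [← integral_sub (hi U) (hi U')]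
  have := norm_integral_le_of_norm_le_const (μ := gamPi d κ)
    (Filter.Eventually.of_forall fun ω => hU U U' ω)
  simpa using this

theorem int_inner {Ω : Type*} [MeasurableSpace Ω] {μ : Measure Ω} {X Y : Ω → E k}
    (hX : MemLp X 2 μ) (hY : MemLp Y 2 μ) : Integrable (fun ω => ⟪X ω, Y ω⟫) μ := by
  refine (hX.norm.integrable_mul hY.norm).mono'
    (hX.aestronglyMeasurable.inner hY.aestronglyMeasurable)
    (Filter.Eventually.of_forall fun ω => ?_)
  exact norm_inner_le_norm (𝕜 := ℝ) (X ω) (Y ω)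

theorem grad_hasFDerivAt {g : E d → ℝ} (hg : ContDiff ℝ 2 g) (x : E d) :
    HasFDerivAt g (innerSL ℝ (gradient g x)) x := by
  have h := (hg.differentiable (by norm_num) x).hasGradientAt.hasFDerivAt
  refine h.congr_fderiv ?_
  ext v
  rfl

theorem grad_contDiff {g : E d → ℝ} (hg : ContDiff ℝ 2 g) : ContDiff ℝ 1 (gradient g) := by
  unfold gradient
  exact (LinearIsometryEquiv.contDiff _).comp (hg.fderiv_right (m := 1) (by norm_num))

/-- comparison with the mean at a fixed starting point -/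
theorem part1 {g : E d → ℝ} (hg : ContDiff ℝ 2 g) {g1 g2 : ℝ} (hg1 : ∀ x, ‖gradient g x‖ ≤ g1)
    (hg2 : ∀ x, hs2 (fderiv ℝ (gradient g) x) ≤ g2 ^ 2) (h2 : 0 ≤ g2) (G : E d)
    {f : (κ → E d) → E d} (hf : ContDiff ℝ 1 f)
    (hfω : ∀ ω ω', ‖f ω - f ω'‖ ^ 2 ≤ 4 ^ 2 * sq2 (ω - ω')) {ε : ℝ} (hε0 : 0 ≤ ε) :
    |∫ ω, g (G - ε • f ω) ∂gamPi d κ - g (G - ε • ∫ ω, f ω ∂gamPi d κ)| ≤
      32 * ε ^ 2 * Real.sqrt d * g2 := by
  classical
  set m := ∫ ω, f ω ∂gamPi d κ with hm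
  have hfL : MemLp f 2 (gamPi d κ) := GPAux.memLp_lip f hf.continuous hfω
  have hfi : Integrable f (gamPi d κ) := hfL.integrable (by norm_num)
  have hgr : ContDiff ℝ 1 (gradient g) := grad_contDiff hg
  have hgd : ∀ x, HasFDerivAt g (innerSL ℝ (gradient g x)) x := fun x => grad_hasFDerivAt hg x
  set Ψ : ℝ → (κ → E d) → E d := fun t ω => G - ε • m - (t * ε) • (f ω - m) with hΨ
  have hΨd : ∀ ω t, HasDerivAt (fun t => Ψ t ω) (-(ε • (f ω - m))) t := by
    intro ω t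
    have h1 : HasDerivAt (fun t : ℝ => (t * ε) • (f ω - m)) (ε • (f ω - m)) t := by
      have := ((hasDerivAt_id t).mul_const ε).smul_const (f ω - m)
      simpa using this
    exact h1.const_sub _
  have hΨc : ∀ t, Continuous (Ψ t) := fun t => by
    have := hf.continuous
    fun_prop
  have hgl : ∀ x y, |g x - g y| ≤ g1 * ‖x - y‖ := by
    intro x y
    have h := Convex.norm_image_sub_le_of_norm_fderiv_le (𝕜 := ℝ) (f := g) (C := g1)
      (s := Set.univ) (x := y) (y := x)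
      (fun z _ => hg.differentiable (by norm_num) z) (fun z _ => ?_) convex_univ
      (Set.mem_univ _) (Set.mem_univ _)
    · exact h
    · rw [(hgd z).fderiv, innerSL_apply_norm]
      exact hg1 z
  have hgi : ∀ t, Integrable (fun ω => g (Ψ t ω)) (gamPi d κ) := by
    intro t
    have h3 : Integrable (fun ω => |g (G - ε • m)| + g1 * ‖(t * ε) • (f ω - m)‖) (gamPi d κ) := by
      refine (integrable_const _).add (Integrable.const_mul ?_ _)
      exact ((hfi.sub (integrable_const m)).smul (t * ε)).norm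
    refine h3.mono' (hg.continuous.comp (hΨc t)).aestronglyMeasurable
      (Filter.Eventually.of_forall fun ω => ?_)
    have h4 := hgl (Ψ t ω) (G - ε • m)
    have h5 : Ψ t ω - (G - ε • m) = -((t * ε) • (f ω - m)) := by
      rw [hΨ]
      simp
    rw [h5, norm_neg] at h4
    rw [Real.norm_eq_abs]
    have h6 := abs_sub_abs_le_abs_sub (g (Ψ t ω)) (g (G - ε • m))
    linarith
  have hder : ∀ t, HasDerivAt (fun t => ∫ ω, g (Ψ t ω) ∂gamPi d κ)
      (∫ ω, ⟪gradient g (Ψ t ω), -(ε • (f ω - m))⟫ ∂gamPi d κ) t := by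
    intro t
    have h := hasDerivAt_integral_of_dominated_loc_of_deriv_le (𝕜 := ℝ) (μ := gamPi d κ)
      (F := fun t ω => g (Ψ t ω)) (F' := fun t ω => ⟪gradient g (Ψ t ω), -(ε • (f ω - m))⟫)
      (x₀ := t) (s := Set.univ) (bound := fun ω => g1 * ‖-(ε • (f ω - m))‖)
      Filter.univ_mem (Filter.Eventually.of_forall fun t => (hgi t).aestronglyMeasurable) (hgi t)
      ?_ ?_ ?_ ?_
    · exact h.2
    · exact ((hgr.continuous.comp (hΨc t)).inner (by
        have := hf.continuous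
        fun_prop)).aestronglyMeasurable
    · refine Filter.Eventually.of_forall fun ω t _ => ?_
      refine (norm_inner_le_norm (𝕜 := ℝ) _ _).trans ?_
      exact mul_le_mul_of_nonneg_right (hg1 _) (norm_nonneg _)
    · exact (((hfi.sub (integrable_const m)).smul ε).neg.norm).const_mul g1
    · refine Filter.Eventually.of_forall fun ω t _ => ?_
      exact (hgd (Ψ t ω)).comp_hasDerivAt t (hΨd ω t)
  have hbound : ∀ t, 0 ≤ t → t ≤ 1 → |∫ ω, ⟪gradient g (Ψ t ω), -(ε • (f ω - m))⟫ ∂gamPi d κ| ≤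
      32 * ε ^ 2 * Real.sqrt d * g2 := by
    intro t ht0 ht1
    have hΨ1 : ContDiff ℝ 1 (Ψ t) := by
      rw [hΨ]
      fun_prop
    have hΨl : ∀ ω ω', ‖Ψ t ω - Ψ t ω'‖ ^ 2 ≤ (4 * ε) ^ 2 * sq2 (ω - ω') := by
      intro ω ω'
      have e1 : Ψ t ω - Ψ t ω' = -((t * ε) • (f ω - f ω')) := by
        rw [hΨ]
        simp only
        module
      rw [e1, norm_neg, norm_smul, mul_pow, Real.norm_eq_abs, sq_abs]
      have h3 := hfω ω ω'
      have h4 : (t * ε) ^ 2 ≤ ε ^ 2 := by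
        rw [mul_pow]
        have : t ^ 2 ≤ 1 := pow_le_one₀ ht0 ht1
        nlinarith [sq_nonneg ε]
      calc (t * ε) ^ 2 * ‖f ω - f ω'‖ ^ 2 ≤ ε ^ 2 * (4 ^ 2 * sq2 (ω - ω')) :=
            mul_le_mul h4 h3 (sq_nonneg _) (sq_nonneg _)
        _ = _ := by ring
    have p1 := poincare_comp (gradient g) (Ψ t) hgr hΨ1 hg2 hΨl
    have p2 := poincare_lip f hf hfω
    rw [← hm] at p2
    set c := ∫ ω, gradient g (Ψ t ω) ∂gamPi d κ with hc
    have hXb : MemLp (fun ω => gradient g (Ψ t ω)) 2 (gamPi d κ) := by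
      refine MemLp.of_bound (hgr.continuous.comp (hΨc t)).aestronglyMeasurable g1
        (Filter.Eventually.of_forall fun ω => hg1 _)
    have hX : MemLp (fun ω => gradient g (Ψ t ω) - c) 2 (gamPi d κ) := hXb.sub (memLp_const c)
    have hY : MemLp (fun ω => f ω - m) 2 (gamPi d κ) := hfL.sub (memLp_const m)
    have hsd : 0 ≤ Real.sqrt d := Real.sqrt_nonneg _
    have hsq2 : (0 : ℝ) ≤ Real.sqrt 2 := Real.sqrt_nonneg _
    have h22 : Real.sqrt 2 * Real.sqrt 2 = 2 := Real.mul_self_sqrt (by norm_num)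
    have hcs := cs hX hY (A := Real.sqrt 2 * (4 * ε * g2)) (B := Real.sqrt 2 * Real.sqrt d * 4)
      (by
        refine p1.trans (le_of_eq ?_)
        have : (Real.sqrt 2 * (4 * ε * g2)) ^ 2 =
            (Real.sqrt 2 * Real.sqrt 2) * (4 * ε * g2) ^ 2 := by ring
        rw [this, h22])
      (by
        refine p2.trans (le_of_eq ?_)
        rw [mul_pow, mul_pow, Real.sq_sqrt (by norm_num), Real.sq_sqrt (Nat.cast_nonneg d)])
      (by positivity) (by positivity)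
    have hiX : Integrable (fun ω => ⟪gradient g (Ψ t ω), f ω - m⟫) (gamPi d κ) :=
      int_inner hXb hY
    have hic : Integrable (fun ω => ⟪c, f ω - m⟫) (gamPi d κ) :=
      int_inner (memLp_const c) hY
    have e1 : ∫ ω, ⟪gradient g (Ψ t ω), -(ε • (f ω - m))⟫ ∂gamPi d κ =
        -(ε * ∫ ω, ⟪gradient g (Ψ t ω) - c, f ω - m⟫ ∂gamPi d κ) := by
      have h6 : ∫ ω, ⟪c, f ω - m⟫ ∂gamPi d κ = 0 := by
        have h8 : Integrable (fun ω => f ω - m) (gamPi d κ) := hfi.sub (integrable_const m)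
        rw [integral_inner h8 c, integral_sub hfi (integrable_const m), ← hm]
        simp
      have h7 : ∫ ω, ⟪gradient g (Ψ t ω) - c, f ω - m⟫ ∂gamPi d κ =
          ∫ ω, ⟪gradient g (Ψ t ω), f ω - m⟫ ∂gamPi d κ := by
        simp only [inner_sub_left]
        rw [integral_sub hiX hic, h6, sub_zero]
      rw [h7, ← integral_const_mul, ← integral_neg]
      refine integral_congr_ae (Filter.Eventually.of_forall fun ω => ?_)
      simp only
      rw [inner_neg_right, inner_smul_right]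
    rw [e1, abs_neg, abs_mul, abs_of_nonneg hε0]
    calc ε * |∫ ω, ⟪gradient g (Ψ t ω) - c, f ω - m⟫ ∂gamPi d κ|
        ≤ ε * (Real.sqrt 2 * (4 * ε * g2) * (Real.sqrt 2 * Real.sqrt d * 4)) :=
          mul_le_mul_of_nonneg_left hcs hε0
      _ = (Real.sqrt 2 * Real.sqrt 2) * (16 * ε ^ 2 * Real.sqrt d * g2) := by ring
      _ = 32 * ε ^ 2 * Real.sqrt d * g2 := by
          rw [h22]
          ring
  have hfin := norm_image_sub_le_of_norm_deriv_le_segment_01'
    (f := fun t => ∫ ω, g (Ψ t ω) ∂gamPi d κ)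
    (f' := fun t => ∫ ω, ⟪gradient g (Ψ t ω), -(ε • (f ω - m))⟫ ∂gamPi d κ)
    (C := 32 * ε ^ 2 * Real.sqrt d * g2) (fun t _ => (hder t).hasDerivWithinAt)
    (fun t ht => hbound t ht.1 ht.2.le)
  have e1 : ∀ ω, Ψ 1 ω = G - ε • f ω := by
    intro ω
    rw [hΨ]
    simp only
    module
  have e0 : ∀ ω, Ψ 0 ω = G - ε • m := by
    intro ω
    rw [hΨ]
    simp
  simp only [e1, e0] at hfin
  simpa using hfin

theorem dual_norm_sq (l : E d →L[ℝ] ℝ) : ∑ i, (l (eb i)) ^ 2 = ‖l‖ ^ 2 := by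
  rw [(EuclideanSpace.basisFun (Fin d) ℝ).norm_dual l]
  refine Finset.sum_congr rfl fun i _ => ?_
  simp [eb]

theorem hs2_comp_le {k : ℕ} (T : E d →L[ℝ] E k) (A : E d →L[ℝ] E d) :
    hs2 (T.comp A) ≤ ‖A‖ ^ 2 * hs2 T := by
  rw [GPAux.hs2_eq, GPAux.hs2_eq, Finset.mul_sum]
  refine Finset.sum_le_sum fun j _ => ?_
  set l : E d →L[ℝ] ℝ := (EuclideanSpace.proj (𝕜 := ℝ) j : E k →L[ℝ] ℝ).comp T with hl
  have h1 : ∀ x, l x = T x j := fun x => rfl
  have h2 : ∀ x, (l.comp A) x = (T.comp A) x j := fun x => rfl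
  simp only [← h1, ← h2]
  rw [dual_norm_sq, dual_norm_sq, ← mul_pow]
  refine pow_le_pow_left₀ (norm_nonneg _) ?_ 2
  rw [mul_comm]
  exact ContinuousLinearMap.opNorm_comp_le _ _

theorem fderiv_le_of_lip {f : E d → E k} {c : ℝ} (hc : 0 ≤ c)
    (h : ∀ x y, ‖f x - f y‖ ≤ c * ‖x - y‖) (x : E d) : ‖fderiv ℝ f x‖ ≤ c :=
  _root_.norm_fderiv_le_of_lip' ℝ hc (Filter.Eventually.of_forall fun y => h y x)

theorem growth_lip {f : E d → E k} {c : ℝ} (hc : 0 ≤ c)
    (h : ∀ x y, ‖f x - f y‖ ≤ c * ‖x - y‖) : PolyGrowth f := by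
  refine ⟨‖f 0‖ + c, 1, fun x => ?_⟩
  have h1 := h x 0
  rw [sub_zero] at h1
  have h2 : ‖f x‖ ≤ ‖f x - f 0‖ + ‖f 0‖ := by
    have := norm_add_le (f x - f 0) (f 0)
    simpa using this
  rw [pow_one]
  nlinarith [norm_nonneg x, norm_nonneg (f 0)]

/-- interpolation between the means -/
theorem part2 {g : E d → ℝ} (hg : ContDiff ℝ 2 g) {g1 g2 : ℝ} (hg1 : ∀ x, ‖gradient g x‖ ≤ g1)
    (hg2 : ∀ x, hs2 (fderiv ℝ (gradient g) x) ≤ g2 ^ 2)
    {m m' : E d → E d} (hm : ContDiff ℝ 1 m) (hm' : ContDiff ℝ 1 m')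
    (hml : ∀ U U', ‖m U - m U'‖ ≤ 4 * ‖U - U'‖) (hml' : ∀ U U', ‖m' U - m' U'‖ ≤ 4 * ‖U - U'‖)
    {ε S : ℝ} (hε0 : 0 ≤ ε) (hε1 : ε ≤ 1 / 8)
    (hS : ∀ φ : E d → E d, ContDiff ℝ 1 φ → (∀ x, ‖φ x‖ ≤ g1) →
      (∀ x, hs2 (fderiv ℝ φ x) ≤ (2 * g2) ^ 2) →
      |∫ G, ⟪φ G, m G⟫ ∂gam d - ∫ G, ⟪φ G, m' G⟫ ∂gam d| ≤ S) :
    |∫ G, g (G - ε • m G) ∂gam d - ∫ G, g (G - ε • m' G) ∂gam d| ≤ ε * S := by
  have hgr : ContDiff ℝ 1 (gradient g) := grad_contDiff hg
  have hgd : ∀ x, HasFDerivAt g (innerSL ℝ (gradient g x)) x := fun x => grad_hasFDerivAt hg x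
  have hg10 : 0 ≤ g1 := (norm_nonneg _).trans (hg1 0)
  have hgl : ∀ x y, |g x - g y| ≤ g1 * ‖x - y‖ := by
    intro x y
    have h := Convex.norm_image_sub_le_of_norm_fderiv_le (𝕜 := ℝ) (f := g) (C := g1)
      (s := Set.univ) (x := y) (y := x)
      (fun z _ => hg.differentiable (by norm_num) z) (fun z _ => ?_) convex_univ
      (Set.mem_univ _) (Set.mem_univ _)
    · exact h
    · rw [(hgd z).fderiv, innerSL_apply_norm]
      exact hg1 z
  set Ψ : ℝ → E d → E d := fun t G => G - ε • m' G - (t * ε) • (m G - m' G) with hΨ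
  have hΨd : ∀ G t, HasDerivAt (fun t => Ψ t G) (-(ε • (m G - m' G))) t := by
    intro G t
    have h1 : HasDerivAt (fun t : ℝ => (t * ε) • (m G - m' G)) (ε • (m G - m' G)) t := by
      have := ((hasDerivAt_id t).mul_const ε).smul_const (m G - m' G)
      simpa using this
    exact h1.const_sub _
  have hΨ1 : ∀ t, ContDiff ℝ 1 (Ψ t) := fun t => by
    rw [hΨ]
    fun_prop
  have hΨc : ∀ t, Continuous (Ψ t) := fun t => (hΨ1 t).continuous
  have hmi : Integrable m (gam d) :=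
    (growth_lip (by norm_num) hml).integrable hm.continuous.aestronglyMeasurable
  have hmi' : Integrable m' (gam d) :=
    (growth_lip (by norm_num) hml').integrable hm'.continuous.aestronglyMeasurable
  have hΨi : ∀ t, Integrable (Ψ t) (gam d) := by
    intro t
    have h1 : Integrable (fun x : E d => x) (gam d) := IsGaussian.integrable_id
    exact (h1.sub (hmi'.smul ε)).sub ((hmi.sub hmi').smul (t * ε))
  have hgi : ∀ t, Integrable (fun G => g (Ψ t G)) (gam d) := by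
    intro t
    have h3 : Integrable (fun G => |g 0| + g1 * ‖Ψ t G‖) (gam d) :=
      (integrable_const _).add ((hΨi t).norm.const_mul _)
    refine h3.mono' (hg.continuous.comp (hΨc t)).aestronglyMeasurable
      (Filter.Eventually.of_forall fun ω => ?_)
    have h4 := hgl (Ψ t ω) 0
    rw [sub_zero] at h4
    rw [Real.norm_eq_abs]
    have h6 := abs_sub_abs_le_abs_sub (g (Ψ t ω)) (g 0)
    linarith
  have hder : ∀ t, HasDerivAt (fun t => ∫ G, g (Ψ t G) ∂gam d)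
      (∫ G, ⟪gradient g (Ψ t G), -(ε • (m G - m' G))⟫ ∂gam d) t := by
    intro t
    have h := hasDerivAt_integral_of_dominated_loc_of_deriv_le (𝕜 := ℝ) (μ := gam d)
      (F := fun t G => g (Ψ t G)) (F' := fun t G => ⟪gradient g (Ψ t G), -(ε • (m G - m' G))⟫)
      (x₀ := t) (s := Set.univ) (bound := fun G => g1 * ‖-(ε • (m G - m' G))‖)
      Filter.univ_mem (Filter.Eventually.of_forall fun t => (hgi t).aestronglyMeasurable) (hgi t)
      ?_ ?_ ?_ ?_
    · exact h.2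
    · exact ((hgr.continuous.comp (hΨc t)).inner (by
        have := hm.continuous
        have := hm'.continuous
        fun_prop)).aestronglyMeasurable
    · refine Filter.Eventually.of_forall fun ω t _ => ?_
      refine (norm_inner_le_norm (𝕜 := ℝ) _ _).trans ?_
      exact mul_le_mul_of_nonneg_right (hg1 _) (norm_nonneg _)
    · exact (((hmi.sub hmi').smul ε).neg.norm).const_mul g1
    · refine Filter.Eventually.of_forall fun ω t _ => ?_
      exact (hgd (Ψ t ω)).comp_hasDerivAt t (hΨd ω t)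
  have hbound : ∀ t, 0 ≤ t → t ≤ 1 →
      |∫ G, ⟪gradient g (Ψ t G), -(ε • (m G - m' G))⟫ ∂gam d| ≤ ε * S := by
    intro t ht0 ht1
    have hφ : ContDiff ℝ 1 (fun G => gradient g (Ψ t G)) := hgr.comp (hΨ1 t)
    have hΨl : ∀ U U', ‖Ψ t U - Ψ t U'‖ ≤ (3 / 2) * ‖U - U'‖ := by
      intro U U'
      have e1 : Ψ t U - Ψ t U' = (U - U') - (((1 - t) * ε) • (m' U - m' U') +
          (t * ε) • (m U - m U')) := by
        rw [hΨ]
        simp only
        module
      have h3 : ‖((1 - t) * ε) • (m' U - m' U')‖ ≤ ((1 - t) * ε) * (4 * ‖U - U'‖) := by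
        rw [norm_smul, Real.norm_eq_abs, abs_of_nonneg (mul_nonneg (by linarith) hε0)]
        exact mul_le_mul_of_nonneg_left (hml' U U') (mul_nonneg (by linarith) hε0)
      have h4 : ‖(t * ε) • (m U - m U')‖ ≤ (t * ε) * (4 * ‖U - U'‖) := by
        rw [norm_smul, Real.norm_eq_abs, abs_of_nonneg (mul_nonneg ht0 hε0)]
        exact mul_le_mul_of_nonneg_left (hml U U') (mul_nonneg ht0 hε0)
      rw [e1]
      refine (norm_sub_le _ _).trans ?_
      have h5 := norm_add_le (((1 - t) * ε) • (m' U - m' U')) ((t * ε) • (m U - m U'))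
      have h6 : 0 ≤ ‖U - U'‖ := norm_nonneg _
      have h7 : ε * ‖U - U'‖ ≤ 1 / 8 * ‖U - U'‖ := mul_le_mul_of_nonneg_right hε1 h6
      have h8 : ((1 - t) * ε) * (4 * ‖U - U'‖) + (t * ε) * (4 * ‖U - U'‖) =
          4 * (ε * ‖U - U'‖) := by ring
      linarith
    have hhs : ∀ x, hs2 (fderiv ℝ (fun G => gradient g (Ψ t G)) x) ≤ (2 * g2) ^ 2 := by
      intro x
      have h9 : fderiv ℝ (fun G => gradient g (Ψ t G)) x =
          (fderiv ℝ (gradient g) (Ψ t x)).comp (fderiv ℝ (Ψ t) x) := by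
        have h10 := (hgr.differentiable one_ne_zero (Ψ t x)).hasFDerivAt
        have h11 := ((hΨ1 t).differentiable one_ne_zero x).hasFDerivAt
        exact (h10.comp x h11).fderiv
      rw [h9]
      refine (hs2_comp_le _ _).trans ?_
      have h12 := fderiv_le_of_lip (by norm_num : (0 : ℝ) ≤ 3 / 2) hΨl x
      have h13 : ‖fderiv ℝ (Ψ t) x‖ ^ 2 ≤ (3 / 2) ^ 2 := pow_le_pow_left₀ (norm_nonneg _) h12 2
      calc ‖fderiv ℝ (Ψ t) x‖ ^ 2 * hs2 (fderiv ℝ (gradient g) (Ψ t x))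
          ≤ (3 / 2) ^ 2 * g2 ^ 2 :=
            mul_le_mul h13 (hg2 _) (GPAux.hs2_nonneg _) (by norm_num)
        _ ≤ (2 * g2) ^ 2 := by nlinarith [sq_nonneg g2]
    have hSS := hS _ hφ (fun x => hg1 _) hhs
    have hb : MemLp (fun G => gradient g (Ψ t G)) 2 (gam d) :=
      MemLp.of_bound (hgr.continuous.comp (hΨc t)).aestronglyMeasurable g1
        (Filter.Eventually.of_forall fun ω => hg1 _)
    have hin : ∀ {q : E d → E d}, Integrable q (gam d) → Continuous q →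
        Integrable (fun G => ⟪gradient g (Ψ t G), q G⟫) (gam d) := by
      intro q hq hqc
      refine (hq.norm.const_mul g1).mono'
        ((hgr.continuous.comp (hΨc t)).inner hqc).aestronglyMeasurable
        (Filter.Eventually.of_forall fun ω => ?_)
      refine (norm_inner_le_norm (𝕜 := ℝ) _ _).trans ?_
      exact mul_le_mul_of_nonneg_right (hg1 _) (norm_nonneg _)
    have e2 : ∫ G, ⟪gradient g (Ψ t G), -(ε • (m G - m' G))⟫ ∂gam d =
        -(ε * (∫ G, ⟪gradient g (Ψ t G), m G⟫ ∂gam d - ∫ G, ⟪gradient g (Ψ t G), m' G⟫ ∂gam d)) := by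
      rw [← integral_sub (hin hmi hm.continuous) (hin hmi' hm'.continuous), ← integral_const_mul,
        ← integral_neg]
      refine integral_congr_ae (Filter.Eventually.of_forall fun ω => ?_)
      simp only
      rw [inner_neg_right, inner_smul_right, inner_sub_right]
    rw [e2, abs_neg, abs_mul, abs_of_nonneg hε0]
    exact mul_le_mul_of_nonneg_left hSS hε0
  have hfin := norm_image_sub_le_of_norm_deriv_le_segment_01'
    (f := fun t => ∫ G, g (Ψ t G) ∂gam d)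
    (f' := fun t => ∫ G, ⟪gradient g (Ψ t G), -(ε • (m G - m' G))⟫ ∂gam d)
    (C := ε * S) (fun t _ => (hder t).hasDerivWithinAt)
    (fun t ht => hbound t ht.1 ht.2.le)
  have e1 : ∀ G, Ψ 1 G = G - ε • m G := by
    intro ω
    rw [hΨ]
    simp only
    module
  have e0 : ∀ G, Ψ 0 G = G - ε • m' G := by
    intro ω
    rw [hΨ]
    simp
  simp only [e1, e0] at hfin
  simpa using hfin

/-- the average over the starting point -/
theorem part1_avg {g : E d → ℝ} (hg : ContDiff ℝ 2 g) {g1 g2 : ℝ}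
    (hg1 : ∀ x, ‖gradient g x‖ ≤ g1)
    (hg2 : ∀ x, hs2 (fderiv ℝ (gradient g) x) ≤ g2 ^ 2) (h2 : 0 ≤ g2)
    {D : E d → (κ → E d) → E d} (hD : ContDiff ℝ 1 (fun q : E d × (κ → E d) => D q.1 q.2))
    (hDU : ∀ U U' ω, ‖D U ω - D U' ω‖ ≤ 4 * ‖U - U'‖)
    (hDω : ∀ U ω ω', ‖D U ω - D U ω'‖ ^ 2 ≤ 4 ^ 2 * sq2 (ω - ω'))
    {ε : ℝ} (hε0 : 0 ≤ ε) :
    |∫ G, ∫ ω, g (G - ε • D G ω) ∂gamPi d κ ∂gam d -
      ∫ G, g (G - ε • ∫ ω, D G ω ∂gamPi d κ) ∂gam d| ≤ 32 * ε ^ 2 * Real.sqrt d * g2 := by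
  classical
  have hg10 : 0 ≤ g1 := (norm_nonneg _).trans (hg1 0)
  have hDG : ∀ U, ContDiff ℝ 1 (D U) := fun U =>
    hD.comp (contDiff_const.prodMk contDiff_id)
  have hi : ∀ U, Integrable (D U) (gamPi d κ) := fun U =>
    (GPAux.memLp_lip (D U) (hDG U).continuous (hDω U)).integrable (by norm_num)
  set m : E d → E d := fun U => ∫ ω, D U ω ∂gamPi d κ with hm
  have hmc : ContDiff ℝ 1 m := param_contDiff hD (by norm_num) hDU hi
  have hml : ∀ U U', ‖m U - m U'‖ ≤ 4 * ‖U - U'‖ := param_lip hDU hi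
  have hmi : Integrable m (gam d) :=
    (growth_lip (by norm_num) hml).integrable hmc.continuous.aestronglyMeasurable
  have hgl : ∀ x y, |g x - g y| ≤ g1 * ‖x - y‖ := by
    intro x y
    have h := Convex.norm_image_sub_le_of_norm_fderiv_le (𝕜 := ℝ) (f := g) (C := g1)
      (s := Set.univ) (x := y) (y := x)
      (fun z _ => hg.differentiable (by norm_num) z) (fun z _ => ?_) convex_univ
      (Set.mem_univ _) (Set.mem_univ _)
    · exact h
    · rw [(grad_hasFDerivAt hg z).fderiv, innerSL_apply_norm]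
      exact hg1 z
  have hB : Integrable (fun G => g (G - ε • m G)) (gam d) := by
    have h1 : Integrable (fun x : E d => x) (gam d) := IsGaussian.integrable_id
    have h3 : Integrable (fun G => |g 0| + g1 * ‖G - ε • m G‖) (gam d) :=
      (integrable_const _).add ((h1.sub (hmi.smul ε)).norm.const_mul _)
    refine h3.mono' (hg.continuous.comp (by
      have := hmc.continuous
      fun_prop)).aestronglyMeasurable (Filter.Eventually.of_forall fun ω => ?_)
    have h4 := hgl (ω - ε • m ω) 0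
    rw [sub_zero] at h4
    rw [Real.norm_eq_abs]
    have h6 := abs_sub_abs_le_abs_sub (g (ω - ε • m ω)) (g 0)
    linarith
  have hp : ∀ G, |∫ ω, g (G - ε • D G ω) ∂gamPi d κ - g (G - ε • m G)| ≤
      32 * ε ^ 2 * Real.sqrt d * g2 := fun G => part1 hg hg1 hg2 h2 G (hDG G) (hDω G) hε0
  have hA0 : AEStronglyMeasurable (fun G => ∫ ω, g (G - ε • D G ω) ∂gamPi d κ) (gam d) := by
    have hc : Continuous (Function.uncurry fun (G : E d) (ω : κ → E d) => g (G - ε • D G ω)) := by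
      refine hg.continuous.comp (continuous_fst.sub (Continuous.const_smul ?_ ε))
      exact hD.continuous
    exact (hc.stronglyMeasurable.integral_prod_right).aestronglyMeasurable
  have hd : Integrable (fun G => ∫ ω, g (G - ε • D G ω) ∂gamPi d κ - g (G - ε • m G)) (gam d) :=
    Integrable.of_bound (hA0.sub hB.aestronglyMeasurable) _
      (Filter.Eventually.of_forall fun G => hp G)
  have hA : Integrable (fun G => ∫ ω, g (G - ε • D G ω) ∂gamPi d κ) (gam d) := by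
    refine (hd.add hB).congr (Filter.Eventually.of_forall fun G => ?_)
    simp
  rw [← integral_sub hA hB]
  have := norm_integral_le_of_norm_le_const (μ := gam d)
    (f := fun G => ∫ ω, g (G - ε • D G ω) ∂gamPi d κ - g (G - ε • m G))
    (Filter.Eventually.of_forall fun G => hp G)
  simpa using this

end CmpAux

open CmpAux

theorem compare {d : ℕ} {κ κ' : Type} [Fintype κ] [Fintype κ'] (g : E d → ℝ)
    (hg : ContDiff ℝ 2 g) {g1 g2 : ℝ} (hg1 : ∀ x, ‖gradient g x‖ ≤ g1)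
    (hg2 : ∀ x, hs2 (fderiv ℝ (gradient g) x) ≤ g2 ^ 2) (h2 : 0 ≤ g2)
    (D : E d → (κ → E d) → E d) (D' : E d → (κ' → E d) → E d)
    (hD : ContDiff ℝ 1 (fun q : E d × (κ → E d) => D q.1 q.2))
    (hD' : ContDiff ℝ 1 (fun q : E d × (κ' → E d) => D' q.1 q.2))
    (hDU : ∀ U U' ω, ‖D U ω - D U' ω‖ ≤ 4 * ‖U - U'‖)
    (hDU' : ∀ U U' ω, ‖D' U ω - D' U' ω‖ ≤ 4 * ‖U - U'‖)
    (hDω : ∀ U ω ω', ‖D U ω - D U ω'‖ ^ 2 ≤ 4 ^ 2 * sq2 (ω - ω'))
    (hDω' : ∀ U ω ω', ‖D' U ω - D' U ω'‖ ^ 2 ≤ 4 ^ 2 * sq2 (ω - ω'))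
    {ε S : ℝ} (hε0 : 0 ≤ ε) (hε1 : ε ≤ 1 / 8)
    (hS : ∀ φ : E d → E d, ContDiff ℝ 1 φ → (∀ x, ‖φ x‖ ≤ g1) →
      (∀ x, hs2 (fderiv ℝ φ x) ≤ (2 * g2) ^ 2) →
      |∫ G, ∫ ω, ⟪φ G, D G ω⟫ ∂gamPi d κ ∂gam d - ∫ G, ∫ ω, ⟪φ G, D' G ω⟫ ∂gamPi d κ' ∂gam d| ≤ S) :
    |∫ G, ∫ ω, g (G - ε • D G ω) ∂gamPi d κ ∂gam d - ∫ G, ∫ ω, g (G - ε • D' G ω) ∂gamPi d κ' ∂gam d| ≤
      100 * ε ^ 2 * Real.sqrt d * g2 + ε * S := by
  classical
  have a1 := part1_avg hg hg1 hg2 h2 hD hDU hDω hε0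
  have a2 := part1_avg hg hg1 hg2 h2 hD' hDU' hDω' hε0
  have hi : ∀ U, Integrable (D U) (gamPi d κ) := fun U =>
    (GPAux.memLp_lip (D U) (hD.comp (contDiff_const.prodMk contDiff_id) :
      ContDiff ℝ 1 (D U)).continuous (hDω U)).integrable (by norm_num)
  have hi' : ∀ U, Integrable (D' U) (gamPi d κ') := fun U =>
    (GPAux.memLp_lip (D' U) (hD'.comp (contDiff_const.prodMk contDiff_id) :
      ContDiff ℝ 1 (D' U)).continuous (hDω' U)).integrable (by norm_num)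
  have a3 := part2 hg hg1 hg2 (param_contDiff hD (by norm_num) hDU hi)
    (param_contDiff hD' (by norm_num) hDU' hi') (param_lip hDU hi) (param_lip hDU' hi')
    hε0 hε1 (S := S) (fun φ hφ hb hh => by
      have h3 := hS φ hφ hb hh
      have e1 : ∀ G, ∫ ω, ⟪φ G, D G ω⟫ ∂gamPi d κ = ⟪φ G, ∫ ω, D G ω ∂gamPi d κ⟫ := fun G =>
        integral_inner (hi G) (φ G)
      have e2 : ∀ G, ∫ ω, ⟪φ G, D' G ω⟫ ∂gamPi d κ' = ⟪φ G, ∫ ω, D' G ω ∂gamPi d κ'⟫ := fun G =>
        integral_inner (hi' G) (φ G)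
      simp only [e1, e2] at h3
      exact h3)
  have hpos : 0 ≤ ε ^ 2 * Real.sqrt d * g2 := by positivity
  rw [abs_le] at a1 a2 a3 ⊢
  constructor <;> linarith [a1.1, a1.2, a2.1, a2.2, a3.1, a3.2]

end Vale.Agent.P347
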