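import Vale.Agent.P347.Mehler2

/-!
# P347: Gaussian convolution: smoothness, formula for the derivative, reverse Poincare inequality
-/

open MeasureTheory ProbabilityTheory
open scoped ENNReal NNReal RealInnerProductSpace Topology

namespace Vale.Agent.P347

namespace ConvAux

variable {d : ℕ} {F : Type*} [NormedAddCommGroup F] [NormedSpace ℝ F]

theorem integrable_gauss (d : ℕ) {b : ℝ} (hb : 0 < b) :
    Integrable (fun v : E d => Real.exp (-(b * ‖v‖ ^ 2))) := by
  have h := (GaussianFourier.integrable_cexp_neg_mul_sq_norm_add (V := E d) (b := (b : ℂ))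
    (by simpa using hb) 0 0).norm
  refine h.congr (Filter.Eventually.of_forall fun v => ?_)
  show ‖Complex.exp (-(b : ℂ) * (‖v‖ : ℂ) ^ 2 + 0 * _)‖ = Real.exp (-(b * ‖v‖ ^ 2))
  rw [Complex.norm_exp]
  congr 1
  simp only [zero_mul, add_zero]
  rw [neg_mul, Complex.neg_re, ← Complex.ofReal_pow, ← Complex.ofReal_mul, Complex.ofReal_re]

/-- the normalising constant -/
noncomputable def Z (d : ℕ) : ℝ := ∫ x : E d, Real.exp (-‖x‖ ^ 2 / 2)

theorem integrable_exp (d : ℕ) : Integrable (fun x : E d => Real.exp (-‖x‖ ^ 2 / 2)) := by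
  refine (integrable_gauss d (b := 1 / 2) (by norm_num)).congr
    (Filter.Eventually.of_forall fun v => ?_)
  show Real.exp _ = Real.exp _
  congr 1
  ring

theorem Z_pos (d : ℕ) : 0 < Z d := integral_exp_pos (integrable_exp d)

theorem Z_eq (d : ℕ) : ((Z d : ℝ) : ℂ) = ∫ x : E d, Complex.exp (-(1 / 2 : ℂ) * ‖x‖ ^ 2) := by
  unfold Z
  rw [← integral_complex_ofReal]
  refine integral_congr_ae (Filter.Eventually.of_forall fun x => ?_)
  show ((Real.exp (-‖x‖ ^ 2 / 2) : ℝ) : ℂ) = _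
  rw [Complex.ofReal_exp]
  congr 1
  push_cast
  ring

theorem gam_eq_tilted (d : ℕ) :
    gam d = (volume : Measure (E d)).tilted fun x => -‖x‖ ^ 2 / 2 := by
  have hp : IsProbabilityMeasure ((volume : Measure (E d)).tilted fun x => -‖x‖ ^ 2 / 2) :=
    isProbabilityMeasure_tilted (integrable_exp d)
  refine Measure.ext_of_charFun ?_
  funext t
  rw [charFun_stdGaussian, charFun_apply, integral_tilted]
  have h1 := GaussianFourier.integral_cexp_neg_mul_sq_norm_add (V := E d) (b := (1 / 2 : ℂ))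
    (by norm_num) Complex.I t
  have h0 := GaussianFourier.integral_cexp_neg_mul_sq_norm (V := E d) (b := (1 / 2 : ℂ))
    (by norm_num)
  have hz : ((Z d : ℝ) : ℂ) ≠ 0 := by
    exact_mod_cast (Z_pos d).ne'
  have e1 : ∫ x : E d, (Real.exp (-‖x‖ ^ 2 / 2) / ∫ x : E d, Real.exp (-‖x‖ ^ 2 / 2)) •
      Complex.exp ((⟪x, t⟫ : ℝ) * Complex.I) =
      ((Z d : ℝ) : ℂ)⁻¹ * ∫ v : E d, Complex.exp (-(1 / 2 : ℂ) * ‖v‖ ^ 2 + Complex.I * (⟪t, v⟫ : ℝ)) := by
    rw [← integral_const_mul]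
    refine integral_congr_ae (Filter.Eventually.of_forall fun x => ?_)
    show (Real.exp (-‖x‖ ^ 2 / 2) / Z d) • Complex.exp ((⟪x, t⟫ : ℝ) * Complex.I) =
      ((Z d : ℝ) : ℂ)⁻¹ * Complex.exp (-(1 / 2 : ℂ) * ‖x‖ ^ 2 + Complex.I * (⟪t, x⟫ : ℝ))
    rw [Complex.exp_add, Complex.real_smul, Complex.ofReal_div, Complex.ofReal_exp,
      real_inner_comm x t]
    push_cast
    have e2 : (-(‖x‖ : ℂ) ^ 2 / 2) = -(1 / 2 : ℂ) * ‖x‖ ^ 2 := by ring
    rw [e2]
    field_simp
  rw [e1, h1, ← h0, ← Z_eq]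
  rw [← mul_assoc, inv_mul_cancel₀ hz, one_mul]
  congr 1
  have : (Complex.I) ^ 2 = -1 := Complex.I_sq
  rw [this]
  push_cast
  ring

theorem integral_gam (g : E d → F) :
    ∫ z, g z ∂gam d = (Z d)⁻¹ • ∫ z, Real.exp (-‖z‖ ^ 2 / 2) • g z := by
  rw [gam_eq_tilted, integral_tilted, ← integral_smul]
  refine integral_congr_ae (Filter.Eventually.of_forall fun z => ?_)
  show (Real.exp (-‖z‖ ^ 2 / 2) / Z d) • g z = (Z d)⁻¹ • Real.exp (-‖z‖ ^ 2 / 2) • g z
  rw [smul_smul, div_eq_inv_mul]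

/-- unit convolution -/
noncomputable def H (h : E d → F) (y : E d) : F := ∫ z, h (y + z) ∂gam d

theorem H_eq (h : E d → F) (y : E d) :
    H h y = (Z d)⁻¹ • ∫ w, Real.exp (-‖w - y‖ ^ 2 / 2) • h w := by
  unfold H
  rw [integral_gam]
  congr 1
  rw [← integral_sub_right_eq_self (fun z => Real.exp (-‖z‖ ^ 2 / 2) • h (y + z)) y]
  refine integral_congr_ae (Filter.Eventually.of_forall fun w => ?_)
  show Real.exp (-‖w - y‖ ^ 2 / 2) • h (y + (w - y)) = _
  rw [add_sub_cancel]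

/-- the derivative of the kernel -/
noncomputable def K' (h : E d → F) (y w : E d) : E d →L[ℝ] F :=
  (Real.exp (-‖w - y‖ ^ 2 / 2) • innerSL ℝ (w - y)).smulRight (h w)

theorem hasFDerivAt_kernel (h : E d → F) (y w : E d) :
    HasFDerivAt (fun y => Real.exp (-‖w - y‖ ^ 2 / 2) • h w) (K' h y w) y := by
  have h1 : HasFDerivAt (fun y : E d => w - y) (-(ContinuousLinearMap.id ℝ (E d))) y := by
    simpa using (hasFDerivAt_id y).const_sub w
  have h2 := h1.norm_sq
  have h3 : HasFDerivAt (fun y : E d => -‖w - y‖ ^ 2 / 2) (innerSL ℝ (w - y)) y := by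
    have h4 := h2.const_mul (-(1 / 2) : ℝ)
    have e1 : (fun y : E d => -‖w - y‖ ^ 2 / 2) = fun y => (-(1 / 2) : ℝ) * ‖w - y‖ ^ 2 := by
      funext y
      ring
    rw [e1]
    refine h4.congr_fderiv ?_
    ext v
    simp
  have h5 := h3.exp
  exact h5.smul_const (h w)

/-- bound of the kernel on a ball -/
theorem kernel_bound {y y0 w : E d} (hy : ‖y - y0‖ ≤ 1) :
    Real.exp (-‖w - y‖ ^ 2 / 2) ≤ Real.exp (1 / 2) * Real.exp (-‖w - y0‖ ^ 2 / 4) := by
  rw [← Real.exp_add]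
  refine Real.exp_le_exp.mpr ?_
  have h1 : ‖w - y0‖ ≤ ‖w - y‖ + ‖y - y0‖ := by
    have := norm_add_le (w - y) (y - y0)
    rwa [sub_add_sub_cancel] at this
  have h2 : ‖w - y0‖ ≤ ‖w - y‖ + 1 := by linarith
  have h3 : ‖w - y0‖ ^ 2 ≤ (‖w - y‖ + 1) ^ 2 := pow_le_pow_left₀ (norm_nonneg _) h2 2
  nlinarith [sq_nonneg (‖w - y‖ - 1)]

theorem norm_K'_le {h : E d → F} {C : ℝ} (hC : ∀ x, ‖h x‖ ≤ C) (y w : E d) :
    ‖K' h y w‖ ≤ C * (Real.exp (-‖w - y‖ ^ 2 / 2) * ‖w - y‖) := by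
  have hC0 : 0 ≤ C := (norm_nonneg _).trans (hC 0)
  unfold K'
  rw [ContinuousLinearMap.norm_smulRight_apply, norm_smul, Real.norm_of_nonneg (Real.exp_pos _).le,
    innerSL_apply_norm]
  rw [mul_comm C]
  exact mul_le_mul_of_nonneg_left (hC w) (by positivity)

theorem lin_le_exp (t : ℝ) : t + 1 ≤ 8 * Real.exp (t ^ 2 / 8) := by
  have h1 := Real.add_one_le_exp (t ^ 2 / 8)
  nlinarith [sq_nonneg (t - 1)]

/-- integrable majorant -/
noncomputable def maj (C : ℝ) (y0 w : E d) : ℝ :=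
  C * (Real.exp (1 / 2) * (8 * Real.exp (-((1 / 8 : ℝ) * ‖w - y0‖ ^ 2))))

theorem norm_K'_le_maj {h : E d → F} {C : ℝ} (hC : ∀ x, ‖h x‖ ≤ C) {y y0 : E d}
    (hy : ‖y - y0‖ ≤ 1) (w : E d) : ‖K' h y w‖ ≤ maj C y0 w := by
  have hC0 : 0 ≤ C := (norm_nonneg _).trans (hC 0)
  refine (norm_K'_le hC y w).trans (mul_le_mul_of_nonneg_left ?_ hC0)
  have h1 := kernel_bound (w := w) hy
  have h2 : ‖w - y‖ ≤ ‖w - y0‖ + 1 := by
    have := norm_add_le (w - y0) (y0 - y)
    rw [sub_add_sub_cancel, norm_sub_rev y0 y] at this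
    linarith
  have h3 := lin_le_exp ‖w - y0‖
  calc Real.exp (-‖w - y‖ ^ 2 / 2) * ‖w - y‖
      ≤ (Real.exp (1 / 2) * Real.exp (-‖w - y0‖ ^ 2 / 4)) *
        (8 * Real.exp (‖w - y0‖ ^ 2 / 8)) :=
        mul_le_mul h1 (h2.trans h3) (norm_nonneg _) (by positivity)
    _ = Real.exp (1 / 2) * (8 * (Real.exp (-‖w - y0‖ ^ 2 / 4) * Real.exp (‖w - y0‖ ^ 2 / 8))) := by
        ring
    _ = _ := by
        rw [← Real.exp_add]
        congr 4
        ring

theorem integrable_maj (C : ℝ) (y0 : E d) : Integrable (maj C y0 : E d → ℝ) := by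
  have h1 := (integrable_gauss d (b := 1 / 8) (by norm_num)).comp_sub_right y0
  exact ((h1.const_mul 8).const_mul (Real.exp (1 / 2))).const_mul C

theorem aesm_kernel {h : E d → F} (hm : StronglyMeasurable h) (y : E d) :
    AEStronglyMeasurable (fun w => Real.exp (-‖w - y‖ ^ 2 / 2) • h w) volume := by
  have h1 : Continuous fun w : E d => Real.exp (-‖w - y‖ ^ 2 / 2) := by fun_prop
  exact (h1.stronglyMeasurable.smul hm).aestronglyMeasurable

theorem cont_lin (y : E d) :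
    Continuous fun w : E d => Real.exp (-‖w - y‖ ^ 2 / 2) • innerSL ℝ (w - y) := by
  have h1 : Continuous fun w : E d => Real.exp (-‖w - y‖ ^ 2 / 2) := by fun_prop
  have h2 : Continuous fun w : E d => innerSL ℝ (w - y) :=
    (innerSL ℝ (E := E d)).continuous.comp (continuous_id.sub continuous_const)
  exact h1.smul h2

theorem cont_lin' (w : E d) :
    Continuous fun y : E d => Real.exp (-‖w - y‖ ^ 2 / 2) • innerSL ℝ (w - y) := by
  have h1 : Continuous fun y : E d => Real.exp (-‖w - y‖ ^ 2 / 2) := by fun_prop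
  have h2 : Continuous fun y : E d => innerSL ℝ (w - y) :=
    (innerSL ℝ (E := E d)).continuous.comp (continuous_const.sub continuous_id)
  exact h1.smul h2

theorem aesm_K' {h : E d → F} (hm : StronglyMeasurable h) (y : E d) :
    AEStronglyMeasurable (fun w => K' h y w) volume := by
  have h1 := cont_lin y
  have h2 : Continuous fun p : (E d →L[ℝ] ℝ) × F => p.1.smulRight p.2 := by
    exact (ContinuousLinearMap.smulRightL ℝ (E d) F).continuous₂
  exact (h2.comp_stronglyMeasurable (h1.stronglyMeasurable.prodMk hm)).aestronglyMeasurable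

theorem integrable_kernel {h : E d → F} (hm : StronglyMeasurable h) {C : ℝ}
    (hC : ∀ x, ‖h x‖ ≤ C) (y : E d) :
    Integrable (fun w => Real.exp (-‖w - y‖ ^ 2 / 2) • h w) := by
  have h1 : Integrable (fun w : E d => Real.exp (-‖w - y‖ ^ 2 / 2)) :=
    (integrable_exp d).comp_sub_right y
  refine (h1.const_mul C).mono' (aesm_kernel hm y) (Filter.Eventually.of_forall fun w => ?_)
  rw [norm_smul, Real.norm_of_nonneg (Real.exp_pos _).le, mul_comm]
  exact mul_le_mul_of_nonneg_right (hC w) (Real.exp_pos _).le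

theorem integrable_K' {h : E d → F} (hm : StronglyMeasurable h) {C : ℝ}
    (hC : ∀ x, ‖h x‖ ≤ C) (y : E d) : Integrable (fun w => K' h y w) :=
  (integrable_maj C y).mono' (aesm_K' hm y) (Filter.Eventually.of_forall fun w =>
    norm_K'_le_maj hC (by simp) w)

/-- the derivative of the unit convolution -/
noncomputable def DH (h : E d → F) (y : E d) : E d →L[ℝ] F := (Z d)⁻¹ • ∫ w, K' h y w

theorem hasFDerivAt_H {h : E d → F} (hm : StronglyMeasurable h) {C : ℝ}
    (hC : ∀ x, ‖h x‖ ≤ C) (y : E d) : HasFDerivAt (H h) (DH h y) y := by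
  have e : H h = fun y => (Z d)⁻¹ • ∫ w, Real.exp (-‖w - y‖ ^ 2 / 2) • h w := by
    funext y
    exact H_eq h y
  rw [e]
  refine HasFDerivAt.const_smul ?_ _
  refine hasFDerivAt_integral_of_dominated_of_fderiv_le (𝕜 := ℝ) (bound := maj C y)
    (Metric.closedBall_mem_nhds y one_pos) (Filter.Eventually.of_forall fun y => aesm_kernel hm y)
    (integrable_kernel hm hC y) (aesm_K' hm y) (Filter.Eventually.of_forall fun w x hx => ?_)
    (integrable_maj C y) (Filter.Eventually.of_forall fun w x _ => hasFDerivAt_kernel h x w)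
  rw [Metric.mem_closedBall, dist_eq_norm] at hx
  exact norm_K'_le_maj hC hx w

theorem continuous_DH {h : E d → F} (hm : StronglyMeasurable h) {C : ℝ}
    (hC : ∀ x, ‖h x‖ ≤ C) : Continuous (DH h) := by
  have key : Continuous fun y : E d => ∫ w, K' h y w := by
    refine continuous_iff_continuousAt.mpr fun y => ?_
    refine continuousAt_of_dominated (bound := maj C y)
      (Filter.Eventually.of_forall fun y => aesm_K' hm y) ?_ (integrable_maj C y) ?_
    · filter_upwards [Metric.closedBall_mem_nhds y one_pos] with x hx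
      rw [Metric.mem_closedBall, dist_eq_norm] at hx
      exact Filter.Eventually.of_forall fun w => norm_K'_le_maj hC hx w
    · refine Filter.Eventually.of_forall fun w => ?_
      have h1 := cont_lin' w
      have h2 : Continuous fun p : (E d →L[ℝ] ℝ) × F => p.1.smulRight p.2 := by
        exact (ContinuousLinearMap.smulRightL ℝ (E d) F).continuous₂
      have h3 : Continuous fun y : E d => K' h y w := h2.comp (h1.prodMk continuous_const)
      exact h3.continuousAt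
  exact key.const_smul (Z d)⁻¹

theorem DH_apply [CompleteSpace F] {h : E d → F} (hm : StronglyMeasurable h) {C : ℝ}
    (hC : ∀ x, ‖h x‖ ≤ C) (y v : E d) : DH h y v = ∫ z, ⟪z, v⟫ • h (y + z) ∂gam d := by
  have e1 : (∫ w, K' h y w) v = ∫ w, K' h y w v :=
    ((ContinuousLinearMap.apply ℝ F v).integral_comp_comm (integrable_K' hm hC y)).symm
  unfold DH
  show (Z d)⁻¹ • (∫ w, K' h y w) v = _
  rw [e1, integral_gam]
  congr 1
  rw [← integral_sub_right_eq_self
    (fun z => Real.exp (-‖z‖ ^ 2 / 2) • (⟪z, v⟫ : ℝ) • h (y + z)) y]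
  refine integral_congr_ae (Filter.Eventually.of_forall fun w => ?_)
  show K' h y w v = Real.exp (-‖w - y‖ ^ 2 / 2) • (⟪w - y, v⟫ : ℝ) • h (y + (w - y))
  rw [add_sub_cancel, smul_smul]
  rfl

/-- `H` at scale `sqrt η` -/
theorem conv_eq_H {η : ℝ} (hη : 0 < η) (f : E d → F) :
    conv η f = fun x => H (fun u => f (Real.sqrt η • u)) ((Real.sqrt η)⁻¹ • x) := by
  funext x
  have hs : Real.sqrt η ≠ 0 := (Real.sqrt_pos.mpr hη).ne'
  show ∫ z, f (x + Real.sqrt η • z) ∂gam d =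
    ∫ z, f (Real.sqrt η • ((Real.sqrt η)⁻¹ • x + z)) ∂gam d
  refine integral_congr_ae (Filter.Eventually.of_forall fun z => ?_)
  show f _ = f _
  rw [smul_add, smul_smul, mul_inv_cancel₀ hs, one_smul]

theorem sm_scale {f : E d → F} (hm : StronglyMeasurable f) (c : ℝ) :
    StronglyMeasurable fun u : E d => f (c • u) :=
  hm.comp_measurable (measurable_const_smul c)

/-- derivative of the convolution -/
noncomputable def DC (η : ℝ) (f : E d → F) (x : E d) : E d →L[ℝ] F :=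
  (Real.sqrt η)⁻¹ • DH (fun u => f (Real.sqrt η • u)) ((Real.sqrt η)⁻¹ • x)

theorem hasFDerivAt_conv {η : ℝ} (hη : 0 < η) {f : E d → F} (hm : StronglyMeasurable f) {C : ℝ}
    (hC : ∀ x, ‖f x‖ ≤ C) (x : E d) : HasFDerivAt (conv η f) (DC η f x) x := by
  rw [conv_eq_H hη]
  have h1 := hasFDerivAt_H (sm_scale hm (Real.sqrt η)) (fun x => hC _) ((Real.sqrt η)⁻¹ • x)
  have h2 : HasFDerivAt (fun y : E d => (Real.sqrt η)⁻¹ • y)
      ((Real.sqrt η)⁻¹ • ContinuousLinearMap.id ℝ (E d)) x := by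
    have h4 := (hasFDerivAt_id (𝕜 := ℝ) x).const_smul (Real.sqrt η)⁻¹
    exact h4
  have h3 := h1.comp x h2
  refine h3.congr_fderiv ?_
  ext v
  simp [DC]

theorem continuous_DC {η : ℝ} {f : E d → F} (hm : StronglyMeasurable f) {C : ℝ}
    (hC : ∀ x, ‖f x‖ ≤ C) : Continuous (DC η f) := by
  have h1 := continuous_DH (sm_scale hm (Real.sqrt η)) (fun x => hC _)
  have h2 : Continuous fun x : E d => (Real.sqrt η)⁻¹ • x := continuous_const_smul _
  have h3 : Continuous fun x : E d =>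
      (Real.sqrt η)⁻¹ • DH (fun u => f (Real.sqrt η • u)) ((Real.sqrt η)⁻¹ • x) :=
    Continuous.const_smul (h1.comp h2) (Real.sqrt η)⁻¹
  exact h3

theorem conv_contDiff_one {η : ℝ} (hη : 0 < η) {f : E d → F} (hm : StronglyMeasurable f) {C : ℝ}
    (hC : ∀ x, ‖f x‖ ≤ C) : ContDiff ℝ 1 (conv η f) := by
  rw [contDiff_one_iff_fderiv]
  refine ⟨fun x => (hasFDerivAt_conv hη hm hC x).differentiableAt, ?_⟩
  have e : fderiv ℝ (conv η f) = DC η f := by
    funext x
    exact (hasFDerivAt_conv hη hm hC x).fderiv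
  rw [e]
  exact continuous_DC hm hC

theorem integrable_shift {f : E d → F} (hm : StronglyMeasurable f) {C : ℝ}
    (hC : ∀ x, ‖f x‖ ≤ C) (x : E d) (c : ℝ) : Integrable (fun z => f (x + c • z)) (gam d) := by
  have h1 : Measurable fun z : E d => x + c • z := by fun_prop
  exact (integrable_const C).mono' (hm.comp_measurable h1).aestronglyMeasurable
    (Filter.Eventually.of_forall fun z => hC _)

theorem integrable_inner_shift {f : E d → F} (hm : StronglyMeasurable f) {C : ℝ}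
    (hC : ∀ x, ‖f x‖ ≤ C) (x v : E d) (c : ℝ) :
    Integrable (fun z => (⟪z, v⟫ : ℝ) • f (x + c • z)) (gam d) := by
  have h1 : Measurable fun z : E d => x + c • z := by fun_prop
  have h0 : Integrable (fun z : E d => ‖z‖) (gam d) := by
    have := MehlerAux.memLp_norm d 1
    rw [Nat.cast_one] at this
    exact this.integrable le_rfl
  have h2 : Continuous fun z : E d => (⟪z, v⟫ : ℝ) := by fun_prop
  refine ((h0.mul_const ‖v‖).mul_const C).mono'
    (h2.stronglyMeasurable.smul (hm.comp_measurable h1)).aestronglyMeasurable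
    (Filter.Eventually.of_forall fun z => ?_)
  rw [norm_smul]
  exact mul_le_mul (norm_inner_le_norm z v) (hC _) (norm_nonneg _) (by positivity)

theorem conv_half {η : ℝ} (hη : 0 < η) [CompleteSpace F] {f : E d → F}
    (hm : StronglyMeasurable f) {C : ℝ} (hC : ∀ x, ‖f x‖ ≤ C) (x : E d) :
    conv (η / 2) (conv (η / 2) f) x = conv η f x := by
  have hs : Real.sqrt (η / 2) = Real.sqrt η * Real.sqrt (1 / 2) := by
    rw [← Real.sqrt_mul hη.le]
    congr 1
    ring
  have h1 : Real.sqrt (1 / 2) ^ 2 + Real.sqrt (1 / 2) ^ 2 = 1 := by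
    rw [Real.sq_sqrt (by norm_num)]
    norm_num
  have hmp := mp_comb (d := d) h1
  have hmeas : Measurable fun z : E d => x + Real.sqrt η • z := by fun_prop
  have hi : Integrable (fun z => f (x + Real.sqrt η • z)) (gam d) := integrable_shift hm hC x _
  have e1 : conv η f x = ∫ q : E d × E d,
      f (x + Real.sqrt η • (Real.sqrt (1 / 2) • q.1 + Real.sqrt (1 / 2) • q.2))
        ∂((gam d).prod (gam d)) :=
    (MehlerAux.integral_mp hmp hi.aestronglyMeasurable).symm
  have hi2 : Integrable (fun q : E d × E d =>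
      f (x + Real.sqrt η • (Real.sqrt (1 / 2) • q.1 + Real.sqrt (1 / 2) • q.2)))
        ((gam d).prod (gam d)) := hmp.integrable_comp_of_integrable hi
  rw [e1, integral_prod _ hi2]
  unfold conv
  refine integral_congr_ae (Filter.Eventually.of_forall fun z => ?_)
  refine integral_congr_ae (Filter.Eventually.of_forall fun w => ?_)
  show f _ = f _
  congr 1
  rw [hs, smul_add, smul_smul, smul_smul, add_assoc]

/-- differentiation under the integral -/
theorem hasFDerivAt_smooth {η : ℝ} {φ : E d → F} (hφ : ContDiff ℝ 1 φ) {C L : ℝ}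
    (hC : ∀ x, ‖φ x‖ ≤ C) (hL : ∀ x, ‖fderiv ℝ φ x‖ ≤ L) (x : E d) :
    HasFDerivAt (conv η φ) (conv η (fderiv ℝ φ) x) x := by
  have hcd : Continuous (fderiv ℝ φ) := hφ.continuous_fderiv (by norm_num)
  refine hasFDerivAt_integral_of_dominated_of_fderiv_le (𝕜 := ℝ) (μ := gam d)
    (F := fun y z => φ (y + Real.sqrt η • z))
    (F' := fun y z => fderiv ℝ φ (y + Real.sqrt η • z))
    (x₀ := x) (bound := fun _ => L) (s := Set.univ) Filter.univ_mem
    (Filter.Eventually.of_forall fun y => (hφ.continuous.comp (by fun_prop)).aestronglyMeasurable)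
    ?_ ((hcd.comp (by fun_prop)).aestronglyMeasurable)
    (Filter.Eventually.of_forall fun z y _ => hL _)
    (integrable_const _)
    (Filter.Eventually.of_forall fun z y _ => ?_)
  · exact (integrable_const C).mono' ((hφ.continuous.comp (by fun_prop)).aestronglyMeasurable)
      (Filter.Eventually.of_forall fun z => hC _)
  · have h1 : HasFDerivAt (fun y : E d => y + Real.sqrt η • z)
        (ContinuousLinearMap.id ℝ (E d)) y := (hasFDerivAt_id y).add_const _
    have h2 : HasFDerivAt φ (fderiv ℝ φ (y + Real.sqrt η • z)) (y + Real.sqrt η • z) :=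
      (hφ.differentiable (by norm_num) _).hasFDerivAt
    exact h2.comp y h1

end ConvAux

open ConvAux

section conv
variable {d k : ℕ} {η : ℝ}

theorem conv_norm_le {F : Type*} [NormedAddCommGroup F] [NormedSpace ℝ F] {f : E d → F} {C : ℝ}
    (hf : ∀ x, ‖f x‖ ≤ C) (x : E d) : ‖conv η f x‖ ≤ C := by
  have h := norm_integral_le_of_norm_le_const (μ := gam d)
    (f := fun z => f (x + Real.sqrt η • z)) (C := C)
    (Filter.Eventually.of_forall fun z => hf _)
  simpa [conv] using h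

theorem conv_fderiv_apply (hη : 0 < η) {F : Type*} [NormedAddCommGroup F] [NormedSpace ℝ F]
    [CompleteSpace F] {f : E d → F} (hm : StronglyMeasurable f) {C : ℝ} (hf : ∀ x, ‖f x‖ ≤ C)
    (x v : E d) :
    fderiv ℝ (conv η f) x v = (Real.sqrt η)⁻¹ • ∫ z, ⟪z, v⟫ • f (x + Real.sqrt η • z) ∂gam d := by
  have hs : Real.sqrt η ≠ 0 := (Real.sqrt_pos.mpr hη).ne'
  rw [(hasFDerivAt_conv hη hm hf x).fderiv]
  show (Real.sqrt η)⁻¹ • DH (fun u => f (Real.sqrt η • u)) ((Real.sqrt η)⁻¹ • x) v = _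
  rw [DH_apply (sm_scale hm (Real.sqrt η)) (fun x => hf _)]
  congr 1
  refine integral_congr_ae (Filter.Eventually.of_forall fun z => ?_)
  show _ • f _ = _ • f _
  rw [smul_add, smul_smul, mul_inv_cancel₀ hs, one_smul]

/-- bound of the derivative -/
theorem ConvAux.fderiv_le (hη : 0 < η) {F : Type*} [NormedAddCommGroup F] [NormedSpace ℝ F]
    [CompleteSpace F] {f : E d → F} (hm : StronglyMeasurable f) {C : ℝ} (hf : ∀ x, ‖f x‖ ≤ C)
    (x : E d) : ‖fderiv ℝ (conv η f) x‖ ≤ (Real.sqrt η)⁻¹ * (C * ∫ z, ‖z‖ ∂gam d) := by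
  have hC0 : 0 ≤ C := (norm_nonneg _).trans (hf 0)
  have hM : 0 ≤ ∫ z : E d, ‖z‖ ∂gam d := integral_nonneg fun z => norm_nonneg z
  have hs : 0 ≤ (Real.sqrt η)⁻¹ := inv_nonneg.mpr (Real.sqrt_nonneg η)
  refine ContinuousLinearMap.opNorm_le_bound _ (by positivity) fun v => ?_
  rw [conv_fderiv_apply hη hm hf, norm_smul, Real.norm_of_nonneg hs, mul_assoc]
  refine mul_le_mul_of_nonneg_left ?_ hs
  have h0 : Integrable (fun z : E d => ‖z‖) (gam d) := by
    have := MehlerAux.memLp_norm d 1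
    rw [Nat.cast_one] at this
    exact this.integrable le_rfl
  have h1 : ‖∫ z, ⟪z, v⟫ • f (x + Real.sqrt η • z) ∂gam d‖ ≤ ∫ z, ‖z‖ * (C * ‖v‖) ∂gam d := by
    refine norm_integral_le_of_norm_le (h0.mul_const _) (Filter.Eventually.of_forall fun z => ?_)
    rw [norm_smul]
    calc ‖(⟪z, v⟫ : ℝ)‖ * ‖f (x + Real.sqrt η • z)‖ ≤ (‖z‖ * ‖v‖) * C :=
          mul_le_mul (norm_inner_le_norm z v) (hf _) (norm_nonneg _) (by positivity)
      _ = _ := by ring
  rw [integral_mul_const] at h1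
  refine h1.trans (le_of_eq ?_)
  ring

theorem conv_contDiff (hη : 0 < η) {F : Type*} [NormedAddCommGroup F] [NormedSpace ℝ F]
    [CompleteSpace F] {f : E d → F} (hm : StronglyMeasurable f) {C : ℝ} (hf : ∀ x, ‖f x‖ ≤ C) :
    ContDiff ℝ 2 (conv η f) := by
  have hη2 : 0 < η / 2 := by positivity
  have hg : ContDiff ℝ 1 (conv (η / 2) f) := conv_contDiff_one hη2 hm hf
  have hgC : ∀ x, ‖conv (η / 2) f x‖ ≤ C := conv_norm_le hf
  have hgL := ConvAux.fderiv_le hη2 hm hf
  have hcd : Continuous (fderiv ℝ (conv (η / 2) f)) := hg.continuous_fderiv (by norm_num)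
  have e : conv η f = conv (η / 2) (conv (η / 2) f) := by
    funext x
    exact (ConvAux.conv_half hη hm hf x).symm
  have e2 : fderiv ℝ (conv (η / 2) (conv (η / 2) f)) =
      conv (η / 2) (fderiv ℝ (conv (η / 2) f)) := by
    funext x
    exact (hasFDerivAt_smooth hg hgC hgL x).fderiv
  rw [e, show (2 : WithTop ℕ∞) = 1 + 1 from by norm_num, contDiff_succ_iff_fderiv]
  refine ⟨fun x => (hasFDerivAt_smooth hg hgC hgL x).differentiableAt, by simp, ?_⟩
  rw [e2]
  exact conv_contDiff_one hη2 hcd.stronglyMeasurable hgL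

namespace ConvAux

theorem inner_eb (z : E d) (i : Fin d) : (⟪z, eb i⟫ : ℝ) = z i := by
  rw [eb, EuclideanSpace.inner_single_right]
  simp

theorem integral_inner_zero (w : E d) : ∫ z, (⟪w, z⟫ : ℝ) ∂gam d = 0 :=
  integral_strongDual_stdGaussian (innerSL ℝ w)

theorem memLp_two_inner (w : E d) : MemLp (fun z : E d => (⟪w, z⟫ : ℝ)) 2 (gam d) := by
  have h1 : MemLp (fun z : E d => ‖w‖ * ‖z‖) 2 (gam d) := by
    have h2 := (MehlerAux.memLp_norm d 2).const_mul ‖w‖
    simpa using h2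
  have h3 : Continuous fun z : E d => (⟪w, z⟫ : ℝ) := by fun_prop
  refine h1.of_le h3.aestronglyMeasurable (Filter.Eventually.of_forall fun z => ?_)
  rw [Real.norm_of_nonneg (by positivity : 0 ≤ ‖w‖ * ‖z‖)]
  exact norm_inner_le_norm w z

theorem integral_inner_sq (w : E d) : ∫ z, (⟪w, z⟫ : ℝ) ^ 2 ∂gam d = ‖w‖ ^ 2 := by
  have h := variance_dual_stdGaussian (E := E d) (innerSL ℝ w)
  rw [innerSL_apply_norm] at h
  rw [← h, variance_eq_integral]
  · have h0 : ∫ z, (innerSL ℝ w) z ∂stdGaussian (E d) = 0 :=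
      integral_strongDual_stdGaussian (innerSL ℝ w)
    rw [h0]
    simp
  · exact (innerSL ℝ w).continuous.aemeasurable

/-- Bessel's inequality for the functions `1`, `z_i`. -/
theorem bessel {h : E d → ℝ} (hm : AEStronglyMeasurable h (gam d)) {C : ℝ}
    (hC : ∀ x, |h x| ≤ C) :
    (∫ z, h z ∂gam d) ^ 2 + ∑ i : Fin d, (∫ z, ⟪z, eb i⟫ • h z ∂gam d) ^ 2 ≤
      ∫ z, h z ^ 2 ∂gam d := by
  set a0 := ∫ z, h z ∂gam d with ha0
  set a : Fin d → ℝ := fun i => ∫ z, ⟪z, eb i⟫ • h z ∂gam d with ha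
  set w : E d := WithLp.toLp 2 a with hw
  have hi : Integrable h (gam d) :=
    (integrable_const C).mono' hm (Filter.Eventually.of_forall hC)
  have h2 : MemLp h 2 (gam d) :=
    MemLp.of_bound hm C (Filter.Eventually.of_forall hC)
  have hi2 : Integrable (fun z => h z ^ 2) (gam d) := h2.integrable_sq
  have hw2 := memLp_two_inner w
  have hwi : Integrable (fun z : E d => (⟪w, z⟫ : ℝ)) (gam d) := hw2.integrable (by norm_num)
  have hwi2 : Integrable (fun z : E d => (⟪w, z⟫ : ℝ) ^ 2) (gam d) := hw2.integrable_sq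
  have hhw : Integrable (fun z : E d => h z * (⟪w, z⟫ : ℝ)) (gam d) := h2.integrable_mul hw2
  have hzi : ∀ i : Fin d, Integrable (fun z : E d => (⟪z, eb i⟫ : ℝ) • h z) (gam d) := by
    intro i
    have h3 := h2.integrable_mul (memLp_two_inner (eb i : E d))
    refine h3.congr (Filter.Eventually.of_forall fun z => ?_)
    show h z * (⟪eb i, z⟫ : ℝ) = (⟪z, eb i⟫ : ℝ) * h z
    rw [real_inner_comm, mul_comm]
  have e1 : ∫ z, h z * (⟪w, z⟫ : ℝ) ∂gam d = ∑ i, a i ^ 2 := by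
    have e2 : (fun z : E d => h z * (⟪w, z⟫ : ℝ)) =
        fun z => ∑ i, a i * ((⟪z, eb i⟫ : ℝ) • h z) := by
      funext z
      have e3 : (⟪w, z⟫ : ℝ) = ∑ i, a i * z i := by
        rw [PiLp.inner_apply]
        refine Finset.sum_congr rfl fun i _ => ?_
        simp [hw, mul_comm]
      rw [e3, Finset.mul_sum]
      refine Finset.sum_congr rfl fun i _ => ?_
      rw [inner_eb, smul_eq_mul]
      ring
    rw [e2, integral_finsetSum _ fun i _ => (hzi i).const_mul _]
    refine Finset.sum_congr rfl fun i _ => ?_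
    rw [integral_const_mul, sq]
  have e4 : ‖w‖ ^ 2 = ∑ i, a i ^ 2 := by
    rw [EuclideanSpace.norm_sq_eq]
    refine Finset.sum_congr rfl fun i _ => ?_
    simp [hw]
  have h5 : 0 ≤ ∫ z, (h z - a0 - (⟪w, z⟫ : ℝ)) ^ 2 ∂gam d := integral_nonneg fun z => sq_nonneg _
  have e5 : ∫ z, (h z - a0 - (⟪w, z⟫ : ℝ)) ^ 2 ∂gam d =
      ∫ z, h z ^ 2 ∂gam d - (a0 ^ 2 + ∑ i, a i ^ 2) := by
    have e6 : (fun z : E d => (h z - a0 - (⟪w, z⟫ : ℝ)) ^ 2) = fun z =>
        (h z ^ 2 + (⟪w, z⟫ : ℝ) ^ 2) - (2 * a0 * h z + 2 * (h z * (⟪w, z⟫ : ℝ))) +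
          (2 * a0 * (⟪w, z⟫ : ℝ) + a0 ^ 2) := by
      funext z
      ring
    have i1 : Integrable (fun z : E d => h z ^ 2 + (⟪w, z⟫ : ℝ) ^ 2) (gam d) := hi2.add hwi2
    have i2 : Integrable (fun z : E d => 2 * a0 * h z + 2 * (h z * (⟪w, z⟫ : ℝ))) (gam d) :=
      (hi.const_mul _).add (hhw.const_mul _)
    have i3 : Integrable (fun z : E d => 2 * a0 * (⟪w, z⟫ : ℝ) + a0 ^ 2) (gam d) :=
      (hwi.const_mul _).add (integrable_const _)
    have s1 : ∫ z, ((h z ^ 2 + (⟪w, z⟫ : ℝ) ^ 2) - (2 * a0 * h z + 2 * (h z * (⟪w, z⟫ : ℝ))) +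
          (2 * a0 * (⟪w, z⟫ : ℝ) + a0 ^ 2)) ∂gam d =
        ∫ z, ((h z ^ 2 + (⟪w, z⟫ : ℝ) ^ 2) - (2 * a0 * h z + 2 * (h z * (⟪w, z⟫ : ℝ)))) ∂gam d +
          ∫ z, (2 * a0 * (⟪w, z⟫ : ℝ) + a0 ^ 2) ∂gam d := integral_add (i1.sub i2) i3
    have s2 : ∫ z, ((h z ^ 2 + (⟪w, z⟫ : ℝ) ^ 2) -
          (2 * a0 * h z + 2 * (h z * (⟪w, z⟫ : ℝ)))) ∂gam d =
        ∫ z, (h z ^ 2 + (⟪w, z⟫ : ℝ) ^ 2) ∂gam d -
          ∫ z, (2 * a0 * h z + 2 * (h z * (⟪w, z⟫ : ℝ))) ∂gam d := integral_sub i1 i2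
    have s3 : ∫ z, (h z ^ 2 + (⟪w, z⟫ : ℝ) ^ 2) ∂gam d =
        ∫ z, h z ^ 2 ∂gam d + ∫ z, (⟪w, z⟫ : ℝ) ^ 2 ∂gam d := integral_add hi2 hwi2
    have s4 : ∫ z, (2 * a0 * h z + 2 * (h z * (⟪w, z⟫ : ℝ))) ∂gam d =
        ∫ z, 2 * a0 * h z ∂gam d + ∫ z, 2 * (h z * (⟪w, z⟫ : ℝ)) ∂gam d :=
      integral_add (hi.const_mul _) (hhw.const_mul _)
    have s5 : ∫ z, (2 * a0 * (⟪w, z⟫ : ℝ) + a0 ^ 2) ∂gam d =
        ∫ z, 2 * a0 * (⟪w, z⟫ : ℝ) ∂gam d + ∫ _z : E d, a0 ^ 2 ∂gam d :=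
      integral_add (hwi.const_mul _) (integrable_const _)
    rw [e6, s1, s2, s3, s4, s5, integral_const_mul, integral_const_mul, integral_const_mul,
      integral_inner_zero, integral_inner_sq, e1, e4,
      ← ha0, integral_const, probReal_univ, one_smul]
    ring
  rw [e5] at h5
  linarith

end ConvAux

/-- reverse Poincare inequality (Bessel) -/
theorem conv_reverse (hη : 0 < η) {f : E d → E k} (hm : StronglyMeasurable f) {C : ℝ}
    (hf : ∀ x, ‖f x‖ ≤ C) (x : E d) :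
    η * hs2 (fderiv ℝ (conv η f) x) + ‖conv η f x‖ ^ 2 ≤ conv η (fun x => ‖f x‖ ^ 2) x := by
  have hs : Real.sqrt η ≠ 0 := (Real.sqrt_pos.mpr hη).ne'
  have hmeas : Measurable fun z : E d => x + Real.sqrt η • z := by fun_prop
  set g : E d → E k := fun z => f (x + Real.sqrt η • z) with hg
  have hgm : StronglyMeasurable g := hm.comp_measurable hmeas
  have hgi : Integrable g (gam d) := integrable_shift hm hf x _
  have hgzi : ∀ i : Fin d, Integrable (fun z => (⟪z, eb i⟫ : ℝ) • g z) (gam d) := fun i =>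
    integrable_inner_shift hm hf x _ _
  have hcoord : ∀ l : Fin k, AEStronglyMeasurable (fun z => g z l) (gam d) := fun l => by
    have h1 : Continuous fun y : E k => y l := by fun_prop
    exact (h1.comp_stronglyMeasurable hgm).aestronglyMeasurable
  have hcb : ∀ (l : Fin k) (z : E d), |g z l| ≤ C := fun l z => by
    have h1 := PiLp.norm_apply_le (p := 2) (g z) l
    exact h1.trans (hf _)
  have hb := fun l : Fin k => ConvAux.bessel (hcoord l) (hcb l)
  have e1 : conv η (fun x => ‖f x‖ ^ 2) x = ∑ l : Fin k, ∫ z, g z l ^ 2 ∂gam d := by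
    rw [← integral_finsetSum]
    · refine integral_congr_ae (Filter.Eventually.of_forall fun z => ?_)
      show ‖g z‖ ^ 2 = _
      rw [EuclideanSpace.norm_sq_eq]
      simp
    · intro l _
      exact (MemLp.of_bound (hcoord l) C (Filter.Eventually.of_forall (hcb l))).integrable_sq
  have e2 : ‖conv η f x‖ ^ 2 = ∑ l : Fin k, (∫ z, g z l ∂gam d) ^ 2 := by
    rw [EuclideanSpace.norm_sq_eq]
    refine Finset.sum_congr rfl fun l _ => ?_
    have h3 : (conv η f x) l = ∫ z, g z l ∂gam d :=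
      ((EuclideanSpace.proj l : E k →L[ℝ] ℝ).integral_comp_comm hgi).symm
    rw [h3, Real.norm_eq_abs, sq_abs]
  have e3 : η * hs2 (fderiv ℝ (conv η f) x) =
      ∑ l : Fin k, ∑ i : Fin d, (∫ z, ⟪z, eb i⟫ • g z l ∂gam d) ^ 2 := by
    unfold hs2
    rw [Finset.sum_comm, Finset.mul_sum]
    refine Finset.sum_congr rfl fun i _ => ?_
    rw [conv_fderiv_apply hη hm hf, norm_smul, mul_pow, norm_inv,
      Real.norm_of_nonneg (Real.sqrt_nonneg η), inv_pow, Real.sq_sqrt hη.le, ← mul_assoc,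
      mul_inv_cancel₀ hη.ne', one_mul, EuclideanSpace.norm_sq_eq]
    refine Finset.sum_congr rfl fun l _ => ?_
    have h3 : (∫ z, (⟪z, eb i⟫ : ℝ) • g z ∂gam d) l = ∫ z, (⟪z, eb i⟫ : ℝ) • g z l ∂gam d :=
      ((EuclideanSpace.proj l : E k →L[ℝ] ℝ).integral_comp_comm (hgzi i)).symm
    have h4 : (∫ z, (⟪z, eb i⟫ : ℝ) • f (x + Real.sqrt η • z) ∂gam d) l =
        ∫ z, (⟪z, eb i⟫ : ℝ) • g z l ∂gam d := h3
    rw [h4, Real.norm_eq_abs, sq_abs]
  rw [e1, e2, e3, ← Finset.sum_add_distrib]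
  refine Finset.sum_le_sum fun l _ => ?_
  have := hb l
  linarith

theorem conv_reverse_scalar (hη : 0 < η) {f : E d → ℝ} (hm : Measurable f) {C : ℝ}
    (hf : ∀ x, |f x| ≤ C) (x : E d) :
    η * ‖gradient (conv η f) x‖ ^ 2 + (conv η f x) ^ 2 ≤ conv η (fun x => (f x) ^ 2) x := by
  have hmeas : Measurable fun z : E d => x + Real.sqrt η • z := by fun_prop
  have hb := ConvAux.bessel (h := fun z => f (x + Real.sqrt η • z))
    ((hm.comp hmeas).aestronglyMeasurable) (fun z => hf _)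
  have e3 : η * ‖gradient (conv η f) x‖ ^ 2 =
      ∑ i : Fin d, (∫ z, ⟪z, eb i⟫ • f (x + Real.sqrt η • z) ∂gam d) ^ 2 := by
    rw [EuclideanSpace.norm_sq_eq, Finset.mul_sum]
    refine Finset.sum_congr rfl fun i _ => ?_
    have h1 : (gradient (conv η f) x) i = fderiv ℝ (conv η f) x (eb i) := by
      rw [← ConvAux.inner_eb, gradient, InnerProductSpace.toDual_symm_apply]
    rw [h1, conv_fderiv_apply hη hm.stronglyMeasurable hf, norm_smul, mul_pow, norm_inv,
      Real.norm_of_nonneg (Real.sqrt_nonneg η), inv_pow, Real.sq_sqrt hη.le, ← mul_assoc,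
      mul_inv_cancel₀ hη.ne', one_mul, Real.norm_eq_abs, sq_abs]
  rw [e3]
  have h2 : conv η f x = ∫ z, f (x + Real.sqrt η • z) ∂gam d := rfl
  have h3 : conv η (fun x => (f x) ^ 2) x = ∫ z, f (x + Real.sqrt η • z) ^ 2 ∂gam d := rfl
  rw [h2, h3]
  linarith

end conv

end Vale.Agent.P347
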