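import Vale.Agent.P347.Conv

/-!
# P347: Gaussian convolution of smooth functions, semigroup property
-/

open MeasureTheory ProbabilityTheory
open scoped ENNReal NNReal RealInnerProductSpace Topology

namespace Vale.Agent.P347

section conv
variable {d k : ℕ} {η : ℝ}

theorem conv_gradient (hη : 0 < η) {f : E d → ℝ} (hf : ContDiff ℝ 1 f) {C L : ℝ}
    (hC : ∀ x, |f x| ≤ C) (hL : ∀ x, ‖fderiv ℝ f x‖ ≤ L) (x : E d) :
    gradient (conv η f) x = conv η (gradient f) x := by
  have h1 := ConvAux.hasFDerivAt_smooth (η := η) hf hC hL x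
  have hcd : Continuous (fderiv ℝ f) := hf.continuous_fderiv (by norm_num)
  have hi : Integrable (fun z => fderiv ℝ f (x + Real.sqrt η • z)) (gam d) :=
    (integrable_const L).mono' (hcd.comp (by fun_prop)).aestronglyMeasurable
      (Filter.Eventually.of_forall fun z => hL _)
  unfold gradient
  rw [h1.fderiv]
  exact ((InnerProductSpace.toDual ℝ (E d)).symm.toContinuousLinearEquiv.toContinuousLinearMap
    |>.integral_comp_comm hi).symm

/-- Jensen for the derivative -/
theorem conv_hs2 (hη : 0 < η) {h : E d → E k} (hh : ContDiff ℝ 1 h) {C L : ℝ}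
    (hC : ∀ x, ‖h x‖ ≤ C) (hL : ∀ x, ‖fderiv ℝ h x‖ ≤ L) (x : E d) :
    hs2 (fderiv ℝ (conv η h) x) ≤ conv η (fun x => hs2 (fderiv ℝ h x)) x := by
  have h1 := ConvAux.hasFDerivAt_smooth (η := η) hh hC hL x
  have hcd : Continuous (fderiv ℝ h) := hh.continuous_fderiv (by norm_num)
  rw [h1.fderiv]
  set T : E d → (E d →L[ℝ] E k) := fun z => fderiv ℝ h (x + Real.sqrt η • z) with hT
  have hTc : Continuous T := hcd.comp (by fun_prop)
  have hTi : Integrable T (gam d) :=
    (integrable_const L).mono' hTc.aestronglyMeasurable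
      (Filter.Eventually.of_forall fun z => hL _)
  have hev : ∀ i : Fin d, Integrable (fun z => T z (eb i)) (gam d) := fun i =>
    (ContinuousLinearMap.apply ℝ (E k) (eb i : E d)).integrable_comp hTi
  have heb : ∀ i : Fin d, ‖(eb i : E d)‖ = 1 := fun i => by simp [eb]
  have hevb : ∀ (i : Fin d) (z : E d), ‖T z (eb i)‖ ≤ L := fun i z => by
    refine ((T z).le_opNorm _).trans ?_
    rw [heb, mul_one]
    exact hL _
  have hev2 : ∀ i : Fin d, Integrable (fun z => ‖T z (eb i)‖ ^ 2) (gam d) := fun i => by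
    refine (integrable_const (L ^ 2)).mono' ?_ (Filter.Eventually.of_forall fun z => ?_)
    · exact ((hev i).aestronglyMeasurable.norm.pow 2)
    · rw [Real.norm_of_nonneg (by positivity)]
      exact pow_le_pow_left₀ (norm_nonneg _) (hevb i z) 2
  have h2 : ∀ i : Fin d, ‖(conv η (fderiv ℝ h) x) (eb i)‖ ^ 2 ≤
      ∫ z, ‖T z (eb i)‖ ^ 2 ∂gam d := by
    intro i
    have e1 : (conv η (fderiv ℝ h) x) (eb i) = ∫ z, T z (eb i) ∂gam d :=
      ((ContinuousLinearMap.apply ℝ (E k) (eb i : E d)).integral_comp_comm hTi).symm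
    rw [e1]
    exact MehlerAux.jensen (gam d) (hev i) (hev2 i)
  calc hs2 (conv η (fderiv ℝ h) x)
      ≤ ∑ i : Fin d, ∫ z, ‖T z (eb i)‖ ^ 2 ∂gam d := Finset.sum_le_sum fun i _ => h2 i
    _ = ∫ z, ∑ i : Fin d, ‖T z (eb i)‖ ^ 2 ∂gam d :=
        (integral_finsetSum _ fun i _ => hev2 i).symm
    _ = _ := rfl

theorem conv_half (hη : 0 < η) {F : Type*} [NormedAddCommGroup F] [NormedSpace ℝ F]
    [CompleteSpace F] {f : E d → F} (hm : StronglyMeasurable f) {C : ℝ} (hf : ∀ x, ‖f x‖ ≤ C)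
    (x : E d) : conv (η / 2) (conv (η / 2) f) x = conv η f x :=
  ConvAux.conv_half hη hm hf x

end conv

end Vale.Agent.P347
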