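import Mathlib

/-!
# P347: basic definitions (sampling from well conditioned log-concave laws)
-/

open MeasureTheory ProbabilityTheory
open scoped ENNReal NNReal RealInnerProductSpace

namespace Vale.Agent.P347

/-- `ℝ^d` with its Euclidean structure. -/
abbrev E (d : ℕ) := EuclideanSpace ℝ (Fin d)

/-- The standard Gaussian measure on `ℝ^d`. -/
noncomputable abbrev gam (d : ℕ) : Measure (E d) := stdGaussian (E d)

/-- A finite family of independent standard Gaussian vectors. -/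
noncomputable abbrev gamPi (d : ℕ) (ι : Type) [Fintype ι] : Measure (ι → E d) :=
  Measure.pi fun _ => gam d

/-- Squared Euclidean norm of a finite family of vectors. -/
noncomputable def sq2 {d : ℕ} {ι : Type} [Fintype ι] (ω : ι → E d) : ℝ := ∑ i, ‖ω i‖ ^ 2

/-- The `i`-th standard basis vector. -/
noncomputable def eb {d : ℕ} (i : Fin d) : E d := EuclideanSpace.single i 1

/-- Squared Hilbert-Schmidt norm of a linear map. -/
noncomputable def hs2 {d : ℕ} {F : Type*} [NormedAddCommGroup F] [NormedSpace ℝ F]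
    (T : E d →L[ℝ] F) : ℝ := ∑ i, ‖T (eb i)‖ ^ 2

/-- Divergence of a vector field. -/
noncomputable def diverg {d : ℕ} (v : E d → E d) (x : E d) : ℝ :=
  ∑ i, ⟪fderiv ℝ v x (eb i), eb i⟫

/-- Mehler operator `f ↦ E f(ρ x + sqrt(1-ρ²) z)`. -/
noncomputable def mehler {d : ℕ} {F : Type*} [NormedAddCommGroup F] [NormedSpace ℝ F]
    (ρ : ℝ) (f : E d → F) (x : E d) : F :=
  ∫ z, f (ρ • x + Real.sqrt (1 - ρ ^ 2) • z) ∂gam d

/-- polynomial growth -/
def PolyGrowth {d : ℕ} {F : Type*} [NormedAddCommGroup F] (f : E d → F) : Prop :=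
  ∃ (C : ℝ) (p : ℕ), ∀ x, ‖f x‖ ≤ C * (1 + ‖x‖) ^ p

/-- `∑ p_i P_{ρ_i} φ` -/
noncomputable def avg {ι : Type} [Fintype ι] {d : ℕ} {F : Type*} [NormedAddCommGroup F]
    [NormedSpace ℝ F] (p ρ : ι → ℝ) (φ : E d → F) (x : E d) : F := ∑ i, p i • mehler (ρ i) φ x

/-- Gaussian convolution `f ↦ E f(x + sqrt(η) z)`. -/
noncomputable def conv {d : ℕ} {F : Type*} [NormedAddCommGroup F] [NormedSpace ℝ F]
    (η : ℝ) (f : E d → F) (x : E d) : F :=
  ∫ z, f (x + Real.sqrt η • z) ∂gam d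

/-- `V ∈ C²` with `α ≤ D²V ≤ β` (as quadratic forms). -/
structure Pot (d : ℕ) (α β : ℝ) (V : E d → ℝ) : Prop where
  smooth : ContDiff ℝ 2 V
  lower : ∀ x v, α * ‖v‖ ^ 2 ≤ iteratedFDeriv ℝ 2 V x fun _ => v
  upper : ∀ x v, iteratedFDeriv ℝ 2 V x (fun _ => v) ≤ β * ‖v‖ ^ 2

/-- The Gibbs probability law with density proportional to `exp(-V)`. -/
noncomputable def gibbs {d : ℕ} (V : E d → ℝ) : Measure (E d) :=
  (volume : Measure (E d)).tilted fun x => -V x

/-- The proximal kernel `R_y`: density proportional to `exp(-V(x) - |x-y|²/(2η))`. -/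
noncomputable def prox {d : ℕ} (V : E d → ℝ) (η : ℝ) (y : E d) : Measure (E d) :=
  gibbs fun x => V x + ‖x - y‖ ^ 2 / (2 * η)

/-- The operator `R`. -/
noncomputable def opR {d : ℕ} {F : Type*} [NormedAddCommGroup F] [NormedSpace ℝ F]
    (V : E d → ℝ) (η : ℝ) (f : E d → F) (y : E d) : F :=
  ∫ x, f x ∂prox V η y

/-- The operator `K = R N` of the exact `y`-chain: `y → x ~ R_y → x + sqrt(η) Z`. -/
noncomputable def opK {d : ℕ} {F : Type*} [NormedAddCommGroup F] [NormedSpace ℝ F]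
    (V : E d → ℝ) (η : ℝ) (f : E d → F) : E d → F :=
  opR V η (conv η f)

end Vale.Agent.P347
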