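import Vale.Agent.P347.DefsB

/-!
# P347: definitions for the kinetic chain (exponent 1/6)

Phase space `E2 d = E d × E d`, state `(x,z)`; all lengths in units of `h`, `ε = h²`.
-/

open MeasureTheory ProbabilityTheory
open scoped ENNReal NNReal RealInnerProductSpace

namespace Vale.Agent.P347

/-- phase space -/
abbrev E2 (d : ℕ) := E d × E d

section forms
variable {d : ℕ} {G : Type*} [NormedAddCommGroup G] [NormedSpace ℝ G]

/-- squared HS norm of the `x`-part of a linear map on phase space -/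
noncomputable def hx (T : E2 d →L[ℝ] G) : ℝ := ∑ i, ‖T (eb i, 0)‖ ^ 2

/-- squared HS norm of the `z`-part -/
noncomputable def hz (T : E2 d →L[ℝ] G) : ℝ := ∑ i, ‖T (0, eb i)‖ ^ 2

/-- `|T_z - a T_x|²_HS` -/
noncomputable def hd (a : ℝ) (T : E2 d →L[ℝ] G) : ℝ := ∑ i, ‖T (-(a • eb i), eb i)‖ ^ 2

/-- the quadratic form `S_n` (without the factor `κ r²`) -/
noncomputable def frm (n : ℝ) (T : E2 d →L[ℝ] G) : ℝ := n ^ 3 / 8 * hx T + 7 * n / 8 * hd n T

/-- the transported form `T_n⁰` -/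
noncomputable def frm' (n : ℝ) (T : E2 d →L[ℝ] G) : ℝ :=
  n ^ 3 / 8 * hx T + 7 * n / 8 * hd (n + 2) T

/-- the linear map `(a,b) ↦ (a + 2b - ε L(a,b), b - ε L(a,b))` -/
noncomputable def kjac (ε : ℝ) (L : E2 d →L[ℝ] E d) : E2 d →L[ℝ] E2 d :=
  (ContinuousLinearMap.fst ℝ (E d) (E d) + (2 : ℝ) • ContinuousLinearMap.snd ℝ (E d) (E d) -
    ε • L).prod (ContinuousLinearMap.snd ℝ (E d) (E d) - ε • L)

/-- the linear map `(a,b) ↦ (a, ρ b)` -/
noncomputable def dil (d : ℕ) (ρ : ℝ) : E2 d →L[ℝ] E2 d :=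
  (ContinuousLinearMap.fst ℝ (E d) (E d)).prod (ρ • ContinuousLinearMap.snd ℝ (E d) (E d))

end forms

section chain
variable {d : ℕ} {κ : Type} [Fintype κ] {G : Type*} [NormedAddCommGroup G] [NormedSpace ℝ G]

/-- the kinetic map with force `F` -/
noncomputable def kmap (F : E2 d → (κ → E d) → E d) (ε : ℝ) (s : E2 d) (ω : κ → E d) : E2 d :=
  (s.1 + (2 : ℝ) • s.2 - ε • F s ω, s.2 - ε • F s ω)

/-- average over the private noise of the kinetic map -/
noncomputable def opM (F : E2 d → (κ → E d) → E d) (ε : ℝ) (v : E2 d → G) (s : E2 d) : G :=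
  ∫ ω, v (kmap F ε s ω) ∂gamPi d κ

/-- additive noise: `v ↦ E v(x + σ ξ, ρ z + r ξ')` -/
noncomputable def opN (σ ρ r : ℝ) (v : E2 d → G) (s : E2 d) : G :=
  ∫ q, v (s.1 + σ • q.1, ρ • s.2 + r • q.2) ∂(gam d).prod (gam d)

/-- one full step of the chain with step size `h`: `ε = σ = h²`, `r² = 8h`, `ρ² = 1 - 8h`. -/
noncomputable def opT (F : E2 d → (κ → E d) → E d) (h : ℝ) (v : E2 d → G) : E2 d → G :=
  opN (h ^ 2) (Real.sqrt (1 - 8 * h)) (Real.sqrt (8 * h)) (opM F (h ^ 2) v)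

/-- bounded `C¹` functions with bounded derivative -/
structure Nice (v : E2 d → G) : Prop where
  smooth : ContDiff ℝ 1 v
  bd : ∃ C, ∀ s, ‖v s‖ ≤ C
  dbd : ∃ C, ∀ s, ‖fderiv ℝ v s‖ ≤ C

/-- assumptions on the force -/
structure Force (κ : Type) [Fintype κ] (F : E2 d → (κ → E d) → E d) : Prop where
  smooth : ContDiff ℝ 1 (fun q : E2 d × (κ → E d) => F q.1 q.2)
  lip : ∀ s s' ω, ‖F s ω - F s' ω‖ ≤ 8 * (‖s.1 - s'.1‖ + ‖s.2 - s'.2‖)

/-- `x`-gradient of a scalar function on phase space -/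
noncomputable def gx (u : E2 d → ℝ) (s : E2 d) : E d := ∑ i, fderiv ℝ u s (eb i, 0) • eb i

/-- `z`-gradient of a scalar function on phase space -/
noncomputable def gz (u : E2 d → ℝ) (s : E2 d) : E d := ∑ i, fderiv ℝ u s (0, eb i) • eb i

/-- `q ↦ E (∂ₓF)ᵀ q(step)` -/
noncomputable def opAx (F : E2 d → (κ → E d) → E d) (h : ℝ) (q : E2 d → E d) : E2 d → E d :=
  opN (h ^ 2) (Real.sqrt (1 - 8 * h)) (Real.sqrt (8 * h)) fun s =>
    ∫ ω, ∑ i, ⟪fderiv ℝ (fun s => F s ω) s (eb i, 0), q (kmap F (h ^ 2) s ω)⟫ • (eb i : E d)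
      ∂gamPi d κ

/-- `q ↦ E (∂_zF)ᵀ q(step)` -/
noncomputable def opAz (F : E2 d → (κ → E d) → E d) (h : ℝ) (q : E2 d → E d) : E2 d → E d :=
  opN (h ^ 2) (Real.sqrt (1 - 8 * h)) (Real.sqrt (8 * h)) fun s =>
    ∫ ω, ∑ i, ⟪fderiv ℝ (fun s => F s ω) s (0, eb i), q (kmap F (h ^ 2) s ω)⟫ • (eb i : E d)
      ∂gamPi d κ

end chain

section force
variable {d n : ℕ}

/-- centre of the clouds -/
noncomputable def cen (w : E d → E d) (ε : ℝ) (y : E d) : E d := y - ε • w y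

/-- first cloud average -/
noncomputable def cloud1 (w : E d → E d) (p ρ : Fin n → ℝ) (ε : ℝ) (s : E2 d)
    (ζ : Fin n → E d) : E d :=
  lev1 (fun t => w (cen w ε (s.1 + s.2) + t)) p ρ (s.1 - cen w ε (s.1 + s.2)) ζ

/-- reflected Gaussian seed -/
noncomputable def seed (w : E d → E d) (p ρ : Fin n → ℝ) (ε : ℝ) (s : E2 d)
    (ζ : Fin n → E d) : E d :=
  s.2 - ε • cloud1 w p ρ ε s ζ

/-- second cloud average -/
noncomputable def cloud2 (w : E d → E d) (p ρ : Fin n → ℝ) (ε : ℝ) (s : E2 d)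
    (ζ ζ' : Fin n → E d) : E d :=
  lev1 (fun t => w (cen w ε (s.1 + s.2) + t)) p ρ (seed w p ρ ε s ζ) ζ'

/-- the force of the algorithm: `2n+1` queries of `w` -/
noncomputable def frc (w : E d → E d) (p ρ : Fin n → ℝ) (ε : ℝ) (s : E2 d)
    (ω : Fin n ⊕ Fin n → E d) : E d :=
  cloud1 w p ρ ε s (fun i => ω (Sum.inl i)) +
    cloud2 w p ρ ε s (fun i => ω (Sum.inl i)) (fun i => ω (Sum.inr i))

/-- start function of the main phase: `(x,z) ↦ E f(x + Z)` -/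
noncomputable def u0 (f : E d → ℝ) (s : E2 d) : ℝ := conv 1 f s.1

end force

end Vale.Agent.P347
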