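import Vale.Agent.P347.DefsC

/-!
# P347: definitions for the end of the algorithm (halving phase), scaling, total algorithm
-/

open MeasureTheory ProbabilityTheory
open scoped ENNReal NNReal RealInnerProductSpace

namespace Vale.Agent.P347

/-- `(p, r^k)` is a positive quadrature of accuracy `τ` (see `exists_quad`). -/
structure IsQuad {n : ℕ} (r τ : ℝ) (k : Fin n → ℕ) (p : Fin n → ℝ) : Prop where
  r0 : 0 < r
  r1 : r < 1
  p0 : ∀ i, 0 ≤ p i
  ps : ∑ i, p i = 1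
  k1 : ∀ i, 1 ≤ k i
  τ0 : 0 < τ
  τ1 : τ ≤ 1 / 2
  acc : ∀ y : ℝ, 0 ≤ y → |∑ i, p i * (r ^ (k i : ℝ)) ^ y - 1 / (1 + y)| ≤ τ

/-- rescaled potential `x ↦ V(h x)/h²` -/
noncomputable def scV {d : ℕ} (V : E d → ℝ) (h : ℝ) (x : E d) : ℝ := V (h • x) / h ^ 2

/-- one-level approximate proximal kernel, `n + 1` queries -/
noncomputable def opR1 {d n : ℕ} (V : E d → ℝ) (η : ℝ) (p ρ : Fin n → ℝ) (f : E d → ℝ)
    (y : E d) : ℝ :=
  ∫ G, ∫ ζ, f (y - η • gradient V y + Real.sqrt η • (G - η • ∑ i, p i •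
    ((Real.sqrt η)⁻¹ • (gradient V (y - η • gradient V y +
      Real.sqrt η • (ρ i • G + Real.sqrt (1 - ρ i ^ 2) • ζ i)) - gradient V y))))
      ∂gamPi d (Fin n) ∂gam d

/-- the halving phase: `J` steps from noise level `η` -/
noncomputable def halv {d n : ℕ} (V : E d → ℝ) (p ρ : Fin n → ℝ) : ℕ → ℝ → (E d → ℝ) → E d → ℝ
  | 0, _, f => f
  | J + 1, η, f => opR1 V η p ρ (conv (η / 2) (halv V p ρ J (η / 2) f))

/-- the kinetic chain for the potential `V`, step size `h` -/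
noncomputable def opTV {d n : ℕ} (V : E d → ℝ) (h : ℝ) (p ρ : Fin n → ℝ) (u : E2 d → ℝ) :
    E2 d → ℝ :=
  opT (frc (gradient (scV V h)) p ρ (h ^ 2)) h u

/-- the complete algorithm, acting on test functions -/
noncomputable def algo {d n : ℕ} (h : ℝ) (N J : ℕ) (p ρ : Fin n → ℝ) (V : E d → ℝ) (f : E d → ℝ)
    (_ : Unit) : ℝ :=
  (opTV V h p ρ)^[N] (u0 fun y => halv V p ρ J (h ^ 2) f (h • y)) (0, 0)

end Vale.Agent.P347
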