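import Vale.Agent.P347.IBP

/-!
# P347, A4: the Gaussian divergence is bounded by the Sobolev norm
-/

open MeasureTheory ProbabilityTheory Filter Topology
open scoped ENNReal NNReal RealInnerProductSpace

namespace Vale.Agent.P347

namespace DeltaAux

variable {d : ℕ}

/-- averaging in the direction `j` -/
noncomputable def st (j : Fin d) (s : ℝ) (g : E d → ℝ) (x : E d) : ℝ :=
  ∫ t in (0 : ℝ)..1, g (x + (t * s) • eb j)

/-- difference quotient in the direction `j` -/
noncomputable def dq (j : Fin d) (s : ℝ) (g : E d → ℝ) (x : E d) : ℝ :=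
  (g (x + s • eb j) - g x) / s

/-- partial derivative -/
noncomputable def pd (i : Fin d) (g : E d → ℝ) (x : E d) : ℝ := fderiv ℝ g x (eb i)

theorem st_continuous (j : Fin d) (s : ℝ) {g : E d → ℝ} (hg : Continuous g) :
    Continuous (st j s g) := by
  unfold st
  refine intervalIntegral.continuous_parametric_intervalIntegral_of_continuous' ?_ 0 1
  exact hg.comp (by fun_prop)

theorem dq_continuous (j : Fin d) (s : ℝ) {g : E d → ℝ} (hg : Continuous g) :
    Continuous (dq j s g) := by
  unfold dq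
  exact ((hg.comp (by fun_prop)).sub hg).div_const s

theorem pd_continuous (i : Fin d) {g : E d → ℝ} (hg : ContDiff ℝ 1 g) : Continuous (pd i g) :=
  (hg.continuous_fderiv one_ne_zero).clm_apply continuous_const

theorem pd_le {g : E d → ℝ} {L : ℝ} (hL : ∀ x, ‖fderiv ℝ g x‖ ≤ L) (i : Fin d) (x : E d) :
    |pd i g x| ≤ L := by
  have h := ContinuousLinearMap.le_opNorm (fderiv ℝ g x) (eb i)
  rw [norm_eb, mul_one] at h
  exact h.trans (hL x)

theorem shift_le (j : Fin d) {s t : ℝ} (h : |t * s| ≤ 1) (x : E d) :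
    1 + ‖x + (t * s) • (eb j : E d)‖ ≤ 2 * (1 + ‖x‖) := by
  have h1 : ‖x + (t * s) • (eb j : E d)‖ ≤ ‖x‖ + 1 := by
    refine (norm_add_le _ _).trans ?_
    rw [norm_smul, norm_eb, mul_one, Real.norm_eq_abs]
    linarith
  linarith [norm_nonneg x]

theorem st_bound (j : Fin d) {s : ℝ} (h0 : 0 ≤ s) (h1 : s ≤ 1) {g : E d → ℝ} {C : ℝ} {p : ℕ}
    (hC0 : 0 ≤ C) (hC : ∀ x, ‖g x‖ ≤ C * (1 + ‖x‖) ^ p) (x : E d) :
    ‖st j s g x‖ ≤ C * 2 ^ p * (1 + ‖x‖) ^ p := by
  unfold st
  have h := intervalIntegral.norm_integral_le_of_norm_le_const (a := (0 : ℝ)) (b := 1)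
    (C := C * 2 ^ p * (1 + ‖x‖) ^ p) (f := fun t => g (x + (t * s) • eb j)) ?_
  · simpa using h
  · intro t ht
    rw [Set.uIoc_of_le zero_le_one] at ht
    refine (hC _).trans ?_
    rw [mul_assoc, ← mul_pow]
    refine mul_le_mul_of_nonneg_left (pow_le_pow_left₀ (by positivity) (shift_le j ?_ x) p) hC0
    rw [abs_mul, abs_of_pos ht.1, abs_of_nonneg h0]
    exact mul_le_one₀ ht.2 h0 h1

theorem dq_bound (j : Fin d) {s : ℝ} (hs : s ≠ 0) {g : E d → ℝ} (hg : ContDiff ℝ 1 g) {L : ℝ}
    (hL : ∀ x, ‖fderiv ℝ g x‖ ≤ L) (x : E d) : ‖dq j s g x‖ ≤ L := by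
  unfold dq
  have h := Convex.norm_image_sub_le_of_norm_fderiv_le (𝕜 := ℝ) (f := g) (C := L)
    (s := Set.univ) (x := x) (y := x + s • eb j)
    (fun y _ => hg.differentiable one_ne_zero y) (fun y _ => hL y) convex_univ
    (Set.mem_univ _) (Set.mem_univ _)
  rw [add_sub_cancel_left, norm_smul, norm_eb, mul_one] at h
  rw [norm_div, div_le_iff₀ (norm_pos_iff.2 hs)]
  exact h

theorem growth_of_lip {g : E d → ℝ} (hg : ContDiff ℝ 1 g) {L : ℝ}
    (hL : ∀ x, ‖fderiv ℝ g x‖ ≤ L) : ∀ x, ‖g x‖ ≤ (|g 0| + L) * (1 + ‖x‖) ^ 1 := by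
  intro x
  have hL0 : 0 ≤ L := (norm_nonneg _).trans (hL 0)
  have h := Convex.norm_image_sub_le_of_norm_fderiv_le (𝕜 := ℝ) (f := g) (C := L)
    (s := Set.univ) (x := 0) (y := x)
    (fun y _ => hg.differentiable one_ne_zero y) (fun y _ => hL y) convex_univ
    (Set.mem_univ _) (Set.mem_univ _)
  rw [sub_zero] at h
  have h2 : ‖g x‖ ≤ ‖g x - g 0‖ + ‖g 0‖ := by
    have := norm_add_le (g x - g 0) (g 0)
    simpa using this
  rw [Real.norm_eq_abs (g 0)] at h2
  rw [pow_one]
  nlinarith [norm_nonneg x, abs_nonneg (g 0)]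

theorem st_tendsto (j : Fin d) {g : E d → ℝ} (hg : Continuous g) (x : E d) {u : ℕ → ℝ}
    (hu : Tendsto u atTop (𝓝 0)) : Tendsto (fun n => st j (u n) g x) atTop (𝓝 (g x)) := by
  have h1 : Continuous (fun s : ℝ => st j s g x) := by
    unfold st
    refine intervalIntegral.continuous_parametric_intervalIntegral_of_continuous' ?_ 0 1
    exact hg.comp (by fun_prop)
  have h2 : st j 0 g x = g x := by
    unfold st
    simp
  rw [← h2]
  exact (h1.tendsto 0).comp hu

theorem line_deriv {g : E d → ℝ} (hg : ContDiff ℝ 1 g) (i : Fin d) (x : E d) :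
    HasDerivAt (fun t : ℝ => g (x + t • eb i)) (pd i g x) 0 := by
  have h2 : HasFDerivAt g (fderiv ℝ g x) (x + (0 : ℝ) • eb i) := by
    rw [zero_smul, add_zero]
    exact (hg.differentiable one_ne_zero x).hasFDerivAt
  have h3 : HasDerivAt (fun t : ℝ => x + t • (eb i : E d)) (eb i) 0 := by
    have := ((hasDerivAt_id (0 : ℝ)).smul_const (eb i : E d)).const_add x
    simpa using this
  exact h2.comp_hasDerivAt (0 : ℝ) h3

theorem line_deriv' {g : E d → ℝ} (hg : ContDiff ℝ 1 g) (i : Fin d) (x : E d) (r : ℝ) :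
    HasDerivAt (fun t : ℝ => g (x + t • eb i)) (pd i g (x + r • eb i)) r := by
  have h2 : HasFDerivAt g (fderiv ℝ g (x + r • eb i)) (x + r • eb i) :=
    (hg.differentiable one_ne_zero _).hasFDerivAt
  have h3 : HasDerivAt (fun t : ℝ => x + t • (eb i : E d)) (eb i) r := by
    have := ((hasDerivAt_id r).smul_const (eb i : E d)).const_add x
    simpa using this
  exact h2.comp_hasDerivAt r h3

theorem dq_tendsto (j : Fin d) {g : E d → ℝ} (hg : ContDiff ℝ 1 g) (x : E d) {u : ℕ → ℝ}
    (hu : Tendsto u atTop (𝓝 0)) (hu0 : ∀ n, u n ≠ 0) :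
    Tendsto (fun n => dq j (u n) g x) atTop (𝓝 (pd j g x)) := by
  have h := (line_deriv hg j x).tendsto_slope_zero
  have h2 : Tendsto u atTop (𝓝[≠] 0) :=
    tendsto_nhdsWithin_iff.2 ⟨hu, Eventually.of_forall hu0⟩
  refine (h.comp h2).congr fun n => ?_
  simp only [Function.comp, smul_eq_mul, zero_add, zero_smul, add_zero, dq]
  rw [div_eq_inv_mul]

theorem st_dir_self (j : Fin d) {s : ℝ} (hs : s ≠ 0) {G : E d → ℝ} (hG : Continuous G) (x : E d) :
    HasDerivAt (fun r : ℝ => st j s G (x + r • eb j)) (dq j s G x) 0 := by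
  set φ : ℝ → ℝ := fun u => G (x + u • eb j) with hφ
  have hc : Continuous φ := hG.comp (by fun_prop)
  have e : ∀ r : ℝ, st j s G (x + r • eb j) =
      s⁻¹ * ((∫ u in (0 : ℝ)..(s + r), φ u) - ∫ u in (0 : ℝ)..r, φ u) := by
    intro r
    unfold st
    have h1 : (fun t : ℝ => G (x + r • eb j + (t * s) • eb j)) = fun t => φ (s * t + r) := by
      funext t
      rw [hφ]
      congr 1
      rw [add_assoc, ← add_smul]
      congr 2
      ring
    rw [h1]
    rw [intervalIntegral.integral_comp_mul_add (fun u => φ u) hs r] 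
    rw [mul_zero, zero_add, mul_one, smul_eq_mul,
      ← intervalIntegral.integral_interval_sub_left (hc.intervalIntegrable _ _)
      (hc.intervalIntegrable _ _)]
  have h1 : HasDerivAt (fun r : ℝ => ∫ u in (0 : ℝ)..r, φ u) (φ 0) 0 :=
    intervalIntegral.integral_hasDerivAt_right (hc.intervalIntegrable _ _)
      hc.stronglyMeasurable.stronglyMeasurableAtFilter hc.continuousAt
  have h2 : HasDerivAt (fun r : ℝ => ∫ u in (0 : ℝ)..(s + r), φ u) (φ s) 0 := by
    have h3 : HasDerivAt (fun r : ℝ => ∫ u in (0 : ℝ)..r, φ u) (φ s) (s + 0) := by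
      rw [add_zero]
      exact intervalIntegral.integral_hasDerivAt_right (hc.intervalIntegrable _ _)
        hc.stronglyMeasurable.stronglyMeasurableAtFilter hc.continuousAt
    exact h3.comp_const_add s 0
  have h3 := (h2.sub h1).const_mul s⁻¹
  refine (h3.congr_deriv ?_).congr_of_eventuallyEq ?_
  · unfold dq
    rw [hφ]
    simp only [zero_smul, add_zero]
    rw [div_eq_inv_mul]
  · filter_upwards with r
    exact e r

theorem st_dir (i j : Fin d) (s : ℝ) {g : E d → ℝ} (hg : ContDiff ℝ 1 g) {L : ℝ}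
    (hL : ∀ x, ‖fderiv ℝ g x‖ ≤ L) (x : E d) :
    HasDerivAt (fun r : ℝ => st j s g (x + r • eb i)) (st j s (pd i g) x) 0 := by
  unfold st
  have hgc := hg.continuous
  have hpc := pd_continuous i hg
  have h := intervalIntegral.hasDerivAt_integral_of_dominated_loc_of_deriv_le
    (𝕜 := ℝ) (μ := volume) (a := (0 : ℝ)) (b := 1) (s := Set.univ) (x₀ := (0 : ℝ))
    (F := fun r t => g (x + r • eb i + (t * s) • eb j))
    (F' := fun r t => pd i g (x + r • eb i + (t * s) • eb j)) (bound := fun _ => L)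
    Filter.univ_mem ?_ ?_ ?_ ?_ ?_ ?_
  · refine h.2.congr_deriv ?_
    simp
  · filter_upwards with r
    exact (hgc.comp (by fun_prop)).aestronglyMeasurable
  · exact (hgc.comp (by fun_prop)).intervalIntegrable _ _
  · exact (hpc.comp (by fun_prop)).aestronglyMeasurable
  · filter_upwards with t _ r _
    exact pd_le hL i _
  · exact intervalIntegrable_const
  · filter_upwards with t _ r _
    have h1 := line_deriv' hg i (x + (t * s) • eb j) r
    have e1 : ∀ r : ℝ, x + (t * s) • (eb j : E d) + r • eb i = x + r • eb i + (t * s) • eb j := by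
      intro r
      abel
    simpa only [e1] using h1

/-- the formula with the averaged function -/
theorem key_s (i j : Fin d) {s : ℝ} (h0 : 0 < s) (h1 : s ≤ 1) {f g : E d → ℝ}
    (hf : ContDiff ℝ 1 f) (hg : ContDiff ℝ 1 g) {L : ℝ} (hLf : ∀ x, ‖fderiv ℝ f x‖ ≤ L)
    (hLg : ∀ x, ‖fderiv ℝ g x‖ ≤ L) :
    ∫ x, (x i * f x - pd i f x) * (x j * st j s g x - dq j s g x) ∂gam d =
      (if i = j then 1 else 0) * ∫ x, f x * st j s g x ∂gam d +
        ∫ x, pd j f x * st j s (pd i g) x ∂gam d := by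
  have cx : ∀ k : Fin d, Continuous (fun x : E d => x k) := fun k => by fun_prop
  have fc := hf.continuous
  have gc := hg.continuous
  have pfc := fun k => pd_continuous k hf
  have pgc := fun k => pd_continuous k hg
  have gf : PolyGrowth f := ⟨_, _, growth_of_lip hf hLf⟩
  have gg := growth_of_lip hg hLg
  have hL0 : 0 ≤ L := (norm_nonneg _).trans (hLf 0)
  have gst : PolyGrowth (st j s g) :=
    ⟨_, _, st_bound j h0.le h1 (add_nonneg (abs_nonneg _) hL0) gg⟩
  have gdq : PolyGrowth (dq j s g) := polyGrowth_of_bdd fun x => dq_bound j h0.ne' hg hLg x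
  have gpf : ∀ k, PolyGrowth (pd k f) := fun k => polyGrowth_of_bdd fun x => pd_le hLf k x
  have gpg : ∀ k, PolyGrowth (pd k g) := fun k => polyGrowth_of_bdd fun x => pd_le hLg k x
  have gstp : PolyGrowth (st j s (pd i g)) :=
    ⟨_, _, st_bound j h0.le h1 (C := L) (p := 0) hL0 fun x => by simpa using pd_le hLg i x⟩
  have gdqp : PolyGrowth (dq j s (pd i g)) := by
    refine polyGrowth_of_bdd (C := (L + L) / s) fun x => ?_
    unfold dq
    rw [norm_div, Real.norm_eq_abs s, abs_of_pos h0]
    refine div_le_div_of_nonneg_right ?_ h0.le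
    exact (norm_sub_le _ _).trans (add_le_add (pd_le hLg i _) (pd_le hLg i _))
  have cst := st_continuous j s gc
  have cdq := dq_continuous j s gc
  have cstp := st_continuous j s (pgc i)
  have cdqp := dq_continuous j s (pgc i)
  have hx := polyGrowth_coord (d := d)
  -- first integration by parts
  have I1 : ∫ x, x i * (f x * (x j * st j s g x - dq j s g x)) ∂gam d =
      ∫ x, (pd i f x * (x j * st j s g x - dq j s g x) +
        f x * ((if i = j then 1 else 0) * st j s g x + x j * st j s (pd i g) x -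
          dq j s (pd i g) x)) ∂gam d := by
    refine ibp_dir i _ _ ?_ ?_ ?_ ?_ fun x => ?_
    · exact fc.mul (((cx j).mul cst).sub cdq)
    · exact ((pfc i).mul (((cx j).mul cst).sub cdq)).add
        (fc.mul (((continuous_const.mul cst).add ((cx j).mul cstp)).sub cdqp))
    · exact gf.mul (((hx j).mul gst).sub gdq)
    · refine ((gpf i).mul (((hx j).mul gst).sub gdq)).add (gf.mul ?_)
      refine PolyGrowth.sub (PolyGrowth.add ?_ ((hx j).mul gstp)) gdqp
      exact (polyGrowth_of_bdd (C := 1) (f := fun _ : E d => (if i = j then (1 : ℝ) else 0))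
        (fun x => by split_ifs <;> simp)).mul gst
    · have d1 := line_deriv hf i x
      have d2 := st_dir i j s hg hLg x
      have d3 : HasDerivAt (fun t : ℝ => (x + t • (eb i : E d)) j) (if i = j then 1 else 0) 0 := by
        have : (fun t : ℝ => (x + t • (eb i : E d)) j) =
            fun t : ℝ => x j + t * (if j = i then 1 else 0) := by
          funext t
          simp [eb_apply]
        rw [this]
        have h4 := ((hasDerivAt_id (0 : ℝ)).mul_const (if j = i then (1 : ℝ) else 0)).const_add (x j)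
        refine h4.congr_deriv ?_
        by_cases hij : i = j
        · simp [hij]
        · simp [hij, Ne.symm hij]
      have d4 : HasDerivAt (fun t : ℝ => dq j s g (x + t • (eb i : E d))) (dq j s (pd i g) x) 0 := by
        unfold dq
        refine HasDerivAt.div_const (HasDerivAt.sub ?_ (line_deriv hg i x)) s
        have h5 := line_deriv hg i (x + s • eb j)
        have e1 : ∀ r : ℝ, x + s • (eb j : E d) + r • eb i = x + r • eb i + s • eb j := by
          intro r
          abel
        simpa only [e1] using h5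
      have d5 := d1.mul ((d3.mul d2).sub d4)
      refine d5.congr_deriv ?_
      simp only [zero_smul, add_zero, Pi.sub_apply, Pi.mul_apply]
  -- second integration by parts
  have I2 : ∫ x, x j * (f x * st j s (pd i g) x) ∂gam d =
      ∫ x, (pd j f x * st j s (pd i g) x + f x * dq j s (pd i g) x) ∂gam d := by
    refine ibp_dir j _ _ (fc.mul cstp) (((pfc j).mul cstp).add (fc.mul cdqp)) (gf.mul gstp)
      (((gpf j).mul gstp).add (gf.mul gdqp)) fun x => ?_
    have d1 := line_deriv hf j x
    have d2 := st_dir_self j h0.ne' (pgc i) x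
    have d3 := d1.mul d2
    refine d3.congr_deriv ?_
    simp only [zero_smul, add_zero]
  -- integrability
  have J1 : Integrable (fun x => x i * (f x * (x j * st j s g x - dq j s g x))) (gam d) :=
    ((hx i).mul (gf.mul (((hx j).mul gst).sub gdq))).integrable
      ((cx i).mul (fc.mul (((cx j).mul cst).sub cdq))).aestronglyMeasurable
  have J2 : Integrable (fun x => pd i f x * (x j * st j s g x - dq j s g x)) (gam d) :=
    ((gpf i).mul (((hx j).mul gst).sub gdq)).integrable
      ((pfc i).mul (((cx j).mul cst).sub cdq)).aestronglyMeasurable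
  have J3 : Integrable (fun x => f x * st j s g x) (gam d) :=
    (gf.mul gst).integrable (fc.mul cst).aestronglyMeasurable
  have J4 : Integrable (fun x => x j * (f x * st j s (pd i g) x)) (gam d) :=
    ((hx j).mul (gf.mul gstp)).integrable ((cx j).mul (fc.mul cstp)).aestronglyMeasurable
  have J5 : Integrable (fun x => f x * dq j s (pd i g) x) (gam d) :=
    (gf.mul gdqp).integrable (fc.mul cdqp).aestronglyMeasurable
  have J6 : Integrable (fun x => pd j f x * st j s (pd i g) x) (gam d) :=
    ((gpf j).mul gstp).integrable ((pfc j).mul cstp).aestronglyMeasurable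
  have e0 : ∫ x, (x i * f x - pd i f x) * (x j * st j s g x - dq j s g x) ∂gam d =
      ∫ x, x i * (f x * (x j * st j s g x - dq j s g x)) ∂gam d -
        ∫ x, pd i f x * (x j * st j s g x - dq j s g x) ∂gam d := by
    rw [← integral_sub J1 J2]
    refine integral_congr_ae ?_
    filter_upwards with x
    ring
  have e1 : ∫ x, (pd i f x * (x j * st j s g x - dq j s g x) +
        f x * ((if i = j then 1 else 0) * st j s g x + x j * st j s (pd i g) x -
          dq j s (pd i g) x)) ∂gam d =
      ∫ x, pd i f x * (x j * st j s g x - dq j s g x) ∂gam d +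
        (((if i = j then 1 else 0) * ∫ x, f x * st j s g x ∂gam d +
          ∫ x, x j * (f x * st j s (pd i g) x) ∂gam d) - ∫ x, f x * dq j s (pd i g) x ∂gam d) := by
    have J7 : Integrable (fun x => (if i = j then (1 : ℝ) else 0) * (f x * st j s g x) +
        x j * (f x * st j s (pd i g) x)) (gam d) := (J3.const_mul _).add J4
    have J8 : Integrable (fun x => ((if i = j then (1 : ℝ) else 0) * (f x * st j s g x) +
        x j * (f x * st j s (pd i g) x)) - f x * dq j s (pd i g) x) (gam d) := J7.sub J5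
    rw [← integral_const_mul, ← integral_add (J3.const_mul _) J4,
      ← integral_sub J7 J5, ← integral_add J2 J8]
    refine integral_congr_ae ?_
    filter_upwards with x
    ring
  have e2 : ∫ x, (pd j f x * st j s (pd i g) x + f x * dq j s (pd i g) x) ∂gam d =
      ∫ x, pd j f x * st j s (pd i g) x ∂gam d + ∫ x, f x * dq j s (pd i g) x ∂gam d :=
    integral_add J6 J5
  rw [e0, I1, e1, I2, e2]
  ring

/-- the formula for two functions -/
theorem key (i j : Fin d) {f g : E d → ℝ}
    (hf : ContDiff ℝ 1 f) (hg : ContDiff ℝ 1 g) {L : ℝ} (hLf : ∀ x, ‖fderiv ℝ f x‖ ≤ L)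
    (hLg : ∀ x, ‖fderiv ℝ g x‖ ≤ L) :
    ∫ x, (x i * f x - pd i f x) * (x j * g x - pd j g x) ∂gam d =
      (if i = j then 1 else 0) * ∫ x, f x * g x ∂gam d + ∫ x, pd j f x * pd i g x ∂gam d := by
  have cx : ∀ k : Fin d, Continuous (fun x : E d => x k) := fun k => by fun_prop
  have fc := hf.continuous
  have gc := hg.continuous
  have pfc := fun k => pd_continuous k hf
  have pgc := fun k => pd_continuous k hg
  have hL0 : 0 ≤ L := (norm_nonneg _).trans (hLf 0)
  have gg := growth_of_lip hg hLg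
  have gg' := growth_of_lip hf hLf
  set u : ℕ → ℝ := fun n => 1 / ((n : ℝ) + 1) with hu
  have u0 : ∀ n, 0 < u n := fun n => by positivity
  have u1 : ∀ n, u n ≤ 1 := fun n => by
    rw [hu]
    simp only
    rw [div_le_one (by positivity)]
    linarith [(Nat.cast_nonneg n : (0 : ℝ) ≤ n)]
  have ut : Tendsto u atTop (𝓝 0) := tendsto_one_div_add_atTop_nhds_zero_nat
  set Kf := |f 0| + L with hKf
  set Kg := |g 0| + L with hKg
  have Kf0 : 0 ≤ Kf := add_nonneg (abs_nonneg _) hL0
  have Kg0 : 0 ≤ Kg := add_nonneg (abs_nonneg _) hL0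
  -- left-hand side
  have T1 : Tendsto (fun n => ∫ x, (x i * f x - pd i f x) *
      (x j * st j (u n) g x - dq j (u n) g x) ∂gam d) atTop
      (𝓝 (∫ x, (x i * f x - pd i f x) * (x j * g x - pd j g x) ∂gam d)) := by
    refine tendsto_integral_of_dominated_convergence
      (fun x => ((Kf + L) * (1 + ‖x‖) ^ 2) * ((2 * Kg + L) * (1 + ‖x‖) ^ 2)) ?_ ?_ ?_ ?_
    · intro n
      exact ((((cx i).mul fc).sub (pfc i)).mul
        (((cx j).mul (st_continuous j _ gc)).sub (dq_continuous j _ gc))).aestronglyMeasurable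
    · have := (IBPAux.integrable_pow_of_gaussian (gam d) 4).const_mul ((Kf + L) * (2 * Kg + L))
      refine this.congr ?_
      filter_upwards with x
      ring
    · intro n
      filter_upwards with x
      rw [norm_mul]
      have hx0 := norm_nonneg x
      have b1 : ‖x i * f x - pd i f x‖ ≤ (Kf + L) * (1 + ‖x‖) ^ 2 := by
        refine (norm_sub_le _ _).trans ?_
        rw [norm_mul]
        have h1 : ‖x i‖ ≤ ‖x‖ := abs_coord_le x i
        have h2 := gg' x
        have h3 : ‖pd i f x‖ ≤ L := pd_le hLf i x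
        have h4 : ‖x i‖ * ‖f x‖ ≤ (1 + ‖x‖) * (Kf * (1 + ‖x‖) ^ 1) :=
          mul_le_mul (by linarith) h2 (norm_nonneg _) (by positivity)
        have h5 : (1 : ℝ) ≤ (1 + ‖x‖) ^ 2 := one_le_pow₀ (by linarith)
        nlinarith
      have b2 : ‖x j * st j (u n) g x - dq j (u n) g x‖ ≤ (2 * Kg + L) * (1 + ‖x‖) ^ 2 := by
        refine (norm_sub_le _ _).trans ?_
        rw [norm_mul]
        have h1 : ‖x j‖ ≤ ‖x‖ := abs_coord_le x j
        have h2 := st_bound j (u0 n).le (u1 n) Kg0 gg x
        have h3 : ‖dq j (u n) g x‖ ≤ L := dq_bound j (u0 n).ne' hg hLg x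
        have h4 : ‖x j‖ * ‖st j (u n) g x‖ ≤ (1 + ‖x‖) * (Kg * 2 ^ 1 * (1 + ‖x‖) ^ 1) :=
          mul_le_mul (by linarith) h2 (norm_nonneg _) (by positivity)
        have h5 : (1 : ℝ) ≤ (1 + ‖x‖) ^ 2 := one_le_pow₀ (by linarith)
        nlinarith
      exact mul_le_mul b1 b2 (norm_nonneg _) (by positivity)
    · filter_upwards with x
      refine Tendsto.const_mul _ (Tendsto.sub (Tendsto.const_mul _ ?_) ?_)
      · exact st_tendsto j gc x ut
      · exact dq_tendsto j hg x ut fun n => (u0 n).ne'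
  have T2 : Tendsto (fun n => ∫ x, f x * st j (u n) g x ∂gam d) atTop
      (𝓝 (∫ x, f x * g x ∂gam d)) := by
    refine tendsto_integral_of_dominated_convergence
      (fun x => (Kf * (1 + ‖x‖) ^ 1) * (Kg * 2 ^ 1 * (1 + ‖x‖) ^ 1)) ?_ ?_ ?_ ?_
    · intro n
      exact (fc.mul (st_continuous j _ gc)).aestronglyMeasurable
    · have := (IBPAux.integrable_pow_of_gaussian (gam d) 2).const_mul (Kf * (Kg * 2))
      refine this.congr ?_
      filter_upwards with x
      ring
    · intro n
      filter_upwards with x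
      rw [norm_mul]
      exact mul_le_mul (gg' x) (st_bound j (u0 n).le (u1 n) Kg0 gg x) (norm_nonneg _)
        (by positivity)
    · filter_upwards with x
      exact Tendsto.const_mul _ (st_tendsto j gc x ut)
  have T3 : Tendsto (fun n => ∫ x, pd j f x * st j (u n) (pd i g) x ∂gam d) atTop
      (𝓝 (∫ x, pd j f x * pd i g x ∂gam d)) := by
    refine tendsto_integral_of_dominated_convergence (fun x => L * (L * 2 ^ 0 * (1 + ‖x‖) ^ 0))
      ?_ ?_ ?_ ?_
    · intro n
      exact ((pfc j).mul (st_continuous j _ (pgc i))).aestronglyMeasurable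
    · simp only [pow_zero, mul_one]
      exact integrable_const _
    · intro n
      filter_upwards with x
      rw [norm_mul]
      exact mul_le_mul (pd_le hLf j x) (st_bound j (u0 n).le (u1 n) hL0
        (fun x => by simpa using pd_le hLg i x) x) (norm_nonneg _) hL0
    · filter_upwards with x
      exact Tendsto.const_mul _ (st_tendsto j (pgc i) x ut)
  refine tendsto_nhds_unique T1 ?_
  refine ((T2.const_mul (if i = j then (1 : ℝ) else 0)).add T3).congr fun n => ?_
  exact (key_s i j (u0 n) (u1 n) hf hg hLf hLg).symm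

end DeltaAux

open DeltaAux

theorem delta_iso {d : ℕ} (v : E d → E d) (hv : ContDiff ℝ 1 v) {L : ℝ}
    (hL : ∀ x, ‖fderiv ℝ v x‖ ≤ L) :
    ∫ x, (⟪x, v x⟫ - diverg v x) ^ 2 ∂gam d ≤
      ∫ x, ‖v x‖ ^ 2 ∂gam d + ∫ x, hs2 (fderiv ℝ v x) ∂gam d := by
  have hc : ∀ i, ContDiff ℝ 1 (fun x => v x i) := contDiff_coord hv
  have hLi : ∀ i x, ‖fderiv ℝ (fun x => v x i) x‖ ≤ L := fun i x =>
    (norm_fderiv_coord_le hv i x).trans (hL x)
  have cx : ∀ k : Fin d, Continuous (fun x : E d => x k) := fun k => by fun_prop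
  have hx := polyGrowth_coord (d := d)
  have gv : ∀ i, PolyGrowth (fun x => v x i) := fun i => ⟨_, _, growth_of_lip (hc i) (hLi i)⟩
  have pc : ∀ i k, Continuous (pd k fun x => v x i) := fun i k => pd_continuous k (hc i)
  have gp : ∀ i k, PolyGrowth (pd k fun x => v x i) := fun i k =>
    polyGrowth_of_bdd fun x => pd_le (hLi i) k x
  set a : Fin d → E d → ℝ := fun i x => x i * v x i - pd i (fun x => v x i) x with ha
  have ca : ∀ i, Continuous (a i) := fun i => ((cx i).mul (hc i).continuous).sub (pc i i)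
  have ga : ∀ i, PolyGrowth (a i) := fun i => ((hx i).mul (gv i)).sub (gp i i)
  have e1 : ∀ x, (⟪x, v x⟫ - diverg v x) ^ 2 = ∑ i, ∑ j, a i x * a j x := by
    intro x
    have h1 : ⟪x, v x⟫ - diverg v x = ∑ i, a i x := by
      rw [PiLp.inner_apply]
      unfold diverg
      rw [← Finset.sum_sub_distrib]
      refine Finset.sum_congr rfl fun i _ => ?_
      rw [ha]
      simp only
      rw [inner_eb]
      unfold pd
      rw [fderiv_coord hv]
      simp [mul_comm]
    rw [h1, sq, Finset.sum_mul_sum]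
  have e2 : ∀ x, ‖v x‖ ^ 2 = ∑ i, v x i * v x i := by
    intro x
    rw [EuclideanSpace.real_norm_sq_eq]
    refine Finset.sum_congr rfl fun i _ => ?_
    rw [sq]
  have e3 : ∀ x, hs2 (fderiv ℝ v x) = ∑ j, ∑ i, pd j (fun x => v x i) x ^ 2 := by
    intro x
    unfold hs2
    refine Finset.sum_congr rfl fun j _ => ?_
    rw [EuclideanSpace.real_norm_sq_eq]
    refine Finset.sum_congr rfl fun i _ => ?_
    unfold pd
    rw [fderiv_coord hv]
  have Ia : ∀ i j, Integrable (fun x => a i x * a j x) (gam d) := fun i j =>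
    ((ga i).mul (ga j)).integrable ((ca i).mul (ca j)).aestronglyMeasurable
  have Iv : ∀ i, Integrable (fun x => v x i * v x i) (gam d) := fun i =>
    ((gv i).mul (gv i)).integrable ((hc i).continuous.mul (hc i).continuous).aestronglyMeasurable
  have Ip : ∀ i j k l, Integrable (fun x => pd i (fun x => v x j) x * pd k (fun x => v x l) x)
      (gam d) := fun i j k l =>
    ((gp j i).mul (gp l k)).integrable ((pc j i).mul (pc l k)).aestronglyMeasurable
  have Ip2 : ∀ i j, Integrable (fun x => pd i (fun x => v x j) x ^ 2) (gam d) := fun i j => by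
    refine (Ip i j i j).congr ?_
    filter_upwards with x
    ring
  simp only [e1, e2, e3]
  have s1 : ∫ x, ∑ i, ∑ j, a i x * a j x ∂gam d =
      ∑ i, ∑ j, ∫ x, a i x * a j x ∂gam d := by
    rw [integral_finsetSum _ fun i _ => integrable_finsetSum _ fun j _ => Ia i j]
    refine Finset.sum_congr rfl fun i _ => ?_
    rw [integral_finsetSum _ fun j _ => Ia i j]
  have s2 : ∫ x, ∑ i, v x i * v x i ∂gam d = ∑ i, ∫ x, v x i * v x i ∂gam d :=
    integral_finsetSum _ fun i _ => Iv i
  have s3 : ∫ x, ∑ j, ∑ i, pd j (fun x => v x i) x ^ 2 ∂gam d =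
      ∑ j, ∑ i, ∫ x, pd j (fun x => v x i) x ^ 2 ∂gam d := by
    rw [integral_finsetSum _ fun j _ => integrable_finsetSum _ fun i _ => Ip2 j i]
    refine Finset.sum_congr rfl fun j _ => ?_
    rw [integral_finsetSum _ fun i _ => Ip2 j i]
  have k1 : ∀ i j, ∫ x, a i x * a j x ∂gam d = (if i = j then 1 else 0) *
      ∫ x, v x i * v x j ∂gam d + ∫ x, pd j (fun x => v x i) x * pd i (fun x => v x j) x ∂gam d :=
    fun i j => key i j (hc i) (hc j) (hLi i) (hLi j)
  have k2 : ∀ i j, ∫ x, pd j (fun x => v x i) x * pd i (fun x => v x j) x ∂gam d ≤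
      ((∫ x, pd j (fun x => v x i) x ^ 2 ∂gam d) + ∫ x, pd i (fun x => v x j) x ^ 2 ∂gam d) / 2 := by
    intro i j
    rw [← integral_add (Ip2 j i) (Ip2 i j), ← integral_div]
    refine integral_mono (Ip j i i j) (((Ip2 j i).add (Ip2 i j)).div_const 2) fun x => ?_
    nlinarith [sq_nonneg (pd j (fun x => v x i) x - pd i (fun x => v x j) x)]
  rw [s1, s2, s3]
  have k3 : ∑ i, ∑ j, ((if i = j then (1 : ℝ) else 0) * ∫ x, v x i * v x j ∂gam d) =
      ∑ i, ∫ x, v x i * v x i ∂gam d := by
    refine Finset.sum_congr rfl fun i _ => ?_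
    simp
  calc ∑ i, ∑ j, ∫ x, a i x * a j x ∂gam d
      ≤ ∑ i, ∑ j, ((if i = j then (1 : ℝ) else 0) * ∫ x, v x i * v x j ∂gam d +
        ((∫ x, pd j (fun x => v x i) x ^ 2 ∂gam d) +
          ∫ x, pd i (fun x => v x j) x ^ 2 ∂gam d) / 2) := by
        refine Finset.sum_le_sum fun i _ => Finset.sum_le_sum fun j _ => ?_
        rw [k1]
        exact add_le_add le_rfl (k2 i j)
    _ = ∑ i, ∑ j, ((if i = j then (1 : ℝ) else 0) * ∫ x, v x i * v x j ∂gam d) +
        ((∑ i, ∑ j, ∫ x, pd j (fun x => v x i) x ^ 2 ∂gam d) +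
          ∑ i, ∑ j, ∫ x, pd i (fun x => v x j) x ^ 2 ∂gam d) / 2 := by
        simp only [Finset.sum_add_distrib, ← Finset.sum_div]
    _ = _ := by
        rw [k3, Finset.sum_comm (f := fun i j => ∫ x, pd j (fun x => v x i) x ^ 2 ∂gam d)]
        ring

end Vale.Agent.P347
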