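import Vale.Agent.P347.Defs

/-!
# P347, A1: rotation invariance of the Gaussian
-/

open MeasureTheory ProbabilityTheory
open scoped ENNReal NNReal RealInnerProductSpace

namespace Vale.Agent.P347

namespace RotAux

theorem exists_angle {c s : ℝ} (h : c ^ 2 + s ^ 2 = 1) :
    ∃ θ : ℝ, Real.cos θ = c ∧ Real.sin θ = s := by
  have hz : ‖(⟨c, s⟩ : ℂ)‖ = 1 := by
    rw [Complex.norm_def, Complex.normSq_mk, ← pow_two, ← pow_two, h, Real.sqrt_one]
  have hne : (⟨c, s⟩ : ℂ) ≠ 0 := by
    intro h0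
    rw [h0] at hz
    simp at hz
  refine ⟨Complex.arg ⟨c, s⟩, ?_, ?_⟩
  · rw [Complex.cos_arg hne, hz, div_one]
  · rw [Complex.sin_arg, hz, div_one]

/-- rotation invariance for a centred Gaussian measure -/
theorem mp_rot_gen {F : Type*} [NormedAddCommGroup F] [NormedSpace ℝ F] [CompleteSpace F]
    [SecondCountableTopology F] [MeasurableSpace F] [BorelSpace F] (μ : Measure F) [IsGaussian μ]
    (hμ : μ[id] = 0) {c s : ℝ} (h : c ^ 2 + s ^ 2 = 1) :
    MeasurePreserving (fun p : F × F => (c • p.1 + s • p.2, c • p.2 - s • p.1))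
      (μ.prod μ) (μ.prod μ) := by
  obtain ⟨θ, rfl, rfl⟩ := exists_angle h
  have e : (fun p : F × F => (Real.cos θ • p.1 + Real.sin θ • p.2,
      Real.cos θ • p.2 - Real.sin θ • p.1)) = ContinuousLinearMap.rotation θ := by
    funext p
    rw [ContinuousLinearMap.rotation_apply]
    ext1
    · rfl
    · simp only [neg_smul]
      abel
  rw [e]
  exact ⟨(ContinuousLinearMap.rotation θ).continuous.measurable,
    IsGaussian.map_rotation_eq_self hμ θ⟩

instance gaussian_pi (d : ℕ) (ι : Type) [Fintype ι] : IsGaussian (gamPi d ι) := by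
  have h1 : ∀ i : ι, HasGaussianLaw (fun ω : ι → E d => ω i) (gamPi d ι) := by
    intro i
    constructor
    have := (measurePreserving_eval (fun _ : ι => gam d) i).map_eq
    change IsGaussian ((gamPi d ι).map (Function.eval i))
    rw [this]
    infer_instance
  have h2 : iIndepFun (fun (i : ι) (ω : ι → E d) => ω i) (gamPi d ι) :=
    iIndepFun_pi (X := fun _ => id) (fun _ => aemeasurable_id)
  have h3 := iIndepFun.hasGaussianLaw h1 h2
  have h4 := h3.isGaussian_map
  have e : (gamPi d ι).map (fun ω i => ω i) = gamPi d ι := by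
    change (gamPi d ι).map id = _
    exact Measure.map_id
  rwa [e] at h4

theorem integral_id_pi (d : ℕ) (ι : Type) [Fintype ι] : (gamPi d ι)[id] = 0 := by
  have hint : Integrable (id : (ι → E d) → (ι → E d)) (gamPi d ι) := IsGaussian.integrable_id
  funext i
  have h1 : (ContinuousLinearMap.proj (R := ℝ) (φ := fun _ : ι => E d) i)
      (∫ ω, id ω ∂gamPi d ι) = ∫ ω, (ContinuousLinearMap.proj (R := ℝ) (φ := fun _ : ι => E d) i)
        (id ω) ∂gamPi d ι :=
    (ContinuousLinearMap.integral_comp_comm _ hint).symm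
  have h2 : ∫ ω : ι → E d, ω i ∂gamPi d ι = ∫ x, x ∂gam d := by
    have := (measurePreserving_eval (fun _ : ι => gam d) i)
    rw [← this.map_eq]
    exact (integral_map (f := fun x : E d => x) this.aemeasurable
      aestronglyMeasurable_id).symm
  have h3 : (∫ ω, id ω ∂gamPi d ι) i = ∫ ω : ι → E d, ω i ∂gamPi d ι := h1
  rw [h3, h2, integral_id_stdGaussian]
  rfl

end RotAux

theorem mp_rot' {d : ℕ} {c s : ℝ} (h : c ^ 2 + s ^ 2 = 1) :
    MeasurePreserving (fun p : E d × E d => (c • p.1 + s • p.2, c • p.2 - s • p.1))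
      ((gam d).prod (gam d)) ((gam d).prod (gam d)) :=
  RotAux.mp_rot_gen (gam d) (by simp) h

theorem mp_rot {d : ℕ} {c s : ℝ} (h : c ^ 2 + s ^ 2 = 1) :
    MeasurePreserving (fun p : E d × E d => (c • p.1 + s • p.2, s • p.1 - c • p.2))
      ((gam d).prod (gam d)) ((gam d).prod (gam d)) := by
  have hneg : MeasurePreserving (fun x : E d => -x) (gam d) (gam d) := by
    refine ⟨measurable_neg, ?_⟩
    have := stdGaussian_map (LinearIsometryEquiv.neg ℝ : E d ≃ₗᵢ[ℝ] E d)
    exact this
  have h1 := (MeasurePreserving.id (gam d)).prod hneg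
  have h2 := h1.comp (mp_rot' h)
  have e : (fun p : E d × E d => (c • p.1 + s • p.2, s • p.1 - c • p.2)) =
      Prod.map id (fun x : E d => -x) ∘
        fun p : E d × E d => (c • p.1 + s • p.2, c • p.2 - s • p.1) := by
    funext p
    simp
  rw [e]
  exact h2

theorem mp_comb {d : ℕ} {c s : ℝ} (h : c ^ 2 + s ^ 2 = 1) :
    MeasurePreserving (fun p : E d × E d => c • p.1 + s • p.2)
      ((gam d).prod (gam d)) (gam d) :=
  measurePreserving_fst.comp (mp_rot' h)

theorem mp_rot_pi {d : ℕ} {ι : Type} [Fintype ι] {c s : ℝ} (h : c ^ 2 + s ^ 2 = 1) :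
    MeasurePreserving (fun p : (ι → E d) × (ι → E d) => (c • p.1 + s • p.2, c • p.2 - s • p.1))
      ((gamPi d ι).prod (gamPi d ι)) ((gamPi d ι).prod (gamPi d ι)) :=
  RotAux.mp_rot_gen (gamPi d ι) (RotAux.integral_id_pi d ι) h

theorem gam_pow_integrable (d : ℕ) (p : ℕ) :
    Integrable (fun x : E d => (1 + ‖x‖) ^ p) (gam d) := by
  rcases Nat.eq_zero_or_pos p with rfl | hp
  · simp
  · have h1 : MemLp (fun x : E d => x) (p : ℝ≥0∞) (gam d) :=
      IsGaussian.memLp_id (gam d) (p : ℝ≥0∞) (by simp)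
    have h2 : MemLp (fun x : E d => 1 + ‖x‖) (p : ℝ≥0∞) (gam d) :=
      (memLp_const (1 : ℝ)).add h1.norm
    have h3 := h2.integrable_norm_pow (by omega)
    refine h3.congr (Filter.Eventually.of_forall fun x => ?_)
    have : (0 : ℝ) ≤ 1 + ‖x‖ := by positivity
    simp only [Real.norm_eq_abs, abs_of_nonneg this]

/-- second moment of the Gaussian -/
theorem gam_sq (d : ℕ) : ∫ x, ‖x‖ ^ 2 ∂gam d = d := by
  have h1 : ∀ i : Fin d, ∫ x : E d, (x i) ^ 2 ∂gam d = 1 := by
    intro i
    have hv := variance_dual_stdGaussian (E := E d) (innerSL ℝ (eb i))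
    have hm : ∫ x : E d, innerSL ℝ (eb i) x ∂gam d = 0 :=
      integral_strongDual_stdGaussian (E := E d) (innerSL ℝ (eb i))
    have hL2 : MemLp (fun x : E d => innerSL ℝ (eb i) x) 2 (gam d) :=
      IsGaussian.memLp_dual (gam d) (innerSL ℝ (eb i)) 2 (by simp)
    rw [variance_eq_sub hL2] at hv
    simp only [Pi.pow_apply] at hv
    rw [hm] at hv
    have e : ∀ x : E d, innerSL ℝ (eb i) x = x i := by
      intro x
      simp [eb, EuclideanSpace.inner_single_left]
    simp only [e] at hv
    have hn : ‖innerSL ℝ (eb i : E d)‖ = 1 := by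
      rw [innerSL_apply_norm]
      simp [eb]
    rw [hn] at hv
    simpa using hv
  have h2 : ∀ i : Fin d, Integrable (fun x : E d => (x i) ^ 2) (gam d) := by
    intro i
    have hL2 : MemLp (fun x : E d => innerSL ℝ (eb i) x) 2 (gam d) :=
      IsGaussian.memLp_dual (gam d) (innerSL ℝ (eb i)) 2 (by simp)
    have := hL2.integrable_sq
    refine this.congr (Filter.Eventually.of_forall fun x => ?_)
    simp [eb, EuclideanSpace.inner_single_left]
  calc ∫ x, ‖x‖ ^ 2 ∂gam d = ∫ x : E d, ∑ i, (x i) ^ 2 ∂gam d := by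
        refine integral_congr_ae (Filter.Eventually.of_forall fun x => ?_)
        simp only [EuclideanSpace.real_norm_sq_eq]
    _ = ∑ i, ∫ x : E d, (x i) ^ 2 ∂gam d := integral_finset_sum _ fun i _ => h2 i
    _ = d := by simp [h1]

end Vale.Agent.P347
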