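import Vale.Agent.P347.DefsB
import Vale.Agent.P347.Rot

/-! P347, piece B4c: reversal of the stationary AR(1) path. -/

open MeasureTheory ProbabilityTheory
open scoped ENNReal NNReal RealInnerProductSpace

namespace Vale.Agent.P347

namespace RefLaw

variable {d : ℕ}

theorem extz_cons_zero {n : ℕ} (x : E d) (ξ : Fin n → E d) :
    extz (Fin.cons x ξ : Fin (n + 1) → E d) 0 = x := by
  simp [extz]

theorem extz_cons_succ {n : ℕ} (x : E d) (ξ : Fin n → E d) (j : ℕ) :
    extz (Fin.cons x ξ : Fin (n + 1) → E d) (j + 1) = extz ξ j := by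
  by_cases h : j < n
  · simp only [extz, h, dif_pos, Nat.add_lt_add_iff_right]
    rfl
  · simp [extz, h]

theorem rev_succ (a : ℝ) (G : E d) (ξ : ℕ → E d) (j : ℕ) :
    rev a G ξ (j + 1) = rev a (a • G + Real.sqrt (1 - a ^ 2) • ξ 0) (fun i => ξ (i + 1)) j := by
  induction j with
  | zero => rfl
  | succ j ih =>
    show a • rev a G ξ (j + 1) + Real.sqrt (1 - a ^ 2) • ξ (j + 1) = _
    rw [ih]; rfl

theorem revX_shift (w : E d → E d) (a ε : ℝ) (N : ℕ) (G : E d) (ξ : ℕ → E d) (m : ℕ)
    (hm : m ≤ N) :
    revX w a ε (N + 1) G ξ m =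
      revX w a ε N (a • G + Real.sqrt (1 - a ^ 2) • ξ 0) (fun i => ξ (i + 1)) m := by
  induction m with
  | zero => exact rev_succ a G ξ N
  | succ m ih =>
    have ih := ih (by omega)
    show a • revX w a ε (N + 1) G ξ m - ((1 - a) * ε) • w (revX w a ε (N + 1) G ξ m) +
      (rev a G ξ (N + 1 - (m + 1)) - a • rev a G ξ (N + 1 - m)) = _
    rw [ih, show N + 1 - (m + 1) = (N - (m + 1)) + 1 by omega,
      show N + 1 - m = (N - m) + 1 by omega, rev_succ, rev_succ]
    rfl

theorem revX_last (w : E d → E d) (a ε : ℝ) (ha : a ^ 2 ≤ 1) (N : ℕ) (G x : E d) (ξ : Fin N → E d) :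
    revX w a ε (N + 1) G (extz (Fin.cons x ξ : Fin (N + 1) → E d)) (N + 1) =
      (a • revX w a ε N (a • G + Real.sqrt (1 - a ^ 2) • x) (extz ξ) N -
        ((1 - a) * ε) • w (revX w a ε N (a • G + Real.sqrt (1 - a ^ 2) • x) (extz ξ) N)) +
      Real.sqrt (1 - a ^ 2) • (Real.sqrt (1 - a ^ 2) • G - a • x) := by
  have h1 := revX_shift w a ε N G (extz (Fin.cons x ξ : Fin (N + 1) → E d)) N le_rfl
  have h2 : (fun i => extz (Fin.cons x ξ : Fin (N + 1) → E d) (i + 1)) = extz ξ :=
    funext fun i => extz_cons_succ x ξ i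
  rw [h2, extz_cons_zero] at h1
  show a • revX w a ε (N + 1) G _ N - ((1 - a) * ε) • w (revX w a ε (N + 1) G _ N) +
      (rev a G _ (N + 1 - (N + 1)) - a • rev a G _ (N + 1 - N)) = _
  rw [h1, Nat.sub_self, show N + 1 - N = 1 by omega]
  congr 1
  show G - a • (a • G + Real.sqrt (1 - a ^ 2) •
    extz (Fin.cons x ξ : Fin (N + 1) → E d) 0) = _
  rw [extz_cons_zero, smul_sub, smul_smul, Real.mul_self_sqrt (by linarith)]
  module

theorem cont_rev (a : ℝ) {Ω : Type*} [TopologicalSpace Ω] {G : Ω → E d} {ξ : Ω → ℕ → E d}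
    (hG : Continuous G) (hξ : ∀ j, Continuous fun o => ξ o j) (j : ℕ) :
    Continuous fun o => rev a (G o) (ξ o) j := by
  induction j with
  | zero => exact hG
  | succ j ih => exact (ih.const_smul a).add ((hξ j).const_smul (Real.sqrt (1 - a ^ 2)))

theorem cont_revX {w : E d → E d} (hw : Continuous w) (a ε : ℝ) (N : ℕ) {Ω : Type*}
    [TopologicalSpace Ω] {G : Ω → E d} {ξ : Ω → ℕ → E d}
    (hG : Continuous G) (hξ : ∀ j, Continuous fun o => ξ o j) (m : ℕ) :
    Continuous fun o => revX w a ε N (G o) (ξ o) m := by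
  induction m with
  | zero => exact cont_rev a hG hξ N
  | succ m ih =>
    exact ((ih.const_smul a).sub ((hw.comp ih).const_smul ((1 - a) * ε))).add
      ((cont_rev a hG hξ _).sub ((cont_rev a hG hξ _).const_smul a))

theorem cont_extz {n : ℕ} (j : ℕ) : Continuous fun ξ : Fin n → E d => extz ξ j := by
  by_cases h : j < n
  · simp only [extz, h, dif_pos]
    exact continuous_apply _
  · simp only [extz, h, dif_neg, not_false_eq_true]
    exact continuous_const

theorem stepOp_cont {F : E d → E d} (hF : Continuous F) (s : ℝ) {g : E d → ℝ} (hg : Continuous g)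
    {C : ℝ} (hb : ∀ x, |g x| ≤ C) : Continuous (stepOp F s g) := by
  refine continuous_of_dominated (bound := fun _ => C) (fun x => ?_) (fun x => ?_)
    (integrable_const C) ?_
  · exact (hg.comp (by fun_prop)).aestronglyMeasurable
  · exact Filter.Eventually.of_forall fun z => hb _
  · exact Filter.Eventually.of_forall fun z => hg.comp (by fun_prop)

theorem stepOp_bdd (F : E d → E d) (s : ℝ) {g : E d → ℝ} {C : ℝ} (hb : ∀ x, |g x| ≤ C) (x : E d) :
    |stepOp F s g x| ≤ C := by
  have := norm_integral_le_of_norm_le_const (μ := gam d) (f := fun z => g (F x + s • z)) (C := C)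
    (Filter.Eventually.of_forall fun z => hb _)
  simpa [stepOp] using this

/-- integral over the path space, first innovation separated -/
theorem int_cons {n : ℕ} (f : (Fin (n + 1) → E d) → ℝ) (hf : Continuous f) {C : ℝ}
    (hb : ∀ x, |f x| ≤ C) :
    ∫ ξ, f ξ ∂gamPi d (Fin (n + 1)) =
      ∫ x, ∫ ξ, f (Fin.cons x ξ) ∂gamPi d (Fin n) ∂gam d := by
  have h := (measurePreserving_piFinSuccAbove (fun _ : Fin (n + 1) => gam d) 0).symm
  have hc : Continuous fun q : E d × (Fin n → E d) =>
      (Fin.cons q.1 q.2 : Fin (n + 1) → E d) := by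
    refine continuous_pi fun i => ?_
    refine Fin.cases ?_ (fun i => ?_) i
    · exact continuous_fst
    · exact (continuous_apply i).comp continuous_snd
  have h1 : ∫ ξ, f ξ ∂gamPi d (Fin (n + 1)) =
      ∫ q, f (Fin.cons q.1 q.2) ∂((gam d).prod (gamPi d (Fin n))) := by
    rw [← h.integral_comp' (g := f)]
    refine integral_congr_ae (Filter.Eventually.of_forall fun q => ?_)
    show f _ = f _
    congr 1
    exact Fin.insertNth_zero' q.1 q.2
  rw [h1, integral_prod]
  exact Integrable.of_bound (hf.comp hc).aestronglyMeasurable C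
    (Filter.Eventually.of_forall fun q => hb _)

end RefLaw

open RefLaw in
/-- B4b RefLaw.lean: reversal of the path -/
theorem revX_law {d : ℕ} {w : E d → E d} {a ε : ℝ}
    (hw : ContDiff ℝ 1 w) (h0 : 0 < a) (h1 : a < 1) (N : ℕ) (g : E d → ℝ)
    (hg : Continuous g) {C : ℝ} (hb : ∀ x, |g x| ≤ C) :
    ∫ G, ∫ ξ, g (revX w a ε N G (extz ξ) N) ∂gamPi d (Fin N) ∂gam d =
      ∫ x, (stepOp (fun x => a • x - ((1 - a) * ε) • w x) (Real.sqrt (1 - a ^ 2)))^[N] g x ∂gam d := by
  have ha2 : a ^ 2 ≤ 1 := by nlinarith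
  set s := Real.sqrt (1 - a ^ 2) with hs
  have hss : s ^ 2 = 1 - a ^ 2 := Real.sq_sqrt (by linarith)
  set F : E d → E d := fun x => a • x - ((1 - a) * ε) • w x with hF
  have hFc : Continuous F := by
    have := hw.continuous
    rw [hF]; fun_prop
  induction N generalizing g with
  | zero =>
    simp [revX, rev]
  | succ N ih =>
    rw [Function.iterate_succ_apply, ← ih (stepOp F s g) (stepOp_cont hFc s hg hb)
      (stepOp_bdd F s hb)]
    -- the function of `(G', ζ)`
    set H : E d × E d → ℝ := fun p =>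
      ∫ ξ, g (F (revX w a ε N p.1 (extz ξ) N) + s • p.2) ∂gamPi d (Fin N) with hH
    have hcX : Continuous fun q : E d × (Fin N → E d) => revX w a ε N q.1 (extz q.2) N :=
      cont_revX hw.continuous a ε N continuous_fst (fun j => (cont_extz j).comp continuous_snd) N
    have hHc : Continuous H := by
      refine continuous_of_dominated (bound := fun _ => C) (fun p => ?_) (fun p => ?_)
        (integrable_const C) ?_
      · refine Continuous.aestronglyMeasurable ?_
        refine hg.comp ((hFc.comp (hcX.comp (Continuous.prodMk_right p.1))).add continuous_const)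
      · exact Filter.Eventually.of_forall fun z => hb _
      · refine Filter.Eventually.of_forall fun ξ => ?_
        refine hg.comp ((hFc.comp (hcX.comp (continuous_fst.prodMk continuous_const))).add ?_)
        exact continuous_snd.const_smul s
    have hHb : ∀ p, |H p| ≤ C := by
      intro p
      have := norm_integral_le_of_norm_le_const (μ := gamPi d (Fin N))
        (f := fun ξ => g (F (revX w a ε N p.1 (extz ξ) N) + s • p.2)) (C := C)
        (Filter.Eventually.of_forall fun z => hb _)
      simpa [hH] using this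
    have hHi : Integrable H ((gam d).prod (gam d)) :=
      Integrable.of_bound hHc.aestronglyMeasurable C (Filter.Eventually.of_forall hHb)
    have hrot := mp_rot (d := d) (c := a) (s := s) (by rw [hss]; ring)
    -- left side
    have hL : ∫ G, ∫ ξ, g (revX w a ε (N + 1) G (extz ξ) (N + 1)) ∂gamPi d (Fin (N + 1)) ∂gam d =
        ∫ p, H (a • p.1 + s • p.2, s • p.1 - a • p.2) ∂((gam d).prod (gam d)) := by
      rw [integral_prod]
      · refine integral_congr_ae (Filter.Eventually.of_forall fun G => ?_)
        show ∫ ξ, g (revX w a ε (N + 1) G (extz ξ) (N + 1)) ∂gamPi d (Fin (N + 1)) = _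
        rw [int_cons (fun ξ => g (revX w a ε (N + 1) G (extz ξ) (N + 1)))
          (hg.comp (cont_revX hw.continuous a ε (N + 1) continuous_const
          (fun j => cont_extz j) (N + 1))) (fun _ => hb _)]
        refine integral_congr_ae (Filter.Eventually.of_forall fun x => ?_)
        refine integral_congr_ae (Filter.Eventually.of_forall fun ξ => ?_)
        show g _ = g _
        rw [revX_last w a ε ha2 N G x ξ]
      · exact (Integrable.of_bound (hHc.comp (by fun_prop)).aestronglyMeasurable C
          (Filter.Eventually.of_forall fun p => hHb _))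
    rw [hL]
    have hR : ∫ p, H (a • p.1 + s • p.2, s • p.1 - a • p.2) ∂((gam d).prod (gam d)) =
        ∫ p, H p ∂((gam d).prod (gam d)) := by
      have := hrot.map_eq
      conv_rhs => rw [← this]
      rw [integral_map hrot.measurable.aemeasurable hHc.aestronglyMeasurable]
    rw [hR, integral_prod _ hHi]
    refine integral_congr_ae (Filter.Eventually.of_forall fun G => ?_)
    show ∫ z, ∫ ξ, g (F (revX w a ε N G (extz ξ) N) + s • z) ∂gamPi d (Fin N) ∂gam d =
      ∫ ξ, ∫ z, g (F (revX w a ε N G (extz ξ) N) + s • z) ∂gam d ∂gamPi d (Fin N)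
    rw [integral_integral_swap]
    refine Integrable.of_bound (Continuous.aestronglyMeasurable ?_) C
      (Filter.Eventually.of_forall fun p => hb _)
    refine hg.comp ((hFc.comp (hcX.comp (continuous_const.prodMk continuous_snd))).add ?_)
    exact continuous_fst.const_smul s

end Vale.Agent.P347
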