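import Vale.Agent.P347.Joint
import Vale.Agent.P347.RefLaw
import Vale.Agent.P347.Mehler

/-! P347, piece C1: the fine chain `x ↦ x - h ∇U(x) + s Z` converges to `gibbs U`. -/

open MeasureTheory ProbabilityTheory
open scoped ENNReal NNReal RealInnerProductSpace

namespace Vale.Agent.P347

namespace Fine

open Joint

variable {d : ℕ} {α β : ℝ} {U : E d → ℝ}

/-- antisymmetric functions: the error of detailed balance. -/
theorem antisymm_le {μ : Measure (E d)} [SFinite μ] {κ f D : E d × E d → ℝ}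
    (hκ : ∀ p, 0 < κ p) (hκm : Measurable κ) (hfm : Measurable f)
    (hf : ∀ p, f p.swap = -f p) (hi : Integrable (fun p => κ p * f p) (μ.prod μ))
    (hD : ∀ p, |Real.log (κ p.swap) - Real.log (κ p)| ≤ D p)
    (hi2 : Integrable (fun p => κ p * (|f p| * D p)) (μ.prod μ)) :
    |∫ p, κ p * f p ∂(μ.prod μ)| ≤ ∫ p, κ p * (|f p| * D p) ∂(μ.prod μ) := by
  set m : E d × E d → ℝ := fun p => min (κ p) (κ p.swap) with hm
  have hmm : Measurable m := hκm.min (hκm.comp measurable_swap)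
  have hm0 : ∀ p, 0 ≤ m p := fun p => le_min (hκ p).le (hκ p.swap).le
  have hm1 : ∀ p, m p ≤ κ p := fun p => min_le_left _ _
  have hms : ∀ p, m p.swap = m p := fun p => by
    simp only [hm, Prod.swap_swap]; exact min_comm _ _
  have hmi : Integrable (fun p => m p * f p) (μ.prod μ) := by
    refine hi.mono (hmm.mul hfm).aestronglyMeasurable (Filter.Eventually.of_forall fun p => ?_)
    rw [norm_mul, norm_mul, Real.norm_of_nonneg (hm0 p), Real.norm_of_nonneg (hκ p).le]
    exact mul_le_mul_of_nonneg_right (hm1 p) (norm_nonneg _)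
  have h0 : ∫ p, m p * f p ∂(μ.prod μ) = 0 := by
    have h1 := integral_prod_swap (μ := μ) (ν := μ) (fun p => m p * f p)
    have h2 : ∫ p : E d × E d, m p.swap * f p.swap ∂(μ.prod μ) =
        - ∫ p, m p * f p ∂(μ.prod μ) := by
      rw [← integral_neg]
      refine integral_congr_ae (Filter.Eventually.of_forall fun p => ?_)
      show m p.swap * f p.swap = -(m p * f p)
      rw [hms, hf]; ring
    rw [h2] at h1
    linarith
  have h3 : ∫ p, κ p * f p ∂(μ.prod μ) = ∫ p, (κ p - m p) * f p ∂(μ.prod μ) := by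
    have : ∀ p, (κ p - m p) * f p = κ p * f p - m p * f p := fun p => by ring
    simp_rw [this]
    rw [integral_sub hi hmi, h0, sub_zero]
  rw [h3]
  refine (abs_integral_le_integral_abs).trans ?_
  refine integral_mono_of_nonneg (Filter.Eventually.of_forall fun p => abs_nonneg _) hi2
    (Filter.Eventually.of_forall fun p => ?_)
  show |(κ p - m p) * f p| ≤ κ p * (|f p| * D p)
  have h4 : 0 ≤ κ p - m p := sub_nonneg.2 (hm1 p)
  rw [abs_mul, abs_of_nonneg h4]
  have h5 : κ p - m p ≤ κ p * D p := by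
    have hD0 : 0 ≤ D p := (abs_nonneg _).trans (hD p)
    rcases le_total (κ p) (κ p.swap) with h | h
    · rw [hm]
      simp only [min_eq_left h, sub_self]
      exact mul_nonneg (hκ p).le hD0
    · rw [hm]
      simp only [min_eq_right h]
      have h6 : κ p.swap = κ p * Real.exp (Real.log (κ p.swap) - Real.log (κ p)) := by
        rw [Real.exp_sub, Real.exp_log (hκ _), Real.exp_log (hκ _)]
        have := (hκ p).ne'
        field_simp
      have h7 := Real.add_one_le_exp (Real.log (κ p.swap) - Real.log (κ p))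
      have h8 := hD p
      rw [abs_le] at h8
      rw [h6]
      have h9 := (hκ p).le
      nlinarith [h8.1, mul_le_mul_of_nonneg_left h7 h9, mul_le_mul_of_nonneg_left h8.1 h9]
  calc (κ p - m p) * |f p| ≤ κ p * D p * |f p| := mul_le_mul_of_nonneg_right h5 (abs_nonneg _)
    _ = _ := by ring

theorem comb_abs {a c e R t h q B : ℝ} (h1 : |a| ≤ 4 * B * h * q ^ 2)
    (h2 : |c| ≤ t) (h3 : |e| ≤ B ^ 2 * h * q ^ 2) (hR0 : 0 ≤ R) (hR1 : R ≤ t / 2)
    (ht : 0 ≤ t) : |a - R + c + e| ≤ 2 * t + (B ^ 2 + 4 * B) * h * q ^ 2 := by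
  rw [abs_le] at h1 h2 h3 ⊢
  have e0 : (B ^ 2 + 4 * B) * h * q ^ 2 = B ^ 2 * h * q ^ 2 + 4 * B * h * q ^ 2 := by ring
  rw [e0]
  constructor <;> linarith [h1.1, h1.2, h2.1, h2.2, h3.1, h3.2]

/-- the log ratio -/
theorem log_ratio (hU : Pot d α β U) (hα : 0 ≤ α) {b B : ℝ} (hb : 0 ≤ b) (hβb : β ≤ b)
    (hB : ∀ x, ‖gradient U x‖ ≤ B * (1 + ‖x‖)) (hB0 : 0 ≤ B) {h s : ℝ} (hh : 0 < h)
    (hs1 : h ≤ s ^ 2) (hs2 : |2 * h - s ^ 2| ≤ 4 * h ^ 2) (x y : E d) :
    |(-U y - ‖x - (y - h • gradient U y)‖ ^ 2 / (2 * s ^ 2)) -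
      (-U x - ‖y - (x - h • gradient U x)‖ ^ 2 / (2 * s ^ 2))| ≤
      2 * b * ‖y - x‖ ^ 2 + (B ^ 2 + 4 * B) * h * (1 + ‖x‖ + ‖y‖) ^ 2 := by
  set v := y - x with hv
  have hs0 : 0 < s ^ 2 := hh.trans_le hs1
  have hsne : s ≠ 0 := fun h0 => by rw [h0] at hs0; simp at hs0
  have hx := norm_nonneg x
  have hy := norm_nonneg y
  have e1 : ‖x - (y - h • gradient U y)‖ ^ 2 =
      ‖v‖ ^ 2 - 2 * h * ⟪gradient U y, v⟫ + h ^ 2 * ‖gradient U y‖ ^ 2 := by
    have : x - (y - h • gradient U y) = -(v - h • gradient U y) := by rw [hv]; abel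
    rw [this, norm_neg, norm_sub_sq_real, inner_smul_right, real_inner_comm, norm_smul,
      Real.norm_of_nonneg hh.le]
    ring
  have e2 : ‖y - (x - h • gradient U x)‖ ^ 2 =
      ‖v‖ ^ 2 + 2 * h * ⟪gradient U x, v⟫ + h ^ 2 * ‖gradient U x‖ ^ 2 := by
    have : y - (x - h • gradient U x) = v + h • gradient U x := by rw [hv]; abel
    rw [this, norm_add_sq_real, inner_smul_right, real_inner_comm, norm_smul,
      Real.norm_of_nonneg hh.le]
    ring
  have t1 := (hU.taylor y x).1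
  have t2 := (hU.taylor y x).2
  rw [← hv] at t1 t2
  set R := U y - U x - ⟪gradient U x, v⟫ with hR
  have hR0 : 0 ≤ R := (mul_nonneg (by linarith) (sq_nonneg _)).trans t1
  have hR1 : R ≤ b * ‖v‖ ^ 2 / 2 := by
    have := t2.trans (mul_le_mul_of_nonneg_right (by linarith : β / 2 ≤ b / 2) (sq_nonneg ‖v‖))
    linarith
  have hG : |⟪gradient U y, v⟫ - ⟪gradient U x, v⟫| ≤ b * ‖v‖ ^ 2 := by
    rw [← inner_sub_left]
    refine (abs_real_inner_le_norm _ _).trans ?_
    have h1 := hU.grad_lip hα y x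
    rw [← hv] at h1
    calc _ ≤ β * ‖v‖ * ‖v‖ := mul_le_mul_of_nonneg_right h1 (norm_nonneg _)
      _ ≤ b * ‖v‖ * ‖v‖ := by
          have := norm_nonneg v
          gcongr
      _ = _ := by ring
  have key : (-U y - ‖x - (y - h • gradient U y)‖ ^ 2 / (2 * s ^ 2)) -
      (-U x - ‖y - (x - h • gradient U x)‖ ^ 2 / (2 * s ^ 2)) =
      (2 * h - s ^ 2) / s ^ 2 * ⟪gradient U x, v⟫ - R +
      h / s ^ 2 * (⟪gradient U y, v⟫ - ⟪gradient U x, v⟫) +
      h ^ 2 / (2 * s ^ 2) * (‖gradient U x‖ ^ 2 - ‖gradient U y‖ ^ 2) := by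
    rw [e1, e2, hR]
    field_simp
    ring
  rw [key]
  set q := 1 + ‖x‖ + ‖y‖ with hq
  have hq1 : 1 ≤ q := by linarith
  have hvq : ‖v‖ ≤ q := by
    have := norm_sub_le y x
    linarith
  have b1 : |(2 * h - s ^ 2) / s ^ 2 * ⟪gradient U x, v⟫| ≤ 4 * B * h * q ^ 2 := by
    rw [abs_mul, abs_div, abs_of_pos hs0]
    have h1 : |2 * h - s ^ 2| / s ^ 2 ≤ 4 * h := by
      rw [div_le_iff₀ hs0]
      nlinarith
    have h2 : |⟪gradient U x, v⟫| ≤ B * q * q := by
      refine (abs_real_inner_le_norm _ _).trans ?_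
      have h3 : ‖gradient U x‖ ≤ B * q := (hB x).trans (mul_le_mul_of_nonneg_left (by linarith) hB0)
      exact mul_le_mul h3 hvq (norm_nonneg _) (by positivity)
    calc _ ≤ 4 * h * (B * q * q) := mul_le_mul h1 h2 (abs_nonneg _) (by positivity)
      _ = _ := by ring
  have b2 : |h / s ^ 2 * (⟪gradient U y, v⟫ - ⟪gradient U x, v⟫)| ≤ b * ‖v‖ ^ 2 := by
    rw [abs_mul, abs_of_nonneg (by positivity : 0 ≤ h / s ^ 2)]
    have h1 : h / s ^ 2 ≤ 1 := by rw [div_le_one hs0]; exact hs1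
    calc _ ≤ 1 * (b * ‖v‖ ^ 2) := mul_le_mul h1 hG (abs_nonneg _) zero_le_one
      _ = _ := one_mul _
  have b3 : |h ^ 2 / (2 * s ^ 2) * (‖gradient U x‖ ^ 2 - ‖gradient U y‖ ^ 2)| ≤
      B ^ 2 * h * q ^ 2 := by
    rw [abs_mul, abs_of_nonneg (by positivity : 0 ≤ h ^ 2 / (2 * s ^ 2))]
    have h1 : h ^ 2 / (2 * s ^ 2) ≤ h := by
      rw [div_le_iff₀ (by positivity)]
      nlinarith
    have h3 : ‖gradient U x‖ ≤ B * q := (hB x).trans (mul_le_mul_of_nonneg_left (by linarith) hB0)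
    have h4 : ‖gradient U y‖ ≤ B * q := (hB y).trans (mul_le_mul_of_nonneg_left (by linarith) hB0)
    have h5 : |‖gradient U x‖ ^ 2 - ‖gradient U y‖ ^ 2| ≤ (B * q) ^ 2 := by
      have h6 := pow_le_pow_left₀ (norm_nonneg _) h3 2
      have h7 := pow_le_pow_left₀ (norm_nonneg _) h4 2
      have h8 := sq_nonneg ‖gradient U x‖
      have h9 := sq_nonneg ‖gradient U y‖
      rw [abs_le]
      constructor <;> linarith
    calc _ ≤ h * (B * q) ^ 2 := mul_le_mul h1 h5 (abs_nonneg _) hh.le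
      _ = _ := by ring
  have := comb_abs b1 b2 b3 hR0 hR1 (by positivity)
  rwa [← mul_assoc] at this

theorem scal {h s : ℝ} (hh : 0 < h) (hh4 : h ≤ 1 / 4)
    (hs : |s - Real.sqrt (2 * h)| ≤ h * Real.sqrt h) :
    0 < Real.sqrt h ∧ Real.sqrt h ^ 2 = h ∧ Real.sqrt h ≤ 1 / 2 ∧ 0 < s ∧ s ≤ 2 * Real.sqrt h ∧
      h ≤ s ^ 2 ∧ |2 * h - s ^ 2| ≤ 4 * h ^ 2 := by
  set sh := Real.sqrt h with hsh
  have hsh0 : 0 < sh := Real.sqrt_pos.2 hh
  have hsh2 : sh ^ 2 = h := Real.sq_sqrt hh.le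
  have hsh1 : sh ≤ 1 / 2 := by nlinarith
  set s2 := Real.sqrt (2 * h) with hs2
  have hs20 : 0 < s2 := Real.sqrt_pos.2 (by linarith)
  have hs22 : s2 ^ 2 = 2 * h := Real.sq_sqrt (by linarith)
  have hs2l : 5 / 4 * sh ≤ s2 := by nlinarith
  have hs2u : s2 ≤ 3 / 2 * sh := by nlinarith
  rw [abs_le] at hs
  have hhs : h * sh ≤ 1 / 4 * sh := mul_le_mul_of_nonneg_right hh4 hsh0.le
  have hsl : sh ≤ s := by linarith [hs.1]
  have hsu : s ≤ 2 * sh := by linarith [hs.2]
  have hs0 : 0 < s := hsh0.trans_le hsl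
  have hs1 : h ≤ s ^ 2 := by nlinarith
  refine ⟨hsh0, hsh2, hsh1, hs0, hsu, hs1, ?_⟩
  have e : 2 * h - s ^ 2 = (s2 - s) * (s2 + s) := by rw [← hs22]; ring
  rw [e, abs_mul, abs_of_pos (by positivity : 0 < s2 + s)]
  have h1 : |s2 - s| ≤ h * sh := by
    rw [abs_le]; constructor <;> linarith [hs.1, hs.2]
  calc _ ≤ (h * sh) * (4 * sh) :=
        mul_le_mul h1 (by linarith) (by positivity) (by positivity)
    _ = 4 * h ^ 2 := by rw [← hsh2]; ring

theorem geo_scal {B gx x z h s sh : ℝ} (hB0 : 0 ≤ B) (hx : 0 ≤ x) (hz : 0 ≤ z) (hgx : gx ≤ B * (1 + x))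
    (hh : 0 ≤ h) (hsh : 0 ≤ sh) (hhsh : h ≤ sh) (hs : s ≤ 2 * sh) :
    h * gx + s * z ≤ sh * ((B + 4) * (1 + x + z)) := by
  have h1 : h * gx ≤ h * (B * (1 + x)) := mul_le_mul_of_nonneg_left hgx hh
  have h1' : h * (B * (1 + x)) ≤ sh * (B * (1 + x)) :=
    mul_le_mul_of_nonneg_right hhsh (by positivity)
  have h2 : s * z ≤ 2 * sh * z := mul_le_mul_of_nonneg_right hs hz
  have h3 : B * (1 + x) + 2 * z ≤ (B + 4) * (1 + x + z) := by
    have := mul_nonneg hB0 hz
    have e : (B + 4) * (1 + x + z) = B * (1 + x) + B * z + 4 * (1 + x + z) := by ring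
    rw [e]; linarith
  have h4 := mul_le_mul_of_nonneg_left h3 hsh
  have e : sh * (B * (1 + x) + 2 * z) = sh * (B * (1 + x)) + 2 * sh * z := by ring
  linarith

theorem geo_v (U : E d → ℝ) {B : ℝ} (hB : ∀ x, ‖gradient U x‖ ≤ B * (1 + ‖x‖)) (hB0 : 0 ≤ B)
    {h s sh : ℝ} (hh : 0 ≤ h) (hsh : 0 ≤ sh) (hhsh : h ≤ sh) (hs0 : 0 ≤ s) (hs : s ≤ 2 * sh)
    (x z : E d) :
    ‖x - h • gradient U x + s • z - x‖ ≤ sh * ((B + 4) * (1 + ‖x‖ + ‖z‖)) := by
  have e : x - h • gradient U x + s • z - x = -(h • gradient U x) + s • z := by abel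
  rw [e]
  refine (norm_add_le _ _).trans ?_
  rw [norm_neg, norm_smul, norm_smul, Real.norm_of_nonneg hh, Real.norm_of_nonneg hs0]
  exact geo_scal hB0 (norm_nonneg _) (norm_nonneg _) (hB x) hh hsh hhsh hs

theorem geo_y {D sh : ℝ} (hD : 4 ≤ D) (hsh : sh ≤ 1 / 2) (x z y : E d)
    (hv : ‖y - x‖ ≤ sh * (D * (1 + ‖x‖ + ‖z‖))) :
    1 + ‖x‖ + ‖y‖ ≤ 2 * (D * (1 + ‖x‖ + ‖z‖)) := by
  have h1 : ‖y‖ ≤ ‖y - x‖ + ‖x‖ := by
    have := norm_add_le (y - x) x
    rwa [sub_add_cancel] at this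
  have h3 := norm_nonneg x
  have h4 := norm_nonneg z
  have h5 : 0 ≤ D * (1 + ‖x‖ + ‖z‖) := mul_nonneg (by linarith) (by positivity)
  have h6 : sh * (D * (1 + ‖x‖ + ‖z‖)) ≤ 1 / 2 * (D * (1 + ‖x‖ + ‖z‖)) :=
    mul_le_mul_of_nonneg_right hsh h5
  have h7 : 4 * (1 + ‖x‖ + ‖z‖) ≤ D * (1 + ‖x‖ + ‖z‖) :=
    mul_le_mul_of_nonneg_right hD (by positivity)
  linarith

/-- one step almost preserves `gibbs U`. -/
theorem one_step (hU : Pot d α β U) (hα : 0 < α) :
    ∃ C : ℝ, 0 ≤ C ∧ ∀ h s : ℝ, 0 < h → h ≤ 1 / 4 → |s - Real.sqrt (2 * h)| ≤ h * Real.sqrt h →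
      ∀ g : E d → ℝ, (∀ x y, |g x - g y| ≤ ‖x - y‖) →
      |∫ x, stepOp (fun x => x - h • gradient U x) s g x ∂gibbs U - ∫ x, g x ∂gibbs U| ≤
        C * (h * Real.sqrt h) := by
  have := gibbs_prob hU hα
  have hUm : Measurable U := hU.smooth.continuous.measurable
  have hgc : Continuous (gradient U) := hU.grad_contDiff.continuous
  set b := max β 0 with hb
  have hb0 : 0 ≤ b := le_max_right _ _
  have hβb : β ≤ b := le_max_left _ _
  set B := b + ‖gradient U 0‖ with hBdef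
  have hB0 : 0 ≤ B := by positivity
  have hB : ∀ x, ‖gradient U x‖ ≤ B * (1 + ‖x‖) := by
    intro x
    have h1 := hU.grad_lip hα.le x 0
    rw [sub_zero] at h1
    have h2 := norm_add_le (gradient U x - gradient U 0) (gradient U 0)
    rw [sub_add_cancel] at h2
    have h3 : β * ‖x‖ ≤ b * ‖x‖ := mul_le_mul_of_nonneg_right hβb (norm_nonneg _)
    have h4 := norm_nonneg x
    have h5 := norm_nonneg (gradient U 0)
    rw [hBdef]
    nlinarith
  set D := B + 4 with hD
  have hD4 : 4 ≤ D := by linarith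
  set C2 := 2 * b * D ^ 2 + (B ^ 2 + 4 * B) * (4 * D ^ 2) with hC2
  have hC20 : 0 ≤ C2 := by positivity
  set M := ∫ p : E d × E d, (1 + ‖p.1‖ + ‖p.2‖) ^ 3 ∂((gibbs U).prod (gam d)) with hM
  have hM0 : 0 ≤ M := integral_nonneg fun p => by positivity
  have hMi : Integrable (fun p : E d × E d => (1 + ‖p.1‖ + ‖p.2‖) ^ 3)
      ((gibbs U).prod (gam d)) := by
    have i1 : Integrable (fun x : E d => (1 + ‖x‖) ^ 3) (gibbs U) := by
      refine gibbs_integrable hU hα (by fun_prop) ⟨1, 3, fun x => ?_⟩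
      rw [Real.norm_of_nonneg (by positivity), one_mul]
    have i2 := MehlerAux.pow_int d 3
    refine (i1.mul_prod i2).mono' (by fun_prop) (Filter.Eventually.of_forall fun p => ?_)
    rw [Real.norm_of_nonneg (by positivity), ← mul_pow]
    refine pow_le_pow_left₀ (by positivity) ?_ 3
    nlinarith [mul_nonneg (norm_nonneg p.1) (norm_nonneg p.2)]
  refine ⟨C2 * D * M, by positivity, fun h s hh hh4 hs g hg => ?_⟩
  obtain ⟨hsh0, hsh2, hsh1, hs0, hsu, hs1, hs3⟩ := scal hh hh4 hs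
  set sh := Real.sqrt h with hsh
  have hhsh : h ≤ sh := by nlinarith
  set F : E d → E d := fun x => x - h • gradient U x with hF
  have hFc : Continuous F := continuous_id.sub (hgc.const_smul h)
  have hgcont : Continuous g := by
    have : LipschitzWith 1 g := LipschitzWith.of_dist_le_mul fun x y => by
      rw [Real.dist_eq, dist_eq_norm]
      simpa using hg x y
    exact this.continuous
  -- geometry in the coordinates `(x, z)`
  have hv : ∀ x z : E d, ‖F x + s • z - x‖ ≤ sh * (D * (1 + ‖x‖ + ‖z‖)) := fun x z =>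
    geo_v U hB hB0 hh.le hsh0.le hhsh hs0.le hsu x z
  have hy : ∀ x z : E d, 1 + ‖x‖ + ‖F x + s • z‖ ≤ 2 * (D * (1 + ‖x‖ + ‖z‖)) := fun x z =>
    geo_y hD4 hsh1 x z _ (hv x z)
  -- the functions on pairs
  set f : E d × E d → ℝ := fun p => g p.2 - g p.1 with hf
  set κ : E d × E d → ℝ := jk U F s with hκ
  set DD : E d × E d → ℝ := fun p =>
    2 * b * ‖p.2 - p.1‖ ^ 2 + (B ^ 2 + 4 * B) * h * (1 + ‖p.1‖ + ‖p.2‖) ^ 2 with hDD
  have hfm : Measurable f := by
    have := hgcont.measurable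
    rw [hf]; fun_prop
  have hDDm : Measurable DD := by rw [hDD]; fun_prop
  have hκm : Measurable κ := jk_meas hUm hFc.measurable s
  have hκ0 : ∀ p, 0 < κ p := jk_pos U F s
  have hDlog : ∀ p : E d × E d, |Real.log (κ p.swap) - Real.log (κ p)| ≤ DD p := by
    intro p
    rw [hκ]
    unfold jk
    rw [Real.log_exp, Real.log_exp]
    exact log_ratio hU hα.le hb0 hβb hB hB0 hh hs1 hs3 p.1 p.2
  have hfb : ∀ x z : E d, |f (x, F x + s • z)| ≤ sh * (D * (1 + ‖x‖ + ‖z‖)) := fun x z =>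
    (hg _ _).trans (hv x z)
  have hDb : ∀ x z : E d, DD (x, F x + s • z) ≤ C2 * h * (1 + ‖x‖ + ‖z‖) ^ 2 := by
    intro x z
    have h1 := pow_le_pow_left₀ (norm_nonneg _) (hv x z) 2
    have h2 := pow_le_pow_left₀ (by positivity) (hy x z) 2
    show 2 * b * ‖F x + s • z - x‖ ^ 2 + (B ^ 2 + 4 * B) * h * (1 + ‖x‖ + ‖F x + s • z‖) ^ 2 ≤ _
    calc _ ≤ 2 * b * (sh * (D * (1 + ‖x‖ + ‖z‖))) ^ 2 +
        (B ^ 2 + 4 * B) * h * (2 * (D * (1 + ‖x‖ + ‖z‖))) ^ 2 := by gcongr
      _ = _ := by rw [hC2, ← hsh2]; ring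
  have hDD0 : ∀ p, 0 ≤ DD p := fun p => by
    show 0 ≤ 2 * b * ‖p.2 - p.1‖ ^ 2 + (B ^ 2 + 4 * B) * h * (1 + ‖p.1‖ + ‖p.2‖) ^ 2
    positivity
  have hprod : ∀ x z : E d, |f (x, F x + s • z)| * DD (x, F x + s • z) ≤
      C2 * D * (h * sh) * (1 + ‖x‖ + ‖z‖) ^ 3 := by
    intro x z
    calc _ ≤ sh * (D * (1 + ‖x‖ + ‖z‖)) * (C2 * h * (1 + ‖x‖ + ‖z‖) ^ 2) :=
          mul_le_mul (hfb x z) (hDb x z) (hDD0 _) (by positivity)
      _ = _ := by ring
  -- integrability
  have I1 : Integrable (fun p : E d × E d => f (p.1, F p.1 + s • p.2)) ((gibbs U).prod (gam d)) := by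
    refine (hMi.const_mul (sh * D)).mono' ?_ (Filter.Eventually.of_forall fun p => ?_)
    · exact (hfm.comp (map_meas hFc.measurable s)).aestronglyMeasurable
    · rw [Real.norm_eq_abs]
      refine (hfb _ _).trans ?_
      have h1 : 1 ≤ 1 + ‖p.1‖ + ‖p.2‖ := by
        have := norm_nonneg p.1
        have := norm_nonneg p.2
        linarith
      calc sh * (D * (1 + ‖p.1‖ + ‖p.2‖)) = sh * D * (1 + ‖p.1‖ + ‖p.2‖) := by ring
        _ ≤ _ := mul_le_mul_of_nonneg_left (le_self_pow₀ h1 (by norm_num)) (by positivity)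
  have I2 : Integrable (fun p : E d × E d => |f (p.1, F p.1 + s • p.2)| *
      DD (p.1, F p.1 + s • p.2)) ((gibbs U).prod (gam d)) := by
    refine (hMi.const_mul (C2 * D * (h * sh))).mono' ?_ (Filter.Eventually.of_forall fun p => ?_)
    · exact ((hfm.comp (map_meas hFc.measurable s)).abs.mul
        (hDDm.comp (map_meas hFc.measurable s))).aestronglyMeasurable
    · rw [Real.norm_of_nonneg (mul_nonneg (abs_nonneg _) (hDD0 _))]
      exact hprod _ _
  have hc0 : 0 ≤ jc U s := jc_nonneg U hs0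
  have J1 := (integrable_joint hUm hFc.measurable hs0 hfm).1 I1
  have J2 := (integrable_joint (f := fun p => |f p| * DD p) hUm hFc.measurable hs0
    (hfm.abs.mul hDDm)).1 I2
  -- the constant is positive
  have hcpos : 0 < jc U s := by
    have h1 : 0 < ∫ x, Real.exp (-U x) := GibbsAux.exp_pos' hU hα
    have h2 : 0 < ∫ z : E d, Real.exp (-(‖z‖ ^ 2 / 2)) := by
      refine integral_exp_pos ?_
      refine (GibbsAux.gauss_int (d := d) (b := 1 / 2) (by norm_num)).congr
        (Filter.Eventually.of_forall fun x => ?_)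
      simp only
      congr 1
      ring
    unfold jc
    positivity
  have A := antisymm_le (μ := (volume : Measure (E d))) (κ := fun p => jc U s * κ p) (f := f)
    (D := DD) (fun p => mul_pos hcpos (hκ0 p)) (hκm.const_mul _) hfm
    (fun p => by simp only [hf, Prod.fst_swap, Prod.snd_swap]; ring) J1
    (fun p => by
      rw [Real.log_mul hcpos.ne' (hκ0 _).ne', Real.log_mul hcpos.ne' (hκ0 _).ne',
        add_sub_add_left_eq_sub]
      exact hDlog p) J2
  rw [← integral_joint hUm hFc.measurable hs0 hfm,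
    ← integral_joint (f := fun p => |f p| * DD p) hUm hFc.measurable hs0 (hfm.abs.mul hDDm)] at A
  -- identify the left side
  have hgi : Integrable g (gibbs U) := by
    refine gibbs_integrable hU hα hgcont.aestronglyMeasurable ⟨|g 0| + 1, 1, fun x => ?_⟩
    have h1 := hg x 0
    rw [sub_zero] at h1
    rw [Real.norm_eq_abs, pow_one]
    have h2 : |g x| ≤ |g x - g 0| + |g 0| := by
      have := abs_add_le (g x - g 0) (g 0)
      rwa [sub_add_cancel] at this
    have h3 := norm_nonneg x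
    have h4 := abs_nonneg (g 0)
    nlinarith
  have hg1 : Integrable (fun p : E d × E d => g p.1) ((gibbs U).prod (gam d)) :=
    hgi.comp_fst (gam d)
  have hL : ∫ x, stepOp F s g x ∂gibbs U - ∫ x, g x ∂gibbs U =
      ∫ p, f (p.1, F p.1 + s • p.2) ∂((gibbs U).prod (gam d)) := by
    have h1 : Integrable (fun p : E d × E d => g (F p.1 + s • p.2)) ((gibbs U).prod (gam d)) := by
      have := I1.add hg1
      refine this.congr (Filter.Eventually.of_forall fun p => ?_)
      simp [hf]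
    have h2 : ∫ p, f (p.1, F p.1 + s • p.2) ∂((gibbs U).prod (gam d)) =
        ∫ p, g (F p.1 + s • p.2) ∂((gibbs U).prod (gam d)) -
          ∫ p : E d × E d, g p.1 ∂((gibbs U).prod (gam d)) := integral_sub h1 hg1
    rw [h2, integral_prod _ h1, integral_fun_fst]
    simp [stepOp]
  rw [hL]
  refine A.trans ?_
  calc ∫ p, |f (p.1, F p.1 + s • p.2)| * DD (p.1, F p.1 + s • p.2) ∂((gibbs U).prod (gam d))
      ≤ ∫ p : E d × E d, C2 * D * (h * sh) * (1 + ‖p.1‖ + ‖p.2‖) ^ 3 ∂((gibbs U).prod (gam d)) :=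
        integral_mono I2 (hMi.const_mul _) fun p => hprod _ _
    _ = C2 * D * (h * sh) * M := by rw [integral_const_mul]
    _ = _ := by ring

theorem stepOp_lip {F : E d → E d} {q : ℝ} (hF : ∀ x y, ‖F x - F y‖ ≤ q * ‖x - y‖)
    (s : ℝ) {g : E d → ℝ} {L : ℝ} (hL : 0 ≤ L) (hg : ∀ x y, |g x - g y| ≤ L * ‖x - y‖) (x y : E d) :
    |stepOp F s g x - stepOp F s g y| ≤ L * q * ‖x - y‖ := by
  have hgcont : Continuous g := by
    have : LipschitzWith L.toNNReal g := LipschitzWith.of_dist_le_mul fun x y => by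
      rw [Real.dist_eq, dist_eq_norm, Real.coe_toNNReal _ hL]
      exact hg x y
    exact this.continuous
  have hgr : PolyGrowth g := by
    refine ⟨|g 0| + L, 1, fun x => ?_⟩
    have h1 := hg x 0
    rw [sub_zero] at h1
    rw [Real.norm_eq_abs, pow_one]
    have h2 : |g x| ≤ |g x - g 0| + |g 0| := by
      have := abs_add_le (g x - g 0) (g 0)
      rwa [sub_add_cancel] at this
    have h3 := norm_nonneg x
    have h4 := abs_nonneg (g 0)
    nlinarith
  have hi : ∀ x, Integrable (fun z => g (F x + s • z)) (gam d) := by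
    intro x
    have := MehlerAux.int_comb hgcont hgr 1 s (F x)
    simpa using this
  unfold stepOp
  rw [← integral_sub (hi x) (hi y)]
  have := norm_integral_le_of_norm_le_const (μ := gam d)
    (f := fun z => g (F x + s • z) - g (F y + s • z)) (C := L * q * ‖x - y‖)
    (Filter.Eventually.of_forall fun z => by
      rw [Real.norm_eq_abs]
      refine (hg _ _).trans ?_
      rw [add_sub_add_right_eq_sub, mul_assoc]
      exact mul_le_mul_of_nonneg_left (hF x y) hL)
  simpa using this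

end Fine

open Fine in
theorem fine_chain {d : ℕ} {α β : ℝ} {U : E d → ℝ} (hU : Pot d α β U) (hα : 0 < α) :
    ∃ C h0 : ℝ, 0 < h0 ∧ ∀ h s : ℝ, 0 < h → h ≤ h0 → |s - Real.sqrt (2 * h)| ≤ h * Real.sqrt h →
      ∀ g : E d → ℝ, (∀ x y, |g x - g y| ≤ ‖x - y‖) → ∀ (n : ℕ) (x : E d),
      |(stepOp (fun x => x - h • gradient U x) s)^[n] g x - ∫ x, g x ∂gibbs U| ≤
        C * (1 + ‖x‖) * ((1 - α * h) ^ n + Real.sqrt h) := by
  have := gibbs_prob hU hα
  obtain ⟨C1, hC1, hstep⟩ := one_step hU hα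
  set b := max β α with hb
  have hbα : α ≤ b := le_max_right _ _
  have hb0 : 0 < b := hα.trans_le hbα
  have hU' : Pot d α b U := hU.mono le_rfl (le_max_left _ _)
  set M1 := ∫ x, ‖x‖ ∂gibbs U with hM1
  have hM10 : 0 ≤ M1 := integral_nonneg fun x => norm_nonneg _
  refine ⟨1 + M1 + C1 / α, min (1 / 4) (1 / b), by positivity, fun h s hh hh0 hs g hg n x => ?_⟩
  have hh4 : h ≤ 1 / 4 := hh0.trans (min_le_left _ _)
  have hhb : h * b ≤ 1 := by
    have := hh0.trans (min_le_right _ _)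
    rwa [le_div_iff₀ hb0] at this
  set F : E d → E d := fun x => x - h • gradient U x with hF
  set q := 1 - α * h with hq
  have hq0 : 0 ≤ q := by
    have : α * h ≤ b * h := mul_le_mul_of_nonneg_right hbα hh.le
    rw [hq]; linarith
  have hq1 : q ≤ 1 := by
    rw [hq]
    have : 0 < α * h := by positivity
    linarith
  have hFl : ∀ x y, ‖F x - F y‖ ≤ q * ‖x - y‖ := fun x y => hU'.step_contr hα.le hh.le hhb x y
  -- Lipschitz constants of the iterates
  have hlip : ∀ k : ℕ, ∀ x y, |(stepOp F s)^[k] g x - (stepOp F s)^[k] g y| ≤ q ^ k * ‖x - y‖ := by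
    intro k
    induction k with
    | zero => intro x y; simpa using hg x y
    | succ k ih =>
      intro x y
      rw [Function.iterate_succ_apply', pow_succ]
      exact stepOp_lip hFl s (pow_nonneg hq0 k) ih x y
  have hgi : ∀ k : ℕ, Integrable ((stepOp F s)^[k] g) (gibbs U) := by
    intro k
    have hk := hlip k
    have hqk : q ^ k ≤ 1 := pow_le_one₀ hq0 hq1
    have hqk0 : 0 ≤ q ^ k := pow_nonneg hq0 k
    have hc : Continuous ((stepOp F s)^[k] g) := by
      have : LipschitzWith (q ^ k).toNNReal ((stepOp F s)^[k] g) :=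
        LipschitzWith.of_dist_le_mul fun x y => by
          rw [Real.dist_eq, dist_eq_norm, Real.coe_toNNReal _ hqk0]
          exact hk x y
      exact this.continuous
    refine gibbs_integrable hU hα hc.aestronglyMeasurable
      ⟨|(stepOp F s)^[k] g 0| + 1, 1, fun x => ?_⟩
    have h1 := hk x 0
    rw [sub_zero] at h1
    rw [Real.norm_eq_abs, pow_one]
    have h2 : |(stepOp F s)^[k] g x| ≤ |(stepOp F s)^[k] g x - (stepOp F s)^[k] g 0| +
        |(stepOp F s)^[k] g 0| := by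
      have := abs_add_le ((stepOp F s)^[k] g x - (stepOp F s)^[k] g 0) ((stepOp F s)^[k] g 0)
      rwa [sub_add_cancel] at this
    have h3 := norm_nonneg x
    have h4 := abs_nonneg ((stepOp F s)^[k] g 0)
    have h5 : q ^ k * ‖x‖ ≤ ‖x‖ := mul_le_of_le_one_left h3 hqk
    nlinarith
  have hni : Integrable (fun x : E d => ‖x‖) (gibbs U) := by
    refine gibbs_integrable hU hα (by fun_prop) ⟨1, 1, fun x => ?_⟩
    rw [norm_norm, one_mul, pow_one]
    linarith
  -- (iii)
  have h3 : |(stepOp F s)^[n] g x - ∫ y, (stepOp F s)^[n] g y ∂gibbs U| ≤ q ^ n * (‖x‖ + M1) := by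
    have e : (stepOp F s)^[n] g x - ∫ y, (stepOp F s)^[n] g y ∂gibbs U =
        ∫ y, ((stepOp F s)^[n] g x - (stepOp F s)^[n] g y) ∂gibbs U := by
      rw [integral_sub (integrable_const _) (hgi n)]
      simp
    rw [e]
    refine (abs_integral_le_integral_abs).trans ?_
    have hb2 : ∀ y, |(stepOp F s)^[n] g x - (stepOp F s)^[n] g y| ≤ q ^ n * (‖x‖ + ‖y‖) := by
      intro y
      refine (hlip n x y).trans ?_
      exact mul_le_mul_of_nonneg_left (norm_sub_le _ _) (pow_nonneg hq0 n)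
    calc _ ≤ ∫ y, q ^ n * (‖x‖ + ‖y‖) ∂gibbs U :=
          integral_mono (((integrable_const _).sub (hgi n)).abs)
            (((integrable_const _).add hni).const_mul _) hb2
      _ = q ^ n * (‖x‖ + M1) := by
          rw [integral_const_mul, integral_add (integrable_const _) hni]
          simp [hM1]
  -- (iv)
  have h4 : |∫ y, (stepOp F s)^[n] g y ∂gibbs U - ∫ y, g y ∂gibbs U| ≤
      ∑ k ∈ Finset.range n, q ^ k * (C1 * (h * Real.sqrt h)) := by
    clear h3
    induction n with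
    | zero => simp
    | succ n ih =>
      rw [Finset.sum_range_succ]
      have hscale : |∫ y, (stepOp F s)^[n + 1] g y ∂gibbs U -
          ∫ y, (stepOp F s)^[n] g y ∂gibbs U| ≤ q ^ n * (C1 * (h * Real.sqrt h)) := by
        rcases hq0.eq_or_lt with h0 | h0
        · -- q = 0
          rcases Nat.eq_zero_or_pos n with hn | hn
          · subst hn
            simpa using hstep h s hh hh4 hs g hg
          · have hz : ∀ x y, (stepOp F s)^[n] g x = (stepOp F s)^[n] g y := by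
              intro x y
              have := hlip n x y
              rw [← h0, zero_pow hn.ne', zero_mul] at this
              exact sub_eq_zero.1 (abs_nonpos_iff.1 this)
            have hz2 : ∀ y, (stepOp F s)^[n + 1] g y = (stepOp F s)^[n] g y := by
              intro y
              rw [Function.iterate_succ_apply']
              show ∫ z, (stepOp F s)^[n] g (F y + s • z) ∂gam d = _
              simp_rw [fun z => hz (F y + s • z) y]
              simp
            simp_rw [hz2]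
            rw [sub_self, abs_zero, ← h0, zero_pow hn.ne', zero_mul]
        · have hqn : 0 < q ^ n := pow_pos h0 n
          have h5 := hstep h s hh hh4 hs (fun y => (q ^ n)⁻¹ * (stepOp F s)^[n] g y) (fun x y => by
            rw [← mul_sub, abs_mul, abs_of_pos (inv_pos.2 hqn), inv_mul_le_iff₀ hqn]
            exact hlip n x y)
          have e1 : ∀ y, stepOp F s (fun y => (q ^ n)⁻¹ * (stepOp F s)^[n] g y) y =
              (q ^ n)⁻¹ * (stepOp F s)^[n + 1] g y := by
            intro y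
            rw [Function.iterate_succ_apply']
            unfold stepOp
            rw [integral_const_mul]
          rw [show (fun x => x - h • gradient U x) = F from rfl] at h5
          simp_rw [e1] at h5
          rw [integral_const_mul, integral_const_mul, ← mul_sub, abs_mul,
            abs_of_pos (inv_pos.2 hqn), inv_mul_le_iff₀ hqn] at h5
          exact h5
      have := abs_sub_le (∫ y, (stepOp F s)^[n + 1] g y ∂gibbs U)
        (∫ y, (stepOp F s)^[n] g y ∂gibbs U) (∫ y, g y ∂gibbs U)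
      linarith
  have h5 : ∑ k ∈ Finset.range n, q ^ k * (C1 * (h * Real.sqrt h)) ≤ C1 / α * Real.sqrt h := by
    rw [← Finset.sum_mul]
    have h6 : (∑ k ∈ Finset.range n, q ^ k) * (α * h) ≤ 1 := by
      have h7 := mul_neg_geom_sum q n
      have h8 : 1 - q = α * h := by rw [hq]; ring
      rw [h8] at h7
      have h9 : 0 ≤ q ^ n := pow_nonneg hq0 n
      linarith
    have h7 : (∑ k ∈ Finset.range n, q ^ k) ≤ 1 / (α * h) := by
      rw [le_div_iff₀ (by positivity)]; exact h6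
    calc _ ≤ 1 / (α * h) * (C1 * (h * Real.sqrt h)) :=
          mul_le_mul_of_nonneg_right h7 (by positivity)
      _ = _ := by field_simp
  have hx := norm_nonneg x
  have hqn : 0 ≤ q ^ n := pow_nonneg hq0 n
  have hsq : 0 ≤ Real.sqrt h := Real.sqrt_nonneg h
  have h6 := abs_sub_le ((stepOp F s)^[n] g x) (∫ y, (stepOp F s)^[n] g y ∂gibbs U)
    (∫ y, g y ∂gibbs U)
  have hK : 0 ≤ C1 / α := by positivity
  calc |(stepOp F s)^[n] g x - ∫ x, g x ∂gibbs U|
      ≤ q ^ n * (‖x‖ + M1) + C1 / α * Real.sqrt h := by linarith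
    _ ≤ (1 + M1 + C1 / α) * (1 + ‖x‖) * (q ^ n + Real.sqrt h) := by
        have e1 : q ^ n * (‖x‖ + M1) ≤ (1 + M1 + C1 / α) * (1 + ‖x‖) * q ^ n := by
          rw [mul_comm]
          refine mul_le_mul_of_nonneg_right ?_ hqn
          nlinarith [mul_nonneg hM10 hx, mul_nonneg hK hx]
        have e2 : C1 / α * Real.sqrt h ≤ (1 + M1 + C1 / α) * (1 + ‖x‖) * Real.sqrt h := by
          refine mul_le_mul_of_nonneg_right ?_ hsq
          nlinarith [mul_nonneg hM10 hx, mul_nonneg hK hx]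
        rw [mul_add]
        linarith

end Vale.Agent.P347
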