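import Vale.Agent.P347.Rot

/-!
# P347, A2: Gaussian Poincare inequality (rotation path)
-/

open MeasureTheory ProbabilityTheory Set
open scoped ENNReal NNReal RealInnerProductSpace

namespace Vale.Agent.P347

namespace GPAux

variable {d : ℕ} {ι : Type} [Fintype ι] [DecidableEq ι]

/-- the gradient norm squared -/
noncomputable def gr (L : (ι → E d) →L[ℝ] ℝ) : ℝ := ∑ i, ∑ k, (L (Pi.single i (eb k))) ^ 2

theorem gr_nonneg (L : (ι → E d) →L[ℝ] ℝ) : 0 ≤ gr L :=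
  Finset.sum_nonneg fun _ _ => Finset.sum_nonneg fun _ _ => sq_nonneg _

/-- restriction of a linear form to one block -/
noncomputable def bl (L : (ι → E d) →L[ℝ] ℝ) (i : ι) : E d →L[ℝ] ℝ :=
  L.comp (ContinuousLinearMap.single ℝ (fun _ : ι => E d) i)

theorem bl_apply (L : (ι → E d) →L[ℝ] ℝ) (i : ι) (x : E d) : bl L i x = L (Pi.single i x) := rfl

theorem sum_bl (L : (ι → E d) →L[ℝ] ℝ) (y : ι → E d) : ∑ i, bl L i (y i) = L y := by
  simp only [bl_apply]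
  rw [← map_sum]
  congr 1
  exact Finset.univ_sum_single y

theorem norm_bl_sq (L : (ι → E d) →L[ℝ] ℝ) (i : ι) :
    ‖bl L i‖ ^ 2 = ∑ k, (L (Pi.single i (eb k))) ^ 2 := by
  have := (EuclideanSpace.basisFun (Fin d) ℝ).norm_dual (bl L i)
  rw [this]
  refine Finset.sum_congr rfl fun k _ => ?_
  simp [bl_apply, eb]

theorem memLp_form (L : (ι → E d) →L[ℝ] ℝ) : MemLp L 2 (gamPi d ι) :=
  IsGaussian.memLp_dual (gamPi d ι) L 2 (by simp)

theorem integral_form (L : (ι → E d) →L[ℝ] ℝ) : ∫ y, L y ∂gamPi d ι = 0 := by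
  have hint : Integrable (id : (ι → E d) → (ι → E d)) (gamPi d ι) := IsGaussian.integrable_id
  have h1 := ContinuousLinearMap.integral_comp_comm L hint
  have h2 := RotAux.integral_id_pi d ι
  simp only [id_eq] at h1 h2
  rw [h1, h2, map_zero]

theorem integral_sq (L : (ι → E d) →L[ℝ] ℝ) : ∫ y, (L y) ^ 2 ∂gamPi d ι = gr L := by
  have h1 := variance_eq_sub (memLp_form L)
  have h2 : (gamPi d ι)[L] = 0 := integral_form L
  rw [h2] at h1
  have h3 : Var[L; gamPi d ι] = ∑ i, Var[bl L i; gam d] := by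
    have h4 := variance_sum_pi (μ := fun _ : ι => gam d) (X := fun i => bl L i)
      (fun i => IsGaussian.memLp_dual (gam d) (bl L i) 2 (by simp))
    rw [← h4]
    congr 1
    funext y
    rw [Finset.sum_apply]
    exact (sum_bl L y).symm
  have h5 : Var[L; gamPi d ι] = gr L := by
    rw [h3]
    unfold gr
    refine Finset.sum_congr rfl fun i _ => ?_
    rw [variance_dual_stdGaussian, norm_bl_sq]
  rw [h5] at h1
  simp only [Pi.pow_apply] at h1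
  rw [h1]
  ring

theorem lintegral_sq (L : (ι → E d) →L[ℝ] ℝ) :
    ∫⁻ y, ENNReal.ofReal ((L y) ^ 2) ∂gamPi d ι = ENNReal.ofReal (gr L) := by
  rw [← integral_sq, ofReal_integral_eq_lintegral_ofReal (memLp_form L).integrable_sq
    (Filter.Eventually.of_forall fun _ => sq_nonneg _)]

theorem cs_interval {a : ℝ} (ha : 0 < a) (h : ℝ → ℝ) (hc : Continuous h) :
    (∫ θ in (0:ℝ)..a, h θ) ^ 2 ≤ a * ∫ θ in (0:ℝ)..a, (h θ) ^ 2 := by
  set m : ℝ := (∫ θ in (0:ℝ)..a, h θ) / a with hm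
  have h1 : 0 ≤ ∫ θ in (0:ℝ)..a, (h θ - m) ^ 2 :=
    intervalIntegral.integral_nonneg ha.le fun _ _ => sq_nonneg _
  have h2 : ∫ θ in (0:ℝ)..a, (h θ - m) ^ 2 =
      (∫ θ in (0:ℝ)..a, (h θ) ^ 2) - 2 * m * (∫ θ in (0:ℝ)..a, h θ) + a * m ^ 2 := by
    have e : ∀ θ, (h θ - m) ^ 2 = (h θ) ^ 2 - 2 * m * h θ + m ^ 2 := fun θ => by ring
    simp only [e]
    rw [intervalIntegral.integral_add, intervalIntegral.integral_sub,
      intervalIntegral.integral_const_mul, intervalIntegral.integral_const]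
    · simp
    · exact (hc.pow 2).intervalIntegrable _ _
    · exact (hc.const_mul _).intervalIntegrable _ _
    · exact ((hc.pow 2).sub (hc.const_mul _)).intervalIntegrable _ _
    · exact continuous_const.intervalIntegrable _ _
  rw [h2] at h1
  have h3 : (∫ θ in (0:ℝ)..a, h θ) = a * m := by
    rw [hm]
    field_simp
  rw [h3] at h1 ⊢
  have h4 : a * m ^ 2 ≤ ∫ θ in (0:ℝ)..a, (h θ) ^ 2 := by nlinarith
  calc (a * m) ^ 2 = a * (a * m ^ 2) := by ring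
    _ ≤ a * ∫ θ in (0:ℝ)..a, (h θ) ^ 2 := mul_le_mul_of_nonneg_left h4 ha.le

/-- main inequality in terms of lower integrals -/
theorem lintegral_diff_sq (f : (ι → E d) → ℝ) (hf : ContDiff ℝ 1 f) :
    ∫⁻ z, ENNReal.ofReal ((f z.2 - f z.1) ^ 2) ∂((gamPi d ι).prod (gamPi d ι)) ≤
      ENNReal.ofReal (Real.pi ^ 2 / 4) * ∫⁻ x, ENNReal.ofReal (gr (fderiv ℝ f x)) ∂gamPi d ι := by
  set γ := gamPi d ι
  obtain ⟨G, hG⟩ : ∃ G : ℝ → (ι → E d) × (ι → E d) → ℝ, G = fun θ z =>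
    fderiv ℝ f (ContinuousLinearMap.rotation θ z).1 (ContinuousLinearMap.rotation θ z).2 :=
    ⟨_, rfl⟩
  have hfd : Continuous (fderiv ℝ f) := hf.continuous_fderiv (by norm_num)
  have hrot : Continuous (fun q : ℝ × ((ι → E d) × (ι → E d)) =>
      ContinuousLinearMap.rotation q.1 q.2) := by
    simp only [ContinuousLinearMap.rotation_apply]
    fun_prop
  have hGc : Continuous (fun q : ℝ × ((ι → E d) × (ι → E d)) => G q.1 q.2) := by
    rw [hG]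
    exact (hfd.comp (continuous_fst.comp hrot)).clm_apply (continuous_snd.comp hrot)
  have hpi : 0 < Real.pi / 2 := by positivity
  have hftc : ∀ z : (ι → E d) × (ι → E d),
      ∫ θ in (0:ℝ)..(Real.pi / 2), G θ z = f z.2 - f z.1 := by
    intro z
    have hd : ∀ θ : ℝ, HasDerivAt (fun θ => f (Real.cos θ • z.1 + Real.sin θ • z.2)) (G θ z) θ := by
      intro θ
      have h1 : HasDerivAt (fun θ => Real.cos θ • z.1 + Real.sin θ • z.2)
          (-Real.sin θ • z.1 + Real.cos θ • z.2) θ :=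
        ((Real.hasDerivAt_cos θ).smul_const z.1).add ((Real.hasDerivAt_sin θ).smul_const z.2)
      have h2 := (hf.differentiable (by norm_num)
        (Real.cos θ • z.1 + Real.sin θ • z.2)).hasFDerivAt.comp_hasDerivAt θ h1
      rw [hG]
      exact h2
    have h3 := intervalIntegral.integral_eq_sub_of_hasDerivAt (a := 0) (b := Real.pi / 2)
      (fun θ _ => hd θ) ((hGc.comp (continuous_id.prodMk continuous_const)).intervalIntegrable _ _)
    rw [h3]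
    simp
  have hcs : ∀ z : (ι → E d) × (ι → E d), (f z.2 - f z.1) ^ 2 ≤
      (Real.pi / 2) * ∫ θ in (0:ℝ)..(Real.pi / 2), (G θ z) ^ 2 := by
    intro z
    have hc : Continuous (fun θ => G θ z) := hGc.comp (continuous_id.prodMk continuous_const)
    rw [← hftc z]
    exact cs_interval hpi _ hc
  have hmeas : Measurable (fun q : ((ι → E d) × (ι → E d)) × ℝ =>
      ENNReal.ofReal ((G q.2 q.1) ^ 2)) := by
    have : Continuous (fun q : ((ι → E d) × (ι → E d)) × ℝ => (G q.2 q.1) ^ 2) :=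
      (hGc.comp (continuous_snd.prodMk continuous_fst)).pow 2
    exact this.measurable.ennreal_ofReal
  have hstep : ∀ θ : ℝ, ∫⁻ z, ENNReal.ofReal ((G θ z) ^ 2) ∂(γ.prod γ) =
      ∫⁻ x, ENNReal.ofReal (gr (fderiv ℝ f x)) ∂γ := by
    intro θ
    have hrm : Measurable (ContinuousLinearMap.rotation (E := ι → E d) θ) :=
      (ContinuousLinearMap.rotation θ).continuous.measurable
    have hmg : Measurable (fun z : (ι → E d) × (ι → E d) => ENNReal.ofReal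
        ((fderiv ℝ f z.1 z.2) ^ 2)) := by
      have : Continuous (fun z : (ι → E d) × (ι → E d) => (fderiv ℝ f z.1 z.2) ^ 2) :=
        ((hfd.comp continuous_fst).clm_apply continuous_snd).pow 2
      exact this.measurable.ennreal_ofReal
    have h1 : ∫⁻ z, ENNReal.ofReal ((G θ z) ^ 2) ∂(γ.prod γ) =
        ∫⁻ z, ENNReal.ofReal ((fderiv ℝ f z.1 z.2) ^ 2) ∂(γ.prod γ) := by
      have hmap : (γ.prod γ).map (ContinuousLinearMap.rotation θ) = γ.prod γ :=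
        IsGaussian.map_rotation_eq_self (RotAux.integral_id_pi d ι) θ
      conv_rhs => rw [← hmap]
      rw [lintegral_map hmg hrm, hG]
    rw [h1, lintegral_prod _ hmg.aemeasurable]
    refine lintegral_congr fun x => ?_
    exact lintegral_sq (fderiv ℝ f x)
  calc ∫⁻ z, ENNReal.ofReal ((f z.2 - f z.1) ^ 2) ∂(γ.prod γ)
      ≤ ∫⁻ z, ENNReal.ofReal (Real.pi / 2) * (∫⁻ θ in Ioc (0:ℝ) (Real.pi / 2),
          ENNReal.ofReal ((G θ z) ^ 2)) ∂(γ.prod γ) := by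
        apply lintegral_mono
        intro z
        simp only
        refine (ENNReal.ofReal_le_ofReal (hcs z)).trans (le_of_eq ?_)
        rw [ENNReal.ofReal_mul (by positivity), intervalIntegral.integral_of_le hpi.le,
          ofReal_integral_eq_lintegral_ofReal]
        · have hc : Continuous (fun θ => G θ z) := hGc.comp (continuous_id.prodMk continuous_const)
          exact ((hc.pow 2).intervalIntegrable 0 (Real.pi / 2)).1
        · exact Filter.Eventually.of_forall fun _ => sq_nonneg _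
    _ = ENNReal.ofReal (Real.pi / 2) * ∫⁻ z, (∫⁻ θ in Ioc (0:ℝ) (Real.pi / 2),
          ENNReal.ofReal ((G θ z) ^ 2)) ∂(γ.prod γ) := by
        rw [lintegral_const_mul' _ _ ENNReal.ofReal_ne_top]
    _ = ENNReal.ofReal (Real.pi / 2) * ∫⁻ θ in Ioc (0:ℝ) (Real.pi / 2), (∫⁻ z,
          ENNReal.ofReal ((G θ z) ^ 2) ∂(γ.prod γ)) := by
        rw [lintegral_lintegral_swap]
        exact hmeas.aemeasurable
    _ = ENNReal.ofReal (Real.pi ^ 2 / 4) * ∫⁻ x, ENNReal.ofReal (gr (fderiv ℝ f x)) ∂γ := by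
        simp only [hstep]
        rw [setLIntegral_const, Real.volume_Ioc, sub_zero,
          mul_comm (∫⁻ x, ENNReal.ofReal (gr (fderiv ℝ f x)) ∂γ),
          ← mul_assoc, ← ENNReal.ofReal_mul (by positivity)]
        congr 2
        ring

theorem sq2_nonneg (ω : ι → E d) : 0 ≤ sq2 ω := Finset.sum_nonneg fun _ _ => sq_nonneg _

theorem sq2_smul (t : ℝ) (ω : ι → E d) : sq2 (t • ω) = t ^ 2 * sq2 ω := by
  simp [sq2, norm_smul, mul_pow, Finset.mul_sum]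

theorem sq2_le (ω : ι → E d) : sq2 ω ≤ Fintype.card ι * ‖ω‖ ^ 2 := by
  unfold sq2
  calc ∑ i, ‖ω i‖ ^ 2 ≤ ∑ _i : ι, ‖ω‖ ^ 2 :=
        Finset.sum_le_sum fun i _ => pow_le_pow_left₀ (norm_nonneg _) (norm_le_pi_norm ω i) 2
    _ = Fintype.card ι * ‖ω‖ ^ 2 := by simp

/-- directional bound for the derivative from the Lipschitz condition -/
theorem fderiv_sq_le {F : Type*} [NormedAddCommGroup F] [NormedSpace ℝ F] (f : (ι → E d) → F)
    (hf : ContDiff ℝ 1 f) {L : ℝ}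
    (hL : ∀ ω ω', ‖f ω - f ω'‖ ^ 2 ≤ L ^ 2 * sq2 (ω - ω')) (ω h : ι → E d) :
    ‖fderiv ℝ f ω h‖ ^ 2 ≤ L ^ 2 * sq2 h := by
  have hd := (hf.differentiable (by norm_num) ω).hasFDerivAt
  have h1 : HasDerivAt (fun t : ℝ => f (ω + t • h)) (fderiv ℝ f ω h) 0 := by
    have h2 : HasDerivAt (fun t : ℝ => ω + t • h) h 0 := by
      have := ((hasDerivAt_id (0 : ℝ)).smul_const h).const_add ω
      simpa using this
    have h3 : HasFDerivAt f (fderiv ℝ f ω) (ω + (0 : ℝ) • h) := by simpa using hd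
    exact h3.comp_hasDerivAt (0 : ℝ) h2
  have h4 := (hasDerivAt_iff_tendsto_slope.1 h1).norm.pow 2
  refine le_of_tendsto h4 ?_
  filter_upwards [self_mem_nhdsWithin] with t ht
  have ht' : t ≠ 0 := ht
  simp only [slope, sub_zero, vsub_eq_sub, zero_smul, add_zero]
  rw [norm_smul, mul_pow]
  have h5 := hL (ω + t • h) ω
  rw [add_sub_cancel_left, sq2_smul] at h5
  have h6 : ‖t⁻¹‖ ^ 2 * ‖f (ω + t • h) - f ω‖ ^ 2 ≤ ‖t⁻¹‖ ^ 2 * (L ^ 2 * (t ^ 2 * sq2 h)) :=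
    mul_le_mul_of_nonneg_left h5 (sq_nonneg _)
  refine h6.trans (le_of_eq ?_)
  rw [Real.norm_eq_abs, sq_abs]
  field_simp

/-- from a bound on all directions to a bound on the gradient -/
theorem gr_le {M : (ι → E d) →L[ℝ] ℝ} {B : ℝ} (hB : 0 ≤ B) (h : ∀ v, (M v) ^ 2 ≤ B * sq2 v) :
    gr M ≤ B := by
  set v : ι → E d := fun i => ∑ k, (M (Pi.single i (eb k))) • eb k with hv
  have h1 : M v = gr M := by
    rw [← sum_bl M v]
    unfold gr
    refine Finset.sum_congr rfl fun i _ => ?_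
    rw [hv]
    simp only [map_sum, map_smul, smul_eq_mul, bl_apply]
    exact Finset.sum_congr rfl fun k _ => by ring
  have h2 : sq2 v = gr M := by
    unfold sq2 gr
    refine Finset.sum_congr rfl fun i _ => ?_
    rw [EuclideanSpace.real_norm_sq_eq]
    refine Finset.sum_congr rfl fun k _ => ?_
    congr 1
    rw [hv]
    simp [eb, Pi.single_apply]
  have h3 := h v
  rw [h1, h2] at h3
  rcases (gr_nonneg M).eq_or_lt with h0 | h0
  · rw [← h0]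
    exact hB
  · nlinarith

theorem norm_sub_le {F : Type*} [NormedAddCommGroup F] (f : (ι → E d) → F) {L : ℝ}
    (hL : ∀ ω ω', ‖f ω - f ω'‖ ^ 2 ≤ L ^ 2 * sq2 (ω - ω')) (ω : ι → E d) :
    ‖f ω‖ ≤ ‖f 0‖ + |L| * Real.sqrt (Fintype.card ι) * ‖ω‖ := by
  have h1 : ‖f ω - f 0‖ ^ 2 ≤ (|L| * Real.sqrt (Fintype.card ι) * ‖ω‖) ^ 2 := by
    have h2 := hL ω 0
    rw [sub_zero] at h2
    have h3 := mul_le_mul_of_nonneg_left (sq2_le ω) (sq_nonneg L)
    have h4 : (|L| * Real.sqrt (Fintype.card ι) * ‖ω‖) ^ 2 =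
        L ^ 2 * (Fintype.card ι * ‖ω‖ ^ 2) := by
      rw [mul_pow, mul_pow, sq_abs, Real.sq_sqrt (by positivity)]
      ring
    rw [h4]
    exact h2.trans h3
  have h2 := abs_le_of_sq_le_sq h1 (by positivity)
  rw [abs_of_nonneg (norm_nonneg _)] at h2
  calc ‖f ω‖ = ‖f 0 + (f ω - f 0)‖ := by rw [add_sub_cancel]
    _ ≤ ‖f 0‖ + ‖f ω - f 0‖ := norm_add_le _ _
    _ ≤ _ := by linarith

theorem memLp_aff (a b : ℝ) :
    MemLp (fun ω : ι → E d => a + b * ‖ω‖) 2 (gamPi d ι) := by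
  have h1 : MemLp (id : (ι → E d) → (ι → E d)) 2 (gamPi d ι) :=
    IsGaussian.memLp_id (gamPi d ι) 2 (by simp)
  have h2 : MemLp (fun ω : ι → E d => ‖ω‖) 2 (gamPi d ι) := h1.norm
  have h3 : MemLp (fun ω : ι → E d => b * ‖ω‖) 2 (gamPi d ι) := h2.const_mul b
  have h4 : MemLp (fun _ : ι → E d => a) 2 (gamPi d ι) := memLp_const a
  exact h4.add h3

theorem memLp_lip {F : Type*} [NormedAddCommGroup F] [NormedSpace ℝ F]
    [SecondCountableTopology F] (f : (ι → E d) → F)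
    (hf : Continuous f) {L : ℝ}
    (hL : ∀ ω ω', ‖f ω - f ω'‖ ^ 2 ≤ L ^ 2 * sq2 (ω - ω')) : MemLp f 2 (gamPi d ι) := by
  have h0 : AEStronglyMeasurable f (gamPi d ι) := hf.aestronglyMeasurable
  have h2 := memLp_aff (d := d) (ι := ι) ‖f 0‖ (|L| * Real.sqrt (Fintype.card ι))
  exact MemLp.of_le h2 h0 (Filter.Eventually.of_forall fun ω =>
    (norm_sub_le f hL ω).trans (le_abs_self _))

theorem integral_diff_sq {Ω : Type*} [MeasurableSpace Ω] (μ : Measure Ω) [IsProbabilityMeasure μ]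
    (f : Ω → ℝ) (hf : MemLp f 2 μ) :
    Integrable (fun z : Ω × Ω => (f z.2 - f z.1) ^ 2) (μ.prod μ) ∧
    ∫ z, (f z.2 - f z.1) ^ 2 ∂(μ.prod μ) = 2 * ∫ x, (f x - ∫ x', f x' ∂μ) ^ 2 ∂μ := by
  set m := ∫ x', f x' ∂μ with hm
  have hg : MemLp (fun x => f x - m) 2 μ := hf.sub (memLp_const m)
  have hgi : Integrable (fun x => f x - m) μ := hg.integrable (by norm_num)
  have hg2 : Integrable (fun x => (f x - m) ^ 2) μ := hg.integrable_sq
  have h0 : ∫ x, (f x - m) ∂μ = 0 := by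
    rw [integral_sub (hf.integrable (by norm_num)) (integrable_const m)]
    simp [hm]
  have i1 : Integrable (fun z : Ω × Ω => (f z.2 - m) ^ 2) (μ.prod μ) := hg2.comp_snd μ
  have i2 : Integrable (fun z : Ω × Ω => (f z.1 - m) ^ 2) (μ.prod μ) := hg2.comp_fst μ
  have i3 : Integrable (fun z : Ω × Ω => (f z.1 - m) * (f z.2 - m)) (μ.prod μ) :=
    hgi.mul_prod hgi
  have e : (fun z : Ω × Ω => (f z.2 - f z.1) ^ 2) =
      fun z : Ω × Ω => (f z.2 - m) ^ 2 + (f z.1 - m) ^ 2 - 2 * ((f z.1 - m) * (f z.2 - m)) := by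
    funext z
    ring
  refine ⟨?_, ?_⟩
  · rw [e]
    exact (i1.add i2).sub (i3.const_mul 2)
  · have e1 : ∫ z : Ω × Ω, (f z.2 - m) ^ 2 + (f z.1 - m) ^ 2 -
        2 * ((f z.1 - m) * (f z.2 - m)) ∂(μ.prod μ) =
        ∫ z : Ω × Ω, (f z.2 - m) ^ 2 + (f z.1 - m) ^ 2 ∂(μ.prod μ) -
          ∫ z : Ω × Ω, 2 * ((f z.1 - m) * (f z.2 - m)) ∂(μ.prod μ) :=
      integral_sub (i1.add i2) (i3.const_mul 2)
    rw [e, e1, integral_add i1 i2, integral_const_mul]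
    have h1 : ∫ z : Ω × Ω, (f z.1 - m) * (f z.2 - m) ∂(μ.prod μ) = 0 := by
      rw [integral_prod_mul (fun x => f x - m) (fun x => f x - m), h0]
      simp
    have h2 : ∫ z : Ω × Ω, (f z.2 - m) ^ 2 ∂(μ.prod μ) = ∫ x, (f x - m) ^ 2 ∂μ := by
      have hp := measurePreserving_snd (μ := μ) (ν := μ)
      have h4 := integral_map (μ := μ.prod μ) (φ := Prod.snd) (f := fun x => (f x - m) ^ 2)
        hp.aemeasurable (by rw [hp.map_eq]; exact hg2.aestronglyMeasurable)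
      rw [hp.map_eq] at h4
      exact h4.symm
    have h3 : ∫ z : Ω × Ω, (f z.1 - m) ^ 2 ∂(μ.prod μ) = ∫ x, (f x - m) ^ 2 ∂μ := by
      have hp := measurePreserving_fst (μ := μ) (ν := μ)
      have h4 := integral_map (μ := μ.prod μ) (φ := Prod.fst) (f := fun x => (f x - m) ^ 2)
        hp.aemeasurable (by rw [hp.map_eq]; exact hg2.aestronglyMeasurable)
      rw [hp.map_eq] at h4
      exact h4.symm
    rw [h1, h2, h3]
    ring

theorem gr_fderiv_le (f : (ι → E d) → ℝ) (hf : ContDiff ℝ 1 f) {L : ℝ}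
    (hL : ∀ ω ω', (f ω - f ω') ^ 2 ≤ L ^ 2 * sq2 (ω - ω')) (ω : ι → E d) :
    gr (fderiv ℝ f ω) ≤ L ^ 2 := by
  apply gr_le (sq_nonneg L)
  intro v
  have := fderiv_sq_le f hf (L := L) (fun ω ω' => by
    rw [Real.norm_eq_abs, sq_abs]
    exact hL ω ω') ω v
  rwa [Real.norm_eq_abs, sq_abs] at this

theorem gr_continuous (f : (ι → E d) → ℝ) (hf : ContDiff ℝ 1 f) :
    Continuous fun ω => gr (fderiv ℝ f ω) := by
  have hfd : Continuous (fderiv ℝ f) := hf.continuous_fderiv (by norm_num)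
  unfold gr
  refine continuous_finset_sum _ fun i _ => continuous_finset_sum _ fun k _ => ?_
  exact (hfd.clm_apply continuous_const).pow 2

theorem gr_integrable (f : (ι → E d) → ℝ) (hf : ContDiff ℝ 1 f) {L : ℝ}
    (hL : ∀ ω ω', (f ω - f ω') ^ 2 ≤ L ^ 2 * sq2 (ω - ω')) :
    Integrable (fun ω => gr (fderiv ℝ f ω)) (gamPi d ι) := by
  refine Integrable.mono' (integrable_const (L ^ 2)) (gr_continuous f hf).aestronglyMeasurable
    (Filter.Eventually.of_forall fun ω => ?_)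
  rw [Real.norm_eq_abs, abs_of_nonneg (gr_nonneg _)]
  exact gr_fderiv_le f hf hL ω

end GPAux

open GPAux

theorem poincare_grad {d : ℕ} {ι : Type} [Fintype ι] [DecidableEq ι] (f : (ι → E d) → ℝ)
    (hf : ContDiff ℝ 1 f) {L : ℝ} (hL : ∀ ω ω', (f ω - f ω') ^ 2 ≤ L ^ 2 * sq2 (ω - ω')) :
    ∫ ω, (f ω - ∫ ω', f ω' ∂gamPi d ι) ^ 2 ∂gamPi d ι ≤
      2 * ∫ ω, ∑ i, ∑ k, (fderiv ℝ f ω (Pi.single i (eb k))) ^ 2 ∂gamPi d ι := by
  have hm : MemLp f 2 (gamPi d ι) := memLp_lip f hf.continuous (L := L) fun ω ω' => by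
    rw [Real.norm_eq_abs, sq_abs]
    exact hL ω ω'
  obtain ⟨h1, h2⟩ := integral_diff_sq (gamPi d ι) f hm
  have h3 := lintegral_diff_sq f hf
  rw [← ofReal_integral_eq_lintegral_ofReal h1 (Filter.Eventually.of_forall fun _ => sq_nonneg _),
    ← ofReal_integral_eq_lintegral_ofReal (gr_integrable f hf hL)
      (Filter.Eventually.of_forall fun _ => gr_nonneg _),
    ← ENNReal.ofReal_mul (by positivity)] at h3
  have h4 : 0 ≤ ∫ ω, gr (fderiv ℝ f ω) ∂gamPi d ι := integral_nonneg fun _ => gr_nonneg _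
  have h5 := (ENNReal.ofReal_le_ofReal_iff (mul_nonneg (by positivity) h4)).1 h3
  rw [h2] at h5
  have h6 : Real.pi ^ 2 ≤ 16 := by
    have := Real.pi_le_four
    have h7 := Real.pi_pos
    nlinarith
  change _ ≤ 2 * ∫ ω, gr (fderiv ℝ f ω) ∂gamPi d ι
  nlinarith

theorem poincare_scalar {d : ℕ} {ι : Type} [Fintype ι] (f : (ι → E d) → ℝ)
    (hf : ContDiff ℝ 1 f) {L : ℝ} (hL : ∀ ω ω', (f ω - f ω') ^ 2 ≤ L ^ 2 * sq2 (ω - ω')) :
    ∫ ω, (f ω - ∫ ω', f ω' ∂gamPi d ι) ^ 2 ∂gamPi d ι ≤ 2 * L ^ 2 := by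
  classical
  refine (poincare_grad f hf hL).trans ?_
  have h1 : ∫ ω, gr (fderiv ℝ f ω) ∂gamPi d ι ≤ ∫ _ω, L ^ 2 ∂gamPi d ι :=
    integral_mono (gr_integrable f hf hL) (integrable_const _) fun ω => gr_fderiv_le f hf hL ω
  rw [integral_const] at h1
  simp only [probReal_univ, one_smul] at h1
  change 2 * ∫ ω, gr (fderiv ℝ f ω) ∂gamPi d ι ≤ 2 * L ^ 2
  linarith

namespace GPAux

theorem vec_split {Ω : Type*} [MeasurableSpace Ω] (μ : Measure Ω) [IsProbabilityMeasure μ]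
    {k : ℕ} (F : Ω → E k) (hF : MemLp F 2 μ) :
    ∫ ω, ‖F ω - ∫ ω', F ω' ∂μ‖ ^ 2 ∂μ = ∑ j, ∫ ω, (F ω j - ∫ ω', F ω' j ∂μ) ^ 2 ∂μ := by
  have hi : Integrable F μ := hF.integrable (by norm_num)
  have h1 : ∀ j, (∫ ω', F ω' ∂μ) j = ∫ ω', F ω' j ∂μ := by
    intro j
    have := ContinuousLinearMap.integral_comp_comm
      (EuclideanSpace.proj (𝕜 := ℝ) j : E k →L[ℝ] ℝ) hi
    exact this.symm
  have h2 : ∀ j, MemLp (fun ω => F ω j) 2 μ := by
    intro j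
    exact (EuclideanSpace.proj (𝕜 := ℝ) j : E k →L[ℝ] ℝ).comp_memLp' hF
  have h3 : ∀ j, Integrable (fun ω => (F ω j - ∫ ω', F ω' j ∂μ) ^ 2) μ := by
    intro j
    exact ((h2 j).sub (memLp_const _)).integrable_sq
  rw [← integral_finset_sum _ fun j _ => h3 j]
  refine integral_congr_ae (Filter.Eventually.of_forall fun ω => ?_)
  simp only
  rw [EuclideanSpace.real_norm_sq_eq]
  refine Finset.sum_congr rfl fun j _ => ?_
  rw [PiLp.sub_apply, h1 j]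

theorem coord_sub_sq {k : ℕ} (x y : E k) (j : Fin k) : (x j - y j) ^ 2 ≤ ‖x - y‖ ^ 2 := by
  rw [EuclideanSpace.real_norm_sq_eq]
  have := Finset.single_le_sum (f := fun j => ((x - y) j) ^ 2) (fun _ _ => sq_nonneg _)
    (Finset.mem_univ j)
  simpa using this

theorem contDiff_coord {d k : ℕ} {ι : Type} [Fintype ι] (F : (ι → E d) → E k)
    (hF : ContDiff ℝ 1 F) (j : Fin k) : ContDiff ℝ 1 (fun ω => F ω j) :=
  (EuclideanSpace.proj (𝕜 := ℝ) j : E k →L[ℝ] ℝ).contDiff.comp hF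

theorem hs2_nonneg {k m : ℕ} (T : E k →L[ℝ] E m) : 0 ≤ hs2 T :=
  Finset.sum_nonneg fun _ _ => sq_nonneg _

theorem apply_eq {k m : ℕ} (T : E k →L[ℝ] E m) (v : E k) : T v = ∑ i, v i • T (eb i) := by
  have : v = ∑ i, v i • (eb i : E k) := by
    have := (EuclideanSpace.basisFun (Fin k) ℝ).sum_repr v
    simpa [eb] using this.symm
  conv_lhs => rw [this]
  rw [map_sum]
  simp only [map_smul]

theorem coord_sq_le {k m : ℕ} (T : E k →L[ℝ] E m) (v : E k) (j : Fin m) :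
    (T v j) ^ 2 ≤ (∑ i, (T (eb i) j) ^ 2) * ‖v‖ ^ 2 := by
  have h1 : T v j = ∑ i, v i * T (eb i) j := by
    rw [apply_eq T v]
    simp
  rw [h1, EuclideanSpace.real_norm_sq_eq]
  have := Finset.sum_mul_sq_le_sq_mul_sq Finset.univ (fun i => v i) (fun i => T (eb i) j)
  linarith [mul_comm (∑ i, (T (eb i) j) ^ 2) (∑ i, (v i) ^ 2)]

theorem hs2_eq {k m : ℕ} (T : E k →L[ℝ] E m) : hs2 T = ∑ j, ∑ i, (T (eb i) j) ^ 2 := by
  unfold hs2
  rw [Finset.sum_comm]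
  refine Finset.sum_congr rfl fun i _ => ?_
  rw [EuclideanSpace.real_norm_sq_eq]

theorem norm_sq_le_hs2 {k m : ℕ} (T : E k →L[ℝ] E m) (v : E k) :
    ‖T v‖ ^ 2 ≤ hs2 T * ‖v‖ ^ 2 := by
  rw [EuclideanSpace.real_norm_sq_eq, hs2_eq, Finset.sum_mul]
  exact Finset.sum_le_sum fun j _ => coord_sq_le T v j

theorem lip_of_hs2 {k m : ℕ} (φ : E k → E m) (hφ : ContDiff ℝ 1 φ) {M : ℝ}
    (hM : ∀ x, hs2 (fderiv ℝ φ x) ≤ M ^ 2) (x y : E k) :
    ‖φ x - φ y‖ ^ 2 ≤ M ^ 2 * ‖x - y‖ ^ 2 := by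
  have h1 : ∀ z, ‖fderiv ℝ φ z‖ ≤ |M| := by
    intro z
    refine ContinuousLinearMap.opNorm_le_bound _ (abs_nonneg _) fun v => ?_
    have h2 := norm_sq_le_hs2 (fderiv ℝ φ z) v
    have h3 : ‖fderiv ℝ φ z v‖ ^ 2 ≤ (|M| * ‖v‖) ^ 2 := by
      rw [mul_pow, sq_abs]
      exact h2.trans (mul_le_mul_of_nonneg_right (hM z) (sq_nonneg _))
    have h4 := abs_le_of_sq_le_sq h3 (by positivity)
    rwa [abs_of_nonneg (norm_nonneg _)] at h4
  have h2 := Convex.norm_image_sub_le_of_norm_fderiv_le (𝕜 := ℝ) (f := φ) (C := |M|)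
    (s := Set.univ) (x := y) (y := x) (fun z _ => (hφ.differentiable (by norm_num)) z)
    (fun z _ => h1 z) convex_univ (Set.mem_univ _) (Set.mem_univ _)
  calc ‖φ x - φ y‖ ^ 2 ≤ (|M| * ‖x - y‖) ^ 2 := pow_le_pow_left₀ (norm_nonneg _) h2 2
    _ = M ^ 2 * ‖x - y‖ ^ 2 := by rw [mul_pow, sq_abs]

end GPAux

theorem poincare_lip {d k : ℕ} {ι : Type} [Fintype ι] (F : (ι → E d) → E k)
    (hF : ContDiff ℝ 1 F) {L : ℝ} (hL : ∀ ω ω', ‖F ω - F ω'‖ ^ 2 ≤ L ^ 2 * sq2 (ω - ω')) :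
    ∫ ω, ‖F ω - ∫ ω', F ω' ∂gamPi d ι‖ ^ 2 ∂gamPi d ι ≤ 2 * k * L ^ 2 := by
  classical
  have hm : MemLp F 2 (gamPi d ι) := memLp_lip F hF.continuous hL
  rw [vec_split _ F hm]
  calc ∑ j, ∫ ω, (F ω j - ∫ ω', F ω' j ∂gamPi d ι) ^ 2 ∂gamPi d ι
      ≤ ∑ _j : Fin k, 2 * L ^ 2 := by
        refine Finset.sum_le_sum fun j _ => ?_
        refine poincare_scalar (fun ω => F ω j) (contDiff_coord F hF j) fun ω ω' => ?_
        exact (coord_sub_sq (F ω) (F ω') j).trans (hL ω ω')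
    _ = 2 * k * L ^ 2 := by
        simp
        ring

theorem poincare_comp {d k m : ℕ} {ι : Type} [Fintype ι] (φ : E k → E m) (Ψ : (ι → E d) → E k)
    (hφ : ContDiff ℝ 1 φ) (hΨ : ContDiff ℝ 1 Ψ) {L M : ℝ}
    (hM : ∀ x, hs2 (fderiv ℝ φ x) ≤ M ^ 2)
    (hL : ∀ ω ω', ‖Ψ ω - Ψ ω'‖ ^ 2 ≤ L ^ 2 * sq2 (ω - ω')) :
    ∫ ω, ‖φ (Ψ ω) - ∫ ω', φ (Ψ ω') ∂gamPi d ι‖ ^ 2 ∂gamPi d ι ≤ 2 * (L * M) ^ 2 := by
  classical
  have hF : ContDiff ℝ 1 (fun ω => φ (Ψ ω)) := hφ.comp hΨ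
  have hL' : ∀ ω ω', ‖φ (Ψ ω) - φ (Ψ ω')‖ ^ 2 ≤ (L * M) ^ 2 * sq2 (ω - ω') := by
    intro ω ω'
    have h1 := lip_of_hs2 φ hφ hM (Ψ ω) (Ψ ω')
    have h2 := mul_le_mul_of_nonneg_left (hL ω ω') (sq_nonneg M)
    calc ‖φ (Ψ ω) - φ (Ψ ω')‖ ^ 2 ≤ M ^ 2 * (L ^ 2 * sq2 (ω - ω')) := h1.trans h2
      _ = (L * M) ^ 2 * sq2 (ω - ω') := by ring
  have hm : MemLp (fun ω => φ (Ψ ω)) 2 (gamPi d ι) := memLp_lip _ hF.continuous hL'
  rw [vec_split _ _ hm]
  have hcl : ∀ j : Fin m, ∀ ω ω', (φ (Ψ ω) j - φ (Ψ ω') j) ^ 2 ≤ (L * M) ^ 2 * sq2 (ω - ω') :=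
    fun j ω ω' => (coord_sub_sq _ _ j).trans (hL' ω ω')
  have hcd : ∀ j : Fin m, ContDiff ℝ 1 (fun ω => φ (Ψ ω) j) := fun j => contDiff_coord _ hF j
  have hgr : ∀ (j : Fin m) (ω : ι → E d), gr (fderiv ℝ (fun ω => φ (Ψ ω) j) ω) ≤
      L ^ 2 * ∑ i, (fderiv ℝ φ (Ψ ω) (eb i) j) ^ 2 := by
    intro j ω
    have hA : 0 ≤ ∑ i, (fderiv ℝ φ (Ψ ω) (eb i) j) ^ 2 :=
      Finset.sum_nonneg fun _ _ => sq_nonneg _
    apply gr_le (mul_nonneg (sq_nonneg L) hA)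
    intro v
    have hd1 := (hφ.differentiable (by norm_num) (Ψ ω)).hasFDerivAt
    have hd2 := (hΨ.differentiable (by norm_num) ω).hasFDerivAt
    have hd3 := hd1.comp ω hd2
    have hd4 := ((EuclideanSpace.proj (𝕜 := ℝ) j : E m →L[ℝ] ℝ).hasFDerivAt).comp ω hd3
    have hd5 : fderiv ℝ (fun ω => φ (Ψ ω) j) ω =
        (EuclideanSpace.proj (𝕜 := ℝ) j : E m →L[ℝ] ℝ).comp
          ((fderiv ℝ φ (Ψ ω)).comp (fderiv ℝ Ψ ω)) := hd4.fderiv
    rw [hd5]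
    have h1 : ((EuclideanSpace.proj (𝕜 := ℝ) j : E m →L[ℝ] ℝ).comp
          ((fderiv ℝ φ (Ψ ω)).comp (fderiv ℝ Ψ ω))) v =
        fderiv ℝ φ (Ψ ω) (fderiv ℝ Ψ ω v) j := rfl
    rw [h1]
    have h2 := coord_sq_le (fderiv ℝ φ (Ψ ω)) (fderiv ℝ Ψ ω v) j
    have h3 := fderiv_sq_le Ψ hΨ hL ω v
    calc (fderiv ℝ φ (Ψ ω) (fderiv ℝ Ψ ω v) j) ^ 2
        ≤ (∑ i, (fderiv ℝ φ (Ψ ω) (eb i) j) ^ 2) * ‖fderiv ℝ Ψ ω v‖ ^ 2 := h2
      _ ≤ (∑ i, (fderiv ℝ φ (Ψ ω) (eb i) j) ^ 2) * (L ^ 2 * sq2 v) :=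
          mul_le_mul_of_nonneg_left h3 hA
      _ = L ^ 2 * (∑ i, (fderiv ℝ φ (Ψ ω) (eb i) j) ^ 2) * sq2 v := by ring
  calc ∑ j, ∫ ω, (φ (Ψ ω) j - ∫ ω', φ (Ψ ω') j ∂gamPi d ι) ^ 2 ∂gamPi d ι
      ≤ ∑ j, 2 * ∫ ω, gr (fderiv ℝ (fun ω => φ (Ψ ω) j) ω) ∂gamPi d ι :=
        Finset.sum_le_sum fun j _ => poincare_grad _ (hcd j) (hcl j)
    _ = 2 * ∫ ω, ∑ j, gr (fderiv ℝ (fun ω => φ (Ψ ω) j) ω) ∂gamPi d ι := by
        rw [← Finset.mul_sum, integral_finset_sum]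
        exact fun j _ => gr_integrable _ (hcd j) (hcl j)
    _ ≤ 2 * ∫ _ω : ι → E d, (L * M) ^ 2 ∂gamPi d ι := by
        refine mul_le_mul_of_nonneg_left ?_ (by norm_num)
        refine integral_mono (integrable_finset_sum _ fun j _ => gr_integrable _ (hcd j) (hcl j))
          (integrable_const _) fun ω => ?_
        simp only
        calc ∑ j, gr (fderiv ℝ (fun ω => φ (Ψ ω) j) ω)
            ≤ ∑ j, L ^ 2 * ∑ i, (fderiv ℝ φ (Ψ ω) (eb i) j) ^ 2 :=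
              Finset.sum_le_sum fun j _ => hgr j ω
          _ = L ^ 2 * hs2 (fderiv ℝ φ (Ψ ω)) := by rw [← Finset.mul_sum, hs2_eq]
          _ ≤ L ^ 2 * M ^ 2 := mul_le_mul_of_nonneg_left (hM _) (sq_nonneg _)
          _ = (L * M) ^ 2 := by ring
    _ = 2 * (L * M) ^ 2 := by
        rw [integral_const]
        simp

end Vale.Agent.P347
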