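import Vale.Agent.P347.PotBasic

/-!
# P347 C0b: Gibbs laws of strongly convex potentials
-/

open MeasureTheory ProbabilityTheory
open scoped ENNReal NNReal RealInnerProductSpace

namespace Vale.Agent.P347

section pot
variable {d : ℕ} {α β : ℝ} {U : E d → ℝ}

namespace GibbsAux

theorem pot_meas (hU : Pot d α β U) : Measurable U := hU.smooth.continuous.measurable

/-- Gaussian integrability -/
theorem gauss_int {b : ℝ} (hb : 0 < b) : Integrable fun x : E d => Real.exp (-b * ‖x‖ ^ 2) := by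
  have h := (GaussianFourier.integrable_cexp_neg_mul_sq_norm_add (V := E d) (b := (b : ℂ))
    (by simpa using hb) 0 0).norm
  refine h.congr (ae_of_all _ fun x => ?_)
  simp only [Complex.norm_exp]
  congr 1
  simp [← Complex.ofReal_pow]

theorem pow_le_exp (p : ℕ) {t : ℝ} (ht : 0 ≤ t) : t ^ p ≤ p.factorial * Real.exp t := by
  have h := Real.pow_div_factorial_le_exp t ht p
  have hf : (0 : ℝ) < p.factorial := by exact_mod_cast p.factorial_pos
  rw [div_le_iff₀ hf] at h
  linarith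

theorem lower (hU : Pot d α β U) (x : E d) :
    U 0 - ‖gradient U 0‖ * ‖x‖ + α / 2 * ‖x‖ ^ 2 ≤ U x := by
  have h := (hU.taylor x 0).1
  rw [sub_zero] at h
  have h2 := abs_real_inner_le_norm (gradient U 0) x
  rw [abs_le] at h2
  linarith [h2.1]

/-- Gaussian domination -/
theorem dom (hU : Pot d α β U) (hα : 0 < α) (p : ℕ) (x : E d) :
    (1 + ‖x‖) ^ p * Real.exp (-U x) ≤
      (p.factorial * Real.exp (1 - U 0 + (1 + ‖gradient U 0‖) ^ 2 / α)) *
        Real.exp (-(α / 4) * ‖x‖ ^ 2) := by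
  have h1 := pow_le_exp p (t := 1 + ‖x‖) (by positivity)
  have h2 : Real.exp (-U x) ≤ Real.exp (-U 0 + ‖gradient U 0‖ * ‖x‖ - α / 2 * ‖x‖ ^ 2) :=
    Real.exp_le_exp.2 (by linarith [lower hU x])
  have hf : (0 : ℝ) ≤ p.factorial := by positivity
  calc (1 + ‖x‖) ^ p * Real.exp (-U x)
      ≤ (p.factorial * Real.exp (1 + ‖x‖)) *
        Real.exp (-U 0 + ‖gradient U 0‖ * ‖x‖ - α / 2 * ‖x‖ ^ 2) := by gcongr
    _ = p.factorial * Real.exp (1 + ‖x‖ + (-U 0 + ‖gradient U 0‖ * ‖x‖ - α / 2 * ‖x‖ ^ 2)) := by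
        rw [mul_assoc, ← Real.exp_add]
    _ ≤ p.factorial * Real.exp (1 - U 0 + (1 + ‖gradient U 0‖) ^ 2 / α + -(α / 4) * ‖x‖ ^ 2) := by
        refine mul_le_mul_of_nonneg_left (Real.exp_le_exp.2 ?_) hf
        have key : (1 + ‖gradient U 0‖) * ‖x‖ ≤ (1 + ‖gradient U 0‖) ^ 2 / α + α / 4 * ‖x‖ ^ 2 := by
          have hs : 0 ≤ ((1 + ‖gradient U 0‖) / α - ‖x‖ / 2) ^ 2 * α := by positivity
          have he : ((1 + ‖gradient U 0‖) / α - ‖x‖ / 2) ^ 2 * α =
              (1 + ‖gradient U 0‖) ^ 2 / α + α / 4 * ‖x‖ ^ 2 - (1 + ‖gradient U 0‖) * ‖x‖ := by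
            field_simp
            ring
          linarith
        linarith
    _ = _ := by rw [mul_assoc, ← Real.exp_add]

end GibbsAux

open GibbsAux

theorem Pot.integrable_exp (hU : Pot d α β U) (hα : 0 < α) (p : ℕ) :
    Integrable (fun x : E d => (1 + ‖x‖) ^ p * Real.exp (-U x)) := by
  have hm := pot_meas hU
  refine Integrable.mono' ((gauss_int (d := d) (b := α / 4) (by positivity)).const_mul
    (p.factorial * Real.exp (1 - U 0 + (1 + ‖gradient U 0‖) ^ 2 / α))) ?_
    (ae_of_all _ fun x => ?_)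
  · exact Measurable.aestronglyMeasurable (by fun_prop)
  · rw [Real.norm_of_nonneg (by positivity)]
    exact dom hU hα p x

theorem GibbsAux.int_exp (hU : Pot d α β U) (hα : 0 < α) :
    Integrable (fun x : E d => Real.exp (-U x)) := by
  simpa using hU.integrable_exp hα 0

theorem gibbs_prob (hU : Pot d α β U) (hα : 0 < α) : IsProbabilityMeasure (gibbs U) :=
  isProbabilityMeasure_tilted (int_exp hU hα)

/-- integrability against the Lebesgue measure -/
theorem GibbsAux.int_poly (hU : Pot d α β U) (hα : 0 < α) {f : E d → ℝ}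
    (hf : AEStronglyMeasurable f volume) (hg : PolyGrowth f) :
    Integrable (fun x => Real.exp (-U x) * f x) := by
  obtain ⟨C, p, hC⟩ := hg
  refine Integrable.mono' ((hU.integrable_exp hα p).const_mul C) ?_ (ae_of_all _ fun x => ?_)
  · exact (Measurable.aestronglyMeasurable (by have := pot_meas hU; fun_prop)).mul hf
  · rw [norm_mul, Real.norm_of_nonneg (Real.exp_pos _).le]
    calc Real.exp (-U x) * ‖f x‖ ≤ Real.exp (-U x) * (C * (1 + ‖x‖) ^ p) :=
          mul_le_mul_of_nonneg_left (hC x) (Real.exp_pos _).le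
      _ = _ := by ring

theorem gibbs_integrable (hU : Pot d α β U) (hα : 0 < α) {F : Type*} [NormedAddCommGroup F]
    {f : E d → F} (hf : AEStronglyMeasurable f volume) (hg : PolyGrowth f) :
    Integrable f (gibbs U) := by
  have hf' : AEStronglyMeasurable f (gibbs U) := hf.mono_ac (tilted_absolutelyContinuous _ _)
  rw [← integrable_norm_iff hf', gibbs, integrable_tilted_iff (int_exp hU hα)]
  obtain ⟨C, p, hC⟩ := hg
  exact int_poly hU hα hf.norm ⟨C, p, fun x => by simpa using hC x⟩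

theorem gibbs_integral (U : E d → ℝ) {F : Type*} [NormedAddCommGroup F] [NormedSpace ℝ F]
    (f : E d → F) : ∫ x, f x ∂gibbs U = (∫ x, Real.exp (-U x))⁻¹ • ∫ x, Real.exp (-U x) • f x := by
  rw [gibbs, integral_tilted, ← integral_smul]
  refine integral_congr_ae (ae_of_all _ fun x => ?_)
  simp only [div_eq_inv_mul, mul_smul]

namespace GibbsAux

theorem exp_pos' (hU : Pot d α β U) (hα : 0 < α) : 0 < ∫ x : E d, Real.exp (-U x) :=
  integral_exp_pos (int_exp hU hα)

theorem hasFDerivAt_exp (hU : Pot d α β U) (x : E d) :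
    HasFDerivAt (fun x => Real.exp (-U x)) (Real.exp (-U x) • -fderiv ℝ U x) x :=
  (hU.hasFDerivAt x).neg.exp

theorem grad_poly (hU : Pot d α β U) (hα : 0 ≤ α) : PolyGrowth (gradient U) := by
  refine ⟨max β 0 + ‖gradient U 0‖, 1, fun x => ?_⟩
  have h1 := hU.grad_lip hα x 0
  rw [sub_zero] at h1
  have h2 : ‖gradient U x‖ ≤ ‖gradient U x - gradient U 0‖ + ‖gradient U 0‖ := by
    simpa using norm_add_le (gradient U x - gradient U 0) (gradient U 0)
  have h3 : β * ‖x‖ ≤ max β 0 * ‖x‖ := mul_le_mul_of_nonneg_right (le_max_left _ _) (norm_nonneg _)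
  have h4 : 0 ≤ max β 0 := le_max_right _ _
  have h5 := norm_nonneg x
  have h6 := norm_nonneg (gradient U 0)
  rw [pow_one]
  nlinarith [mul_nonneg h6 h5]

/-- integration by parts in a coordinate -/
theorem ibp_coord (hU : Pot d α β U) (hα : 0 < α) (i : Fin d) :
    ∫ x : E d, Real.exp (-U x) * (x i * fderiv ℝ U x (EuclideanSpace.single i 1)) =
      ∫ x : E d, Real.exp (-U x) := by
  set v : E d := EuclideanSpace.single i 1 with hv
  have hvn : ‖v‖ = 1 := by simp [hv]
  let p : E d →L[ℝ] ℝ := EuclideanSpace.proj i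
  have hp : ∀ x : E d, p x = x i := fun x => rfl
  have hpd : ∀ x : E d, fderiv ℝ (fun x : E d => p x) x v = 1 := by
    intro x
    rw [ContinuousLinearMap.fderiv p]
    simp [hp, hv]
  have hed : ∀ x : E d, fderiv ℝ (fun x => Real.exp (-U x)) x v =
      -(Real.exp (-U x) * fderiv ℝ U x v) := by
    intro x
    rw [(hasFDerivAt_exp hU x).fderiv]
    simp
  have hpn : ∀ x : E d, |p x| ≤ ‖x‖ := fun x => by
    simpa [hp] using EuclideanSpace.norm_eq x ▸ (PiLp.norm_apply_le x i)
  have hcg : Continuous (gradient U) := hU.grad_contDiff.continuous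
  have hUv : ∀ x, fderiv ℝ U x v = ⟪gradient U x, v⟫ := fun x => (Pot.inner_grad U x v).symm
  have hi1 : Integrable (fun x : E d => fderiv ℝ (fun x : E d => p x) x v * Real.exp (-U x)) := by
    simpa only [hpd, one_mul] using int_exp hU hα
  have hi3 : Integrable (fun x : E d => p x * Real.exp (-U x)) := by
    have := int_poly hU hα (f := fun x => p x) p.continuous.aestronglyMeasurable
      ⟨1, 1, fun x => by rw [Real.norm_eq_abs]; linarith [hpn x, norm_nonneg x]⟩
    simpa only [mul_comm] using this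
  have hi4 : Integrable (fun x : E d => Real.exp (-U x) * (p x * fderiv ℝ U x v)) := by
    refine int_poly hU hα (f := fun x => p x * fderiv ℝ U x v) ?_ ?_
    · refine Continuous.aestronglyMeasurable ?_
      simp only [hUv]
      fun_prop
    · obtain ⟨C, q, hC⟩ := grad_poly hU hα.le
      refine ⟨C, q + 1, fun x => ?_⟩
      rw [norm_mul, Real.norm_eq_abs, Real.norm_eq_abs, hUv]
      have h1 : |⟪gradient U x, v⟫| ≤ C * (1 + ‖x‖) ^ q := by
        refine (abs_real_inner_le_norm _ _).trans ?_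
        rw [hvn, mul_one]
        exact hC x
      have h2 : |p x| ≤ 1 + ‖x‖ := by linarith [hpn x]
      calc |p x| * |⟪gradient U x, v⟫| ≤ (1 + ‖x‖) * (C * (1 + ‖x‖) ^ q) :=
            mul_le_mul h2 h1 (abs_nonneg _) (by positivity)
        _ = _ := by ring
  have hi2 : Integrable (fun x : E d => p x * fderiv ℝ (fun x => Real.exp (-U x)) x v) := by
    refine hi4.neg.congr (ae_of_all _ fun x => ?_)
    simp only [hed, Pi.neg_apply]
    ring
  have key := integral_mul_fderiv_eq_neg_fderiv_mul_of_integrable (μ := (volume : Measure (E d)))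
    (f := fun x : E d => p x) (g := fun x => Real.exp (-U x)) (v := v) hi1 hi2 hi3
    (fun x _ => p.differentiableAt) (fun x _ => (hasFDerivAt_exp hU x).differentiableAt)
  simp only [hed, hpd, one_mul] at key
  have h5 : (fun x : E d => p x * -(Real.exp (-U x) * fderiv ℝ U x v)) =
      fun x => -(Real.exp (-U x) * (x i * fderiv ℝ U x v)) := by
    funext x
    rw [hp]
    ring
  rw [h5, integral_neg, neg_inj] at key
  exact key

/-- `∫ ⟨x, ∇U⟩ dμ = d` -/
theorem ibp (hU : Pot d α β U) (hα : 0 < α) :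
    ∫ x, ⟪gradient U x, x⟫ ∂gibbs U = d := by
  have h1 : ∀ x : E d, ⟪gradient U x, x⟫ =
      ∑ i, x i * fderiv ℝ U x (EuclideanSpace.single i 1) := by
    intro x
    rw [Pot.inner_grad]
    have hx : x = ∑ i, x i • (EuclideanSpace.single i (1 : ℝ) : E d) := by
      have h := ((EuclideanSpace.basisFun (Fin d) ℝ).sum_repr x).symm
      simpa using h
    calc fderiv ℝ U x x = fderiv ℝ U x (∑ i, x i • (EuclideanSpace.single i (1 : ℝ) : E d)) := by
          rw [← hx]
      _ = _ := by simp only [map_sum, map_smul, smul_eq_mul]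
  have hcg : Continuous (gradient U) := hU.grad_contDiff.continuous
  have hint : ∀ i : Fin d, Integrable fun x : E d =>
      Real.exp (-U x) * (x i * fderiv ℝ U x (EuclideanSpace.single i 1)) := by
    intro i
    refine int_poly hU hα (f := fun x : E d =>
      x i * fderiv ℝ U x (EuclideanSpace.single i 1)) ?_ ?_
    · refine Continuous.aestronglyMeasurable ?_
      simp only [← Pot.inner_grad]
      fun_prop
    · obtain ⟨C, q, hC⟩ := grad_poly hU hα.le
      refine ⟨C, q + 1, fun x => ?_⟩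
      rw [norm_mul, Real.norm_eq_abs, Real.norm_eq_abs, ← Pot.inner_grad]
      have h1 : |⟪gradient U x, EuclideanSpace.single i (1 : ℝ)⟫| ≤ C * (1 + ‖x‖) ^ q := by
        refine (abs_real_inner_le_norm _ _).trans ?_
        simpa using hC x
      have h2 : |x i| ≤ 1 + ‖x‖ := by
        have := PiLp.norm_apply_le x i
        rw [Real.norm_eq_abs] at this
        linarith
      calc |x i| * |⟪gradient U x, EuclideanSpace.single i (1 : ℝ)⟫|
          ≤ (1 + ‖x‖) * (C * (1 + ‖x‖) ^ q) := mul_le_mul h2 h1 (abs_nonneg _) (by positivity)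
        _ = _ := by ring
  rw [gibbs_integral]
  simp only [smul_eq_mul, h1, Finset.mul_sum]
  rw [integral_finset_sum _ fun i _ => hint i]
  simp only [ibp_coord hU hα, Finset.sum_const, Finset.card_univ, Fintype.card_fin, nsmul_eq_mul]
  have := exp_pos' hU hα
  field_simp

theorem sq_poly : PolyGrowth (fun x : E d => ‖x‖ ^ 2) :=
  ⟨1, 2, fun x => by
    rw [Real.norm_of_nonneg (by positivity), one_mul]
    have := norm_nonneg x
    nlinarith⟩

theorem grad_mono (hU : Pot d α β U) (x : E d) :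
    α * ‖x‖ ^ 2 ≤ ⟪gradient U x, x⟫ - ⟪gradient U 0, x⟫ := by
  have h1 := (hU.taylor x 0).1
  have h2 := (hU.taylor 0 x).1
  rw [sub_zero] at h1
  rw [zero_sub, norm_neg, inner_neg_right] at h2
  linarith

end GibbsAux

/-- second moment: `∫ |x|² dμ ≤ 4 (d/α + |∇U(0)|²/α²)` -/
theorem gibbs_sq (hU : Pot d α β U) (hα : 0 < α) :
    ∫ x, ‖x‖ ^ 2 ∂gibbs U ≤ 4 * (d / α + ‖gradient U 0‖ ^ 2 / α ^ 2) := by
  have := gibbs_prob hU hα
  have hcg : Continuous (gradient U) := hU.grad_contDiff.continuous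
  have i1 : Integrable (fun x : E d => ‖x‖ ^ 2) (gibbs U) :=
    gibbs_integrable hU hα (by fun_prop) sq_poly
  have i2 : Integrable (fun x : E d => ⟪gradient U x, x⟫) (gibbs U) := by
    refine gibbs_integrable hU hα (Continuous.aestronglyMeasurable (by fun_prop)) ?_
    obtain ⟨C, q, hC⟩ := grad_poly hU hα.le
    refine ⟨C, q + 1, fun x => ?_⟩
    rw [Real.norm_eq_abs]
    refine (abs_real_inner_le_norm _ _).trans ?_
    calc ‖gradient U x‖ * ‖x‖ ≤ (C * (1 + ‖x‖) ^ q) * (1 + ‖x‖) :=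
          mul_le_mul (hC x) (by linarith) (norm_nonneg _) ((norm_nonneg _).trans (hC x))
      _ = _ := by ring
  have hle : ∀ x : E d, α / 2 * ‖x‖ ^ 2 ≤ ⟪gradient U x, x⟫ + ‖gradient U 0‖ ^ 2 / (2 * α) := by
    intro x
    have h1 := grad_mono hU x
    have h2 := abs_real_inner_le_norm (gradient U 0) x
    rw [abs_le] at h2
    have h3 : ‖gradient U 0‖ * ‖x‖ ≤ ‖gradient U 0‖ ^ 2 / (2 * α) + α / 2 * ‖x‖ ^ 2 := by
      have hs : 0 ≤ (‖gradient U 0‖ / α - ‖x‖) ^ 2 * (α / 2) := by positivity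
      have he : (‖gradient U 0‖ / α - ‖x‖) ^ 2 * (α / 2) =
          ‖gradient U 0‖ ^ 2 / (2 * α) + α / 2 * ‖x‖ ^ 2 - ‖gradient U 0‖ * ‖x‖ := by
        field_simp
        ring
      linarith
    linarith [h2.1]
  have h := integral_mono (i1.const_mul (α / 2)) (i2.add (integrable_const _)) hle
  rw [integral_const_mul] at h
  have h2 : ∫ x : E d, (⟪gradient U x, x⟫ + ‖gradient U 0‖ ^ 2 / (2 * α)) ∂gibbs U =
      d + ‖gradient U 0‖ ^ 2 / (2 * α) := by
    rw [integral_add i2 (integrable_const _), ibp hU hα]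
    simp
  have h3 : α / 2 * ∫ x : E d, ‖x‖ ^ 2 ∂gibbs U ≤ d + ‖gradient U 0‖ ^ 2 / (2 * α) := by
    rw [← h2]
    exact h
  have h4 : ∫ x : E d, ‖x‖ ^ 2 ∂gibbs U ≤ (d + ‖gradient U 0‖ ^ 2 / (2 * α)) * (2 / α) := by
    calc ∫ x : E d, ‖x‖ ^ 2 ∂gibbs U = (α / 2 * ∫ x : E d, ‖x‖ ^ 2 ∂gibbs U) * (2 / α) := by
          field_simp
      _ ≤ _ := mul_le_mul_of_nonneg_right h3 (by positivity)
  refine h4.trans ?_
  have h5 : (d + ‖gradient U 0‖ ^ 2 / (2 * α)) * (2 / α) =
      2 * (d / α) + ‖gradient U 0‖ ^ 2 / α ^ 2 := by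
    field_simp
  rw [h5]
  have h6 : 0 ≤ (d : ℝ) / α := by positivity
  have h7 : 0 ≤ ‖gradient U 0‖ ^ 2 / α ^ 2 := by positivity
  linarith

/-- the standard Gaussian is a Gibbs law -/
theorem gam_eq_gibbs (d : ℕ) : gam d = gibbs (fun x : E d => ‖x‖ ^ 2 / 2) := by
  have hint : Integrable (fun x : E d => Real.exp (-(‖x‖ ^ 2 / 2))) := by
    refine (gauss_int (d := d) (b := 1 / 2) (by norm_num)).congr (ae_of_all _ fun x => ?_)
    simp only
    congr 1
    ring
  have : IsProbabilityMeasure (gibbs (fun x : E d => ‖x‖ ^ 2 / 2)) :=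
    isProbabilityMeasure_tilted hint
  refine Measure.ext_of_charFun ?_
  funext t
  rw [charFun_stdGaussian, charFun_apply, gibbs_integral]
  have hb : 0 < ((1 / 2 : ℂ)).re := by norm_num
  have h1 := GaussianFourier.integral_cexp_neg_mul_sq_norm_add (V := E d) hb Complex.I t
  have h2 := GaussianFourier.integral_rexp_neg_mul_sq_norm (V := E d) (b := 1 / 2) (by norm_num)
  have h3 : ∫ x : E d, Real.exp (-(‖x‖ ^ 2 / 2)) =
      (Real.pi / (1 / 2)) ^ ((Module.finrank ℝ (E d) : ℝ) / 2) := by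
    rw [← h2]
    refine integral_congr_ae (ae_of_all _ fun x => ?_)
    simp only
    congr 1
    ring
  have h4 : ∫ x : E d, Real.exp (-(‖x‖ ^ 2 / 2)) • Complex.exp (⟪x, t⟫ * Complex.I) =
      (Real.pi / (1 / 2 : ℂ)) ^ ((Module.finrank ℝ (E d) : ℂ) / 2) *
        Complex.exp (Complex.I ^ 2 * ‖t‖ ^ 2 / (4 * (1 / 2))) := by
    rw [← h1]
    refine integral_congr_ae (ae_of_all _ fun x => ?_)
    simp only
    rw [Complex.real_smul, Complex.ofReal_exp, ← Complex.exp_add]
    congr 1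
    rw [real_inner_comm]
    push_cast
    ring
  rw [h3, h4, Complex.real_smul, ← mul_assoc]
  have h5 : (((Real.pi / (1 / 2)) ^ ((Module.finrank ℝ (E d) : ℝ) / 2) : ℝ) : ℂ) =
      (Real.pi / (1 / 2 : ℂ)) ^ ((Module.finrank ℝ (E d) : ℂ) / 2) := by
    rw [Complex.ofReal_cpow (by positivity)]
    push_cast
    rfl
  have h6 : (((Real.pi / (1 / 2)) ^ ((Module.finrank ℝ (E d) : ℝ) / 2) : ℝ) : ℂ) ≠ 0 := by
    have : (0 : ℝ) < (Real.pi / (1 / 2)) ^ ((Module.finrank ℝ (E d) : ℝ) / 2) := by positivity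
    exact_mod_cast this.ne'
  rw [← h5, Complex.ofReal_inv, inv_mul_cancel₀ h6, one_mul, Complex.I_sq]
  congr 1
  ring

end pot

end Vale.Agent.P347
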