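import Vale.Agent.P347.GibbsBasic
import Vale.Agent.P347.DefsB

/-! P347: joint density of `(x, F x + s z)`, `x ~ gibbs U`, `z` Gaussian. -/

open MeasureTheory ProbabilityTheory
open scoped ENNReal NNReal RealInnerProductSpace

namespace Vale.Agent.P347

namespace Joint

variable {d : ℕ} {α β : ℝ} {U : E d → ℝ}

theorem lintegral_affine {G : E d → ℝ≥0∞} (hG : Measurable G) (a : E d) {s : ℝ} (hs : 0 < s) :
    ∫⁻ z, G (a + s • z) = ENNReal.ofReal ((s ^ d)⁻¹) * ∫⁻ y, G y := by
  have h1 := Measure.map_addHaar_smul (volume : Measure (E d)) (r := s) hs.ne'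
  rw [finrank_euclideanSpace_fin, abs_of_nonneg (by positivity)] at h1
  have hGa : Measurable fun y => G (a + y) := hG.comp (measurable_const_add a)
  have h2 : ∫⁻ z, G (a + s • z) = ∫⁻ y, G (a + y) ∂(Measure.map (s • ·) (volume : Measure (E d))) :=
    (lintegral_map hGa (measurable_const_smul s)).symm
  rw [h2, h1, lintegral_smul_measure, smul_eq_mul, lintegral_add_left_eq_self G a]

/-- the kernel -/
noncomputable def jk (U : E d → ℝ) (F : E d → E d) (s : ℝ) (p : E d × E d) : ℝ :=
  Real.exp (-U p.1 - ‖p.2 - F p.1‖ ^ 2 / (2 * s ^ 2))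

/-- the normalisation -/
noncomputable def jc (U : E d → ℝ) (s : ℝ) : ℝ :=
  (∫ x, Real.exp (-U x))⁻¹ * (∫ z : E d, Real.exp (-(‖z‖ ^ 2 / 2)))⁻¹ * (s ^ d)⁻¹

theorem jc_nonneg (U : E d → ℝ) {s : ℝ} (hs : 0 < s) : 0 ≤ jc U s := by
  have h1 : 0 ≤ ∫ x, Real.exp (-U x) := integral_nonneg fun x => (Real.exp_pos _).le
  have h2 : 0 ≤ ∫ z : E d, Real.exp (-(‖z‖ ^ 2 / 2)) :=
    integral_nonneg fun x => (Real.exp_pos _).le
  unfold jc
  positivity

theorem jk_pos (U : E d → ℝ) (F : E d → E d) (s : ℝ) (p : E d × E d) : 0 < jk U F s p :=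
  Real.exp_pos _

theorem jk_meas (hU : Measurable U) {F : E d → E d} (hF : Measurable F) (s : ℝ) :
    Measurable (jk U F s) := by
  unfold jk
  fun_prop

theorem map_meas {F : E d → E d} (hF : Measurable F) (s : ℝ) :
    Measurable fun p : E d × E d => (p.1, F p.1 + s • p.2) := by
  fun_prop

theorem map_joint (hU : Measurable U) [IsProbabilityMeasure (gibbs U)] {F : E d → E d}
    (hF : Measurable F) {s : ℝ} (hs : 0 < s) :
    ((gibbs U).prod (gam d)).map (fun p => (p.1, F p.1 + s • p.2)) =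
      ((volume : Measure (E d)).prod volume).withDensity
        (fun p => ENNReal.ofReal (jc U s * jk U F s p)) := by
  refine Measure.ext_of_lintegral _ fun f hf => ?_
  have hk := jk_meas hU hF s
  rw [lintegral_map hf (map_meas hF s), lintegral_prod _ (by fun_prop),
    lintegral_withDensity_eq_lintegral_mul _ (by fun_prop) hf, lintegral_prod _ (by fun_prop),
    gibbs, lintegral_tilted]
  refine lintegral_congr fun x => ?_
  have hg : gam d = (volume : Measure (E d)).tilted fun x => -(‖x‖ ^ 2 / 2) := gam_eq_gibbs d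
  rw [hg, lintegral_tilted]
  set ZU := ∫ x, Real.exp (-U x) with hZU
  set Zg := ∫ z : E d, Real.exp (-(‖z‖ ^ 2 / 2)) with hZg
  have hZU0 : 0 ≤ ZU := integral_nonneg fun x => (Real.exp_pos _).le
  have hZg0 : 0 ≤ Zg := integral_nonneg fun x => (Real.exp_pos _).le
  set G : E d → ℝ≥0∞ := fun y =>
    ENNReal.ofReal (Real.exp (-(‖s⁻¹ • (y - F x)‖ ^ 2 / 2)) / Zg) * f (x, y) with hG
  have hGm : Measurable G := by
    rw [hG]; fun_prop
  have h1 : ∫⁻ z, ENNReal.ofReal (Real.exp (-(‖z‖ ^ 2 / 2)) / Zg) * f (x, F x + s • z) =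
      ∫⁻ z, G (F x + s • z) := by
    refine lintegral_congr fun z => ?_
    simp only [hG, add_sub_cancel_left, smul_smul, inv_mul_cancel₀ hs.ne', one_smul]
  rw [h1, lintegral_affine hGm (F x) hs, ← mul_assoc, ← lintegral_const_mul _ hGm]
  refine lintegral_congr fun y => ?_
  rw [hG]
  simp only [Pi.mul_apply]
  rw [← mul_assoc, ← ENNReal.ofReal_mul (by positivity), ← ENNReal.ofReal_mul (by positivity)]
  congr 2
  unfold jc jk
  rw [← hZU, ← hZg, sub_eq_add_neg (-U x), Real.exp_add]
  have h2 : ‖s⁻¹ • (y - F x)‖ ^ 2 / 2 = ‖y - F x‖ ^ 2 / (2 * s ^ 2) := by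
    rw [norm_smul, norm_inv, Real.norm_of_nonneg hs.le, mul_pow, inv_pow]
    field_simp
  rw [h2]
  simp only [div_eq_mul_inv]
  ring

theorem integrable_joint (hU : Measurable U) [IsProbabilityMeasure (gibbs U)] {F : E d → E d}
    (hF : Measurable F) {s : ℝ} (hs : 0 < s) {f : E d × E d → ℝ} (hf : Measurable f) :
    Integrable (fun p => f (p.1, F p.1 + s • p.2)) ((gibbs U).prod (gam d)) ↔
      Integrable (fun p => jc U s * jk U F s p * f p) ((volume : Measure (E d)).prod volume) := by
  have hk := jk_meas hU hF s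
  have h1 := integrable_map_measure (μ := (gibbs U).prod (gam d)) (g := f)
    (f := fun p => (p.1, F p.1 + s • p.2)) hf.aestronglyMeasurable (map_meas hF s).aemeasurable
  rw [map_joint hU hF hs] at h1
  have h2 := integrable_withDensity_iff_integrable_smul' (μ := (volume : Measure (E d)).prod volume)
    (f := fun p => ENNReal.ofReal (jc U s * jk U F s p)) (g := f) (by fun_prop)
    (Filter.Eventually.of_forall fun p => ENNReal.ofReal_lt_top)
  rw [h2] at h1
  rw [show (fun p : E d × E d => f (p.1, F p.1 + s • p.2)) =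
    f ∘ fun p => (p.1, F p.1 + s • p.2) from rfl, ← h1]
  refine integrable_congr (Filter.Eventually.of_forall fun p => ?_)
  simp only [smul_eq_mul]
  rw [ENNReal.toReal_ofReal (mul_nonneg (jc_nonneg U hs) (jk_pos U F s p).le)]

theorem integral_joint (hU : Measurable U) [IsProbabilityMeasure (gibbs U)] {F : E d → E d}
    (hF : Measurable F) {s : ℝ} (hs : 0 < s) {f : E d × E d → ℝ} (hf : Measurable f) :
    ∫ p, f (p.1, F p.1 + s • p.2) ∂((gibbs U).prod (gam d)) =
      ∫ p, jc U s * jk U F s p * f p ∂((volume : Measure (E d)).prod volume) := by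
  have hk := jk_meas hU hF s
  have h1 := integral_map (μ := (gibbs U).prod (gam d)) (f := f)
    (φ := fun p => (p.1, F p.1 + s • p.2)) (map_meas hF s).aemeasurable hf.aestronglyMeasurable
  rw [← h1, map_joint hU hF hs, integral_withDensity_eq_integral_toReal_smul (by fun_prop)
    (Filter.Eventually.of_forall fun p => ENNReal.ofReal_lt_top)]
  refine integral_congr_ae (Filter.Eventually.of_forall fun p => ?_)
  simp only [smul_eq_mul]
  rw [ENNReal.toReal_ofReal (mul_nonneg (jc_nonneg U hs) (jk_pos U F s p).le)]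

end Joint

end Vale.Agent.P347
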