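import Vale.Agent.P347.DefsD
import Vale.Agent.P347.GibbsBasic

/-!
# P347, K18: scaling
-/

open MeasureTheory ProbabilityTheory
open scoped ENNReal NNReal RealInnerProductSpace

namespace Vale.Agent.P347

namespace ScaleAux

variable {d : ℕ} {V : E d → ℝ} {h : ℝ}

theorem hasFDerivAt_sc (hV : ContDiff ℝ 2 V) (h0 : 0 < h) (x : E d) :
    HasFDerivAt (scV V h) (h⁻¹ • fderiv ℝ V (h • x)) x := by
  have h1 : HasFDerivAt V (fderiv ℝ V (h • x)) (h • x) :=
    (hV.differentiable (by norm_num) (h • x)).hasFDerivAt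
  have h2 : HasFDerivAt (fun x : E d => h • x) (h • ContinuousLinearMap.id ℝ (E d)) x :=
    (hasFDerivAt_id x).const_smul h
  have h3 : HasFDerivAt (fun x : E d => V (h • x))
      ((fderiv ℝ V (h • x)).comp (h • ContinuousLinearMap.id ℝ (E d))) x := h1.comp x h2
  have h4 : HasFDerivAt (fun x : E d => (h ^ 2)⁻¹ * V (h • x))
      ((h ^ 2)⁻¹ • (fderiv ℝ V (h • x)).comp (h • ContinuousLinearMap.id ℝ (E d))) x :=
    h3.const_mul _
  have e : scV V h = fun x => (h ^ 2)⁻¹ * V (h • x) := by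
    funext x
    rw [scV, div_eq_inv_mul]
  rw [e]
  refine h4.congr_fderiv ?_
  ext v
  simp only [smul_apply, ContinuousLinearMap.comp_apply,
    ContinuousLinearMap.id_apply, map_smul, smul_eq_mul]
  field_simp

theorem fderiv_sc (hV : ContDiff ℝ 2 V) (h0 : 0 < h) :
    fderiv ℝ (scV V h) = fun x => h⁻¹ • fderiv ℝ V (h • x) :=
  funext fun x => (hasFDerivAt_sc hV h0 x).fderiv

theorem second_sc (hV : ContDiff ℝ 2 V) (h0 : 0 < h) (x v : E d) :
    iteratedFDeriv ℝ 2 (scV V h) x (fun _ => v) = iteratedFDeriv ℝ 2 V (h • x) (fun _ => v) := by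
  rw [PotAux.sec, PotAux.sec, fderiv_sc hV h0]
  have h1 := PotAux.hasFDerivAt_fderiv hV (h • x)
  have h2 : HasFDerivAt (fun x : E d => h • x) (h • ContinuousLinearMap.id ℝ (E d)) x :=
    (hasFDerivAt_id x).const_smul h
  have h3 : HasFDerivAt (fun x : E d => fderiv ℝ V (h • x))
      ((fderiv ℝ (fderiv ℝ V) (h • x)).comp (h • ContinuousLinearMap.id ℝ (E d))) x := h1.comp x h2
  have h4 := h3.const_smul h⁻¹
  rw [show (fun x : E d => h⁻¹ • fderiv ℝ V (h • x)) = h⁻¹ • fun x : E d => fderiv ℝ V (h • x)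
    from rfl, h4.fderiv]
  simp only [smul_apply, ContinuousLinearMap.comp_apply,
    ContinuousLinearMap.id_apply, map_smul, smul_eq_mul]
  field_simp

end ScaleAux

section scale
variable {d : ℕ} {V : E d → ℝ} {h : ℝ}

theorem scV_pot (hV : Pot d 1 2 V) (h0 : 0 < h) : Pot d 1 2 (scV V h) := by
  refine ⟨?_, fun x v => ?_, fun x v => ?_⟩
  · have : ContDiff ℝ 2 (fun x : E d => V (h • x)) :=
      hV.smooth.comp (contDiff_const_smul h)
    exact this.div_const _
  · rw [ScaleAux.second_sc hV.smooth h0]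
    exact hV.lower _ _
  · rw [ScaleAux.second_sc hV.smooth h0]
    exact hV.upper _ _

theorem gradient_scV (hV : Pot d 1 2 V) (h0 : 0 < h) (x : E d) :
    gradient (scV V h) x = h⁻¹ • gradient V (h • x) := by
  apply ext_inner_right ℝ
  intro v
  rw [Pot.inner_grad, inner_smul_left, Pot.inner_grad, ScaleAux.fderiv_sc hV.smooth h0]
  simp

theorem scale_integral (hV : Pot d 1 2 V) (h0 : 0 < h) {f : E d → ℝ} (hf : Measurable f)
    {B : ℝ} (hB : ∀ x, |f x| ≤ B) :
    ∫ x, conv 1 (fun y => f (h • y)) x ∂gibbs (fun x => h ^ 2 * scV V h x) =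
      ∫ x, conv (h ^ 2) f x ∂gibbs V := by
  have e1 : (fun x => h ^ 2 * scV V h x) = fun x : E d => V (h • x) := by
    funext x
    rw [scV]
    field_simp
  have e2 : ∀ x : E d, conv 1 (fun y => f (h • y)) x = conv (h ^ 2) f (h • x) := by
    intro x
    unfold conv
    congr 1
    funext z
    show f (h • (x + Real.sqrt 1 • z)) = _
    rw [Real.sqrt_one, one_smul, smul_add, Real.sqrt_sq h0.le]
  rw [e1, gibbs_integral, gibbs_integral]
  simp only [e2, smul_eq_mul]
  have i1 : ∫ x : E d, Real.exp (-V (h • x)) =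
      |(h ^ Module.finrank ℝ (E d))⁻¹| • ∫ x : E d, Real.exp (-V x) :=
    Measure.integral_comp_smul volume (fun x : E d => Real.exp (-V x)) h
  have i2 : ∫ x : E d, Real.exp (-V (h • x)) * conv (h ^ 2) f (h • x) =
      |(h ^ Module.finrank ℝ (E d))⁻¹| • ∫ x : E d, Real.exp (-V x) * conv (h ^ 2) f x :=
    Measure.integral_comp_smul volume (fun x : E d => Real.exp (-V x) * conv (h ^ 2) f x) h
  rw [i1, i2, smul_eq_mul, smul_eq_mul]
  have hc : |(h ^ Module.finrank ℝ (E d))⁻¹| ≠ 0 := by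
    rw [abs_ne_zero]
    positivity
  rw [mul_inv]
  field_simp

end scale

end Vale.Agent.P347
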