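import Vale.Agent.P347.Model

/-!
# P347: random maps computable with queries, closure under composition, conversion to algorithms
-/

open MeasureTheory ProbabilityTheory Filter
open scoped ENNReal NNReal RealInnerProductSpace

namespace Vale.Agent.P347

/-! ### From `Comp` to the history form -/

theorem measurable_answers {d : ℕ} {X : Type} [MeasurableSpace X]
    {query : (k : ℕ) → X → (Fin k → ℝ × E d) → E d}
    (hq : ∀ k, Measurable (Function.uncurry (query k))) {V : E d → ℝ} (hV : Measurable V)
    (hV' : Measurable (gradient V)) (k : ℕ) : Measurable fun x => answers query V x k := by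
  induction k with
  | zero => exact measurable_pi_lambda _ fun i => i.elim0
  | succ k ih =>
    refine measurable_pi_lambda _ fun i => ?_
    refine Fin.lastCases ?_ (fun j => ?_) i
    · simp only [answers, Fin.snoc_last]
      exact (measurable_oracle hV hV').comp ((hq k).comp (measurable_id.prodMk ih))
    · simp only [answers, Fin.snoc_castSucc]
      exact (measurable_pi_apply j).comp ih

theorem Comp.history {d n : ℕ} : ∀ {X : Type} [MeasurableSpace X] {Y : Type} [MeasurableSpace Y]
    {F : (E d → ℝ) → X → Y}, Comp n F →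
    ∃ (query : (k : ℕ) → X → (Fin k → ℝ × E d) → E d) (out : X → (Fin n → ℝ × E d) → Y),
      (∀ k, Measurable (Function.uncurry (query k))) ∧ Measurable (Function.uncurry out) ∧
      ∀ V x, F V x = out x (answers query V x n) := by
  induction n with
  | zero =>
    rintro X _ Y _ F ⟨g, hg, h⟩
    exact ⟨fun _ _ _ => 0, fun x _ => g x, fun k => measurable_const, hg.comp measurable_fst,
      fun V x => h V x⟩
  | succ n ih =>
    rintro X _ Y _ F ⟨q, hq, G, hG, h⟩
    obtain ⟨query, out, hm, ho, hr⟩ := ih hG
    let query' : (k : ℕ) → X → (Fin k → ℝ × E d) → E d := fun k =>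
      match k with
      | 0 => fun x _ => q x
      | k + 1 => fun x a => query k (x, a 0) (Fin.tail a)
    have key : ∀ V x k, answers query' V x (k + 1) =
        Fin.cons (oracle V (q x)) (answers query V (x, oracle V (q x)) k) := by
      intro V x k
      induction k with
      | zero =>
        funext i
        have : i = 0 := by ext; omega
        subst this
        simp [answers, query', Fin.snoc]
      | succ k ihk =>
        have h1 : answers query' V x (k + 1 + 1) = Fin.snoc (answers query' V x (k + 1))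
          (oracle V (query' (k + 1) x (answers query' V x (k + 1)))) := rfl
        have h2 : answers query V (x, oracle V (q x)) (k + 1) =
          Fin.snoc (answers query V (x, oracle V (q x)) k)
            (oracle V (query k (x, oracle V (q x))
              (answers query V (x, oracle V (q x)) k))) := rfl
        rw [h1, h2, ihk, Fin.cons_snoc_eq_snoc_cons]
        rfl
    refine ⟨query', fun x a => out (x, a 0) (Fin.tail a), ?_, ?_, ?_⟩
    · intro k
      cases k with
      | zero => exact hq.comp measurable_fst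
      | succ k =>
        have h0 : Measurable fun p : X × (Fin (k + 1) → ℝ × E d) =>
            (((p.1, p.2 0), Fin.tail p.2) : (X × (ℝ × E d)) × (Fin k → ℝ × E d)) := by
          refine (measurable_fst.prodMk ((measurable_pi_apply 0).comp measurable_snd)).prodMk ?_
          exact measurable_pi_lambda _ fun i => (measurable_pi_apply _).comp measurable_snd
        exact (hm k).comp h0
    · have h0 : Measurable fun p : X × (Fin (n + 1) → ℝ × E d) =>
          (((p.1, p.2 0), Fin.tail p.2) : (X × (ℝ × E d)) × (Fin n → ℝ × E d)) := by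
        refine (measurable_fst.prodMk ((measurable_pi_apply 0).comp measurable_snd)).prodMk ?_
        exact measurable_pi_lambda _ fun i => (measurable_pi_apply _).comp measurable_snd
      exact ho.comp h0
    · intro V x
      rw [h V x, hr V, key V x n]
      simp [Fin.tail_cons]

/-! ### The class `VV` -/

theorem VV.pot {d : ℕ} {V : E d → ℝ} (hV : V ∈ VV d) : Pot d 1 2 V where
  smooth := hV.1
  lower x v := by simpa using (hV.2.2.2 x v).1
  upper x v := (hV.2.2.2 x v).2

theorem VV.continuous {d : ℕ} {V : E d → ℝ} (hV : V ∈ VV d) : Continuous V := hV.1.continuous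

theorem VV.continuous_gradient {d : ℕ} {V : E d → ℝ} (hV : V ∈ VV d) :
    Continuous (gradient V) := by
  have h1 : Continuous (fderiv ℝ V) := hV.1.continuous_fderiv (by norm_num)
  exact (InnerProductSpace.toDual ℝ (E d)).symm.continuous.comp h1

theorem VV.measurable {d : ℕ} {V : E d → ℝ} (hV : V ∈ VV d) : Measurable V :=
  (VV.continuous hV).measurable

theorem VV.measurable_gradient {d : ℕ} {V : E d → ℝ} (hV : V ∈ VV d) :
    Measurable (gradient V) := (VV.continuous_gradient hV).measurable

theorem Comp.measurable_VV {d n : ℕ} {X Y : Type} [MeasurableSpace X] [MeasurableSpace Y]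
    {F : (E d → ℝ) → X → Y} (hF : Comp n F) {V : E d → ℝ} (hV : V ∈ VV d) : Measurable (F V) :=
  hF.measurable (VV.measurable hV) (VV.measurable_gradient hV)

/-! ### Operators given by random maps computable with `n` queries -/

/-- `T V f x = E f (F V (x, s))` where `s` is a random seed and `F` is computable with `n`
queries. -/
def OpComp {d : ℕ} (n : ℕ) {X Y : Type} [MeasurableSpace X] [MeasurableSpace Y]
    (T : (E d → ℝ) → (Y → ℝ) → X → ℝ) : Prop :=
  ∃ (S : Type) (_ : MeasurableSpace S) (_ : StandardBorelSpace S) (P : Measure S)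
    (_ : IsProbabilityMeasure P) (F : (E d → ℝ) → X × S → Y), Comp n F ∧
    ∀ V ∈ VV d, ∀ f : Y → ℝ, Measurable f → (∃ C, ∀ y, |f y| ≤ C) →
      ∀ x, T V f x = ∫ s, f (F V (x, s)) ∂P

section ops

variable {d : ℕ} {X Y Z : Type} [MeasurableSpace X] [MeasurableSpace Y] [MeasurableSpace Z]

theorem OpComp.mk' {n : ℕ} {S : Type} [MeasurableSpace S] [StandardBorelSpace S] (P : Measure S)
    [IsProbabilityMeasure P] {F : (E d → ℝ) → X × S → Y} (hF : Comp n F) :
    OpComp (d := d) n (fun V (f : Y → ℝ) (x : X) => ∫ s, f (F V (x, s)) ∂P) :=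
  ⟨S, _, ‹_›, P, ‹_›, F, hF, fun _ _ _ _ _ _ => rfl⟩

theorem OpComp.congr {n : ℕ} {T T' : (E d → ℝ) → (Y → ℝ) → X → ℝ} (hT : OpComp n T)
    (h : ∀ V ∈ VV d, ∀ f : Y → ℝ, Measurable f → (∃ C, ∀ y, |f y| ≤ C) → ∀ x, T' V f x = T V f x) :
    OpComp n T' := by
  obtain ⟨S, _, _, P, _, F, hF, hT⟩ := hT
  exact ⟨S, _, ‹_›, P, ‹_›, F, hF, fun V hV f hf hb x => (h V hV f hf hb x).trans
    (hT V hV f hf hb x)⟩

theorem OpComp.mono {n m : ℕ} {T : (E d → ℝ) → (Y → ℝ) → X → ℝ} (hT : OpComp n T) (h : n ≤ m) :
    OpComp m T := by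
  obtain ⟨S, _, _, P, _, F, hF, hT⟩ := hT
  exact ⟨S, _, ‹_›, P, ‹_›, F, hF.mono h, hT⟩

/-- the output operator is measurable and bounded -/
theorem OpComp.measurable {n : ℕ} {T : (E d → ℝ) → (Y → ℝ) → X → ℝ} (hT : OpComp n T)
    {V : E d → ℝ} (hV : V ∈ VV d) {f : Y → ℝ} (hf : Measurable f) (hb : ∃ C, ∀ y, |f y| ≤ C) :
    Measurable (T V f) := by
  obtain ⟨S, _, _, P, _, F, hF, hT⟩ := hT
  have e : T V f = fun x => ∫ s, f (F V (x, s)) ∂P := funext fun x => hT V hV f hf hb x
  rw [e]
  have h1 : StronglyMeasurable (fun p : X × S => f (F V p)) :=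
    (hf.comp (hF.measurable_VV hV)).stronglyMeasurable
  exact (h1.integral_prod_right).measurable

theorem OpComp.bounded {n : ℕ} {T : (E d → ℝ) → (Y → ℝ) → X → ℝ} (hT : OpComp n T)
    {V : E d → ℝ} (hV : V ∈ VV d) {f : Y → ℝ} (hf : Measurable f) {C : ℝ} (hb : ∀ y, |f y| ≤ C)
    (x : X) : |T V f x| ≤ C := by
  obtain ⟨S, _, _, P, _, F, hF, hT⟩ := hT
  rw [hT V hV f hf ⟨C, hb⟩ x]
  have h1 : ‖∫ s, f (F V (x, s)) ∂P‖ ≤ C * (P Set.univ).toReal :=
    norm_integral_le_of_norm_le_const (ae_of_all _ fun s => by
      rw [Real.norm_eq_abs]; exact hb _)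
  simpa using h1

/-- composition -/
theorem OpComp.comp {n m : ℕ} {T : (E d → ℝ) → (Y → ℝ) → X → ℝ}
    {T' : (E d → ℝ) → (Z → ℝ) → Y → ℝ} (hT : OpComp n T) (hT' : OpComp m T') :
    OpComp (n + m) (fun V f x => T V (T' V f) x) := by
  have hT0 := hT
  have hT0' := hT'
  obtain ⟨S, _, _, P, _, F, hF, hT⟩ := hT
  obtain ⟨S', _, _, P', _, F', hF', hT'⟩ := hT'
  let H : (E d → ℝ) → X × (S × S') → Z := fun V p => F' V (F V (p.1, p.2.1), p.2.2)
  have hH : Comp (n + m) H := by
    have h1 : Comp n (fun V (p : X × (S × S')) => F V (p.1, p.2.1)) :=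
      hF.precomp (g := fun p : X × (S × S') => (p.1, p.2.1))
        (measurable_fst.prodMk (measurable_fst.comp measurable_snd))
    have h2 : Comp m (fun V (p : (X × (S × S')) × Y) => F' V (p.2, p.1.2.2)) :=
      hF'.precomp (g := fun p : (X × (S × S')) × Y => (p.2, p.1.2.2))
        (measurable_snd.prodMk (measurable_snd.comp (measurable_snd.comp measurable_fst)))
    exact h1.bind h2
  refine ⟨S × S', inferInstance, inferInstance, P.prod P', inferInstance, H, hH, ?_⟩
  intro V hV f hf hb x
  obtain ⟨C, hC⟩ := hb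
  have hm := hT0'.measurable hV hf ⟨C, hC⟩
  show T V (T' V f) x = _
  rw [hT V hV _ hm ⟨C, fun y => hT0'.bounded hV hf hC y⟩ x]
  have hmF : Measurable (F V) := hF.measurable_VV hV
  have hmF' : Measurable (F' V) := hF'.measurable_VV hV
  have hint : Integrable (fun p : S × S' => f (F' V (F V (x, p.1), p.2))) (P.prod P') := by
    refine Integrable.of_bound (C := C) ?_ (ae_of_all _ fun p => by
      rw [Real.norm_eq_abs]; exact hC _)
    refine (hf.comp (hmF'.comp ?_)).aestronglyMeasurable
    exact (hmF.comp (measurable_const.prodMk measurable_fst)).prodMk measurable_snd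
  rw [show (∫ s, f (H V (x, s)) ∂P.prod P') =
    ∫ p : S × S', f (F' V (F V (x, p.1), p.2)) ∂P.prod P' from rfl, integral_prod _ hint]
  exact integral_congr_ae (ae_of_all _ fun s => hT' V hV f hf ⟨C, hC⟩ _)

/-- no query, no randomness -/
theorem OpComp.pure {g : X → Y} (hg : Measurable g) :
    OpComp (d := d) 0 (fun _ (f : Y → ℝ) (x : X) => f (g x)) := by
  refine (OpComp.mk' (d := d) (Measure.dirac ())
    (F := fun _ (p : X × Unit) => g p.1) (Comp.pure (hg.comp measurable_fst))).congr ?_
  intro V _ f _ _ x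
  simp

/-- the identity -/
theorem OpComp.id : OpComp (d := d) 0 (fun _ (f : X → ℝ) (x : X) => f x) :=
  OpComp.pure measurable_id

/-- iteration -/
theorem OpComp.iterate {n : ℕ} {T : (E d → ℝ) → (X → ℝ) → X → ℝ} (hT : OpComp n T) (M : ℕ) :
    OpComp (M * n) (fun V f => (T V)^[M] f) := by
  induction M with
  | zero => simpa using OpComp.id (d := d) (X := X)
  | succ M ih =>
    have h1 := hT.comp ih
    have e : n + M * n = (M + 1) * n := by ring
    rw [e] at h1
    refine h1.congr fun V hV f hf hb x => ?_
    rw [Function.iterate_succ_apply']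

/-- composition with a measurable map of the input -/
theorem OpComp.precomp {n : ℕ} {T : (E d → ℝ) → (Y → ℝ) → X → ℝ} (hT : OpComp n T) {g : Z → X}
    (hg : Measurable g) : OpComp n (fun V f z => T V f (g z)) := by
  have h := (OpComp.pure (d := d) hg).comp hT
  rwa [Nat.zero_add] at h

/-- composition with a measurable map of the output -/
theorem OpComp.postcomp {n : ℕ} {T : (E d → ℝ) → (Y → ℝ) → X → ℝ} (hT : OpComp n T) {g : Y → Z}
    (hg : Measurable g) : OpComp n (fun V f x => T V (fun y => f (g y)) x) :=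
  hT.comp (OpComp.pure (d := d) hg)

/-- start at a fixed point -/
theorem OpComp.start {n : ℕ} {T : (E d → ℝ) → (Y → ℝ) → X → ℝ} (hT : OpComp n T) (x₀ : X) :
    OpComp n (fun V f (_ : Unit) => T V f x₀) := hT.precomp measurable_const

end ops

/-! ### Conversion to an algorithm -/

theorem exists_seed {S : Type} [MeasurableSpace S] [StandardBorelSpace S] (P : Measure S)
    [IsProbabilityMeasure P] : ∃ f : Seed → S, Measurable f ∧ seedLaw.map f = P := by
  have : Nonempty S := P.nonempty_of_neZero
  obtain ⟨f, hf, h⟩ := Kernel.exists_measurable_map_eq_unitInterval (Kernel.const Unit P)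
  refine ⟨fun ω => f () (ω 0), (hf.comp (measurable_const.prodMk measurable_id)).comp
    (measurable_pi_apply 0), ?_⟩
  have h1 : Measurable (f ()) := hf.comp (measurable_const.prodMk measurable_id)
  have h2 : (fun ω : Seed => f () (ω 0)) = f () ∘ (fun ω : Seed => ω 0) := rfl
  rw [h2, ← Measure.map_map h1 (measurable_pi_apply 0)]
  have h3 : seedLaw.map (fun ω : Seed => ω 0) = (volume : Measure unitInterval) := by
    unfold seedLaw
    exact Measure.infinitePi_map_eval _ 0
  rw [h3]
  simpa using h ()

theorem OpComp.exists_alg {d n : ℕ} {T : (E d → ℝ) → (E d → ℝ) → Unit → ℝ} (hT : OpComp n T)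
    (h : ∀ V ∈ VV d, ∀ B : Set (E d), MeasurableSet B →
      |T V (B.indicator fun _ => (1 : ℝ)) () - (gibbs V).real B| ≤ 1 / 10) :
    ∃ A : Alg d n, A.Samples := by
  obtain ⟨S, _, _, P, _, F, hF, hT⟩ := hT
  obtain ⟨g, hg, hgP⟩ := exists_seed P
  have hF' : Comp n (fun V (ω : Seed) => F V ((), g ω)) :=
    hF.precomp (g := fun ω : Seed => ((), g ω)) (measurable_const.prodMk hg)
  obtain ⟨query, out, hq, ho, hr⟩ := hF'.history
  refine ⟨⟨query, out, hq, ho⟩, fun V hV B hB => ?_⟩
  have e : (Alg.run ⟨query, out, hq, ho⟩ V : Seed → E d) = fun ω => F V ((), g ω) :=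
    funext fun ω => (hr V ω).symm
  rw [e]
  have hm : Measurable (F V) := hF.measurable_VV hV
  have hm' : Measurable (fun ω : Seed => F V ((), g ω)) :=
    hm.comp (measurable_const.prodMk hg)
  have e2 : (seedLaw.map fun ω => F V ((), g ω)).real B =
      T V (B.indicator fun _ => (1 : ℝ)) () := by
    rw [hT V hV _ (measurable_const.indicator hB) ⟨1, fun y => ?_⟩ (), ← hgP,
      integral_map hg.aemeasurable]
    · rw [← integral_indicator_one hB, integral_map hm'.aemeasurable]
      · rfl
      · exact (measurable_one.indicator hB).aestronglyMeasurable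
    · exact ((measurable_const.indicator hB).comp
        (hm.comp (measurable_const.prodMk measurable_id))).aestronglyMeasurable
    · by_cases hy : y ∈ B <;> simp [hy]
  rw [e2]
  exact h V hV B hB

theorem Q_le {d q : ℕ} (h : ∃ A : Alg d q, A.Samples) : Q d ≤ q := by
  unfold Q
  exact iInf₂_le q h

end Vale.Agent.P347
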