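import Vale.Agent.P347.DefsD
import Vale.Agent.P347.ModelOps
import Vale.Agent.P347.KScale

/-!
# P347: the complete algorithm is computable with `N (2n+1) + J (n+1)` queries
-/

open MeasureTheory ProbabilityTheory
open scoped ENNReal NNReal RealInnerProductSpace

namespace Vale.Agent.P347

namespace AlgoAux

/-- state and noise -/
abbrev StA (d n : ℕ) : Type := E2 d × (Fin n ⊕ Fin n → E d)

/-- noise of one step -/
abbrev SdA (d n : ℕ) : Type := (E d × E d) × (Fin n ⊕ Fin n → E d)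

/-- noise of one halving step -/
abbrev SdR (d n : ℕ) : Type := E d × (Fin n → E d)

variable {d n : ℕ} {X : Type} [MeasurableSpace X]

/-- the rescaled gradient -/
noncomputable def wV (h : ℝ) (V : E d → ℝ) (x : E d) : E d := h⁻¹ • gradient V (h • x)

theorem comp_wV (h : ℝ) {q : X → E d} (hq : Measurable q) :
    Comp 1 (fun V x => wV h V (q x)) :=
  (Comp.grad (q := fun x => h • q x) (by fun_prop)).post
    (g := fun p : X × E d => h⁻¹ • p.2) (by fun_prop)

theorem comp_wsum (h : ℝ) (p : Fin n → ℝ) {q : Fin n → X → E d} (hq : ∀ i, Measurable (q i)) :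
    Comp n (fun V x => ∑ i, p i • wV h V (q i x)) := by
  have h1 := Comp.grads_fin (X := X) n (q := fun i x => h • q i x) fun i => by
    have := hq i
    fun_prop
  exact h1.post (g := fun z : X × (Fin n → E d) => ∑ i, p i • (h⁻¹ • z.2 i)) (by fun_prop)

/-- the force, computed with `2n+1` queries -/
theorem comp_frc (h : ℝ) (p ρ : Fin n → ℝ) :
    Comp (2 * n + 1) (fun (V : E d → ℝ) (q : E2 d × (Fin n ⊕ Fin n → E d)) =>
      frc (wV h V) p ρ (h ^ 2) q.1 q.2) := by
  let ε := h ^ 2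
  -- first query
  have h1 : Comp 1 (fun (V : E d → ℝ) (q : StA d n) => cen (wV h V) ε (q.1.1 + q.1.2)) :=
    (comp_wV h (q := fun q : StA d n => q.1.1 + q.1.2) (by fun_prop)).post
      (g := fun p : StA d n × E d => (p.1.1.1 + p.1.1.2) - ε • p.2) (by fun_prop)
  -- first cloud
  have h2 : Comp n (fun (V : E d → ℝ) (q : StA d n × E d) =>
      lev1 (fun t => wV h V (q.2 + t)) p ρ (q.1.1.1 - q.2) (fun i => q.1.2 (Sum.inl i))) :=
    comp_wsum h p (q := fun i (q : StA d n × E d) => q.2 + (ρ i • (q.1.1.1 - q.2) +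
      Real.sqrt (1 - ρ i ^ 2) • q.1.2 (Sum.inl i))) fun i => by fun_prop
  -- second cloud
  have h3 : Comp n (fun (V : E d → ℝ) (q : (StA d n × E d) × E d) =>
      q.2 + lev1 (fun t => wV h V (q.1.2 + t)) p ρ (q.1.1.1.2 - ε • q.2)
        (fun i => q.1.1.2 (Sum.inr i))) :=
    (comp_wsum h p (q := fun i (q : (StA d n × E d) × E d) => q.1.2 +
      (ρ i • (q.1.1.1.2 - ε • q.2) + Real.sqrt (1 - ρ i ^ 2) • q.1.1.2 (Sum.inr i)))
      fun i => by fun_prop).post
      (g := fun z : ((StA d n × E d) × E d) × E d => z.1.2 + z.2) (by fun_prop)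
  have h4 := h1.bind (h2.bind h3)
  have e : 2 * n + 1 = 1 + (n + n) := by ring
  rw [e]
  exact h4

/-- one step of the kinetic chain -/
theorem opComp_step {h : ℝ} (h0 : 0 < h) (p ρ : Fin n → ℝ) :
    OpComp (d := d) (2 * n + 1) (fun V (u : E2 d → ℝ) => opTV V h p ρ u) := by
  let P : Measure (SdA d n) := ((gam d).prod (gam d)).prod (gamPi d (Fin n ⊕ Fin n))
  let st : E2 d × SdA d n → E2 d := fun q =>
    (q.1.1 + (h ^ 2) • q.2.1.1, Real.sqrt (1 - 8 * h) • q.1.2 + Real.sqrt (8 * h) • q.2.1.2)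
  have hst : Measurable st := by fun_prop
  have h1 : Comp (2 * n + 1) (fun (V : E d → ℝ) (q : E2 d × SdA d n) =>
      frc (wV h V) p ρ (h ^ 2) (st q) q.2.2) :=
    (comp_frc (d := d) h p ρ).precomp (g := fun q : E2 d × SdA d n => (st q, q.2.2))
      (hst.prodMk (by fun_prop))
  have h2 := h1.post (g := fun q : (E2 d × SdA d n) × E d =>
    (((st q.1).1 + (2 : ℝ) • (st q.1).2 - (h ^ 2) • q.2, (st q.1).2 - (h ^ 2) • q.2) : E2 d)) (by
      fun_prop)
  refine (OpComp.mk' (d := d) P h2).congr fun V hV u hu hb s => ?_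
  obtain ⟨C, hC⟩ := hb
  have hw : gradient (scV V h) = wV h V := funext fun x => gradient_scV (VV.pot hV) h0 x
  have hm := h2.measurable_VV hV
  have hint : Integrable (fun q : SdA d n => u (((st (s, q)).1 + (2 : ℝ) • (st (s, q)).2 -
      (h ^ 2) • frc (wV h V) p ρ (h ^ 2) (st (s, q)) q.2, (st (s, q)).2 -
      (h ^ 2) • frc (wV h V) p ρ (h ^ 2) (st (s, q)) q.2) : E2 d)) P := by
    refine Integrable.of_bound (C := C) ?_ (ae_of_all _ fun q => by
      rw [Real.norm_eq_abs]; exact hC _)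
    exact (hu.comp (hm.comp (measurable_const.prodMk measurable_id))).aestronglyMeasurable
  show opTV V h p ρ u s = _
  rw [integral_prod _ hint]
  simp only [opTV, opT, opN, opM, kmap, hw]
  rfl

theorem opComp_conv (η : ℝ) : OpComp (d := d) 0 (fun _ (f : E d → ℝ) (x : E d) => conv η f x) :=
  OpComp.mk' (d := d) (X := E d) (Y := E d) (gam d)
    (F := fun _ (q : E d × E d) => q.1 + Real.sqrt η • q.2) (Comp.pure (by fun_prop))

theorem opComp_R1 (η : ℝ) (p ρ : Fin n → ℝ) :
    OpComp (d := d) (n + 1) (fun V (f : E d → ℝ) (y : E d) => opR1 V η p ρ f y) := by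
  let P : Measure (SdR d n) := (gam d).prod (gamPi d (Fin n))
  have h1 : Comp 1 (fun (V : E d → ℝ) (q : E d × SdR d n) => gradient V q.1) :=
    Comp.grad (q := fun q : E d × SdR d n => q.1) (by fun_prop)
  have h2 : Comp n (fun (V : E d → ℝ) (q : (E d × SdR d n) × E d) =>
      fun i => gradient V (q.1.1 - η • q.2 +
        Real.sqrt η • (ρ i • q.1.2.1 + Real.sqrt (1 - ρ i ^ 2) • q.1.2.2 i))) :=
    Comp.grads_fin n (q := fun i (q : (E d × SdR d n) × E d) => q.1.1 - η • q.2 +
        Real.sqrt η • (ρ i • q.1.2.1 + Real.sqrt (1 - ρ i ^ 2) • q.1.2.2 i)) fun i => by fun_prop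
  have h3 := h2.post (g := fun q : ((E d × SdR d n) × E d) × (Fin n → E d) =>
    q.1.1.1 - η • q.1.2 + Real.sqrt η • (q.1.1.2.1 - η • ∑ i, p i •
      ((Real.sqrt η)⁻¹ • (q.2 i - q.1.2)))) (by fun_prop)
  have h4 := h1.bind h3
  rw [Nat.add_comm n 1]
  refine (OpComp.mk' (d := d) P h4).congr fun V hV f hf hb y => ?_
  obtain ⟨C, hC⟩ := hb
  have hm := h4.measurable_VV hV
  have hint : Integrable (fun q : SdR d n => f (y - η • gradient V y + Real.sqrt η • (q.1 - η • ∑ i,
      p i • ((Real.sqrt η)⁻¹ • (gradient V (y - η • gradient V y +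
      Real.sqrt η • (ρ i • q.1 + Real.sqrt (1 - ρ i ^ 2) • q.2 i)) - gradient V y))))) P := by
    refine Integrable.of_bound (C := C) ?_ (ae_of_all _ fun q => by
      rw [Real.norm_eq_abs]; exact hC _)
    exact (hf.comp (hm.comp (measurable_const.prodMk measurable_id))).aestronglyMeasurable
  show opR1 V η p ρ f y = _
  rw [opR1]
  exact (integral_prod _ hint).symm

theorem opComp_halv (p ρ : Fin n → ℝ) (J : ℕ) : ∀ η : ℝ,
    OpComp (d := d) (J * (n + 1)) (fun V (f : E d → ℝ) (y : E d) => halv V p ρ J η f y) := by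
  induction J with
  | zero =>
    intro η
    simpa [halv] using OpComp.id (d := d) (X := E d)
  | succ J ih =>
    intro η
    have h1 := (opComp_R1 (d := d) η p ρ).comp ((opComp_conv (d := d) (η / 2)).comp (ih (η / 2)))
    have e : n + 1 + (0 + J * (n + 1)) = (J + 1) * (n + 1) := by ring
    rw [e] at h1
    exact h1

end AlgoAux

theorem algo_opComp {d n : ℕ} {h : ℝ} (h0 : 0 < h) {N J : ℕ} {p ρ : Fin n → ℝ} :
    OpComp (d := d) (N * (2 * n + 1) + J * (n + 1)) (algo h N J p ρ) := by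
  have h1 := (AlgoAux.opComp_step (d := d) h0 p ρ).iterate N
  have h2 : OpComp (d := d) 0 (fun _ (f : E d → ℝ) (s : E2 d) => conv 1 f s.1) :=
    (AlgoAux.opComp_conv (d := d) 1).precomp (g := fun s : E2 d => s.1) (by fun_prop)
  have h3 : OpComp (d := d) 0 (fun _ (f : E d → ℝ) (y : E d) => f (h • y)) :=
    OpComp.pure (d := d) (by fun_prop)
  have h4 := h1.comp (h2.comp (h3.comp (AlgoAux.opComp_halv (d := d) p ρ J (h ^ 2))))
  have e : N * (2 * n + 1) + (0 + (0 + J * (n + 1))) = N * (2 * n + 1) + J * (n + 1) := by ring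
  rw [e] at h4
  exact h4.start ((0, 0) : E2 d)

end Vale.Agent.P347
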