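import Vale.Agent.P347.DefsC
import Vale.Agent.P347.Mehler

/-!
# P347: average over the private noise of the kinetic map
-/

open MeasureTheory ProbabilityTheory
open scoped ENNReal NNReal RealInnerProductSpace Topology

namespace Vale.Agent.P347

namespace KMapAux

variable {d : ℕ} {κ : Type} [Fintype κ] {F : E2 d → (κ → E d) → E d}

theorem hasFDerivAt_part (hF : Force κ F) (s : E2 d) (ω : κ → E d) :
    HasFDerivAt (fun s => F s ω)
      ((fderiv ℝ (fun q : E2 d × (κ → E d) => F q.1 q.2) (s, ω)).comp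
        (ContinuousLinearMap.inl ℝ (E2 d) (κ → E d))) s := by
  have h1 : HasFDerivAt (fun q : E2 d × (κ → E d) => F q.1 q.2)
      (fderiv ℝ (fun q : E2 d × (κ → E d) => F q.1 q.2) (s, ω)) (s, ω) :=
    (hF.smooth.differentiable (by norm_num) _).hasFDerivAt
  have h2 : HasFDerivAt (fun s : E2 d => (s, ω)) (ContinuousLinearMap.inl ℝ (E2 d) (κ → E d)) s :=
    hasFDerivAt_prodMk_left s ω
  exact h1.comp s h2

theorem fderiv_part (hF : Force κ F) (s : E2 d) (ω : κ → E d) :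
    fderiv ℝ (fun s => F s ω) s =
      (fderiv ℝ (fun q : E2 d × (κ → E d) => F q.1 q.2) (s, ω)).comp
        (ContinuousLinearMap.inl ℝ (E2 d) (κ → E d)) :=
  (hasFDerivAt_part hF s ω).fderiv

theorem hasFDerivAt_force (hF : Force κ F) (s : E2 d) (ω : κ → E d) :
    HasFDerivAt (fun s => F s ω) (fderiv ℝ (fun s => F s ω) s) s := by
  rw [fderiv_part hF]
  exact hasFDerivAt_part hF s ω

theorem force_dir (hF : Force κ F) (s : E2 d) (ω : κ → E d) (v : E2 d) :
    ‖fderiv ℝ (fun s => F s ω) s v‖ ≤ 8 * (‖v.1‖ + ‖v.2‖) := by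
  have h1 := hasFDerivAt_force hF s ω
  have h2 : HasDerivAt (fun t : ℝ => F (s + t • v) ω) (fderiv ℝ (fun s => F s ω) s v) 0 := by
    have h3 : HasDerivAt (fun t : ℝ => s + t • v) v 0 := by
      simpa using ((hasDerivAt_id (0 : ℝ)).smul_const v).const_add s
    have h4 : HasFDerivAt (fun s => F s ω) (fderiv ℝ (fun s => F s ω) s) (s + (0 : ℝ) • v) := by
      simpa using h1
    exact h4.comp_hasDerivAt (0 : ℝ) h3
  refine h2.le_of_lip' (by positivity) (Filter.Eventually.of_forall fun t => ?_)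
  refine (hF.lip _ _ ω).trans (le_of_eq ?_)
  simp only [zero_smul, add_zero, sub_zero, Prod.fst_add, Prod.snd_add, Prod.smul_fst,
    Prod.smul_snd, add_sub_cancel_left, norm_smul]
  ring

theorem norm_fderiv_le (hF : Force κ F) (s : E2 d) (ω : κ → E d) :
    ‖fderiv ℝ (fun s => F s ω) s‖ ≤ 16 := by
  refine ContinuousLinearMap.opNorm_le_bound _ (by norm_num) fun v => ?_
  refine (force_dir hF s ω v).trans ?_
  have h1 := norm_fst_le v
  have h2 := norm_snd_le v
  linarith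

theorem cont_force (hF : Force κ F) : Continuous fun q : E2 d × (κ → E d) => F q.1 q.2 :=
  hF.smooth.continuous

theorem cont_kmap (hF : Force κ F) (ε : ℝ) :
    Continuous fun q : E2 d × (κ → E d) => kmap F ε q.1 q.2 := by
  have h := cont_force hF
  unfold kmap
  fun_prop

theorem hasFDerivAt_kmap (hF : Force κ F) (ε : ℝ) (s : E2 d) (ω : κ → E d) :
    HasFDerivAt (fun s => kmap F ε s ω) (kjac ε (fderiv ℝ (fun s => F s ω) s)) s := by
  have h1 := hasFDerivAt_force hF s ω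
  have hf : HasFDerivAt (fun s : E2 d => s.1) (ContinuousLinearMap.fst ℝ (E d) (E d)) s :=
    hasFDerivAt_fst
  have hs : HasFDerivAt (fun s : E2 d => s.2) (ContinuousLinearMap.snd ℝ (E d) (E d)) s :=
    hasFDerivAt_snd
  exact ((hf.add (hs.const_smul (2 : ℝ))).sub (h1.const_smul ε)).prodMk
    (hs.sub (h1.const_smul ε))

theorem norm_kjac_le {ε : ℝ} (h0 : 0 ≤ ε) (h1 : ε ≤ 1) {L : E2 d →L[ℝ] E d} (hL : ‖L‖ ≤ 16) :
    ‖kjac ε L‖ ≤ 19 := by
  refine ContinuousLinearMap.opNorm_le_bound _ (by norm_num) fun v => ?_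
  have e1 : kjac ε L v = (v.1 + (2 : ℝ) • v.2 - ε • L v, v.2 - ε • L v) := rfl
  have h2 := norm_fst_le v
  have h3 := norm_snd_le v
  have h4 : ‖L v‖ ≤ 16 * ‖v‖ := (L.le_opNorm v).trans
    (mul_le_mul_of_nonneg_right hL (norm_nonneg v))
  have h5 : ‖ε • L v‖ ≤ 16 * ‖v‖ := by
    rw [norm_smul, Real.norm_of_nonneg h0]
    have := norm_nonneg (L v)
    nlinarith
  have h6 := norm_nonneg v
  rw [e1, Prod.norm_def]
  refine max_le ?_ ?_
  · calc ‖v.1 + (2 : ℝ) • v.2 - ε • L v‖ ≤ ‖v.1 + (2 : ℝ) • v.2‖ + ‖ε • L v‖ := norm_sub_le _ _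
      _ ≤ (‖v.1‖ + ‖(2 : ℝ) • v.2‖) + ‖ε • L v‖ := by
        have := norm_add_le v.1 ((2 : ℝ) • v.2)
        linarith
      _ ≤ 19 * ‖v‖ := by
        rw [norm_smul, Real.norm_of_nonneg (by norm_num : (0 : ℝ) ≤ 2)]
        linarith
  · calc ‖v.2 - ε • L v‖ ≤ ‖v.2‖ + ‖ε • L v‖ := norm_sub_le _ _
      _ ≤ 19 * ‖v‖ := by linarith

theorem cont_kjac (ε : ℝ) : Continuous fun L : E2 d →L[ℝ] E d => kjac ε L := by
  have e : (fun L : E2 d →L[ℝ] E d => kjac ε L) = fun L =>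
      (ContinuousLinearMap.fst ℝ (E d) (E d) + (2 : ℝ) • ContinuousLinearMap.snd ℝ (E d) (E d)).prod
        (ContinuousLinearMap.snd ℝ (E d) (E d)) -
      ε • (ContinuousLinearMap.inl ℝ (E d) (E d) + ContinuousLinearMap.inr ℝ (E d) (E d)).comp
        L := by
    funext L
    refine ContinuousLinearMap.ext fun v => Prod.ext ?_ ?_
    · simp [kjac]
    · simp [kjac]
  rw [e]
  have h1 : Continuous fun L : E2 d →L[ℝ] E d =>
      (ContinuousLinearMap.inl ℝ (E d) (E d) + ContinuousLinearMap.inr ℝ (E d) (E d)).comp L :=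
    continuous_const.clm_comp continuous_id
  exact continuous_const.sub (Continuous.const_smul h1 ε)

end KMapAux

open KMapAux

section map
variable {d : ℕ} {κ : Type} [Fintype κ] {G : Type*} [NormedAddCommGroup G] [InnerProductSpace ℝ G]
  [CompleteSpace G] {F : E2 d → (κ → E d) → E d} {ε h : ℝ}

theorem force_fderiv_x (hF : Force κ F) (s : E2 d) (ω : κ → E d) (a : E d) :
    ‖fderiv ℝ (fun s => F s ω) s (a, 0)‖ ≤ 8 * ‖a‖ := by
  simpa using force_dir hF s ω (a, 0)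

theorem force_fderiv_z (hF : Force κ F) (s : E2 d) (ω : κ → E d) (a : E d) :
    ‖fderiv ℝ (fun s => F s ω) s (0, a)‖ ≤ 8 * ‖a‖ := by
  simpa using force_dir hF s ω (0, a)

/-- continuity of the joint derivative, for measurability -/
theorem force_fderiv_cont (hF : Force κ F) :
    Continuous (fun q : E2 d × (κ → E d) => fderiv ℝ (fun s => F s q.2) q.1) := by
  have e : (fun q : E2 d × (κ → E d) => fderiv ℝ (fun s => F s q.2) q.1) = fun q =>
      (fderiv ℝ (fun q : E2 d × (κ → E d) => F q.1 q.2) q).comp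
        (ContinuousLinearMap.inl ℝ (E2 d) (κ → E d)) := by
    funext q
    exact fderiv_part hF q.1 q.2
  rw [e]
  have h1 : Continuous (fderiv ℝ (fun q : E2 d × (κ → E d) => F q.1 q.2)) :=
    hF.smooth.continuous_fderiv (by norm_num)
  exact h1.clm_comp continuous_const

theorem opM_norm_le {v : E2 d → G} {C : ℝ} (hv : ∀ s, ‖v s‖ ≤ C) (s : E2 d) :
    ‖opM F ε v s‖ ≤ C := by
  have h := norm_integral_le_of_norm_le_const (μ := gamPi d κ)
    (f := fun ω => v (kmap F ε s ω)) (C := C) (Filter.Eventually.of_forall fun z => hv _)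
  rw [probReal_univ, mul_one] at h
  exact h

theorem opM_stronglyMeasurable (hF : Force κ F) {v : E2 d → G} (hm : StronglyMeasurable v) :
    StronglyMeasurable (opM F ε v) := by
  have h1 : StronglyMeasurable fun q : E2 d × (κ → E d) => v (kmap F ε q.1 q.2) :=
    hm.comp_measurable (cont_kmap hF ε).measurable
  exact h1.integral_prod_right'

namespace KMapAux

theorem integrable_of_bd {β : Type*} [NormedAddCommGroup β] {f : (κ → E d) → β}
    (hc : Continuous f) {C : ℝ} (hC : ∀ ω, ‖f ω‖ ≤ C) : Integrable f (gamPi d κ) :=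
  (integrable_const C).mono' hc.aestronglyMeasurable (Filter.Eventually.of_forall hC)

theorem hasFDerivAt_opM (hF : Force κ F) (h0 : 0 ≤ ε) (h1 : ε ≤ 1) {v : E2 d → G} (hv : Nice v)
    (s : E2 d) : HasFDerivAt (opM F ε v)
      (∫ ω, (fderiv ℝ v (kmap F ε s ω)).comp (kjac ε (fderiv ℝ (fun s => F s ω) s)) ∂gamPi d κ)
      s := by
  obtain ⟨C, hC⟩ := hv.bd
  obtain ⟨D, hD⟩ := hv.dbd
  have hD0 : 0 ≤ D := (norm_nonneg _).trans (hD 0)
  have hcd : Continuous (fderiv ℝ v) := hv.smooth.continuous_fderiv (by norm_num)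
  have hck := cont_kmap hF ε
  have hcf := force_fderiv_cont hF
  have hcj : Continuous fun q : E2 d × (κ → E d) =>
      (fderiv ℝ v (kmap F ε q.1 q.2)).comp (kjac ε (fderiv ℝ (fun s => F s q.2) q.1)) :=
    (hcd.comp hck).clm_comp ((cont_kjac ε).comp hcf)
  refine hasFDerivAt_integral_of_dominated_of_fderiv_le (𝕜 := ℝ) (μ := gamPi d κ)
    (F := fun s ω => v (kmap F ε s ω))
    (F' := fun s ω => (fderiv ℝ v (kmap F ε s ω)).comp (kjac ε (fderiv ℝ (fun s => F s ω) s)))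
    (x₀ := s) (bound := fun _ => D * 19) (s := Set.univ) Filter.univ_mem
    (Filter.Eventually.of_forall fun y =>
      (hv.smooth.continuous.comp (hck.comp (by fun_prop : Continuous fun ω : κ → E d =>
        (y, ω)))).aestronglyMeasurable)
    ?_ ?_ ?_ (integrable_const _) ?_
  · exact integrable_of_bd (hv.smooth.continuous.comp (hck.comp
      (by fun_prop : Continuous fun ω : κ → E d => (s, ω)))) (fun ω => hC _)
  · exact (hcj.comp (by fun_prop : Continuous fun ω : κ → E d => (s, ω))).aestronglyMeasurable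
  · refine Filter.Eventually.of_forall fun ω y _ => ?_
    refine (ContinuousLinearMap.opNorm_comp_le _ _).trans ?_
    exact mul_le_mul (hD _) (norm_kjac_le h0 h1 (norm_fderiv_le hF y ω)) (norm_nonneg _) hD0
  · refine Filter.Eventually.of_forall fun ω y _ => ?_
    have h2 := hasFDerivAt_kmap hF ε y ω
    have h3 : HasFDerivAt v (fderiv ℝ v (kmap F ε y ω)) (kmap F ε y ω) :=
      (hv.smooth.differentiable (by norm_num) _).hasFDerivAt
    exact h3.comp y h2

end KMapAux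

theorem opM_fderiv (hF : Force κ F) (h0 : 0 ≤ ε) (h1 : ε ≤ 1) {v : E2 d → G} (hv : Nice v)
    (s : E2 d) : fderiv ℝ (opM F ε v) s =
      ∫ ω, (fderiv ℝ v (kmap F ε s ω)).comp (kjac ε (fderiv ℝ (fun s => F s ω) s)) ∂gamPi d κ :=
  (KMapAux.hasFDerivAt_opM hF h0 h1 hv s).fderiv

theorem opM_nice (hF : Force κ F) (h0 : 0 ≤ ε) (h1 : ε ≤ 1) {v : E2 d → G} (hv : Nice v) :
    Nice (opM F ε v) := by
  obtain ⟨C, hC⟩ := hv.bd
  obtain ⟨D, hD⟩ := hv.dbd
  have hD0 : 0 ≤ D := (norm_nonneg _).trans (hD 0)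
  have hcd : Continuous (fderiv ℝ v) := hv.smooth.continuous_fderiv (by norm_num)
  have hck := cont_kmap hF ε
  have hcf := force_fderiv_cont hF
  have hcj : Continuous fun q : E2 d × (κ → E d) =>
      (fderiv ℝ v (kmap F ε q.1 q.2)).comp (kjac ε (fderiv ℝ (fun s => F s q.2) q.1)) :=
    (hcd.comp hck).clm_comp ((cont_kjac ε).comp hcf)
  have hb : ∀ (s : E2 d) (ω : κ → E d),
      ‖(fderiv ℝ v (kmap F ε s ω)).comp (kjac ε (fderiv ℝ (fun s => F s ω) s))‖ ≤ D * 19 := by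
    intro s ω
    refine (ContinuousLinearMap.opNorm_comp_le _ _).trans ?_
    exact mul_le_mul (hD _) (norm_kjac_le h0 h1 (norm_fderiv_le hF s ω)) (norm_nonneg _) hD0
  refine ⟨?_, ⟨C, opM_norm_le hC⟩, ⟨D * 19, fun s => ?_⟩⟩
  · rw [contDiff_one_iff_fderiv]
    refine ⟨fun s => (KMapAux.hasFDerivAt_opM hF h0 h1 hv s).differentiableAt, ?_⟩
    have e : fderiv ℝ (opM F ε v) = fun s => ∫ ω,
        (fderiv ℝ v (kmap F ε s ω)).comp (kjac ε (fderiv ℝ (fun s => F s ω) s)) ∂gamPi d κ := by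
      funext s
      exact opM_fderiv hF h0 h1 hv s
    rw [e]
    refine continuous_of_dominated (bound := fun _ => D * 19) (fun s => ?_) (fun s => ?_)
      (integrable_const _) ?_
    · exact (hcj.comp (by fun_prop : Continuous fun ω : κ → E d => (s, ω))).aestronglyMeasurable
    · exact Filter.Eventually.of_forall (hb s)
    · exact Filter.Eventually.of_forall fun ω =>
        hcj.comp (by fun_prop : Continuous fun s : E2 d => (s, ω))
  · rw [opM_fderiv hF h0 h1 hv]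
    have h := norm_integral_le_of_norm_le_const (μ := gamPi d κ) (f := fun ω =>
      (fderiv ℝ v (kmap F ε s ω)).comp (kjac ε (fderiv ℝ (fun s => F s ω) s))) (C := D * 19)
      (Filter.Eventually.of_forall (hb s))
    rw [probReal_univ, mul_one] at h
    exact h

namespace KMapAux

/-- Jensen in one direction -/
theorem jensen_dir {α : Type*} [MeasurableSpace α] (μ : Measure α) [IsProbabilityMeasure μ]
    {T : α → (E2 d →L[ℝ] G)} (hm : AEStronglyMeasurable T μ) {C : ℝ} (hT : ∀ ω, ‖T ω‖ ≤ C)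
    (u : E2 d) :
    Integrable (fun ω => ‖T ω u‖ ^ 2) μ ∧
      ‖(∫ ω, T ω ∂μ) u‖ ^ 2 ≤ ∫ ω, ‖T ω u‖ ^ 2 ∂μ := by
  have hi : Integrable T μ := (integrable_const C).mono' hm (Filter.Eventually.of_forall hT)
  have hu : Integrable (fun ω => T ω u) μ :=
    (ContinuousLinearMap.apply ℝ G u).integrable_comp hi
  have hu2 : Integrable (fun ω => ‖T ω u‖ ^ 2) μ := by
    refine (integrable_const ((C * ‖u‖) ^ 2)).mono' (hu.aestronglyMeasurable.norm.pow 2)
      (Filter.Eventually.of_forall fun ω => ?_)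
    rw [Real.norm_of_nonneg (by positivity)]
    refine pow_le_pow_left₀ (norm_nonneg _) (((T ω).le_opNorm u).trans ?_) 2
    exact mul_le_mul_of_nonneg_right (hT ω) (norm_nonneg _)
  refine ⟨hu2, ?_⟩
  have e : (∫ ω, T ω ∂μ) u = ∫ ω, T ω u ∂μ :=
    ((ContinuousLinearMap.apply ℝ G u).integral_comp_comm hi).symm
  rw [e]
  exact MehlerAux.jensen μ hu hu2

theorem jensen_hx {α : Type*} [MeasurableSpace α] (μ : Measure α) [IsProbabilityMeasure μ]
    {T : α → (E2 d →L[ℝ] G)} (hm : AEStronglyMeasurable T μ) {C : ℝ} (hT : ∀ ω, ‖T ω‖ ≤ C) :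
    Integrable (fun ω => hx (T ω)) μ ∧ hx (∫ ω, T ω ∂μ) ≤ ∫ ω, hx (T ω) ∂μ := by
  have h := fun i : Fin d => jensen_dir μ hm hT ((eb i : E d), (0 : E d))
  refine ⟨integrable_finsetSum _ fun i _ => (h i).1, ?_⟩
  unfold hx
  rw [integral_finsetSum _ fun i _ => (h i).1]
  exact Finset.sum_le_sum fun i _ => (h i).2

theorem jensen_hd {α : Type*} [MeasurableSpace α] (μ : Measure α) [IsProbabilityMeasure μ]
    (a : ℝ) {T : α → (E2 d →L[ℝ] G)} (hm : AEStronglyMeasurable T μ) {C : ℝ}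
    (hT : ∀ ω, ‖T ω‖ ≤ C) :
    Integrable (fun ω => hd a (T ω)) μ ∧ hd a (∫ ω, T ω ∂μ) ≤ ∫ ω, hd a (T ω) ∂μ := by
  have h := fun i : Fin d => jensen_dir μ hm hT (-(a • (eb i : E d)), (eb i : E d))
  refine ⟨integrable_finsetSum _ fun i _ => (h i).1, ?_⟩
  unfold hd
  rw [integral_finsetSum _ fun i _ => (h i).1]
  exact Finset.sum_le_sum fun i _ => (h i).2

theorem jensen_frm' {α : Type*} [MeasurableSpace α] (μ : Measure α) [IsProbabilityMeasure μ]
    {n : ℝ} (hn : 0 ≤ n) {T : α → (E2 d →L[ℝ] G)} (hm : AEStronglyMeasurable T μ) {C : ℝ}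
    (hT : ∀ ω, ‖T ω‖ ≤ C) :
    Integrable (fun ω => frm' n (T ω)) μ ∧ frm' n (∫ ω, T ω ∂μ) ≤ ∫ ω, frm' n (T ω) ∂μ := by
  obtain ⟨i1, j1⟩ := jensen_hx μ hm hT
  obtain ⟨i2, j2⟩ := jensen_hd μ (n + 2) hm hT
  refine ⟨(i1.const_mul _).add (i2.const_mul _), ?_⟩
  have e : ∫ ω, frm' n (T ω) ∂μ = n ^ 3 / 8 * ∫ ω, hx (T ω) ∂μ +
      7 * n / 8 * ∫ ω, hd (n + 2) (T ω) ∂μ := by
    unfold frm'
    rw [integral_add (i1.const_mul _) (i2.const_mul _), integral_const_mul, integral_const_mul]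
  rw [e]
  unfold frm'
  exact add_le_add (mul_le_mul_of_nonneg_left j1 (by positivity))
    (mul_le_mul_of_nonneg_left j2 (by positivity))

end KMapAux

/-- Jensen for the forms and the average over the private noise -/
theorem avg_frm' {n : ℝ} (hn : 0 ≤ n) {T : (κ → E d) → (E2 d →L[ℝ] G)}
    (hm : AEStronglyMeasurable T (gamPi d κ)) {C : ℝ} (hT : ∀ ω, ‖T ω‖ ≤ C) :
    frm' n (∫ ω, T ω ∂gamPi d κ) ≤ ∫ ω, frm' n (T ω) ∂gamPi d κ :=
  (KMapAux.jensen_frm' _ hn hm hT).2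

theorem avg_hx {T : (κ → E d) → (E2 d →L[ℝ] G)}
    (hm : AEStronglyMeasurable T (gamPi d κ)) {C : ℝ} (hT : ∀ ω, ‖T ω‖ ≤ C) :
    hx (∫ ω, T ω ∂gamPi d κ) ≤ ∫ ω, hx (T ω) ∂gamPi d κ :=
  (KMapAux.jensen_hx _ hm hT).2

theorem avg_hd (a : ℝ) {T : (κ → E d) → (E2 d →L[ℝ] G)}
    (hm : AEStronglyMeasurable T (gamPi d κ)) {C : ℝ} (hT : ∀ ω, ‖T ω‖ ≤ C) :
    hd a (∫ ω, T ω ∂gamPi d κ) ≤ ∫ ω, hd a (T ω) ∂gamPi d κ :=
  (KMapAux.jensen_hd _ a hm hT).2

theorem opT_norm_le {v : E2 d → G} {C : ℝ} (hv : ∀ s, ‖v s‖ ≤ C) (s : E2 d) :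
    ‖opT F h v s‖ ≤ C := by
  have h := norm_integral_le_of_norm_le_const (μ := (gam d).prod (gam d))
    (f := fun q : E d × E d => opM F (h ^ 2) v (s.1 + h ^ 2 • q.1,
      Real.sqrt (1 - 8 * h) • s.2 + Real.sqrt (8 * h) • q.2)) (C := C)
    (Filter.Eventually.of_forall fun z => opM_norm_le hv _)
  rw [probReal_univ, mul_one] at h
  exact h

end map

end Vale.Agent.P347
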