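import Vale.Agent.P347.KNoise
import Vale.Agent.P347.KMap

/-!
# P347: the operators `A`: bounds and smoothing
-/

open MeasureTheory ProbabilityTheory
open scoped ENNReal NNReal RealInnerProductSpace

namespace Vale.Agent.P347

namespace KA

variable {d : ℕ} {κ : Type} [Fintype κ] {F : E2 d → (κ → E d) → E d} {h : ℝ}

/-- transpose of a family of vectors applied to a vector -/
theorem norm_transpose_le {T : E d → E d} (hlin : ∀ (c : Fin d → ℝ),
    T (∑ i, c i • (eb i : E d)) = ∑ i, c i • T (eb i)) {C : ℝ} (hT : ∀ a, ‖T a‖ ≤ C * ‖a‖)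
    (q : E d) : ‖∑ i, ⟪T (eb i), q⟫ • (eb i : E d)‖ ≤ C * ‖q‖ := by
  set v : E d := ∑ i, ⟪T (eb i), q⟫ • (eb i : E d) with hv
  have h1 : ⟪T v, q⟫ = ‖v‖ ^ 2 := by
    rw [hv, hlin, sum_inner]
    have h2 : ‖∑ i, ⟪T (eb i), q⟫ • (eb i : E d)‖ ^ 2 = ∑ i, ⟪T (eb i), q⟫ ^ 2 := by
      rw [← real_inner_self_eq_norm_sq, sum_inner]
      refine Finset.sum_congr rfl fun i _ => ?_
      rw [inner_sum, Finset.sum_eq_single i]
      · rw [real_inner_smul_left, real_inner_smul_right, real_inner_self_eq_norm_sq]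
        have : ‖(eb i : E d)‖ = 1 := by simp [eb]
        rw [this]
        ring
      · intro j _ hj
        rw [real_inner_smul_left, real_inner_smul_right]
        have : ⟪(eb i : E d), eb j⟫ = 0 := by
          simp [eb, EuclideanSpace.inner_single_left, hj.symm]
        rw [this]
        ring
      · intro h
        exact absurd (Finset.mem_univ i) h
    rw [h2]
    refine Finset.sum_congr rfl fun i _ => ?_
    rw [real_inner_smul_left]
    ring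
  have h3 : ‖v‖ ^ 2 ≤ C * ‖v‖ * ‖q‖ := by
    rw [← h1]
    exact (real_inner_le_norm _ _).trans (mul_le_mul_of_nonneg_right (hT v) (norm_nonneg q))
  by_cases h0 : ‖v‖ = 0
  · rw [h0]
    have h4 := hT q
    have h5 : 0 ≤ C * ‖q‖ := (norm_nonneg _).trans h4
    exact h5
  · have h6 : 0 < ‖v‖ := lt_of_le_of_ne (norm_nonneg v) (Ne.symm h0)
    nlinarith

/-- the integrand of `opAx` and `opAz` -/
noncomputable def igd (F : E2 d → (κ → E d) → E d) (ι : E d →L[ℝ] E2 d) (h : ℝ) (q : E2 d → E d)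
    (s : E2 d) (ω : κ → E d) : E d :=
  ∑ i, ⟪fderiv ℝ (fun s => F s ω) s (ι (eb i)), q (kmap F (h ^ 2) s ω)⟫ • (eb i : E d)

theorem igd_norm {ι : E d →L[ℝ] E2 d}
    (hι : ∀ s ω a, ‖fderiv ℝ (fun s => F s ω) s (ι a)‖ ≤ 8 * ‖a‖) {q : E2 d → E d} {Q : ℝ}
    (hq : ∀ s, ‖q s‖ ≤ Q) (s : E2 d) (ω : κ → E d) : ‖igd F ι h q s ω‖ ≤ 8 * Q := by
  have h1 := norm_transpose_le (T := fun a => fderiv ℝ (fun s => F s ω) s (ι a))
    (fun c => by
      show fderiv ℝ (fun s => F s ω) s (ι (∑ i, c i • (eb i : E d))) = _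
      rw [map_sum, map_sum]
      refine Finset.sum_congr rfl fun i _ => ?_
      rw [map_smul, map_smul]) (C := 8) (fun a => hι s ω a) (q (kmap F (h ^ 2) s ω))
  exact h1.trans (mul_le_mul_of_nonneg_left (hq _) (by norm_num))

theorem kmap_cont (hF : Force κ F) (ε : ℝ) :
    Continuous (fun z : E2 d × (κ → E d) => kmap F ε z.1 z.2) := by
  have h1 : Continuous (fun z : E2 d × (κ → E d) => F z.1 z.2) := hF.smooth.continuous
  unfold kmap
  fun_prop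

theorem igd_cont (hF : Force κ F) (ι : E d →L[ℝ] E2 d) {q : E2 d → E d} (hc : Continuous q) :
    Continuous (fun z : E2 d × (κ → E d) => igd F ι h q z.1 z.2) := by
  unfold igd
  have h1 := force_fderiv_cont hF
  have h2 := kmap_cont hF (h ^ 2)
  apply continuous_finsetSum
  intro i _
  refine Continuous.smul (M := ℝ) (X := E d) ?_ continuous_const
  have h3 : Continuous (fun z : E2 d × (κ → E d) =>
      fderiv ℝ (fun s => F s z.2) z.1 (ι (eb i))) := h1.clm_apply continuous_const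
  exact h3.inner (hc.comp h2)

theorem inner_meas (hF : Force κ F) (ι : E d →L[ℝ] E2 d) {q : E2 d → E d} (hc : Continuous q) :
    StronglyMeasurable (fun s => ∫ ω, igd F ι h q s ω ∂gamPi d κ) := by
  have h1 := (igd_cont (h := h) hF ι hc).stronglyMeasurable
  exact h1.integral_prod_right (ν := gamPi d κ)

theorem inner_norm {ι : E d →L[ℝ] E2 d}
    (hι : ∀ s ω a, ‖fderiv ℝ (fun s => F s ω) s (ι a)‖ ≤ 8 * ‖a‖) {q : E2 d → E d} {Q : ℝ}
    (hq : ∀ s, ‖q s‖ ≤ Q) (s : E2 d) : ‖∫ ω, igd F ι h q s ω ∂gamPi d κ‖ ≤ 8 * Q := by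
  have h1 := norm_integral_le_of_norm_le_const (μ := gamPi d κ)
    (Filter.Eventually.of_forall fun ω => igd_norm (h := h) hι hq s ω)
  simpa using h1

theorem hinl (hF : Force κ F) (s : E2 d) (ω : κ → E d) (a : E d) :
    ‖fderiv ℝ (fun s => F s ω) s (ContinuousLinearMap.inl ℝ (E d) (E d) a)‖ ≤ 8 * ‖a‖ := by
  rw [ContinuousLinearMap.inl_apply]
  exact force_fderiv_x hF s ω a

theorem hinr (hF : Force κ F) (s : E2 d) (ω : κ → E d) (a : E d) :
    ‖fderiv ℝ (fun s => F s ω) s (ContinuousLinearMap.inr ℝ (E d) (E d) a)‖ ≤ 8 * ‖a‖ := by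
  rw [ContinuousLinearMap.inr_apply]
  exact force_fderiv_z hF s ω a

theorem opAx_eq (q : E2 d → E d) : opAx F h q =
    opN (h ^ 2) (Real.sqrt (1 - 8 * h)) (Real.sqrt (8 * h)) fun s =>
      ∫ ω, igd F (ContinuousLinearMap.inl ℝ (E d) (E d)) h q s ω ∂gamPi d κ := rfl

theorem opAz_eq (q : E2 d → E d) : opAz F h q =
    opN (h ^ 2) (Real.sqrt (1 - 8 * h)) (Real.sqrt (8 * h)) fun s =>
      ∫ ω, igd F (ContinuousLinearMap.inr ℝ (E d) (E d)) h q s ω ∂gamPi d κ := rfl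

theorem smooth_aux (h0 : 0 < h) (h1 : h ≤ 1 / 16) {v : E2 d → E d} (hm : StronglyMeasurable v)
    {Q : ℝ} (hv : ∀ s, ‖v s‖ ≤ 8 * Q) (s : E2 d) :
    hx (fderiv ℝ (opN (h ^ 2) (Real.sqrt (1 - 8 * h)) (Real.sqrt (8 * h)) v) s) ≤
        64 * Q ^ 2 / h ^ 4 ∧
      hz (fderiv ℝ (opN (h ^ 2) (Real.sqrt (1 - 8 * h)) (Real.sqrt (8 * h)) v) s) ≤
        64 * Q ^ 2 / (8 * h) := by
  have hρ : 0 < Real.sqrt (1 - 8 * h) := Real.sqrt_pos.mpr (by linarith)
  have hr : 0 < Real.sqrt (8 * h) := Real.sqrt_pos.mpr (by linarith)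
  have hσ : 0 < h ^ 2 := by positivity
  have h2 := opN_bessel hσ hρ hr hm hv s
  have h3 : opN (h ^ 2) (Real.sqrt (1 - 8 * h)) (Real.sqrt (8 * h)) (fun s => ‖v s‖ ^ 2) s ≤
      64 * Q ^ 2 := by
    have h4 := opN_norm_le (σ := h ^ 2) (ρ := Real.sqrt (1 - 8 * h)) (r := Real.sqrt (8 * h))
      (v := fun s => ‖v s‖ ^ 2) (C := 64 * Q ^ 2) (fun s => by
        rw [Real.norm_of_nonneg (by positivity)]
        have h5 := hv s
        have h6 := norm_nonneg (v s)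
        nlinarith) s
    exact (Real.le_norm_self _).trans h4
  have hx0 : 0 ≤ hx (fderiv ℝ (opN (h ^ 2) (Real.sqrt (1 - 8 * h)) (Real.sqrt (8 * h)) v) s) :=
    Finset.sum_nonneg fun i _ => by positivity
  have hz0 : 0 ≤ hz (fderiv ℝ (opN (h ^ 2) (Real.sqrt (1 - 8 * h)) (Real.sqrt (8 * h)) v) s) :=
    Finset.sum_nonneg fun i _ => by positivity
  set A := hx (fderiv ℝ (opN (h ^ 2) (Real.sqrt (1 - 8 * h)) (Real.sqrt (8 * h)) v) s)
  set B := hz (fderiv ℝ (opN (h ^ 2) (Real.sqrt (1 - 8 * h)) (Real.sqrt (8 * h)) v) s)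
  have hn0 : 0 ≤ ‖opN (h ^ 2) (Real.sqrt (1 - 8 * h)) (Real.sqrt (8 * h)) v s‖ ^ 2 := by positivity
  have hrr : (Real.sqrt (8 * h) / Real.sqrt (1 - 8 * h)) ^ 2 = 8 * h / (1 - 8 * h) := by
    rw [div_pow, Real.sq_sqrt (by linarith), Real.sq_sqrt (by linarith)]
  rw [hrr] at h2
  have hpos : 0 < 1 - 8 * h := by linarith
  have h7 : 8 * h ≤ 8 * h / (1 - 8 * h) := by
    rw [le_div_iff₀ hpos]
    nlinarith
  have h8 : 8 * h * B ≤ 8 * h / (1 - 8 * h) * B := mul_le_mul_of_nonneg_right h7 hz0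
  have h9 : 0 ≤ 8 * h / (1 - 8 * h) * B := by positivity
  have h10 : 0 ≤ (h ^ 2) ^ 2 * A := by positivity
  constructor
  · rw [le_div_iff₀ (by positivity)]
    calc A * h ^ 4 = (h ^ 2) ^ 2 * A := by ring
      _ ≤ 64 * Q ^ 2 := by linarith
  · rw [le_div_iff₀ (by positivity)]
    calc B * (8 * h) = 8 * h * B := by ring
      _ ≤ 64 * Q ^ 2 := by linarith

end KA

section
variable {d : ℕ} {κ : Type} [Fintype κ] {F : E2 d → (κ → E d) → E d} {h : ℝ}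

theorem opAx_norm (hF : Force κ F) {q : E2 d → E d} (_hc : Continuous q) {Q : ℝ}
    (hq : ∀ s, ‖q s‖ ≤ Q) (s : E2 d) : ‖opAx F h q s‖ ≤ 8 * Q := by
  rw [KA.opAx_eq]
  exact opN_norm_le (fun s => KA.inner_norm (h := h) (KA.hinl hF) hq s) s

theorem opAz_norm (hF : Force κ F) {q : E2 d → E d} (_hc : Continuous q) {Q : ℝ}
    (hq : ∀ s, ‖q s‖ ≤ Q) (s : E2 d) : ‖opAz F h q s‖ ≤ 8 * Q := by
  rw [KA.opAz_eq]
  exact opN_norm_le (fun s => KA.inner_norm (h := h) (KA.hinr hF) hq s) s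

theorem opAx_nice (hF : Force κ F) (h0 : 0 < h) (h1 : h ≤ 1 / 16) {q : E2 d → E d}
    (hc : Continuous q) {Q : ℝ} (hq : ∀ s, ‖q s‖ ≤ Q) : Nice (opAx F h q) := by
  rw [KA.opAx_eq]
  exact opN_nice (by positivity) (Real.sqrt_pos.mpr (by linarith))
    (Real.sqrt_pos.mpr (by linarith)) (KA.inner_meas hF _ hc)
    (fun s => KA.inner_norm (h := h) (KA.hinl hF) hq s)

theorem opAz_nice (hF : Force κ F) (h0 : 0 < h) (h1 : h ≤ 1 / 16) {q : E2 d → E d}
    (hc : Continuous q) {Q : ℝ} (hq : ∀ s, ‖q s‖ ≤ Q) : Nice (opAz F h q) := by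
  rw [KA.opAz_eq]
  exact opN_nice (by positivity) (Real.sqrt_pos.mpr (by linarith))
    (Real.sqrt_pos.mpr (by linarith)) (KA.inner_meas hF _ hc)
    (fun s => KA.inner_norm (h := h) (KA.hinr hF) hq s)

theorem opAx_smooth (hF : Force κ F) (h0 : 0 < h) (h1 : h ≤ 1 / 16) {q : E2 d → E d}
    (hc : Continuous q) {Q : ℝ} (hq : ∀ s, ‖q s‖ ≤ Q) (s : E2 d) :
    hx (fderiv ℝ (opAx F h q) s) ≤ 64 * Q ^ 2 / h ^ 4 ∧
      hz (fderiv ℝ (opAx F h q) s) ≤ 64 * Q ^ 2 / (8 * h) := by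
  rw [KA.opAx_eq]
  exact KA.smooth_aux h0 h1 (KA.inner_meas hF _ hc)
    (fun s => KA.inner_norm (h := h) (KA.hinl hF) hq s) s

theorem opAz_smooth (hF : Force κ F) (h0 : 0 < h) (h1 : h ≤ 1 / 16) {q : E2 d → E d}
    (hc : Continuous q) {Q : ℝ} (hq : ∀ s, ‖q s‖ ≤ Q) (s : E2 d) :
    hx (fderiv ℝ (opAz F h q) s) ≤ 64 * Q ^ 2 / h ^ 4 ∧
      hz (fderiv ℝ (opAz F h q) s) ≤ 64 * Q ^ 2 / (8 * h) := by
  rw [KA.opAz_eq]
  exact KA.smooth_aux h0 h1 (KA.inner_meas hF _ hc)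
    (fun s => KA.inner_norm (h := h) (KA.hinr hF) hq s) s

end

end Vale.Agent.P347
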