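import Vale.Agent.P347.DefsC

/-!
# P347, K10: contraction of the kinetic chain
-/

open MeasureTheory ProbabilityTheory
open scoped ENNReal NNReal RealInnerProductSpace

namespace Vale.Agent.P347

namespace KContrAux

theorem rho_bounds {h ρ : ℝ} (h0 : 0 < h) (h1 : h ≤ 1 / 1000) (hρ0 : 0 ≤ ρ)
    (hρ : ρ ^ 2 = 1 - 8 * h) : 1 - 4 * h - 16 * h ^ 2 ≤ ρ ∧ ρ ≤ 1 - 4 * h := by
  constructor
  · by_contra hcon
    push Not at hcon
    have e2 : ρ ^ 2 < (1 - 4 * h - 16 * h ^ 2) ^ 2 := pow_lt_pow_left₀ hcon hρ0 (by norm_num)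
    rw [hρ] at e2
    have e3 : (1 - 4 * h - 16 * h ^ 2) ^ 2 - (1 - 8 * h) =
        h ^ 2 * (-16 + 128 * h + 256 * h ^ 2) := by ring
    have e4 : -16 + 128 * h + 256 * h ^ 2 ≤ 0 := by nlinarith
    have e5 := mul_nonpos_of_nonneg_of_nonpos (sq_nonneg h) e4
    linarith
  · by_contra hcon
    push Not at hcon
    have e2 : (1 - 4 * h) ^ 2 < ρ ^ 2 := pow_lt_pow_left₀ hcon (by linarith) (by norm_num)
    rw [hρ] at e2
    nlinarith [sq_nonneg h]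

theorem p_bound {h a b p : ℝ} (h0 : 0 < h) (h1 : h ≤ 1 / 1000) (ha : 0 ≤ a) (hb : 0 ≤ b)
    (hpp : p ≤ h * (1 + 20 * h ^ 2) * a + 8 * h ^ 2 * b) :
    p ≤ h * (101 / 100 * a + 1 / 100 * b) := by
  have hh : h ^ 2 ≤ 1 / 1000000 := by nlinarith
  have e2 : h * (20 * h ^ 2) * a ≤ 1 / 100 * h * a := by
    have : h * (20 * h ^ 2) ≤ 1 / 100 * h := by
      have := mul_le_mul_of_nonneg_left hh h0.le
      linarith
    exact mul_le_mul_of_nonneg_right this ha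
  have e3 : 8 * h ^ 2 * b ≤ 1 / 100 * h * b := by
    apply mul_le_mul_of_nonneg_right _ hb
    have := mul_le_mul_of_nonneg_left h1 h0.le
    nlinarith
  linarith

theorem prod_le {k x c y : ℝ} (hk : |k| ≤ c) (hx : |x| ≤ y) : k * x ≤ c * y := by
  calc k * x ≤ |k * x| := le_abs_self _
    _ = |k| * |x| := abs_mul _ _
    _ ≤ c * y := mul_le_mul hk hx (abs_nonneg _) ((abs_nonneg _).trans hk)

theorem tu {h a b u p : ℝ} (h0 : 0 < h) (h1 : h ≤ 1 / 1000) (ha : 0 ≤ a) (hb : 0 ≤ b)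
    (hu : |u| ≤ a * p) (hp1 : p ≤ h * (101 / 100 * a + 1 / 100 * b)) :
    (-(1 / 2) + 3 * h ^ 2 + 6 * h ^ 3) * u ≤ h * (51 / 100 * a ^ 2 + 1 / 100 * (a * b)) := by
  have hh : h ^ 2 ≤ 1 / 1000000 := by nlinarith
  have hh0 : 0 < h ^ 2 := pow_pos h0 2
  have hh3 : h ^ 3 ≤ 1 / 1000000 := by nlinarith
  have hh30 : 0 < h ^ 3 := pow_pos h0 3
  have e2 : |-(1 / 2) + 3 * h ^ 2 + 6 * h ^ 3| ≤ 1 / 2 := by
    rw [abs_le]
    constructor <;> linarith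
  have e1 := prod_le e2 hu
  have e3 : a * p ≤ a * (h * (101 / 100 * a + 1 / 100 * b)) := mul_le_mul_of_nonneg_left hp1 ha
  have e4 : 0 ≤ h * (a * b) := by positivity
  have e5 : 0 ≤ h * a ^ 2 := by positivity
  have e6 : a * (h * (101 / 100 * a + 1 / 100 * b)) =
      101 / 100 * (h * a ^ 2) + 1 / 100 * (h * (a * b)) := by ring
  linarith

theorem tv {h ρ a b v p : ℝ} (h0 : 0 < h) (h1 : h ≤ 1 / 1000) (hρ0 : 0 ≤ ρ) (hρ1 : ρ ≤ 1)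
    (ha : 0 ≤ a) (hb : 0 ≤ b)
    (hv : |v| ≤ b * p) (hp1 : p ≤ h * (101 / 100 * a + 1 / 100 * b)) :
    (-(2 / 3) - 3 / 2 * h - 4 * h ^ 2) * ρ * v ≤ h * (7 / 10 * (a * b) + 1 / 100 * b ^ 2) := by
  have hh : h ^ 2 ≤ 1 / 1000000 := by nlinarith
  have hh0 : 0 < h ^ 2 := pow_pos h0 2
  have e2 : |-(2 / 3) - 3 / 2 * h - 4 * h ^ 2| ≤ 67 / 100 := by
    rw [abs_le]
    constructor <;> linarith
  have e4 : |(-(2 / 3) - 3 / 2 * h - 4 * h ^ 2) * ρ| ≤ 67 / 100 := by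
    rw [abs_mul, abs_of_nonneg hρ0]
    calc _ ≤ 67 / 100 * 1 := mul_le_mul e2 hρ1 hρ0 (by norm_num)
      _ = _ := by norm_num
  have e1 := prod_le e4 hv
  have e3 : b * p ≤ b * (h * (101 / 100 * a + 1 / 100 * b)) := mul_le_mul_of_nonneg_left hp1 hb
  have e5 : 0 ≤ h * (a * b) := by positivity
  have e6 : 0 ≤ h * b ^ 2 := by positivity
  have e7 : b * (h * (101 / 100 * a + 1 / 100 * b)) =
      101 / 100 * (h * (a * b)) + 1 / 100 * (h * b ^ 2) := by ring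
  linarith

theorem tp {h a b p : ℝ} (h0 : 0 < h) (h1 : h ≤ 1 / 1000) (hp : 0 ≤ p)
    (hp1 : p ≤ h * (101 / 100 * a + 1 / 100 * b)) :
    (1 / 3 + 1 / 2 * h + h ^ 2) * p ^ 2 ≤ h * (1 / 500 * a ^ 2 + 1 / 500 * b ^ 2) := by
  have hab : 2 * (a * b) ≤ a ^ 2 + b ^ 2 := by nlinarith [sq_nonneg (a - b)]
  have ha2 : 0 ≤ a ^ 2 := sq_nonneg a
  have hb2 : 0 ≤ b ^ 2 := sq_nonneg b
  have hh : h ^ 2 ≤ 1 / 1000000 := by nlinarith
  have e1 : p ^ 2 ≤ (h * (101 / 100 * a + 1 / 100 * b)) ^ 2 := pow_le_pow_left₀ hp hp1 2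
  have e2 : (h * (101 / 100 * a + 1 / 100 * b)) ^ 2 ≤ h ^ 2 * (2 * (a ^ 2 + b ^ 2)) := by
    rw [mul_pow]
    apply mul_le_mul_of_nonneg_left _ (sq_nonneg h)
    have : (101 / 100 * a + 1 / 100 * b) ^ 2 =
        10201 / 10000 * a ^ 2 + 202 / 10000 * (a * b) + 1 / 10000 * b ^ 2 := by ring
    linarith
  have e3 : (1 / 3 + 1 / 2 * h + h ^ 2) ≤ 1 / 2 := by linarith
  have e4 : (1 / 3 + 1 / 2 * h + h ^ 2) * p ^ 2 ≤ 1 / 2 * (h ^ 2 * (2 * (a ^ 2 + b ^ 2))) :=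
    mul_le_mul e3 (e1.trans e2) (sq_nonneg p) (by norm_num)
  have e5 : h ^ 2 * (a ^ 2 + b ^ 2) ≤ (1 / 1000 * h) * (a ^ 2 + b ^ 2) := by
    apply mul_le_mul_of_nonneg_right _ (by positivity)
    nlinarith
  have e6 : 0 ≤ h * (a ^ 2 + b ^ 2) := by positivity
  linarith

theorem tc {h ρ a b c : ℝ} (h0 : 0 < h) (h1 : h ≤ 1 / 1000)
    (hρ1 : ρ ≤ 1 - 4 * h) (hρ2 : 1 - 4 * h - 16 * h ^ 2 ≤ ρ) (hc : |c| ≤ a * b) :
    (1 / 2 + 2 * h - 9 / 2 * h ^ 2 - 12 * h ^ 3) * ρ * c ≤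
      (1 - h / 4) * (1 / 2 * c) + h * (2 / 10 * (a * b)) := by
  have hh : h ^ 2 ≤ 1 / 1000 * h := by nlinarith
  have hh0 : 0 < h ^ 2 := pow_pos h0 2
  have hh3 : h ^ 3 ≤ 1 / 1000 * h ^ 2 := by nlinarith
  have hh30 : 0 < h ^ 3 := pow_pos h0 3
  have hh4 : h ^ 4 ≤ 1 / 1000 * h ^ 3 := by nlinarith
  have hh40 : 0 < h ^ 4 := pow_pos h0 4
  have hh5 : h ^ 5 ≤ 1 / 1000 * h ^ 4 := by nlinarith
  have hh50 : 0 < h ^ 5 := pow_pos h0 5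
  have hA0 : 0 ≤ 1 / 2 + 2 * h - 9 / 2 * h ^ 2 - 12 * h ^ 3 := by linarith
  have e1 : |(1 / 2 + 2 * h - 9 / 2 * h ^ 2 - 12 * h ^ 3) * ρ - (1 - h / 4) * (1 / 2)| ≤
      2 / 10 * h := by
    rw [abs_le]
    constructor
    · have := mul_le_mul_of_nonneg_left hρ2 hA0
      have e : (1 / 2 + 2 * h - 9 / 2 * h ^ 2 - 12 * h ^ 3) * (1 - 4 * h - 16 * h ^ 2) =
          1 / 2 - 41 / 2 * h ^ 2 - 26 * h ^ 3 + 120 * h ^ 4 + 192 * h ^ 5 := by ring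
      rw [e] at this
      linarith
    · have := mul_le_mul_of_nonneg_left hρ1 hA0
      have e : (1 / 2 + 2 * h - 9 / 2 * h ^ 2 - 12 * h ^ 3) * (1 - 4 * h) =
          1 / 2 - 25 / 2 * h ^ 2 + 6 * h ^ 3 + 48 * h ^ 4 := by ring
      rw [e] at this
      linarith
  have e2 := prod_le e1 hc
  linarith

theorem ta {h a : ℝ} (h0 : 0 < h) (h1 : h ≤ 1 / 1000) :
    (1 - 3 / 2 * h - 3 * h ^ 2 + 9 / 2 * h ^ 3 + 9 * h ^ 4) * a ^ 2 ≤
      (1 - h / 4) * a ^ 2 - h * (5 / 4 * a ^ 2) := by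
  have hh0 : 0 < h ^ 2 := pow_pos h0 2
  have hh3 : h ^ 3 ≤ 1 / 1000 * h ^ 2 := by nlinarith
  have hh30 : 0 < h ^ 3 := pow_pos h0 3
  have hh4 : h ^ 4 ≤ 1 / 1000 * h ^ 3 := by nlinarith
  have : (1 - 3 / 2 * h - 3 * h ^ 2 + 9 / 2 * h ^ 3 + 9 * h ^ 4) ≤ 1 - h / 4 - h * (5 / 4) := by
    linarith
  have := mul_le_mul_of_nonneg_right this (sq_nonneg a)
  linarith

theorem tb {h b : ℝ} (h0 : 0 < h) :
    (1 / 3 + h + 4 * h ^ 2) * (1 - 8 * h) * b ^ 2 ≤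
      (1 - h / 4) * (b ^ 2 / 3) - h * (3 / 2 * b ^ 2) := by
  have hh0 : 0 < h ^ 2 := pow_pos h0 2
  have hh30 : 0 < h ^ 3 := pow_pos h0 3
  have : (1 / 3 + h + 4 * h ^ 2) * (1 - 8 * h) ≤ (1 - h / 4) / 3 - h * (3 / 2) := by
    have e : (1 / 3 + h + 4 * h ^ 2) * (1 - 8 * h) =
        1 / 3 - 5 / 3 * h - 4 * h ^ 2 - 32 * h ^ 3 := by ring
    rw [e]
    linarith
  have := mul_le_mul_of_nonneg_right this (sq_nonneg b)
  linarith

/-- the scalar inequality behind the contraction -/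
theorem scalar {h ρ a b c u v p : ℝ} (h0 : 0 < h) (h1 : h ≤ 1 / 1000) (hρ0 : 0 ≤ ρ)
    (hρ : ρ ^ 2 = 1 - 8 * h) (ha : 0 ≤ a) (hb : 0 ≤ b) (hp : 0 ≤ p) (hc : |c| ≤ a * b)
    (hu : |u| ≤ a * p) (hv : |v| ≤ b * p) (hpp : p ≤ h * (1 + 20 * h ^ 2) * a + 8 * h ^ 2 * b) :
    (1 - 3 / 2 * h - 3 * h ^ 2 + 9 / 2 * h ^ 3 + 9 * h ^ 4) * a ^ 2 +
      (1 / 2 + 2 * h - 9 / 2 * h ^ 2 - 12 * h ^ 3) * ρ * c +
      (1 / 3 + h + 4 * h ^ 2) * (1 - 8 * h) * b ^ 2 +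
      (-(1 / 2) + 3 * h ^ 2 + 6 * h ^ 3) * u +
      (-(2 / 3) - 3 / 2 * h - 4 * h ^ 2) * ρ * v +
      (1 / 3 + 1 / 2 * h + h ^ 2) * p ^ 2 ≤
    (1 - h / 4) * (a ^ 2 + 1 / 2 * c + b ^ 2 / 3) := by
  obtain ⟨hρ2, hρ1⟩ := rho_bounds h0 h1 hρ0 hρ
  have hp1 := p_bound h0 h1 ha hb hpp
  have t1 := tu h0 h1 ha hb hu hp1
  have t2 := tv h0 h1 hρ0 (by linarith) ha hb hv hp1
  have t3 := tp h0 h1 hp hp1
  have t4 := tc h0 h1 hρ1 hρ2 hc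
  have t5 := ta (a := a) h0 h1
  have t6 := tb (b := b) h0
  have hab : 2 * (a * b) ≤ a ^ 2 + b ^ 2 := by nlinarith [sq_nonneg (a - b)]
  have ha2 : 0 ≤ a ^ 2 := sq_nonneg a
  have hb2 : 0 ≤ b ^ 2 := sq_nonneg b
  have key : h * (51 / 100 * a ^ 2 + 1 / 100 * (a * b) + (7 / 10 * (a * b) + 1 / 100 * b ^ 2) +
      (1 / 500 * a ^ 2 + 1 / 500 * b ^ 2) + (2 / 10 * (a * b)) - (5 / 4 * a ^ 2) -
      (3 / 2 * b ^ 2)) ≤ 0 := by
    apply mul_nonpos_of_nonneg_of_nonpos h0.le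
    linarith
  linarith

variable {d : ℕ}

/-- the quadratic form -/
noncomputable def qN (X z : E d) : ℝ := ‖X‖ ^ 2 + 1 / 2 * ⟪X, z⟫ + ‖z‖ ^ 2 / 3

theorem qN_le (X z : E d) : qN X z ≤ (‖X‖ + ‖z‖) ^ 2 := by
  unfold qN
  have h1 := real_inner_le_norm X z
  have h2 := norm_nonneg X
  have h3 := norm_nonneg z
  nlinarith [mul_nonneg h2 h3, sq_nonneg (‖z‖)]

theorem le_qN (X z : E d) : (‖X‖ + ‖z‖) ^ 2 ≤ 9 * qN X z := by
  unfold qN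
  have h1 := neg_le_of_abs_le (abs_real_inner_le_norm X z)
  have h2 := norm_nonneg X
  have h3 := norm_nonneg z
  nlinarith [mul_nonneg h2 h3, sq_nonneg (‖z‖), sq_nonneg (‖X‖ - ‖z‖ / 2), sq_nonneg (2 * ‖X‖ - ‖z‖)]

theorem qN_nonneg (X z : E d) : 0 ≤ qN X z := by
  have := le_qN X z
  nlinarith [sq_nonneg (‖X‖ + ‖z‖)]

theorem qN_expand (h : ℝ) (X z P : E d) :
    qN (X + (2 * h) • z - h • ((3 * h) • X + P)) (z - ((3 * h) • X + P)) =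
      (1 - 3 / 2 * h - 3 * h ^ 2 + 9 / 2 * h ^ 3 + 9 * h ^ 4) * ‖X‖ ^ 2 +
      (1 / 2 + 2 * h - 9 / 2 * h ^ 2 - 12 * h ^ 3) * ⟪X, z⟫ +
      (1 / 3 + h + 4 * h ^ 2) * ‖z‖ ^ 2 +
      (-(1 / 2) + 3 * h ^ 2 + 6 * h ^ 3) * ⟪X, P⟫ +
      (-(2 / 3) - 3 / 2 * h - 4 * h ^ 2) * ⟪z, P⟫ +
      (1 / 3 + 1 / 2 * h + h ^ 2) * ‖P‖ ^ 2 := by
  unfold qN
  simp only [← real_inner_self_eq_norm_sq, inner_add_left, inner_sub_left, inner_add_right,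
    inner_sub_right, real_inner_smul_left, real_inner_smul_right]
  rw [real_inner_comm X z, real_inner_comm X P, real_inner_comm z P]
  ring

theorem qN_step {h ρ : ℝ} (h0 : 0 < h) (h1 : h ≤ 1 / 1000) (hρ0 : 0 ≤ ρ)
    (hρ : ρ ^ 2 = 1 - 8 * h) {X z P : E d}
    (hP : ‖P‖ ≤ h * (1 + 20 * h ^ 2) * ‖X‖ + 8 * h ^ 2 * ‖z‖) :
    qN (X + (2 * h) • (ρ • z) - h • ((3 * h) • X + P)) (ρ • z - ((3 * h) • X + P)) ≤
      (1 - h / 4) * qN X z := by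
  rw [qN_expand]
  have h2 := scalar h0 h1 hρ0 hρ (norm_nonneg X) (norm_nonneg z) (norm_nonneg P)
    (abs_real_inner_le_norm X z) (abs_real_inner_le_norm X P) (abs_real_inner_le_norm z P) hP
  have e : ‖ρ • z‖ ^ 2 = (1 - 8 * h) * ‖z‖ ^ 2 := by
    rw [norm_smul, mul_pow, Real.norm_of_nonneg hρ0, hρ]
  rw [e, real_inner_smul_right, real_inner_smul_left]
  unfold qN
  linarith

/-- the norm -/
noncomputable def nrm (h : ℝ) (s : E2 d) : ℝ := Real.sqrt (qN (h • s.1) s.2)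

theorem nrm_nonneg (h : ℝ) (s : E2 d) : 0 ≤ nrm h s := Real.sqrt_nonneg _

theorem nrm_le {h : ℝ} (h0 : 0 ≤ h) (s : E2 d) : nrm h s ≤ h * ‖s.1‖ + ‖s.2‖ := by
  unfold nrm
  rw [Real.sqrt_le_left (by positivity)]
  have := qN_le (h • s.1) s.2
  rwa [norm_smul, Real.norm_of_nonneg h0] at this

theorem le_nrm {h : ℝ} (h0 : 0 ≤ h) (s : E2 d) : h * ‖s.1‖ + ‖s.2‖ ≤ 3 * nrm h s := by
  unfold nrm
  have h1 := le_qN (h • s.1) s.2
  rw [norm_smul, Real.norm_of_nonneg h0] at h1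
  have h2 : h * ‖s.1‖ + ‖s.2‖ ≤ Real.sqrt (9 * qN (h • s.1) s.2) :=
    Real.le_sqrt_of_sq_le h1
  rw [Real.sqrt_mul (by norm_num)] at h2
  have : Real.sqrt 9 = 3 := by
    rw [show (9 : ℝ) = 3 ^ 2 by norm_num]
    exact Real.sqrt_sq (by norm_num)
  rwa [this] at h2

section force
variable {κ : Type} [Fintype κ] {F : E2 d → (κ → E d) → E d} {h : ℝ}

/-- the hypothesis on the force -/
def Mono (F : E2 d → (κ → E d) → E d) (h : ℝ) : Prop :=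
  ∀ s s' ω, ‖F s ω - F s' ω - (3 : ℝ) • (s.1 - s'.1)‖ ≤
      (1 + 20 * h ^ 2) * ‖s.1 - s'.1‖ + 8 * ‖s.2 - s'.2‖

omit [Fintype κ] in
theorem kmap_step (hM : Mono F h) (h0 : 0 < h) (h1 : h ≤ 1 / 1000) {ρ : ℝ} (hρ0 : 0 ≤ ρ)
    (hρ : ρ ^ 2 = 1 - 8 * h) {s s' : E2 d} {D : E d} (hD : s.2 - s'.2 = ρ • D)
    (ω : κ → E d) :
    nrm h (kmap F (h ^ 2) s ω - kmap F (h ^ 2) s' ω) ≤ (1 - h / 8) * nrm h (s.1 - s'.1, D) := by
  set R := F s ω - F s' ω - (3 : ℝ) • (s.1 - s'.1) with hR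
  have hRn := hM s s' ω
  rw [← hR, hD] at hRn
  have hρ1 : ρ ≤ 1 := by nlinarith
  have hDn : ‖ρ • D‖ ≤ ‖D‖ := by
    rw [norm_smul, Real.norm_of_nonneg hρ0]
    exact mul_le_of_le_one_left (norm_nonneg _) hρ1
  have hdF : F s ω - F s' ω = (3 : ℝ) • (s.1 - s'.1) + R := by rw [hR]; abel
  have e1 : h • (kmap F (h ^ 2) s ω - kmap F (h ^ 2) s' ω).1 =
      h • (s.1 - s'.1) + (2 * h) • (ρ • D) - h • ((3 * h) • (h • (s.1 - s'.1)) + h ^ 2 • R) := by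
    simp only [kmap, Prod.fst_sub]
    have : s.1 + (2 : ℝ) • s.2 - h ^ 2 • F s ω - (s'.1 + (2 : ℝ) • s'.2 - h ^ 2 • F s' ω) =
        (s.1 - s'.1) + (2 : ℝ) • (s.2 - s'.2) - h ^ 2 • (F s ω - F s' ω) := by module
    rw [this, hD, hdF]
    module
  have e2 : (kmap F (h ^ 2) s ω - kmap F (h ^ 2) s' ω).2 =
      ρ • D - ((3 * h) • (h • (s.1 - s'.1)) + h ^ 2 • R) := by
    simp only [kmap, Prod.snd_sub]
    have : s.2 - h ^ 2 • F s ω - (s'.2 - h ^ 2 • F s' ω) =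
        (s.2 - s'.2) - h ^ 2 • (F s ω - F s' ω) := by module
    rw [this, hD, hdF]
    module
  have hP : ‖h ^ 2 • R‖ ≤ h * (1 + 20 * h ^ 2) * ‖h • (s.1 - s'.1)‖ + 8 * h ^ 2 * ‖D‖ := by
    rw [norm_smul, norm_smul, Real.norm_of_nonneg (sq_nonneg h), Real.norm_of_nonneg h0.le]
    have e3 : ‖R‖ ≤ (1 + 20 * h ^ 2) * ‖s.1 - s'.1‖ + 8 * ‖D‖ := hRn.trans (by linarith)
    have := mul_le_mul_of_nonneg_left e3 (sq_nonneg h)
    nlinarith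
  have hq := qN_step h0 h1 hρ0 hρ hP
  unfold nrm
  rw [e1, e2]
  have h8 : 0 ≤ 1 - h / 8 := by linarith
  rw [Real.sqrt_le_left (mul_nonneg h8 (Real.sqrt_nonneg _)), mul_pow,
    Real.sq_sqrt (qN_nonneg _ _)]
  refine hq.trans (mul_le_mul_of_nonneg_right ?_ (qN_nonneg _ _))
  nlinarith

/-- Lipschitz with respect to `nrm` -/
def Lc (K h : ℝ) (u : E2 d → ℝ) : Prop := ∀ s s', |u s - u s'| ≤ K * nrm h (s - s')

theorem cont_of_bound {u : E2 d → ℝ} {a b : ℝ} (ha : 0 ≤ a) (hb : 0 ≤ b)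
    (hu : ∀ s s', |u s - u s'| ≤ a * ‖s.1 - s'.1‖ + b * ‖s.2 - s'.2‖) : Continuous u := by
  refine (LipschitzWith.of_dist_le' (K := a + b) fun s s' => ?_).continuous
  rw [Real.dist_eq, dist_eq_norm]
  refine (hu s s').trans ?_
  have h1 : ‖s.1 - s'.1‖ ≤ ‖s - s'‖ := norm_fst_le (s - s')
  have h2 : ‖s.2 - s'.2‖ ≤ ‖s - s'‖ := norm_snd_le (s - s')
  have h3 := mul_le_mul_of_nonneg_left h1 ha
  have h4 := mul_le_mul_of_nonneg_left h2 hb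
  linarith

theorem Lc.continuous {K : ℝ} {u : E2 d → ℝ} (hu : Lc K h u) (hK : 0 ≤ K) (h0 : 0 ≤ h) :
    Continuous u := by
  refine cont_of_bound (a := K * h) (b := K) (by positivity) hK fun s s' => (hu s s').trans ?_
  have h1 := nrm_le h0 (s - s')
  have h2 := mul_le_mul_of_nonneg_left h1 hK
  rw [Prod.fst_sub, Prod.snd_sub] at h2
  linarith

theorem kmap_cont (hF : Force κ F) (ε : ℝ) (s : E2 d) : Continuous fun ω => kmap F ε s ω := by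
  have h1 : Continuous fun ω : κ → E d => F s ω :=
    hF.smooth.continuous.comp (Continuous.prodMk_right s)
  unfold kmap
  exact (continuous_const.sub (h1.const_smul ε)).prodMk (continuous_const.sub (h1.const_smul ε))

theorem integrable_kmap (hF : Force κ F) (ε : ℝ) {u : E2 d → ℝ} (hu : Continuous u) {B : ℝ}
    (hB : ∀ s, |u s| ≤ B) (s : E2 d) : Integrable (fun ω => u (kmap F ε s ω)) (gamPi d κ) :=
  Integrable.of_bound (hu.comp (kmap_cont hF ε s)).aestronglyMeasurable B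
    (Filter.Eventually.of_forall fun ω => hB _)

theorem opM_bdd {ε : ℝ} {u : E2 d → ℝ} {B : ℝ} (hB : ∀ s, |u s| ≤ B) (s : E2 d) :
    |opM F ε u s| ≤ B := by
  have h1 := norm_integral_le_of_norm_le_const (μ := gamPi d κ)
    (f := fun ω => u (kmap F ε s ω)) (C := B) (Filter.Eventually.of_forall fun ω => hB _)
  simpa [opM] using h1

theorem opM_lc (hF : Force κ F) (hM : Mono F h) (h0 : 0 < h) (h1 : h ≤ 1 / 1000) {ρ : ℝ}
    (hρ0 : 0 ≤ ρ) (hρ : ρ ^ 2 = 1 - 8 * h) {u : E2 d → ℝ} {K B : ℝ} (hK : 0 ≤ K)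
    (hu : Lc K h u) (hB : ∀ s, |u s| ≤ B) {s s' : E2 d} {D : E d} (hD : s.2 - s'.2 = ρ • D) :
    |opM F (h ^ 2) u s - opM F (h ^ 2) u s'| ≤ K * (1 - h / 8) * nrm h (s.1 - s'.1, D) := by
  have hc := hu.continuous hK h0.le
  have i1 := integrable_kmap hF (h ^ 2) hc hB s
  have i2 := integrable_kmap hF (h ^ 2) hc hB s'
  have e : opM F (h ^ 2) u s - opM F (h ^ 2) u s' =
      ∫ ω, (u (kmap F (h ^ 2) s ω) - u (kmap F (h ^ 2) s' ω)) ∂gamPi d κ := by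
    rw [integral_sub i1 i2]
    rfl
  rw [e]
  have h2 := norm_integral_le_of_norm_le_const (μ := gamPi d κ)
    (f := fun ω => u (kmap F (h ^ 2) s ω) - u (kmap F (h ^ 2) s' ω))
    (C := K * (1 - h / 8) * nrm h (s.1 - s'.1, D)) (Filter.Eventually.of_forall fun ω => by
      rw [Real.norm_eq_abs]
      refine (hu _ _).trans ?_
      rw [mul_assoc]
      exact mul_le_mul_of_nonneg_left (kmap_step hM h0 h1 hρ0 hρ hD ω) hK)
  simpa using h2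

theorem opM_cont (hF : Force κ F) (hM : Mono F h) (h0 : 0 < h) (h1 : h ≤ 1 / 1000) {ρ : ℝ}
    (hρ0 : 0 < ρ) (hρ : ρ ^ 2 = 1 - 8 * h) {u : E2 d → ℝ} {K B : ℝ} (hK : 0 ≤ K)
    (hu : Lc K h u) (hB : ∀ s, |u s| ≤ B) : Continuous (opM F (h ^ 2) u) := by
  have hK' : 0 ≤ K * (1 - h / 8) := mul_nonneg hK (by linarith)
  refine cont_of_bound (a := K * (1 - h / 8) * h) (b := K * (1 - h / 8) * ρ⁻¹)
    (mul_nonneg hK' h0.le) (mul_nonneg hK' (inv_nonneg.2 hρ0.le)) fun s s' => ?_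
  have hD : s.2 - s'.2 = ρ • (ρ⁻¹ • (s.2 - s'.2)) := by
    rw [smul_smul, mul_inv_cancel₀ hρ0.ne', one_smul]
  refine (opM_lc hF hM h0 h1 hρ0.le hρ hK hu hB hD).trans ?_
  have h2 := nrm_le h0.le (s.1 - s'.1, ρ⁻¹ • (s.2 - s'.2))
  have h3 := mul_le_mul_of_nonneg_left h2 hK'
  simp only at h3
  rw [norm_smul, Real.norm_of_nonneg (inv_nonneg.2 hρ0.le)] at h3
  linarith

theorem opN_bdd {σ ρ r : ℝ} {u : E2 d → ℝ} {B : ℝ} (hB : ∀ s, |u s| ≤ B) (s : E2 d) :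
    |opN σ ρ r u s| ≤ B := by
  have h1 := norm_integral_le_of_norm_le_const (μ := (gam d).prod (gam d))
    (f := fun q => u (s.1 + σ • q.1, ρ • s.2 + r • q.2)) (C := B)
    (Filter.Eventually.of_forall fun ω => hB _)
  simpa [opN] using h1

theorem integrable_noise {σ ρ r : ℝ} {u : E2 d → ℝ} (hu : Continuous u) {B : ℝ}
    (hB : ∀ s, |u s| ≤ B) (s : E2 d) :
    Integrable (fun q : E d × E d => u (s.1 + σ • q.1, ρ • s.2 + r • q.2))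
      ((gam d).prod (gam d)) := by
  refine Integrable.of_bound (hu.comp ?_).aestronglyMeasurable B
    (Filter.Eventually.of_forall fun ω => hB _)
  exact (continuous_const.add (continuous_fst.const_smul σ)).prodMk
    (continuous_const.add (continuous_snd.const_smul r))

theorem opT_lc (hF : Force κ F) (hM : Mono F h) (h0 : 0 < h) (h1 : h ≤ 1 / 1000)
    {u : E2 d → ℝ} {K B : ℝ} (hK : 0 ≤ K)
    (hu : Lc K h u) (hB : ∀ s, |u s| ≤ B) :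
    Lc (K * (1 - h / 8)) h (opT F h u) ∧ ∀ s, |opT F h u s| ≤ B := by
  have hρ0 : 0 < Real.sqrt (1 - 8 * h) := Real.sqrt_pos.2 (by linarith)
  have hρ : Real.sqrt (1 - 8 * h) ^ 2 = 1 - 8 * h := Real.sq_sqrt (by linarith)
  have hb := fun s => opM_bdd (F := F) (ε := h ^ 2) hB s
  have hc := opM_cont hF hM h0 h1 hρ0 hρ hK hu hB
  refine ⟨fun s s' => ?_, fun s => opN_bdd hb s⟩
  have i1 := integrable_noise (σ := h ^ 2) (ρ := Real.sqrt (1 - 8 * h)) (r := Real.sqrt (8 * h))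
    hc hb s
  have i2 := integrable_noise (σ := h ^ 2) (ρ := Real.sqrt (1 - 8 * h)) (r := Real.sqrt (8 * h))
    hc hb s'
  have e : opT F h u s - opT F h u s' =
      ∫ q : E d × E d, (opM F (h ^ 2) u
          (s.1 + h ^ 2 • q.1, Real.sqrt (1 - 8 * h) • s.2 + Real.sqrt (8 * h) • q.2) -
        opM F (h ^ 2) u
          (s'.1 + h ^ 2 • q.1, Real.sqrt (1 - 8 * h) • s'.2 + Real.sqrt (8 * h) • q.2))
        ∂(gam d).prod (gam d) := by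
    rw [integral_sub i1 i2]
    rfl
  rw [e]
  have h2 := norm_integral_le_of_norm_le_const (μ := (gam d).prod (gam d))
    (f := fun q : E d × E d => opM F (h ^ 2) u
          (s.1 + h ^ 2 • q.1, Real.sqrt (1 - 8 * h) • s.2 + Real.sqrt (8 * h) • q.2) -
        opM F (h ^ 2) u
          (s'.1 + h ^ 2 • q.1, Real.sqrt (1 - 8 * h) • s'.2 + Real.sqrt (8 * h) • q.2))
    (C := K * (1 - h / 8) * nrm h (s - s')) (Filter.Eventually.of_forall fun q => by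
      rw [Real.norm_eq_abs]
      have hD : (Real.sqrt (1 - 8 * h) • s.2 + Real.sqrt (8 * h) • q.2) -
          (Real.sqrt (1 - 8 * h) • s'.2 + Real.sqrt (8 * h) • q.2) =
          Real.sqrt (1 - 8 * h) • (s.2 - s'.2) := by module
      have h3 := opM_lc hF hM h0 h1 hρ0.le hρ hK hu hB
        (s := (s.1 + h ^ 2 • q.1, Real.sqrt (1 - 8 * h) • s.2 + Real.sqrt (8 * h) • q.2))
        (s' := (s'.1 + h ^ 2 • q.1, Real.sqrt (1 - 8 * h) • s'.2 + Real.sqrt (8 * h) • q.2)) hD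
      have e2 : ((s.1 + h ^ 2 • q.1) - (s'.1 + h ^ 2 • q.1), s.2 - s'.2) = s - s' := by
        rw [add_sub_add_right_eq_sub]
        rfl
      simp only [e2] at h3
      exact h3)
  simpa using h2

theorem iter_lc (hF : Force κ F) (hM : Mono F h) (h0 : 0 < h) (h1 : h ≤ 1 / 1000)
    {u : E2 d → ℝ} {K B : ℝ} (hK : 0 ≤ K)
    (hu : Lc K h u) (hB : ∀ s, |u s| ≤ B) (N : ℕ) :
    Lc (K * (1 - h / 8) ^ N) h ((opT F h)^[N] u) ∧ ∀ s, |(opT F h)^[N] u s| ≤ B := by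
  induction N with
  | zero =>
    rw [pow_zero, mul_one]
    exact ⟨hu, hB⟩
  | succ N ih =>
    rw [Function.iterate_succ_apply', pow_succ, ← mul_assoc]
    exact opT_lc hF hM h0 h1 (mul_nonneg hK (pow_nonneg (by linarith) N)) ih.1 ih.2

end force

end KContrAux

open KContrAux

theorem chain_contr : ∃ C : ℝ, 1 ≤ C ∧ ∀ {κ : Type} [Fintype κ] {d : ℕ}
    {F : E2 d → (κ → E d) → E d}, Force κ F →
    ∀ {h : ℝ}, 0 < h → h ≤ 1 / C →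
    (∀ s s' ω, ‖F s ω - F s' ω - (3 : ℝ) • (s.1 - s'.1)‖ ≤
      (1 + 20 * h ^ 2) * ‖s.1 - s'.1‖ + 8 * ‖s.2 - s'.2‖) →
    ∀ {u : E2 d → ℝ}, (∀ s s', |u s - u s'| ≤ ‖s.1 - s'.1‖ + ‖s.2 - s'.2‖) → (∃ B, ∀ s, |u s| ≤ B) →
    ∀ (N : ℕ) (s s' : E2 d), |(opT F h)^[N] u s - (opT F h)^[N] u s'| ≤
      C / h * (1 - h / C) ^ N * (h * ‖s.1 - s'.1‖ + ‖s.2 - s'.2‖) := by
  refine ⟨1000, by norm_num, fun {κ} _ {d F} hF {h} h0 h1 hM {u} hu hB N s s' => ?_⟩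
  obtain ⟨B, hB⟩ := hB
  have hK : 0 ≤ 3 / h := by positivity
  have hlc : Lc (3 / h) h u := fun s s' => by
    refine (hu s s').trans ?_
    have h2 := le_nrm h0.le (s - s')
    rw [Prod.fst_sub, Prod.snd_sub] at h2
    have h3 := norm_nonneg (s.1 - s'.1)
    have h4 := norm_nonneg (s.2 - s'.2)
    have h5 : h * (‖s.1 - s'.1‖ + ‖s.2 - s'.2‖) ≤ 3 * nrm h (s - s') := by
      have : h * ‖s.2 - s'.2‖ ≤ 1 * ‖s.2 - s'.2‖ := mul_le_mul_of_nonneg_right (by linarith) h4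
      linarith
    rw [div_mul_eq_mul_div, le_div_iff₀ h0]
    linarith
  obtain ⟨h2, _⟩ := iter_lc hF hM h0 h1 hK hlc hB N
  refine (h2 s s').trans ?_
  have h3 := nrm_le h0.le (s - s')
  rw [Prod.fst_sub, Prod.snd_sub] at h3
  have hp : (0 : ℝ) ≤ 1 - h / 8 := by linarith
  have h4 : (1 - h / 8) ^ N ≤ (1 - h / 1000) ^ N := pow_le_pow_left₀ hp (by linarith) N
  have h5 : 3 / h ≤ 1000 / h := by
    rw [div_le_div_iff_of_pos_right h0]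
    norm_num
  have h6 : 3 / h * (1 - h / 8) ^ N ≤ 1000 / h * (1 - h / 1000) ^ N :=
    mul_le_mul h5 h4 (pow_nonneg hp N) (by positivity)
  exact mul_le_mul h6 h3 (nrm_nonneg _ _) (mul_nonneg (by positivity)
    (pow_nonneg (by linarith) N))

end Vale.Agent.P347
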