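import Vale.Agent.P347.KMap2

/-!
# P347: gradients of one step of the chain
-/

open MeasureTheory ProbabilityTheory
open scoped ENNReal NNReal RealInnerProductSpace Topology

namespace Vale.Agent.P347

namespace KGradAux

variable {d : ℕ} {κ : Type} [Fintype κ] {F : E2 d → (κ → E d) → E d} {h ε σ ρ r : ℝ}

/-- the `x`-gradient of a linear form -/
noncomputable def Fx (d : ℕ) : (E2 d →L[ℝ] ℝ) →L[ℝ] E d :=
  ∑ i, (ContinuousLinearMap.apply ℝ ℝ ((eb i, 0) : E2 d)).smulRight (eb i : E d)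

/-- the `z`-gradient of a linear form -/
noncomputable def Fz (d : ℕ) : (E2 d →L[ℝ] ℝ) →L[ℝ] E d :=
  ∑ i, (ContinuousLinearMap.apply ℝ ℝ ((0, eb i) : E2 d)).smulRight (eb i : E d)

theorem Fx_apply (T : E2 d →L[ℝ] ℝ) : Fx d T = ∑ i, T (eb i, 0) • (eb i : E d) := by
  simp [Fx]

theorem Fz_apply (T : E2 d →L[ℝ] ℝ) : Fz d T = ∑ i, T (0, eb i) • (eb i : E d) := by
  simp [Fz]

theorem gx_eq (u : E2 d → ℝ) (s : E2 d) : gx u s = Fx d (fderiv ℝ u s) := (Fx_apply _).symm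

theorem gz_eq (u : E2 d → ℝ) (s : E2 d) : gz u s = Fz d (fderiv ℝ u s) := (Fz_apply _).symm

theorem eb_ap (k j : Fin d) : (eb k : E d) j = if j = k then 1 else 0 := by
  unfold eb
  rw [EuclideanSpace.single, PiLp.single_apply]

theorem sum_coord (c : Fin d → ℝ) (j : Fin d) : (∑ i, c i • (eb i : E d)) j = c j := by
  have e : (∑ i, c i • (eb i : E d)) j = ∑ i, c i * (eb i : E d) j := by
    simp
  rw [e]
  simp [eb_ap]

theorem eq_sum (a : E d) : a = ∑ i, a i • (eb i : E d) := by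
  ext j
  rw [sum_coord]

theorem norm_sum_sq (c : Fin d → ℝ) : ‖∑ i, c i • (eb i : E d)‖ ^ 2 = ∑ i, c i ^ 2 := by
  rw [EuclideanSpace.norm_sq_eq]
  refine Finset.sum_congr rfl fun j _ => ?_
  rw [sum_coord, Real.norm_eq_abs, sq_abs]

theorem inner_Fx (T : E2 d →L[ℝ] ℝ) (a : E d) : T (a, 0) = ⟪Fx d T, a⟫ := by
  have h1 : ((a, 0) : E2 d) = ∑ i, a i • ((eb i, 0) : E2 d) := by
    refine Prod.ext ?_ ?_
    · rw [Prod.fst_sum]
      exact eq_sum a
    · rw [Prod.snd_sum]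
      simp
  rw [h1, map_sum, PiLp.inner_apply]
  refine Finset.sum_congr rfl fun i _ => ?_
  rw [map_smul, Fx_apply, sum_coord]
  simp

theorem inner_Fz (T : E2 d →L[ℝ] ℝ) (a : E d) : T (0, a) = ⟪Fz d T, a⟫ := by
  have h1 : ((0, a) : E2 d) = ∑ i, a i • ((0, eb i) : E2 d) := by
    refine Prod.ext ?_ ?_
    · rw [Prod.fst_sum]
      simp
    · rw [Prod.snd_sum]
      exact eq_sum a
  rw [h1, map_sum, PiLp.inner_apply]
  refine Finset.sum_congr rfl fun i _ => ?_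
  rw [map_smul, Fz_apply, sum_coord]
  simp

theorem Fx_dil (T : E2 d →L[ℝ] ℝ) (ρ : ℝ) : Fx d (T.comp (dil d ρ)) = Fx d T := by
  rw [Fx_apply, Fx_apply]
  refine Finset.sum_congr rfl fun i _ => ?_
  have e : dil d ρ ((eb i, 0) : E2 d) = (eb i, 0) := by simp [dil]
  rw [ContinuousLinearMap.comp_apply, e]

theorem Fz_dil (T : E2 d →L[ℝ] ℝ) (ρ : ℝ) : Fz d (T.comp (dil d ρ)) = ρ • Fz d T := by
  rw [Fz_apply, Fz_apply, Finset.smul_sum]
  refine Finset.sum_congr rfl fun i _ => ?_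
  have e : dil d ρ ((0, eb i) : E2 d) = ρ • (0, eb i) := by simp [dil]
  rw [ContinuousLinearMap.comp_apply, e, map_smul, smul_smul, smul_eq_mul]

theorem Fx_kjac (T : E2 d →L[ℝ] ℝ) (L : E2 d →L[ℝ] E d) (ε : ℝ) :
    Fx d (T.comp (kjac ε L)) =
      Fx d T - ε • ∑ i, (⟪L (eb i, 0), Fx d T + Fz d T⟫ : ℝ) • (eb i : E d) := by
  rw [Fx_apply, Fx_apply, Finset.smul_sum, ← Finset.sum_sub_distrib]
  refine Finset.sum_congr rfl fun i _ => ?_
  have e : kjac ε L ((eb i, 0) : E2 d) =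
      ((eb i, 0) : E2 d) - ε • ((L (eb i, 0), 0) + (0, L (eb i, 0))) := by
    simp [kjac]
  rw [ContinuousLinearMap.comp_apply, e, map_sub, map_smul, map_add, inner_Fx T (L (eb i, 0)),
    inner_Fz T (L (eb i, 0)), ← inner_add_left, real_inner_comm, ← Fx_apply, sub_smul, smul_smul,
    smul_eq_mul]

theorem Fz_kjac (T : E2 d →L[ℝ] ℝ) (L : E2 d →L[ℝ] E d) (ε : ℝ) :
    Fz d (T.comp (kjac ε L)) = ((2 : ℝ) • Fx d T + Fz d T) -
      ε • ∑ i, (⟪L (0, eb i), Fx d T + Fz d T⟫ : ℝ) • (eb i : E d) := by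
  have h2 : (2 : ℝ) • Fx d T + Fz d T = ∑ i, (2 * T (eb i, 0) + T (0, eb i)) • (eb i : E d) := by
    rw [Fx_apply, Fz_apply, Finset.smul_sum, ← Finset.sum_add_distrib]
    refine Finset.sum_congr rfl fun i _ => ?_
    rw [add_smul, smul_smul]
  rw [Fz_apply, h2, Finset.smul_sum, ← Finset.sum_sub_distrib]
  refine Finset.sum_congr rfl fun i _ => ?_
  have e : kjac ε L ((0, eb i) : E2 d) = (2 : ℝ) • ((eb i, 0) : E2 d) + (0, eb i) -
      ε • ((L (0, eb i), 0) + (0, L (0, eb i))) := by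
    simp [kjac]
  rw [ContinuousLinearMap.comp_apply, e, map_sub, map_smul, map_add, map_add, map_smul,
    inner_Fx T (L (0, eb i)),
    inner_Fz T (L (0, eb i)), ← inner_add_left, real_inner_comm, sub_smul, smul_smul,
    smul_eq_mul, smul_eq_mul]

end KGradAux

open KGradAux

section duhamel
variable {d : ℕ} {κ : Type} [Fintype κ] {F : E2 d → (κ → E d) → E d} {h : ℝ}

theorem gx_cont {u : E2 d → ℝ} (hu : Nice u) : Continuous (gx u) := by
  have h1 : Continuous (fderiv ℝ u) := hu.smooth.continuous_fderiv (by norm_num)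
  have e : gx u = fun s => Fx d (fderiv ℝ u s) := by
    funext s
    exact gx_eq u s
  rw [e]
  exact (Fx d).continuous.comp h1

theorem gz_cont {u : E2 d → ℝ} (hu : Nice u) : Continuous (gz u) := by
  have h1 : Continuous (fderiv ℝ u) := hu.smooth.continuous_fderiv (by norm_num)
  have e : gz u = fun s => Fz d (fderiv ℝ u s) := by
    funext s
    exact gz_eq u s
  rw [e]
  exact (Fz d).continuous.comp h1

theorem gx_norm {u : E2 d → ℝ} (s : E2 d) : ‖gx u s‖ ^ 2 = hx (fderiv ℝ u s) := by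
  unfold gx hx
  rw [norm_sum_sq]
  refine Finset.sum_congr rfl fun i _ => ?_
  rw [Real.norm_eq_abs, sq_abs]

theorem gz_norm {u : E2 d → ℝ} (s : E2 d) : ‖gz u s‖ ^ 2 = hz (fderiv ℝ u s) := by
  unfold gz hz
  rw [norm_sum_sq]
  refine Finset.sum_congr rfl fun i _ => ?_
  rw [Real.norm_eq_abs, sq_abs]

namespace KGradAux

variable {ε σ ρ r : ℝ}

theorem gx_bd {u : E2 d → ℝ} (hu : Nice u) : ∃ C, ∀ s, ‖gx u s‖ ≤ C := by
  obtain ⟨D, hD⟩ := hu.dbd
  refine ⟨‖Fx d‖ * D, fun s => ?_⟩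
  rw [gx_eq]
  exact ((Fx d).le_opNorm _).trans (mul_le_mul_of_nonneg_left (hD s) (norm_nonneg _))

theorem gz_bd {u : E2 d → ℝ} (hu : Nice u) : ∃ C, ∀ s, ‖gz u s‖ ≤ C := by
  obtain ⟨D, hD⟩ := hu.dbd
  refine ⟨‖Fz d‖ * D, fun s => ?_⟩
  rw [gz_eq]
  exact ((Fz d).le_opNorm _).trans (mul_le_mul_of_nonneg_left (hD s) (norm_nonneg _))

/-- the translation in the noise step -/
theorem cont_shift (σ ρ r : ℝ) (s : E2 d) :
    Continuous fun q : E d × E d => ((s.1 + σ • q.1, ρ • s.2 + r • q.2) : E2 d) := by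
  fun_prop

theorem integrable_shift {β : Type*} [NormedAddCommGroup β] {f : E2 d → β}
    (hm : StronglyMeasurable f) {C : ℝ} (hC : ∀ s, ‖f s‖ ≤ C) (s : E2 d) :
    Integrable (fun q : E d × E d => f (s.1 + σ • q.1, ρ • s.2 + r • q.2))
      ((gam d).prod (gam d)) :=
  (integrable_const C).mono' (hm.comp_measurable (cont_shift σ ρ r s).measurable).aestronglyMeasurable
    (Filter.Eventually.of_forall fun q => hC _)

/-- linearity of the noise operator -/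
theorem opN_sub_smul {β : Type*} [NormedAddCommGroup β] [NormedSpace ℝ β] {f g : E2 d → β}
    (hf : StronglyMeasurable f) {C : ℝ} (hC : ∀ s, ‖f s‖ ≤ C) (hg : StronglyMeasurable g)
    {B : ℝ} (hB : ∀ s, ‖g s‖ ≤ B) (c : ℝ) (s : E2 d) :
    opN σ ρ r (fun s => f s - c • g s) s = opN σ ρ r f s - c • opN σ ρ r g s := by
  unfold opN
  have h1 := integrable_shift (σ := σ) (ρ := ρ) (r := r) hf hC s
  have h2 := integrable_shift (σ := σ) (ρ := ρ) (r := r) hg hB s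
  have e : ∫ q : E d × E d, (f (s.1 + σ • q.1, ρ • s.2 + r • q.2) -
      c • g (s.1 + σ • q.1, ρ • s.2 + r • q.2)) ∂(gam d).prod (gam d) =
      ∫ q : E d × E d, f (s.1 + σ • q.1, ρ • s.2 + r • q.2) ∂(gam d).prod (gam d) -
      ∫ q : E d × E d, c • g (s.1 + σ • q.1, ρ • s.2 + r • q.2) ∂(gam d).prod (gam d) :=
    integral_sub h1 (h2.smul c)
  rw [e, integral_smul]

theorem gx_opN (hσ : 0 < σ) (hρ : 0 < ρ) (hr : 0 < r) {w : E2 d → ℝ} (hw : Nice w) :
    gx (opN σ ρ r w) = opN σ ρ r (gx w) := by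
  obtain ⟨D, hD⟩ := hw.dbd
  have hcd : Continuous (fderiv ℝ w) := hw.smooth.continuous_fderiv (by norm_num)
  funext s
  rw [gx_eq, opN_fderiv hσ hρ hr hw]
  have hc : Continuous fun s' : E2 d => (fderiv ℝ w s').comp (dil d ρ) :=
    hcd.clm_comp continuous_const
  have hi := integrable_shift (σ := σ) (ρ := ρ) (r := r) hc.stronglyMeasurable
    (C := D * ‖dil d ρ‖) (fun s => (ContinuousLinearMap.opNorm_comp_le _ _).trans
      (mul_le_mul_of_nonneg_right (hD s) (norm_nonneg _))) s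
  unfold opN
  rw [← (Fx d).integral_comp_comm hi]
  refine integral_congr_ae (Filter.Eventually.of_forall fun q => ?_)
  show Fx d _ = gx w _
  rw [Fx_dil, gx_eq]

theorem gz_opN (hσ : 0 < σ) (hρ : 0 < ρ) (hr : 0 < r) {w : E2 d → ℝ} (hw : Nice w) :
    gz (opN σ ρ r w) = ρ • opN σ ρ r (gz w) := by
  obtain ⟨D, hD⟩ := hw.dbd
  have hcd : Continuous (fderiv ℝ w) := hw.smooth.continuous_fderiv (by norm_num)
  funext s
  rw [gz_eq, opN_fderiv hσ hρ hr hw]
  have hc : Continuous fun s' : E2 d => (fderiv ℝ w s').comp (dil d ρ) :=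
    hcd.clm_comp continuous_const
  have hi := integrable_shift (σ := σ) (ρ := ρ) (r := r) hc.stronglyMeasurable
    (C := D * ‖dil d ρ‖) (fun s => (ContinuousLinearMap.opNorm_comp_le _ _).trans
      (mul_le_mul_of_nonneg_right (hD s) (norm_nonneg _))) s
  rw [Pi.smul_apply]
  unfold opN
  rw [← (Fz d).integral_comp_comm hi, ← integral_smul]
  refine integral_congr_ae (Filter.Eventually.of_forall fun q => ?_)
  show Fz d _ = ρ • gz w _
  rw [Fz_dil, gz_eq]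

/-- the inner part of `opAx` -/
noncomputable def Ax (F : E2 d → (κ → E d) → E d) (ε : ℝ) (q : E2 d → E d) (s : E2 d) : E d :=
  ∫ ω, ∑ i, ⟪fderiv ℝ (fun s => F s ω) s (eb i, 0), q (kmap F ε s ω)⟫ • (eb i : E d) ∂gamPi d κ

/-- the inner part of `opAz` -/
noncomputable def Az (F : E2 d → (κ → E d) → E d) (ε : ℝ) (q : E2 d → E d) (s : E2 d) : E d :=
  ∫ ω, ∑ i, ⟪fderiv ℝ (fun s => F s ω) s (0, eb i), q (kmap F ε s ω)⟫ • (eb i : E d) ∂gamPi d κ

theorem cont_Ax_integrand (hF : Force κ F) (ε : ℝ) {q : E2 d → E d} (hq : Continuous q)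
    (u : Fin d → E2 d) :
    Continuous fun p : E2 d × (κ → E d) =>
      ∑ i, ⟪fderiv ℝ (fun s => F s p.2) p.1 (u i), q (kmap F ε p.1 p.2)⟫ • (eb i : E d) := by
  have h1 := force_fderiv_cont hF
  have h2 := hq.comp (KMapAux.cont_kmap hF ε)
  refine continuous_finsetSum _ fun i _ => ?_
  have h3 : Continuous fun p : E2 d × (κ → E d) =>
      (⟪fderiv ℝ (fun s => F s p.2) p.1 (u i), q (kmap F ε p.1 p.2)⟫ : ℝ) :=
    (h1.clm_apply continuous_const).inner h2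
  exact h3.smul continuous_const

theorem bd_Ax_integrand (hF : Force κ F) (ε : ℝ) {q : E2 d → E d} {Q : ℝ}
    (hQ : ∀ s, ‖q s‖ ≤ Q) (u : Fin d → E2 d) (s : E2 d) (ω : κ → E d) :
    ‖∑ i, (⟪fderiv ℝ (fun s => F s ω) s (u i), q (kmap F ε s ω)⟫ : ℝ) • (eb i : E d)‖ ≤
      ∑ i, 16 * ‖u i‖ * Q := by
  refine (norm_sum_le _ _).trans (Finset.sum_le_sum fun i _ => ?_)
  have heb : ‖(eb i : E d)‖ = 1 := by simp [eb]
  rw [norm_smul, heb, mul_one]
  refine (norm_inner_le_norm _ _).trans ?_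
  refine mul_le_mul ?_ (hQ _) (norm_nonneg _) (by positivity)
  refine ((fderiv ℝ (fun s => F s ω) s).le_opNorm _).trans ?_
  exact mul_le_mul_of_nonneg_right (KMapAux.norm_fderiv_le hF s ω) (norm_nonneg _)

theorem int_sub_smul {α : Type*} [MeasurableSpace α] {μ : Measure α} {f g : α → E d}
    (hf : Integrable f μ) (hg : Integrable g μ) (c : ℝ) :
    ∫ ω, (f ω - c • g ω) ∂μ = ∫ ω, f ω ∂μ - c • ∫ ω, g ω ∂μ := by
  have h1 : ∫ ω, (f ω - c • g ω) ∂μ = ∫ ω, f ω ∂μ - ∫ ω, c • g ω ∂μ :=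
    integral_sub hf (hg.smul c)
  rw [h1, integral_smul]

theorem int_T (hF : Force κ F) (h0 : 0 ≤ ε) (h1 : ε ≤ 1) {u : E2 d → ℝ} (hu : Nice u)
    (s : E2 d) : Integrable (fun ω =>
      (fderiv ℝ u (kmap F ε s ω)).comp (kjac ε (fderiv ℝ (fun s => F s ω) s))) (gamPi d κ) := by
  obtain ⟨D, hD⟩ := hu.dbd
  have hD0 : 0 ≤ D := (norm_nonneg _).trans (hD 0)
  have hcd : Continuous (fderiv ℝ u) := hu.smooth.continuous_fderiv (by norm_num)
  have hck := KMapAux.cont_kmap hF ε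
  have hpair : Continuous fun ω : κ → E d => (s, ω) := by fun_prop
  have hA : Continuous fun ω : κ → E d => fderiv ℝ u (kmap F ε s ω) :=
    hcd.comp (hck.comp hpair)
  have hB : Continuous fun ω : κ → E d => kjac ε (fderiv ℝ (fun s => F s ω) s) :=
    (KMapAux.cont_kjac ε).comp ((force_fderiv_cont hF).comp hpair)
  refine KMapAux.integrable_of_bd (hA.clm_comp hB) (C := D * 19) fun ω => ?_
  exact (ContinuousLinearMap.opNorm_comp_le _ _).trans (mul_le_mul (hD _)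
    (KMapAux.norm_kjac_le h0 h1 (KMapAux.norm_fderiv_le hF s ω)) (norm_nonneg _) hD0)

theorem int_g (hF : Force κ F) (ε : ℝ) {q : E2 d → E d} (hq : Continuous q) {Q : ℝ}
    (hQ : ∀ s, ‖q s‖ ≤ Q) (u : Fin d → E2 d) (s : E2 d) :
    Integrable (fun ω => ∑ i, (⟪fderiv ℝ (fun s => F s ω) s (u i), q (kmap F ε s ω)⟫ : ℝ) •
      (eb i : E d)) (gamPi d κ) := by
  have hpair : Continuous fun ω : κ → E d => (s, ω) := by fun_prop
  have hk : Continuous fun ω : κ → E d => q (kmap F ε s ω) :=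
    hq.comp ((KMapAux.cont_kmap hF ε).comp hpair)
  have hf : Continuous fun ω : κ → E d => fderiv ℝ (fun s => F s ω) s :=
    (force_fderiv_cont hF).comp hpair
  have hA : Continuous fun ω : κ → E d =>
      ∑ i, (⟪fderiv ℝ (fun s => F s ω) s (u i), q (kmap F ε s ω)⟫ : ℝ) • (eb i : E d) := by
    refine continuous_finsetSum _ fun i _ => ?_
    have h3 : Continuous fun ω : κ → E d =>
        (⟪fderiv ℝ (fun s => F s ω) s (u i), q (kmap F ε s ω)⟫ : ℝ) :=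
      (hf.clm_apply continuous_const).inner hk
    exact h3.smul continuous_const
  exact KMapAux.integrable_of_bd hA (bd_Ax_integrand hF ε hQ u s)

theorem int_q (hF : Force κ F) (ε : ℝ) {q : E2 d → E d} (hq : Continuous q) {Q : ℝ}
    (hQ : ∀ s, ‖q s‖ ≤ Q) (s : E2 d) :
    Integrable (fun ω => q (kmap F ε s ω)) (gamPi d κ) := by
  have hpair : Continuous fun ω : κ → E d => (s, ω) := by fun_prop
  have hk : Continuous fun ω : κ → E d => kmap F ε s ω := (KMapAux.cont_kmap hF ε).comp hpair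
  have hA : Continuous fun ω : κ → E d => q (kmap F ε s ω) := hq.comp hk
  exact KMapAux.integrable_of_bd hA fun ω => hQ (kmap F ε s ω)

theorem cont_add {u : E2 d → ℝ} (hu : Nice u) : Continuous fun s => gx u s + gz u s :=
  (gx_cont hu).add (gz_cont hu)

theorem cont_two {u : E2 d → ℝ} (hu : Nice u) :
    Continuous fun s => (2 : ℝ) • gx u s + gz u s :=
  (Continuous.const_smul (gx_cont hu) (2 : ℝ)).add (gz_cont hu)

theorem bd_add {u : E2 d → ℝ} (hu : Nice u) : ∃ C, ∀ s, ‖gx u s + gz u s‖ ≤ C := by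
  obtain ⟨X, hX⟩ := gx_bd hu
  obtain ⟨Y, hY⟩ := gz_bd hu
  exact ⟨X + Y, fun s => (norm_add_le _ _).trans (add_le_add (hX s) (hY s))⟩

theorem bd_two {u : E2 d → ℝ} (hu : Nice u) : ∃ C, ∀ s, ‖(2 : ℝ) • gx u s + gz u s‖ ≤ C := by
  obtain ⟨X, hX⟩ := gx_bd hu
  obtain ⟨Y, hY⟩ := gz_bd hu
  refine ⟨2 * X + Y, fun s => (norm_add_le _ _).trans (add_le_add ?_ (hY s))⟩
  rw [norm_smul, Real.norm_of_nonneg (by norm_num : (0 : ℝ) ≤ 2)]
  exact mul_le_mul_of_nonneg_left (hX _) (by norm_num)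

theorem gx_opM (hF : Force κ F) (h0 : 0 ≤ ε) (h1 : ε ≤ 1) {u : E2 d → ℝ} (hu : Nice u)
    (s : E2 d) : gx (opM F ε u) s =
      opM F ε (gx u) s - ε • Ax F ε (fun s => gx u s + gz u s) s := by
  obtain ⟨X, hX⟩ := gx_bd hu
  obtain ⟨Y, hY⟩ := bd_add hu
  have i1 := int_q hF ε (gx_cont hu) hX s
  have i2 := int_g hF ε (cont_add hu) hY (fun i => ((eb i, 0) : E2 d)) s
  rw [gx_eq, opM_fderiv hF h0 h1 hu, ← (Fx d).integral_comp_comm (int_T hF h0 h1 hu s)]
  unfold opM Ax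
  rw [← int_sub_smul i1 i2 ε]
  refine integral_congr_ae (Filter.Eventually.of_forall fun ω => ?_)
  simp only [Fx_kjac, ← gx_eq, ← gz_eq]

theorem gz_opM (hF : Force κ F) (h0 : 0 ≤ ε) (h1 : ε ≤ 1) {u : E2 d → ℝ} (hu : Nice u)
    (s : E2 d) : gz (opM F ε u) s = opM F ε (fun s => (2 : ℝ) • gx u s + gz u s) s -
      ε • Az F ε (fun s => gx u s + gz u s) s := by
  obtain ⟨X, hX⟩ := bd_two hu
  obtain ⟨Y, hY⟩ := bd_add hu
  have i1 := int_q hF ε (cont_two hu) hX s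
  have i2 := int_g hF ε (cont_add hu) hY (fun i => ((0, eb i) : E2 d)) s
  rw [gz_eq, opM_fderiv hF h0 h1 hu, ← (Fz d).integral_comp_comm (int_T hF h0 h1 hu s)]
  unfold opM Az
  rw [← int_sub_smul i1 i2 ε]
  refine integral_congr_ae (Filter.Eventually.of_forall fun ω => ?_)
  simp only [Fz_kjac, ← gx_eq, ← gz_eq]

theorem sm_Ax (hF : Force κ F) (ε : ℝ) {q : E2 d → E d} (hq : Continuous q) :
    StronglyMeasurable (Ax F ε q) :=
  (cont_Ax_integrand hF ε hq (fun i => (eb i, 0))).stronglyMeasurable.integral_prod_right'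

theorem sm_Az (hF : Force κ F) (ε : ℝ) {q : E2 d → E d} (hq : Continuous q) :
    StronglyMeasurable (Az F ε q) :=
  (cont_Ax_integrand hF ε hq (fun i => (0, eb i))).stronglyMeasurable.integral_prod_right'

theorem bd_Ax (hF : Force κ F) (ε : ℝ) {q : E2 d → E d} {Q : ℝ} (hQ : ∀ s, ‖q s‖ ≤ Q) :
    ∃ C, ∀ s, ‖Ax F ε q s‖ ≤ C := by
  refine ⟨∑ i : Fin d, 16 * ‖((eb i, 0) : E2 d)‖ * Q, fun s => ?_⟩
  have h := norm_integral_le_of_norm_le_const (μ := gamPi d κ)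
    (Filter.Eventually.of_forall (bd_Ax_integrand hF ε hQ (fun i => (eb i, 0)) s))
  rw [probReal_univ, mul_one] at h
  exact h

theorem bd_Az (hF : Force κ F) (ε : ℝ) {q : E2 d → E d} {Q : ℝ} (hQ : ∀ s, ‖q s‖ ≤ Q) :
    ∃ C, ∀ s, ‖Az F ε q s‖ ≤ C := by
  refine ⟨∑ i : Fin d, 16 * ‖((0, eb i) : E2 d)‖ * Q, fun s => ?_⟩
  have h := norm_integral_le_of_norm_le_const (μ := gamPi d κ)
    (Filter.Eventually.of_forall (bd_Ax_integrand hF ε hQ (fun i => (0, eb i)) s))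
  rw [probReal_univ, mul_one] at h
  exact h

end KGradAux

theorem gx_opT (hF : Force κ F) (h0 : 0 < h) (h1 : h ≤ 1 / 16) {u : E2 d → ℝ} (hu : Nice u) :
    gx (opT F h u) = opT F h (gx u) - h ^ 2 • opAx F h (gx u + gz u) := by
  have hε0 : 0 ≤ h ^ 2 := by positivity
  have hε1 : h ^ 2 ≤ 1 := by nlinarith
  have hσ : 0 < h ^ 2 := by positivity
  have hρ : 0 < Real.sqrt (1 - 8 * h) := Real.sqrt_pos.mpr (by linarith)
  have hr : 0 < Real.sqrt (8 * h) := Real.sqrt_pos.mpr (by positivity)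
  obtain ⟨X, hX⟩ := gx_bd hu
  obtain ⟨Y, hY⟩ := bd_add hu
  obtain ⟨B, hB⟩ := bd_Ax hF (h ^ 2) hY
  have hgx := (gx_cont hu).stronglyMeasurable
  show gx (opN (h ^ 2) (Real.sqrt (1 - 8 * h)) (Real.sqrt (8 * h)) (opM F (h ^ 2) u)) = _
  rw [gx_opN hσ hρ hr (opM_nice hF hε0 hε1 hu)]
  have e : gx (opM F (h ^ 2) u) =
      fun s => opM F (h ^ 2) (gx u) s - h ^ 2 • Ax F (h ^ 2) (fun s => gx u s + gz u s) s := by
    funext s
    exact gx_opM hF hε0 hε1 hu s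
  rw [e]
  funext s
  rw [opN_sub_smul (opM_stronglyMeasurable hF hgx) (opM_norm_le hX)
    (sm_Ax hF _ (cont_add hu)) hB]
  rfl

theorem gz_opT (hF : Force κ F) (h0 : 0 < h) (h1 : h ≤ 1 / 16) {u : E2 d → ℝ} (hu : Nice u) :
    gz (opT F h u) = Real.sqrt (1 - 8 * h) • (opT F h ((2 : ℝ) • gx u + gz u) -
      h ^ 2 • opAz F h (gx u + gz u)) := by
  have hε0 : 0 ≤ h ^ 2 := by positivity
  have hε1 : h ^ 2 ≤ 1 := by nlinarith
  have hσ : 0 < h ^ 2 := by positivity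
  have hρ : 0 < Real.sqrt (1 - 8 * h) := Real.sqrt_pos.mpr (by linarith)
  have hr : 0 < Real.sqrt (8 * h) := Real.sqrt_pos.mpr (by positivity)
  obtain ⟨X, hX⟩ := bd_two hu
  obtain ⟨Y, hY⟩ := bd_add hu
  obtain ⟨B, hB⟩ := bd_Az hF (h ^ 2) hY
  show gz (opN (h ^ 2) (Real.sqrt (1 - 8 * h)) (Real.sqrt (8 * h)) (opM F (h ^ 2) u)) = _
  rw [gz_opN hσ hρ hr (opM_nice hF hε0 hε1 hu)]
  have e : gz (opM F (h ^ 2) u) = fun s =>
      opM F (h ^ 2) (fun s => (2 : ℝ) • gx u s + gz u s) s -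
      h ^ 2 • Az F (h ^ 2) (fun s => gx u s + gz u s) s := by
    funext s
    exact gz_opM hF hε0 hε1 hu s
  rw [e]
  congr 1
  funext s
  rw [opN_sub_smul (opM_stronglyMeasurable hF (cont_two hu).stronglyMeasurable) (opM_norm_le hX)
    (sm_Az hF _ (cont_add hu)) hB]
  rfl

end duhamel

end Vale.Agent.P347
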