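import Vale.Agent.P347.GibbsBasic
import Vale.Agent.P347.Mehler
import Vale.Agent.P347.IBP
import Vale.Agent.P347.DefsC

/-!
# P347, C'1: additive Gaussian noise on phase space
-/

open MeasureTheory ProbabilityTheory
open scoped ENNReal NNReal RealInnerProductSpace

namespace Vale.Agent.P347

namespace KN

section one

variable {d : ℕ}

theorem int_exp_norm (c : ℝ) : Integrable (fun x : E d => Real.exp (c * ‖x‖)) (gam d) := by
  have hint : Integrable (fun x : E d => Real.exp (-(‖x‖ ^ 2 / 2))) := by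
    refine (GibbsAux.gauss_int (d := d) (b := 1 / 2) (by norm_num)).congr (ae_of_all _ fun x => ?_)
    simp only
    congr 1
    ring
  rw [gam_eq_gibbs, gibbs, integrable_tilted_iff hint]
  refine Integrable.mono' ((GibbsAux.gauss_int (d := d) (b := 1 / 4) (by norm_num)).const_mul
    (Real.exp (c ^ 2))) (Continuous.aestronglyMeasurable (by fun_prop)) (ae_of_all _ fun x => ?_)
  rw [norm_smul, Real.norm_of_nonneg (Real.exp_pos _).le, Real.norm_of_nonneg (Real.exp_pos _).le,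
    ← Real.exp_add, ← Real.exp_add]
  apply Real.exp_le_exp.2
  nlinarith [sq_nonneg (c - ‖x‖ / 2)]

theorem shift_int (a : E d) {F : Type*} [NormedAddCommGroup F] [NormedSpace ℝ F] (f : E d → F) :
    ∫ q, f (q + a) ∂gam d = ∫ q, Real.exp (⟪a, q⟫ - ‖a‖ ^ 2 / 2) • f q ∂gam d := by
  rw [gam_eq_gibbs, gibbs_integral, gibbs_integral]
  congr 1
  rw [← integral_add_right_eq_self (μ := volume)
    (fun q : E d => Real.exp (-(‖q‖ ^ 2 / 2)) • Real.exp (⟪a, q⟫ - ‖a‖ ^ 2 / 2) • f q) a]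
  refine integral_congr_ae (ae_of_all _ fun q => ?_)
  simp only
  rw [smul_smul, ← Real.exp_add]
  congr 2
  have h1 := norm_add_sq_real q a
  have h2 : (⟪a, q + a⟫ : ℝ) = ⟪q, a⟫ + ‖a‖ ^ 2 := by
    rw [inner_add_right, real_inner_self_eq_norm_sq, real_inner_comm]
  rw [h2]
  linarith

theorem exp_integrable (a : E d) :
    Integrable (fun q : E d => Real.exp (⟪a, q⟫ - ‖a‖ ^ 2 / 2)) (gam d) := by
  refine Integrable.mono' (int_exp_norm ‖a‖) (Continuous.aestronglyMeasurable (by fun_prop))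
    (ae_of_all _ fun q => ?_)
  rw [Real.norm_of_nonneg (Real.exp_pos _).le]
  apply Real.exp_le_exp.2
  have h1 := real_inner_le_norm a q
  nlinarith [sq_nonneg ‖a‖]

theorem shift_meas (a : E d) : (gam d).map (fun q => q + a) =
    (gam d).withDensity (fun q => ENNReal.ofReal (Real.exp (⟪a, q⟫ - ‖a‖ ^ 2 / 2))) := by
  ext s hs
  rw [Measure.map_apply (by fun_prop) hs, withDensity_apply _ hs]
  have h1 := shift_int a (s.indicator (fun _ => (1 : ℝ)))
  have h2 : ∫ q, s.indicator (fun _ => (1 : ℝ)) (q + a) ∂gam d =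
      (gam d).real ((fun q => q + a) ⁻¹' s) := by
    have : (fun q : E d => s.indicator (fun _ => (1 : ℝ)) (q + a)) =
        ((fun q => q + a) ⁻¹' s).indicator (fun _ => (1 : ℝ)) := by
      funext q
      by_cases h : q + a ∈ s <;> simp [h]
    rw [this, integral_indicator_const _ (hs.preimage (by fun_prop))]
    simp
  have h3 : ∫ q, Real.exp (⟪a, q⟫ - ‖a‖ ^ 2 / 2) • s.indicator (fun _ => (1 : ℝ)) q ∂gam d =
      ∫ q in s, Real.exp (⟪a, q⟫ - ‖a‖ ^ 2 / 2) ∂gam d := by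
    rw [← integral_indicator hs]
    refine integral_congr_ae (ae_of_all _ fun q => ?_)
    by_cases hq : q ∈ s <;> simp [hq]
  rw [h2, h3] at h1
  rw [← ofReal_integral_eq_lintegral_ofReal (exp_integrable a).integrableOn
    (ae_of_all _ fun q => (Real.exp_pos _).le), ← h1, ofReal_measureReal]

/-- the exponent -/
noncomputable def gq (s q : E2 d) : ℝ :=
  (⟪s.1, q.1⟫ - ‖s.1‖ ^ 2 / 2) + (⟪s.2, q.2⟫ - ‖s.2‖ ^ 2 / 2)

theorem shift_prod (a : E2 d) {F : Type*} [NormedAddCommGroup F] [NormedSpace ℝ F]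
    (f : E2 d → F) : ∫ q, f (q + a) ∂(gam d).prod (gam d) =
      ∫ q, Real.exp (gq a q) • f q ∂(gam d).prod (gam d) := by
  have h1 : ((gam d).prod (gam d)).map (fun q => q + a) = ((gam d).prod (gam d)).withDensity
      (fun q => ENNReal.ofReal (Real.exp (gq a q))) := by
    have e1 : (fun q : E2 d => q + a) = Prod.map (fun q => q + a.1) (fun q => q + a.2) := by
      funext q
      rfl
    rw [e1, ← Measure.map_prod_map _ _ (by fun_prop) (by fun_prop), shift_meas, shift_meas,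
      prod_withDensity (by fun_prop) (by fun_prop)]
    congr 1
    funext q
    rw [← ENNReal.ofReal_mul (Real.exp_pos _).le, ← Real.exp_add]
    rfl
  have h2 := (Homeomorph.addRight a).measurableEmbedding.integral_map
    (μ := (gam d).prod (gam d)) f
  have h3 : (Homeomorph.addRight a : E2 d → E2 d) = fun q => q + a := rfl
  rw [h3] at h2
  rw [← h2, h1, integral_withDensity_eq_integral_toReal_smul]
  · refine integral_congr_ae (ae_of_all _ fun q => ?_)
    simp only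
    rw [ENNReal.toReal_ofReal (Real.exp_pos _).le]
  · unfold gq
    fun_prop
  · exact ae_of_all _ fun q => ENNReal.ofReal_lt_top

/-- the derivative of the exponent -/
noncomputable def gD (s q : E2 d) : E2 d →L[ℝ] ℝ :=
  (innerSL ℝ (q.1 - s.1)).comp (ContinuousLinearMap.fst ℝ (E d) (E d)) +
    (innerSL ℝ (q.2 - s.2)).comp (ContinuousLinearMap.snd ℝ (E d) (E d))

theorem gD_apply (s q t : E2 d) : gD s q t = ⟪q.1 - s.1, t.1⟫ + ⟪q.2 - s.2, t.2⟫ := rfl

theorem gq_has (s q : E2 d) : HasFDerivAt (fun s => gq s q) (gD s q) s := by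
  have h1 : HasFDerivAt (fun s : E2 d => (⟪s.1, q.1⟫ : ℝ))
      ((innerSL ℝ q.1).comp (ContinuousLinearMap.fst ℝ (E d) (E d))) s := by
    have := ((innerSL ℝ q.1).comp (ContinuousLinearMap.fst ℝ (E d) (E d))).hasFDerivAt (x := s)
    refine this.congr_of_eventuallyEq (Filter.Eventually.of_forall fun t => ?_)
    simp [real_inner_comm]
  have h2 : HasFDerivAt (fun s : E2 d => (⟪s.2, q.2⟫ : ℝ))
      ((innerSL ℝ q.2).comp (ContinuousLinearMap.snd ℝ (E d) (E d))) s := by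
    have := ((innerSL ℝ q.2).comp (ContinuousLinearMap.snd ℝ (E d) (E d))).hasFDerivAt (x := s)
    refine this.congr_of_eventuallyEq (Filter.Eventually.of_forall fun t => ?_)
    simp [real_inner_comm]
  have h3 : HasFDerivAt (fun s : E2 d => ‖s.1‖ ^ 2)
      (2 • (innerSL ℝ s.1).comp (ContinuousLinearMap.fst ℝ (E d) (E d))) s :=
    hasFDerivAt_fst.norm_sq
  have h4 : HasFDerivAt (fun s : E2 d => ‖s.2‖ ^ 2)
      (2 • (innerSL ℝ s.2).comp (ContinuousLinearMap.snd ℝ (E d) (E d))) s :=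
    hasFDerivAt_snd.norm_sq
  have h5 := (h1.sub (h3.const_mul (1 / 2 : ℝ))).add (h2.sub (h4.const_mul (1 / 2 : ℝ)))
  refine (h5.congr_fderiv ?_).congr_of_eventuallyEq (Filter.Eventually.of_forall fun t => ?_)
  · refine ContinuousLinearMap.ext fun t => ?_
    rw [gD_apply]
    simp [inner_sub_left]
  · simp only [gq, Pi.add_apply, Pi.sub_apply]
    ring

theorem gq_cont : Continuous fun p : E2 d × E2 d => gq p.1 p.2 := by
  unfold gq
  fun_prop

theorem gD_cont : Continuous fun p : E2 d × E2 d => gD p.1 p.2 := by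
  unfold gD
  fun_prop

theorem gD_cont_right (s : E2 d) : Continuous fun q : E2 d => gD s q := by
  unfold gD
  fun_prop

/-- dominating function -/
noncomputable def dom (R : ℝ) (q : E2 d) : ℝ :=
  Real.exp (2 * R) * (Real.exp ((R + 1) * ‖q.1‖) * Real.exp ((R + 1) * ‖q.2‖))

theorem dom_int (R : ℝ) : Integrable (dom (d := d) R) ((gam d).prod (gam d)) :=
  ((int_exp_norm (R + 1)).mul_prod (int_exp_norm (R + 1))).const_mul _

theorem gq_le {R : ℝ} {s : E2 d} (hs : ‖s‖ ≤ R) (q : E2 d) :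
    gq s q ≤ R * ‖q.1‖ + R * ‖q.2‖ := by
  have h1 := real_inner_le_norm s.1 q.1
  have h2 := real_inner_le_norm s.2 q.2
  have h3 : ‖s.1‖ ≤ R := (norm_fst_le s).trans hs
  have h4 : ‖s.2‖ ≤ R := (norm_snd_le s).trans hs
  have h5 := mul_le_mul_of_nonneg_right h3 (norm_nonneg q.1)
  have h6 := mul_le_mul_of_nonneg_right h4 (norm_nonneg q.2)
  unfold gq
  nlinarith [sq_nonneg ‖s.1‖, sq_nonneg ‖s.2‖]

theorem gD_norm {R : ℝ} {s : E2 d} (hs : ‖s‖ ≤ R) (q : E2 d) :
    ‖gD s q‖ ≤ ‖q.1‖ + ‖q.2‖ + 2 * R := by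
  have h3 : ‖s.1‖ ≤ R := (norm_fst_le s).trans hs
  have h4 : ‖s.2‖ ≤ R := (norm_snd_le s).trans hs
  have hR : 0 ≤ R := (norm_nonneg _).trans hs
  refine ContinuousLinearMap.opNorm_le_bound _ (by positivity) fun t => ?_
  rw [gD_apply]
  refine (norm_add_le _ _).trans ?_
  have e1 := norm_inner_le_norm (𝕜 := ℝ) (q.1 - s.1) t.1
  have e2 := norm_inner_le_norm (𝕜 := ℝ) (q.2 - s.2) t.2
  have e3 : ‖q.1 - s.1‖ ≤ ‖q.1‖ + R := (norm_sub_le _ _).trans (by linarith)
  have e4 : ‖q.2 - s.2‖ ≤ ‖q.2‖ + R := (norm_sub_le _ _).trans (by linarith)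
  have e5 : ‖q.1 - s.1‖ * ‖t.1‖ ≤ (‖q.1‖ + R) * ‖t‖ :=
    mul_le_mul e3 (norm_fst_le t) (norm_nonneg _) (by positivity)
  have e6 : ‖q.2 - s.2‖ * ‖t.2‖ ≤ (‖q.2‖ + R) * ‖t‖ :=
    mul_le_mul e4 (norm_snd_le t) (norm_nonneg _) (by positivity)
  nlinarith

theorem le_dom {R : ℝ} {s : E2 d} (hs : ‖s‖ ≤ R) (q : E2 d) :
    Real.exp (gq s q) * ‖gD s q‖ ≤ dom R q := by
  have h1 : Real.exp (gq s q) ≤ Real.exp (R * ‖q.1‖ + R * ‖q.2‖) :=
    Real.exp_le_exp.2 (gq_le hs q)
  have h2 : ‖gD s q‖ ≤ Real.exp (‖q.1‖ + ‖q.2‖ + 2 * R) := by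
    refine (gD_norm hs q).trans ?_
    linarith [Real.add_one_le_exp (‖q.1‖ + ‖q.2‖ + 2 * R)]
  refine (mul_le_mul h1 h2 (norm_nonneg _) (Real.exp_pos _).le).trans (le_of_eq ?_)
  unfold dom
  rw [← Real.exp_add, ← Real.exp_add, ← Real.exp_add]
  congr 1
  ring

end one

section two

variable {d : ℕ} {G : Type*} [NormedAddCommGroup G] [NormedSpace ℝ G]

/-- the integrand of the derivative -/
noncomputable def dI (v : E2 d → G) (s q : E2 d) : E2 d →L[ℝ] G :=
  (Real.exp (gq s q) • gD s q).smulRight (v q)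

theorem dI_apply (v : E2 d → G) (s q t : E2 d) :
    dI v s q t = (Real.exp (gq s q) * gD s q t) • v q := rfl

theorem dI_norm {v : E2 d → G} {C : ℝ} (hv : ∀ q, ‖v q‖ ≤ C) {R : ℝ} {s : E2 d} (hs : ‖s‖ ≤ R)
    (q : E2 d) : ‖dI v s q‖ ≤ C * dom R q := by
  have hC : 0 ≤ C := (norm_nonneg _).trans (hv 0)
  unfold dI
  rw [ContinuousLinearMap.norm_smulRight_apply, norm_smul,
    Real.norm_of_nonneg (Real.exp_pos _).le]
  rw [mul_comm C]
  exact mul_le_mul (le_dom hs q) (hv q) (norm_nonneg _) (by unfold dom; positivity)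

theorem smulRight_cont {X : Type*} [NormedAddCommGroup X] [NormedSpace ℝ X] :
    Continuous fun p : (X →L[ℝ] ℝ) × G => p.1.smulRight p.2 := by
  fun_prop

theorem dI_meas {v : E2 d → G} (hm : StronglyMeasurable v) (s : E2 d) :
    StronglyMeasurable (dI v s) := by
  have hE : Continuous fun q : E2 d => Real.exp (gq s q) :=
    Real.continuous_exp.comp (gq_cont.comp (continuous_const.prodMk continuous_id))
  have hD : Continuous fun q : E2 d => gD s q := gD_cont_right s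
  have h1 : Continuous fun q : E2 d => Real.exp (gq s q) • gD s q := hE.smul hD
  have h2 : StronglyMeasurable fun q : E2 d => (Real.exp (gq s q) • gD s q, v q) :=
    h1.stronglyMeasurable.prodMk hm
  exact (smulRight_cont (G := G) (X := E2 d)).comp_stronglyMeasurable h2

theorem phi_has {v : E2 d → G} (hm : StronglyMeasurable v) {C : ℝ} (hv : ∀ q, ‖v q‖ ≤ C)
    (s0 : E2 d) : HasFDerivAt (fun s => ∫ q, Real.exp (gq s q) • v q ∂(gam d).prod (gam d))
      (∫ q, dI v s0 q ∂(gam d).prod (gam d)) s0 := by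
  have cE : ∀ s : E2 d, Continuous fun q => Real.exp (gq s q) := fun s =>
    Real.continuous_exp.comp (gq_cont.comp (continuous_const.prodMk continuous_id))
  refine hasFDerivAt_integral_of_dominated_of_fderiv_le (𝕜 := ℝ) (s := Metric.ball s0 1)
    (F := fun s q => Real.exp (gq s q) • v q) (F' := fun s q => dI v s q)
    (bound := fun q => C * dom (‖s0‖ + 1) q) (Metric.ball_mem_nhds s0 one_pos) ?_ ?_ ?_ ?_ ?_ ?_
  · exact Filter.Eventually.of_forall fun s =>
      ((cE s).stronglyMeasurable.smul hm).aestronglyMeasurable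
  · refine Integrable.mono' ((dom_int (d := d) ‖s0‖).const_mul C)
      ((cE s0).stronglyMeasurable.smul hm).aestronglyMeasurable (ae_of_all _ fun q => ?_)
    rw [norm_smul, Real.norm_of_nonneg (Real.exp_pos _).le, mul_comm]
    have h1 : Real.exp (gq s0 q) ≤ dom ‖s0‖ q := by
      unfold dom
      rw [← Real.exp_add, ← Real.exp_add]
      apply Real.exp_le_exp.2
      have := gq_le (le_refl ‖s0‖) q
      nlinarith [norm_nonneg q.1, norm_nonneg q.2, norm_nonneg s0]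
    exact mul_le_mul (hv q) h1 (Real.exp_pos _).le ((norm_nonneg _).trans (hv 0))
  · exact (dI_meas hm s0).aestronglyMeasurable
  · refine ae_of_all _ fun q s hs => ?_
    refine dI_norm hv ?_ q
    have h1 : ‖s - s0‖ < 1 := by simpa [dist_eq_norm] using hs
    have h2 := norm_add_le (s - s0) s0
    rw [sub_add_cancel] at h2
    linarith
  · exact (dom_int _).const_mul C
  · refine ae_of_all _ fun q s _ => ?_
    exact ((gq_has s q).exp).smul_const (v q)

theorem phi_cont {v : E2 d → G} (hm : StronglyMeasurable v) {C : ℝ} (hv : ∀ q, ‖v q‖ ≤ C) :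
    Continuous fun s => ∫ q, dI v s q ∂(gam d).prod (gam d) := by
  refine continuous_iff_continuousAt.2 fun s0 => ?_
  refine continuousAt_of_dominated (F := fun s q => dI v s q)
    (bound := fun q => C * dom (‖s0‖ + 1) q) ?_ ?_ ?_ ?_
  · exact Filter.Eventually.of_forall fun s => (dI_meas hm s).aestronglyMeasurable
  · filter_upwards [Metric.ball_mem_nhds s0 one_pos] with s hs
    refine ae_of_all _ fun q => dI_norm hv ?_ q
    have h1 : ‖s - s0‖ < 1 := by simpa [dist_eq_norm] using hs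
    have h2 := norm_add_le (s - s0) s0
    rw [sub_add_cancel] at h2
    linarith
  · exact (dom_int _).const_mul C
  · refine ae_of_all _ fun q => Continuous.continuousAt ?_
    exact smulRight_cont.comp (((Real.continuous_exp.comp (gq_cont.comp
      (continuous_id.prodMk continuous_const))).smul
        (gD_cont.comp (continuous_id.prodMk continuous_const))).prodMk continuous_const)

/-- the linear change of variables -/
noncomputable def lam (d : ℕ) (σ ρ r : ℝ) : E2 d →L[ℝ] E2 d :=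
  (σ⁻¹ • ContinuousLinearMap.fst ℝ (E d) (E d)).prod
    ((ρ / r) • ContinuousLinearMap.snd ℝ (E d) (E d))

theorem lam_apply (σ ρ r : ℝ) (s : E2 d) : lam d σ ρ r s = (σ⁻¹ • s.1, (ρ / r) • s.2) := rfl

theorem opN_arg {σ ρ r : ℝ} (hσ : 0 < σ) (hr : 0 < r) (s q : E2 d) :
    (s.1 + σ • q.1, ρ • s.2 + r • q.2) =
      (σ • (q + lam d σ ρ r s).1, r • (q + lam d σ ρ r s).2) := by
  rw [lam_apply]
  simp only [Prod.fst_add, Prod.snd_add, smul_add, smul_smul]
  rw [mul_inv_cancel₀ hσ.ne', one_smul, mul_div_cancel₀ _ hr.ne', add_comm s.1, add_comm (ρ • s.2)]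

theorem opN_eq {σ ρ r : ℝ} (hσ : 0 < σ) (hr : 0 < r) (v : E2 d → G) (s : E2 d) :
    opN σ ρ r v s = ∫ q, Real.exp (gq (lam d σ ρ r s) q) • v (σ • q.1, r • q.2)
      ∂(gam d).prod (gam d) := by
  unfold opN
  rw [← shift_prod (lam d σ ρ r s) (fun q : E2 d => v (σ • q.1, r • q.2))]
  refine integral_congr_ae (ae_of_all _ fun q => ?_)
  simp only
  rw [opN_arg hσ hr]

omit [NormedSpace ℝ G] in
theorem meas_scale {σ r : ℝ} {v : E2 d → G} (hm : StronglyMeasurable v) :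
    StronglyMeasurable fun q : E2 d => v (σ • q.1, r • q.2) :=
  hm.comp_measurable (by fun_prop)

theorem opN_has {σ ρ r : ℝ} (hσ : 0 < σ) (hr : 0 < r) {v : E2 d → G} (hm : StronglyMeasurable v)
    {C : ℝ} (hv : ∀ q, ‖v q‖ ≤ C) (s : E2 d) :
    HasFDerivAt (opN σ ρ r v) ((∫ q, dI (fun q : E2 d => v (σ • q.1, r • q.2)) (lam d σ ρ r s) q
      ∂(gam d).prod (gam d)).comp (lam d σ ρ r)) s := by
  have h1 := phi_has (v := fun q : E2 d => v (σ • q.1, r • q.2)) (meas_scale hm)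
    (fun q => hv _) (lam d σ ρ r s)
  have h2 := h1.comp s ((lam d σ ρ r).hasFDerivAt (x := s))
  refine h2.congr_of_eventuallyEq (Filter.Eventually.of_forall fun t => ?_)
  exact opN_eq hσ hr v t

theorem opN_contDiff {σ ρ r : ℝ} (hσ : 0 < σ) (hr : 0 < r) {v : E2 d → G}
    (hm : StronglyMeasurable v) {C : ℝ} (hv : ∀ q, ‖v q‖ ≤ C) :
    ContDiff ℝ 1 (opN σ ρ r v) := by
  rw [contDiff_one_iff_hasFDerivAt]
  refine ⟨_, ?_, fun s => opN_has hσ hr hm hv s⟩
  exact ((phi_cont (meas_scale hm) (fun q => hv _)).comp (lam d σ ρ r).continuous).clm_comp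
    continuous_const

theorem dI_int {v : E2 d → G} (hm : StronglyMeasurable v) {C : ℝ} (hv : ∀ q, ‖v q‖ ≤ C)
    (s : E2 d) : Integrable (dI v s) ((gam d).prod (gam d)) :=
  Integrable.mono' ((dom_int (d := d) ‖s‖).const_mul C) (dI_meas hm s).aestronglyMeasurable
    (ae_of_all _ fun q => dI_norm hv le_rfl q)

theorem opN_fderiv_apply {σ ρ r : ℝ} (hσ : 0 < σ) (hr : 0 < r) {v : E2 d → G}
    (hm : StronglyMeasurable v) {C : ℝ} (hv : ∀ q, ‖v q‖ ≤ C) (s t : E2 d) :
    fderiv ℝ (opN σ ρ r v) s t = ∫ q : E2 d, (⟪q.1, σ⁻¹ • t.1⟫ + ⟪q.2, (ρ / r) • t.2⟫ : ℝ) •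
      v (s.1 + σ • q.1, ρ • s.2 + r • q.2) ∂(gam d).prod (gam d) := by
  rw [(opN_has hσ hr hm hv s).fderiv, ContinuousLinearMap.comp_apply,
    ContinuousLinearMap.integral_apply (dI_int (meas_scale hm) (fun q => hv _) _)]
  simp only [dI_apply, mul_smul]
  rw [← shift_prod (lam d σ ρ r s) (fun q : E2 d => gD (lam d σ ρ r s) q (lam d σ ρ r t) •
    v (σ • q.1, r • q.2))]
  refine integral_congr_ae (ae_of_all _ fun q => ?_)
  simp only
  rw [← opN_arg hσ hr, gD_apply]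
  simp [lam_apply]

end two

section bess

variable {Ω J G : Type*} [MeasurableSpace Ω] [Fintype J] [DecidableEq J] [NormedAddCommGroup G]
  [InnerProductSpace ℝ G] [CompleteSpace G]

/-- Bessel inequality for vector valued functions -/
theorem bessel {μ : Measure Ω} [IsProbabilityMeasure μ] {φ : J → Ω → ℝ}
    (hφ : ∀ j, MemLp (φ j) 2 μ) (ho : ∀ j k, ∫ ω, φ j ω * φ k ω ∂μ = if j = k then 1 else 0)
    {v : Ω → G} (hm : AEStronglyMeasurable v μ) {C : ℝ} (hv : ∀ ω, ‖v ω‖ ≤ C) :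
    ∑ j, ‖∫ ω, φ j ω • v ω ∂μ‖ ^ 2 ≤ ∫ ω, ‖v ω‖ ^ 2 ∂μ := by
  set c : J → G := fun j => ∫ ω, φ j ω • v ω ∂μ with hc
  have iφ : ∀ j, Integrable (φ j) μ := fun j => (hφ j).integrable (by norm_num)
  have iφv : ∀ j, Integrable (fun ω => φ j ω • v ω) μ := fun j =>
    Integrable.mono' ((iφ j).norm.mul_const C) ((hφ j).1.smul hm) (ae_of_all _ fun ω => by
      rw [norm_smul]
      exact mul_le_mul_of_nonneg_left (hv ω) (norm_nonneg _))
  have i1 : Integrable (fun ω => ‖v ω‖ ^ 2) μ :=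
    Integrable.mono' (integrable_const (C ^ 2)) (hm.norm.pow 2) (ae_of_all _ fun ω => by
      rw [Real.norm_of_nonneg (by positivity)]
      exact pow_le_pow_left₀ (norm_nonneg _) (hv ω) 2)
  have i2 : ∀ j, Integrable (fun ω => (⟪φ j ω • v ω, c j⟫ : ℝ)) μ := fun j =>
    (iφv j).inner_const (c j)
  have i2s : Integrable (fun ω => ∑ j, (⟪φ j ω • v ω, c j⟫ : ℝ)) μ :=
    integrable_finsetSum _ fun j _ => i2 j
  have i3 : ∀ j k, Integrable (fun ω => φ j ω * φ k ω * ⟪c j, c k⟫) μ := fun j k =>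
    ((hφ j).integrable_mul (hφ k)).mul_const _
  have i3s : Integrable (fun ω => ∑ j, ∑ k, φ j ω * φ k ω * ⟪c j, c k⟫) μ :=
    integrable_finsetSum _ fun j _ => integrable_finsetSum _ fun k _ => i3 j k
  have h2 : ∫ ω, ∑ j, (⟪φ j ω • v ω, c j⟫ : ℝ) ∂μ = ∑ j, ‖c j‖ ^ 2 := by
    rw [integral_finsetSum _ fun j _ => i2 j]
    refine Finset.sum_congr rfl fun j _ => ?_
    have : ∀ ω, (⟪φ j ω • v ω, c j⟫ : ℝ) = ⟪c j, φ j ω • v ω⟫ := fun ω => real_inner_comm _ _
    simp only [this]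
    rw [integral_inner (iφv j)]
    exact real_inner_self_eq_norm_sq _
  have h3 : ∫ ω, ∑ j, ∑ k, φ j ω * φ k ω * ⟪c j, c k⟫ ∂μ = ∑ j, ‖c j‖ ^ 2 := by
    rw [integral_finsetSum _ fun j _ => integrable_finsetSum _ fun k _ => i3 j k]
    refine Finset.sum_congr rfl fun j _ => ?_
    rw [integral_finsetSum _ fun k _ => i3 j k]
    simp only [integral_mul_const, ho]
    simp
  have h0 : 0 ≤ ∫ ω, ‖v ω - ∑ j, φ j ω • c j‖ ^ 2 ∂μ := integral_nonneg fun _ => by positivity
  have he : ∀ ω, ‖v ω - ∑ j, φ j ω • c j‖ ^ 2 = ‖v ω‖ ^ 2 - 2 * ∑ j, (⟪φ j ω • v ω, c j⟫ : ℝ) +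
      ∑ j, ∑ k, φ j ω * φ k ω * ⟪c j, c k⟫ := by
    intro ω
    rw [norm_sub_sq_real, ← real_inner_self_eq_norm_sq (∑ j, φ j ω • c j), inner_sum, sum_inner]
    congr 2
    · congr 1
      refine Finset.sum_congr rfl fun j _ => ?_
      rw [real_inner_smul_right, real_inner_smul_left]
    · funext j
      rw [inner_sum]
      refine Finset.sum_congr rfl fun k _ => ?_
      rw [real_inner_smul_right, real_inner_smul_left]
      ring
  simp only [he] at h0
  have i12 : Integrable (fun ω => ‖v ω‖ ^ 2 - 2 * ∑ j, (⟪φ j ω • v ω, c j⟫ : ℝ)) μ :=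
    i1.sub (i2s.const_mul 2)
  rw [integral_add i12 i3s, integral_sub i1 (i2s.const_mul 2), integral_const_mul, h2, h3] at h0
  linarith

end bess

section gauss

variable {d : ℕ}

theorem gam_coord (i : Fin d) : ∫ x : E d, x i ∂gam d = 0 := by
  have h := integral_strongDual_stdGaussian (E := E d)
    (EuclideanSpace.proj i : E d →L[ℝ] ℝ)
  exact h

theorem gam_coord2 (i j : Fin d) : ∫ x : E d, x i * x j ∂gam d = if i = j then 1 else 0 := by
  have h1 : MemLp id 2 (gam d) := IsGaussian.memLp_id (gam d) 2 (by simp)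
  have h2 := covarianceBilin_apply h1 (EuclideanSpace.single i (1 : ℝ))
    (EuclideanSpace.single j (1 : ℝ))
  rw [covarianceBilin_stdGaussian] at h2
  have h4 : (⟪EuclideanSpace.single i (1 : ℝ), EuclideanSpace.single j (1 : ℝ)⟫ : ℝ) =
      if i = j then (1 : ℝ) else 0 := by
    rw [EuclideanSpace.inner_single_left]
    simp
  rw [innerSL_apply_apply ℝ, h4] at h2
  rw [h2]
  simp [EuclideanSpace.inner_single_left]

theorem coord_memLp (i : Fin d) : MemLp (fun x : E d => x i) 2 (gam d) :=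
  IsGaussian.memLp_dual (gam d) (EuclideanSpace.proj i : E d →L[ℝ] ℝ) 2 (by simp)

theorem norm_integrable : Integrable (fun x : E d => ‖x‖) (gam d) :=
  (IsGaussian.integrable_id (μ := gam d)).norm

/-- the orthonormal family -/
noncomputable def fam (d : ℕ) : Option (Fin d ⊕ Fin d) → E2 d → ℝ
  | none => fun _ => 1
  | some (Sum.inl i) => fun q => q.1 i
  | some (Sum.inr i) => fun q => q.2 i

theorem fam_memLp (j : Option (Fin d ⊕ Fin d)) :
    MemLp (fam d j) 2 ((gam d).prod (gam d)) := by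
  rcases j with _ | i | i
  · exact memLp_const (1 : ℝ)
  · exact (coord_memLp i).comp_measurePreserving measurePreserving_fst
  · exact (coord_memLp i).comp_measurePreserving measurePreserving_snd

theorem int_fst (f : E d → ℝ) :
    ∫ q : E2 d, f q.1 ∂(gam d).prod (gam d) = ∫ x, f x ∂gam d := by
  have := integral_prod_mul (μ := gam d) (ν := gam d) f (fun _ => (1 : ℝ))
  simpa using this

theorem int_snd (f : E d → ℝ) :
    ∫ q : E2 d, f q.2 ∂(gam d).prod (gam d) = ∫ x, f x ∂gam d := by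
  have := integral_prod_mul (μ := gam d) (ν := gam d) (fun _ => (1 : ℝ)) f
  simpa using this

theorem fam_ortho (j k : Option (Fin d ⊕ Fin d)) :
    ∫ q, fam d j q * fam d k q ∂(gam d).prod (gam d) = if j = k then 1 else 0 := by
  rcases j with _ | i | i <;> rcases k with _ | l | l
  · simp [fam]
  · simpa [fam, gam_coord] using int_fst (fun x : E d => x l)
  · simpa [fam, gam_coord] using int_snd (fun x : E d => x l)
  · simpa [fam, gam_coord] using int_fst (fun x : E d => x i)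
  · simpa [fam, gam_coord2] using int_fst (fun x : E d => x i * x l)
  · have := integral_prod_mul (μ := gam d) (ν := gam d) (fun x : E d => x i) (fun x : E d => x l)
    simpa [fam, gam_coord] using this
  · simpa [fam, gam_coord] using int_snd (fun x : E d => x i)
  · have := integral_prod_mul (μ := gam d) (ν := gam d) (fun x : E d => x l) (fun x : E d => x i)
    have h2 : ∀ q : E2 d, fam d (some (Sum.inr i)) q * fam d (some (Sum.inl l)) q =
        q.1 l * q.2 i := fun q => mul_comm _ _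
    simp only [h2]
    rw [this]
    simp [gam_coord]
  · simpa [fam, gam_coord2] using int_snd (fun x : E d => x i * x l)

end gauss

section jen

variable {d : ℕ} {Ω G : Type*} [MeasurableSpace Ω] [NormedAddCommGroup G]
  [InnerProductSpace ℝ G] [CompleteSpace G] {μ : Measure Ω} [IsProbabilityMeasure μ]
  {T : Ω → (E2 d →L[ℝ] G)}

omit [CompleteSpace G] in
theorem jen_int (hm : AEStronglyMeasurable T μ) {C : ℝ} (hT : ∀ ω, ‖T ω‖ ≤ C) (e : E2 d) :
    Integrable (fun ω => ‖T ω e‖ ^ 2) μ := by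
  have h1 : AEStronglyMeasurable (fun ω => T ω e) μ :=
    (ContinuousLinearMap.apply ℝ G e).continuous.comp_aestronglyMeasurable hm
  refine Integrable.mono' (integrable_const ((C * ‖e‖) ^ 2)) (h1.norm.pow 2)
    (ae_of_all _ fun ω => ?_)
  rw [Real.norm_of_nonneg (by positivity)]
  exact pow_le_pow_left₀ (norm_nonneg _) ((T ω).le_of_opNorm_le (hT ω) e) 2

theorem jen (hm : AEStronglyMeasurable T μ) {C : ℝ} (hT : ∀ ω, ‖T ω‖ ≤ C) (e : E2 d) :
    ‖(∫ ω, T ω ∂μ) e‖ ^ 2 ≤ ∫ ω, ‖T ω e‖ ^ 2 ∂μ := by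
  have hi : Integrable T μ := Integrable.mono' (integrable_const C) hm (ae_of_all _ hT)
  rw [ContinuousLinearMap.integral_apply hi]
  exact MehlerAux.jensen μ (hi.apply_continuousLinearMap e) (jen_int hm hT e)

theorem jen_sum {J : Type*} [Fintype J] (hm : AEStronglyMeasurable T μ) {C : ℝ}
    (hT : ∀ ω, ‖T ω‖ ≤ C) (e : J → E2 d) :
    ∑ j, ‖(∫ ω, T ω ∂μ) (e j)‖ ^ 2 ≤ ∫ ω, ∑ j, ‖T ω (e j)‖ ^ 2 ∂μ := by
  rw [integral_finsetSum _ fun j _ => jen_int hm hT (e j)]
  exact Finset.sum_le_sum fun j _ => jen hm hT (e j)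

theorem jen_hx (hm : AEStronglyMeasurable T μ) {C : ℝ} (hT : ∀ ω, ‖T ω‖ ≤ C) :
    hx (∫ ω, T ω ∂μ) ≤ ∫ ω, hx (T ω) ∂μ := jen_sum hm hT _

theorem jen_hz (hm : AEStronglyMeasurable T μ) {C : ℝ} (hT : ∀ ω, ‖T ω‖ ≤ C) :
    hz (∫ ω, T ω ∂μ) ≤ ∫ ω, hz (T ω) ∂μ := jen_sum hm hT _

theorem jen_hd (a : ℝ) (hm : AEStronglyMeasurable T μ) {C : ℝ} (hT : ∀ ω, ‖T ω‖ ≤ C) :
    hd a (∫ ω, T ω ∂μ) ≤ ∫ ω, hd a (T ω) ∂μ := jen_sum hm hT _

theorem hx_integrable (hm : AEStronglyMeasurable T μ) {C : ℝ} (hT : ∀ ω, ‖T ω‖ ≤ C) :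
    Integrable (fun ω => hx (T ω)) μ := integrable_finsetSum _ fun _ _ => jen_int hm hT _

theorem hd_integrable (a : ℝ) (hm : AEStronglyMeasurable T μ) {C : ℝ} (hT : ∀ ω, ‖T ω‖ ≤ C) :
    Integrable (fun ω => hd a (T ω)) μ := integrable_finsetSum _ fun _ _ => jen_int hm hT _

theorem jen_frm' {n : ℝ} (hn : 0 ≤ n) (hm : AEStronglyMeasurable T μ) {C : ℝ}
    (hT : ∀ ω, ‖T ω‖ ≤ C) : frm' n (∫ ω, T ω ∂μ) ≤ ∫ ω, frm' n (T ω) ∂μ := by
  unfold frm'
  rw [integral_add ((hx_integrable hm hT).const_mul _) ((hd_integrable _ hm hT).const_mul _),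
    integral_const_mul, integral_const_mul]
  exact add_le_add (mul_le_mul_of_nonneg_left (jen_hx hm hT) (by positivity))
    (mul_le_mul_of_nonneg_left (jen_hd _ hm hT) (by positivity))

end jen

end KN

section noise
variable {d : ℕ} {G : Type*} [NormedAddCommGroup G] [InnerProductSpace ℝ G] [CompleteSpace G]
  {σ ρ r : ℝ}

open KN

theorem opN_norm_le {v : E2 d → G} {C : ℝ} (hv : ∀ s, ‖v s‖ ≤ C) (s : E2 d) :
    ‖opN σ ρ r v s‖ ≤ C := by
  have := norm_integral_le_of_norm_le_const (μ := (gam d).prod (gam d))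
    (f := fun q : E2 d => v (s.1 + σ • q.1, ρ • s.2 + r • q.2)) (C := C)
    (ae_of_all _ fun q => hv _)
  unfold opN
  simpa using this

theorem opN_nice (hσ : 0 < σ) (hρ : 0 < ρ) (hr : 0 < r) {v : E2 d → G} (hm : StronglyMeasurable v)
    {C : ℝ} (hv : ∀ s, ‖v s‖ ≤ C) : Nice (opN σ ρ r v) := by
  refine ⟨opN_contDiff hσ hr hm hv, ⟨C, opN_norm_le hv⟩, ?_⟩
  have hC : 0 ≤ C := (norm_nonneg _).trans (hv 0)
  refine ⟨C * ∫ q : E2 d, (σ⁻¹ * ‖q.1‖ + (ρ / r) * ‖q.2‖) ∂(gam d).prod (gam d), fun s => ?_⟩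
  have i1 : Integrable (fun q : E2 d => ‖q.1‖) ((gam d).prod (gam d)) :=
    norm_integrable.comp_fst _
  have i2 : Integrable (fun q : E2 d => ‖q.2‖) ((gam d).prod (gam d)) :=
    norm_integrable.comp_snd _
  have i3 : Integrable (fun q : E2 d => σ⁻¹ * ‖q.1‖ + (ρ / r) * ‖q.2‖) ((gam d).prod (gam d)) :=
    (i1.const_mul _).add (i2.const_mul _)
  refine ContinuousLinearMap.opNorm_le_bound _ (mul_nonneg hC
    (integral_nonneg fun q => by positivity)) fun t => ?_
  rw [opN_fderiv_apply hσ hr hm hv]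
  refine (norm_integral_le_of_norm_le (i3.const_mul (C * ‖t‖)) (ae_of_all _ fun q => ?_)).trans ?_
  · rw [norm_smul, real_inner_smul_right, real_inner_smul_right]
    have e1 : ‖σ⁻¹ * ⟪q.1, t.1⟫ + ρ / r * ⟪q.2, t.2⟫‖ ≤
        (σ⁻¹ * ‖q.1‖ + (ρ / r) * ‖q.2‖) * ‖t‖ := by
      refine (norm_add_le _ _).trans ?_
      rw [norm_mul, norm_mul, Real.norm_of_nonneg (inv_pos.2 hσ).le,
        Real.norm_of_nonneg (div_pos hρ hr).le, add_mul, mul_assoc, mul_assoc]
      have f1 : ‖(⟪q.1, t.1⟫ : ℝ)‖ ≤ ‖q.1‖ * ‖t‖ := (norm_inner_le_norm _ _).trans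
        (mul_le_mul_of_nonneg_left (norm_fst_le t) (norm_nonneg _))
      have f2 : ‖(⟪q.2, t.2⟫ : ℝ)‖ ≤ ‖q.2‖ * ‖t‖ := (norm_inner_le_norm _ _).trans
        (mul_le_mul_of_nonneg_left (norm_snd_le t) (norm_nonneg _))
      exact add_le_add (mul_le_mul_of_nonneg_left f1 (inv_pos.2 hσ).le)
        (mul_le_mul_of_nonneg_left f2 (div_pos hρ hr).le)
    calc _ ≤ ((σ⁻¹ * ‖q.1‖ + (ρ / r) * ‖q.2‖) * ‖t‖) * C :=
          mul_le_mul e1 (hv _) (norm_nonneg _) (by positivity)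
      _ = _ := by ring
  · rw [integral_const_mul]
    apply le_of_eq
    ring

/-- Bessel inequality -/
theorem opN_bessel (hσ : 0 < σ) (hρ : 0 < ρ) (hr : 0 < r) {v : E2 d → G}
    (hm : StronglyMeasurable v) {C : ℝ} (hv : ∀ s, ‖v s‖ ≤ C) (s : E2 d) :
    σ ^ 2 * hx (fderiv ℝ (opN σ ρ r v) s) + (r / ρ) ^ 2 * hz (fderiv ℝ (opN σ ρ r v) s) +
      ‖opN σ ρ r v s‖ ^ 2 ≤ opN σ ρ r (fun s => ‖v s‖ ^ 2) s := by
  have hm' : StronglyMeasurable fun q : E2 d => v (s.1 + σ • q.1, ρ • s.2 + r • q.2) :=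
    hm.comp_measurable (by fun_prop)
  have h := bessel (μ := (gam d).prod (gam d)) (φ := fam d) fam_memLp fam_ortho
    hm'.aestronglyMeasurable (C := C) (fun q => hv _)
  rw [Fintype.sum_option, Fintype.sum_sum_type] at h
  have e1 : ∀ i : Fin d, σ ^ 2 * ‖fderiv ℝ (opN σ ρ r v) s (eb i, 0)‖ ^ 2 =
      ‖∫ q, fam d (some (Sum.inl i)) q • v (s.1 + σ • q.1, ρ • s.2 + r • q.2)
        ∂(gam d).prod (gam d)‖ ^ 2 := by
    intro i
    rw [opN_fderiv_apply hσ hr hm hv]
    have e2 : ∀ q : E2 d, (⟪q.1, σ⁻¹ • (eb i : E d)⟫ + ⟪q.2, (ρ / r) • (0 : E d)⟫ : ℝ) •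
        v (s.1 + σ • q.1, ρ • s.2 + r • q.2) =
        σ⁻¹ • (fam d (some (Sum.inl i)) q • v (s.1 + σ • q.1, ρ • s.2 + r • q.2)) := by
      intro q
      rw [smul_zero, inner_zero_right, add_zero, real_inner_smul_right, mul_smul]
      simp [fam, eb, EuclideanSpace.inner_single_right]
    simp only [e2]
    rw [integral_smul, norm_smul, Real.norm_of_nonneg (inv_pos.2 hσ).le, mul_pow, ← mul_assoc]
    have : σ ^ 2 * σ⁻¹ ^ 2 = 1 := by field_simp
    rw [this, one_mul]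
  have e3 : ∀ i : Fin d, (r / ρ) ^ 2 * ‖fderiv ℝ (opN σ ρ r v) s (0, eb i)‖ ^ 2 =
      ‖∫ q, fam d (some (Sum.inr i)) q • v (s.1 + σ • q.1, ρ • s.2 + r • q.2)
        ∂(gam d).prod (gam d)‖ ^ 2 := by
    intro i
    rw [opN_fderiv_apply hσ hr hm hv]
    have e2 : ∀ q : E2 d, (⟪q.1, σ⁻¹ • (0 : E d)⟫ + ⟪q.2, (ρ / r) • (eb i : E d)⟫ : ℝ) •
        v (s.1 + σ • q.1, ρ • s.2 + r • q.2) =
        (ρ / r) • (fam d (some (Sum.inr i)) q • v (s.1 + σ • q.1, ρ • s.2 + r • q.2)) := by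
      intro q
      rw [smul_zero, inner_zero_right, zero_add, real_inner_smul_right, mul_smul]
      simp [fam, eb, EuclideanSpace.inner_single_right]
    simp only [e2]
    rw [integral_smul, norm_smul, Real.norm_of_nonneg (div_pos hρ hr).le, mul_pow, ← mul_assoc]
    have : (r / ρ) ^ 2 * (ρ / r) ^ 2 = 1 := by field_simp
    rw [this, one_mul]
  have e4 : ∫ q, fam d none q • v (s.1 + σ • q.1, ρ • s.2 + r • q.2) ∂(gam d).prod (gam d) =
      opN σ ρ r v s := by
    unfold opN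
    simp [fam]
  unfold hx hz
  rw [Finset.mul_sum, Finset.mul_sum]
  simp only [e1, e3]
  rw [e4] at h
  have e5 : opN σ ρ r (fun s => ‖v s‖ ^ 2) s = ∫ q : E2 d,
    ‖v (s.1 + σ • q.1, ρ • s.2 + r • q.2)‖ ^ 2 ∂(gam d).prod (gam d) := rfl
  rw [e5]
  linarith

theorem opN_fderiv (hσ : 0 < σ) (hρ : 0 < ρ) (hr : 0 < r) {v : E2 d → G} (hv : Nice v) (s : E2 d) :
    fderiv ℝ (opN σ ρ r v) s = opN σ ρ r (fun s' => (fderiv ℝ v s').comp (dil d ρ)) s := by
  obtain ⟨C, hC⟩ := hv.bd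
  obtain ⟨D, hD⟩ := hv.dbd
  have cv := hv.smooth.continuous
  have cv' := hv.smooth.continuous_fderiv one_ne_zero
  have hD0 : 0 ≤ D := (norm_nonneg _).trans (hD 0)
  have key : HasFDerivAt (opN σ ρ r v)
      (opN σ ρ r (fun s' => (fderiv ℝ v s').comp (dil d ρ)) s) s := by
    refine hasFDerivAt_integral_of_dominated_of_fderiv_le (𝕜 := ℝ) (s := Set.univ)
      (F := fun (s q : E2 d) => v (s.1 + σ • q.1, ρ • s.2 + r • q.2))
      (F' := fun (s q : E2 d) => (fderiv ℝ v (s.1 + σ • q.1, ρ • s.2 + r • q.2)).comp (dil d ρ))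
      (bound := fun _ => D * ‖dil d ρ‖) Filter.univ_mem ?_ ?_ ?_ ?_ ?_ ?_
    · exact Filter.Eventually.of_forall fun s =>
        (cv.comp (by fun_prop)).aestronglyMeasurable
    · exact Integrable.mono' (integrable_const C) (cv.comp (by fun_prop)).aestronglyMeasurable
        (ae_of_all _ fun q => hC _)
    · exact ((cv'.comp (by fun_prop)).clm_comp continuous_const).aestronglyMeasurable
    · exact ae_of_all _ fun q s _ => (ContinuousLinearMap.opNorm_comp_le _ _).trans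
        (mul_le_mul_of_nonneg_right (hD _) (norm_nonneg _))
    · exact integrable_const _
    · refine ae_of_all _ fun q s _ => ?_
      have h1 : HasFDerivAt (fun s : E2 d => (s.1 + σ • q.1, ρ • s.2 + r • q.2)) (dil d ρ) s := by
        have h2 := ((dil d ρ).hasFDerivAt (x := s)).add_const
          ((σ • q.1, r • q.2) : E2 d)
        refine h2.congr_of_eventuallyEq (Filter.Eventually.of_forall fun t => ?_)
        simp [dil]
      exact ((hv.smooth.differentiable one_ne_zero _).hasFDerivAt).comp s h1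
  exact key.fderiv

/-- Jensen for the form -/
theorem opN_frm' {n : ℝ} (hn : 0 ≤ n) {T : E2 d → (E2 d →L[ℝ] G)} (hm : StronglyMeasurable T)
    {C : ℝ} (hT : ∀ s, ‖T s‖ ≤ C) (s : E2 d) :
    frm' n (opN σ ρ r T s) ≤ opN σ ρ r (fun s => frm' n (T s)) s :=
  jen_frm' hn (hm.comp_measurable (by fun_prop :
    Measurable fun q : E2 d => (s.1 + σ • q.1, ρ • s.2 + r • q.2))).aestronglyMeasurable
    (fun q => hT _)

theorem opN_hx {T : E2 d → (E2 d →L[ℝ] G)} (hm : StronglyMeasurable T)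
    {C : ℝ} (hT : ∀ s, ‖T s‖ ≤ C) (s : E2 d) :
    hx (opN σ ρ r T s) ≤ opN σ ρ r (fun s => hx (T s)) s :=
  jen_hx (hm.comp_measurable (by fun_prop :
    Measurable fun q : E2 d => (s.1 + σ • q.1, ρ • s.2 + r • q.2))).aestronglyMeasurable
    (fun q => hT _)

theorem opN_hd (a : ℝ) {T : E2 d → (E2 d →L[ℝ] G)} (hm : StronglyMeasurable T)
    {C : ℝ} (hT : ∀ s, ‖T s‖ ≤ C) (s : E2 d) :
    hd a (opN σ ρ r T s) ≤ opN σ ρ r (fun s => hd a (T s)) s :=
  jen_hd a (hm.comp_measurable (by fun_prop :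
    Measurable fun q : E2 d => (s.1 + σ • q.1, ρ • s.2 + r • q.2))).aestronglyMeasurable
    (fun q => hT _)

end noise

end Vale.Agent.P347
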