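import Vale.Agent.P347.KMap
import Vale.Agent.P347.KNoise

/-!
# P347: one step of the chain maps bounded functions to nice functions
-/

open MeasureTheory ProbabilityTheory
open scoped ENNReal NNReal RealInnerProductSpace Topology

namespace Vale.Agent.P347

theorem opT_nice {d : ℕ} {κ : Type} [Fintype κ] {G : Type*} [NormedAddCommGroup G]
    [InnerProductSpace ℝ G] [CompleteSpace G] {F : E2 d → (κ → E d) → E d} {h : ℝ}
    (hF : Force κ F) (h0 : 0 < h) (h1 : h ≤ 1 / 16) {v : E2 d → G}
    (hm : StronglyMeasurable v) {C : ℝ} (hv : ∀ s, ‖v s‖ ≤ C) : Nice (opT F h v) :=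
  opN_nice (by positivity) (Real.sqrt_pos.mpr (by linarith)) (Real.sqrt_pos.mpr (by positivity))
    (opM_stronglyMeasurable hF hm) (opM_norm_le hv)

end Vale.Agent.P347
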