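import Vale.Agent.P347.KAop
import Vale.Agent.P347.KMap2
import Vale.Agent.P347.KGrad

/-!
# P347: Duhamel formulas for the gradients along the chain
-/

open MeasureTheory ProbabilityTheory
open scoped ENNReal NNReal RealInnerProductSpace

namespace Vale.Agent.P347

namespace KD

/-- bounded continuous functions -/
structure BC {d : ℕ} {G : Type*} [NormedAddCommGroup G] (q : E2 d → G) : Prop where
  cont : Continuous q
  bd : ∃ Q, ∀ s, ‖q s‖ ≤ Q

section
variable {d : ℕ} {G : Type*} [NormedAddCommGroup G] [InnerProductSpace ℝ G]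

theorem BC.add {q q' : E2 d → G} (h : BC q) (h' : BC q') : BC (q + q') := by
  obtain ⟨Q, hQ⟩ := h.bd
  obtain ⟨Q', hQ'⟩ := h'.bd
  exact ⟨h.cont.add h'.cont, Q + Q', fun s => (norm_add_le _ _).trans (add_le_add (hQ s) (hQ' s))⟩

theorem BC.smul {q : E2 d → G} (h : BC q) (c : ℝ) : BC (c • q) := by
  obtain ⟨Q, hQ⟩ := h.bd
  refine ⟨h.cont.const_smul c, |c| * Q, fun s => ?_⟩
  rw [Pi.smul_apply, norm_smul, Real.norm_eq_abs]
  exact mul_le_mul_of_nonneg_left (hQ s) (abs_nonneg c)

theorem BC.zero : BC (0 : E2 d → G) :=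
  ⟨continuous_const, 0, fun s => by simp⟩

theorem BC.sum {ι : Type*} (t : Finset ι) (q : ι → E2 d → G) (h : ∀ i ∈ t, BC (q i)) :
    BC (∑ i ∈ t, q i) := by
  classical
  induction t using Finset.induction_on with
  | empty => rw [Finset.sum_empty]; exact BC.zero
  | insert i t hi ih =>
    rw [Finset.sum_insert hi]
    exact (h i (Finset.mem_insert_self _ _)).add
      (ih fun j hj => h j (Finset.mem_insert_of_mem hj))

theorem BC.of_nice {q : E2 d → G} (h : Nice q) : BC q := ⟨h.smooth.continuous, h.bd⟩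

end

section op
variable {d : ℕ} {κ : Type} [Fintype κ] {G : Type*} [NormedAddCommGroup G] [InnerProductSpace ℝ G]
  [CompleteSpace G] {F : E2 d → (κ → E d) → E d} {h : ℝ}

theorem BC.opT (hF : Force κ F) (h0 : 0 < h) (h1 : h ≤ 1 / 16) {q : E2 d → G} (hq : BC q) :
    BC (opT F h q) := by
  obtain ⟨Q, hQ⟩ := hq.bd
  exact BC.of_nice (opT_nice hF h0 h1 hq.cont.stronglyMeasurable hQ)

theorem BC.iter (hF : Force κ F) (h0 : 0 < h) (h1 : h ≤ 1 / 16) {q : E2 d → G} (hq : BC q)
    (n : ℕ) : BC ((Vale.Agent.P347.opT F h)^[n] q) := by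
  induction n with
  | zero => exact hq
  | succ n ih =>
    rw [Function.iterate_succ_apply']
    exact ih.opT hF h0 h1

theorem integrable_kmap (hF : Force κ F) (ε : ℝ) {q : E2 d → G} (hq : BC q) (s : E2 d) :
    Integrable (fun ω => q (kmap F ε s ω)) (gamPi d κ) := by
  obtain ⟨Q, hQ⟩ := hq.bd
  have h1 : Continuous fun ω => q (kmap F ε s ω) := by
    have h2 := KA.kmap_cont hF ε
    exact hq.cont.comp (h2.comp (Continuous.prodMk_right s))
  exact Integrable.of_bound h1.aestronglyMeasurable Q (Filter.Eventually.of_forall fun ω => hQ _)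

theorem integrable_opM (hF : Force κ F) (ε σ ρ r : ℝ) {q : E2 d → G} (hq : BC q) (s : E2 d) :
    Integrable (fun z : E d × E d => opM F ε q (s.1 + σ • z.1, ρ • s.2 + r • z.2))
      ((gam d).prod (gam d)) := by
  obtain ⟨Q, hQ⟩ := hq.bd
  have h1 := opM_stronglyMeasurable (ε := ε) hF hq.cont.stronglyMeasurable
  have h2 : Continuous fun z : E d × E d => ((s.1 + σ • z.1, ρ • s.2 + r • z.2) : E2 d) := by
    fun_prop
  exact Integrable.of_bound (h1.comp_measurable h2.measurable).aestronglyMeasurable Q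
    (Filter.Eventually.of_forall fun z => opM_norm_le hQ _)

theorem opT_add (hF : Force κ F) {q q' : E2 d → G} (hq : BC q) (hq' : BC q') :
    opT F h (q + q') = opT F h q + opT F h q' := by
  funext s
  rw [Pi.add_apply]
  unfold opT opN
  rw [← integral_add (integrable_opM hF _ _ _ _ hq s) (integrable_opM hF _ _ _ _ hq' s)]
  refine integral_congr_ae (Filter.Eventually.of_forall fun z => ?_)
  show opM F (h ^ 2) (q + q') _ = opM F (h ^ 2) q _ + opM F (h ^ 2) q' _
  unfold opM
  rw [← integral_add (integrable_kmap hF _ hq _) (integrable_kmap hF _ hq' _)]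
  rfl

theorem opT_smul (c : ℝ) (q : E2 d → G) : opT F h (c • q) = c • opT F h q := by
  funext s
  rw [Pi.smul_apply]
  unfold opT opN
  rw [← integral_smul]
  refine integral_congr_ae (Filter.Eventually.of_forall fun z => ?_)
  show opM F (h ^ 2) (c • q) _ = c • opM F (h ^ 2) q _
  unfold opM
  rw [← integral_smul]
  rfl

theorem opT_sum (hF : Force κ F) {ι : Type*} (t : Finset ι) (q : ι → E2 d → G)
    (hq : ∀ i ∈ t, BC (q i)) : opT F h (∑ i ∈ t, q i) = ∑ i ∈ t, opT F h (q i) := by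
  classical
  induction t using Finset.induction_on with
  | empty =>
    rw [Finset.sum_empty, Finset.sum_empty]
    have := opT_smul (F := F) (h := h) 0 (0 : E2 d → G)
    rw [zero_smul, zero_smul] at this
    exact this
  | insert i t hi ih =>
    rw [Finset.sum_insert hi, Finset.sum_insert hi, opT_add hF (hq i (Finset.mem_insert_self _ _))
      (BC.sum t q fun j hj => hq j (Finset.mem_insert_of_mem hj)),
      ih fun j hj => hq j (Finset.mem_insert_of_mem hj)]

theorem opT_sub_smul (hF : Force κ F) {q q' : E2 d → G} (hq : BC q) (hq' : BC q') (c : ℝ) :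
    opT F h (q - c • q') = opT F h q - c • opT F h q' := by
  have e : q - c • q' = q + (-c) • q' := by rw [neg_smul, sub_eq_add_neg]
  rw [e, opT_add hF hq (hq'.smul _), opT_smul, neg_smul, sub_eq_add_neg]

end op

section grad
variable {d : ℕ} {κ : Type} [Fintype κ] {F : E2 d → (κ → E d) → E d} {h : ℝ}

theorem norm_sum_le_of {c : Fin d → ℝ} {C : ℝ} (hc : ∀ i, |c i| ≤ C) :
    ‖∑ i, c i • (eb i : E d)‖ ≤ d * C := by
  refine (norm_sum_le _ _).trans ?_
  have h1 : ∀ i ∈ (Finset.univ : Finset (Fin d)), ‖c i • (eb i : E d)‖ ≤ C := by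
    intro i _
    rw [norm_smul, Real.norm_eq_abs]
    have : ‖(eb i : E d)‖ = 1 := by simp [eb]
    rw [this, mul_one]
    exact hc i
  refine (Finset.sum_le_sum h1).trans ?_
  simp

theorem BC.gx {u : E2 d → ℝ} (hu : Nice u) : BC (gx u) := by
  obtain ⟨C, hC⟩ := hu.dbd
  refine ⟨gx_cont hu, d * C, fun s => norm_sum_le_of fun i => ?_⟩
  rw [← Real.norm_eq_abs]
  refine ((fderiv ℝ u s).le_opNorm _).trans ?_
  have : ‖((eb i : E d), (0 : E d))‖ = 1 := by
    rw [Prod.norm_mk]
    simp [eb]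
  rw [this, mul_one]
  exact hC s

theorem BC.gz {u : E2 d → ℝ} (hu : Nice u) : BC (gz u) := by
  obtain ⟨C, hC⟩ := hu.dbd
  refine ⟨gz_cont hu, d * C, fun s => norm_sum_le_of fun i => ?_⟩
  rw [← Real.norm_eq_abs]
  refine ((fderiv ℝ u s).le_opNorm _).trans ?_
  have : ‖((0 : E d), (eb i : E d))‖ = 1 := by
    rw [Prod.norm_mk]
    simp [eb]
  rw [this, mul_one]
  exact hC s

theorem nice_iter (hF : Force κ F) (h0 : 0 < h) (h1 : h ≤ 1 / 16) {u : E2 d → ℝ} (hu : Nice u)
    (n : ℕ) : Nice ((opT F h)^[n] u) := by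
  induction n with
  | zero => exact hu
  | succ n ih =>
    rw [Function.iterate_succ_apply']
    obtain ⟨C, hC⟩ := ih.bd
    exact opT_nice hF h0 h1 ih.smooth.continuous.stronglyMeasurable hC

theorem BC.opAx (hF : Force κ F) (h0 : 0 < h) (h1 : h ≤ 1 / 16) {q : E2 d → E d} (hq : BC q) :
    BC (opAx F h q) := by
  obtain ⟨Q, hQ⟩ := hq.bd
  exact BC.of_nice (opAx_nice hF h0 h1 hq.cont hQ)

theorem BC.opAz (hF : Force κ F) (h0 : 0 < h) (h1 : h ≤ 1 / 16) {q : E2 d → E d} (hq : BC q) :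
    BC (opAz F h q) := by
  obtain ⟨Q, hQ⟩ := hq.bd
  exact BC.of_nice (opAz_nice hF h0 h1 hq.cont hQ)

end grad

end KD

section duhamel
variable {d : ℕ} {κ : Type} [Fintype κ] {F : E2 d → (κ → E d) → E d} {h : ℝ}

/-- linearity of the powers on bounded continuous functions -/
theorem opT_iter_add (hF : Force κ F) (h0 : 0 < h) (h1 : h ≤ 1 / 16) {q q' : E2 d → E d}
    (hc : Continuous q) (hc' : Continuous q') {Q : ℝ} (hq : ∀ s, ‖q s‖ ≤ Q) (hq' : ∀ s, ‖q' s‖ ≤ Q)
    (c : ℝ) (n : ℕ) :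
    (opT F h)^[n] (q + c • q') = (opT F h)^[n] q + c • (opT F h)^[n] q' := by
  have hb : KD.BC q := ⟨hc, Q, hq⟩
  have hb' : KD.BC q' := ⟨hc', Q, hq'⟩
  induction n with
  | zero => rfl
  | succ n ih =>
    rw [Function.iterate_succ_apply', Function.iterate_succ_apply', Function.iterate_succ_apply',
      ih, KD.opT_add hF (hb.iter hF h0 h1 n) ((hb'.iter hF h0 h1 n).smul c), KD.opT_smul]

/-- the coefficient `c_k = 2(ρ + ... + ρ^k)` -/
noncomputable def cK (h : ℝ) (k : ℕ) : ℝ :=
  2 * ∑ i ∈ Finset.range k, Real.sqrt (1 - 8 * h) ^ (i + 1)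

theorem cK_succ (h : ℝ) (k : ℕ) : cK h (k + 1) = Real.sqrt (1 - 8 * h) * (2 + cK h k) := by
  unfold cK
  rw [Finset.sum_range_succ', mul_add, mul_add, Finset.mul_sum, Finset.mul_sum, Finset.mul_sum]
  rw [zero_add, pow_one, add_comm, mul_comm]
  congr 1
  refine Finset.sum_congr rfl fun i _ => ?_
  rw [pow_succ]
  ring

theorem cK_zero (h : ℝ) : cK h 0 = 0 := by
  simp [cK]

/-- Duhamel formulas -/
theorem duhamel_x (hF : Force κ F) (h0 : 0 < h) (h1 : h ≤ 1 / 16) {u : E2 d → ℝ} (hu : Nice u)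
    (n : ℕ) : gx ((opT F h)^[n] u) = (opT F h)^[n] (gx u) -
      h ^ 2 • ∑ k ∈ Finset.range n, (opT F h)^[k]
        (opAx F h (gx ((opT F h)^[n - 1 - k] u) + gz ((opT F h)^[n - 1 - k] u))) := by
  induction n with
  | zero => simp
  | succ n ih =>
    have hn := KD.nice_iter hF h0 h1 hu
    have hg : ∀ j, KD.BC (gx ((opT F h)^[j] u) + gz ((opT F h)^[j] u)) := fun j =>
      (KD.BC.gx (hn j)).add (KD.BC.gz (hn j))
    have hA : ∀ k j, KD.BC ((opT F h)^[k]
        (opAx F h (gx ((opT F h)^[j] u) + gz ((opT F h)^[j] u)))) := fun k j =>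
      ((hg j).opAx hF h0 h1).iter hF h0 h1 k
    let g : ℕ → E2 d → E d := fun j => gx ((opT F h)^[j] u) + gz ((opT F h)^[j] u)
    have hgd : ∀ j, gx ((opT F h)^[j] u) + gz ((opT F h)^[j] u) = g j := fun _ => rfl
    simp only [hgd] at ih hA ⊢
    rw [Function.iterate_succ_apply', gx_opT hF h0 h1 (hn n), hgd n, ih,
      KD.opT_sub_smul hF ((KD.BC.gx hu).iter hF h0 h1 n)
      (KD.BC.sum _ _ fun k _ => hA k _), KD.opT_sum hF _ _ fun k _ => hA k _,
      Finset.sum_range_succ', smul_add, Function.iterate_succ_apply']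
    have e : ∀ k ∈ Finset.range n, (opT F h)^[k + 1]
        (opAx F h (g (n + 1 - 1 - (k + 1)))) =
          opT F h ((opT F h)^[k] (opAx F h (g (n - 1 - k)))) := by
      intro k _
      rw [Function.iterate_succ_apply']
      have : n + 1 - 1 - (k + 1) = n - 1 - k := by omega
      rw [this]
    rw [Finset.sum_congr rfl e, Function.iterate_zero_apply]
    have e2 : n + 1 - 1 - 0 = n := by omega
    rw [e2, sub_sub]

theorem duhamel_z (hF : Force κ F) (h0 : 0 < h) (h1 : h ≤ 1 / 16) {u : E2 d → ℝ} (hu : Nice u)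
    (n : ℕ) : gz ((opT F h)^[n] u) = Real.sqrt (1 - 8 * h) ^ n • (opT F h)^[n] (gz u) +
      cK h n • (opT F h)^[n] (gx u) -
      h ^ 2 • ∑ k ∈ Finset.range n, (opT F h)^[k]
        (Real.sqrt (1 - 8 * h) ^ (k + 1) •
          opAz F h (gx ((opT F h)^[n - 1 - k] u) + gz ((opT F h)^[n - 1 - k] u)) +
        cK h k • opAx F h (gx ((opT F h)^[n - 1 - k] u) + gz ((opT F h)^[n - 1 - k] u))) := by
  set ρ := Real.sqrt (1 - 8 * h) with hρ
  induction n with
  | zero => simp [cK_zero]
  | succ n ih =>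
    have hn := KD.nice_iter hF h0 h1 hu
    have hg : ∀ j, KD.BC (gx ((opT F h)^[j] u) + gz ((opT F h)^[j] u)) := fun j =>
      (KD.BC.gx (hn j)).add (KD.BC.gz (hn j))
    let g : ℕ → E2 d → E d := fun j => gx ((opT F h)^[j] u) + gz ((opT F h)^[j] u)
    have hgd : ∀ j, gx ((opT F h)^[j] u) + gz ((opT F h)^[j] u) = g j := fun _ => rfl
    simp only [hgd] at ih ⊢
    have hgB : ∀ j, KD.BC (g j) := hg
    have hAx : ∀ j, KD.BC (opAx F h (g j)) := fun j => (hgB j).opAx hF h0 h1
    have hAz : ∀ j, KD.BC (opAz F h (g j)) := fun j => (hgB j).opAz hF h0 h1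
    have hX : KD.BC ((opT F h)^[n] (gx u)) := (KD.BC.gx hu).iter hF h0 h1 n
    have hZ : KD.BC ((opT F h)^[n] (gz u)) := (KD.BC.gz hu).iter hF h0 h1 n
    -- the terms of the two sums
    have hS1 : ∀ k j, KD.BC ((opT F h)^[k] (opAx F h (g j))) := fun k j =>
      (hAx j).iter hF h0 h1 k
    have hS2 : ∀ k j, KD.BC ((opT F h)^[k] (ρ ^ (k + 1) • opAz F h (g j) +
        cK h k • opAx F h (g j))) := fun k j =>
      (((hAz j).smul _).add ((hAx j).smul _)).iter hF h0 h1 k
    have hsplit : ∀ k j, (opT F h)^[k + 1] (ρ ^ (k + 1 + 1) • opAz F h (g j) +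
        cK h (k + 1) • opAx F h (g j)) =
        ρ • ((2 : ℝ) • opT F h ((opT F h)^[k] (opAx F h (g j))) +
          opT F h ((opT F h)^[k] (ρ ^ (k + 1) • opAz F h (g j) + cK h k • opAx F h (g j)))) := by
      intro k j
      have e1 : ρ ^ (k + 1 + 1) • opAz F h (g j) + cK h (k + 1) • opAx F h (g j) =
          ρ • ((2 : ℝ) • opAx F h (g j) + (ρ ^ (k + 1) • opAz F h (g j) +
            cK h k • opAx F h (g j))) := by
        rw [cK_succ, pow_succ' ρ (k + 1)]
        simp only [smul_add, smul_smul, ← hρ]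
        rw [mul_add, add_smul]
        abel
      have hlin : ∀ (m : ℕ) (q q' : E2 d → E d), KD.BC q → KD.BC q' →
          (opT F h)^[m] (ρ • ((2 : ℝ) • q + q')) =
            ρ • ((2 : ℝ) • (opT F h)^[m] q + (opT F h)^[m] q') := by
        intro m q q' hq hq'
        induction m with
        | zero => rfl
        | succ m ihm =>
          rw [Function.iterate_succ_apply', ihm, KD.opT_smul,
            KD.opT_add hF ((hq.iter hF h0 h1 m).smul 2) (hq'.iter hF h0 h1 m), KD.opT_smul,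
            Function.iterate_succ_apply', Function.iterate_succ_apply']
      rw [e1, hlin (k + 1) _ _ (hAx j) (((hAz j).smul _).add ((hAx j).smul _)),
        Function.iterate_succ_apply', Function.iterate_succ_apply']
    have hdx := duhamel_x hF h0 h1 hu n
    simp only [hgd] at hdx
    rw [Function.iterate_succ_apply', gz_opT hF h0 h1 (hn n), hgd n, ← hρ]
    have hBx : KD.BC (gx ((opT F h)^[n] u)) := KD.BC.gx (hn n)
    have hBz : KD.BC (gz ((opT F h)^[n] u)) := KD.BC.gz (hn n)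
    rw [KD.opT_add hF (hBx.smul 2) hBz, KD.opT_smul, ih, hdx,
      KD.opT_sub_smul hF hX (KD.BC.sum _ _ fun k _ => hS1 k _),
      KD.opT_sum hF _ _ (fun k _ => hS1 k _),
      KD.opT_sub_smul hF ((hZ.smul _).add (hX.smul _)) (KD.BC.sum _ _ fun k _ => hS2 k _),
      KD.opT_sum hF _ _ (fun k _ => hS2 k _), KD.opT_add hF (hZ.smul _) (hX.smul _),
      KD.opT_smul, KD.opT_smul]
    rw [Finset.sum_range_succ' _ n]
    have e : ∀ k ∈ Finset.range n, (opT F h)^[k + 1]
        (ρ ^ (k + 1 + 1) • opAz F h (g (n + 1 - 1 - (k + 1))) +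
          cK h (k + 1) • opAx F h (g (n + 1 - 1 - (k + 1)))) =
        ρ • ((2 : ℝ) • opT F h ((opT F h)^[k] (opAx F h (g (n - 1 - k)))) +
          opT F h ((opT F h)^[k] (ρ ^ (k + 1) • opAz F h (g (n - 1 - k)) +
            cK h k • opAx F h (g (n - 1 - k))))) := by
      intro k _
      have : n + 1 - 1 - (k + 1) = n - 1 - k := by omega
      rw [this, hsplit]
    rw [Finset.sum_congr rfl e, ← Finset.smul_sum, Finset.sum_add_distrib, ← Finset.smul_sum,
      Function.iterate_zero_apply]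
    have e2 : n + 1 - 1 - 0 = n := by omega
    rw [e2, cK_zero, zero_smul, add_zero, zero_add, pow_one, cK_succ, pow_succ' ρ n,
      Function.iterate_succ_apply', Function.iterate_succ_apply', ← hρ]
    simp only [smul_add, smul_sub, smul_smul, mul_add, add_smul]
    rw [show ρ * (2 * h ^ 2) = h ^ 2 * (ρ * 2) by ring, show ρ * h ^ 2 = h ^ 2 * ρ by ring]
    abel

end duhamel

end Vale.Agent.P347
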