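import Mathlib

/-!
# P347, K21: choice of the parameters
-/

namespace Vale.Agent.P347

namespace ParamAux

variable {C₁ C₂ E L M c : ℝ}

theorem err1 (hE : 1 ≤ E) (hL : 1 ≤ L) (hC : 1 ≤ C₁) (hM : M + 1 ≤ (C₁ + 2) * (L ^ 2 * E)) :
    E ^ 3 * ((1 / (E * L)) ^ 4 * (M + 1)) ≤ (C₁ + 2) / L := by
  have hE0 : 0 < E := by linarith
  have hL0 : 0 < L := by linarith
  calc E ^ 3 * ((1 / (E * L)) ^ 4 * (M + 1))
      ≤ E ^ 3 * ((1 / (E * L)) ^ 4 * ((C₁ + 2) * (L ^ 2 * E))) := by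
        refine mul_le_mul_of_nonneg_left ?_ (by positivity)
        exact mul_le_mul_of_nonneg_left hM (by positivity)
    _ = (C₁ + 2) / L ^ 2 := by
        field_simp
    _ ≤ (C₁ + 2) / L := by
        apply div_le_div_of_nonneg_left (by linarith) hL0
        nlinarith

theorem err2 (hE : 1 ≤ E) (hL : 1 ≤ L) (hC : 1 ≤ C₁) (hM0 : 0 ≤ M)
    (hlogE : Real.log E = L / 6) (hM : M + 1 ≤ (C₁ + 2) * (L ^ 2 * E)) :
    E ^ 3 * ((1 / (E * L)) ^ 3 * (1 + Real.log (M + 1))) ≤ (C₁ + 6) / L := by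
  have hE0 : 0 < E := by linarith
  have hL0 : 0 < L := by linarith
  have hlogL : Real.log L ≤ L := (Real.log_le_sub_one_of_pos hL0).trans (by linarith)
  have hC2 : 0 < C₁ + 2 := by linarith
  have hlogN : Real.log (M + 1) ≤ (C₁ + 2) + 3 * L := by
    calc Real.log (M + 1) ≤ Real.log ((C₁ + 2) * (L ^ 2 * E)) :=
          Real.log_le_log (by positivity) hM
      _ = Real.log (C₁ + 2) + (2 * Real.log L + L / 6) := by
          rw [Real.log_mul (by positivity) (by positivity), Real.log_mul (by positivity)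
            (by positivity), Real.log_pow, hlogE]
          push_cast
          ring
      _ ≤ (C₁ + 2) + 3 * L := by
          have := Real.log_le_sub_one_of_pos hC2
          linarith
  calc E ^ 3 * ((1 / (E * L)) ^ 3 * (1 + Real.log (M + 1)))
      ≤ E ^ 3 * ((1 / (E * L)) ^ 3 * ((C₁ + 6) * L)) := by
        refine mul_le_mul_of_nonneg_left ?_ (by positivity)
        refine mul_le_mul_of_nonneg_left ?_ (by positivity)
        nlinarith
    _ = (C₁ + 6) / L ^ 2 := by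
        field_simp
    _ ≤ (C₁ + 6) / L := by
        apply div_le_div_of_nonneg_left (by linarith) hL0
        nlinarith

theorem err3 (hL : 1 ≤ L) (hC : 1 ≤ C₁) (hE : E = Real.exp (L / 6)) (hEL : 1 ≤ E * L) {N : ℕ}
    (hN : C₁ * L ^ 2 * E ≤ N) :
    E ^ 3 * (1 / (1 / (E * L)) ^ 2 * (1 - (1 / (E * L)) / C₁) ^ N) ≤ 1296 / L := by
  have hE0 : 0 < E := hE ▸ Real.exp_pos _
  have hL0 : 0 < L := by linarith
  have hC1 : 0 < C₁ := by linarith
  have hh1 : 1 / (E * L) ≤ 1 := by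
    rw [div_le_one (by positivity)]
    exact hEL
  have hb0 : 0 ≤ 1 - (1 / (E * L)) / C₁ := by
    have : (1 / (E * L)) / C₁ ≤ 1 := by
      rw [div_le_one hC1]
      linarith
    linarith
  have hpow : (1 - (1 / (E * L)) / C₁) ^ N ≤ Real.exp (-L) := by
    calc (1 - (1 / (E * L)) / C₁) ^ N ≤ (Real.exp (-((1 / (E * L)) / C₁))) ^ N :=
          pow_le_pow_left₀ hb0 (Real.one_sub_le_exp_neg _) N
      _ = Real.exp (-(N * ((1 / (E * L)) / C₁))) := by
          rw [← Real.exp_nat_mul]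
          congr 1
          ring
      _ ≤ Real.exp (-L) := by
          apply Real.exp_le_exp.mpr
          have : C₁ * L ^ 2 * E * ((1 / (E * L)) / C₁) ≤ N * ((1 / (E * L)) / C₁) :=
            mul_le_mul_of_nonneg_right hN (by positivity)
          have e : C₁ * L ^ 2 * E * ((1 / (E * L)) / C₁) = L := by
            field_simp
          linarith
  have hE6' : Real.exp (-L) = 1 / E ^ 6 := by
    rw [hE, ← Real.exp_nat_mul, Real.exp_neg, one_div]
    congr 2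
    push_cast
    ring
  have hE3 : L ^ 3 / 1296 ≤ E := by
    have := Real.pow_div_factorial_le_exp (L / 6) (by positivity) 3
    calc L ^ 3 / 1296 = (L / 6) ^ 3 / (Nat.factorial 3 : ℝ) := by
          norm_num [Nat.factorial]
          ring
      _ ≤ Real.exp (L / 6) := this
      _ = E := hE.symm
  calc E ^ 3 * (1 / (1 / (E * L)) ^ 2 * (1 - (1 / (E * L)) / C₁) ^ N)
      ≤ E ^ 3 * (1 / (1 / (E * L)) ^ 2 * (1 / E ^ 6)) := by
        refine mul_le_mul_of_nonneg_left ?_ (by positivity)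
        refine mul_le_mul_of_nonneg_left ?_ (by positivity)
        rw [← hE6']
        exact hpow
    _ = L ^ 2 / E := by
        field_simp
    _ ≤ L ^ 2 / (L ^ 3 / 1296) :=
        div_le_div_of_nonneg_left (by positivity) (by positivity) hE3
    _ = 1296 / L := by
        field_simp

theorem err4 (hE : 1 ≤ E) (hL : 1 ≤ L) (hC : 1 ≤ C₁) {J : ℕ} (hJ : (E ^ 6) ^ 3 ≤ (2 : ℝ) ^ J) :
    C₁ * E ^ 6 * (1 / (E * L)) / Real.sqrt (2 ^ J) ≤ C₁ * (1 / L) := by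
  have hE0 : 0 < E := by linarith
  have hL0 : 0 < L := by linarith
  have s1 : E ^ 9 ≤ Real.sqrt (2 ^ J) := by
    apply Real.le_sqrt_of_sq_le
    calc (E ^ 9) ^ 2 = (E ^ 6) ^ 3 := by ring
      _ ≤ _ := hJ
  calc C₁ * E ^ 6 * (1 / (E * L)) / Real.sqrt (2 ^ J) ≤ C₁ * E ^ 6 * (1 / (E * L)) / E ^ 9 :=
        div_le_div_of_nonneg_left (by positivity) (by positivity) s1
    _ = C₁ * (1 / L) / E ^ 4 := by
        field_simp
    _ ≤ C₁ * (1 / L) := by
        apply div_le_self (by positivity)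
        exact one_le_pow₀ hE

theorem count (hE : 1 ≤ E) (hL : 1 ≤ L) (hC : 1 ≤ C₁) {N J n : ℝ} (hn0 : 0 ≤ n)
    (hc : 0 ≤ c) (hn : n ≤ 100 * c * L ^ 2) (hN : N ≤ C₁ * L ^ 2 * E + 1) (hJ : J ≤ 9 * L) :
    N * (2 * n + 1) + J * (n + 1) ≤
      ((C₁ + 1) * (200 * c + 1) + 9 * (100 * c + 1)) * E * L ^ 4 := by
  have hE0 : 0 < E := by linarith
  have hL0 : 0 < L := by linarith
  have hLL : 1 ≤ L ^ 2 := one_le_pow₀ hL
  have hLE : 1 ≤ L ^ 2 * E := by nlinarith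
  have p1 : 2 * n + 1 ≤ (200 * c + 1) * L ^ 2 := by nlinarith
  have p2 : n + 1 ≤ (100 * c + 1) * L ^ 2 := by nlinarith
  have p3 : N ≤ (C₁ + 1) * (L ^ 2 * E) := by nlinarith
  have p4 : L * L ^ 2 ≤ E * L ^ 4 := by
    calc L * L ^ 2 = 1 * (L ^ 3 * 1) := by ring
      _ ≤ E * (L ^ 3 * L) :=
        mul_le_mul hE (mul_le_mul_of_nonneg_left hL (by positivity)) (by positivity)
          (by positivity)
      _ = _ := by ring
  calc N * (2 * n + 1) + J * (n + 1)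
      ≤ ((C₁ + 1) * (L ^ 2 * E)) * ((200 * c + 1) * L ^ 2) +
        (9 * L) * ((100 * c + 1) * L ^ 2) := by
        refine add_le_add ?_ ?_
        · exact mul_le_mul p3 p1 (by positivity) (by positivity)
        · exact mul_le_mul hJ p2 (by positivity) (by positivity)
    _ = ((C₁ + 1) * (L ^ 2 * E)) * ((200 * c + 1) * L ^ 2) +
        (9 * (100 * c + 1)) * (L * L ^ 2) := by ring
    _ ≤ ((C₁ + 1) * (L ^ 2 * E)) * ((200 * c + 1) * L ^ 2) +
        (9 * (100 * c + 1)) * (E * L ^ 4) := by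
        have := mul_le_mul_of_nonneg_left p4 (by positivity : 0 ≤ 9 * (100 * c + 1))
        linarith
    _ = _ := by ring

/-- the number of halving steps -/
theorem choose_J {d : ℕ} (hd : 0 < (d : ℝ)) (hL : 1 ≤ Real.log d) :
    ∃ J : ℕ, 1 ≤ J ∧ (d : ℝ) ^ 3 ≤ 2 ^ J ∧ (2 : ℝ) ^ J ≤ 8 * d ^ 3 ∧ (J : ℝ) ≤ 9 * Real.log d := by
  set L := Real.log d with hLd
  set b := Nat.log 2 d + 1 with hb
  have hdn : d ≠ 0 := by
    rintro rfl
    simp at hd
  have hb1 : d < 2 ^ b := Nat.lt_pow_succ_log_self (by norm_num) d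
  have hb2 : 2 ^ b ≤ 2 * d := by
    rw [hb, pow_succ, mul_comm]
    exact Nat.mul_le_mul_left 2 (Nat.pow_log_le_self 2 hdn)
  have hb1r : (d : ℝ) ≤ 2 ^ b := by exact_mod_cast hb1.le
  have hb2r : (2 : ℝ) ^ b ≤ 2 * d := by exact_mod_cast hb2
  have hlog2 : (1 / 2 : ℝ) ≤ Real.log 2 := by
    have := Real.log_two_gt_d9
    linarith
  refine ⟨3 * b, by omega, ?_, ?_, ?_⟩
  · rw [mul_comm 3 b, pow_mul]
    exact pow_le_pow_left₀ hd.le hb1r 3
  · rw [mul_comm 3 b, pow_mul]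
    calc ((2 : ℝ) ^ b) ^ 3 ≤ (2 * d) ^ 3 := pow_le_pow_left₀ (by positivity) hb2r 3
      _ = _ := by ring
  · have h3 : (b : ℝ) * Real.log 2 ≤ Real.log 2 + L := by
      have := Real.log_le_log (by positivity) hb2r
      rw [Real.log_pow, Real.log_mul (by norm_num) hd.ne'] at this
      exact this
    have h4 : (b : ℝ) * Real.log 2 ≤ (1 + 2 * L) * Real.log 2 := by
      nlinarith
    have h5 : (b : ℝ) ≤ 1 + 2 * L := le_of_mul_le_mul_right h4 (by linarith)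
    push_cast
    linarith

theorem log_tau (hE : 1 ≤ E) (hL : 1 ≤ L) (hlogE : Real.log E = L / 6) {J : ℕ}
    (hJ : (2 : ℝ) ^ J ≤ 8 * (E ^ 6) ^ 3) :
    Real.log (1 / ((1 / (E * L)) ^ 2 / 2 ^ J)) ≤ 9 * L := by
  have hE0 : 0 < E := by linarith
  have hL0 : 0 < L := by linarith
  have hlogL : Real.log L ≤ L := (Real.log_le_sub_one_of_pos hL0).trans (by linarith)
  have hlog2' : Real.log 2 ≤ 1 := by
    have := Real.log_two_lt_d9
    linarith
  have e1 : 1 / ((1 / (E * L)) ^ 2 / 2 ^ J) = 2 ^ J * (E * L) ^ 2 := by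
    field_simp
  have e2 : 1 / ((1 / (E * L)) ^ 2 / 2 ^ J) ≤ 8 * (E ^ 20 * L ^ 2) := by
    rw [e1]
    calc (2 : ℝ) ^ J * (E * L) ^ 2 ≤ (8 * (E ^ 6) ^ 3) * (E * L) ^ 2 :=
          mul_le_mul_of_nonneg_right hJ (by positivity)
      _ = 8 * (E ^ 20 * L ^ 2) := by ring
  calc Real.log (1 / ((1 / (E * L)) ^ 2 / 2 ^ J)) ≤ Real.log (8 * (E ^ 20 * L ^ 2)) :=
        Real.log_le_log (by positivity) e2
    _ = Real.log 8 + (20 * Real.log E + 2 * Real.log L) := by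
        rw [Real.log_mul (by norm_num) (by positivity), Real.log_mul (by positivity)
          (by positivity), Real.log_pow, Real.log_pow]
        push_cast
        ring
    _ ≤ 3 + (20 * (L / 6) + 2 * L) := by
        have : Real.log 8 ≤ 3 := by
          rw [show (8 : ℝ) = 2 ^ 3 by norm_num, Real.log_pow]
          push_cast
          linarith
        rw [hlogE]
        linarith
    _ ≤ 9 * L := by linarith

end ParamAux

open ParamAux in
theorem params (C₁ C₂ : ℝ) (h1 : 1 ≤ C₁) : ∃ (C : ℝ) (m d₀ : ℕ), ∀ d : ℕ, d₀ ≤ d →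
    ∃ (h τ : ℝ) (N J : ℕ), 0 < h ∧ h ≤ 1 / C₁ ∧ 0 < τ ∧ τ ≤ 1 / 2 ∧ τ ≤ h ^ 2 / 2 ^ J ∧
      C₁ * Real.sqrt d * (h ^ 4 * (N + 1) + h ^ 3 * (1 + Real.log (N + 1)) +
        1 / h ^ 2 * (1 - h / C₁) ^ N) + C₁ * d * h / Real.sqrt (2 ^ J) ≤ 1 / 10 ∧
      ∀ n : ℕ, (n : ℝ) ≤ C₂ * (1 + Real.log (1 / τ)) ^ 2 →
        ((N * (2 * n + 1) + J * (n + 1) : ℕ) : ℝ) ≤ C * (d : ℝ) ^ ((1 : ℝ) / 6) * Real.log d ^ m := by
  refine ⟨(C₁ + 1) * (200 * |C₂| + 1) + 9 * (100 * |C₂| + 1), 4,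
    ⌈Real.exp (10 * C₁ * (2 * C₁ + 1305))⌉₊, ?_⟩
  intro d hd
  have hC1 : 0 < C₁ := by linarith
  -- the logarithm
  have hdr : Real.exp (10 * C₁ * (2 * C₁ + 1305)) ≤ d := by
    refine (Nat.le_ceil _).trans ?_
    exact_mod_cast hd
  have hd0 : (0 : ℝ) < d := (Real.exp_pos _).trans_le hdr
  have hLbig : 10 * C₁ * (2 * C₁ + 1305) ≤ Real.log d := by
    rw [Real.le_log_iff_exp_le hd0]
    exact hdr
  have hL1 : 1 ≤ Real.log d := by nlinarith
  obtain ⟨J, hJ0, hJ1, hJ2, hJL⟩ := choose_J hd0 hL1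
  generalize hL : Real.log d = L at *
  have hL0 : 0 < L := by linarith
  have hLC : C₁ ≤ L := by nlinarith
  obtain ⟨E, hE⟩ : ∃ E, E = Real.exp (L / 6) := ⟨_, rfl⟩
  have hE1 : 1 ≤ E := hE ▸ Real.one_le_exp (by positivity)
  have hE0 : 0 < E := by linarith
  have hEd : E = (d : ℝ) ^ ((1 : ℝ) / 6) := by
    rw [Real.rpow_def_of_pos hd0, hL, hE]
    congr 1
    ring
  have hE6 : E ^ 6 = d := by
    rw [hE, ← Real.exp_nat_mul, ← hL]
    have : ((6 : ℕ) : ℝ) * (Real.log d / 6) = Real.log d := by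
      push_cast
      ring
    rw [this, Real.exp_log hd0]
  have hsq : Real.sqrt d = E ^ 3 := by
    rw [← hE6, show E ^ 6 = (E ^ 3) ^ 2 by ring, Real.sqrt_sq (by positivity)]
  have hEL : 1 ≤ E * L := by nlinarith
  have hlogE : Real.log E = L / 6 := by rw [hE, Real.log_exp]
  rw [← hE6] at hJ1 hJ2
  -- the number of steps
  obtain ⟨N, hN1, hN2⟩ : ∃ N : ℕ, C₁ * L ^ 2 * E ≤ N ∧ (N : ℝ) ≤ C₁ * L ^ 2 * E + 1 :=
    ⟨⌈C₁ * L ^ 2 * E⌉₊, Nat.le_ceil _, (Nat.ceil_lt_add_one (by positivity)).le⟩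
  have hL2E : 1 ≤ L ^ 2 * E := by nlinarith [mul_self_nonneg (L - 1)]
  have hN3 : (N : ℝ) + 1 ≤ (C₁ + 2) * (L ^ 2 * E) := by nlinarith
  -- the accuracy
  have hh0 : 0 < 1 / (E * L) := by positivity
  have hh1 : 1 / (E * L) ≤ 1 := by
    rw [div_le_one (by positivity)]
    exact hEL
  have hJ3 : (2 : ℝ) ≤ 2 ^ J := by
    calc (2 : ℝ) = 2 ^ 1 := (pow_one 2).symm
      _ ≤ 2 ^ J := pow_le_pow_right₀ (by norm_num) hJ0
  have hτ0 : 0 < (1 / (E * L)) ^ 2 / 2 ^ J := by positivity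
  have hτ1 : (1 / (E * L)) ^ 2 / 2 ^ J ≤ 1 / 2 :=
    div_le_div₀ (by norm_num) (pow_le_one₀ hh0.le hh1) (by norm_num) hJ3
  have htl := log_tau hE1 hL1 hlogE hJ2
  have htl0 : 0 ≤ Real.log (1 / ((1 / (E * L)) ^ 2 / 2 ^ J)) := by
    apply Real.log_nonneg
    rw [le_div_iff₀ hτ0]
    linarith
  refine ⟨1 / (E * L), (1 / (E * L)) ^ 2 / 2 ^ J, N, J, hh0, ?_, hτ0, hτ1, le_rfl, ?_, ?_⟩
  · apply one_div_le_one_div_of_le hC1
    nlinarith
  · -- the error
    have t1 := err1 hE1 hL1 h1 hN3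
    have t2 := err2 hE1 hL1 h1 (Nat.cast_nonneg N) hlogE hN3
    have t3 := err3 hL1 h1 hE hEL hN1
    have t4 := err4 hE1 hL1 h1 hJ1
    rw [hE6] at t4
    have e : C₁ * (2 * C₁ + 1305) / L =
        C₁ * ((C₁ + 2) / L + (C₁ + 6) / L + 1296 / L) + C₁ * (1 / L) := by
      ring
    have hsum : C₁ * Real.sqrt d * ((1 / (E * L)) ^ 4 * (N + 1) +
        (1 / (E * L)) ^ 3 * (1 + Real.log (N + 1)) +
        1 / (1 / (E * L)) ^ 2 * (1 - (1 / (E * L)) / C₁) ^ N) +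
          C₁ * d * (1 / (E * L)) / Real.sqrt (2 ^ J) ≤
        C₁ * (2 * C₁ + 1305) / L := by
      rw [e]
      refine add_le_add ?_ t4
      rw [mul_assoc, hsq]
      refine mul_le_mul_of_nonneg_left ?_ hC1.le
      rw [mul_add, mul_add]
      exact add_le_add (add_le_add t1 t2) t3
    refine hsum.trans ?_
    rw [div_le_div_iff₀ hL0 (by norm_num)]
    linarith
  · -- the number of queries
    intro n hn
    have hn2 : (n : ℝ) ≤ 100 * |C₂| * L ^ 2 := by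
      calc (n : ℝ) ≤ C₂ * (1 + Real.log (1 / ((1 / (E * L)) ^ 2 / 2 ^ J))) ^ 2 := hn
        _ ≤ |C₂| * (1 + Real.log (1 / ((1 / (E * L)) ^ 2 / 2 ^ J))) ^ 2 :=
            mul_le_mul_of_nonneg_right (le_abs_self _) (by positivity)
        _ ≤ |C₂| * (10 * L) ^ 2 := by
            refine mul_le_mul_of_nonneg_left ?_ (abs_nonneg _)
            exact pow_le_pow_left₀ (by linarith) (by linarith) 2
        _ = _ := by ring
    rw [← hEd]
    push_cast
    exact count hE1 hL1 h1 (Nat.cast_nonneg n) (abs_nonneg _) hn2 hN2 hJL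

end Vale.Agent.P347
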