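import Mathlib

/-!
P347, block A8b: the polynomial inequality between the quadrature and the AR(1) weights.
-/

namespace Vale.Agent.P347

namespace QAR

/-- difference of the two kernels -/
theorem kernel_diff {D X : ℝ} (hD : 0 < D) (hX : D ≤ X) :
    |D / X - (Real.exp D - 1) / (Real.exp X - 1)| ≤ D := by
  have hX0 : 0 < X := hD.trans_le hX
  have h1 : 0 < Real.exp X - 1 := by
    have := Real.add_one_lt_exp hX0.ne'
    linarith
  have h2 : 0 < Real.exp D - 1 := by
    have := Real.add_one_lt_exp hD.ne'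
    linarith
  -- `(e^D - 1) / D ≤ (e^X - 1) / X`
  have h3 : X * (Real.exp D - 1) ≤ D * (Real.exp X - 1) := by
    -- convexity of exp
    have hc := convexOn_exp.2 (Set.mem_univ (0 : ℝ)) (Set.mem_univ X)
      (show (0 : ℝ) ≤ 1 - D / X by rw [sub_nonneg, div_le_one hX0]; exact hX)
      (show (0 : ℝ) ≤ D / X by positivity) (by ring)
    simp only [smul_eq_mul, mul_zero, zero_add, Real.exp_zero, mul_one] at hc
    rw [div_mul_cancel₀ D hX0.ne'] at hc
    have h4 : X * Real.exp D ≤ X * (1 - D / X + D / X * Real.exp X) :=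
      mul_le_mul_of_nonneg_left hc hX0.le
    have h5 : X * (1 - D / X + D / X * Real.exp X) = X - D + D * Real.exp X := by
      field_simp
    linarith
  have h6 : (Real.exp D - 1) / (Real.exp X - 1) ≤ D / X := by
    rw [div_le_div_iff₀ h1 hX0]
    linarith
  have h7 : D / (Real.exp X - 1) ≤ (Real.exp D - 1) / (Real.exp X - 1) := by
    gcongr
    have := Real.add_one_le_exp D
    linarith
  have h8 : D / X ≤ D + D / (Real.exp X - 1) := by
    have h9 : 1 / X ≤ 1 + 1 / (Real.exp X - 1) := by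
      have h10 : 1 + 1 / (Real.exp X - 1) = Real.exp X / (Real.exp X - 1) := by
        field_simp
        ring
      rw [h10, div_le_div_iff₀ hX0 h1]
      have h11 : 1 - X ≤ Real.exp (-X) := by
        have := Real.add_one_le_exp (-X)
        linarith
      have h12 : (1 - X) * Real.exp X ≤ 1 := by
        have := mul_le_mul_of_nonneg_right h11 (Real.exp_pos X).le
        rwa [← Real.exp_add, neg_add_cancel, Real.exp_zero] at this
      linarith
    calc D / X = D * (1 / X) := by ring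
      _ ≤ D * (1 + 1 / (Real.exp X - 1)) := mul_le_mul_of_nonneg_left h9 hD.le
      _ = D + D / (Real.exp X - 1) := by ring
  rw [abs_le]
  constructor <;> linarith

/-- closed form of the AR(1) weights -/
theorem geom_diff {a t : ℝ} (ha0 : 0 < a) (ha1 : a < 1) (ht0 : 0 ≤ t) (ht1 : t ≤ 1) (K : ℕ) :
    |∑ j : Fin K, (1 - a) * a ^ (j : ℕ) * t ^ ((j : ℕ) + 1) - (1 - a) * t / (1 - a * t)| ≤
      a ^ K := by
  have hat : a * t < 1 := by nlinarith
  have hat0 : 0 ≤ a * t := by positivity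
  have h1 : ∑ j : Fin K, (1 - a) * a ^ (j : ℕ) * t ^ ((j : ℕ) + 1) =
      (1 - a) * t * ∑ j ∈ Finset.range K, (a * t) ^ j := by
    rw [Fin.sum_univ_eq_sum_range (fun j => (1 - a) * a ^ j * t ^ (j + 1)) K, Finset.mul_sum]
    refine Finset.sum_congr rfl fun j _ => ?_
    rw [mul_pow]
    ring
  have h2 : (1 - a * t) * ∑ j ∈ Finset.range K, (a * t) ^ j = 1 - (a * t) ^ K :=
    mul_neg_geom_sum (a * t) K
  have h3 : ∑ j ∈ Finset.range K, (a * t) ^ j = (1 - (a * t) ^ K) / (1 - a * t) := by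
    rw [eq_div_iff (by linarith), mul_comm]
    exact h2
  rw [h1, h3]
  have h4 : (1 - a) * t * ((1 - (a * t) ^ K) / (1 - a * t)) - (1 - a) * t / (1 - a * t) =
      -((1 - a) * t / (1 - a * t) * (a * t) ^ K) := by ring
  rw [h4, abs_neg, abs_of_nonneg (by
    have : 0 < 1 - a * t := by linarith
    have h1a : 0 ≤ 1 - a := by linarith
    positivity)]
  have h5 : (1 - a) * t / (1 - a * t) ≤ 1 := by
    rw [div_le_one (by linarith)]
    nlinarith
  have h6 : (a * t) ^ K ≤ a ^ K := by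
    apply pow_le_pow_left₀ hat0
    nlinarith
  have h7 : 0 ≤ (a * t) ^ K := by positivity
  calc (1 - a) * t / (1 - a * t) * (a * t) ^ K ≤ 1 * (a * t) ^ K :=
        mul_le_mul_of_nonneg_right h5 h7
    _ ≤ a ^ K := by rw [one_mul]; exact h6

end QAR

/-- the polynomial inequality between the quadrature and the AR(1) weights -/
theorem quad_ar {n : ℕ} {r τ : ℝ} (hr0 : 0 < r) (hr1 : r < 1) (k : Fin n → ℕ) (p : Fin n → ℝ)
    (hp : ∀ i, 0 ≤ p i) (hs : ∑ i, p i = 1) (hk : ∀ i, 1 ≤ k i)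
    (h : ∀ y : ℝ, 0 ≤ y → |∑ i, p i * (r ^ (k i : ℝ)) ^ y - 1 / (1 + y)| ≤ τ) (hτ : 0 < τ) :
    ∃ l0 : ℕ, ∀ l ≥ l0, ∃ K0 : ℕ, ∀ K ≥ K0, ∀ t ∈ Set.Icc (0 : ℝ) 1,
      |∑ i, p i * t ^ (k i * 2 ^ l) -
        ∑ j : Fin K, (1 - r ^ ((1 : ℝ) / 2 ^ l)) * (r ^ ((1 : ℝ) / 2 ^ l)) ^ (j : ℕ) * t ^ ((j : ℕ) + 1)| ≤
        2 * τ := by
  have hlog : 0 < -Real.log r := by
    have := Real.log_neg hr0 hr1
    linarith
  obtain ⟨l0, hl0⟩ : ∃ l0 : ℕ, ∀ l ≥ l0, -Real.log r / 2 ^ l ≤ τ / 2 := by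
    obtain ⟨l0, hl0⟩ := pow_unbounded_of_one_lt (-Real.log r / (τ / 2)) (one_lt_two (α := ℝ))
    refine ⟨l0, fun l hl => ?_⟩
    have h1 : (2 : ℝ) ^ l0 ≤ 2 ^ l := pow_le_pow_right₀ one_le_two hl
    rw [div_lt_iff₀ (by positivity)] at hl0
    rw [div_le_iff₀ (by positivity)]
    nlinarith
  refine ⟨l0, fun l hl => ?_⟩
  have hD := hl0 l hl
  set D : ℝ := -Real.log r / 2 ^ l with hDdef
  have hD0 : 0 < D := by positivity
  have haD : r ^ ((1 : ℝ) / 2 ^ l) = Real.exp (-D) := by
    rw [Real.rpow_def_of_pos hr0, hDdef]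
    congr 1
    ring
  rw [haD]
  have ha0 : 0 < Real.exp (-D) := Real.exp_pos _
  have ha1 : Real.exp (-D) < 1 := by
    rw [Real.exp_lt_one_iff]
    linarith
  obtain ⟨K0, hK0⟩ : ∃ K0 : ℕ, ∀ K ≥ K0, Real.exp (-D) ^ K ≤ τ / 2 := by
    obtain ⟨K0, hK0⟩ := exists_pow_lt_of_lt_one (half_pos hτ) ha1
    exact ⟨K0, fun K hK => (pow_le_pow_of_le_one ha0.le ha1.le hK).trans hK0.le⟩
  refine ⟨K0, fun K hK t ht => ?_⟩
  have hKt := hK0 K hK
  have hg := QAR.geom_diff ha0 ha1 ht.1 ht.2 K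
  rcases eq_or_lt_of_le ht.1 with h0 | h0
  · -- `t = 0`
    subst h0
    have h1 : ∑ i, p i * (0 : ℝ) ^ (k i * 2 ^ l) = 0 := by
      refine Finset.sum_eq_zero fun i _ => ?_
      rw [zero_pow (by have := hk i; positivity), mul_zero]
    rw [h1]
    simp
    positivity
  · set x : ℝ := -Real.log t / D with hx
    have hx0 : 0 ≤ x := by
      have := Real.log_nonpos ht.1 ht.2
      have h2 : 0 ≤ -Real.log t := by linarith
      positivity
    have htx : t = Real.exp (-(D * x)) := by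
      rw [hx, mul_div_cancel₀ _ hD0.ne', neg_neg, Real.exp_log h0]
    have h1 : ∑ i, p i * t ^ (k i * 2 ^ l) = ∑ i, p i * (r ^ (k i : ℝ)) ^ x := by
      refine Finset.sum_congr rfl fun i _ => ?_
      congr 1
      rw [htx, ← Real.exp_nat_mul, ← Real.rpow_mul hr0.le, Real.rpow_def_of_pos hr0]
      congr 1
      rw [hDdef]
      push_cast
      field_simp
    have h2 := h x hx0
    have h3 : (1 - Real.exp (-D)) * t / (1 - Real.exp (-D) * t) =
        (Real.exp D - 1) / (Real.exp (D * (1 + x)) - 1) := by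
      rw [htx, ← Real.exp_add]
      have h4 : 1 - Real.exp (-D + -(D * x)) ≠ 0 := by
        have : Real.exp (-D + -(D * x)) < 1 := by
          rw [Real.exp_lt_one_iff]
          nlinarith
        linarith
      have h5 : Real.exp (D * (1 + x)) - 1 ≠ 0 := by
        have : 1 < Real.exp (D * (1 + x)) := by
          rw [Real.one_lt_exp_iff]
          positivity
        linarith
      rw [div_eq_div_iff h4 h5]
      have e1 : Real.exp (-(D * x)) * Real.exp (D * (1 + x)) = Real.exp D := by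
        rw [← Real.exp_add]
        congr 1
        ring
      have e2 : Real.exp (-D) * Real.exp D = 1 := by
        rw [← Real.exp_add]
        simp
      have e3 : Real.exp (-D + -(D * x)) = Real.exp (-D) * Real.exp (-(D * x)) := Real.exp_add _ _
      rw [e3]
      linear_combination (1 - Real.exp (-D)) * e1 + (Real.exp (-(D * x)) - 1) * e2
    have h6 := QAR.kernel_diff hD0 (X := D * (1 + x)) (by nlinarith)
    have h7 : D / (D * (1 + x)) = 1 / (1 + x) := by
      field_simp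
    rw [h7, ← h3] at h6
    rw [h1]
    rw [abs_le] at h2 h6 hg ⊢
    constructor <;> linarith [h2.1, h2.2, h6.1, h6.2, hg.1, hg.2]

end Vale.Agent.P347
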