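import Vale.Agent.P347.OpBound
import Vale.Agent.P347.QuadAR
import Vale.Agent.P347.Centred

/-!
# P347, B'4: difference of the two conditional means
-/

open MeasureTheory ProbabilityTheory
open scoped ENNReal NNReal RealInnerProductSpace

namespace Vale.Agent.P347

namespace MD

theorem memLp_of_poly {d k : ℕ} {f : E d → E k} (hc : Continuous f) (hf : PolyGrowth f) :
    MemLp f 2 (gam d) := by
  refine (memLp_two_iff_integrable_sq_norm hc.aestronglyMeasurable).2 ?_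
  exact OB.integrable_of_poly (by fun_prop) (MehlerAux.polyGrowth_sq hf)

theorem avg_cont {d k : ℕ} {ι : Type} [Fintype ι] {p ρ : ι → ℝ} {f : E d → E k}
    (hc : Continuous f) (hf : PolyGrowth f) : Continuous (avg p ρ f) := by
  unfold avg
  refine continuous_finsetSum _ fun i _ => ?_
  have h := mehler_continuous (ρ := ρ i) hc hf
  fun_prop

theorem avg_poly {d k : ℕ} {ι : Type} [Fintype ι] {p ρ : ι → ℝ} (h0 : ∀ i, 0 ≤ ρ i)
    (h1 : ∀ i, ρ i ≤ 1) {f : E d → E k} (hc : Continuous f) (hf : PolyGrowth f) :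
    PolyGrowth (avg p ρ f) := by
  classical
  have : ∀ s : Finset ι, PolyGrowth fun x => ∑ i ∈ s, p i • mehler (ρ i) f x := by
    intro s
    induction s using Finset.induction_on with
    | empty => exact ⟨0, 0, fun x => by simp⟩
    | insert i s hi ih =>
      simp only [Finset.sum_insert hi]
      exact OB.poly_add (OB.poly_smul _ (mehler_polyGrowth (h0 i) (h1 i) hc hf)) ih
  exact this Finset.univ

theorem poly_of_lip {d k : ℕ} {w : E d → E k} {L : ℝ} (h : ∀ x y, ‖w x - w y‖ ≤ L * ‖x - y‖) :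
    PolyGrowth w := by
  refine ⟨‖w 0‖ + |L|, 1, fun x => ?_⟩
  have h1 := h x 0
  rw [sub_zero] at h1
  have h2 := norm_add_le (w x - w 0) (w 0)
  rw [sub_add_cancel] at h2
  have h3 : L * ‖x‖ ≤ |L| * ‖x‖ := mul_le_mul_of_nonneg_right (le_abs_self L) (norm_nonneg x)
  rw [pow_one]
  nlinarith [norm_nonneg x, norm_nonneg (w 0), abs_nonneg L,
    mul_nonneg (norm_nonneg (w 0)) (norm_nonneg x)]

theorem lip_of_fderiv {d k : ℕ} {w : E d → E k} (hw : ContDiff ℝ 1 w) {L : ℝ}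
    (h : ∀ x, ‖fderiv ℝ w x‖ ≤ L) (x y : E d) : ‖w x - w y‖ ≤ L * ‖x - y‖ :=
  Convex.norm_image_sub_le_of_norm_fderiv_le (𝕜 := ℝ) (s := Set.univ)
    (fun z _ => hw.differentiable one_ne_zero z) (fun z _ => h z) convex_univ
    (Set.mem_univ _) (Set.mem_univ _)

theorem gam_norm (d : ℕ) : ∫ x, ‖x‖ ∂gam d ≤ Real.sqrt d := by
  have h1 : MemLp (fun x : E d => x) 2 (gam d) := memLp_of_poly continuous_id
    ⟨1, 1, fun x => by simp⟩
  have := CP.cs (A := fun _ : E d => (1 : ℝ)) (B := fun x : E d => ‖x‖) (α := 1)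
    (β := Real.sqrt d) (memLp_const (μ := gam d) (1 : ℝ)) h1.norm (by norm_num)
    (by positivity) (by simp) (by
      have := gam_sq d
      rw [Real.sq_sqrt (by positivity)]
      simpa using this.le)
  simpa using this

theorem sq_lip {d k : ℕ} {w : E d → E k} {L : ℝ} (hL : 0 ≤ L)
    (h : ∀ x y, ‖w x - w y‖ ≤ L * ‖x - y‖) :
    ∫ x, ‖w x‖ ^ 2 ∂gam d ≤ (‖w 0‖ + L * Real.sqrt d) ^ 2 := by
  have i1 : Integrable (fun x : E d => ‖x‖) (gam d) :=
    OB.integrable_of_poly (by fun_prop) ⟨1, 1, fun x => by simp⟩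
  have i2 : Integrable (fun x : E d => ‖x‖ ^ 2) (gam d) :=
    OB.integrable_of_poly (by fun_prop) (MehlerAux.polyGrowth_sq (f := fun x : E d => x)
      ⟨1, 1, fun x => by simp⟩)
  have i3 : Integrable (fun x : E d => ‖w 0‖ ^ 2 + (2 * ‖w 0‖ * L) * ‖x‖) (gam d) :=
    (integrable_const _).add (i1.const_mul _)
  have i4 : Integrable (fun x : E d => ‖w 0‖ ^ 2 + (2 * ‖w 0‖ * L) * ‖x‖ + L ^ 2 * ‖x‖ ^ 2)
      (gam d) := i3.add (i2.const_mul _)
  calc ∫ x, ‖w x‖ ^ 2 ∂gam d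
      ≤ ∫ x, (‖w 0‖ ^ 2 + (2 * ‖w 0‖ * L) * ‖x‖ + L ^ 2 * ‖x‖ ^ 2) ∂gam d := by
        refine integral_mono_of_nonneg (Filter.Eventually.of_forall fun _ => by positivity) i4
          (Filter.Eventually.of_forall fun x => ?_)
        have h1 := h x 0
        rw [sub_zero] at h1
        have h2 := norm_add_le (w x - w 0) (w 0)
        rw [sub_add_cancel] at h2
        have h3 : ‖w x‖ ≤ ‖w 0‖ + L * ‖x‖ := by linarith
        calc ‖w x‖ ^ 2 ≤ (‖w 0‖ + L * ‖x‖) ^ 2 := pow_le_pow_left₀ (norm_nonneg _) h3 2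
          _ = _ := by ring
    _ = ‖w 0‖ ^ 2 + (2 * ‖w 0‖ * L) * ∫ x, ‖x‖ ∂gam d + L ^ 2 * d := by
        rw [integral_add i3 (i2.const_mul _), integral_add (integrable_const _) (i1.const_mul _),
          integral_const_mul, integral_const_mul, gam_sq]
        simp
    _ ≤ ‖w 0‖ ^ 2 + (2 * ‖w 0‖ * L) * Real.sqrt d + L ^ 2 * d := by
        have := mul_le_mul_of_nonneg_left (gam_norm d)
          (by positivity : 0 ≤ 2 * ‖w 0‖ * L)
        linarith
    _ = (‖w 0‖ + L * Real.sqrt d) ^ 2 := by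
        have := Real.sq_sqrt (by positivity : (0 : ℝ) ≤ d)
        nlinarith

end MD

theorem mean_diff {n : ℕ} {r τ : ℝ} (hr0 : 0 < r) (hr1 : r < 1) (hτ : 0 < τ) {k : Fin n → ℕ}
    {p : Fin n → ℝ} (hp : ∀ i, 0 ≤ p i) (hs : ∑ i, p i = 1) (hk : ∀ i, 1 ≤ k i)
    (hq : ∀ y : ℝ, 0 ≤ y → |∑ i, p i * (r ^ (k i : ℝ)) ^ y - 1 / (1 + y)| ≤ τ) :
    ∃ l0 : ℕ, ∀ l ≥ l0, ∃ K0 : ℕ, ∀ K ≥ K0, ∀ {d : ℕ} {w : E d → E d}, ContDiff ℝ 1 w →
      (∀ x, ‖fderiv ℝ w x‖ ≤ 2) →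
      ∫ x, ‖avg p (fun i => r ^ k i) w x -
        avg (fun j : Fin K => (1 - r ^ ((1 : ℝ) / 2 ^ l)) * (r ^ ((1 : ℝ) / 2 ^ l)) ^ (j : ℕ))
          (fun j : Fin K => (r ^ ((1 : ℝ) / 2 ^ l)) ^ ((j : ℕ) + 1)) w x‖ ∂gam d ≤
        2 * τ * (‖w 0‖ + 2 * Real.sqrt d) := by
  obtain ⟨l0, hl0⟩ := quad_ar hr0 hr1 k p hp hs hk hq hτ
  refine ⟨l0, fun l hl => ?_⟩
  obtain ⟨K0, hK0⟩ := hl0 l hl
  refine ⟨K0, fun K hK d w hw hw2 => ?_⟩
  have hmain := hK0 K hK
  set a : ℝ := r ^ ((1 : ℝ) / 2 ^ l) with ha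
  have ha0 : 0 ≤ a := Real.rpow_nonneg hr0.le _
  have ha1 : a ≤ 1 := Real.rpow_le_one hr0.le hr1.le (by positivity)
  have hak : ∀ i, a ^ (k i * 2 ^ l) = r ^ k i := by
    intro i
    rw [ha, ← Real.rpow_natCast (r ^ ((1 : ℝ) / 2 ^ l)), ← Real.rpow_mul hr0.le]
    push_cast
    rw [show (1 : ℝ) / 2 ^ l * ((k i : ℝ) * 2 ^ l) = (k i : ℝ) by field_simp, Real.rpow_natCast]
  have hlip := MD.lip_of_fderiv hw hw2
  have cw := hw.continuous
  have gw := MD.poly_of_lip hlip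
  have h1 := avg_sub_le ha0 ha1 p (fun i => k i * 2 ^ l)
    (fun j : Fin K => (1 - a) * a ^ (j : ℕ)) (fun j : Fin K => (j : ℕ) + 1)
    (τ := 2 * τ) (fun t ht => hmain t ht) cw gw
  simp only [hak] at h1
  set D : E d → E d := fun x => avg p (fun i => r ^ k i) w x -
    avg (fun j : Fin K => (1 - a) * a ^ (j : ℕ)) (fun j : Fin K => a ^ ((j : ℕ) + 1)) w x with hD
  have cD : Continuous D := (MD.avg_cont cw gw).sub (MD.avg_cont cw gw)
  have gD : PolyGrowth D := by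
    have g1 : PolyGrowth (avg p (fun i => r ^ k i) w) :=
      MD.avg_poly (fun i => by positivity) (fun i => pow_le_one₀ hr0.le hr1.le) cw gw
    have g2 : PolyGrowth (avg (fun j : Fin K => (1 - a) * a ^ (j : ℕ))
        (fun j : Fin K => a ^ ((j : ℕ) + 1)) w) :=
      MD.avg_poly (fun i => by positivity) (fun i => pow_le_one₀ ha0 ha1) cw gw
    have := OB.poly_add g1 (OB.poly_smul (-1) g2)
    simpa [hD, sub_eq_add_neg] using this
  have h2 := MD.sq_lip (by norm_num) hlip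
  have h3 : ∫ x, ‖D x‖ ^ 2 ∂gam d ≤ (2 * τ * (‖w 0‖ + 2 * Real.sqrt d)) ^ 2 := by
    refine h1.trans ?_
    calc _ ≤ (2 * τ) ^ 2 * (‖w 0‖ + 2 * Real.sqrt d) ^ 2 :=
          mul_le_mul_of_nonneg_left h2 (by positivity)
      _ = _ := by ring
  have h4 := CP.cs (A := fun _ : E d => (1 : ℝ)) (B := fun x : E d => ‖D x‖) (α := 1)
    (β := 2 * τ * (‖w 0‖ + 2 * Real.sqrt d)) (memLp_const (μ := gam d) (1 : ℝ))
    (MD.memLp_of_poly cD gD).norm (by norm_num) (by positivity) (by simp) (by simpa using h3)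
  simpa using h4

end Vale.Agent.P347
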