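import Vale.Agent.P347.Defs

/-!
# P347, C0a: basic facts on potentials with bounded Hessian
-/

open MeasureTheory ProbabilityTheory
open scoped ENNReal NNReal RealInnerProductSpace

namespace Vale.Agent.P347

namespace PotAux

variable {d : ℕ} {α β : ℝ} {U : E d → ℝ}

/-- the Riesz map as a continuous linear map -/
noncomputable def rz (d : ℕ) : (E d →L[ℝ] ℝ) →L[ℝ] E d :=
  LinearMap.toContinuousLinearMap
    { toFun := fun L => (InnerProductSpace.toDual ℝ (E d)).symm L
      map_add' := fun L L' => map_add _ L L'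
      map_smul' := fun c L => by
        apply ext_inner_right ℝ
        intro v
        simp only [RingHom.id_apply, inner_smul_left, conj_trivial,
          InnerProductSpace.toDual_symm_apply]
        rfl }

/-- the inner product as a continuous bilinear map -/
noncomputable def isl (d : ℕ) : E d →L[ℝ] E d →L[ℝ] ℝ :=
  LinearMap.toContinuousLinearMap
    { toFun := fun x => innerSL ℝ x
      map_add' := fun x y => map_add _ x y
      map_smul' := fun c x => by
        ext v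
        simp }

theorem isl_apply (x v : E d) : isl d x v = ⟪x, v⟫ := rfl

theorem inner_rz (L : E d →L[ℝ] ℝ) (v : E d) : ⟪rz d L, v⟫ = L v :=
  InnerProductSpace.toDual_symm_apply (𝕜 := ℝ) (E := E d) (x := v) (y := L)

theorem gradient_eq : gradient U = fun x => rz d (fderiv ℝ U x) := rfl

theorem hasFDerivAt_fderiv (hU : ContDiff ℝ 2 U) (x : E d) :
    HasFDerivAt (fderiv ℝ U) (fderiv ℝ (fderiv ℝ U) x) x := by
  have h1 : ContDiff ℝ 1 (fderiv ℝ U) := hU.fderiv_right (by norm_num)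
  exact (h1.differentiable (by norm_num) x).hasFDerivAt

theorem hasFDerivAt_gradient (hU : ContDiff ℝ 2 U) (x : E d) :
    HasFDerivAt (gradient U) ((rz d).comp (fderiv ℝ (fderiv ℝ U) x)) x := by
  rw [gradient_eq]
  exact (rz d).hasFDerivAt.comp x (hasFDerivAt_fderiv hU x)

theorem sec (x v : E d) : iteratedFDeriv ℝ 2 U x (fun _ => v) = fderiv ℝ (fderiv ℝ U) x v v := by
  rw [iteratedFDeriv_two_apply]

theorem symm (hU : ContDiff ℝ 2 U) (x v w : E d) :
    fderiv ℝ (fderiv ℝ U) x v w = fderiv ℝ (fderiv ℝ U) x w v := by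
  have h1 : ContDiffAt ℝ 2 U x := hU.contDiffAt
  have h2 := h1.isSymmSndFDerivAt (by simp)
  exact h2 v w

/-- a symmetric positive operator bounded by `B` -/
theorem norm_le_of_form {T : E d →L[ℝ] E d} {B : ℝ} (hs : ∀ u v, ⟪T u, v⟫ = ⟪T v, u⟫)
    (h0 : ∀ v, 0 ≤ ⟪T v, v⟫) (h1 : ∀ v, ⟪T v, v⟫ ≤ B * ‖v‖ ^ 2) (u : E d) :
    ‖T u‖ ≤ B * ‖u‖ := by
  have cs : ∀ u v, ⟪T u, v⟫ ^ 2 ≤ ⟪T u, u⟫ * ⟪T v, v⟫ := by
    intro u v
    have hq : ∀ t : ℝ, 0 ≤ ⟪T v, v⟫ * (t * t) + (2 * ⟪T u, v⟫) * t + ⟪T u, u⟫ := by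
      intro t
      have := h0 (u + t • v)
      simp only [map_add, map_smul, inner_add_left, inner_add_right, inner_smul_left,
        inner_smul_right] at this
      rw [hs v u] at this
      simp only [conj_trivial] at this
      linarith
    have hd := discrim_le_zero hq
    unfold discrim at hd
    nlinarith
  have h2 := cs u (T u)
  rw [real_inner_self_eq_norm_sq] at h2
  have h3 := h1 u
  have h4 := h1 (T u)
  have h5 := h0 (T u)
  rcases (norm_nonneg (T u)).eq_or_lt with h | h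
  · rw [← h]
    have h6 := h0 u
    rcases (norm_nonneg u).eq_or_lt with hu | hu
    · rw [← hu, mul_zero]
    · have : 0 ≤ B := by
        by_contra hB
        push Not at hB
        nlinarith [pow_pos hu 2]
      positivity
  · have hune : u ≠ 0 := by
      rintro rfl
      simp at h
    have hu : 0 < ‖u‖ := norm_pos_iff.2 hune
    have hB : 0 ≤ B := by
      by_contra hB
      push Not at hB
      have := h0 u
      nlinarith [pow_pos hu 2]
    have h6 : (‖T u‖ ^ 2) ^ 2 ≤ (B * ‖u‖ ^ 2) * (B * ‖T u‖ ^ 2) :=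
      h2.trans (mul_le_mul h3 h4 h5 (by positivity))
    have h7 : ‖T u‖ ^ 2 ≤ (B * ‖u‖) ^ 2 := by
      have hp : 0 < ‖T u‖ ^ 2 := by positivity
      have : ‖T u‖ ^ 2 * ‖T u‖ ^ 2 ≤ (B * ‖u‖) ^ 2 * ‖T u‖ ^ 2 := by
        calc ‖T u‖ ^ 2 * ‖T u‖ ^ 2 = (‖T u‖ ^ 2) ^ 2 := by ring
          _ ≤ (B * ‖u‖ ^ 2) * (B * ‖T u‖ ^ 2) := h6
          _ = (B * ‖u‖) ^ 2 * ‖T u‖ ^ 2 := by ring
      exact le_of_mul_le_mul_right this hp
    exact (abs_le_of_sq_le_sq h7 (by positivity) |> fun h => by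
      rwa [abs_of_nonneg (norm_nonneg _)] at h)

/-- mean value inequality -/
theorem lip_of_bound {g : E d → E d} {g' : E d → E d →L[ℝ] E d} {B : ℝ}
    (hg : ∀ x, HasFDerivAt g (g' x) x) (hB : ∀ x v, ‖g' x v‖ ≤ B * ‖v‖) (x y : E d) :
    ‖g x - g y‖ ≤ B * ‖x - y‖ := by
  by_cases hxy : x = y
  · simp [hxy]
  · have hpos : 0 < ‖x - y‖ := norm_pos_iff.2 (sub_ne_zero.2 hxy)
    have hB0 : 0 ≤ B := by
      have := (norm_nonneg _).trans (hB x (x - y))
      by_contra hn
      push Not at hn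
      nlinarith
    exact Convex.norm_image_sub_le_of_norm_hasFDerivWithin_le (𝕜 := ℝ) (s := Set.univ)
      (fun z _ => (hg z).hasFDerivWithinAt)
      (fun z _ => ContinuousLinearMap.opNorm_le_bound _ hB0 (hB z)) convex_univ
      (Set.mem_univ y) (Set.mem_univ x)

theorem taylor_one {φ φ1 φ2 : ℝ → ℝ} {a : ℝ} (h1 : ∀ t, HasDerivAt φ (φ1 t) t)
    (h2 : ∀ t, HasDerivAt φ1 (φ2 t) t) (h : ∀ t, a ≤ φ2 t) :
    a / 2 ≤ φ 1 - φ 0 - φ1 0 := by
  have hm1 : Monotone (fun t => φ1 t - a * t) := by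
    refine monotone_of_deriv_nonneg
      (fun t => ((h2 t).sub ((hasDerivAt_id t).const_mul a)).differentiableAt) fun t => ?_
    have hd : HasDerivAt (fun t => φ1 t - a * t) (φ2 t - a * 1) t :=
      (h2 t).sub ((hasDerivAt_id t).const_mul a)
    rw [hd.deriv]
    linarith [h t]
  have hd2 : ∀ t, HasDerivAt (fun t => φ t - φ1 0 * t - a / 2 * t ^ 2)
      (φ1 t - φ1 0 * 1 - a / 2 * (2 * t ^ (2 - 1) * 1)) t := by
    intro t
    exact ((h1 t).sub ((hasDerivAt_id t).const_mul (φ1 0))).sub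
      (((hasDerivAt_id t).pow 2).const_mul (a / 2))
  have hm2 : MonotoneOn (fun t => φ t - φ1 0 * t - a / 2 * t ^ 2) (Set.Icc 0 1) := by
    refine monotoneOn_of_deriv_nonneg (convex_Icc 0 1)
      (fun t _ => (hd2 t).continuousAt.continuousWithinAt)
      (fun t _ => (hd2 t).differentiableAt.differentiableWithinAt) fun t ht => ?_
    rw [interior_Icc] at ht
    rw [(hd2 t).deriv]
    have := hm1 ht.1.le
    simp only [mul_zero, sub_zero] at this
    norm_num
    linarith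
  have := hm2 (Set.left_mem_Icc.2 zero_le_one) (Set.right_mem_Icc.2 zero_le_one) zero_le_one
  simp only at this
  norm_num at this
  linarith

end PotAux

open PotAux

section pot
variable {d : ℕ} {α β : ℝ} {U : E d → ℝ}

theorem Pot.grad_contDiff (hU : Pot d α β U) : ContDiff ℝ 1 (gradient U) := by
  rw [gradient_eq]
  exact (rz d).contDiff.comp (hU.smooth.fderiv_right (by norm_num))

theorem Pot.inner_fderiv_grad (hU : Pot d α β U) (x v : E d) :
    ⟪fderiv ℝ (gradient U) x v, v⟫ = iteratedFDeriv ℝ 2 U x fun _ => v := by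
  rw [(hasFDerivAt_gradient hU.smooth x).fderiv, sec]
  exact inner_rz _ _

theorem Pot.inner_fderiv_symm (hU : Pot d α β U) (x u v : E d) :
    ⟪fderiv ℝ (gradient U) x u, v⟫ = ⟪fderiv ℝ (gradient U) x v, u⟫ := by
  rw [(hasFDerivAt_gradient hU.smooth x).fderiv]
  have h1 : ⟪((rz d).comp (fderiv ℝ (fderiv ℝ U) x)) u, v⟫ = fderiv ℝ (fderiv ℝ U) x u v :=
    inner_rz _ _
  have h2 : ⟪((rz d).comp (fderiv ℝ (fderiv ℝ U) x)) v, u⟫ = fderiv ℝ (fderiv ℝ U) x v u :=
    inner_rz _ _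
  rw [h1, h2]
  exact PotAux.symm hU.smooth x u v

theorem Pot.fderiv_grad_apply_le (hU : Pot d α β U) (hα : 0 ≤ α) (x v : E d) :
    ‖fderiv ℝ (gradient U) x v‖ ≤ β * ‖v‖ := by
  refine norm_le_of_form (hU.inner_fderiv_symm x) (fun v => ?_) (fun v => ?_) v
  · rw [hU.inner_fderiv_grad]
    exact (mul_nonneg hα (sq_nonneg _)).trans (hU.lower x v)
  · rw [hU.inner_fderiv_grad]
    exact hU.upper x v

/-- (the hypothesis `0 ≤ β` is only needed for `d = 0`) -/
theorem Pot.fderiv_grad_norm_le (hU : Pot d α β U) (hα : 0 ≤ α) (hβ : 0 ≤ β) (x : E d) :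
    ‖fderiv ℝ (gradient U) x‖ ≤ β :=
  ContinuousLinearMap.opNorm_le_bound _ hβ (hU.fderiv_grad_apply_le hα x)

theorem Pot.grad_hasFDerivAt (hU : Pot d α β U) (x : E d) :
    HasFDerivAt (gradient U) (fderiv ℝ (gradient U) x) x :=
  (hU.grad_contDiff.differentiable (by norm_num) x).hasFDerivAt

theorem Pot.grad_lip (hU : Pot d α β U) (hα : 0 ≤ α) (x y : E d) :
    ‖gradient U x - gradient U y‖ ≤ β * ‖x - y‖ :=
  lip_of_bound hU.grad_hasFDerivAt (hU.fderiv_grad_apply_le hα) x y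

theorem Pot.step_contr (hU : Pot d α β U) (_hα : 0 ≤ α) {h : ℝ} (h0 : 0 ≤ h) (h1 : h * β ≤ 1)
    (x y : E d) :
    ‖(x - h • gradient U x) - (y - h • gradient U y)‖ ≤ (1 - α * h) * ‖x - y‖ := by
  refine lip_of_bound (g := fun x => x - h • gradient U x)
    (g' := fun x => ContinuousLinearMap.id ℝ (E d) - h • fderiv ℝ (gradient U) x)
    (fun x => (hasFDerivAt_id x).sub ((hU.grad_hasFDerivAt x).const_smul h)) (fun x v => ?_) x y
  have hf : ∀ v : E d, ⟪(ContinuousLinearMap.id ℝ (E d) - h • fderiv ℝ (gradient U) x) v, v⟫ =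
      ‖v‖ ^ 2 - h * iteratedFDeriv ℝ 2 U x fun _ => v := by
    intro v
    rw [← hU.inner_fderiv_grad]
    simp only [ContinuousLinearMap.sub_apply, ContinuousLinearMap.id_apply,
      ContinuousLinearMap.smul_apply, inner_sub_left, inner_smul_left, conj_trivial,
      real_inner_self_eq_norm_sq]
  refine norm_le_of_form (fun u v => ?_) (fun v => ?_) (fun v => ?_) v
  · simp only [ContinuousLinearMap.sub_apply, ContinuousLinearMap.id_apply,
      ContinuousLinearMap.smul_apply, inner_sub_left, inner_smul_left, conj_trivial]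
    rw [hU.inner_fderiv_symm x u v, real_inner_comm]
  · rw [hf]
    have h2 := mul_le_mul_of_nonneg_left (hU.upper x v) h0
    have h3 : h * (β * ‖v‖ ^ 2) ≤ 1 * ‖v‖ ^ 2 := by
      rw [← mul_assoc]
      exact mul_le_mul_of_nonneg_right h1 (sq_nonneg _)
    linarith
  · rw [hf]
    have h2 := mul_le_mul_of_nonneg_left (hU.lower x v) h0
    nlinarith

theorem Pot.hasFDerivAt (hU : Pot d α β U) (x : E d) : HasFDerivAt U (fderiv ℝ U x) x :=
  (hU.smooth.differentiable (by norm_num) x).hasFDerivAt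

theorem Pot.inner_grad (U : E d → ℝ) (x v : E d) : ⟪gradient U x, v⟫ = fderiv ℝ U x v := by
  rw [gradient_eq]
  exact inner_rz _ _

theorem Pot.taylor (hU : Pot d α β U) (x y : E d) :
    α / 2 * ‖x - y‖ ^ 2 ≤ U x - U y - ⟪gradient U y, x - y⟫ ∧
      U x - U y - ⟪gradient U y, x - y⟫ ≤ β / 2 * ‖x - y‖ ^ 2 := by
  set v := x - y with hv
  have hp : ∀ t : ℝ, HasDerivAt (fun t : ℝ => y + t • v) v t := by
    intro t
    have := ((hasDerivAt_id t).smul_const v).const_add y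
    simpa using this
  have h1 : ∀ t : ℝ, HasDerivAt (fun t : ℝ => U (y + t • v)) (fderiv ℝ U (y + t • v) v) t :=
    fun t => (hU.hasFDerivAt (y + t • v)).comp_hasDerivAt t (hp t)
  have h2 : ∀ t : ℝ, HasDerivAt (fun t : ℝ => fderiv ℝ U (y + t • v) v)
      (fderiv ℝ (fderiv ℝ U) (y + t • v) v v) t := by
    intro t
    have := (hasFDerivAt_fderiv hU.smooth (y + t • v)).comp_hasDerivAt t (hp t)
    exact this.clm_apply (hasDerivAt_const t v) |> fun h => by simpa using h
  have hl : ∀ t : ℝ, α * ‖v‖ ^ 2 ≤ fderiv ℝ (fderiv ℝ U) (y + t • v) v v := fun t => by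
    rw [← sec]
    exact hU.lower _ _
  have hu : ∀ t : ℝ, fderiv ℝ (fderiv ℝ U) (y + t • v) v v ≤ β * ‖v‖ ^ 2 := fun t => by
    rw [← sec]
    exact hU.upper _ _
  have e1 : y + (1 : ℝ) • v = x := by rw [hv, one_smul, add_sub_cancel]
  have e0 : y + (0 : ℝ) • v = y := by rw [zero_smul, add_zero]
  have t1 := taylor_one h1 h2 hl
  have t2 := taylor_one (φ := fun t => - U (y + t • v)) (φ1 := fun t => - fderiv ℝ U (y + t • v) v)
    (φ2 := fun t => - fderiv ℝ (fderiv ℝ U) (y + t • v) v v) (a := - (β * ‖v‖ ^ 2))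
    (fun t => (h1 t).neg) (fun t => (h2 t).neg) (fun t => neg_le_neg (hu t))
  simp only [e1, e0] at t1 t2
  rw [Pot.inner_grad]
  constructor <;> linarith

theorem Pot.mono {α' β' : ℝ} (hU : Pot d α β U) (h1 : α' ≤ α) (h2 : β ≤ β') : Pot d α' β' U where
  smooth := hU.smooth
  lower x v := (mul_le_mul_of_nonneg_right h1 (sq_nonneg _)).trans (hU.lower x v)
  upper x v := (hU.upper x v).trans (mul_le_mul_of_nonneg_right h2 (sq_nonneg _))

namespace PotAux

/-- a combination `a U + c |x-y|²` -/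
theorem comb (hU : Pot d α β U) (a c : ℝ) (y : E d) :
    ContDiff ℝ 2 (fun x => a * U x + c * ‖x - y‖ ^ 2) ∧
    (∀ x, HasFDerivAt (fun x => a * U x + c * ‖x - y‖ ^ 2)
      (a • fderiv ℝ U x + (2 * c) • isl d (x - y)) x) ∧
    ∀ x v, iteratedFDeriv ℝ 2 (fun x => a * U x + c * ‖x - y‖ ^ 2) x (fun _ => v) =
      a * iteratedFDeriv ℝ 2 U x (fun _ => v) + 2 * c * ‖v‖ ^ 2 := by
  have hs : ContDiff ℝ 2 (fun x => a * U x + c * ‖x - y‖ ^ 2) :=
    (contDiff_const.mul hU.smooth).add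
      (contDiff_const.mul ((contDiff_id.sub contDiff_const).norm_sq ℝ))
  have hd : ∀ x, HasFDerivAt (fun x => a * U x + c * ‖x - y‖ ^ 2)
      (a • fderiv ℝ U x + (2 * c) • isl d (x - y)) x := by
    intro x
    have h1 := (hU.hasFDerivAt x).const_mul a
    have h2 : HasFDerivAt (fun x : E d => ‖x - y‖ ^ 2) (2 • (innerSL ℝ (x - y)).comp
        (ContinuousLinearMap.id ℝ (E d))) x :=
      ((hasFDerivAt_id x).sub_const y).norm_sq
    have h3 := h1.add (h2.const_mul c)
    refine h3.congr_fderiv ?_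
    ext v
    simp only [ContinuousLinearMap.add_apply, ContinuousLinearMap.smul_apply, smul_eq_mul,
      ContinuousLinearMap.comp_apply, ContinuousLinearMap.id_apply, nsmul_eq_mul, Nat.cast_ofNat,
      isl_apply, innerSL_apply_apply]
    ring
  refine ⟨hs, hd, fun x v => ?_⟩
  rw [sec, sec]
  have e : fderiv ℝ (fun x => a * U x + c * ‖x - y‖ ^ 2) =
      fun x => a • fderiv ℝ U x + (2 * c) • isl d (x - y) := funext fun x => (hd x).fderiv
  rw [e]
  have h4 : HasFDerivAt (fun x => a • fderiv ℝ U x + (2 * c) • isl d (x - y))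
      (a • fderiv ℝ (fderiv ℝ U) x + (2 * c) • isl d) x := by
    have h5 := (hasFDerivAt_fderiv hU.smooth x).const_smul a
    have h6 : HasFDerivAt (fun x : E d => isl d (x - y))
        ((isl d).comp (ContinuousLinearMap.id ℝ (E d))) x :=
      (isl d).hasFDerivAt.comp x ((hasFDerivAt_id x).sub_const y)
    exact h5.add (h6.const_smul (2 * c))
  rw [h4.fderiv]
  simp only [ContinuousLinearMap.add_apply, ContinuousLinearMap.smul_apply, smul_eq_mul,
    isl_apply, real_inner_self_eq_norm_sq]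

end PotAux

/-- adding a quadratic: `U(x) + |x-y|²/(2η)` -/
theorem Pot.add_sq (hU : Pot d α β U) {η : ℝ} (hη : 0 < η) (y : E d) :
    Pot d (α + 1 / η) (β + 1 / η) (fun x => U x + ‖x - y‖ ^ 2 / (2 * η)) := by
  obtain ⟨h1, _, h3⟩ := comb hU 1 (1 / (2 * η)) y
  have e : (fun x => U x + ‖x - y‖ ^ 2 / (2 * η)) =
      fun x => 1 * U x + 1 / (2 * η) * ‖x - y‖ ^ 2 := by
    funext x
    ring
  rw [e]
  have e2 : 2 * (1 / (2 * η)) = 1 / η := by
    field_simp
  refine ⟨h1, fun x v => ?_, fun x v => ?_⟩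
  · rw [h3, e2]
    have := hU.lower x v
    linarith
  · rw [h3, e2]
    have := hU.upper x v
    linarith

/-- `|u|²/2 + ε W(u)` -/
theorem Pot.sq_add (hU : Pot d α β U) {ε : ℝ} (hε : 0 ≤ ε) :
    Pot d (1 + ε * α) (1 + ε * β) (fun x => ‖x‖ ^ 2 / 2 + ε * U x) := by
  obtain ⟨h1, _, h3⟩ := comb hU ε (1 / 2) 0
  have e : (fun x : E d => ‖x‖ ^ 2 / 2 + ε * U x) =
      fun x => ε * U x + 1 / 2 * ‖x - 0‖ ^ 2 := by
    funext x
    rw [sub_zero]
    ring
  rw [e]
  refine ⟨h1, fun x v => ?_, fun x v => ?_⟩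
  · rw [h3]
    have := mul_le_mul_of_nonneg_left (hU.lower x v) hε
    linarith
  · rw [h3]
    have := mul_le_mul_of_nonneg_left (hU.upper x v) hε
    linarith

theorem gradient_sq_add (hU : Pot d α β U) (ε : ℝ) (x : E d) :
    gradient (fun x => ‖x‖ ^ 2 / 2 + ε * U x) x = x + ε • gradient U x := by
  obtain ⟨_, h2, _⟩ := comb hU ε (1 / 2) 0
  have e : (fun x : E d => ‖x‖ ^ 2 / 2 + ε * U x) =
      fun x => ε * U x + 1 / 2 * ‖x - 0‖ ^ 2 := by
    funext x
    rw [sub_zero]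
    ring
  rw [e]
  apply ext_inner_right ℝ
  intro v
  rw [Pot.inner_grad, (h2 x).fderiv, inner_add_left, inner_smul_left, Pot.inner_grad]
  simp only [ContinuousLinearMap.add_apply, ContinuousLinearMap.smul_apply, smul_eq_mul,
    isl_apply, sub_zero, conj_trivial]
  ring

end pot

end Vale.Agent.P347
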