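import Vale.Agent.P347.Mehler
import Vale.Agent.P347.Rot

/-!
# P347: Mehler operators, composition, symmetry, contraction and the time shift identity
-/

open MeasureTheory ProbabilityTheory
open scoped ENNReal NNReal RealInnerProductSpace Topology

namespace Vale.Agent.P347

namespace MehlerAux

variable {d : ℕ} {F : Type*} [NormedAddCommGroup F] [NormedSpace ℝ F]

theorem sq_add_sq {ρ : ℝ} (h0 : 0 ≤ ρ) (h1 : ρ ≤ 1) : ρ ^ 2 + Real.sqrt (1 - ρ ^ 2) ^ 2 = 1 := by
  rw [Real.sq_sqrt (by nlinarith)]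
  ring

/-- a function of polynomial growth of a linear combination is integrable on the product -/
theorem int_prod {f : E d × E d → F} (hc : Continuous f) {C : ℝ} {p : ℕ}
    (h : ∀ x z, ‖f (x, z)‖ ≤ C * ((1 + ‖x‖) ^ p * (1 + ‖z‖) ^ p)) :
    Integrable f ((gam d).prod (gam d)) := by
  have h1 : Integrable (fun q : E d × E d => (1 + ‖q.1‖) ^ p * (1 + ‖q.2‖) ^ p)
      ((gam d).prod (gam d)) := (pow_int d p).mul_prod (pow_int d p)
  exact (h1.const_mul C).mono' hc.aestronglyMeasurable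
    (Filter.Eventually.of_forall fun q => h q.1 q.2)

theorem int_prod_comb {f : E d → F} (hc : Continuous f) (hg : PolyGrowth f) (a b : ℝ) :
    Integrable (fun q : E d × E d => f (a • q.1 + b • q.2)) ((gam d).prod (gam d)) := by
  obtain ⟨C, p, hC, h⟩ := growth hg
  refine int_prod (C := C * ((1 + |a|) * (1 + |b|)) ^ p) (p := p) (hc.comp (by fun_prop)) ?_
  intro x z
  refine (comb_pow_le hC h a b x z).trans (le_of_eq ?_)
  rw [mul_pow _ (1 + ‖x‖)]
  ring

/-- the law of a linear combination of two independent Gaussian vectors -/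
theorem integral_comb [CompleteSpace F] {f : E d → F} (hc : Continuous f) (hg : PolyGrowth f) {a b s : ℝ}
    (hs : 0 ≤ s) (h : a ^ 2 + b ^ 2 = s ^ 2) (x : E d) :
    ∫ z, ∫ w, f (x + (a • z + b • w)) ∂gam d ∂gam d = ∫ z, f (x + s • z) ∂gam d := by
  rcases hs.eq_or_lt with hs0 | hs0
  · subst hs0
    have ha : a = 0 := by nlinarith [sq_nonneg a, sq_nonneg b]
    have hb : b = 0 := by nlinarith [sq_nonneg a, sq_nonneg b]
    subst ha hb
    simp only [zero_smul, add_zero, integral_const, probReal_univ, one_smul]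
  · have h1 : (a / s) ^ 2 + (b / s) ^ 2 = 1 := by
      rw [div_pow, div_pow, ← add_div, h]
      exact div_self (by positivity)
    have hmp := mp_comb (d := d) h1
    have hg' : PolyGrowth (fun y : E d => f (x + s • y)) := by
      obtain ⟨C, p, hC, h⟩ := growth hg
      refine ⟨C * ((1 + |1|) * (1 + |s|) * (1 + ‖x‖)) ^ p, p, fun z => ?_⟩
      have := comb_pow_le hC h 1 s x z
      rwa [one_smul] at this
    have hc' : Continuous (fun y : E d => f (x + s • y)) := hc.comp (by fun_prop)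
    have e1 : ∫ z, f (x + s • z) ∂gam d =
        ∫ q : E d × E d, f (x + s • ((a / s) • q.1 + (b / s) • q.2)) ∂((gam d).prod (gam d)) := by
      conv_lhs => rw [← hmp.map_eq]
      exact integral_map hmp.measurable.aemeasurable (by
        exact hc'.aestronglyMeasurable)
    have e2 : (fun q : E d × E d => f (x + s • ((a / s) • q.1 + (b / s) • q.2))) =
        fun q : E d × E d => f (x + (a • q.1 + b • q.2)) := by
      funext q
      rw [smul_add, smul_smul, smul_smul, mul_div_cancel₀ _ hs0.ne', mul_div_cancel₀ _ hs0.ne']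
    rw [e2] at e1
    rw [e1]
    have hi : Integrable (fun q : E d × E d => f (x + (a • q.1 + b • q.2)))
        ((gam d).prod (gam d)) := by
      rw [← e2]
      exact int_prod_comb hc' hg' (a / s) (b / s)
    exact (integral_prod _ hi).symm

/-- change of variables by a measure preserving map -/
theorem integral_mp {α β : Type*} [MeasurableSpace α] [MeasurableSpace β] {μ : Measure α}
    {ν : Measure β} {T : α → β} (hT : MeasurePreserving T μ ν) {f : β → F}
    (hf : AEStronglyMeasurable f ν) : ∫ x, f (T x) ∂μ = ∫ y, f y ∂ν := by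
  rw [← hT.map_eq] at hf ⊢
  exact (integral_map hT.measurable.aemeasurable hf).symm

theorem inner_integral_left {α : Type*} [MeasurableSpace α] {μ : Measure α} {k : ℕ}
    {f : α → E k} (hf : Integrable f μ) (c : E k) : ∫ x, ⟪f x, c⟫ ∂μ = ⟪∫ x, f x ∂μ, c⟫ := by
  rw [real_inner_comm, ← integral_inner hf c]
  refine integral_congr_ae (Filter.Eventually.of_forall fun x => ?_)
  exact real_inner_comm _ _

end MehlerAux

open MehlerAux

section mehler
variable {d k : ℕ} {ρ : ℝ}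

theorem mehler_mehler {σ : ℝ} (h0 : 0 ≤ ρ) (h1 : ρ ≤ 1) (h0' : 0 ≤ σ) (h1' : σ ≤ 1)
    {φ : E d → E k} (hc : Continuous φ) (hg : PolyGrowth φ) (x : E d) :
    mehler ρ (mehler σ φ) x = mehler (ρ * σ) φ x := by
  have h2 : (σ * Real.sqrt (1 - ρ ^ 2)) ^ 2 + Real.sqrt (1 - σ ^ 2) ^ 2 =
      Real.sqrt (1 - (ρ * σ) ^ 2) ^ 2 := by
    have h3 : ρ * σ ≤ 1 := by nlinarith
    have h4 : 0 ≤ ρ * σ := by positivity
    rw [mul_pow, Real.sq_sqrt (by nlinarith), Real.sq_sqrt (by nlinarith),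
      Real.sq_sqrt (by nlinarith)]
    ring
  have key := integral_comb hc hg (Real.sqrt_nonneg _) h2 ((ρ * σ) • x)
  have e1 : mehler (ρ * σ) φ x =
      ∫ z, φ ((ρ * σ) • x + Real.sqrt (1 - (ρ * σ) ^ 2) • z) ∂gam d := rfl
  rw [e1, ← key]
  refine integral_congr_ae (Filter.Eventually.of_forall fun z => ?_)
  show mehler σ φ (ρ • x + Real.sqrt (1 - ρ ^ 2) • z) = _
  unfold mehler
  refine integral_congr_ae (Filter.Eventually.of_forall fun w => ?_)
  show φ _ = φ _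
  congr 1
  rw [smul_add, smul_smul, smul_smul, mul_comm σ ρ, add_assoc]

/-- stationarity -/
theorem MehlerAux.integral_mehler {F : Type*} [NormedAddCommGroup F] [NormedSpace ℝ F]
    [CompleteSpace F]
    (h0 : 0 ≤ ρ) (h1 : ρ ≤ 1) {f : E d → F} (hc : Continuous f)
    (hg : PolyGrowth f) : ∫ x, mehler ρ f x ∂gam d = ∫ x, f x ∂gam d := by
  have key := integral_comb hc hg zero_le_one
    (by rw [sq_add_sq h0 h1]; norm_num : ρ ^ 2 + Real.sqrt (1 - ρ ^ 2) ^ 2 = 1 ^ 2) (0 : E d)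
  simp only [zero_add, one_smul] at key
  rw [← key]
  rfl

theorem mehler_symm (h0 : 0 ≤ ρ) (h1 : ρ ≤ 1) {φ ψ : E d → E k} (hc : Continuous φ)
    (hg : PolyGrowth φ) (hc' : Continuous ψ) (hg' : PolyGrowth ψ) :
    ∫ x, ⟪mehler ρ φ x, ψ x⟫ ∂gam d = ∫ x, ⟪φ x, mehler ρ ψ x⟫ ∂gam d := by
  set σ := Real.sqrt (1 - ρ ^ 2) with hσ
  have hsq : ρ ^ 2 + σ ^ 2 = 1 := sq_add_sq h0 h1
  have hmp := mp_rot (d := d) hsq
  obtain ⟨C, p, hC, hC'⟩ := growth hg
  obtain ⟨B, m, hB, hB'⟩ := growth hg'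
  have i1 : Integrable (fun q : E d × E d => ⟪φ (ρ • q.1 + σ • q.2), ψ q.1⟫)
      ((gam d).prod (gam d)) := by
    refine int_prod (C := (C * ((1 + |ρ|) * (1 + |σ|)) ^ p) * B) (p := p + m)
      ((hc.comp (by fun_prop)).inner (hc'.comp (by fun_prop))) ?_
    intro x z
    refine (norm_inner_le_norm _ _).trans ?_
    have e1 := comb_pow_le hC hC' ρ σ x z
    have e2 := hB' x
    have e3 : (1 : ℝ) ≤ 1 + ‖z‖ := by linarith [norm_nonneg z]
    have e4 : (1 + ‖z‖) ^ p ≤ (1 + ‖z‖) ^ (p + m) := pow_le_pow_right₀ e3 (by omega)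
    calc ‖φ (ρ • x + σ • z)‖ * ‖ψ x‖ ≤
        (C * ((1 + |ρ|) * (1 + |σ|) * (1 + ‖x‖)) ^ p * (1 + ‖z‖) ^ p) *
          (B * (1 + ‖x‖) ^ m) := mul_le_mul e1 e2 (norm_nonneg _) (by positivity)
      _ = (C * ((1 + |ρ|) * (1 + |σ|)) ^ p) * B * ((1 + ‖x‖) ^ (p + m) * (1 + ‖z‖) ^ p) := by
        rw [mul_pow _ (1 + ‖x‖), pow_add]
        ring
      _ ≤ (C * ((1 + |ρ|) * (1 + |σ|)) ^ p) * B * ((1 + ‖x‖) ^ (p + m) * (1 + ‖z‖) ^ (p + m)) := by
        refine mul_le_mul_of_nonneg_left ?_ (by positivity)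
        exact mul_le_mul_of_nonneg_left e4 (by positivity)
  have e1 : ∫ x, ⟪mehler ρ φ x, ψ x⟫ ∂gam d =
      ∫ q : E d × E d, ⟪φ (ρ • q.1 + σ • q.2), ψ q.1⟫ ∂((gam d).prod (gam d)) := by
    rw [integral_prod _ i1]
    refine integral_congr_ae (Filter.Eventually.of_forall fun x => ?_)
    exact (inner_integral_left (int_comb hc hg ρ σ x) (ψ x)).symm
  have hrot : ∀ q : E d × E d, ρ • (ρ • q.1 + σ • q.2) + σ • (σ • q.1 - ρ • q.2) = q.1 := by
    intro q
    have : ρ • (ρ • q.1 + σ • q.2) + σ • (σ • q.1 - ρ • q.2) = (ρ ^ 2 + σ ^ 2) • q.1 := by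
      module
    rw [this, hsq, one_smul]
  have i2 := hmp.integrable_comp_of_integrable i1
  have e2 : ∫ q : E d × E d, ⟪φ (ρ • q.1 + σ • q.2), ψ q.1⟫ ∂((gam d).prod (gam d)) =
      ∫ q : E d × E d, ⟪φ q.1, ψ (ρ • q.1 + σ • q.2)⟫ ∂((gam d).prod (gam d)) := by
    rw [← integral_mp hmp i1.aestronglyMeasurable]
    refine integral_congr_ae (Filter.Eventually.of_forall fun q => ?_)
    show ⟪φ (ρ • (ρ • q.1 + σ • q.2) + σ • (σ • q.1 - ρ • q.2)), ψ (ρ • q.1 + σ • q.2)⟫ = _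
    rw [hrot]
  have i3 : Integrable (fun q : E d × E d => ⟪φ q.1, ψ (ρ • q.1 + σ • q.2)⟫)
      ((gam d).prod (gam d)) := by
    refine i2.congr (Filter.Eventually.of_forall fun q => ?_)
    show ⟪φ (ρ • (ρ • q.1 + σ • q.2) + σ • (σ • q.1 - ρ • q.2)), ψ (ρ • q.1 + σ • q.2)⟫ = _
    rw [hrot]
  rw [e1, e2, integral_prod _ i3]
  refine integral_congr_ae (Filter.Eventually.of_forall fun x => ?_)
  exact integral_inner (int_comb hc' hg' ρ σ x) (φ x)

theorem mehler_contr (h0 : 0 ≤ ρ) (h1 : ρ ≤ 1) {φ : E d → E k} (hc : Continuous φ)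
    (hg : PolyGrowth φ) : ∫ x, ‖mehler ρ φ x‖ ^ 2 ∂gam d ≤ ∫ x, ‖φ x‖ ^ 2 ∂gam d := by
  have hg2 := polyGrowth_sq hg
  have hc2 : Continuous (fun x => ‖φ x‖ ^ 2) := by fun_prop
  have e := MehlerAux.integral_mehler h0 h1 hc2 hg2
  rw [← e]
  have hgm := mehler_polyGrowth h0 h1 hc hg
  have hcm := mehler_continuous (ρ := ρ) hc hg
  have i1 : Integrable (fun x => ‖mehler ρ φ x‖ ^ 2) (gam d) := by
    have := int_comb (f := fun x => ‖mehler ρ φ x‖ ^ 2) (by fun_prop) (polyGrowth_sq hgm) 0 1 0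
    simpa using this
  have i2 : Integrable (mehler ρ fun z => ‖φ z‖ ^ 2) (gam d) := by
    have h3 := (int_prod_comb hc2 hg2 ρ (Real.sqrt (1 - ρ ^ 2))).integral_prod_left
    exact h3
  exact integral_mono i1 i2 fun x => mehler_sq_le φ hc hg x

/-- The time shift identity: `E⟨φ(G), Ψ(ρG+σZ)⟩ = E⟨P_ρ φ(U), Ψ(U)⟩`, with a parameter. -/
theorem mehler_shift (h0 : 0 ≤ ρ) (h1 : ρ ≤ 1) {Ω : Type*} [MeasurableSpace Ω] (P : Measure Ω)
    [IsProbabilityMeasure P] {φ : E d → E k} (hc : Continuous φ) {C : ℝ} (hb : ∀ x, ‖φ x‖ ≤ C)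
    {Ψ : E d → Ω → E k} (hm : Measurable (Function.uncurry Ψ))
    (hi : Integrable (fun q : E d × Ω => Ψ q.1 q.2) ((gam d).prod P)) :
    ∫ g, ∫ z, ∫ o, ⟪φ g, Ψ (ρ • g + Real.sqrt (1 - ρ ^ 2) • z) o⟫ ∂P ∂gam d ∂gam d =
      ∫ u, ∫ o, ⟪mehler ρ φ u, Ψ u o⟫ ∂P ∂gam d := by
  set σ := Real.sqrt (1 - ρ ^ 2) with hσ
  have hsq : ρ ^ 2 + σ ^ 2 = 1 := sq_add_sq h0 h1
  have hmp := mp_rot (d := d) hsq
  have hg : PolyGrowth φ := polyGrowth_of_bound hb
  have hC : 0 ≤ C := (norm_nonneg _).trans (hb 0)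
  have hrot : ∀ q : E d × E d, ρ • (ρ • q.1 + σ • q.2) + σ • (σ • q.1 - ρ • q.2) = q.1 := by
    intro q
    have : ρ • (ρ • q.1 + σ • q.2) + σ • (σ • q.1 - ρ • q.2) = (ρ ^ 2 + σ ^ 2) • q.1 := by
      module
    rw [this, hsq, one_smul]
  -- the integrand on the triple product
  have i0 : Integrable (fun q : (E d × E d) × Ω => Ψ q.1.1 q.2) (((gam d).prod (gam d)).prod P) := by
    have hfst : MeasurePreserving (Prod.map (Prod.fst : E d × E d → E d) (id : Ω → Ω))
        (((gam d).prod (gam d)).prod P) ((gam d).prod P) :=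
      (measurePreserving_fst (μ := gam d) (ν := gam d)).prod (MeasurePreserving.id P)
    exact hfst.integrable_comp_of_integrable hi
  have i1 : Integrable (fun q : (E d × E d) × Ω =>
      ⟪φ (ρ • q.1.1 + σ • q.1.2), Ψ q.1.1 q.2⟫) (((gam d).prod (gam d)).prod P) := by
    refine (i0.norm.const_mul C).mono' ?_ (Filter.Eventually.of_forall fun q => ?_)
    · have hc1 : Continuous fun q : E d × E d => φ (ρ • q.1 + σ • q.2) := hc.comp (by fun_prop)
      exact ((hc1.measurable.comp measurable_fst).aestronglyMeasurable).inner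
        i0.aestronglyMeasurable
    · refine (norm_inner_le_norm _ _).trans ?_
      exact mul_le_mul_of_nonneg_right (hb _) (norm_nonneg _)
  have i2 : Integrable (fun p : E d × E d => ∫ o, ⟪φ (ρ • p.1 + σ • p.2), Ψ p.1 o⟫ ∂P)
      ((gam d).prod (gam d)) := i1.integral_prod_left
  -- the right hand side
  have e1 : ∫ u, ∫ o, ⟪mehler ρ φ u, Ψ u o⟫ ∂P ∂gam d =
      ∫ p : E d × E d, ∫ o, ⟪φ (ρ • p.1 + σ • p.2), Ψ p.1 o⟫ ∂P ∂((gam d).prod (gam d)) := by
    rw [integral_prod _ i2]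
    refine integral_congr_ae ?_
    filter_upwards [hi.prod_right_ae] with u hu
    have i3 : Integrable (Function.uncurry fun (z : E d) (o : Ω) =>
        ⟪φ (ρ • u + σ • z), Ψ u o⟫) ((gam d).prod P) := by
      have i4 : Integrable (fun q : E d × Ω => Ψ u q.2) ((gam d).prod P) :=
        (measurePreserving_snd (μ := gam d) (ν := P)).integrable_comp_of_integrable hu
      refine (i4.norm.const_mul C).mono' ?_ (Filter.Eventually.of_forall fun q => ?_)
      · have hc1 : Continuous fun z : E d => φ (ρ • u + σ • z) := hc.comp (by fun_prop)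
        exact ((hc1.measurable.comp measurable_fst).aestronglyMeasurable).inner
          i4.aestronglyMeasurable
      · refine (norm_inner_le_norm _ _).trans ?_
        exact mul_le_mul_of_nonneg_right (hb _) (norm_nonneg _)
    show ∫ o, ⟪mehler ρ φ u, Ψ u o⟫ ∂P = ∫ z, ∫ o, ⟪φ (ρ • u + σ • z), Ψ u o⟫ ∂P ∂gam d
    rw [integral_integral_swap i3]
    refine integral_congr_ae (Filter.Eventually.of_forall fun o => ?_)
    exact (inner_integral_left (int_comb hc hg ρ σ u) (Ψ u o)).symm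
  -- rotation
  have i5 := hmp.integrable_comp_of_integrable i2
  have hpt : ∀ p : E d × E d, (∫ o, ⟪φ (ρ • (ρ • p.1 + σ • p.2) + σ • (σ • p.1 - ρ • p.2)),
      Ψ (ρ • p.1 + σ • p.2) o⟫ ∂P) = ∫ o, ⟪φ p.1, Ψ (ρ • p.1 + σ • p.2) o⟫ ∂P := by
    intro p
    rw [hrot]
  have e2 : ∫ p : E d × E d, ∫ o, ⟪φ (ρ • p.1 + σ • p.2), Ψ p.1 o⟫ ∂P ∂((gam d).prod (gam d)) =
      ∫ p : E d × E d, ∫ o, ⟪φ p.1, Ψ (ρ • p.1 + σ • p.2) o⟫ ∂P ∂((gam d).prod (gam d)) := by
    rw [← integral_mp hmp i2.aestronglyMeasurable]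
    exact integral_congr_ae (Filter.Eventually.of_forall hpt)
  have i6 : Integrable (fun p : E d × E d => ∫ o, ⟪φ p.1, Ψ (ρ • p.1 + σ • p.2) o⟫ ∂P)
      ((gam d).prod (gam d)) := i5.congr (Filter.Eventually.of_forall hpt)
  rw [e1, e2, integral_prod _ i6]

end mehler

end Vale.Agent.P347
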