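import Vale.Agent.P347.DefsB
import Vale.Agent.P347.Alg
import Vale.Agent.P347.RefLaw
import Vale.Agent.P347.Mehler2

/-! P347, piece B4a: the one-level reference scheme `ref1`. -/

open MeasureTheory ProbabilityTheory
open scoped ENNReal NNReal RealInnerProductSpace

namespace Vale.Agent.P347

namespace RefAux

variable {d : ℕ}

theorem geom_le {a : ℝ} (h0 : 0 < a) (h1 : a < 1) (K : ℕ) :
    ∑ i : Fin K, (1 - a) * a ^ (i : ℕ) ≤ 1 := by
  rw [← Finset.mul_sum, Fin.sum_univ_eq_sum_range (fun i => a ^ i) K]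
  have h2 := mul_neg_geom_sum a K
  have h3 : 0 ≤ a ^ K := by positivity
  linarith

theorem geom_nonneg {a : ℝ} (h0 : 0 < a) (h1 : a < 1) {K : ℕ} (i : Fin K) :
    0 ≤ (1 - a) * a ^ (i : ℕ) := mul_nonneg (by linarith) (by positivity)

theorem rev_contDiff (a : ℝ) {n : ℕ} (j : ℕ) :
    ContDiff ℝ 1 (fun q : E d × (Fin n → E d) => rev a q.1 (extz q.2) j) := by
  induction j with
  | zero => exact contDiff_fst
  | succ j ih =>
    refine (ih.const_smul a).add (ContDiff.const_smul (Real.sqrt (1 - a ^ 2)) ?_)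
    by_cases h : j < n
    · simp only [extz, h, dif_pos]
      fun_prop
    · simp only [extz, h, dif_neg, not_false_eq_true]
      exact contDiff_const

theorem rev_sub_U (a : ℝ) (U U' : E d) (ξ : ℕ → E d) (j : ℕ) :
    rev a U ξ j - rev a U' ξ j = a ^ j • (U - U') := by
  induction j with
  | zero => simp [rev]
  | succ j ih =>
    show (a • rev a U ξ j + _) - (a • rev a U' ξ j + _) = _
    rw [add_sub_add_right_eq_sub, ← smul_sub, ih, smul_smul, pow_succ']

theorem rev_sub_ω {a : ℝ} (h0 : 0 ≤ a) (h1 : a ≤ 1) (U : E d) (ξ ξ' : ℕ → E d) (j : ℕ) :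
    ‖rev a U ξ j - rev a U ξ' j‖ ^ 2 ≤ ∑ i ∈ Finset.range j, ‖ξ i - ξ' i‖ ^ 2 := by
  induction j with
  | zero => simp [rev]
  | succ j ih =>
    have e : rev a U ξ (j + 1) - rev a U ξ' (j + 1) =
        a • (rev a U ξ j - rev a U ξ' j) + Real.sqrt (1 - a ^ 2) • (ξ j - ξ' j) := by
      show (a • rev a U ξ j + Real.sqrt (1 - a ^ 2) • ξ j) -
        (a • rev a U ξ' j + Real.sqrt (1 - a ^ 2) • ξ' j) = _
      module
    rw [e, Finset.sum_range_succ]
    exact (AlgAux.norm_rot_le h0 h1 _ _).trans (by linarith)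

theorem sum_extz_le {n : ℕ} (ξ ξ' : Fin n → E d) (j : ℕ) :
    ∑ i ∈ Finset.range j, ‖extz ξ i - extz ξ' i‖ ^ 2 ≤ sq2 (ξ - ξ') := by
  have h1 : sq2 (ξ - ξ') = ∑ i ∈ Finset.range n, ‖extz ξ i - extz ξ' i‖ ^ 2 := by
    rw [sq2, ← Fin.sum_univ_eq_sum_range (fun i => ‖extz ξ i - extz ξ' i‖ ^ 2) n]
    refine Finset.sum_congr rfl fun i _ => ?_
    simp [extz]
  rw [h1]
  have h2 : ∑ i ∈ Finset.range j, ‖extz ξ i - extz ξ' i‖ ^ 2 ≤
      ∑ i ∈ Finset.range (max j n), ‖extz ξ i - extz ξ' i‖ ^ 2 :=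
    Finset.sum_le_sum_of_subset_of_nonneg
      (Finset.range_subset_range.2 (le_max_left _ _)) (fun i _ _ => sq_nonneg _)
  refine h2.trans (le_of_eq ?_)
  symm
  refine Finset.sum_subset (Finset.range_subset_range.2 (le_max_right _ _)) fun i _ hi => ?_
  rw [Finset.mem_range, not_lt] at hi
  simp [extz, not_lt.2 hi]

/-- integral over the path space, first innovation separated, general integrable functions -/
theorem int_cons' {F : Type*} [NormedAddCommGroup F] [NormedSpace ℝ F] {n : ℕ}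
    (f : (Fin (n + 1) → E d) → F) (hf : Integrable f (gamPi d (Fin (n + 1)))) :
    ∫ ξ, f ξ ∂gamPi d (Fin (n + 1)) =
      ∫ x, ∫ ξ, f (Fin.cons x ξ) ∂gamPi d (Fin n) ∂gam d := by
  have h := (measurePreserving_piFinSuccAbove (fun _ : Fin (n + 1) => gam d) 0).symm
  have e : ∀ q : E d × (Fin n → E d),
      (MeasurableEquiv.piFinSuccAbove (fun _ => E d) 0).symm q =
        (Fin.cons q.1 q.2 : Fin (n + 1) → E d) := fun q => Fin.insertNth_zero' q.1 q.2
  have h1 : ∫ ξ, f ξ ∂gamPi d (Fin (n + 1)) =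
      ∫ q, f (Fin.cons q.1 q.2) ∂((gam d).prod (gamPi d (Fin n))) := by
    rw [← h.integral_comp' (g := f)]
    refine integral_congr_ae (Filter.Eventually.of_forall fun q => ?_)
    show f _ = f _
    rw [e]
  rw [h1, integral_prod]
  have h2 := h.integrable_comp_of_integrable hf
  refine h2.congr (Filter.Eventually.of_forall fun q => ?_)
  show f _ = f _
  rw [e]

/-- norm bound for the path -/
theorem rev_norm_le {a : ℝ} (h0 : 0 ≤ a) (h1 : a ≤ 1) (U : E d) (ξ : ℕ → E d) (j : ℕ) :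
    ‖rev a U ξ j‖ ≤ ‖U‖ + ∑ i ∈ Finset.range j, ‖ξ i‖ := by
  induction j with
  | zero => simp [rev]
  | succ j ih =>
    show ‖a • rev a U ξ j + Real.sqrt (1 - a ^ 2) • ξ j‖ ≤ _
    rw [Finset.sum_range_succ]
    refine (norm_add_le _ _).trans ?_
    rw [norm_smul, norm_smul, Real.norm_of_nonneg h0, Real.norm_of_nonneg (Real.sqrt_nonneg _)]
    have h2 := mul_le_of_le_one_left (norm_nonneg (rev a U ξ j)) h1
    have h3 := mul_le_of_le_one_left (norm_nonneg (ξ j)) (AlgAux.sqrt_le_one' a)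
    linarith

theorem norm_integrable (d : ℕ) : Integrable (fun z : E d => ‖z‖) (gam d) := by
  have := MehlerAux.int_comb (d := d) (F := ℝ) (f := fun z => ‖z‖) continuous_norm
    ⟨1, 1, fun x => by rw [norm_norm]; linarith⟩ 0 1 0
  simpa using this

theorem extz_integrable {n : ℕ} (i : ℕ) :
    Integrable (fun ξ : Fin n → E d => ‖extz ξ i‖) (gamPi d (Fin n)) := by
  by_cases h : i < n
  · simp only [extz, h, dif_pos]
    exact AlgAux.int_eval (norm_integrable d) _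
  · simp only [extz, h, dif_neg, not_false_eq_true, norm_zero]
    exact integrable_const _

/-- `w(rev …)` is integrable -/
theorem rev_integrable {k : ℕ} {w : E d → E k} (hw : ContDiff ℝ 1 w) {L : ℝ}
    (hw2 : ∀ x, ‖fderiv ℝ w x‖ ≤ L) {a : ℝ} (h0 : 0 ≤ a) (h1 : a ≤ 1) {n : ℕ} (U : E d) (j : ℕ) :
    Integrable (fun ξ : Fin n → E d => w (rev a U (extz ξ) j)) (gamPi d (Fin n)) := by
  have hL : 0 ≤ L := (norm_nonneg _).trans (hw2 0)
  have hb : Integrable (fun ξ : Fin n → E d =>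
      ‖w 0‖ + L * (‖U‖ + ∑ i ∈ Finset.range j, ‖extz ξ i‖)) (gamPi d (Fin n)) :=
    (integrable_const _).add (((integrable_const _).add
      (integrable_finsetSum _ fun i _ => extz_integrable i)).const_mul L)
  refine hb.mono' ?_ (Filter.Eventually.of_forall fun ξ => ?_)
  · exact (hw.continuous.comp (RefLaw.cont_rev a continuous_const
      (fun i => RefLaw.cont_extz i) j)).aestronglyMeasurable
  · have h2 := AlgAux.lip hw hw2 (rev a U (extz ξ) j) 0
    rw [sub_zero] at h2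
    have h3 := norm_add_le (w (rev a U (extz ξ) j) - w 0) (w 0)
    rw [sub_add_cancel] at h3
    have h4 := mul_le_mul_of_nonneg_left (rev_norm_le h0 h1 U (extz ξ) j) hL
    linarith

theorem mehler_one {k : ℕ} (f : E d → E k) (x : E d) : mehler 1 f x = f x := by
  simp [mehler]

/-- the law of `rev a U ξ j` given `U`: Mehler operator with parameter `a^j`. -/
theorem rev_law {k : ℕ} {w : E d → E k} (hw : ContDiff ℝ 1 w) {L : ℝ}
    (hw2 : ∀ x, ‖fderiv ℝ w x‖ ≤ L) {a : ℝ} (h0 : 0 ≤ a) (h1 : a ≤ 1) (n : ℕ) (j : ℕ) (hj : j ≤ n)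
    (U : E d) :
    ∫ ξ, w (rev a U (extz ξ) j) ∂gamPi d (Fin n) = mehler (a ^ j) w U := by
  induction n generalizing j U with
  | zero =>
    obtain rfl : j = 0 := by omega
    simp [rev, mehler_one]
  | succ n ih =>
    cases j with
    | zero => simp [rev, mehler_one]
    | succ j =>
      rw [int_cons' (fun ξ => w (rev a U (extz ξ) (j + 1))) (rev_integrable hw hw2 h0 h1 U (j + 1))]
      have e : ∀ x : E d, ∫ ξ, w (rev a U (extz (Fin.cons x ξ : Fin (n + 1) → E d)) (j + 1))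
          ∂gamPi d (Fin n) = mehler (a ^ j) w (a • U + Real.sqrt (1 - a ^ 2) • x) := by
        intro x
        rw [← ih j (by omega) (a • U + Real.sqrt (1 - a ^ 2) • x)]
        refine integral_congr_ae (Filter.Eventually.of_forall fun ξ => ?_)
        show w _ = w _
        rw [RefLaw.rev_succ, RefLaw.extz_cons_zero]
        congr 2
        exact funext fun i => RefLaw.extz_cons_succ x ξ i
      simp_rw [e]
      have h3 := mehler_mehler (ρ := a) (σ := a ^ j) h0 h1 (pow_nonneg h0 j) (pow_le_one₀ h0 h1)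
        hw.continuous (AlgAux.polyGrowth_of_lip hw hw2) U
      rw [show a ^ (j + 1) = a * a ^ j from pow_succ' a j, ← h3]
      rfl

end RefAux

open AlgAux RefAux

section ref
variable {d : ℕ} {w : E d → E d} {a ε : ℝ} {K : ℕ}

theorem ref1_contDiff (hw : ContDiff ℝ 1 w) :
    ContDiff ℝ 1 (fun q : E d × (Fin K → E d) => ref1 w a K q.1 q.2) := by
  unfold ref1
  exact ContDiff.sum fun i _ => ContDiff.const_smul _ (hw.comp (rev_contDiff a _))

theorem ref1_lipU (hw : ContDiff ℝ 1 w) (hw2 : ∀ x, ‖fderiv ℝ w x‖ ≤ 2) (h0 : 0 < a) (h1 : a < 1)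
    (U U' : E d) (ω : Fin K → E d) : ‖ref1 w a K U ω - ref1 w a K U' ω‖ ≤ 2 * ‖U - U'‖ := by
  unfold ref1
  rw [← Finset.sum_sub_distrib]
  simp_rw [← smul_sub]
  refine norm_wsum (fun i => geom_nonneg h0 h1 i) (geom_le h0 h1 K) _ (by positivity) fun i => ?_
  refine (lip hw hw2 _ _).trans ?_
  rw [rev_sub_U, norm_smul, Real.norm_of_nonneg (by positivity)]
  have := mul_le_of_le_one_left (norm_nonneg (U - U')) (pow_le_one₀ h0.le h1.le (n := (i : ℕ) + 1))
  linarith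

theorem ref1_lipω (hw : ContDiff ℝ 1 w) (hw2 : ∀ x, ‖fderiv ℝ w x‖ ≤ 2) (h0 : 0 < a) (h1 : a < 1)
    (U : E d) (ω ω' : Fin K → E d) :
    ‖ref1 w a K U ω - ref1 w a K U ω'‖ ^ 2 ≤ 2 ^ 2 * sq2 (ω - ω') := by
  unfold ref1
  rw [← Finset.sum_sub_distrib]
  simp_rw [← smul_sub]
  refine (norm_wsum_sq (fun i => geom_nonneg h0 h1 i) (geom_le h0 h1 K) _).trans ?_
  have hR : 0 ≤ 2 ^ 2 * sq2 (ω - ω') :=
    mul_nonneg (by norm_num) (Finset.sum_nonneg fun i _ => sq_nonneg _)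
  calc ∑ i : Fin K, (1 - a) * a ^ (i : ℕ) *
        ‖w (rev a U (extz ω) (i + 1)) - w (rev a U (extz ω') (i + 1))‖ ^ 2
      ≤ ∑ i : Fin K, (1 - a) * a ^ (i : ℕ) * (2 ^ 2 * sq2 (ω - ω')) := by
        refine Finset.sum_le_sum fun i _ => mul_le_mul_of_nonneg_left ?_ (geom_nonneg h0 h1 i)
        calc _ ≤ (2 * ‖rev a U (extz ω) (i + 1) - rev a U (extz ω') (i + 1)‖) ^ 2 :=
              pow_le_pow_left₀ (norm_nonneg _) (lip hw hw2 _ _) 2
          _ = 2 ^ 2 * ‖rev a U (extz ω) (i + 1) - rev a U (extz ω') (i + 1)‖ ^ 2 := by ring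
          _ ≤ _ := mul_le_mul_of_nonneg_left
              ((rev_sub_ω h0.le h1.le U _ _ _).trans (sum_extz_le ω ω' _)) (by norm_num)
    _ = (∑ i : Fin K, (1 - a) * a ^ (i : ℕ)) * (2 ^ 2 * sq2 (ω - ω')) := by rw [Finset.sum_mul]
    _ ≤ _ := mul_le_of_le_one_left hR (geom_le h0 h1 K)

theorem ref1_mean (hw : ContDiff ℝ 1 w) (hw2 : ∀ x, ‖fderiv ℝ w x‖ ≤ 2) (h0 : 0 < a) (h1 : a < 1)
    (U : E d) : ∫ ω, ref1 w a K U ω ∂gamPi d (Fin K) =
      avg (fun j : Fin K => (1 - a) * a ^ (j : ℕ)) (fun j : Fin K => a ^ ((j : ℕ) + 1)) w U := by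
  unfold ref1 avg
  rw [integral_finsetSum]
  · refine Finset.sum_congr rfl fun i _ => ?_
    rw [integral_smul, rev_law hw hw2 h0.le h1.le K ((i : ℕ) + 1) i.2 U]
  · intro i _
    exact (rev_integrable hw hw2 h0.le h1.le U _).smul ((1 - a) * a ^ (i : ℕ))

end ref

end Vale.Agent.P347
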