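import Vale.Agent.P347.ReprA
import Vale.Agent.P347.FineChain

/-! P347, piece B'3: representation of the local Gibbs law by the one-level reference scheme. -/

open MeasureTheory ProbabilityTheory
open scoped ENNReal NNReal RealInnerProductSpace

namespace Vale.Agent.P347

theorem gibbs_repr {d : ℕ} {W : E d → ℝ} (hW : Pot d 1 2 W) {ε : ℝ} (hε0 : 0 < ε)
    (hε1 : ε ≤ 1 / 8) {r : ℝ} (hr0 : 0 < r) (hr1 : r < 1) :
    ∀ δ : ℝ, 0 < δ → ∃ l0 : ℕ, ∀ l ≥ l0, ∃ K0 : ℕ, ∀ K ≥ K0,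
      ∀ {g : E d → ℝ} {C L : ℝ}, 0 ≤ L → (∀ x, |g x| ≤ C) → (∀ x y, |g x - g y| ≤ L * ‖x - y‖) →
      |∫ x, g x ∂gibbs (fun u => ‖u‖ ^ 2 / 2 + ε * W u) -
        ∫ G, ∫ ξ, g (G - ε • ref1 (gradient W) (r ^ ((1 : ℝ) / 2 ^ l)) K G ξ)
          ∂gamPi d (Fin K) ∂gam d| ≤ L * (10 * ε ^ 2 * (‖gradient W 0‖ + Real.sqrt d) + δ) := by
  refine ReprAux.repr_of hW hε0 hε1 hr0 hr1 ?_
  have h := fine_chain (hW.sq_add hε0.le) (by linarith : (0 : ℝ) < 1 + ε * 1)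
  simpa only [mul_one] using h

end Vale.Agent.P347
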