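import Vale.Agent.P347.Centred
import Vale.Agent.P347.Repr
import Vale.Agent.P347.MeanDiff
import Vale.Agent.P347.Compare
import Vale.Agent.P347.Alg
import Vale.Agent.P347.Ref
import Vale.Agent.P347.PotBasic

/-!
# P347, B'5: the local lemmas (one-level scheme and reflection)
-/

open MeasureTheory ProbabilityTheory
open scoped ENNReal NNReal RealInnerProductSpace

namespace Vale.Agent.P347

namespace LocR

open CmpAux

variable {d : ℕ}

/-- a one-level scheme -/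
structure OneLev {d : ℕ} {κ : Type} [Fintype κ] (D : E d → (κ → E d) → E d) : Prop where
  cd : ContDiff ℝ 1 (fun q : E d × (κ → E d) => D q.1 q.2)
  lipU : ∀ U U' ω, ‖D U ω - D U' ω‖ ≤ 2 * ‖U - U'‖
  lipω : ∀ U ω ω', ‖D U ω - D U ω'‖ ^ 2 ≤ 2 ^ 2 * sq2 (ω - ω')

/-- the mean of a scheme -/
noncomputable def mn {κ : Type} [Fintype κ] (D : E d → (κ → E d) → E d) (U : E d) : E d :=
  ∫ ω, D U ω ∂gamPi d κ

section

variable {κ : Type} [Fintype κ] {D : E d → (κ → E d) → E d}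

theorem OneLev.cdω (h : OneLev D) (U : E d) : ContDiff ℝ 1 (D U) :=
  h.cd.comp (contDiff_const.prodMk contDiff_id)

theorem OneLev.memLp (h : OneLev D) (U : E d) : MemLp (D U) 2 (gamPi d κ) := by
  classical
  exact GPAux.memLp_lip (D U) (h.cdω U).continuous (h.lipω U)

theorem OneLev.int (h : OneLev D) (U : E d) : Integrable (D U) (gamPi d κ) :=
  (h.memLp U).integrable (by norm_num)

theorem OneLev.mn_contDiff (h : OneLev D) : ContDiff ℝ 1 (mn D) :=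
  param_contDiff h.cd (by norm_num) h.lipU h.int

theorem OneLev.mn_lip (h : OneLev D) (U U' : E d) : ‖mn D U - mn D U'‖ ≤ 2 * ‖U - U'‖ :=
  param_lip h.lipU h.int U U'

theorem OneLev.mn_int (h : OneLev D) : Integrable (mn D) (gam d) :=
  (growth_lip (by norm_num) h.mn_lip).integrable h.mn_contDiff.continuous.aestronglyMeasurable

end

theorem norm_integrable' (d : ℕ) : Integrable (fun z : E d => ‖z‖) (gam d) :=
  (IsGaussian.integrable_id (μ := gam d)).norm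

theorem integral_norm_le (d : ℕ) : ∫ z, ‖z‖ ∂gam d ≤ Real.sqrt d := by
  have h1 : MemLp (fun z : E d => z) 2 (gam d) := IsGaussian.memLp_two_id
  have h2 := cs (μ := gam d) (k := 1) (X := fun z : E d => (‖z‖ • (eb 0 : E 1)))
    (Y := fun _ : E d => (eb 0 : E 1)) (A := Real.sqrt d) (B := 1) ?_ (memLp_const _) ?_ ?_
    (Real.sqrt_nonneg _) zero_le_one
  · have h3 : ∀ z : E d, ⟪‖z‖ • (eb 0 : E 1), (eb 0 : E 1)⟫ = ‖z‖ := by
      intro z
      rw [real_inner_smul_left, real_inner_self_eq_norm_sq, norm_eb]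
      ring
    simp only [h3, mul_one] at h2
    exact (le_abs_self _).trans h2
  · have h4 : MemLp (fun z : E d => ‖z‖) 2 (gam d) := h1.norm
    refine MemLp.of_le h4 (by fun_prop) (Filter.Eventually.of_forall fun z => ?_)
    rw [norm_smul, norm_eb, mul_one]
  · rw [Real.sq_sqrt (Nat.cast_nonneg d)]
    refine le_of_eq ?_
    rw [← gam_sq d]
    refine integral_congr_ae (Filter.Eventually.of_forall fun z => ?_)
    simp [norm_smul, norm_eb]
  · simp [norm_eb]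

theorem bdd_int {Ω : Type*} [MeasurableSpace Ω] {μ : Measure Ω} [IsProbabilityMeasure μ]
    {f : Ω → ℝ} {C : ℝ} (h : ∀ x, |f x| ≤ C) : |∫ x, f x ∂μ| ≤ C := by
  have := norm_integral_le_of_norm_le_const (μ := μ) (f := f)
    (Filter.Eventually.of_forall fun x => (Real.norm_eq_abs _).trans_le (h x))
  simpa using this

theorem cont_int {X : Type*} [TopologicalSpace X] [FirstCountableTopology X] {κ : Type} [Fintype κ]
    {f : X → (κ → E d) → ℝ} (hf : Continuous (Function.uncurry f)) {C : ℝ}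
    (hb : ∀ x ω, |f x ω| ≤ C) : Continuous (fun x => ∫ ω, f x ω ∂gamPi d κ) := by
  refine continuous_of_dominated (bound := fun _ => C) ?_ ?_ (integrable_const C) ?_
  · intro x
    exact (hf.comp (by fun_prop : Continuous fun ω : κ → E d => (x, ω))).aestronglyMeasurable
  · intro x
    exact Filter.Eventually.of_forall fun ω => hb x ω
  · exact Filter.Eventually.of_forall fun ω =>
      hf.comp (by fun_prop : Continuous fun x : X => (x, ω))

theorem int_of_bdd {Ω : Type*} [TopologicalSpace Ω] [MeasurableSpace Ω] [BorelSpace Ω]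
    {μ : Measure Ω} [IsProbabilityMeasure μ] {f : Ω → ℝ} (hf : Continuous f)
    [SecondCountableTopology Ω] {C : ℝ} (h : ∀ x, |f x| ≤ C) : Integrable f μ :=
  Integrable.of_bound hf.aestronglyMeasurable C (Filter.Eventually.of_forall h)

theorem mp_neg (d : ℕ) : MeasurePreserving (fun x : E d => -x) (gam d) (gam d) := by
  refine ⟨by fun_prop, ?_⟩
  have h := stdGaussian_map (LinearIsometryEquiv.neg ℝ : E d ≃ₗᵢ[ℝ] E d)
  exact h

theorem int_neg {f : E d → ℝ} (hf : Continuous f) :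
    ∫ x, f (-x) ∂gam d = ∫ x, f x ∂gam d := by
  conv_rhs => rw [← (mp_neg d).map_eq]
  rw [integral_map (mp_neg d).measurable.aemeasurable hf.aestronglyMeasurable]

theorem int_sum {ι ι' : Type} [Fintype ι] [Fintype ι'] {f : (ι → E d) → (ι' → E d) → ℝ}
    (hc : Continuous (Function.uncurry f)) {C : ℝ} (hb : ∀ x y, |f x y| ≤ C) :
    ∫ q : ι ⊕ ι' → E d, f (fun i => q (Sum.inl i)) (fun j => q (Sum.inr j)) ∂gamPi d (ι ⊕ ι') =
      ∫ ω, ∫ ζ, f ω ζ ∂gamPi d ι' ∂gamPi d ι := by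
  have h1 := measurePreserving_sumPiEquivProdPi (X := fun _ : ι ⊕ ι' => E d) (fun _ => gam d)
  have h2 : Integrable (Function.uncurry f) ((gamPi d ι).prod (gamPi d ι')) :=
    Integrable.of_bound hc.aestronglyMeasurable C (Filter.Eventually.of_forall fun q => hb q.1 q.2)
  have h3 := integral_prod (Function.uncurry f) h2
  simp only [Function.uncurry_apply_pair] at h3
  rw [← h3]
  have h4 := h1.integral_comp' (Function.uncurry f)
  exact h4


section abs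

variable {κ κ' : Type} [Fintype κ] [Fintype κ'] {D : E d → (κ → E d) → E d}
  {D' : E d → (κ' → E d) → E d} {g : E d → ℝ} {g0 g1 g2 ε : ℝ}

/-- standing hypotheses on the test function -/
structure Tst (g : E d → ℝ) (g0 g1 g2 : ℝ) : Prop where
  cd : ContDiff ℝ 2 g
  b0 : ∀ x, |g x| ≤ g0
  b1 : ∀ x, ‖gradient g x‖ ≤ g1
  b2 : ∀ x, hs2 (fderiv ℝ (gradient g) x) ≤ g2 ^ 2
  n2 : 0 ≤ g2

theorem Tst.n1 (h : Tst g g0 g1 g2) : 0 ≤ g1 := (norm_nonneg _).trans (h.b1 0)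

theorem Tst.lip (h : Tst g g0 g1 g2) (x y : E d) : |g x - g y| ≤ g1 * ‖x - y‖ := by
  have hh := Convex.norm_image_sub_le_of_norm_fderiv_le (𝕜 := ℝ) (f := g) (C := g1)
    (s := Set.univ) (x := y) (y := x)
    (fun z _ => h.cd.differentiable (by norm_num) z) (fun z _ => ?_) convex_univ
    (Set.mem_univ _) (Set.mem_univ _)
  · exact hh
  · rw [(grad_hasFDerivAt h.cd z).fderiv, innerSL_apply_norm]
    exact h.b1 z

/-- from a scheme to its mean -/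
theorem to_mean (hg : Tst g g0 g1 g2) (hD : OneLev D) (hε0 : 0 ≤ ε) (hε1 : ε ≤ 1 / 8) :
    |∫ G, ∫ ω, g (G - ε • D G ω) ∂gamPi d κ ∂gam d - ∫ G, g (G - ε • mn D G) ∂gam d| ≤
      100 * ε ^ 2 * Real.sqrt d * (g1 + g2) := by
  have h := centred_pert (κ := κ) (κ' := Fin 0) (φ := g) hg.cd hg.b0 hg.b1 hg.b2 hg.n2
    (b := fun G => G - ε • mn D G)
    (continuous_id.sub (hD.mn_contDiff.continuous.const_smul ε))
    (h := fun x _ => x) contDiff_fst hε0 hε1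
    (fun x x' ζ => by
      rw [sub_self, sub_self, sub_zero, norm_zero]
      positivity)
    (F := fun G ω => mn D G - D G ω)
    ((hD.mn_contDiff.comp contDiff_fst).sub hD.cd)
    (fun G ω ω' => by
      have h1 := hD.lipω G ω ω'
      have h2 : (mn D G - D G ω) - (mn D G - D G ω') = -(D G ω - D G ω') := by abel
      rw [h2, norm_neg]
      have h3 : 0 ≤ sq2 (ω - ω') := Finset.sum_nonneg fun i _ => sq_nonneg _
      linarith)
    (fun G => by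
      rw [integral_sub (integrable_const _) (hD.int G)]
      simp [mn])
  have e1 : ∀ G ω, G - ε • mn D G + ε • (mn D G - D G ω) = G - ε • D G ω := by
    intro G ω
    module
  simp only [e1, integral_const, probReal_univ, one_smul] at h
  exact h

/-- comparison of two means -/
theorem mean_mean (hg : Tst g g0 g1 g2) (hD : OneLev D) (hD' : OneLev D') (hε0 : 0 ≤ ε) :
    |∫ G, g (G - ε • mn D G) ∂gam d - ∫ G, g (G - ε • mn D' G) ∂gam d| ≤
      g1 * ε * ∫ G, ‖mn D G - mn D' G‖ ∂gam d := by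
  have c1 := hD.mn_contDiff.continuous
  have c2 := hD'.mn_contDiff.continuous
  have i1 : Integrable (fun G => g (G - ε • mn D G)) (gam d) :=
    int_of_bdd (hg.cd.continuous.comp (by fun_prop)) fun x => hg.b0 _
  have i2 : Integrable (fun G => g (G - ε • mn D' G)) (gam d) :=
    int_of_bdd (hg.cd.continuous.comp (by fun_prop)) fun x => hg.b0 _
  rw [← integral_sub i1 i2, ← integral_const_mul]
  have hn := norm_integral_le_integral_norm (μ := gam d)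
    (fun G => g (G - ε • mn D G) - g (G - ε • mn D' G))
  refine le_trans hn ?_
  refine integral_mono (i1.sub i2).norm ((hD.mn_int.sub hD'.mn_int).norm.const_mul _) fun G => ?_
  refine (hg.lip _ _).trans ?_
  have h1 : G - ε • mn D G - (G - ε • mn D' G) = -(ε • (mn D G - mn D' G)) := by module
  rw [h1, norm_neg, norm_smul, Real.norm_of_nonneg hε0, mul_assoc]

/-- comparison of two schemes -/
theorem one_one (hg : Tst g g0 g1 g2) (hD : OneLev D) (hD' : OneLev D') (hε0 : 0 ≤ ε)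
    (hε1 : ε ≤ 1 / 8) :
    |∫ G, ∫ ω, g (G - ε • D' G ω) ∂gamPi d κ' ∂gam d -
        ∫ G, ∫ ω, g (G - ε • D G ω) ∂gamPi d κ ∂gam d| ≤
      200 * ε ^ 2 * Real.sqrt d * (g1 + g2) + g1 * ε * ∫ G, ‖mn D G - mn D' G‖ ∂gam d := by
  have a1 := to_mean hg hD hε0 hε1
  have a2 := to_mean hg hD' hε0 hε1
  have a3 := mean_mean hg hD hD' hε0
  rw [abs_le] at a1 a2 a3 ⊢
  constructor <;> linarith [a1.1, a1.2, a2.1, a2.2, a3.1, a3.2]

/-- mean norm of a scheme, pointwise -/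
theorem pt_norm_le (hD : OneLev D) (G : E d) :
    ∫ ω, ‖D G ω‖ ∂gamPi d κ ≤ (3 * Real.sqrt d + ‖mn D 0‖) + 2 * ‖G‖ := by
  have hs : 0 ≤ Real.sqrt (d : ℝ) := Real.sqrt_nonneg _
  have p := poincare_lip (D G) (hD.cdω G) (hD.lipω G)
  change ∫ ω, ‖D G ω - mn D G‖ ^ 2 ∂gamPi d κ ≤ 2 * d * 2 ^ 2 at p
  have hm : MemLp (fun ω => D G ω - mn D G) 2 (gamPi d κ) := (hD.memLp G).sub (memLp_const _)
  have hb : ∫ ω, ‖D G ω - mn D G‖ ∂gamPi d κ ≤ 3 * Real.sqrt d := by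
    have h2 := cs (μ := gamPi d κ) (k := 1) (X := fun ω => (‖D G ω - mn D G‖ • (eb 0 : E 1)))
      (Y := fun _ => (eb 0 : E 1)) (A := 3 * Real.sqrt d) (B := 1) ?_ (memLp_const _) ?_ ?_
      (by positivity) zero_le_one
    · have h3 : ∀ ω, ⟪‖D G ω - mn D G‖ • (eb 0 : E 1), (eb 0 : E 1)⟫ = ‖D G ω - mn D G‖ := by
        intro z
        rw [real_inner_smul_left, real_inner_self_eq_norm_sq, norm_eb]
        ring
      simp only [h3, mul_one] at h2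
      exact (le_abs_self _).trans h2
    · refine MemLp.of_le hm.norm ?_ (Filter.Eventually.of_forall fun z => ?_)
      · have := (hD.cdω G).continuous
        exact (by fun_prop : Continuous fun ω => ‖D G ω - mn D G‖ • (eb 0 : E 1)).aestronglyMeasurable
      · rw [norm_smul, norm_eb, mul_one]
    · have e : ∀ ω, ‖‖D G ω - mn D G‖ • (eb 0 : E 1)‖ ^ 2 = ‖D G ω - mn D G‖ ^ 2 := by
        intro ω
        rw [norm_smul, norm_eb, mul_one, norm_norm]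
      simp only [e]
      refine p.trans ?_
      rw [mul_pow, Real.sq_sqrt (Nat.cast_nonneg d)]
      have : (0 : ℝ) ≤ d := Nat.cast_nonneg d
      nlinarith
    · simp [norm_eb]
  have h4 : ∫ ω, ‖D G ω‖ ∂gamPi d κ ≤ ∫ ω, (‖D G ω - mn D G‖ + ‖mn D G‖) ∂gamPi d κ := by
    refine integral_mono (hD.int G).norm ?_ fun ω => ?_
    · exact (hm.integrable (by norm_num)).norm.add (integrable_const _)
    · have := norm_add_le (D G ω - mn D G) (mn D G)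
      simpa using this
  rw [integral_add (hm.integrable (by norm_num)).norm (integrable_const _)] at h4
  simp only [integral_const, probReal_univ, one_smul] at h4
  have h5 := hD.mn_lip G 0
  rw [sub_zero] at h5
  have h6 : ‖mn D G‖ ≤ ‖mn D G - mn D 0‖ + ‖mn D 0‖ := by
    have := norm_add_le (mn D G - mn D 0) (mn D 0)
    simpa using this
  linarith

theorem pt_norm_integrable (hD : OneLev D) :
    Integrable (fun G => ∫ ω, ‖D G ω‖ ∂gamPi d κ) (gam d) := by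
  have h1 : Integrable (fun G : E d => (3 * Real.sqrt d + ‖mn D 0‖) + 2 * ‖G‖) (gam d) :=
    (integrable_const _).add ((norm_integrable' d).const_mul 2)
  refine h1.mono' ?_ (Filter.Eventually.of_forall fun G => ?_)
  · have hc : Continuous (Function.uncurry fun (G : E d) (ω : κ → E d) => ‖D G ω‖) :=
      hD.cd.continuous.norm
    exact (hc.stronglyMeasurable.integral_prod_right).aestronglyMeasurable
  · rw [Real.norm_of_nonneg (integral_nonneg fun ω => norm_nonneg _)]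
    exact pt_norm_le hD G

/-- mean norm of a scheme -/
theorem int_norm_le (hD : OneLev D) :
    ∫ G, ∫ ω, ‖D G ω‖ ∂gamPi d κ ∂gam d ≤ ‖mn D 0‖ + 5 * Real.sqrt d := by
  have h1 : Integrable (fun G : E d => (3 * Real.sqrt d + ‖mn D 0‖) + 2 * ‖G‖) (gam d) :=
    (integrable_const _).add ((norm_integrable' d).const_mul 2)
  have h7 : ∫ G : E d, ((3 * Real.sqrt d + ‖mn D 0‖) + 2 * ‖G‖) ∂gam d =
      (3 * Real.sqrt d + ‖mn D 0‖) + 2 * ∫ G, ‖G‖ ∂gam d := by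
    rw [integral_add (integrable_const _) ((norm_integrable' d).const_mul 2), integral_const_mul]
    simp
  have h8 := integral_mono (pt_norm_integrable hD) h1 (fun G => pt_norm_le hD G)
  have h9 := integral_norm_le d
  rw [h7] at h8
  linarith

theorem mp_inl {ι ι' : Type} [Fintype ι] [Fintype ι'] :
    MeasurePreserving (fun (q : ι ⊕ ι' → E d) (i : ι) => q (Sum.inl i)) (gamPi d (ι ⊕ ι'))
      (gamPi d ι) :=
  measurePreserving_fst.comp
    (measurePreserving_sumPiEquivProdPi (X := fun _ : ι ⊕ ι' => E d) (fun _ => gam d))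

theorem mp_inr {ι ι' : Type} [Fintype ι] [Fintype ι'] :
    MeasurePreserving (fun (q : ι ⊕ ι' → E d) (i : ι') => q (Sum.inr i)) (gamPi d (ι ⊕ ι'))
      (gamPi d ι') :=
  measurePreserving_snd.comp
    (measurePreserving_sumPiEquivProdPi (X := fun _ : ι ⊕ ι' => E d) (fun _ => gam d))

theorem int_map {α β : Type*} [MeasurableSpace α] [MeasurableSpace β] {μ : Measure α}
    {ν : Measure β} {T : α → β} (hT : MeasurePreserving T μ ν) {F : Type*} [NormedAddCommGroup F]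
    [NormedSpace ℝ F] {f : β → F} (hf : AEStronglyMeasurable f ν) :
    ∫ x, f (T x) ∂μ = ∫ y, f y ∂ν := by
  rw [← hT.map_eq] at hf ⊢
  rw [integral_map hT.measurable.aemeasurable hf]

/-- reflection move of a scheme -/
noncomputable def rf (D : E d → (κ → E d) → E d) (ε : ℝ) (X : E d) (ζ ζ' : κ → E d) : E d :=
  (-X - ε • D X ζ) - ε • D (-X - ε • D X ζ) ζ'

theorem step_lip (hD : OneLev D) (hε0 : 0 ≤ ε) (hε1 : ε ≤ 1 / 8) (x y : E d) (ζ : κ → E d) :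
    ‖(x - ε • D x ζ) - (y - ε • D y ζ)‖ ≤ (5 / 4) * ‖x - y‖ := by
  have e : (x - ε • D x ζ) - (y - ε • D y ζ) = (x - y) - ε • (D x ζ - D y ζ) := by module
  rw [e]
  refine (norm_sub_le _ _).trans ?_
  rw [norm_smul, Real.norm_of_nonneg hε0]
  have h1 := mul_le_mul_of_nonneg_left (hD.lipU x y ζ) hε0
  have h2 := mul_le_mul_of_nonneg_right hε1 (norm_nonneg (x - y))
  linarith

theorem rf_lip (hD : OneLev D) (hε0 : 0 ≤ ε) (hε1 : ε ≤ 1 / 8) (X Y : E d) (ζ ζ' : κ → E d) :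
    ‖rf D ε X ζ ζ' - rf D ε Y ζ ζ'‖ ≤ 2 * ‖X - Y‖ := by
  have h1 := step_lip hD hε0 hε1 (-X - ε • D X ζ) (-Y - ε • D Y ζ) ζ'
  have h2 : ‖(-X - ε • D X ζ) - (-Y - ε • D Y ζ)‖ ≤ (5 / 4) * ‖X - Y‖ := by
    have e : (-X - ε • D X ζ) - (-Y - ε • D Y ζ) = -((X - Y) + ε • (D X ζ - D Y ζ)) := by module
    rw [e, norm_neg]
    refine (norm_add_le _ _).trans ?_
    rw [norm_smul, Real.norm_of_nonneg hε0]
    have h1 := mul_le_mul_of_nonneg_left (hD.lipU X Y ζ) hε0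
    have h2 := mul_le_mul_of_nonneg_right hε1 (norm_nonneg (X - Y))
    linarith
  unfold rf
  nlinarith [norm_nonneg (X - Y)]

theorem rf_cont (hD : OneLev D) :
    Continuous (fun q : E d × (κ → E d) × (κ → E d) => rf D ε q.1 q.2.1 q.2.2) := by
  unfold rf
  have h := hD.cd.continuous
  have h1 : Continuous (fun q : E d × (κ → E d) × (κ → E d) => D q.1 q.2.1) :=
    h.comp (continuous_fst.prodMk (continuous_fst.comp continuous_snd))
  have h2 : Continuous (fun q : E d × (κ → E d) × (κ → E d) => -q.1 - ε • D q.1 q.2.1) :=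
    continuous_fst.neg.sub (h1.const_smul ε)
  exact h2.sub ((h.comp (h2.prodMk (continuous_snd.comp continuous_snd))).const_smul ε)

/-- the centred perturbation -/
noncomputable def Ff (D : E d → (κ → E d) → E d) (D' : E d → (κ' → E d) → E d) (G : E d)
    (q : κ' ⊕ κ → E d) : E d :=
  (D' G (fun i => q (Sum.inl i)) - mn D' G) - (D G (fun j => q (Sum.inr j)) - mn D G)

/-- the perturbed point -/
noncomputable def bb (D : E d → (κ → E d) → E d) (D' : E d → (κ' → E d) → E d) (ε : ℝ) (G : E d)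
    (ω : κ' → E d) (ζ : κ → E d) : E d :=
  -G + ε • ((D' G ω - mn D' G) - (D G ζ - mn D G))

theorem Ff_cd (hD : OneLev D) (hD' : OneLev D') :
    ContDiff ℝ 1 (fun q : E d × (κ' ⊕ κ → E d) => Ff D D' q.1 q.2) := by
  have l1 : ContDiff ℝ 1 (fun q : E d × (κ' ⊕ κ → E d) =>
      (q.1, (fun i => q.2 (Sum.inl i) : κ' → E d))) := by fun_prop
  have l2 : ContDiff ℝ 1 (fun q : E d × (κ' ⊕ κ → E d) =>
      (q.1, (fun i => q.2 (Sum.inr i) : κ → E d))) := by fun_prop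
  exact ((hD'.cd.comp l1).sub (hD'.mn_contDiff.comp contDiff_fst)).sub
    ((hD.cd.comp l2).sub (hD.mn_contDiff.comp contDiff_fst))

theorem Ff_lip (hD : OneLev D) (hD' : OneLev D') (G : E d) (q q' : κ' ⊕ κ → E d) :
    ‖Ff D D' G q - Ff D D' G q'‖ ^ 2 ≤ 4 ^ 2 * sq2 (q - q') := by
  have h1 := hD'.lipω G (fun i => q (Sum.inl i)) (fun i => q' (Sum.inl i))
  have h2 := hD.lipω G (fun i => q (Sum.inr i)) (fun i => q' (Sum.inr i))
  have e : Ff D D' G q - Ff D D' G q' =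
      (D' G (fun i => q (Sum.inl i)) - D' G (fun i => q' (Sum.inl i))) -
      (D G (fun i => q (Sum.inr i)) - D G (fun i => q' (Sum.inr i))) := by
    unfold Ff
    abel
  have h3 : sq2 (q - q') = sq2 ((fun i => q (Sum.inl i)) - fun i => q' (Sum.inl i)) +
      sq2 ((fun i => q (Sum.inr i)) - fun i => q' (Sum.inr i)) := by
    unfold sq2
    rw [Fintype.sum_sum_type]
    rfl
  rw [e, h3]
  have h4 := norm_sub_le (D' G (fun i => q (Sum.inl i)) - D' G (fun i => q' (Sum.inl i)))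
    (D G (fun i => q (Sum.inr i)) - D G (fun i => q' (Sum.inr i)))
  have h5 := norm_nonneg (D' G (fun i => q (Sum.inl i)) - D' G (fun i => q' (Sum.inl i)) -
    (D G (fun i => q (Sum.inr i)) - D G (fun i => q' (Sum.inr i))))
  have h6 := pow_le_pow_left₀ h5 h4 2
  have h7 : 0 ≤ sq2 ((fun i => q (Sum.inl i)) - fun i => q' (Sum.inl i)) :=
    Finset.sum_nonneg fun i _ => sq_nonneg _
  have h8 : 0 ≤ sq2 ((fun i => q (Sum.inr i)) - fun i => q' (Sum.inr i)) :=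
    Finset.sum_nonneg fun i _ => sq_nonneg _
  nlinarith [sq_nonneg (‖D' G (fun i => q (Sum.inl i)) - D' G (fun i => q' (Sum.inl i))‖ -
    ‖D G (fun i => q (Sum.inr i)) - D G (fun i => q' (Sum.inr i))‖)]

theorem Ff_mean (hD : OneLev D) (hD' : OneLev D') (G : E d) :
    ∫ q, Ff D D' G q ∂gamPi d (κ' ⊕ κ) = 0 := by
  have i1 : Integrable (fun q : κ' ⊕ κ → E d => D' G (fun i => q (Sum.inl i)))
      (gamPi d (κ' ⊕ κ)) := mp_inl.integrable_comp_of_integrable (hD'.int G)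
  have i2 : Integrable (fun q : κ' ⊕ κ → E d => D G (fun i => q (Sum.inr i)))
      (gamPi d (κ' ⊕ κ)) := mp_inr.integrable_comp_of_integrable (hD.int G)
  have e1 : ∫ q : κ' ⊕ κ → E d, D' G (fun i => q (Sum.inl i)) ∂gamPi d (κ' ⊕ κ) = mn D' G :=
    int_map mp_inl (hD'.int G).aestronglyMeasurable
  have e2 : ∫ q : κ' ⊕ κ → E d, D G (fun i => q (Sum.inr i)) ∂gamPi d (κ' ⊕ κ) = mn D G :=
    int_map mp_inr (hD.int G).aestronglyMeasurable
  have i3 : Integrable (fun q : κ' ⊕ κ → E d => D' G (fun i => q (Sum.inl i)) - mn D' G)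
      (gamPi d (κ' ⊕ κ)) := i1.sub (integrable_const _)
  have i4 : Integrable (fun q : κ' ⊕ κ → E d => D G (fun i => q (Sum.inr i)) - mn D G)
      (gamPi d (κ' ⊕ κ)) := i2.sub (integrable_const _)
  unfold Ff
  rw [integral_sub i3 i4,
    integral_sub i1 (integrable_const _), integral_sub i2 (integrable_const _), e1, e2]
  simp

theorem bb_cont (hD : OneLev D) (hD' : OneLev D') :
    Continuous (fun q : (E d × (κ' → E d)) × (κ → E d) => bb D D' ε q.1.1 q.1.2 q.2) := by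
  have cm := hD.mn_contDiff.continuous
  have cm' := hD'.mn_contDiff.continuous
  have cD := hD.cd.continuous
  have cD' := hD'.cd.continuous
  unfold bb
  have k2 : Continuous (fun q : (E d × (κ' → E d)) × (κ → E d) => D' q.1.1 q.1.2) :=
    cD'.comp continuous_fst
  have k3 : Continuous (fun q : (E d × (κ' → E d)) × (κ → E d) => D q.1.1 q.2) :=
    cD.comp ((continuous_fst.comp continuous_fst).prodMk continuous_snd)
  have k4 : Continuous (fun q : (E d × (κ' → E d)) × (κ → E d) => mn D' q.1.1) :=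
    cm'.comp (continuous_fst.comp continuous_fst)
  have k5 : Continuous (fun q : (E d × (κ' → E d)) × (κ → E d) => mn D q.1.1) :=
    cm.comp (continuous_fst.comp continuous_fst)
  exact (continuous_fst.comp continuous_fst).neg.add (((k2.sub k4).sub (k3.sub k5)).const_smul ε)

/-- two inner averages -/
noncomputable def in2 (g : E d → ℝ) (R : E d → (κ' → E d) → (κ → E d) → (κ → E d) → E d)
    (G : E d) (ω : κ' → E d) (ζ : κ → E d) : ℝ := ∫ ζ', g (R G ω ζ ζ') ∂gamPi d κ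

noncomputable def in3 (g : E d → ℝ) (R : E d → (κ' → E d) → (κ → E d) → (κ → E d) → E d)
    (G : E d) (ω : κ' → E d) : ℝ := ∫ ζ, in2 g R G ω ζ ∂gamPi d κ

noncomputable def in4 (g : E d → ℝ) (R : E d → (κ' → E d) → (κ → E d) → (κ → E d) → E d)
    (G : E d) : ℝ := ∫ ω, in3 g R G ω ∂gamPi d κ'

section inner

variable {R R' : E d → (κ' → E d) → (κ → E d) → (κ → E d) → E d}

theorem in2_cont (hg : Tst g g0 g1 g2)
    (hR : Continuous (fun q : ((E d × (κ' → E d)) × (κ → E d)) × (κ → E d) =>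
      R q.1.1.1 q.1.1.2 q.1.2 q.2)) :
    Continuous (fun q : (E d × (κ' → E d)) × (κ → E d) => in2 g R q.1.1 q.1.2 q.2) :=
  cont_int (f := fun (q : (E d × (κ' → E d)) × (κ → E d)) ζ' => g (R q.1.1 q.1.2 q.2 ζ'))
    (hg.cd.continuous.comp hR) fun _ _ => hg.b0 _

omit [Fintype κ'] in
theorem in2_bdd (hg : Tst g g0 g1 g2) (G : E d) (ω : κ' → E d) (ζ : κ → E d) :
    |in2 g R G ω ζ| ≤ g0 := bdd_int fun _ => hg.b0 _

theorem in3_cont (hg : Tst g g0 g1 g2)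
    (hR : Continuous (fun q : ((E d × (κ' → E d)) × (κ → E d)) × (κ → E d) =>
      R q.1.1.1 q.1.1.2 q.1.2 q.2)) :
    Continuous (fun q : E d × (κ' → E d) => in3 g R q.1 q.2) :=
  cont_int (f := fun (q : E d × (κ' → E d)) ζ => in2 g R q.1 q.2 ζ) (in2_cont hg hR)
    fun q ζ => in2_bdd hg q.1 q.2 ζ

omit [Fintype κ'] in
theorem in3_bdd (hg : Tst g g0 g1 g2) (G : E d) (ω : κ' → E d) : |in3 g R G ω| ≤ g0 :=
  bdd_int fun ζ => in2_bdd hg G ω ζ

theorem in4_cont (hg : Tst g g0 g1 g2)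
    (hR : Continuous (fun q : ((E d × (κ' → E d)) × (κ → E d)) × (κ → E d) =>
      R q.1.1.1 q.1.1.2 q.1.2 q.2)) :
    Continuous (fun G => in4 g R G) :=
  cont_int (f := fun G ω => in3 g R G ω) (in3_cont hg hR) fun G ω => in3_bdd hg G ω

theorem in4_bdd (hg : Tst g g0 g1 g2) (G : E d) : |in4 g R G| ≤ g0 :=
  bdd_int fun ω => in3_bdd hg G ω

theorem in3_sub_le (hg : Tst g g0 g1 g2)
    (hR : Continuous (fun q : ((E d × (κ' → E d)) × (κ → E d)) × (κ → E d) =>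
      R q.1.1.1 q.1.1.2 q.1.2 q.2))
    (hR' : Continuous (fun q : ((E d × (κ' → E d)) × (κ → E d)) × (κ → E d) =>
      R' q.1.1.1 q.1.1.2 q.1.2 q.2)) (G : E d) (ω : κ' → E d) {B : ℝ}
    (h : ∀ ζ ζ', |g (R G ω ζ ζ') - g (R' G ω ζ ζ')| ≤ B) :
    |in3 g R G ω - in3 g R' G ω| ≤ B := by
  have gc := hg.cd.continuous
  have c2 := in2_cont hg hR
  have c2' := in2_cont hg hR'
  have i1 : Integrable (fun ζ => in2 g R G ω ζ) (gamPi d κ) :=
    int_of_bdd (c2.comp (by fun_prop : Continuous fun ζ : κ → E d => ((G, ω), ζ)))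
      fun ζ => in2_bdd hg G ω ζ
  have i2 : Integrable (fun ζ => in2 g R' G ω ζ) (gamPi d κ) :=
    int_of_bdd (c2'.comp (by fun_prop : Continuous fun ζ : κ → E d => ((G, ω), ζ)))
      fun ζ => in2_bdd hg G ω ζ
  unfold in3
  rw [← integral_sub i1 i2]
  refine bdd_int fun ζ => ?_
  have i3 : Integrable (fun ζ' => g (R G ω ζ ζ')) (gamPi d κ) :=
    int_of_bdd ((gc.comp hR).comp (by fun_prop : Continuous fun ζ' : κ → E d =>
      (((G, ω), ζ), ζ'))) fun ζ => hg.b0 _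
  have i4 : Integrable (fun ζ' => g (R' G ω ζ ζ')) (gamPi d κ) :=
    int_of_bdd ((gc.comp hR').comp (by fun_prop : Continuous fun ζ' : κ → E d =>
      (((G, ω), ζ), ζ'))) fun ζ => hg.b0 _
  unfold in2
  rw [← integral_sub i3 i4]
  exact bdd_int fun ζ' => h ζ ζ'

theorem in4_sub_le (hg : Tst g g0 g1 g2) (hD : OneLev D) (hD' : OneLev D')
    (hR : Continuous (fun q : ((E d × (κ' → E d)) × (κ → E d)) × (κ → E d) =>
      R q.1.1.1 q.1.1.2 q.1.2 q.2))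
    (hR' : Continuous (fun q : ((E d × (κ' → E d)) × (κ → E d)) × (κ → E d) =>
      R' q.1.1.1 q.1.1.2 q.1.2 q.2)) {c ε : ℝ}
    (h : ∀ G ω ζ ζ', |g (R G ω ζ ζ') - g (R' G ω ζ ζ')| ≤
      c * (ε * ‖mn D G - mn D' G‖ + 2 * ε ^ 2 * ‖D' G ω‖)) :
    |∫ G, in4 g R G ∂gam d - ∫ G, in4 g R' G ∂gam d| ≤
      c * (ε * ∫ G, ‖mn D G - mn D' G‖ ∂gam d +
          2 * ε ^ 2 * ∫ G, ∫ ω, ‖D' G ω‖ ∂gamPi d κ' ∂gam d) := by
  have hR1 : Integrable (fun G => ‖mn D G - mn D' G‖) (gam d) := (hD.mn_int.sub hD'.mn_int).norm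
  have hR2 := pt_norm_integrable hD'
  have hA4 : Integrable (fun G => in4 g R G) (gam d) :=
    int_of_bdd (in4_cont hg hR) fun G => in4_bdd hg G
  have hB4 : Integrable (fun G => in4 g R' G) (gam d) :=
    int_of_bdd (in4_cont hg hR') fun G => in4_bdd hg G
  have hpt3 : ∀ G, |in4 g R G - in4 g R' G| ≤
      c * (ε * ‖mn D G - mn D' G‖ + 2 * ε ^ 2 * ∫ ω, ‖D' G ω‖ ∂gamPi d κ') := by
    intro G
    have j1 : Integrable (fun ω => in3 g R G ω) (gamPi d κ') :=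
      int_of_bdd ((in3_cont hg hR).comp (by fun_prop : Continuous fun ω : κ' → E d => (G, ω)))
        (in3_bdd hg G)
    have j2 : Integrable (fun ω => in3 g R' G ω) (gamPi d κ') :=
      int_of_bdd ((in3_cont hg hR').comp (by fun_prop : Continuous fun ω : κ' → E d => (G, ω)))
        (in3_bdd hg G)
    unfold in4
    rw [← integral_sub j1 j2]
    have j3 : Integrable (fun ω => 2 * ε ^ 2 * ‖D' G ω‖) (gamPi d κ') :=
      (hD'.int G).norm.const_mul _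
    have e : c * (ε * ‖mn D G - mn D' G‖ + 2 * ε ^ 2 * ∫ ω, ‖D' G ω‖ ∂gamPi d κ') =
        ∫ ω, c * (ε * ‖mn D G - mn D' G‖ + 2 * ε ^ 2 * ‖D' G ω‖) ∂gamPi d κ' := by
      rw [integral_const_mul c, integral_add (integrable_const _) j3,
        integral_const_mul (2 * ε ^ 2)]
      simp
    rw [e]
    have hn := norm_integral_le_integral_norm (μ := gamPi d κ')
      (fun ω => in3 g R G ω - in3 g R' G ω)
    refine le_trans hn ?_
    refine integral_mono (j1.sub j2).norm (((integrable_const _).add j3).const_mul _) fun ω => ?_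
    exact in3_sub_le hg hR hR' G ω fun ζ ζ' => h G ω ζ ζ'
  rw [← integral_sub hA4 hB4]
  have e : c * (ε * ∫ G, ‖mn D G - mn D' G‖ ∂gam d +
        2 * ε ^ 2 * ∫ G, ∫ ω, ‖D' G ω‖ ∂gamPi d κ' ∂gam d) =
      ∫ G, c * (ε * ‖mn D G - mn D' G‖ + 2 * ε ^ 2 * ∫ ω, ‖D' G ω‖ ∂gamPi d κ') ∂gam d := by
    rw [integral_const_mul, integral_add (hR1.const_mul _) (hR2.const_mul _),
      integral_const_mul, integral_const_mul]
  rw [e]
  have hn := norm_integral_le_integral_norm (μ := gam d) (fun G => in4 g R G - in4 g R' G)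
  refine le_trans hn ?_
  exact integral_mono (hA4.sub hB4).norm (((hR1.const_mul _).add (hR2.const_mul _)).const_mul _)
    hpt3

end inner

theorem reflect_pt (hg : Tst g g0 g1 g2) (hD : OneLev D) (hε0 : 0 ≤ ε)
    (hε1 : ε ≤ 1 / 8) (G : E d) (ω : κ' → E d) (ζ ζ' : κ → E d) :
    |g (rf D ε (G - ε • D' G ω) ζ ζ') - g (bb D D' ε G ω ζ - ε • D (bb D D' ε G ω ζ) ζ')| ≤
      ((5 / 4) * g1) * (ε * ‖mn D G - mn D' G‖ + 2 * ε ^ 2 * ‖D' G ω‖) := by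
  have hg1 := hg.n1
  have h1 := hg.lip (rf D ε (G - ε • D' G ω) ζ ζ') (bb D D' ε G ω ζ - ε • D (bb D D' ε G ω ζ) ζ')
  have h2 := step_lip hD hε0 hε1 (-(G - ε • D' G ω) - ε • D (G - ε • D' G ω) ζ)
    (bb D D' ε G ω ζ) ζ'
  have h3 : (-(G - ε • D' G ω) - ε • D (G - ε • D' G ω) ζ) - bb D D' ε G ω ζ =
      -(ε • (mn D G - mn D' G)) + ε • (D G ζ - D (G - ε • D' G ω) ζ) := by
    unfold bb
    module
  have h4 : ‖D G ζ - D (G - ε • D' G ω) ζ‖ ≤ 2 * (ε * ‖D' G ω‖) := by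
    refine (hD.lipU _ _ _).trans ?_
    rw [sub_sub_cancel, norm_smul, Real.norm_of_nonneg hε0]
  have h5 : ‖(-(G - ε • D' G ω) - ε • D (G - ε • D' G ω) ζ) - bb D D' ε G ω ζ‖ ≤
      ε * ‖mn D G - mn D' G‖ + 2 * ε ^ 2 * ‖D' G ω‖ := by
    rw [h3]
    refine (norm_add_le _ _).trans ?_
    rw [norm_neg, norm_smul, norm_smul, Real.norm_of_nonneg hε0]
    have := mul_le_mul_of_nonneg_left h4 hε0
    nlinarith
  have h6 : ‖rf D ε (G - ε • D' G ω) ζ ζ' - (bb D D' ε G ω ζ - ε • D (bb D D' ε G ω ζ) ζ')‖ ≤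
      (5 / 4) * (ε * ‖mn D G - mn D' G‖ + 2 * ε ^ 2 * ‖D' G ω‖) := by
    unfold rf
    exact h2.trans (mul_le_mul_of_nonneg_left h5 (by norm_num))
  refine h1.trans ?_
  have := mul_le_mul_of_nonneg_left h6 hg1
  linarith

theorem reflect_cp (hg : Tst g g0 g1 g2) (hD : OneLev D) (hD' : OneLev D') (hε0 : 0 ≤ ε)
    (hε1 : ε ≤ 1 / 8) :
    |∫ G, ∫ q, ∫ ζ, g (-G + ε • Ff D D' G q - ε • D (-G + ε • Ff D D' G q) ζ)
        ∂gamPi d κ ∂gamPi d (κ' ⊕ κ) ∂gam d -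
      ∫ G, ∫ ζ, g (-G - ε • D (-G) ζ) ∂gamPi d κ ∂gam d| ≤
      100 * ε ^ 2 * Real.sqrt d * (g1 + g2) :=
  centred_pert (κ := κ' ⊕ κ) (κ' := κ) (φ := g) hg.cd hg.b0 hg.b1 hg.b2 hg.n2
    (b := fun G => -G) continuous_neg (h := fun x ζ => x - ε • D x ζ)
    (contDiff_fst.sub (hD.cd.const_smul ε)) hε0 hε1
    (fun x x' ζ => by
      have e : (x - ε • D x ζ - x) - (x' - ε • D x' ζ - x') = -(ε • (D x ζ - D x' ζ)) := by module
      rw [e, norm_neg, norm_smul, Real.norm_of_nonneg hε0]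
      have := mul_le_mul_of_nonneg_left (hD.lipU x x' ζ) hε0
      linarith)
    (F := Ff D D') (Ff_cd hD hD') (Ff_lip hD hD') (Ff_mean hD hD')

theorem rfR_cont (hD : OneLev D) (hD' : OneLev D') :
    Continuous (fun q : ((E d × (κ' → E d)) × (κ → E d)) × (κ → E d) =>
      rf D ε (q.1.1.1 - ε • D' q.1.1.1 q.1.1.2) q.1.2 q.2) := by
  have cD' := hD'.cd.continuous
  have p1 : Continuous (fun q : ((E d × (κ' → E d)) × (κ → E d)) × (κ → E d) => q.1.1) :=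
    continuous_fst.comp continuous_fst
  have p2 : Continuous (fun q : ((E d × (κ' → E d)) × (κ → E d)) × (κ → E d) => q.1.1.1) :=
    continuous_fst.comp p1
  have p3 : Continuous (fun q : ((E d × (κ' → E d)) × (κ → E d)) × (κ → E d) =>
      D' q.1.1.1 q.1.1.2) := cD'.comp p1
  have p4 : Continuous (fun q : ((E d × (κ' → E d)) × (κ → E d)) × (κ → E d) => q.1.2) :=
    continuous_snd.comp continuous_fst
  have k1 : Continuous (fun q : ((E d × (κ' → E d)) × (κ → E d)) × (κ → E d) =>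
      q.1.1.1 - ε • D' q.1.1.1 q.1.1.2) := p2.sub (p3.const_smul ε)
  have cD := hD.cd.continuous
  have k2 : Continuous (fun q : ((E d × (κ' → E d)) × (κ → E d)) × (κ → E d) =>
      D (q.1.1.1 - ε • D' q.1.1.1 q.1.1.2) q.1.2) := cD.comp (k1.prodMk p4)
  have k3 : Continuous (fun q : ((E d × (κ' → E d)) × (κ → E d)) × (κ → E d) =>
      -(q.1.1.1 - ε • D' q.1.1.1 q.1.1.2) - ε • D (q.1.1.1 - ε • D' q.1.1.1 q.1.1.2) q.1.2) :=
    k1.neg.sub (k2.const_smul ε)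
  have k4 : Continuous (fun q : ((E d × (κ' → E d)) × (κ → E d)) × (κ → E d) =>
      D (-(q.1.1.1 - ε • D' q.1.1.1 q.1.1.2) -
        ε • D (q.1.1.1 - ε • D' q.1.1.1 q.1.1.2) q.1.2) q.2) :=
    cD.comp (k3.prodMk continuous_snd)
  unfold rf
  exact k3.sub (k4.const_smul ε)

theorem bbR_cont (hD : OneLev D) (hD' : OneLev D') :
    Continuous (fun q : ((E d × (κ' → E d)) × (κ → E d)) × (κ → E d) =>
      bb D D' ε q.1.1.1 q.1.1.2 q.1.2 - ε • D (bb D D' ε q.1.1.1 q.1.1.2 q.1.2) q.2) := by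
  have cD := hD.cd.continuous
  have k1 : Continuous (fun q : ((E d × (κ' → E d)) × (κ → E d)) × (κ → E d) =>
      bb D D' ε q.1.1.1 q.1.1.2 q.1.2) := (bb_cont (ε := ε) hD hD').comp continuous_fst
  exact k1.sub ((cD.comp (k1.prodMk continuous_snd)).const_smul ε)

theorem reflect_abs (hg : Tst g g0 g1 g2) (hD : OneLev D) (hD' : OneLev D') (hε0 : 0 ≤ ε)
    (hε1 : ε ≤ 1 / 8) :
    |∫ G, ∫ ω, ∫ ζ, ∫ ζ', g (rf D ε (G - ε • D' G ω) ζ ζ') ∂gamPi d κ ∂gamPi d κ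
        ∂gamPi d κ' ∂gam d -
      ∫ G, ∫ ζ, g (G - ε • D G ζ) ∂gamPi d κ ∂gam d| ≤
      100 * ε ^ 2 * Real.sqrt d * (g1 + g2) +
        ((5 / 4) * g1) * (ε * ∫ G, ‖mn D G - mn D' G‖ ∂gam d +
          2 * ε ^ 2 * ∫ G, ∫ ω, ‖D' G ω‖ ∂gamPi d κ' ∂gam d) := by
  have gc := hg.cd.continuous
  have cD := hD.cd.continuous
  have cD' := hD'.cd.continuous
  have hcp := reflect_cp hg hD hD' hε0 hε1
  have cR := rfR_cont (ε := ε) hD hD'
  have cR' := bbR_cont (ε := ε) hD hD'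
  have hfin := in4_sub_le (c := (5 / 4) * g1) (ε := ε) hg hD hD'
    (R := fun G ω ζ ζ' => rf D ε (G - ε • D' G ω) ζ ζ')
    (R' := fun G ω ζ ζ' => bb D D' ε G ω ζ - ε • D (bb D D' ε G ω ζ) ζ') cR cR'
    (fun G ω ζ ζ' => reflect_pt hg hD hε0 hε1 G ω ζ ζ')
  have hsum : ∀ G, ∫ q, ∫ ζ', g (-G + ε • Ff D D' G q - ε • D (-G + ε • Ff D D' G q) ζ')
        ∂gamPi d κ ∂gamPi d (κ' ⊕ κ) =
      in4 g (fun G ω ζ ζ' => bb D D' ε G ω ζ - ε • D (bb D D' ε G ω ζ) ζ') G := by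
    intro G
    exact int_sum (f := fun ω ζ => in2 g
      (fun G ω ζ ζ' => bb D D' ε G ω ζ - ε • D (bb D D' ε G ω ζ) ζ') G ω ζ)
      ((in2_cont hg cR').comp (by fun_prop : Continuous
        fun p : (κ' → E d) × (κ → E d) => ((G, p.1), p.2)))
      fun ω ζ => in2_bdd hg G ω ζ
  simp only [hsum] at hcp
  have hneg : ∫ G, ∫ ζ, g (-G - ε • D (-G) ζ) ∂gamPi d κ ∂gam d =
      ∫ G, ∫ ζ, g (G - ε • D G ζ) ∂gamPi d κ ∂gam d := by
    refine int_neg (f := fun G => ∫ ζ, g (G - ε • D G ζ) ∂gamPi d κ) ?_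
    refine cont_int (f := fun G ζ => g (G - ε • D G ζ)) ?_ fun _ _ => hg.b0 _
    exact gc.comp (continuous_fst.sub (cD.const_smul ε))
  rw [hneg] at hcp
  have e4 : ∫ G, ∫ ω, ∫ ζ, ∫ ζ', g (rf D ε (G - ε • D' G ω) ζ ζ') ∂gamPi d κ ∂gamPi d κ
        ∂gamPi d κ' ∂gam d = ∫ G, in4 g (fun G ω ζ ζ' => rf D ε (G - ε • D' G ω) ζ ζ') G ∂gam d :=
    rfl
  rw [e4]
  rw [abs_le] at hcp hfin ⊢
  constructor <;> linarith [hcp.1, hcp.2, hfin.1, hfin.2]

theorem rfX_cont (hD : OneLev D) (X : E d) :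
    Continuous (fun q : (κ → E d) × (κ → E d) => rf D ε X q.1 q.2) := by
  have cD := hD.cd.continuous
  have k2 : Continuous (fun q : (κ → E d) × (κ → E d) => D X q.1) :=
    (hD.cdω X).continuous.comp continuous_fst
  have k3 : Continuous (fun q : (κ → E d) × (κ → E d) => -X - ε • D X q.1) :=
    continuous_const.sub (k2.const_smul ε)
  have k4 : Continuous (fun q : (κ → E d) × (κ → E d) => D (-X - ε • D X q.1) q.2) :=
    cD.comp (k3.prodMk continuous_snd)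
  unfold rf
  exact k3.sub (k4.const_smul ε)

theorem Phi_lip (hg : Tst g g0 g1 g2) (hD : OneLev D) (hε0 : 0 ≤ ε) (hε1 : ε ≤ 1 / 8) (X Y : E d) :
    |∫ ζ, ∫ ζ', g (rf D ε X ζ ζ') ∂gamPi d κ ∂gamPi d κ -
      ∫ ζ, ∫ ζ', g (rf D ε Y ζ ζ') ∂gamPi d κ ∂gamPi d κ| ≤ (2 * g1) * ‖X - Y‖ := by
  have gc := hg.cd.continuous
  have c1 : ∀ X, Continuous (Function.uncurry fun (ζ ζ' : κ → E d) => g (rf D ε X ζ ζ')) :=
    fun X => gc.comp (rfX_cont hD X)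
  have i1 : ∀ X, Integrable (fun ζ => ∫ ζ', g (rf D ε X ζ ζ') ∂gamPi d κ) (gamPi d κ) :=
    fun X => int_of_bdd (cont_int (c1 X) fun _ _ => hg.b0 _) fun ζ => bdd_int fun _ => hg.b0 _
  have i2 : ∀ X ζ, Integrable (fun ζ' => g (rf D ε X ζ ζ')) (gamPi d κ) :=
    fun X ζ => int_of_bdd ((c1 X).comp (by fun_prop : Continuous fun ζ' : κ → E d => (ζ, ζ')))
      fun _ => hg.b0 _
  rw [← integral_sub (i1 X) (i1 Y)]
  refine bdd_int fun ζ => ?_
  rw [← integral_sub (i2 X ζ) (i2 Y ζ)]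
  refine bdd_int fun ζ' => ?_
  refine (hg.lip _ _).trans ?_
  have := mul_le_mul_of_nonneg_left (rf_lip hD hε0 hε1 X Y ζ ζ') hg.n1
  linarith

end abs

theorem lev_one {w : E d → E d} (hw : ContDiff ℝ 1 w) (hw2 : ∀ x, ‖fderiv ℝ w x‖ ≤ 2) {n : ℕ}
    {p ρ : Fin n → ℝ} (hp : ∀ i, 0 ≤ p i) (hs : ∑ i, p i ≤ 1) (h0 : ∀ i, 0 ≤ ρ i)
    (h1 : ∀ i, ρ i ≤ 1) : OneLev (lev1 w p ρ) where
  cd := lev1_contDiff hw
  lipU := lev1_lipU hw hw2 hp hs h0 h1
  lipω := lev1_lipω hw hw2 hp hs h0 h1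

theorem ref_one {w : E d → E d} (hw : ContDiff ℝ 1 w) (hw2 : ∀ x, ‖fderiv ℝ w x‖ ≤ 2) {a : ℝ}
    (h0 : 0 < a) (h1 : a < 1) (K : ℕ) : OneLev (ref1 w a K) where
  cd := ref1_contDiff hw
  lipU := ref1_lipU hw hw2 h0 h1
  lipω := ref1_lipω hw hw2 h0 h1

theorem mehler_zero_le {w : E d → E d} (hw : ContDiff ℝ 1 w) (hw2 : ∀ x, ‖fderiv ℝ w x‖ ≤ 2)
    (ρ : ℝ) : ‖mehler ρ w 0‖ ≤ ‖w 0‖ + 2 * Real.sqrt d := by
  unfold mehler
  have hl := AlgAux.lip hw hw2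
  have hi : Integrable (fun z : E d => ‖w 0‖ + 2 * ‖z‖) (gam d) :=
    (integrable_const _).add ((norm_integrable' d).const_mul 2)
  have h1 : ‖∫ z, w (ρ • (0 : E d) + Real.sqrt (1 - ρ ^ 2) • z) ∂gam d‖ ≤
      ∫ z : E d, (‖w 0‖ + 2 * ‖z‖) ∂gam d := by
    refine norm_integral_le_of_norm_le hi (Filter.Eventually.of_forall fun z => ?_)
    have h2 := hl (ρ • (0 : E d) + Real.sqrt (1 - ρ ^ 2) • z) 0
    rw [smul_zero, zero_add, sub_zero, norm_smul, Real.norm_of_nonneg (Real.sqrt_nonneg _)] at h2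
    have h3 := mul_le_of_le_one_left (norm_nonneg z) (AlgAux.sqrt_le_one' ρ)
    have h4 := norm_add_le (w (Real.sqrt (1 - ρ ^ 2) • z) - w 0) (w 0)
    rw [sub_add_cancel] at h4
    rw [smul_zero, zero_add]
    linarith
  have h5 : ∫ z : E d, (‖w 0‖ + 2 * ‖z‖) ∂gam d = ‖w 0‖ + 2 * ∫ z, ‖z‖ ∂gam d := by
    rw [integral_add (integrable_const _) ((norm_integrable' d).const_mul 2), integral_const_mul]
    simp
  have h6 := integral_norm_le d
  rw [h5] at h1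
  linarith

theorem ref_mean_zero {w : E d → E d} (hw : ContDiff ℝ 1 w) (hw2 : ∀ x, ‖fderiv ℝ w x‖ ≤ 2) {a : ℝ}
    (h0 : 0 < a) (h1 : a < 1) (K : ℕ) : ‖mn (ref1 w a K) 0‖ ≤ ‖w 0‖ + 2 * Real.sqrt d := by
  unfold mn
  rw [ref1_mean hw hw2 h0 h1]
  unfold avg
  exact AlgAux.norm_wsum (fun i => RefAux.geom_nonneg h0 h1 i) (RefAux.geom_le h0 h1 K) _
    (by positivity) fun i => mehler_zero_le hw hw2 _

/-- all the inputs at once -/
theorem inputs {W : E d → ℝ} (hW : Pot d 1 2 W) {ε τ : ℝ} (hε0 : 0 < ε)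
    (hε1 : ε ≤ 1 / 8) (hτ0 : 0 < τ) {n : ℕ} {r : ℝ} {k : Fin n → ℕ} {p : Fin n → ℝ}
    (hr0 : 0 < r) (hr1 : r < 1) (hp : ∀ i, 0 ≤ p i) (hs : ∑ i, p i = 1) (hk : ∀ i, 1 ≤ k i)
    (hq : ∀ y : ℝ, 0 ≤ y → |∑ i, p i * (r ^ (k i : ℝ)) ^ y - 1 / (1 + y)| ≤ τ) {δ : ℝ}
    (hδ : 0 < δ) : ∃ (a : ℝ) (K : ℕ), 0 < a ∧ a < 1 ∧
      (∫ x, ‖mn (lev1 (gradient W) p (fun i => r ^ k i)) x - mn (ref1 (gradient W) a K) x‖ ∂gam d ≤
        2 * τ * (‖gradient W 0‖ + 2 * Real.sqrt d)) ∧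
      ∀ {g : E d → ℝ} {C L : ℝ}, 0 ≤ L → (∀ x, |g x| ≤ C) → (∀ x y, |g x - g y| ≤ L * ‖x - y‖) →
      |∫ x, g x ∂gibbs (fun u => ‖u‖ ^ 2 / 2 + ε * W u) -
        ∫ G, ∫ ξ, g (G - ε • ref1 (gradient W) a K G ξ)
          ∂gamPi d (Fin K) ∂gam d| ≤ L * (10 * ε ^ 2 * (‖gradient W 0‖ + Real.sqrt d) + δ) := by
  have hw : ContDiff ℝ 1 (gradient W) := hW.grad_contDiff
  have hw2 : ∀ x, ‖fderiv ℝ (gradient W) x‖ ≤ 2 :=
    hW.fderiv_grad_norm_le (by norm_num) (by norm_num)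
  obtain ⟨l1, h1⟩ := gibbs_repr hW hε0 hε1 hr0 hr1 δ hδ
  obtain ⟨l2, h2⟩ := mean_diff hr0 hr1 hτ0 hp hs hk hq
  obtain ⟨K1, h3⟩ := h1 (max l1 l2) (le_max_left _ _)
  obtain ⟨K2, h4⟩ := h2 (max l1 l2) (le_max_right _ _)
  have h5 := @h4 (max K1 K2) (le_max_right _ _) d (gradient W) hw hw2
  have ha0 : 0 < r ^ ((1 : ℝ) / 2 ^ (max l1 l2)) := Real.rpow_pos_of_pos hr0 _
  have ha1 : r ^ ((1 : ℝ) / 2 ^ (max l1 l2)) < 1 :=
    Real.rpow_lt_one hr0.le hr1 (by positivity)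
  refine ⟨r ^ ((1 : ℝ) / 2 ^ (max l1 l2)), max K1 K2, ha0, ha1, ?_,
    fun hL hC hl => h3 _ (le_max_left _ _) hL hC hl⟩
  unfold mn
  simp only [ref1_mean hw hw2 ha0 ha1, lev1_mean hw hw2]
  exact h5

theorem local_one' {W : E d → ℝ} (hW : Pot d 1 2 W) {ε τ : ℝ} (hε0 : 0 < ε)
    (hε1 : ε ≤ 1 / 8) (hτ0 : 0 < τ) {n : ℕ} {r : ℝ} {k : Fin n → ℕ} {p : Fin n → ℝ}
    (hr0 : 0 < r) (hr1 : r < 1) (hp : ∀ i, 0 ≤ p i) (hs : ∑ i, p i = 1) (hk : ∀ i, 1 ≤ k i)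
    (hq : ∀ y : ℝ, 0 ≤ y → |∑ i, p i * (r ^ (k i : ℝ)) ^ y - 1 / (1 + y)| ≤ τ)
    {g : E d → ℝ} {g0 g1 g2 : ℝ} (hg : Tst g g0 g1 g2) :
    |∫ x, g x ∂gibbs (fun u => ‖u‖ ^ 2 / 2 + ε * W u) -
      ∫ G, ∫ ζ, g (G - ε • lev1 (gradient W) p (fun i => r ^ k i) G ζ) ∂gamPi d (Fin n) ∂gam d| ≤
      500 * (Real.sqrt d + ‖gradient W 0‖) * (ε ^ 2 * (g1 + g2) + ε * τ * g1) := by
  have hw : ContDiff ℝ 1 (gradient W) := hW.grad_contDiff
  have hw2 : ∀ x, ‖fderiv ℝ (gradient W) x‖ ≤ 2 :=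
    hW.fderiv_grad_norm_le (by norm_num) (by norm_num)
  have hD : OneLev (lev1 (gradient W) p (fun i => r ^ k i)) :=
    lev_one hw hw2 hp hs.le (fun i => by positivity) fun i => pow_le_one₀ hr0.le hr1.le
  have hg1 := hg.n1
  have hs0 : 0 ≤ Real.sqrt (d : ℝ) := Real.sqrt_nonneg _
  have hn0 := norm_nonneg (gradient W 0)
  refine le_of_forall_pos_le_add fun δ hδ => ?_
  obtain ⟨a, K, ha0, ha1, hm, hrep⟩ := inputs hW hε0 hε1 hτ0 hr0 hr1 hp hs hk hq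
    (δ := δ / (g1 + 1)) (by positivity)
  have hD' : OneLev (ref1 (gradient W) a K) := ref_one hw hw2 ha0 ha1 K
  have a1 := hrep hg1 hg.b0 hg.lip
  have a2 := one_one hg hD hD' hε0.le hε1
  have a3 : g1 * (δ / (g1 + 1)) ≤ δ := by
    rw [mul_div_assoc', div_le_iff₀ (by linarith)]
    nlinarith
  have a4 : g1 * ε * ∫ G, ‖mn (lev1 (gradient W) p (fun i => r ^ k i)) G -
      mn (ref1 (gradient W) a K) G‖ ∂gam d ≤
      g1 * ε * (2 * τ * (‖gradient W 0‖ + 2 * Real.sqrt d)) :=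
    mul_le_mul_of_nonneg_left hm (by positivity)
  have a5 : g1 * ε * (2 * τ * (‖gradient W 0‖ + 2 * Real.sqrt d)) ≤
      500 * (Real.sqrt d + ‖gradient W 0‖) * (ε * τ * g1) := by
    have : 0 ≤ g1 * ε * τ := by positivity
    nlinarith [mul_nonneg this hs0, mul_nonneg this hn0]
  have a6 : g1 * (10 * ε ^ 2 * (‖gradient W 0‖ + Real.sqrt d)) ≤
      10 * (Real.sqrt d + ‖gradient W 0‖) * (ε ^ 2 * (g1 + g2)) := by
    have : 0 ≤ ε ^ 2 * g2 := mul_nonneg (sq_nonneg _) hg.n2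
    nlinarith [mul_nonneg this hs0, mul_nonneg this hn0]
  have a7 : 200 * ε ^ 2 * Real.sqrt d * (g1 + g2) ≤
      200 * (Real.sqrt d + ‖gradient W 0‖) * (ε ^ 2 * (g1 + g2)) := by
    have : 0 ≤ ε ^ 2 * (g1 + g2) := mul_nonneg (sq_nonneg _) (add_nonneg hg1 hg.n2)
    nlinarith [mul_nonneg this hn0]
  have a8 : 0 ≤ (Real.sqrt d + ‖gradient W 0‖) * (ε ^ 2 * (g1 + g2)) :=
    mul_nonneg (add_nonneg hs0 hn0) (mul_nonneg (sq_nonneg _) (add_nonneg hg1 hg.n2))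
  rw [abs_le] at a1 a2 ⊢
  constructor <;> nlinarith [a1.1, a1.2, a2.1, a2.2]

theorem num_fin {S w0 ε τ g1 g2 δ δ' I1 I2 X0 X1 X2 X3 : ℝ} (hs0 : 0 ≤ S) (hn0 : 0 ≤ w0)
    (hε : 0 ≤ ε) (hτ : 0 ≤ τ) (h1 : 0 ≤ g1) (h2 : 0 ≤ g2)
    (a1 : |X0 - X1| ≤ (2 * g1) * (10 * ε ^ 2 * (w0 + S) + δ'))
    (a2 : |X1 - X2| ≤ 100 * ε ^ 2 * S * (g1 + g2) + ((5 / 4) * g1) * (ε * I1 + 2 * ε ^ 2 * I2))
    (a3 : |X3 - X2| ≤ 500 * (S + w0) * (ε ^ 2 * (g1 + g2) + ε * τ * g1))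
    (a4 : (2 * g1) * δ' ≤ δ) (a5 : I1 ≤ 2 * τ * (w0 + 2 * S)) (a6 : I2 ≤ w0 + 7 * S) :
    |X0 - X3| ≤ 2000 * (S + w0) * (ε ^ 2 * (g1 + g2) + ε * τ * g1) + δ := by
  have a8 : ((5 / 4) * g1) * (ε * I1 + 2 * ε ^ 2 * I2) ≤
      ((5 / 4) * g1) * (ε * (2 * τ * (w0 + 2 * S)) + 2 * ε ^ 2 * (w0 + 7 * S)) := by
    refine mul_le_mul_of_nonneg_left ?_ (by positivity)
    exact add_le_add (mul_le_mul_of_nonneg_left a5 hε)
      (mul_le_mul_of_nonneg_left a6 (by positivity))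
  have b1 : 0 ≤ g1 * (ε * τ) := by positivity
  have b2 : 0 ≤ g1 * ε ^ 2 := by positivity
  have b3 : 0 ≤ g2 * ε ^ 2 := by positivity
  have a9 : ((5 / 4) * g1) * (ε * (2 * τ * (w0 + 2 * S)) + 2 * ε ^ 2 * (w0 + 7 * S)) ≤
      100 * (S + w0) * (ε ^ 2 * (g1 + g2) + ε * τ * g1) := by
    nlinarith [mul_nonneg b1 hs0, mul_nonneg b1 hn0, mul_nonneg b2 hs0, mul_nonneg b2 hn0,
      mul_nonneg b3 hs0, mul_nonneg b3 hn0]
  have a10 : (2 * g1) * (10 * ε ^ 2 * (w0 + S)) ≤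
      20 * (S + w0) * (ε ^ 2 * (g1 + g2) + ε * τ * g1) := by
    nlinarith [mul_nonneg b1 hs0, mul_nonneg b1 hn0, mul_nonneg b3 hs0, mul_nonneg b3 hn0]
  have a11 : 100 * ε ^ 2 * S * (g1 + g2) ≤
      100 * (S + w0) * (ε ^ 2 * (g1 + g2) + ε * τ * g1) := by
    nlinarith [mul_nonneg b1 hs0, mul_nonneg b1 hn0, mul_nonneg b2 hn0, mul_nonneg b3 hn0]
  have a12 : 0 ≤ (S + w0) * (ε ^ 2 * (g1 + g2) + ε * τ * g1) := by positivity
  rw [abs_le] at a1 a2 a3 ⊢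
  constructor <;> nlinarith [a1.1, a1.2, a2.1, a2.2, a3.1, a3.2]

end LocR

open LocR

theorem local_one {d : ℕ} {W : E d → ℝ} (hW : Pot d 1 2 W) {ε τ : ℝ} (hε0 : 0 < ε)
    (hε1 : ε ≤ 1 / 8) (hτ0 : 0 < τ) (_hτ1 : τ ≤ 1) {n : ℕ} {r : ℝ} {k : Fin n → ℕ} {p : Fin n → ℝ}
    (hr0 : 0 < r) (hr1 : r < 1) (hp : ∀ i, 0 ≤ p i) (hs : ∑ i, p i = 1) (hk : ∀ i, 1 ≤ k i)
    (hq : ∀ y : ℝ, 0 ≤ y → |∑ i, p i * (r ^ (k i : ℝ)) ^ y - 1 / (1 + y)| ≤ τ)
    {g : E d → ℝ} (hg : ContDiff ℝ 2 g) {g0 g1 g2 : ℝ} (hg0 : ∀ x, |g x| ≤ g0)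
    (hg1 : ∀ x, ‖gradient g x‖ ≤ g1)
    (hg2 : ∀ x, hs2 (fderiv ℝ (gradient g) x) ≤ g2 ^ 2) (h2 : 0 ≤ g2) :
    |∫ x, g x ∂gibbs (fun u => ‖u‖ ^ 2 / 2 + ε * W u) -
      ∫ G, ∫ ζ, g (G - ε • lev1 (gradient W) p (fun i => r ^ k i) G ζ) ∂gamPi d (Fin n) ∂gam d| ≤
      2000 * (Real.sqrt d + ‖gradient W 0‖) * (ε ^ 2 * (g1 + g2) + ε * τ * g1) := by
  have hT : Tst g g0 g1 g2 := ⟨hg, hg0, hg1, hg2, h2⟩
  have hn1 := hT.n1
  refine (local_one' hW hε0 hε1 hτ0 hr0 hr1 hp hs hk hq hT).trans ?_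
  refine mul_le_mul_of_nonneg_right ?_ (by positivity)
  have hs0 : 0 ≤ Real.sqrt (d : ℝ) := Real.sqrt_nonneg _
  have hn0 := norm_nonneg (gradient W 0)
  nlinarith

/-- the Gaussianised and reflected seed -/
noncomputable def gseed {d n : ℕ} (w : E d → E d) (p ρ : Fin n → ℝ) (ε : ℝ) (X : E d)
    (ζ : Fin n → E d) : E d := -X - ε • lev1 w p ρ X ζ

/-- reflection move: `X' = g' - ε lev1 w g' ζ'` -/
noncomputable def refl {d n : ℕ} (w : E d → E d) (p ρ : Fin n → ℝ) (ε : ℝ) (X : E d)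
    (ζ ζ' : Fin n → E d) : E d :=
  gseed w p ρ ε X ζ - ε • lev1 w p ρ (gseed w p ρ ε X ζ) ζ'

theorem local_reflect {d : ℕ} {W : E d → ℝ} (hW : Pot d 1 2 W) {ε τ : ℝ} (hε0 : 0 < ε)
    (hε1 : ε ≤ 1 / 8) (hτ0 : 0 < τ) (_hτ1 : τ ≤ 1) {n : ℕ} {r : ℝ} {k : Fin n → ℕ} {p : Fin n → ℝ}
    (hr0 : 0 < r) (hr1 : r < 1) (hp : ∀ i, 0 ≤ p i) (hs : ∑ i, p i = 1) (hk : ∀ i, 1 ≤ k i)
    (hq : ∀ y : ℝ, 0 ≤ y → |∑ i, p i * (r ^ (k i : ℝ)) ^ y - 1 / (1 + y)| ≤ τ)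
    {g : E d → ℝ} (hg : ContDiff ℝ 2 g) {g0 g1 g2 : ℝ} (hg0 : ∀ x, |g x| ≤ g0)
    (hg1 : ∀ x, ‖gradient g x‖ ≤ g1)
    (hg2 : ∀ x, hs2 (fderiv ℝ (gradient g) x) ≤ g2 ^ 2) (h2 : 0 ≤ g2) :
    |∫ X, ∫ ζ, ∫ ζ', g (refl (gradient W) p (fun i => r ^ k i) ε X ζ ζ')
        ∂gamPi d (Fin n) ∂gamPi d (Fin n) ∂gibbs (fun u => ‖u‖ ^ 2 / 2 + ε * W u) -
      ∫ x, g x ∂gibbs (fun u => ‖u‖ ^ 2 / 2 + ε * W u)| ≤
      2000 * (Real.sqrt d + ‖gradient W 0‖) * (ε ^ 2 * (g1 + g2) + ε * τ * g1) := by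
  have hT : Tst g g0 g1 g2 := ⟨hg, hg0, hg1, hg2, h2⟩
  have hw : ContDiff ℝ 1 (gradient W) := hW.grad_contDiff
  have hw2 : ∀ x, ‖fderiv ℝ (gradient W) x‖ ≤ 2 :=
    hW.fderiv_grad_norm_le (by norm_num) (by norm_num)
  have hD : OneLev (lev1 (gradient W) p (fun i => r ^ k i)) :=
    lev_one hw hw2 hp hs.le (fun i => by positivity) fun i => pow_le_one₀ hr0.le hr1.le
  have hn1 := hT.n1
  have hs0 : 0 ≤ Real.sqrt (d : ℝ) := Real.sqrt_nonneg _
  have hn0 := norm_nonneg (gradient W 0)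
  refine le_of_forall_pos_le_add fun δ hδ => ?_
  obtain ⟨a, K, ha0, ha1, hm, hrep⟩ := inputs hW hε0 hε1 hτ0 hr0 hr1 hp hs hk hq
    (δ := δ / (2 * g1 + 1)) (by positivity)
  have hD' : OneLev (ref1 (gradient W) a K) := ref_one hw hw2 ha0 ha1 K
  have a1 := hrep (g := fun X => ∫ ζ, ∫ ζ', g (rf (lev1 (gradient W) p (fun i => r ^ k i)) ε X ζ ζ')
    ∂gamPi d (Fin n) ∂gamPi d (Fin n)) (L := 2 * g1) (C := g0) (by positivity)
    (fun X => bdd_int fun ζ => bdd_int fun ζ' => hg0 _) (Phi_lip hT hD hε0.le hε1)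
  have a2 := reflect_abs hT hD hD' hε0.le hε1
  have a3 := local_one' hW hε0 hε1 hτ0 hr0 hr1 hp hs hk hq hT
  have a4 : (2 * g1) * (δ / (2 * g1 + 1)) ≤ δ := by
    rw [mul_div_assoc', div_le_iff₀ (by linarith)]
    nlinarith
  have a5 := int_norm_le hD'
  have a6 := ref_mean_zero hw hw2 ha0 ha1 K
  have a7 : ∫ G, ∫ ω, ‖ref1 (gradient W) a K G ω‖ ∂gamPi d (Fin K) ∂gam d ≤
      ‖gradient W 0‖ + 7 * Real.sqrt d := by linarith
  exact num_fin hs0 hn0 hε0.le hτ0.le hn1 h2 a1 a2 a3 a4 hm a7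

end Vale.Agent.P347
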