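import Vale.Agent.P347.Joint
import Vale.Agent.P347.Mehler

/-! P347, piece C3a: disintegration of the pair `(x, x + sqrt(η) z)`, `x ~ gibbs U`. -/

open MeasureTheory ProbabilityTheory
open scoped ENNReal NNReal RealInnerProductSpace

namespace Vale.Agent.P347

open Joint in
theorem prox_disint {d : ℕ} {α β : ℝ} {U : E d → ℝ} (hU : Pot d α β U) (hα : 0 < α) {η : ℝ}
    (hη : 0 < η) {F : E d → E d → ℝ} (hF : Measurable fun q : E d × E d => F q.1 q.2)
    {C : ℝ} {m : ℕ} (hb : ∀ x y, |F x y| ≤ C * (1 + ‖x‖) ^ m * (1 + ‖y‖) ^ m) :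
    ∫ x, ∫ z, F x (x + Real.sqrt η • z) ∂gam d ∂gibbs U =
      ∫ x, ∫ z, ∫ x', F x' (x + Real.sqrt η • z) ∂prox U η (x + Real.sqrt η • z) ∂gam d
        ∂gibbs U := by
  have := gibbs_prob hU hα
  have hUm : Measurable U := hU.smooth.continuous.measurable
  set s := Real.sqrt η with hs
  have hs0 : 0 < s := Real.sqrt_pos.2 hη
  have hs2 : s ^ 2 = η := Real.sq_sqrt hη.le
  set V : E d → E d → ℝ := fun y x => U x + ‖x - y‖ ^ 2 / (2 * η) with hV
  have hVp : ∀ y, Pot d (α + 1 / η) (β + 1 / η) (V y) := fun y => hU.add_sq hη y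
  have hα' : 0 < α + 1 / η := by positivity
  set k : E d × E d → ℝ := jk U id s with hk
  have hkV : ∀ x y, k (x, y) = Real.exp (-V y x) := by
    intro x y
    simp only [hk, jk, hV, id]
    rw [norm_sub_rev y x, hs2]
    congr 1; ring
  have hkm : Measurable k := jk_meas hUm measurable_id s
  have hk0 : ∀ p, 0 < k p := jk_pos U id s
  set c := jc U s with hc
  have hC0 : 0 ≤ C := by
    have h1 := hb 0 0
    simp only [norm_zero, add_zero, one_pow, mul_one] at h1
    exact (abs_nonneg _).trans h1
  -- integrability of `F`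
  have I1 : Integrable (fun p : E d × E d => F p.1 (id p.1 + s • p.2))
      ((gibbs U).prod (gam d)) := by
    have i1 : Integrable (fun x : E d => (1 + ‖x‖) ^ (2 * m)) (gibbs U) := by
      refine gibbs_integrable hU hα (by fun_prop) ⟨1, 2 * m, fun x => ?_⟩
      rw [Real.norm_of_nonneg (by positivity), one_mul]
    have i2 := MehlerAux.pow_int d m
    refine ((i1.mul_prod i2).const_mul (C * (1 + s) ^ m)).mono'
      (hF.comp (map_meas measurable_id s)).aestronglyMeasurable
      (Filter.Eventually.of_forall fun p => ?_)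
    rw [Real.norm_eq_abs]
    refine (hb _ _).trans ?_
    have h1 : 1 + ‖p.1 + s • p.2‖ ≤ (1 + s) * ((1 + ‖p.1‖) * (1 + ‖p.2‖)) := by
      have h2 := norm_add_le p.1 (s • p.2)
      rw [norm_smul, Real.norm_of_nonneg hs0.le] at h2
      have h3 := norm_nonneg p.1
      have h4 := norm_nonneg p.2
      have h5 := mul_nonneg h3 h4
      have h6 := mul_nonneg hs0.le h5
      have h7 := mul_nonneg hs0.le h3
      have h8 := mul_nonneg hs0.le h4
      nlinarith
    calc C * (1 + ‖p.1‖) ^ m * (1 + ‖id p.1 + s • p.2‖) ^ m
        ≤ C * (1 + ‖p.1‖) ^ m * ((1 + s) * ((1 + ‖p.1‖) * (1 + ‖p.2‖))) ^ m :=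
          mul_le_mul_of_nonneg_left (pow_le_pow_left₀ (by positivity) h1 m) (by positivity)
      _ = _ := by rw [mul_pow, mul_pow]; ring
  have J1 : Integrable (fun p : E d × E d => c * k p * F p.1 p.2)
      ((volume : Measure (E d)).prod volume) :=
    (integrable_joint (f := fun q => F q.1 q.2) hUm measurable_id hs0 hF).1 I1
  have L1 : ∫ x, ∫ z, F x (x + s • z) ∂gam d ∂gibbs U =
      ∫ p : E d × E d, c * k p * F p.1 p.2 ∂((volume : Measure (E d)).prod volume) := by
    rw [← integral_joint (f := fun q => F q.1 q.2) hUm measurable_id hs0 hF, integral_prod _ I1]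
    rfl
  -- the conditional expectation
  set Z : E d → ℝ := fun y => ∫ x, k (x, y) with hZ
  set N : E d → ℝ := fun y => ∫ x, k (x, y) * F x y with hN
  have hZm : Measurable Z := by
    have := (hkm.stronglyMeasurable).integral_prod_left' (μ := (volume : Measure (E d)))
    exact this.measurable
  have hNm : Measurable N := by
    have := ((hkm.mul hF).stronglyMeasurable).integral_prod_left' (μ := (volume : Measure (E d)))
    exact this.measurable
  have hZi : ∀ y, Integrable fun x => k (x, y) := by
    intro y
    refine (GibbsAux.int_exp (hVp y) hα').congr (Filter.Eventually.of_forall fun x => ?_)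
    exact (hkV x y).symm
  have hZ0 : ∀ y, 0 < Z y := by
    intro y
    have h1 := GibbsAux.exp_pos' (hVp y) hα'
    have h2 : Z y = ∫ x, Real.exp (-V y x) :=
      integral_congr_ae (Filter.Eventually.of_forall fun x => hkV x y)
    rw [h2]; exact h1
  set H : E d → ℝ := fun y => (Z y)⁻¹ * N y with hH
  have hHm : Measurable H := hZm.inv.mul hNm
  have hprox : ∀ y, ∫ x', F x' y ∂prox U η y = H y := by
    intro y
    rw [prox, gibbs_integral]
    simp only [hH, hZ, hN, hkV, smul_eq_mul]
    rfl
  simp_rw [hprox]
  -- integrability of `k H`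
  have hcpos : 0 ≤ c := jc_nonneg U hs0
  have J2 : Integrable (fun p : E d × E d => c * k p * H p.2)
      ((volume : Measure (E d)).prod volume) := by
    have hm : AEStronglyMeasurable (fun p : E d × E d => c * k p * H p.2)
        ((volume : Measure (E d)).prod volume) :=
      ((hkm.const_mul c).mul (hHm.comp measurable_snd)).aestronglyMeasurable
    rw [integrable_prod_iff' hm]
    constructor
    · exact Filter.Eventually.of_forall fun y => ((hZi y).const_mul c).mul_const (H y)
    · have h1 : Integrable (fun y => ∫ x, ‖c * k (x, y) * F x y‖) (volume : Measure (E d)) :=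
        ((integrable_prod_iff' J1.1).1 J1).2
      refine h1.mono ?_ (Filter.Eventually.of_forall fun y => ?_)
      · have hmm : StronglyMeasurable fun p : E d × E d => ‖c * k p * H p.2‖ :=
          ((hkm.const_mul c).mul (hHm.comp measurable_snd)).norm.stronglyMeasurable
        exact (hmm.integral_prod_left' (μ := (volume : Measure (E d)))).aestronglyMeasurable
      · rw [Real.norm_of_nonneg (integral_nonneg fun x => norm_nonneg _),
          Real.norm_of_nonneg (integral_nonneg fun x => norm_nonneg _)]
        have e1 : ∀ x, ‖c * k (x, y) * H y‖ = c * |H y| * k (x, y) := by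
          intro x
          rw [norm_mul, norm_mul, Real.norm_of_nonneg hcpos, Real.norm_of_nonneg (hk0 _).le,
            Real.norm_eq_abs]
          ring
        have e2 : ∀ x, ‖c * k (x, y) * F x y‖ = c * |k (x, y) * F x y| := by
          intro x
          rw [norm_mul, norm_mul, Real.norm_of_nonneg hcpos, Real.norm_of_nonneg (hk0 _).le,
            Real.norm_eq_abs, abs_mul, abs_of_pos (hk0 _)]
          ring
        simp_rw [e1, e2]
        rw [integral_const_mul, integral_const_mul, mul_assoc]
        refine mul_le_mul_of_nonneg_left ?_ hcpos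
        have h2 : |H y| * ∫ x, k (x, y) = |N y| := by
          show |(Z y)⁻¹ * N y| * Z y = |N y|
          rw [abs_mul, abs_of_pos (inv_pos.2 (hZ0 y))]
          have := (hZ0 y).ne'
          field_simp
        rw [h2]
        exact abs_integral_le_integral_abs
  have I2 : Integrable (fun p : E d × E d => H (id p.1 + s • p.2)) ((gibbs U).prod (gam d)) :=
    (integrable_joint (f := fun q => H q.2) hUm measurable_id hs0
      (hHm.comp measurable_snd)).2 J2
  have L2 : ∫ x, ∫ z, H (x + s • z) ∂gam d ∂gibbs U =
      ∫ p : E d × E d, c * k p * H p.2 ∂((volume : Measure (E d)).prod volume) := by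
    rw [← integral_joint (f := fun q => H q.2) hUm measurable_id hs0 (hHm.comp measurable_snd),
      integral_prod _ I2]
    rfl
  rw [L1, L2, integral_prod_symm _ J1, integral_prod_symm _ J2]
  refine integral_congr_ae (Filter.Eventually.of_forall fun y => ?_)
  show ∫ x, c * k (x, y) * F x y = ∫ x, c * k (x, y) * H y
  have e3 : ∫ x, c * k (x, y) * F x y = c * N y := by
    rw [← integral_const_mul]
    exact integral_congr_ae (Filter.Eventually.of_forall fun x => mul_assoc _ _ _)
  have e4 : ∫ x, c * k (x, y) * H y = c * Z y * H y := by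
    rw [integral_mul_const, integral_const_mul]
  rw [e3, e4]
  show c * N y = c * Z y * ((Z y)⁻¹ * N y)
  have := (hZ0 y).ne'
  field_simp

/-- one full Gibbs cycle preserves the law: if `x ~ π`, `y = x + sqrt(η) z`, `x' ~ R_y`, then
`x' ~ π`. -/
theorem prox_invariant {d : ℕ} {α β : ℝ} {U : E d → ℝ} (hU : Pot d α β U) (hα : 0 < α) {η : ℝ}
    (hη : 0 < η) {f : E d → ℝ} (hf : Measurable f) (hg : PolyGrowth f) :
    ∫ x, conv η (opR U η f) x ∂gibbs U = ∫ x, f x ∂gibbs U := by
  obtain ⟨C, p, hC, h⟩ := MehlerAux.growth hg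
  have h1 := prox_disint hU hα hη (F := fun x _ => f x) (C := C) (m := p)
    (hf.comp measurable_fst) (fun x y => by
      have h2 := h x
      rw [Real.norm_eq_abs] at h2
      refine h2.trans ?_
      refine le_mul_of_one_le_right (by positivity) ?_
      exact one_le_pow₀ (by linarith [norm_nonneg y]))
  unfold conv opR
  rw [← h1]
  simp

end Vale.Agent.P347
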