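import Vale.Agent.P347.GibbsBasic

/-! P347, piece C3b: the proximal kernel in local coordinates. -/

open MeasureTheory ProbabilityTheory
open scoped ENNReal NNReal RealInnerProductSpace

namespace Vale.Agent.P347

/-- the local potential -/
noncomputable def locW {d : ℕ} (V : E d → ℝ) (η : ℝ) (y u : E d) : ℝ :=
  η⁻¹ * (V (y - η • gradient V y + Real.sqrt η • u) - Real.sqrt η * ⟪gradient V y, u⟫)

namespace LocAux

open PotAux

variable {d : ℕ}

/-- an affine change of variables in a potential, minus a linear term -/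
theorem affine {α β : ℝ} {V : E d → ℝ} (hV : Pot d α β V) (a s : ℝ) (c g : E d) :
    ContDiff ℝ 2 (fun u => a * (V (c + s • u) - ⟪g, u⟫)) ∧
    (∀ u, HasFDerivAt (fun u => a * (V (c + s • u) - ⟪g, u⟫))
      (a • (s • fderiv ℝ V (c + s • u) - isl d g)) u) ∧
    ∀ u v, iteratedFDeriv ℝ 2 (fun u => a * (V (c + s • u) - ⟪g, u⟫)) u (fun _ => v) =
      a * s ^ 2 * iteratedFDeriv ℝ 2 V (c + s • u) (fun _ => v) := by
  have hT : ∀ u : E d, HasFDerivAt (fun u : E d => c + s • u)
      (s • ContinuousLinearMap.id ℝ (E d)) u := fun u =>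
    ((hasFDerivAt_id u).const_smul s).const_add c
  have hs : ContDiff ℝ 2 (fun u => a * (V (c + s • u) - ⟪g, u⟫)) := by
    have h1 : ContDiff ℝ 2 (fun u : E d => V (c + s • u)) :=
      hV.smooth.comp (contDiff_const.add (contDiff_id.const_smul s))
    have h2 : ContDiff ℝ 2 (fun u : E d => ⟪g, u⟫) := contDiff_const.inner ℝ contDiff_id
    exact contDiff_const.mul (h1.sub h2)
  have hd : ∀ u, HasFDerivAt (fun u => a * (V (c + s • u) - ⟪g, u⟫))
      (a • (s • fderiv ℝ V (c + s • u) - isl d g)) u := by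
    intro u
    have h1 := (hV.hasFDerivAt (c + s • u)).comp u (hT u)
    have h2 : HasFDerivAt (fun u : E d => ⟪g, u⟫) (isl d g) u := (isl d g).hasFDerivAt
    have h3 := (h1.sub h2).const_mul a
    refine h3.congr_fderiv ?_
    ext v
    simp
  refine ⟨hs, hd, fun u v => ?_⟩
  rw [sec, sec]
  have e : fderiv ℝ (fun u => a * (V (c + s • u) - ⟪g, u⟫)) =
      fun u => a • (s • fderiv ℝ V (c + s • u) - isl d g) := funext fun u => (hd u).fderiv
  rw [e]
  have h4 : HasFDerivAt (fun u => a • (s • fderiv ℝ V (c + s • u) - isl d g))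
      (a • (s • ((fderiv ℝ (fderiv ℝ V) (c + s • u)).comp
        (s • ContinuousLinearMap.id ℝ (E d))))) u := by
    have h5 := (hasFDerivAt_fderiv hV.smooth (c + s • u)).comp u (hT u)
    exact ((h5.const_smul s).sub_const (isl d g)).const_smul a
  rw [h4.fderiv]
  simp only [ContinuousLinearMap.smul_apply, smul_eq_mul, ContinuousLinearMap.comp_apply,
    ContinuousLinearMap.id_apply, map_smul]
  ring

/-- change of variables for a Gibbs law under an affine map -/
theorem gibbs_map (Φ : E d → ℝ) (c : E d) {s : ℝ} (hs : 0 < s) (k : ℝ) :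
    Measure.map (fun u => c + s • u) (gibbs fun u => Φ (c + s • u) + k) = gibbs Φ := by
  have hm : Measurable fun u : E d => c + s • u := by fun_prop
  have hfin1 : IsFiniteMeasure (gibbs fun u : E d => Φ (c + s • u) + k) := by
    unfold gibbs; infer_instance
  have hfin2 : IsFiniteMeasure (gibbs Φ) := by unfold gibbs; infer_instance
  -- change of variables for the Lebesgue measure
  have hch : ∀ f : E d → ℝ, ∫ u, f (c + s • u) = (s ^ d)⁻¹ * ∫ x, f x := by
    intro f
    have h1 := Measure.integral_comp_smul (volume : Measure (E d)) (fun x => f (c + x)) s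
    have h2 : ∫ x, f (c + x) = ∫ x, f x := integral_add_left_eq_self f c
    rw [h2, finrank_euclideanSpace_fin] at h1
    rw [h1, abs_of_pos (by positivity), smul_eq_mul]
  refine Measure.ext fun A hA => ?_
  rw [Measure.map_apply hm hA]
  have hpre : MeasurableSet ((fun u : E d => c + s • u) ⁻¹' A) := hm hA
  rw [← ENNReal.toReal_eq_toReal_iff' (measure_ne_top _ _) (measure_ne_top _ _)]
  have e1 : ((gibbs fun u : E d => Φ (c + s • u) + k) ((fun u : E d => c + s • u) ⁻¹' A)).toReal =
      ∫ u, A.indicator (fun _ => (1 : ℝ)) (c + s • u) ∂gibbs fun u : E d => Φ (c + s • u) + k := by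
    have : (fun u : E d => A.indicator (fun _ => (1 : ℝ)) (c + s • u)) =
        ((fun u : E d => c + s • u) ⁻¹' A).indicator fun _ => (1 : ℝ) := by
      rfl
    rw [this, integral_indicator_const _ hpre]
    simp [measureReal_def]
  have e2 : ((gibbs Φ) A).toReal = ∫ x, A.indicator (fun _ => (1 : ℝ)) x ∂gibbs Φ := by
    rw [integral_indicator_const _ hA]
    simp [measureReal_def]
  rw [e1, e2, gibbs_integral, gibbs_integral]
  have e3 : ∀ u : E d, Real.exp (-(Φ (c + s • u) + k)) = Real.exp (-k) * Real.exp (-Φ (c + s • u)) := by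
    intro u
    rw [← Real.exp_add]
    congr 1
    ring
  simp only [e3, smul_eq_mul, mul_assoc]
  rw [integral_const_mul, integral_const_mul, hch (fun x => Real.exp (-Φ x)),
    hch (fun x => Real.exp (-Φ x) * A.indicator (fun _ => (1 : ℝ)) x)]
  have h1 : Real.exp (-k) ≠ 0 := (Real.exp_pos _).ne'
  have h2 : (s ^ d)⁻¹ ≠ 0 := by positivity
  rw [mul_inv, mul_inv]
  field_simp

end LocAux

open LocAux

section prox
variable {d : ℕ} {V : E d → ℝ} {η : ℝ}

theorem LocAux.locW_eq (V : E d → ℝ) (η : ℝ) (y : E d) :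
    locW V η y = fun u => η⁻¹ * (V (y - η • gradient V y + Real.sqrt η • u) -
      ⟪Real.sqrt η • gradient V y, u⟫) := by
  funext u
  rw [locW, real_inner_smul_left]

theorem locW_pot {α β : ℝ} (hV : Pot d α β V) (hη : 0 < η) (y : E d) :
    Pot d α β (locW V η y) := by
  obtain ⟨h1, _, h3⟩ := affine hV η⁻¹ (Real.sqrt η) (y - η • gradient V y)
    (Real.sqrt η • gradient V y)
  have e : η⁻¹ * Real.sqrt η ^ 2 = 1 := by
    rw [Real.sq_sqrt hη.le, inv_mul_cancel₀ hη.ne']
  rw [locW_eq]
  refine ⟨h1, fun x v => ?_, fun x v => ?_⟩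
  · rw [h3, e, one_mul]
    exact hV.lower _ v
  · rw [h3, e, one_mul]
    exact hV.upper _ v

theorem gradient_locW {α β : ℝ} (hV : Pot d α β V) (hη : 0 < η) (y u : E d) :
    gradient (locW V η y) u =
      (Real.sqrt η)⁻¹ • (gradient V (y - η • gradient V y + Real.sqrt η • u) - gradient V y) := by
  obtain ⟨_, h2, _⟩ := affine hV η⁻¹ (Real.sqrt η) (y - η • gradient V y)
    (Real.sqrt η • gradient V y)
  rw [locW_eq]
  apply ext_inner_right ℝ
  intro v
  rw [Pot.inner_grad, (h2 u).fderiv, real_inner_smul_left, inner_sub_left, Pot.inner_grad V]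
  have hs : 0 < Real.sqrt η := Real.sqrt_pos.2 hη
  have hss : Real.sqrt η * Real.sqrt η = η := Real.mul_self_sqrt hη.le
  have e : η⁻¹ * Real.sqrt η = (Real.sqrt η)⁻¹ := by
    rw [← hss, mul_inv, Real.sqrt_mul_self hs.le, mul_assoc, inv_mul_cancel₀ hs.ne', mul_one]
  simp only [ContinuousLinearMap.sub_apply, ContinuousLinearMap.smul_apply, smul_eq_mul,
    PotAux.isl_apply, real_inner_smul_left]
  rw [← mul_sub, ← mul_assoc, e]

theorem prox_eq_map {α β : ℝ} (hV : Pot d α β V) (hα : 0 < α) (hη : 0 < η) (y : E d) :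
    prox V η y = Measure.map (fun u => y - η • gradient V y + Real.sqrt η • u)
      (gibbs fun u => ‖u‖ ^ 2 / 2 + η * locW V η y u) := by
  have hs : 0 < Real.sqrt η := Real.sqrt_pos.2 hη
  have hss : Real.sqrt η * Real.sqrt η = η := Real.mul_self_sqrt hη.le
  have h := gibbs_map (fun x => V x + ‖x - y‖ ^ 2 / (2 * η)) (y - η • gradient V y) hs
    (-(η * ‖gradient V y‖ ^ 2 / 2))
  rw [prox, ← h]
  congr 2
  funext u
  have e1 : y - η • gradient V y + Real.sqrt η • u - y =
      Real.sqrt η • u - η • gradient V y := by abel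
  rw [e1, norm_sub_sq_real, norm_smul, norm_smul, Real.norm_of_nonneg hs.le,
    Real.norm_of_nonneg hη.le, real_inner_smul_left, real_inner_smul_right, mul_pow, mul_pow,
    Real.sq_sqrt hη.le, locW, ← mul_assoc η η⁻¹, mul_inv_cancel₀ hη.ne', one_mul,
    real_inner_comm u (gradient V y)]
  field_simp
  ring

end prox

end Vale.Agent.P347
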