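import Vale.Agent.P347.Ref
import Vale.Agent.P347.Rot

/-! P347, piece B'1: one Picard step (`revX` against the one-level reference scheme). -/

open MeasureTheory ProbabilityTheory
open scoped ENNReal NNReal RealInnerProductSpace

namespace Vale.Agent.P347

namespace RefOne

variable {d : ℕ}

/-- the law of a starting point and a finite path of innovations -/
noncomputable abbrev PG (d N : ℕ) : Measure (E d × (Fin N → E d)) :=
  (gam d).prod (gamPi d (Fin N))

theorem gam_norm_le (d : ℕ) : ∫ x, ‖x‖ ∂gam d ≤ Real.sqrt d := by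
  have i1 := RefAux.norm_integrable d
  have i2 : Integrable (fun x : E d => ‖x‖ ^ 2) (gam d) := by
    refine (gam_pow_integrable d 2).mono' (by fun_prop) (Filter.Eventually.of_forall fun x => ?_)
    rw [Real.norm_of_nonneg (by positivity)]
    exact pow_le_pow_left₀ (norm_nonneg _) (by linarith) 2
  set m := ∫ x, ‖x‖ ∂gam d with hm
  have i3 : Integrable (fun x : E d => 2 * m * ‖x‖) (gam d) := i1.const_mul (2 * m)
  have i4 : Integrable (fun x : E d => ‖x‖ ^ 2 - 2 * m * ‖x‖) (gam d) := i2.sub i3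
  have h : 0 ≤ ∫ x : E d, (‖x‖ ^ 2 - 2 * m * ‖x‖ + m ^ 2) ∂gam d := by
    refine integral_nonneg fun x => ?_
    have : ‖x‖ ^ 2 - 2 * m * ‖x‖ + m ^ 2 = (‖x‖ - m) ^ 2 := by ring
    show 0 ≤ ‖x‖ ^ 2 - 2 * m * ‖x‖ + m ^ 2
    rw [this]
    positivity
  rw [integral_add i4 (integrable_const _), integral_sub i2 i3,
    integral_const_mul, gam_sq, ← hm] at h
  simp only [integral_const, probReal_univ, one_smul] at h
  refine Real.le_sqrt_of_sq_le ?_
  nlinarith

theorem cont_revq (a : ℝ) (N j : ℕ) :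
    Continuous fun q : E d × (Fin N → E d) => rev a q.1 (extz q.2) j :=
  RefLaw.cont_rev a continuous_fst (fun j => (RefLaw.cont_extz j).comp continuous_snd) j

theorem int_rev {a : ℝ} (h0 : 0 ≤ a) (h1 : a ≤ 1) (N j : ℕ) :
    Integrable (fun q : E d × (Fin N → E d) => ‖rev a q.1 (extz q.2) j‖) (PG d N) := by
  have hb : Integrable (fun q : E d × (Fin N → E d) =>
      ‖q.1‖ + ∑ i ∈ Finset.range j, ‖extz q.2 i‖) (PG d N) := by
    refine ((RefAux.norm_integrable d).comp_fst (gamPi d (Fin N))).add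
      (integrable_finsetSum _ fun i _ => ?_)
    exact (RefAux.extz_integrable (d := d) (n := N) i).comp_snd (gam d)
  refine hb.mono' (cont_revq a N j).norm.aestronglyMeasurable
    (Filter.Eventually.of_forall fun q => ?_)
  rw [norm_norm]
  exact RefAux.rev_norm_le h0 h1 _ _ _

/-- stationarity -/
theorem mean_rev {a : ℝ} (h0 : 0 ≤ a) (h1 : a ≤ 1) (N j : ℕ) (hj : j ≤ N) :
    ∫ G, ∫ ξ, ‖rev a G (extz ξ) j‖ ∂gamPi d (Fin N) ∂gam d = ∫ x, ‖x‖ ∂gam d := by
  induction N generalizing j with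
  | zero =>
    obtain rfl : j = 0 := by omega
    simp [rev]
  | succ N ih =>
    cases j with
    | zero => simp [rev]
    | succ j =>
      rw [← ih j (by omega)]
      set Φ : E d → ℝ := fun U => ∫ ξ, ‖rev a U (extz ξ) j‖ ∂gamPi d (Fin N) with hΦ
      have hi : ∀ (n i : ℕ) (U : E d),
          Integrable (fun ξ : Fin n → E d => ‖rev a U (extz ξ) i‖) (gamPi d (Fin n)) := by
        intro n i U
        have hb : Integrable (fun ξ : Fin n → E d =>
            ‖U‖ + ∑ i ∈ Finset.range i, ‖extz ξ i‖) (gamPi d (Fin n)) :=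
          (integrable_const _).add (integrable_finsetSum _ fun i _ => RefAux.extz_integrable i)
        refine hb.mono' ?_ (Filter.Eventually.of_forall fun ξ => ?_)
        · exact (RefLaw.cont_rev a continuous_const
            (fun i => RefLaw.cont_extz i) i).norm.aestronglyMeasurable
        · rw [norm_norm]
          exact RefAux.rev_norm_le h0 h1 _ _ _
      have hlip : ∀ U U' : E d, |Φ U - Φ U'| ≤ 1 * ‖U - U'‖ := by
        intro U U'
        rw [hΦ]
        show |(∫ ξ, ‖rev a U (extz ξ) j‖ ∂gamPi d (Fin N)) - _| ≤ _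
        rw [← integral_sub (hi N j U) (hi N j U')]
        have := norm_integral_le_of_norm_le_const (μ := gamPi d (Fin N))
          (f := fun ξ : Fin N → E d => ‖rev a U (extz ξ) j‖ - ‖rev a U' (extz ξ) j‖)
          (C := 1 * ‖U - U'‖) (Filter.Eventually.of_forall fun ξ => ?_)
        · simpa using this
        · rw [Real.norm_eq_abs]
          refine (abs_norm_sub_norm_le _ _).trans ?_
          rw [RefAux.rev_sub_U, norm_smul, Real.norm_of_nonneg (by positivity)]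
          exact mul_le_mul_of_nonneg_right (pow_le_one₀ h0 h1) (norm_nonneg _)
      have hc : Continuous Φ := by
        refine (LipschitzWith.of_dist_le_mul (K := 1) fun U U' => ?_).continuous
        rw [Real.dist_eq, dist_eq_norm]
        simpa using hlip U U'
      have hg : PolyGrowth Φ := by
        refine ⟨|Φ 0| + 1, 1, fun U => ?_⟩
        have h2 := hlip U 0
        rw [sub_zero, one_mul] at h2
        have h3 := abs_sub_abs_le_abs_sub (Φ U) (Φ 0)
        rw [Real.norm_eq_abs, pow_one]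
        nlinarith [abs_nonneg (Φ 0), norm_nonneg U]
      have key := MehlerAux.integral_comb hc hg zero_le_one
        (by rw [MehlerAux.sq_add_sq h0 h1]; norm_num :
          a ^ 2 + Real.sqrt (1 - a ^ 2) ^ 2 = 1 ^ 2) (0 : E d)
      simp only [zero_add, one_smul] at key
      rw [← key]
      refine integral_congr_ae (Filter.Eventually.of_forall fun G => ?_)
      show ∫ ξ, ‖rev a G (extz ξ) (j + 1)‖ ∂gamPi d (Fin (N + 1)) = _
      rw [RefAux.int_cons' (fun ξ => ‖rev a G (extz ξ) (j + 1)‖) (hi (N + 1) (j + 1) G)]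
      refine integral_congr_ae (Filter.Eventually.of_forall fun x => ?_)
      refine integral_congr_ae (Filter.Eventually.of_forall fun ξ => ?_)
      show ‖_‖ = ‖_‖
      rw [RefLaw.rev_succ, RefLaw.extz_cons_zero]
      congr 2
      exact funext fun i => RefLaw.extz_cons_succ x ξ i

theorem mean_rev_le {a : ℝ} (h0 : 0 ≤ a) (h1 : a ≤ 1) (N j : ℕ) (hj : j ≤ N) :
    ∫ q : E d × (Fin N → E d), ‖rev a q.1 (extz q.2) j‖ ∂PG d N ≤ Real.sqrt d := by
  rw [integral_prod _ (int_rev h0 h1 N j), mean_rev h0 h1 N j hj]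
  exact gam_norm_le d

section
variable (w : E d → E d) (a ε : ℝ) (N : ℕ)

/-- difference of the exact chain and the stationary path -/
noncomputable def Dm (m : ℕ) (q : E d × (Fin N → E d)) : E d :=
  revX w a ε N q.1 (extz q.2) m - rev a q.1 (extz q.2) (N - m)

/-- partial sums of the reference scheme -/
noncomputable def Ym (m : ℕ) (q : E d × (Fin N → E d)) : E d :=
  -(ε • ∑ i ∈ Finset.range m, ((1 - a) * a ^ i) • w (rev a q.1 (extz q.2) (N - m + 1 + i)))

theorem Dm_zero (q : E d × (Fin N → E d)) : Dm w a ε N 0 q = 0 := by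
  simp [Dm, revX]

theorem Dm_succ (m : ℕ) (q : E d × (Fin N → E d)) :
    Dm w a ε N (m + 1) q =
      a • Dm w a ε N m q - ((1 - a) * ε) • w (revX w a ε N q.1 (extz q.2) m) := by
  show (a • revX w a ε N q.1 (extz q.2) m -
    ((1 - a) * ε) • w (revX w a ε N q.1 (extz q.2) m) +
      (rev a q.1 (extz q.2) (N - (m + 1)) - a • rev a q.1 (extz q.2) (N - m))) -
      rev a q.1 (extz q.2) (N - (m + 1)) = a • (revX w a ε N q.1 (extz q.2) m -
        rev a q.1 (extz q.2) (N - m)) - _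
  module

theorem Ym_zero (q : E d × (Fin N → E d)) : Ym w a ε N 0 q = 0 := by
  simp [Ym]

theorem Ym_succ (m : ℕ) (hm : m + 1 ≤ N) (q : E d × (Fin N → E d)) :
    Ym w a ε N (m + 1) q =
      a • Ym w a ε N m q - ((1 - a) * ε) • w (rev a q.1 (extz q.2) (N - m)) := by
  unfold Ym
  rw [Finset.sum_range_succ']
  have e1 : ∀ i, N - (m + 1) + 1 + (i + 1) = N - m + 1 + i := fun i => by omega
  have e2 : N - (m + 1) + 1 + 0 = N - m := by omega
  have e3 : ∑ i ∈ Finset.range m, ((1 - a) * a ^ (i + 1)) •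
      w (rev a q.1 (extz q.2) (N - (m + 1) + 1 + (i + 1))) =
      a • ∑ i ∈ Finset.range m, ((1 - a) * a ^ i) • w (rev a q.1 (extz q.2) (N - m + 1 + i)) := by
    rw [Finset.smul_sum]
    refine Finset.sum_congr rfl fun i _ => ?_
    rw [e1, smul_smul]
    congr 1
    ring
  rw [e3, e2, pow_zero, mul_one]
  module

theorem Ym_last (q : E d × (Fin N → E d)) : Ym w a ε N N q = -(ε • ref1 w a N q.1 q.2) := by
  unfold Ym ref1
  rw [← Fin.sum_univ_eq_sum_range
    (fun i => ((1 - a) * a ^ i) • w (rev a q.1 (extz q.2) (N - N + 1 + i))) N]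
  congr 2
  refine Finset.sum_congr rfl fun i _ => ?_
  rw [show N - N + 1 + (i : ℕ) = i + 1 by omega]

variable {w a ε N}

theorem Dm_cont (hw : Continuous w) (m : ℕ) : Continuous (Dm w a ε N m) :=
  (RefLaw.cont_revX hw a ε N continuous_fst
    (fun j => (RefLaw.cont_extz j).comp continuous_snd) m).sub (cont_revq a N _)

theorem Ym_cont (hw : Continuous w) (m : ℕ) : Continuous (Ym w a ε N m) := by
  unfold Ym
  have h : Continuous fun q : E d × (Fin N → E d) => ∑ i ∈ Finset.range m,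
      ((1 - a) * a ^ i) • w (rev a q.1 (extz q.2) (N - m + 1 + i)) :=
    continuous_finsetSum _ fun i _ => by
      have h2 : Continuous fun q : E d × (Fin N → E d) =>
        w (rev a q.1 (extz q.2) (N - m + 1 + i)) := hw.comp (cont_revq a N (N - m + 1 + i))
      exact h2.const_smul ((1 - a) * a ^ i)
  exact (h.const_smul ε).neg

theorem Dm_step (hw : ContDiff ℝ 1 w) (hw2 : ∀ x, ‖fderiv ℝ w x‖ ≤ 2) (h0 : 0 < a) (h1 : a < 1)
    (hε0 : 0 ≤ ε) (m : ℕ) (q : E d × (Fin N → E d)) :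
    ‖Dm w a ε N (m + 1) q‖ ≤ (a + 2 * (1 - a) * ε) * ‖Dm w a ε N m q‖ +
      (1 - a) * ε * (‖w 0‖ + 2 * ‖rev a q.1 (extz q.2) (N - m)‖) := by
  rw [Dm_succ]
  have h2 : ‖w (revX w a ε N q.1 (extz q.2) m)‖ ≤
      ‖w 0‖ + 2 * (‖Dm w a ε N m q‖ + ‖rev a q.1 (extz q.2) (N - m)‖) := by
    have h3 := AlgAux.lip hw hw2 (revX w a ε N q.1 (extz q.2) m) 0
    rw [sub_zero] at h3
    have h4 := norm_add_le (w (revX w a ε N q.1 (extz q.2) m) - w 0) (w 0)
    rw [sub_add_cancel] at h4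
    have h5 := norm_add_le (Dm w a ε N m q) (rev a q.1 (extz q.2) (N - m))
    rw [Dm, sub_add_cancel] at h5
    rw [Dm]
    linarith
  have h6 : 0 ≤ (1 - a) * ε := mul_nonneg (by linarith) hε0
  refine (norm_sub_le _ _).trans ?_
  rw [norm_smul, norm_smul, Real.norm_of_nonneg h0.le, Real.norm_of_nonneg h6]
  nlinarith [mul_le_mul_of_nonneg_left h2 h6]

theorem DY_step (hw : ContDiff ℝ 1 w) (hw2 : ∀ x, ‖fderiv ℝ w x‖ ≤ 2) (h0 : 0 < a) (h1 : a < 1)
    (hε0 : 0 ≤ ε) (m : ℕ) (hm : m + 1 ≤ N) (q : E d × (Fin N → E d)) :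
    ‖Dm w a ε N (m + 1) q - Ym w a ε N (m + 1) q‖ ≤ a * ‖Dm w a ε N m q - Ym w a ε N m q‖ +
      2 * ((1 - a) * ε) * ‖Dm w a ε N m q‖ := by
  have h6 : 0 ≤ (1 - a) * ε := mul_nonneg (by linarith) hε0
  have e : Dm w a ε N (m + 1) q - Ym w a ε N (m + 1) q =
      a • (Dm w a ε N m q - Ym w a ε N m q) - ((1 - a) * ε) •
        (w (revX w a ε N q.1 (extz q.2) m) - w (rev a q.1 (extz q.2) (N - m))) := by
    rw [Dm_succ, Ym_succ w a ε N m hm]
    module
  rw [e]
  refine (norm_sub_le _ _).trans ?_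
  rw [norm_smul, norm_smul, Real.norm_of_nonneg h0.le, Real.norm_of_nonneg h6]
  have h3 := AlgAux.lip hw hw2 (revX w a ε N q.1 (extz q.2) m) (rev a q.1 (extz q.2) (N - m))
  have h4 := mul_le_mul_of_nonneg_left h3 h6
  have h5 : Dm w a ε N m q = revX w a ε N q.1 (extz q.2) m - rev a q.1 (extz q.2) (N - m) := rfl
  rw [← h5] at h4
  linarith

theorem Dm_int (hw : ContDiff ℝ 1 w) (hw2 : ∀ x, ‖fderiv ℝ w x‖ ≤ 2) (h0 : 0 < a) (h1 : a < 1)
    (hε0 : 0 ≤ ε) (m : ℕ) : Integrable (fun q => ‖Dm w a ε N m q‖) (PG d N) := by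
  induction m with
  | zero => simp only [Dm_zero, norm_zero]; exact integrable_const _
  | succ m ih =>
    refine ((ih.const_mul (a + 2 * (1 - a) * ε)).add
      (((integrable_const ‖w 0‖).add ((int_rev h0.le h1.le N (N - m)).const_mul 2)).const_mul
        ((1 - a) * ε))).mono' (Dm_cont hw.continuous _).norm.aestronglyMeasurable
      (Filter.Eventually.of_forall fun q => ?_)
    rw [norm_norm]
    exact Dm_step hw hw2 h0 h1 hε0 m q

theorem DY_int (hw : ContDiff ℝ 1 w) (hw2 : ∀ x, ‖fderiv ℝ w x‖ ≤ 2) (h0 : 0 < a) (h1 : a < 1)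
    (hε0 : 0 ≤ ε) (m : ℕ) (hm : m ≤ N) :
    Integrable (fun q => ‖Dm w a ε N m q - Ym w a ε N m q‖) (PG d N) := by
  induction m with
  | zero => simp only [Dm_zero, Ym_zero, sub_zero, norm_zero]; exact integrable_const _
  | succ m ih =>
    refine (((ih (by omega)).const_mul a).add
      ((Dm_int hw hw2 h0 h1 hε0 m).const_mul (2 * ((1 - a) * ε)))).mono'
      ((Dm_cont hw.continuous _).sub (Ym_cont hw.continuous _)).norm.aestronglyMeasurable
      (Filter.Eventually.of_forall fun q => ?_)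
    rw [norm_norm]
    exact DY_step hw hw2 h0 h1 hε0 m hm q

theorem Dm_le (hw : ContDiff ℝ 1 w) (hw2 : ∀ x, ‖fderiv ℝ w x‖ ≤ 2) (h0 : 0 < a) (h1 : a < 1)
    (hε0 : 0 ≤ ε) (hε1 : ε ≤ 1 / 8) (m : ℕ) :
    ∫ q, ‖Dm w a ε N m q‖ ∂PG d N ≤ 4 / 3 * ε * (‖w 0‖ + 2 * Real.sqrt d) := by
  have hM : 0 ≤ ‖w 0‖ + 2 * Real.sqrt d := by positivity
  induction m with
  | zero =>
    simp only [Dm_zero, norm_zero, integral_zero]
    positivity
  | succ m ih =>
    have i1 := Dm_int (N := N) hw hw2 h0 h1 hε0 m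
    have i2 := int_rev (d := d) h0.le h1.le N (N - m)
    have i3 : Integrable (fun q : E d × (Fin N → E d) =>
        ‖w 0‖ + 2 * ‖rev a q.1 (extz q.2) (N - m)‖) (PG d N) :=
      (integrable_const ‖w 0‖).add (i2.const_mul 2)
    have i4 : Integrable (fun q : E d × (Fin N → E d) =>
        (1 - a) * ε * (‖w 0‖ + 2 * ‖rev a q.1 (extz q.2) (N - m)‖)) (PG d N) :=
      i3.const_mul ((1 - a) * ε)
    have i5 : Integrable (fun q : E d × (Fin N → E d) =>
        (a + 2 * (1 - a) * ε) * ‖Dm w a ε N m q‖) (PG d N) := i1.const_mul _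
    have h2 : ∫ q, ‖Dm w a ε N (m + 1) q‖ ∂PG d N ≤
        ∫ q : E d × (Fin N → E d), ((a + 2 * (1 - a) * ε) * ‖Dm w a ε N m q‖ +
          (1 - a) * ε * (‖w 0‖ + 2 * ‖rev a q.1 (extz q.2) (N - m)‖)) ∂PG d N :=
      integral_mono (Dm_int hw hw2 h0 h1 hε0 (m + 1)) (i5.add i4) (Dm_step hw hw2 h0 h1 hε0 m)
    rw [integral_add i5 i4, integral_const_mul, integral_const_mul,
      integral_add (integrable_const _) (i2.const_mul 2), integral_const_mul] at h2
    simp only [integral_const, probReal_univ, one_smul] at h2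
    have h3 := mean_rev_le (d := d) h0.le h1.le N (N - m) (by omega)
    refine h2.trans ?_
    have h6 : 0 ≤ (1 - a) * ε := mul_nonneg (by linarith) hε0
    have h7 : 0 ≤ a + 2 * (1 - a) * ε := by nlinarith
    calc _ ≤ (a + 2 * (1 - a) * ε) * (4 / 3 * ε * (‖w 0‖ + 2 * Real.sqrt d)) +
          (1 - a) * ε * (‖w 0‖ + 2 * Real.sqrt d) := by gcongr
      _ = 4 / 3 * ε * (‖w 0‖ + 2 * Real.sqrt d) -
          ((1 - a) * ε) * (1 / 3 - 8 / 3 * ε) * (‖w 0‖ + 2 * Real.sqrt d) := by ring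
      _ ≤ _ := by
        have : 0 ≤ ((1 - a) * ε) * (1 / 3 - 8 / 3 * ε) * (‖w 0‖ + 2 * Real.sqrt d) :=
          mul_nonneg (mul_nonneg h6 (by linarith)) hM
        linarith

theorem DY_le (hw : ContDiff ℝ 1 w) (hw2 : ∀ x, ‖fderiv ℝ w x‖ ≤ 2) (h0 : 0 < a) (h1 : a < 1)
    (hε0 : 0 ≤ ε) (hε1 : ε ≤ 1 / 8) (m : ℕ) (hm : m ≤ N) :
    ∫ q, ‖Dm w a ε N m q - Ym w a ε N m q‖ ∂PG d N ≤
      8 / 3 * ε ^ 2 * (‖w 0‖ + 2 * Real.sqrt d) := by
  have hM : 0 ≤ ‖w 0‖ + 2 * Real.sqrt d := by positivity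
  induction m with
  | zero =>
    simp only [Dm_zero, Ym_zero, sub_zero, norm_zero, integral_zero]
    positivity
  | succ m ih =>
    have ih := ih (by omega)
    have i1 := Dm_int (N := N) hw hw2 h0 h1 hε0 m
    have i2 := DY_int (N := N) hw hw2 h0 h1 hε0 m (by omega)
    have h2 := integral_mono (DY_int hw hw2 h0 h1 hε0 (m + 1) hm)
      ((i2.const_mul a).add (i1.const_mul (2 * ((1 - a) * ε)))) (DY_step hw hw2 h0 h1 hε0 m hm)
    have e : ∫ q, ((fun q => a * ‖Dm w a ε N m q - Ym w a ε N m q‖) +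
        fun q => 2 * ((1 - a) * ε) * ‖Dm w a ε N m q‖) q ∂PG d N =
        a * ∫ q, ‖Dm w a ε N m q - Ym w a ε N m q‖ ∂PG d N +
          2 * ((1 - a) * ε) * ∫ q, ‖Dm w a ε N m q‖ ∂PG d N := by
      rw [integral_add' (i2.const_mul _) (i1.const_mul _), integral_const_mul, integral_const_mul]
    have h4 : ∫ q, ‖Dm w a ε N (m + 1) q - Ym w a ε N (m + 1) q‖ ∂PG d N ≤
        a * ∫ q, ‖Dm w a ε N m q - Ym w a ε N m q‖ ∂PG d N +
          2 * ((1 - a) * ε) * ∫ q, ‖Dm w a ε N m q‖ ∂PG d N := by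
      rw [← e]
      exact h2
    refine h4.trans ?_
    have h6 : 0 ≤ (1 - a) * ε := mul_nonneg (by linarith) hε0
    calc _ ≤ a * (8 / 3 * ε ^ 2 * (‖w 0‖ + 2 * Real.sqrt d)) +
          2 * ((1 - a) * ε) * (4 / 3 * ε * (‖w 0‖ + 2 * Real.sqrt d)) := by
            have := Dm_le (N := N) hw hw2 h0 h1 hε0 hε1 m
            gcongr
      _ = _ := by ring

end

end RefOne

open RefOne

theorem revX_ref1 {d : ℕ} {w : E d → E d} {a ε : ℝ} {N : ℕ} (hw : ContDiff ℝ 1 w)
    (hw2 : ∀ x, ‖fderiv ℝ w x‖ ≤ 2) (h0 : 0 < a) (h1 : a < 1) (hε0 : 0 ≤ ε) (hε1 : ε ≤ 1 / 8) :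
    ∫ G, ∫ ξ, ‖revX w a ε N G (extz ξ) N - (G - ε • ref1 w a N G ξ)‖
      ∂gamPi d (Fin N) ∂gam d ≤ 10 * ε ^ 2 * (‖w 0‖ + Real.sqrt d) := by
  have h := DY_le (N := N) hw hw2 h0 h1 hε0 hε1 N le_rfl
  rw [integral_prod _ (DY_int hw hw2 h0 h1 hε0 N le_rfl)] at h
  have e : ∀ (G : E d) (ξ : Fin N → E d), Dm w a ε N N (G, ξ) - Ym w a ε N N (G, ξ) =
      revX w a ε N G (extz ξ) N - (G - ε • ref1 w a N G ξ) := by
    intro G ξ
    rw [Ym_last, Dm, Nat.sub_self]
    show _ - G - _ = _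
    module
  simp only [e] at h
  refine h.trans ?_
  have h1 : 0 ≤ ‖w 0‖ := norm_nonneg _
  have h2 : 0 ≤ Real.sqrt d := Real.sqrt_nonneg _
  have h3 : 0 ≤ ε ^ 2 := sq_nonneg _
  nlinarith [mul_nonneg h3 h1, mul_nonneg h3 h2]

end Vale.Agent.P347
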