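import Vale.Agent.P347.DefsD
import Vale.Agent.P347.ProxLoc
import Vale.Agent.P347.LocalR
import Vale.Agent.P347.RefOne
import Vale.Agent.P347.ProxDisint
import Vale.Agent.P347.Conv2

/-! P347, piece K16: one halving step. -/

open MeasureTheory ProbabilityTheory
open scoped ENNReal NNReal RealInnerProductSpace

namespace Vale.Agent.P347

namespace HalfAux

variable {d : ℕ}

theorem norm_gradient (g : E d → ℝ) (x : E d) : ‖gradient g x‖ = ‖fderiv ℝ g x‖ := by
  rw [gradient, LinearIsometryEquiv.norm_map]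

theorem conv_sq_le {k : ℕ} {η : ℝ} {f : E d → E k} {c : ℝ} (hf : ∀ x, ‖f x‖ ^ 2 ≤ c) (x : E d) :
    conv η (fun x => ‖f x‖ ^ 2) x ≤ c := by
  have h := conv_norm_le (η := η) (f := fun x => ‖f x‖ ^ 2) (C := c) (fun x => by
    rw [Real.norm_of_nonneg (by positivity)]; exact hf x) x
  exact (le_abs_self _).trans h

theorem grad_conv {η : ℝ} (hη : 0 < η) {f : E d → ℝ} (hf : Measurable f) (hb : ∀ x, |f x| ≤ 1)
    (x : E d) : ‖gradient (conv η f) x‖ ^ 2 ≤ 1 / η := by
  have h1 := conv_reverse_scalar hη hf hb x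
  have h2 : conv η (fun x => (f x) ^ 2) x ≤ 1 := by
    have h3 := conv_norm_le (η := η) (f := fun x => (f x) ^ 2) (C := 1) (fun x => by
      rw [Real.norm_eq_abs, abs_pow]
      exact pow_le_one₀ (abs_nonneg _) (hb x)) x
    rw [Real.norm_eq_abs] at h3
    exact (le_abs_self _).trans h3
  rw [le_div_iff₀ hη]
  nlinarith [sq_nonneg (conv η f x)]

theorem hess_conv {η : ℝ} (hη : 0 < η) {f : E d → ℝ} (hf : Measurable f) (hb : ∀ x, |f x| ≤ 1)
    (x : E d) : hs2 (fderiv ℝ (gradient (conv η f)) x) ≤ 4 / η ^ 2 := by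
  have hη2 : 0 < η / 2 := by positivity
  set g := conv (η / 2) f with hg
  have hgs : ContDiff ℝ 2 g := conv_contDiff hη2 hf.stronglyMeasurable (C := 1) hb
  have hgb : ∀ x, |g x| ≤ 1 := fun x => by
    have := conv_norm_le (η := η / 2) (f := f) (C := 1) hb x
    rwa [Real.norm_eq_abs] at this
  have hg1 : ∀ x, ‖gradient g x‖ ^ 2 ≤ 2 / η := fun x => by
    have := grad_conv hη2 hf hb x
    refine this.trans (le_of_eq ?_)
    field_simp
  have hgc : Continuous (gradient g) := by
    unfold gradient
    exact (LinearIsometryEquiv.continuous _).comp (hgs.continuous_fderiv (by norm_num))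
  have hgL : ∀ x, ‖gradient g x‖ ≤ Real.sqrt (2 / η) := fun x => Real.le_sqrt_of_sq_le (hg1 x)
  have e : gradient (conv η f) = conv (η / 2) (gradient g) := by
    funext y
    have e1 : conv η f = conv (η / 2) g := by
      funext z
      exact (conv_half hη hf.stronglyMeasurable (C := 1) hb z).symm
    rw [e1]
    exact conv_gradient hη2 (hgs.of_le (by norm_num)) hgb
      (fun x => by rw [← norm_gradient]; exact hgL x) y
  rw [e]
  have h1 := conv_reverse hη2 hgc.stronglyMeasurable hgL x
  have h2 := conv_sq_le (η := η / 2) hg1 x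
  have h3 : η / 2 * hs2 (fderiv ℝ (conv (η / 2) (gradient g)) x) ≤ 2 / η := by
    nlinarith [sq_nonneg ‖conv (η / 2) (gradient g) x‖]
  rw [le_div_iff₀ (by positivity)]
  have h4 := (le_div_iff₀ hη).1 h3
  nlinarith

/-- affine change of variables -/
theorem gradient_affine {g : E d → ℝ} (hg : ContDiff ℝ 2 g) (c : E d) (s : ℝ) (t : E d) :
    gradient (fun t => g (c + s • t)) t = s • gradient g (c + s • t) := by
  have h1 : HasFDerivAt (fun t : E d => c + s • t) (s • ContinuousLinearMap.id ℝ (E d)) t :=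
    ((hasFDerivAt_id t).const_smul s).const_add c
  have h2 := ((hg.differentiable (by norm_num)) (c + s • t)).hasFDerivAt.comp t h1
  apply ext_inner_right ℝ
  intro v
  rw [Pot.inner_grad, inner_smul_left, Pot.inner_grad]
  have h3 : fderiv ℝ (fun t => g (c + s • t)) t =
      (fderiv ℝ g (c + s • t)).comp (s • ContinuousLinearMap.id ℝ (E d)) := h2.fderiv
  rw [h3]
  simp

theorem fderiv_gradient_affine {g : E d → ℝ} (hg : ContDiff ℝ 2 g) (c : E d) (s : ℝ) (t : E d) :
    fderiv ℝ (gradient (fun t => g (c + s • t))) t =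
      (s ^ 2) • fderiv ℝ (gradient g) (c + s • t) := by
  have e : gradient (fun t => g (c + s • t)) = fun t => s • gradient g (c + s • t) :=
    funext fun t => gradient_affine hg c s t
  have h1 : HasFDerivAt (fun t : E d => c + s • t) (s • ContinuousLinearMap.id ℝ (E d)) t :=
    ((hasFDerivAt_id t).const_smul s).const_add c
  have hd : DifferentiableAt ℝ (gradient g) (c + s • t) :=
    (PotAux.hasFDerivAt_gradient hg _).differentiableAt
  have h2 := (hd.hasFDerivAt.comp t h1).const_smul s
  rw [e]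
  have h3 : fderiv ℝ (fun t => s • gradient g (c + s • t)) t =
      s • ((fderiv ℝ (gradient g) (c + s • t)).comp (s • ContinuousLinearMap.id ℝ (E d))) :=
    h2.fderiv
  rw [h3]
  ext v
  simp [smul_smul, sq]

theorem hs2_smul {k : ℕ} (a : ℝ) (T : E d →L[ℝ] E k) : hs2 (a • T) = a ^ 2 * hs2 T := by
  unfold hs2
  rw [Finset.mul_sum]
  refine Finset.sum_congr rfl fun i _ => ?_
  rw [ContinuousLinearMap.smul_apply, norm_smul, mul_pow, Real.norm_eq_abs, sq_abs]

/-- measurability of the exact proximal operator -/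
theorem opR_meas {V : E d → ℝ} (hV : Measurable V) {η : ℝ} {g : E d → ℝ} (hg : Measurable g) :
    Measurable (opR V η g) := by
  have e : opR V η g = fun y => (∫ x, Real.exp (-(V x + ‖x - y‖ ^ 2 / (2 * η))))⁻¹ *
      ∫ x, Real.exp (-(V x + ‖x - y‖ ^ 2 / (2 * η))) * g x := by
    funext y
    rw [opR, prox, gibbs_integral]
    simp [smul_eq_mul]
  rw [e]
  have hk : Measurable fun q : E d × E d => Real.exp (-(V q.2 + ‖q.2 - q.1‖ ^ 2 / (2 * η))) := by
    fun_prop
  have h1 : Measurable fun y : E d => ∫ x, Real.exp (-(V x + ‖x - y‖ ^ 2 / (2 * η))) :=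
    (hk.stronglyMeasurable.integral_prod_right' (ν := (volume : Measure (E d)))).measurable
  have h2 : Measurable fun y : E d => ∫ x, Real.exp (-(V x + ‖x - y‖ ^ 2 / (2 * η))) * g x :=
    ((hk.mul (hg.comp measurable_snd)).stronglyMeasurable.integral_prod_right'
      (ν := (volume : Measure (E d)))).measurable
  exact h1.inv.mul h2

/-- measurability of the approximate proximal operator -/
theorem opR1_meas {n : ℕ} {V : E d → ℝ} (hV : Continuous (gradient V)) {η : ℝ} {p ρ : Fin n → ℝ}
    {g : E d → ℝ} (hg : Measurable g) : Measurable (opR1 V η p ρ g) := by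
  unfold opR1
  have hk : Measurable fun q : (E d × E d) × (Fin n → E d) =>
      g (q.1.1 - η • gradient V q.1.1 + Real.sqrt η • (q.1.2 - η • ∑ i, p i •
        ((Real.sqrt η)⁻¹ • (gradient V (q.1.1 - η • gradient V q.1.1 +
          Real.sqrt η • (ρ i • q.1.2 + Real.sqrt (1 - ρ i ^ 2) • q.2 i)) - gradient V q.1.1)))) := by
    refine hg.comp (Continuous.measurable ?_)
    fun_prop
  have h1 := hk.stronglyMeasurable.integral_prod_right' (ν := gamPi d (Fin n))
  have h2 := h1.integral_prod_right' (ν := gam d)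
  exact h2.measurable

theorem opR1_le {n : ℕ} {V : E d → ℝ} {η : ℝ} {p ρ : Fin n → ℝ}
    {g : E d → ℝ} (hb : ∀ x, |g x| ≤ 1) (y : E d) : |opR1 V η p ρ g y| ≤ 1 := by
  unfold opR1
  rw [← Real.norm_eq_abs]
  refine (norm_integral_le_of_norm_le_const (C := 1)
    (Filter.Eventually.of_forall fun G => ?_)).trans (by simp)
  refine (norm_integral_le_of_norm_le_const (C := 1)
    (Filter.Eventually.of_forall fun ζ => ?_)).trans (by simp)
  rw [Real.norm_eq_abs]
  exact hb _

end HalfAux

open HalfAux

theorem halve_step : ∃ C : ℝ, 1 ≤ C ∧ ∀ {d : ℕ} {V : E d → ℝ}, 1 ≤ d → Pot d 1 2 V →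
    gradient V 0 = 0 → ∀ {η τ : ℝ}, 0 < η → η ≤ 1 / 16 → τ ≤ η →
    ∀ {n : ℕ} {r : ℝ} {k : Fin n → ℕ} {p : Fin n → ℝ}, IsQuad r τ k p →
    ∀ {f : E d → ℝ}, Measurable f → (∀ x, |f x| ≤ 1) →
    |∫ x, conv η (opR1 V η p (fun i => r ^ k i) (conv (η / 2) f)) x ∂gibbs V -
        ∫ x, conv (η / 2) f x ∂gibbs V| ≤ C * Real.sqrt d * η ^ 2 := by
  refine ⟨100000, by norm_num, ?_⟩
  intro d V hd hV hV0 η τ hη hη1 hτ n r k p hq f hf hfb
  have hη2 : 0 < η / 2 := by positivity
  have hprob : IsProbabilityMeasure (gibbs V) := gibbs_prob hV one_pos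
  set s := Real.sqrt η with hs
  have hs0 : 0 < s := Real.sqrt_pos.2 hη
  have hss : s ^ 2 = η := Real.sq_sqrt hη.le
  have hs4 : s ≤ 1 / 4 := by
    nlinarith
  set g := conv (η / 2) f with hg
  have hgs : ContDiff ℝ 2 g := conv_contDiff hη2 hf.stronglyMeasurable (C := 1) hfb
  have hgm : Measurable g := hgs.continuous.measurable
  have hgb : ∀ x, |g x| ≤ 1 := fun x => by
    have := conv_norm_le (η := η / 2) (f := f) (C := 1) hfb x
    rwa [Real.norm_eq_abs] at this
  have hgp : PolyGrowth g := ⟨1, 0, fun x => by simpa using hgb x⟩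
  have hgc : Continuous (gradient V) := hV.grad_contDiff.continuous
  have hVm : Measurable V := hV.smooth.continuous.measurable
  -- pointwise
  have key : ∀ y, |opR1 V η p (fun i => r ^ k i) g y - opR V η g y| ≤
      16000 * η ^ 2 * (Real.sqrt d + s * (4 * ‖y‖)) := by
    intro y
    set c := y - η • gradient V y with hc
    have hφs : ContDiff ℝ 2 (fun t => g (c + s • t)) := hgs.comp (by fun_prop)
    have hg1 : ∀ t, ‖gradient (fun t => g (c + s • t)) t‖ ≤ 2 := by
      intro t
      rw [gradient_affine hgs, norm_smul, Real.norm_of_nonneg hs0.le]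
      have h1 := grad_conv hη2 hf hfb (c + s • t)
      have h2 : (s * ‖gradient g (c + s • t)‖) ^ 2 ≤ 2 := by
        rw [mul_pow, hss]
        calc η * ‖gradient g (c + s • t)‖ ^ 2 ≤ η * (1 / (η / 2)) :=
              mul_le_mul_of_nonneg_left h1 hη.le
          _ = 2 := by field_simp
      nlinarith [mul_nonneg hs0.le (norm_nonneg (gradient g (c + s • t)))]
    have hg2 : ∀ t, hs2 (fderiv ℝ (gradient (fun t => g (c + s • t))) t) ≤ 4 ^ 2 := by
      intro t
      rw [fderiv_gradient_affine hgs, hs2_smul, hss]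
      have h1 := hess_conv hη2 hf hfb (c + s • t)
      calc η ^ 2 * hs2 (fderiv ℝ (gradient g) (c + s • t)) ≤ η ^ 2 * (4 / (η / 2) ^ 2) :=
            mul_le_mul_of_nonneg_left h1 (by positivity)
        _ = 4 ^ 2 := by field_simp; norm_num
    have hloc := local_one (locW_pot hV hη y) hη (by linarith) hq.τ0 (by linarith [hq.τ1])
      hq.r0 hq.r1 hq.p0 hq.ps hq.k1 hq.acc hφs (g0 := 1) (fun x => hgb _) hg1 hg2 (by norm_num)
    have e1 : ∫ x, g (c + s • x) ∂gibbs (fun u => ‖u‖ ^ 2 / 2 + η * locW V η y u) =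
        opR V η g y := by
      rw [opR, prox_eq_map hV one_pos hη y, integral_map]
      · exact (by fun_prop : Measurable fun u : E d => y - η • gradient V y + Real.sqrt η • u).aemeasurable
      · exact hgm.aestronglyMeasurable
    have e2 : ∫ G, ∫ ζ, g (c + s • (G - η • lev1 (gradient (locW V η y)) p (fun i => r ^ k i) G ζ))
        ∂gamPi d (Fin n) ∂gam d = opR1 V η p (fun i => r ^ k i) g y := by
      unfold opR1 lev1
      simp only [gradient_locW hV hη]
      rfl
    rw [e1, e2, abs_sub_comm] at hloc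
    refine hloc.trans ?_
    have h3 : ‖gradient (locW V η y) 0‖ ≤ s * (4 * ‖y‖) := by
      rw [gradient_locW hV hη, smul_zero, add_zero, norm_smul, norm_inv,
        Real.norm_of_nonneg (Real.sqrt_nonneg η), ← hs]
      have h4 := hV.grad_lip zero_le_one (y - η • gradient V y) y
      have h5 : ‖y - η • gradient V y - y‖ = η * ‖gradient V y‖ := by
        rw [sub_sub_cancel_left, norm_neg, norm_smul, Real.norm_of_nonneg hη.le]
      have h6 : ‖gradient V y‖ ≤ 2 * ‖y‖ := by
        have := hV.grad_lip zero_le_one y 0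
        rwa [hV0, sub_zero, sub_zero] at this
      rw [h5] at h4
      calc s⁻¹ * ‖gradient V (y - η • gradient V y) - gradient V y‖
          ≤ s⁻¹ * (2 * (η * (2 * ‖y‖))) := by
            refine mul_le_mul_of_nonneg_left (h4.trans ?_) (by positivity)
            have := mul_le_mul_of_nonneg_left h6 hη.le
            linarith
        _ = s * (4 * ‖y‖) := by
            rw [← hss]; field_simp; ring
    have h7 : 0 ≤ Real.sqrt d + s * (4 * ‖y‖) := by positivity
    have h8 : η ^ 2 * (2 + 4) + η * τ * 2 ≤ 8 * η ^ 2 := by nlinarith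
    have h9 : 0 ≤ η ^ 2 * (2 + 4) + η * τ * 2 := by have := hq.τ0; positivity
    calc 2000 * (Real.sqrt d + ‖gradient (locW V η y) 0‖) * (η ^ 2 * (2 + 4) + η * τ * 2)
        ≤ 2000 * (Real.sqrt d + s * (4 * ‖y‖)) * (8 * η ^ 2) := by
          refine mul_le_mul ?_ h8 h9 (by positivity)
          linarith
      _ = _ := by ring
  -- measurability
  have m1 : Measurable (opR1 V η p (fun i => r ^ k i) g) := opR1_meas hgc hgm
  have m2 : Measurable (opR V η g) := opR_meas hVm hgm
  have b1 : ∀ y, |opR1 V η p (fun i => r ^ k i) g y| ≤ 1 := opR1_le hgb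
  have b2 : ∀ y, |opR V η g y| ≤ 1 := by
    intro y
    have := gibbs_prob (hV.add_sq hη y) (by positivity)
    unfold opR prox
    rw [← Real.norm_eq_abs]
    refine (norm_integral_le_of_norm_le_const (C := 1)
      (Filter.Eventually.of_forall fun G => ?_)).trans (by simp)
    rw [Real.norm_eq_abs]
    exact hgb _
  rw [← prox_invariant hV one_pos hη hgm hgp]
  have hmm : ∀ {w : E d → ℝ}, Measurable w →
      Measurable fun q : E d × E d => w (q.1 + s • q.2) := fun hw => hw.comp (by fun_prop)
  have hin : ∀ {w : E d → ℝ}, Measurable w → (∀ y, |w y| ≤ 1) → ∀ x,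
      Integrable (fun z => w (x + s • z)) (gam d) := fun hw hb x =>
    (integrable_const (1 : ℝ)).mono' (hw.comp (by fun_prop)).aestronglyMeasurable
      (Filter.Eventually.of_forall fun z => by rw [Real.norm_eq_abs]; exact hb _)
  have hout : ∀ {w : E d → ℝ}, Measurable w → (∀ y, |w y| ≤ 1) →
      Integrable (fun x => conv η w x) (gibbs V) := fun hw hb =>
    (integrable_const (1 : ℝ)).mono'
      ((hmm hw).stronglyMeasurable.integral_prod_right' (ν := gam d)).aestronglyMeasurable
      (Filter.Eventually.of_forall fun x => conv_norm_le (fun y => by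
        rw [Real.norm_eq_abs]; exact hb y) x)
  rw [← integral_sub (hout m1 b1) (hout m2 b2)]
  have iz : Integrable (fun z : E d => ‖z‖) (gam d) := RefAux.norm_integrable d
  have ix : Integrable (fun x : E d => ‖x‖) (gibbs V) :=
    gibbs_integrable hV one_pos (by fun_prop) ⟨1, 1, fun x => by
      rw [norm_norm]; linarith [norm_nonneg x]⟩
  have hzn := RefOne.gam_norm_le d
  have hxn : ∫ x, ‖x‖ ∂gibbs V ≤ 2 * Real.sqrt d := by
    have i2 : Integrable (fun x : E d => ‖x‖ ^ 2) (gibbs V) :=
      gibbs_integrable hV one_pos (by fun_prop) ⟨1, 2, fun x => by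
        rw [Real.norm_of_nonneg (by positivity), one_mul]
        exact pow_le_pow_left₀ (norm_nonneg _) (by linarith) 2⟩
    set m := ∫ x, ‖x‖ ∂gibbs V with hm
    have i3 : Integrable (fun x : E d => 2 * m * ‖x‖) (gibbs V) := ix.const_mul (2 * m)
    have i4 : Integrable (fun x : E d => ‖x‖ ^ 2 - 2 * m * ‖x‖) (gibbs V) := i2.sub i3
    have h : 0 ≤ ∫ x : E d, (‖x‖ ^ 2 - 2 * m * ‖x‖ + m ^ 2) ∂gibbs V := by
      refine integral_nonneg fun x => ?_
      have : ‖x‖ ^ 2 - 2 * m * ‖x‖ + m ^ 2 = (‖x‖ - m) ^ 2 := by ring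
      show 0 ≤ ‖x‖ ^ 2 - 2 * m * ‖x‖ + m ^ 2
      rw [this]
      positivity
    rw [integral_add i4 (integrable_const _), integral_sub i2 i3,
      integral_const_mul, ← hm] at h
    simp only [integral_const, probReal_univ, one_smul] at h
    have h2 := gibbs_sq hV one_pos
    rw [hV0, norm_zero] at h2
    have h3 : m ^ 2 ≤ 4 * d := by
      have : (0 : ℝ) ^ 2 / 1 ^ 2 = 0 := by simp
      rw [this, add_zero, div_one] at h2
      nlinarith
    have h4 : m ≤ Real.sqrt (4 * d) := Real.le_sqrt_of_sq_le h3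
    rwa [Real.sqrt_mul (by norm_num), show Real.sqrt 4 = 2 by
      rw [show (4 : ℝ) = 2 ^ 2 by norm_num]; exact Real.sqrt_sq (by norm_num)] at h4
  set c₀ := 16000 * η ^ 2 with hc₀
  have hc₀0 : 0 ≤ c₀ := by positivity
  have step1 : ∀ x, |conv η (opR1 V η p (fun i => r ^ k i) g) x - conv η (opR V η g) x| ≤
      c₀ * (2 * Real.sqrt d + ‖x‖) := by
    intro x
    unfold conv
    rw [← integral_sub (hin m1 b1 x) (hin m2 b2 x)]
    calc |∫ z, (opR1 V η p (fun i => r ^ k i) g (x + s • z) - opR V η g (x + s • z)) ∂gam d|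
        ≤ ∫ z, c₀ * (Real.sqrt d + (‖x‖ + s * ‖z‖)) ∂gam d := by
          rw [← Real.norm_eq_abs]
          refine norm_integral_le_of_norm_le ?_ (Filter.Eventually.of_forall fun z => ?_)
          · exact ((integrable_const _).add ((integrable_const _).add
              (iz.const_mul s))).const_mul c₀
          · rw [Real.norm_eq_abs]
            refine (key _).trans (mul_le_mul_of_nonneg_left ?_ hc₀0)
            have h1 : ‖x + s • z‖ ≤ ‖x‖ + s * ‖z‖ := by
              refine (norm_add_le _ _).trans ?_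
              rw [norm_smul, Real.norm_of_nonneg hs0.le]
            have h2 : s * (4 * ‖x + s • z‖) ≤ 1 * ‖x + s • z‖ := by
              have := mul_le_mul_of_nonneg_right (show s * 4 ≤ 1 by linarith)
                (norm_nonneg (x + s • z))
              linarith
            linarith
      _ = c₀ * (Real.sqrt d + (‖x‖ + s * ∫ z, ‖z‖ ∂gam d)) := by
          have i1 : Integrable (fun z : E d => s * ‖z‖) (gam d) := iz.const_mul s
          have i2 : Integrable (fun z : E d => ‖x‖ + s * ‖z‖) (gam d) :=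
            (integrable_const _).add i1
          rw [integral_const_mul, integral_add (integrable_const _) i2,
            integral_add (integrable_const _) i1, integral_const_mul]
          simp
      _ ≤ _ := by
          refine mul_le_mul_of_nonneg_left ?_ hc₀0
          have h5 : s * ∫ z, ‖z‖ ∂gam d ≤ 1 * Real.sqrt d :=
            mul_le_mul (by linarith) hzn (integral_nonneg fun z => norm_nonneg z) zero_le_one
          linarith
  calc |∫ x, (conv η (opR1 V η p (fun i => r ^ k i) g) x - conv η (opR V η g) x) ∂gibbs V|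
      ≤ ∫ x, c₀ * (2 * Real.sqrt d + ‖x‖) ∂gibbs V := by
        rw [← Real.norm_eq_abs]
        refine norm_integral_le_of_norm_le ?_ (Filter.Eventually.of_forall fun x => ?_)
        · exact ((integrable_const _).add ix).const_mul c₀
        · rw [Real.norm_eq_abs]; exact step1 x
    _ = c₀ * (2 * Real.sqrt d + ∫ x, ‖x‖ ∂gibbs V) := by
        rw [integral_const_mul, integral_add (integrable_const _) ix]
        simp
    _ ≤ c₀ * (4 * Real.sqrt d) := mul_le_mul_of_nonneg_left (by linarith) hc₀0
    _ ≤ _ := by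
        rw [hc₀]
        have : 0 ≤ η ^ 2 * Real.sqrt d := by positivity
        nlinarith

end Vale.Agent.P347
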