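import Vale.Agent.P347.DefsD
import Vale.Agent.P347.GibbsBasic
import Vale.Agent.P347.Conv2
import Vale.Agent.P347.Rot

/-!
# P347, K17: the last noise is harmless
-/

open MeasureTheory ProbabilityTheory
open scoped ENNReal NNReal RealInnerProductSpace

namespace Vale.Agent.P347

namespace OutAux

variable {d : ℕ} {V : E d → ℝ}

theorem exp_diff (A B : ℝ) :
    |Real.exp (-A) - Real.exp (-B)| ≤ |A - B| * (Real.exp (-A) + Real.exp (-B)) := by
  have key : ∀ A B : ℝ, A ≤ B → |Real.exp (-A) - Real.exp (-B)| ≤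
      |A - B| * (Real.exp (-A) + Real.exp (-B)) := by
    intro A B hAB
    have h1 : Real.exp (-B) ≤ Real.exp (-A) := Real.exp_le_exp.mpr (by linarith)
    have h2 : Real.exp (-B) = Real.exp (-A) * Real.exp (-(B - A)) := by
      rw [← Real.exp_add]
      congr 1
      ring
    have h3 := Real.add_one_le_exp (-(B - A))
    rw [abs_of_nonneg (by linarith), abs_of_nonpos (by linarith : A - B ≤ 0)]
    have h4 := Real.exp_pos (-A)
    have h5 := Real.exp_pos (-B)
    nlinarith [mul_le_mul_of_nonneg_left h3 h4.le, mul_nonneg (sub_nonneg.mpr hAB) h5.le]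
  rcases le_total A B with h | h
  · exact key A B h
  · have := key B A h
    rw [abs_sub_comm, abs_sub_comm A B, add_comm (Real.exp (-A))]
    exact this

theorem V_diff (hV : Pot d 1 2 V) (h0 : gradient V 0 = 0) (x a : E d) :
    |V (x + a) - V x| ≤ 2 * ‖a‖ * (‖x‖ + ‖a‖) := by
  have h1 := hV.taylor (x + a) x
  rw [add_sub_cancel_left] at h1
  have h2 := hV.grad_lip (by norm_num) x 0
  rw [h0, sub_zero, sub_zero] at h2
  have h3 := abs_real_inner_le_norm (gradient V x) a
  rw [abs_le] at h3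
  have h4 : ‖gradient V x‖ * ‖a‖ ≤ 2 * ‖x‖ * ‖a‖ :=
    mul_le_mul_of_nonneg_right h2 (norm_nonneg _)
  have h5 := sq_nonneg ‖a‖
  have h6 := mul_nonneg (norm_nonneg x) (norm_nonneg a)
  rw [abs_le]
  constructor <;> nlinarith [h1.1, h1.2, h3.1, h3.2]

theorem pi_norm (hV : Pot d 1 2 V) (h0 : gradient V 0 = 0) :
    ∫ x, ‖x‖ ∂gibbs V ≤ 2 * Real.sqrt d := by
  have hp := gibbs_prob hV one_pos
  have h1 := gibbs_sq hV one_pos
  rw [h0, norm_zero] at h1
  have i1 : Integrable (fun x : E d => ‖x‖) (gibbs V) :=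
    gibbs_integrable hV one_pos (by fun_prop) ⟨1, 1, fun x => by simp⟩
  have i2 : Integrable (fun x : E d => ‖x‖ ^ 2) (gibbs V) :=
    gibbs_integrable hV one_pos (by fun_prop) GibbsAux.sq_poly
  set m := ∫ x, ‖x‖ ∂gibbs V with hm
  have h : 0 ≤ ∫ x : E d, (‖x‖ ^ 2 - 2 * m * ‖x‖ + m ^ 2) ∂gibbs V := by
    refine integral_nonneg fun x => ?_
    have : ‖x‖ ^ 2 - 2 * m * ‖x‖ + m ^ 2 = (‖x‖ - m) ^ 2 := by ring
    show 0 ≤ ‖x‖ ^ 2 - 2 * m * ‖x‖ + m ^ 2
    rw [this]
    positivity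
  have i3 : Integrable (fun x : E d => 2 * m * ‖x‖) (gibbs V) := i1.const_mul (2 * m)
  have i4 : Integrable (fun x : E d => ‖x‖ ^ 2 - 2 * m * ‖x‖) (gibbs V) := i2.sub i3
  rw [integral_add i4 (integrable_const _),
    integral_sub i2 i3, integral_const_mul, ← hm] at h
  simp only [integral_const, probReal_univ, one_smul] at h
  have h2 : 2 * Real.sqrt d = Real.sqrt (4 * d) := by
    rw [Real.sqrt_mul (by norm_num), show (4 : ℝ) = 2 ^ 2 by norm_num,
      Real.sqrt_sq (by norm_num)]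
  rw [h2]
  refine Real.le_sqrt_of_sq_le ?_
  norm_num at h1
  nlinarith

/-- effect of a translation -/
theorem shift (hV : Pot d 1 2 V) (h0 : gradient V 0 = 0) {f : E d → ℝ} (hf : Measurable f)
    (hb : ∀ x, |f x| ≤ 1) (a : E d) :
    |∫ x, f (x + a) ∂gibbs V - ∫ x, f x ∂gibbs V| ≤ 4 * ‖a‖ * (2 * Real.sqrt d + ‖a‖) := by
  have hp := gibbs_prob hV one_pos
  have hVm : Measurable V := GibbsAux.pot_meas hV
  have hZ := GibbsAux.exp_pos' hV one_pos
  have hE : Integrable (fun x : E d => Real.exp (-V x)) := GibbsAux.int_exp hV one_pos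
  have hbd : ∀ g : E d → ℝ, Measurable g → (∀ x, |g x| ≤ 1) →
      Integrable (fun x => Real.exp (-V x) * g x) := by
    intro g hg hgb
    refine hE.mul_of_top_left (memLp_top_of_bound hg.aestronglyMeasurable 1 ?_)
    exact Filter.Eventually.of_forall hgb
  have e1 : ∫ x, Real.exp (-V x) * f (x + a) = ∫ x, Real.exp (-V (x - a)) * f x := by
    rw [← integral_sub_right_eq_self (fun x => Real.exp (-V x) * f (x + a)) a]
    simp
  have iE2 : Integrable (fun x : E d => Real.exp (-V (x - a))) := hE.comp_sub_right a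
  have i2 : Integrable (fun x => Real.exp (-V (x - a)) * f x) := by
    refine iE2.mul_of_top_left (memLp_top_of_bound hf.aestronglyMeasurable 1 ?_)
    exact Filter.Eventually.of_forall hb
  have i1 := hbd f hf hb
  -- the majorant
  have iP : Integrable (fun x : E d => Real.exp (-V x) * (2 * ‖a‖ * (‖x‖ + ‖a‖))) := by
    refine GibbsAux.int_poly hV one_pos (by fun_prop) ⟨2 * ‖a‖ * (1 + ‖a‖), 1, fun x => ?_⟩
    rw [Real.norm_of_nonneg (by positivity), pow_one]
    have := norm_nonneg x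
    have := norm_nonneg a
    nlinarith [mul_nonneg (norm_nonneg a) (mul_nonneg (norm_nonneg a) (norm_nonneg x))]
  have m1 : ∀ x : E d, |Real.exp (-V (x - a)) * f x - Real.exp (-V x) * f x| ≤
      Real.exp (-V (x - a)) * (2 * ‖a‖ * (‖x - a‖ + ‖a‖)) +
      Real.exp (-V x) * (2 * ‖a‖ * (‖x‖ + ‖a‖)) := by
    intro x
    rw [← sub_mul, abs_mul]
    have h1 := exp_diff (V (x - a)) (V x)
    have h2 : |V (x - a) - V x| ≤ 2 * ‖a‖ * (‖x - a‖ + ‖a‖) := by
      have := V_diff hV h0 (x - a) a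
      rw [sub_add_cancel, abs_sub_comm] at this
      exact this
    have h3 : |V (x - a) - V x| ≤ 2 * ‖a‖ * (‖x‖ + ‖a‖) := by
      have := V_diff hV h0 x (-a)
      rw [← sub_eq_add_neg, norm_neg] at this
      exact this
    calc |Real.exp (-V (x - a)) - Real.exp (-V x)| * |f x|
        ≤ |Real.exp (-V (x - a)) - Real.exp (-V x)| * 1 :=
          mul_le_mul_of_nonneg_left (hb x) (abs_nonneg _)
      _ ≤ |V (x - a) - V x| * (Real.exp (-V (x - a)) + Real.exp (-V x)) := by
          rw [mul_one]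
          exact h1
      _ = Real.exp (-V (x - a)) * |V (x - a) - V x| + Real.exp (-V x) * |V (x - a) - V x| := by
          ring
      _ ≤ _ := add_le_add (mul_le_mul_of_nonneg_left h2 (Real.exp_pos _).le)
          (mul_le_mul_of_nonneg_left h3 (Real.exp_pos _).le)
  have iP2 : Integrable (fun x : E d => Real.exp (-V (x - a)) * (2 * ‖a‖ * (‖x - a‖ + ‖a‖))) :=
    iP.comp_sub_right a
  have e2 : ∫ x : E d, Real.exp (-V (x - a)) * (2 * ‖a‖ * (‖x - a‖ + ‖a‖)) =
      ∫ x : E d, Real.exp (-V x) * (2 * ‖a‖ * (‖x‖ + ‖a‖)) :=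
    integral_sub_right_eq_self (fun x : E d => Real.exp (-V x) * (2 * ‖a‖ * (‖x‖ + ‖a‖))) a
  have e3 : (∫ x : E d, Real.exp (-V x))⁻¹ *
      ∫ x : E d, Real.exp (-V x) * (2 * ‖a‖ * (‖x‖ + ‖a‖)) ≤
        2 * ‖a‖ * (2 * Real.sqrt d + ‖a‖) := by
    have h1 := gibbs_integral V (fun x : E d => 2 * ‖a‖ * (‖x‖ + ‖a‖))
    simp only [smul_eq_mul] at h1
    rw [← h1, integral_const_mul, integral_add, integral_const, probReal_univ, one_smul]
    · have := pi_norm hV h0
      exact mul_le_mul_of_nonneg_left (by linarith) (by positivity)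
    · exact gibbs_integrable hV one_pos (by fun_prop) ⟨1, 1, fun x => by simp⟩
    · exact integrable_const _
  rw [gibbs_integral, gibbs_integral]
  simp only [smul_eq_mul]
  rw [e1, ← mul_sub, ← integral_sub i2 i1, abs_mul, abs_of_pos (inv_pos.mpr hZ)]
  calc (∫ x : E d, Real.exp (-V x))⁻¹ *
        |∫ x, (Real.exp (-V (x - a)) * f x - Real.exp (-V x) * f x)|
      ≤ (∫ x : E d, Real.exp (-V x))⁻¹ *
        ∫ x, (Real.exp (-V (x - a)) * (2 * ‖a‖ * (‖x - a‖ + ‖a‖)) +
          Real.exp (-V x) * (2 * ‖a‖ * (‖x‖ + ‖a‖))) := by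
        refine mul_le_mul_of_nonneg_left ?_ (inv_pos.mpr hZ).le
        refine (abs_integral_le_integral_abs).trans ?_
        exact integral_mono (i2.sub i1).abs (iP2.add iP) m1
    _ = 2 * ((∫ x : E d, Real.exp (-V x))⁻¹ *
        ∫ x : E d, Real.exp (-V x) * (2 * ‖a‖ * (‖x‖ + ‖a‖))) := by
        rw [integral_add iP2 iP, e2]
        ring
    _ ≤ 2 * (2 * ‖a‖ * (2 * Real.sqrt d + ‖a‖)) := by linarith
    _ = _ := by ring

end OutAux

open OutAux in
theorem out_tv : ∃ C : ℝ, 1 ≤ C ∧ ∀ {d : ℕ} {V : E d → ℝ}, 1 ≤ d → Pot d 1 2 V →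
    gradient V 0 = 0 → ∀ {η : ℝ}, 0 < η → η ≤ 1 → ∀ {f : E d → ℝ}, Measurable f →
    (∀ x, |f x| ≤ 1) →
    |∫ x, conv η f x ∂gibbs V - ∫ x, f x ∂gibbs V| ≤ C * Real.sqrt η * d := by
  refine ⟨12, by norm_num, ?_⟩
  intro d V hd hV h0 η hη hη1 f hf hb
  have hp := gibbs_prob hV one_pos
  have hs0 : 0 ≤ Real.sqrt η := Real.sqrt_nonneg η
  have hs1 : Real.sqrt η ≤ 1 := Real.sqrt_le_one.mpr hη1
  have hss : Real.sqrt η * Real.sqrt η = η := Real.mul_self_sqrt hη.le
  -- swap
  have hm : Measurable (Function.uncurry fun (x z : E d) => f (x + Real.sqrt η • z)) := by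
    apply hf.comp
    fun_prop
  have hi : Integrable (Function.uncurry fun (x z : E d) => f (x + Real.sqrt η • z))
      ((gibbs V).prod (gam d)) := by
    refine (integrable_const (1 : ℝ)).mono' hm.aestronglyMeasurable ?_
    exact Filter.Eventually.of_forall fun q => hb _
  have e1 : ∫ x, conv η f x ∂gibbs V =
      ∫ z, ∫ x, f (x + Real.sqrt η • z) ∂gibbs V ∂gam d := by
    unfold conv
    exact integral_integral_swap hi
  have e2 : ∫ x, f x ∂gibbs V = ∫ _z : E d, ∫ x, f x ∂gibbs V ∂gam d := by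
    simp
  have i1 : Integrable (fun z : E d => ∫ x, f (x + Real.sqrt η • z) ∂gibbs V) (gam d) :=
    hi.integral_prod_right
  rw [e1, e2, ← integral_sub i1 (integrable_const _)]
  have n1 := gam_pow_integrable d 1
  have n2 := gam_pow_integrable d 2
  have j1 : Integrable (fun z : E d => ‖z‖) (gam d) := by
    refine n1.mono' (by fun_prop) (Filter.Eventually.of_forall fun x => ?_)
    rw [Real.norm_of_nonneg (by positivity)]
    simp
  have j2 : Integrable (fun z : E d => ‖z‖ ^ 2) (gam d) := by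
    refine n2.mono' (by fun_prop) (Filter.Eventually.of_forall fun x => ?_)
    rw [Real.norm_of_nonneg (by positivity)]
    exact pow_le_pow_left₀ (norm_nonneg _) (by linarith) 2
  have j3 : Integrable (fun z : E d => 8 * Real.sqrt η * Real.sqrt d * ‖z‖ + 4 * η * ‖z‖ ^ 2)
      (gam d) := (j1.const_mul _).add (j2.const_mul _)
  have k1 : ∫ x, ‖x‖ ∂gam d ≤ Real.sqrt d := by
    set m := ∫ x, ‖x‖ ∂gam d with hm
    have h : 0 ≤ ∫ x : E d, (‖x‖ ^ 2 - 2 * m * ‖x‖ + m ^ 2) ∂gam d := by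
      refine integral_nonneg fun x => ?_
      have : ‖x‖ ^ 2 - 2 * m * ‖x‖ + m ^ 2 = (‖x‖ - m) ^ 2 := by ring
      show 0 ≤ ‖x‖ ^ 2 - 2 * m * ‖x‖ + m ^ 2
      rw [this]
      positivity
    have i3 : Integrable (fun x : E d => 2 * m * ‖x‖) (gam d) := j1.const_mul (2 * m)
    have i4 : Integrable (fun x : E d => ‖x‖ ^ 2 - 2 * m * ‖x‖) (gam d) := j2.sub i3
    rw [integral_add i4 (integrable_const _),
      integral_sub j2 i3, integral_const_mul, gam_sq, ← hm] at h
    simp only [integral_const, probReal_univ, one_smul] at h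
    refine Real.le_sqrt_of_sq_le ?_
    nlinarith
  calc |∫ z, ((∫ x, f (x + Real.sqrt η • z) ∂gibbs V) - ∫ x, f x ∂gibbs V) ∂gam d|
      ≤ ∫ z, |(∫ x, f (x + Real.sqrt η • z) ∂gibbs V) - ∫ x, f x ∂gibbs V| ∂gam d :=
        abs_integral_le_integral_abs
    _ ≤ ∫ z, (8 * Real.sqrt η * Real.sqrt d * ‖z‖ + 4 * η * ‖z‖ ^ 2) ∂gam d := by
        refine integral_mono ((i1.sub (integrable_const _)).abs) j3 fun z => ?_
        have h1 := shift hV h0 hf hb (Real.sqrt η • z)
        rw [norm_smul, Real.norm_of_nonneg hs0] at h1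
        refine h1.trans (le_of_eq ?_)
        calc 4 * (Real.sqrt η * ‖z‖) * (2 * Real.sqrt d + Real.sqrt η * ‖z‖)
            = 8 * Real.sqrt η * Real.sqrt d * ‖z‖ +
              4 * (Real.sqrt η * Real.sqrt η) * ‖z‖ ^ 2 := by ring
          _ = _ := by rw [hss]
    _ = 8 * Real.sqrt η * Real.sqrt d * ∫ z, ‖z‖ ∂gam d + 4 * η * d := by
        rw [integral_add (j1.const_mul _) (j2.const_mul _), integral_const_mul,
          integral_const_mul, gam_sq]
    _ ≤ 8 * Real.sqrt η * Real.sqrt d * Real.sqrt d + 4 * (Real.sqrt η * 1) * d := by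
        have h1 : 8 * Real.sqrt η * Real.sqrt d * ∫ z, ‖z‖ ∂gam d ≤
            8 * Real.sqrt η * Real.sqrt d * Real.sqrt d :=
          mul_le_mul_of_nonneg_left k1 (by positivity)
        have h2 : 4 * η * (d : ℝ) ≤ 4 * (Real.sqrt η * 1) * d := by
          have : η ≤ Real.sqrt η * 1 := by
            rw [← hss]
            simpa [hss] using mul_le_mul_of_nonneg_left hs1 hs0
          have hd0 : (0 : ℝ) ≤ d := by positivity
          nlinarith
        linarith
    _ = 12 * Real.sqrt η * d := by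
        have : Real.sqrt d * Real.sqrt d = d := Real.mul_self_sqrt (by positivity)
        calc 8 * Real.sqrt η * Real.sqrt d * Real.sqrt d + 4 * (Real.sqrt η * 1) * d
            = 8 * Real.sqrt η * (Real.sqrt d * Real.sqrt d) + 4 * Real.sqrt η * d := by ring
          _ = _ := by
            rw [this]
            ring

end Vale.Agent.P347
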