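import Vale.Agent.P347.KMain
import Vale.Agent.P347.KHalf
import Vale.Agent.P347.KOut
import Vale.Agent.P347.KScale
import Vale.Agent.P347.ModelOps

/-! P347, piece K20: the total error of the algorithm. -/

open MeasureTheory ProbabilityTheory
open scoped ENNReal NNReal RealInnerProductSpace

namespace Vale.Agent.P347

namespace KTotal

variable {d n : ℕ}

theorem conv_bdd {η : ℝ} {f : E d → ℝ} (hb : ∀ x, |f x| ≤ 1) (x : E d) : |conv η f x| ≤ 1 := by
  have h := norm_integral_le_of_norm_le_const (μ := gam d)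
    (f := fun z => f (x + Real.sqrt η • z)) (C := 1)
    (Filter.Eventually.of_forall fun z => hb _)
  simpa [conv] using h

theorem conv_meas {η : ℝ} {f : E d → ℝ} (hf : Measurable f) : Measurable (conv η f) := by
  have h1 : StronglyMeasurable (fun q : E d × E d => f (q.1 + Real.sqrt η • q.2)) :=
    (hf.comp (by fun_prop)).stronglyMeasurable
  exact h1.integral_prod_right'.measurable

theorem opR1_bdd {V : E d → ℝ} {η : ℝ} {p ρ : Fin n → ℝ} {f : E d → ℝ} (hb : ∀ x, |f x| ≤ 1)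
    (y : E d) : |opR1 V η p ρ f y| ≤ 1 := by
  unfold opR1
  have h1 : ∀ G : E d, ‖∫ ζ, f (y - η • gradient V y + Real.sqrt η • (G - η • ∑ i, p i •
    ((Real.sqrt η)⁻¹ • (gradient V (y - η • gradient V y +
      Real.sqrt η • (ρ i • G + Real.sqrt (1 - ρ i ^ 2) • ζ i)) - gradient V y))))
      ∂gamPi d (Fin n)‖ ≤ 1 := by
    intro G
    have h := norm_integral_le_of_norm_le_const (μ := gamPi d (Fin n))
      (f := fun ζ : Fin n → E d => f (y - η • gradient V y + Real.sqrt η • (G - η • ∑ i, p i •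
    ((Real.sqrt η)⁻¹ • (gradient V (y - η • gradient V y +
      Real.sqrt η • (ρ i • G + Real.sqrt (1 - ρ i ^ 2) • ζ i)) - gradient V y))))) (C := 1)
      (Filter.Eventually.of_forall fun z => hb _)
    simpa using h
  have h := norm_integral_le_of_norm_le_const (μ := gam d) (C := 1)
    (Filter.Eventually.of_forall h1)
  simpa using h

theorem opR1_meas {V : E d → ℝ} (hV : Continuous (gradient V)) {η : ℝ} {p ρ : Fin n → ℝ}
    {f : E d → ℝ} (hf : Measurable f) : Measurable (opR1 V η p ρ f) := by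
  unfold opR1
  have h1 : StronglyMeasurable (fun q : (E d × E d) × (Fin n → E d) =>
      f (q.1.1 - η • gradient V q.1.1 + Real.sqrt η • (q.1.2 - η • ∑ i, p i •
    ((Real.sqrt η)⁻¹ • (gradient V (q.1.1 - η • gradient V q.1.1 +
      Real.sqrt η • (ρ i • q.1.2 + Real.sqrt (1 - ρ i ^ 2) • q.2 i)) - gradient V q.1.1))))) := by
    refine Measurable.stronglyMeasurable (hf.comp ?_)
    refine Continuous.measurable ?_
    fun_prop
  have h2 := h1.integral_prod_right' (ν := gamPi d (Fin n))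
  have h3 := h2.integral_prod_right' (ν := gam d)
  exact h3.measurable

end KTotal

open KTotal

theorem halv_measurable {d n : ℕ} {V : E d → ℝ} (hV : V ∈ VV d) {p ρ : Fin n → ℝ} (J : ℕ) (η : ℝ)
    {f : E d → ℝ} (hf : Measurable f) (hb : ∀ x, |f x| ≤ 1) :
    Measurable (halv V p ρ J η f) ∧ ∀ x, |halv V p ρ J η f x| ≤ 1 := by
  induction J generalizing η with
  | zero => exact ⟨hf, hb⟩
  | succ J ih =>
    obtain ⟨h1, h2⟩ := ih (η / 2)
    exact ⟨opR1_meas (VV.continuous_gradient hV) (conv_meas h1), opR1_bdd (conv_bdd h2)⟩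

namespace KTotal

variable {d n : ℕ}

/-- the error of the halving phase -/
theorem halv_error {Ch : ℝ} (hCh : 1 ≤ Ch) (H : ∀ {d : ℕ} {V : E d → ℝ}, 1 ≤ d → Pot d 1 2 V →
    gradient V 0 = 0 → ∀ {η τ : ℝ}, 0 < η → η ≤ 1 / 16 → τ ≤ η →
    ∀ {n : ℕ} {r : ℝ} {k : Fin n → ℕ} {p : Fin n → ℝ}, IsQuad r τ k p →
    ∀ {f : E d → ℝ}, Measurable f → (∀ x, |f x| ≤ 1) →
    |∫ x, conv η (opR1 V η p (fun i => r ^ k i) (conv (η / 2) f)) x ∂gibbs V -
        ∫ x, conv (η / 2) f x ∂gibbs V| ≤ Ch * Real.sqrt d * η ^ 2)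
    {V : E d → ℝ} (hd : 1 ≤ d) (hV : V ∈ VV d) {τ : ℝ} {r : ℝ} {k : Fin n → ℕ} {p : Fin n → ℝ}
    (hq : IsQuad r τ k p) {f : E d → ℝ} (hf : Measurable f) (hb : ∀ x, |f x| ≤ 1) (J : ℕ) :
    ∀ η : ℝ, 0 < η → η ≤ 1 / 16 → τ ≤ η / 2 ^ J →
      |∫ x, conv η (halv V p (fun i => r ^ k i) J η f) x ∂gibbs V -
        ∫ x, conv (η / 2 ^ J) f x ∂gibbs V| ≤ 2 * Ch * Real.sqrt d * η ^ 2 := by
  induction J with
  | zero =>
    intro η h0 _ _
    simp only [halv, pow_zero, div_one, sub_self, abs_zero]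
    positivity
  | succ J ih =>
    intro η h0 h1 h2
    obtain ⟨m1, m2⟩ := halv_measurable hV (p := p) (ρ := fun i => r ^ k i) J (η / 2) hf hb
    have hpow : (1 : ℝ) ≤ 2 ^ (J + 1) := one_le_pow₀ (by norm_num)
    have h3 : τ ≤ η := h2.trans (div_le_self h0.le hpow)
    have e1 : η / 2 ^ (J + 1) = η / 2 / 2 ^ J := by
      rw [pow_succ]
      field_simp
    have h4 := H hd (VV.pot hV) hV.2.2.1 h0 h1 h3 hq m1 m2
    have h5 := ih (η / 2) (by linarith) (by linarith) (by rwa [← e1])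
    rw [← e1] at h5
    have h6 : |∫ x, conv η (halv V p (fun i => r ^ k i) (J + 1) η f) x ∂gibbs V -
        ∫ x, conv (η / 2 ^ (J + 1)) f x ∂gibbs V| ≤
        Ch * Real.sqrt d * η ^ 2 + 2 * Ch * Real.sqrt d * (η / 2) ^ 2 :=
      (abs_sub_le _ _ _).trans (add_le_add h4 h5)
    refine h6.trans ?_
    have h7 : 0 ≤ Ch * Real.sqrt d * η ^ 2 := by positivity
    nlinarith

end KTotal

theorem total_error : ∃ C : ℝ, 1 ≤ C ∧ ∀ {d : ℕ} {V : E d → ℝ}, 1 ≤ d → V ∈ VV d →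
    ∀ {h τ : ℝ} {J : ℕ}, 0 < h → h ≤ 1 / C → τ ≤ h ^ 2 / 2 ^ J →
    ∀ {n : ℕ} {r : ℝ} {k : Fin n → ℕ} {p : Fin n → ℝ}, IsQuad r τ k p →
    ∀ {f : E d → ℝ}, Measurable f → (∀ x, |f x| ≤ 1) → ∀ N : ℕ,
    |algo h N J p (fun i => r ^ k i) V f () - ∫ x, f x ∂gibbs V| ≤
      C * Real.sqrt d * (h ^ 4 * (N + 1) + h ^ 3 * (1 + Real.log (N + 1)) +
        1 / h ^ 2 * (1 - h / C) ^ N) + C * d * h / Real.sqrt (2 ^ J) := by
  obtain ⟨C1, hC1, H1⟩ := main_phase
  obtain ⟨C2, hC2, H2⟩ := halve_step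
  obtain ⟨C3, hC3, H3⟩ := out_tv
  set C : ℝ := C1 + 2 * C2 + C3 + 4 with hC
  have hCpos : 0 < C := by linarith
  refine ⟨C, by linarith, ?_⟩
  intro d V hd hV h τ J h0 h1 hτ n r k p hq f hf hb N
  have hC1pos : 0 < C1 := by linarith
  have h1' : h ≤ 1 / C1 := h1.trans (one_div_le_one_div_of_le hC1pos (by linarith))
  have h4 : h ≤ 1 / 4 := h1.trans (one_div_le_one_div_of_le (by norm_num) (by linarith))
  have hh : h ^ 2 ≤ 1 / 16 := by nlinarith
  have hpow : (1 : ℝ) ≤ 2 ^ J := one_le_pow₀ (by norm_num)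
  have hτ' : τ ≤ h ^ 2 := hτ.trans (div_le_self (sq_nonneg _) hpow)
  obtain ⟨m1, m2⟩ := halv_measurable hV (p := p) (ρ := fun i => r ^ k i) J (h ^ 2) hf hb
  set F : E d → ℝ := halv V p (fun i => r ^ k i) J (h ^ 2) f with hF
  have hg0 : gradient (scV V h) 0 = 0 := by
    rw [gradient_scV (VV.pot hV) h0, smul_zero, hV.2.2.1, smul_zero]
  have a1 := H1 hd (scV_pot (VV.pot hV) h0) hg0 h0 h1' hτ' hq (f := fun y => F (h • y))
    (m1.comp (by fun_prop)) (fun x => m2 _) N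
  rw [scale_integral (VV.pot hV) h0 m1 m2] at a1
  have a2 := halv_error hC2 H2 hd hV hq hf hb J (h ^ 2) (by positivity) hh hτ
  rw [← hF] at a2
  have a3 := H3 hd (VV.pot hV) hV.2.2.1 (η := h ^ 2 / 2 ^ J) (by positivity)
    ((div_le_self (sq_nonneg _) hpow).trans (by linarith)) hf hb
  have e3 : Real.sqrt (h ^ 2 / 2 ^ J) = h / Real.sqrt (2 ^ J) := by
    rw [Real.sqrt_div (sq_nonneg _), Real.sqrt_sq h0.le]
  rw [e3] at a3
  have ea : algo h N J p (fun i => r ^ k i) V f () =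
      (opT (frc (gradient (scV V h)) p (fun i => r ^ k i) (h ^ 2)) h)^[N]
        (u0 fun y => F (h • y)) (0, 0) := rfl
  have hsum : |algo h N J p (fun i => r ^ k i) V f () - ∫ x, f x ∂gibbs V| ≤
      C1 * Real.sqrt d * (h ^ 4 * N + h ^ 3 * (1 + Real.log (N + 1)) +
        1 / h ^ 2 * (1 - h / C1) ^ N) + 2 * C2 * Real.sqrt d * (h ^ 2) ^ 2 +
        C3 * (h / Real.sqrt (2 ^ J)) * d := by
    rw [ea]
    refine (abs_sub_le _ (∫ x, conv (h ^ 2) F x ∂gibbs V) _).trans ?_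
    rw [add_assoc]
    refine add_le_add a1 ((abs_sub_le _ (∫ x, conv (h ^ 2 / 2 ^ J) f x ∂gibbs V) _).trans ?_)
    exact add_le_add a2 a3
  refine hsum.trans ?_
  have hs : 0 ≤ Real.sqrt d := Real.sqrt_nonneg _
  have hlog : 0 ≤ Real.log (N + 1) := Real.log_nonneg (by
    have : (0 : ℝ) ≤ N := Nat.cast_nonneg N
    linarith)
  have hpw : (1 - h / C1) ^ N ≤ (1 - h / C) ^ N := by
    have q1 : h / C ≤ h / C1 := div_le_div_of_nonneg_left h0.le hC1pos (by linarith)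
    have q2 : h / C1 ≤ 1 := by
      rw [div_le_one hC1pos]
      have : 1 / C1 ≤ 1 := by
        rw [div_le_one hC1pos]
        exact hC1
      linarith
    exact pow_le_pow_left₀ (by linarith) (by linarith) N
  have q2 : 0 ≤ 1 - h / C := by
    have : h / C ≤ 1 := by
      rw [div_le_one hCpos]
      linarith
    linarith
  set A := h ^ 4 * (N : ℝ) + h ^ 3 * (1 + Real.log (N + 1)) with hA
  have hA0 : 0 ≤ A := by positivity
  set B := 1 / h ^ 2 * (1 - h / C) ^ N with hB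
  have hB0 : 0 ≤ B := by positivity
  have hB1 : 1 / h ^ 2 * (1 - h / C1) ^ N ≤ B := mul_le_mul_of_nonneg_left hpw (by positivity)
  have s1 : C1 * Real.sqrt d * (A + 1 / h ^ 2 * (1 - h / C1) ^ N) ≤ C * Real.sqrt d * (A + B) := by
    have h5 : C1 ≤ C := by linarith
    have h6 : C1 * Real.sqrt d ≤ C * Real.sqrt d := mul_le_mul_of_nonneg_right h5 hs
    calc C1 * Real.sqrt d * (A + 1 / h ^ 2 * (1 - h / C1) ^ N)
        ≤ C1 * Real.sqrt d * (A + B) :=
          mul_le_mul_of_nonneg_left (by linarith) (mul_nonneg hC1pos.le hs)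
      _ ≤ _ := mul_le_mul_of_nonneg_right h6 (add_nonneg hA0 hB0)
  have s2 : 2 * C2 * Real.sqrt d * (h ^ 2) ^ 2 ≤ C * Real.sqrt d * h ^ 4 := by
    have : 2 * C2 ≤ C := by linarith
    calc 2 * C2 * Real.sqrt d * (h ^ 2) ^ 2 = 2 * C2 * Real.sqrt d * h ^ 4 := by ring
      _ ≤ _ := by gcongr
  have s3 : C3 * (h / Real.sqrt (2 ^ J)) * d ≤ C * d * h / Real.sqrt (2 ^ J) := by
    have : C3 ≤ C := by linarith
    calc C3 * (h / Real.sqrt (2 ^ J)) * d = C3 * d * h / Real.sqrt (2 ^ J) := by ring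
      _ ≤ _ := by gcongr
  calc _ ≤ C * Real.sqrt d * (A + B) + C * Real.sqrt d * h ^ 4 +
        C * d * h / Real.sqrt (2 ^ J) := add_le_add (add_le_add s1 s2) s3
    _ = _ := by rw [hA, hB]; ring

end Vale.Agent.P347
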