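import Vale.Agent.P347.Defs

/-! P347, piece A7: positive graded quadrature for `∫₀¹ t^y dt`. -/

open MeasureTheory ProbabilityTheory
open scoped ENNReal NNReal RealInnerProductSpace

namespace Vale.Agent.P347

namespace Quad

open Finset

theorem exp_rem (m : ℕ) {x : ℝ} (hx : 0 ≤ x) :
    Real.exp x - ∑ j ∈ range m, x ^ j / (j.factorial : ℝ) ≤
      x ^ m / m.factorial * Real.exp x := by
  have h0 : HasSum (fun n : ℕ => x ^ n / (n.factorial : ℝ)) (Real.exp x) := by
    rw [Real.exp_eq_exp_ℝ]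
    exact NormedSpace.expSeries_div_hasSum_exp x
  have h1 := (hasSum_nat_add_iff' m).2 h0
  have h2 := h0.mul_left (x ^ m / (m.factorial : ℝ))
  refine hasSum_le (fun n => ?_) h1 h2
  rw [div_mul_div_comm, ← pow_add, add_comm n m]
  refine div_le_div_of_nonneg_left (by positivity) (by positivity) ?_
  have := Nat.le_of_dvd (Nat.factorial_pos _) (Nat.factorial_mul_factorial_dvd_factorial_add m n)
  exact_mod_cast this

/-- In `ℝ^m` the convex hull of a compact set is compact. -/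
theorem compact_hull {m : ℕ} {S : Set (Fin m → ℝ)} (hS : IsCompact S) :
    IsCompact (convexHull ℝ S) := by
  rcases S.eq_empty_or_nonempty with h | ⟨z0, hz0⟩
  · rw [h, convexHull_empty]; exact isCompact_empty
  set φ : (Fin (m + 1) → ℝ) × (Fin (m + 1) → Fin m → ℝ) → (Fin m → ℝ) :=
    fun q => ∑ i, q.1 i • q.2 i with hφ
  have hφc : Continuous φ := by
    refine continuous_finsetSum _ fun i _ => ?_
    exact ((continuous_apply i).comp continuous_fst).smul ((continuous_apply i).comp continuous_snd)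
  have hK : IsCompact (φ '' (stdSimplex ℝ (Fin (m + 1)) ×ˢ Set.pi Set.univ fun _ => S)) :=
    ((isCompact_stdSimplex ℝ (Fin (m + 1))).prod (isCompact_univ_pi fun _ => hS)).image hφc
  convert hK using 1
  apply Set.Subset.antisymm
  · intro x hx
    obtain ⟨ι, hι, z, w, hz, hind, hw, hw1, hx⟩ := eq_pos_convex_span_of_mem_convexHull hx
    have hcard : Fintype.card ι ≤ m + 1 := by
      refine hind.card_le_finrank_succ.trans ?_
      have : Module.finrank ℝ (vectorSpan ℝ (Set.range z)) ≤ Module.finrank ℝ (Fin m → ℝ) :=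
        Submodule.finrank_le _
      rw [Module.finrank_fin_fun] at this
      omega
    obtain ⟨e⟩ : Nonempty (ι ↪ Fin (m + 1)) :=
      Function.Embedding.nonempty_of_card_le (by rwa [Fintype.card_fin])
    have hext0 : ∀ j, j ∉ Set.range e → Function.extend e w 0 j = 0 := by
      intro j hj
      rw [Function.extend_apply' _ _ _ hj]; rfl
    refine ⟨(Function.extend e w 0, Function.extend e z fun _ => z0), ⟨⟨fun j => ?_, ?_⟩,
      fun j _ => ?_⟩, ?_⟩
    · by_cases hj : j ∈ Set.range e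
      · obtain ⟨i, rfl⟩ := hj
        show 0 ≤ Function.extend e w 0 (e i)
        rw [e.injective.extend_apply]; exact (hw i).le
      · exact (hext0 j hj).ge
    · rw [← hw1]
      exact (Fintype.sum_of_injective e e.injective w _ (fun j hj => hext0 j hj)
        (fun i => (e.injective.extend_apply w 0 i).symm)).symm
    · show Function.extend e z (fun _ => z0) j ∈ S
      by_cases hj : j ∈ Set.range e
      · obtain ⟨i, rfl⟩ := hj
        rw [e.injective.extend_apply]; exact hz ⟨i, rfl⟩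
      · rw [Function.extend_apply' _ _ _ hj]; exact hz0
    · rw [← hx]
      refine (Fintype.sum_of_injective e e.injective (fun i => w i • z i) _ (fun j hj => ?_)
        (fun i => ?_)).symm
      · show Function.extend e w 0 j • _ = _
        rw [hext0 j hj, zero_smul]
      · show _ = Function.extend e w 0 (e i) • Function.extend e z (fun _ => z0) (e i)
        rw [e.injective.extend_apply, e.injective.extend_apply]
  · rintro x ⟨⟨w, z⟩, ⟨hw, hz⟩, rfl⟩
    exact (convex_convexHull ℝ S).sum_mem (fun i _ => hw.1 i) hw.2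
      (fun i _ => subset_convexHull ℝ S (hz i (Set.mem_univ i)))

/-- Caratheodory: positive quadrature exact on `m` given functions. -/
theorem piece (a b : ℝ) (hab : a < b) (m : ℕ) (g : ℝ → Fin m → ℝ)
    (hg : ContinuousOn g (Set.Icc a b)) :
    ∃ (n : ℕ) (x w : Fin n → ℝ), n ≤ m + 1 ∧ (∀ i, x i ∈ Set.Icc a b) ∧ (∀ i, 0 ≤ w i) ∧
      ∑ i, w i = b - a ∧ ∀ j, ∑ i, w i * g (x i) j = ∫ t in a..b, g t j := by
  have hK : IsCompact (g '' Set.Icc a b) := isCompact_Icc.image_of_continuousOn hg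
  have hKc : IsClosed (convexHull ℝ (g '' Set.Icc a b)) := (compact_hull hK).isClosed
  have hgi : IntegrableOn g (Set.Icc a b) volume := hg.integrableOn_Icc
  have hav : (⨍ t in Set.Icc a b, g t) ∈ convexHull ℝ (g '' Set.Icc a b) := by
    refine (convex_convexHull ℝ _).set_average_mem hKc ?_ ?_ ?_ hgi
    · rw [Real.volume_Icc]; simpa using hab
    · rw [Real.volume_Icc]; exact ENNReal.ofReal_ne_top
    · refine (ae_restrict_iff' measurableSet_Icc).2 (Filter.Eventually.of_forall fun t ht => ?_)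
      exact subset_convexHull ℝ _ ⟨t, ht, rfl⟩
  obtain ⟨ι, hι, z, w, hz, hind, hw, hw1, hx⟩ := eq_pos_convex_span_of_mem_convexHull hav
  have hcard : Fintype.card ι ≤ m + 1 := by
    refine hind.card_le_finrank_succ.trans ?_
    have : Module.finrank ℝ (vectorSpan ℝ (Set.range z)) ≤ Module.finrank ℝ (Fin m → ℝ) :=
      Submodule.finrank_le _
    rw [Module.finrank_fin_fun] at this
    omega
  have hz' : ∀ i, ∃ t ∈ Set.Icc a b, g t = z i := fun i => hz ⟨i, rfl⟩
  choose t ht htz using hz'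
  let e := Fintype.equivFin ι
  have hba : 0 < b - a := sub_pos.2 hab
  refine ⟨Fintype.card ι, fun i => t (e.symm i), fun i => (b - a) * w (e.symm i), hcard,
    fun i => ht _, fun i => mul_nonneg hba.le (hw _).le, ?_, fun j => ?_⟩
  · rw [← Finset.mul_sum, Equiv.sum_comp e.symm w, hw1, mul_one]
  · have h1 : ∑ i, (b - a) * w (e.symm i) * g (t (e.symm i)) j =
        (b - a) * ∑ i, w i * g (t i) j := by
      rw [Finset.mul_sum, ← Equiv.sum_comp e.symm]
      exact Finset.sum_congr rfl fun i _ => by ring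
    rw [h1]
    have h2 : ∑ i, w i * g (t i) j = (⨍ s in Set.Icc a b, g s) j := by
      rw [← hx, Finset.sum_apply]
      exact Finset.sum_congr rfl fun i _ => by rw [htz, Pi.smul_apply, smul_eq_mul]
    rw [h2, setAverage_eq, Pi.smul_apply, smul_eq_mul, ← mul_assoc]
    have h3 : (b - a) * (volume.real (Set.Icc a b))⁻¹ = 1 := by
      rw [Measure.real, Real.volume_Icc, ENNReal.toReal_ofReal hba.le]
      exact mul_inv_cancel₀ hba.ne'
    rw [h3, one_mul, intervalIntegral.integral_of_le hab.le, ← integral_Icc_eq_integral_Ioc]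
    have h4 := (ContinuousLinearMap.proj (R := ℝ) (φ := fun _ : Fin m => ℝ) j).integral_comp_comm hgi
    simpa using h4.symm

theorem cont_rpow {y : ℝ} (hy : 0 ≤ y) : Continuous fun t : ℝ => t ^ y :=
  Real.continuous_rpow_const hy

/-- the error of the quadrature on `[e^{-3a/2}, e^{-a}]` -/
theorem piece2 (a : ℝ) (ha : 0 < a) (m : ℕ) :
    ∃ (n : ℕ) (s w : Fin n → ℝ), n ≤ m + 1 ∧ (∀ i, a ≤ s i) ∧ (∀ i, 0 ≤ w i) ∧
      ∑ i, w i = Real.exp (-a) - Real.exp (-(3 / 2 * a)) ∧
      ∀ y : ℝ, 0 ≤ y → |∑ i, w i * Real.exp (-(s i) * y) -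
        ∫ t in Real.exp (-(3 / 2 * a))..Real.exp (-a), t ^ y| ≤
        (1 / 2) ^ m * (Real.exp (-a) - Real.exp (-(3 / 2 * a))) := by
  set b := 3 / 2 * a with hb
  have hlt : Real.exp (-b) < Real.exp (-a) := Real.exp_lt_exp.2 (by linarith)
  have hg : ContinuousOn (fun (t : ℝ) (j : Fin m) => (b + Real.log t) ^ (j : ℕ))
      (Set.Icc (Real.exp (-b)) (Real.exp (-a))) := by
    refine continuousOn_pi.2 fun j => ?_
    refine (continuousOn_const.add (Real.continuousOn_log.mono ?_)).pow _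
    intro t ht
    have : 0 < t := (Real.exp_pos _).trans_le ht.1
    simpa using this.ne'
  obtain ⟨n, x, w, hn, hx, hw, hw1, hj⟩ := piece _ _ hlt m _ hg
  have hxpos : ∀ i, 0 < x i := fun i => (Real.exp_pos _).trans_le (hx i).1
  refine ⟨n, fun i => -Real.log (x i), w, hn, fun i => ?_, hw, hw1, fun y hy => ?_⟩
  · have := Real.log_le_log (hxpos i) (hx i).2
    rw [Real.log_exp] at this
    linarith
  set f : ℝ → ℝ := fun t => t ^ y with hf
  set P : ℝ → ℝ := fun t => ∑ j : Fin m,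
    Real.exp (-b * y) * y ^ (j : ℕ) / ((j : ℕ).factorial : ℝ) * (b + Real.log t) ^ (j : ℕ) with hP
  have hfP : ∀ t ∈ Set.Icc (Real.exp (-b)) (Real.exp (-a)),
      0 ≤ f t - P t ∧ f t - P t ≤ (1 / 2) ^ m := by
    intro t ht
    have ht0 : 0 < t := (Real.exp_pos _).trans_le ht.1
    have hl1 : -b ≤ Real.log t := by
      have := Real.log_le_log (Real.exp_pos _) ht.1
      rwa [Real.log_exp] at this
    have hl2 : Real.log t ≤ -a := by
      have := Real.log_le_log ht0 ht.2
      rwa [Real.log_exp] at this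
    set u := b + Real.log t with hu
    have hu0 : 0 ≤ u := by linarith
    have hu1 : u ≤ a / 2 := by linarith
    have e1 : f t = Real.exp (-b * y) * Real.exp (u * y) := by
      rw [hf, ← Real.exp_add]
      show t ^ y = _
      rw [Real.rpow_def_of_pos ht0]
      congr 1
      rw [hu]; ring
    have e2 : P t = Real.exp (-b * y) * ∑ j ∈ range m, (u * y) ^ j / (j.factorial : ℝ) := by
      rw [hP, Finset.mul_sum]
      show ∑ j : Fin m, _ = _
      rw [Fin.sum_univ_eq_sum_range (fun j => Real.exp (-b * y) * y ^ j / (j.factorial : ℝ) *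
        (b + Real.log t) ^ j) m]
      refine Finset.sum_congr rfl fun j _ => ?_
      rw [mul_pow]; ring
    have huy : 0 ≤ u * y := mul_nonneg hu0 hy
    rw [e1, e2, ← mul_sub]
    constructor
    · exact mul_nonneg (Real.exp_pos _).le (sub_nonneg.2 (Real.sum_le_exp_of_nonneg huy m))
    · calc Real.exp (-b * y) * (Real.exp (u * y) - ∑ j ∈ range m, (u * y) ^ j / (j.factorial : ℝ))
          ≤ Real.exp (-b * y) * ((u * y) ^ m / m.factorial * Real.exp (u * y)) :=
            mul_le_mul_of_nonneg_left (exp_rem m huy) (Real.exp_pos _).le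
        _ = (u * y) ^ m / m.factorial * Real.exp (-(b - u) * y) := by
            rw [show -(b - u) * y = -b * y + u * y by ring, Real.exp_add]; ring
        _ ≤ (1 / 2 * (a * y)) ^ m / m.factorial * Real.exp (-(a * y)) := by
            refine mul_le_mul ?_ ?_ (Real.exp_pos _).le (by positivity)
            · refine div_le_div_of_nonneg_right ?_ (by positivity)
              refine pow_le_pow_left₀ huy ?_ m
              nlinarith
            · refine Real.exp_le_exp.2 ?_
              have : a ≤ b - u := by linarith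
              nlinarith
        _ = (1 / 2) ^ m * ((a * y) ^ m / m.factorial * Real.exp (-(a * y))) := by
            rw [mul_pow]; ring
        _ ≤ (1 / 2) ^ m * 1 := by
            refine mul_le_mul_of_nonneg_left ?_ (by positivity)
            rw [Real.exp_neg, ← div_eq_mul_inv, div_le_one (Real.exp_pos _)]
            exact Real.pow_div_factorial_le_exp (a * y) (by positivity) m
        _ = (1 / 2) ^ m := mul_one _
  have hexp : ∀ i, Real.exp (-(-Real.log (x i)) * y) = f (x i) := by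
    intro i
    rw [hf]
    show _ = x i ^ y
    rw [Real.rpow_def_of_pos (hxpos i)]
    congr 1; ring
  have hPc : ContinuousOn P (Set.Icc (Real.exp (-b)) (Real.exp (-a))) := by
    refine continuousOn_finsetSum _ fun j _ => continuousOn_const.mul ?_
    exact continuousOn_pi.1 hg j
  have hfc : Continuous f := cont_rpow hy
  have hPi : IntervalIntegrable P volume (Real.exp (-b)) (Real.exp (-a)) :=
    (hPc.mono (by rw [Set.uIcc_of_le hlt.le])).intervalIntegrable
  have hfi : IntervalIntegrable f volume (Real.exp (-b)) (Real.exp (-a)) :=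
    hfc.intervalIntegrable _ _
  have hex : ∑ i, w i * P (x i) = ∫ t in Real.exp (-b)..Real.exp (-a), P t := by
    rw [hP, intervalIntegral.integral_finsetSum]
    · simp_rw [Finset.mul_sum]
      rw [Finset.sum_comm]
      refine Finset.sum_congr rfl fun j _ => ?_
      rw [intervalIntegral.integral_const_mul, ← hj j, Finset.mul_sum]
      exact Finset.sum_congr rfl fun i _ => by ring
    · intro j _
      refine (ContinuousOn.mono (continuousOn_const.mul (continuousOn_pi.1 hg j)) ?_).intervalIntegrable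
      rw [Set.uIcc_of_le hlt.le]
  simp_rw [hexp]
  have hdec : ∑ i, w i * f (x i) - ∫ t in Real.exp (-b)..Real.exp (-a), f t =
      ∑ i, w i * (f (x i) - P (x i)) - ∫ t in Real.exp (-b)..Real.exp (-a), (f t - P t) := by
    rw [intervalIntegral.integral_sub hfi hPi, ← hex, ← sub_eq_zero]
    simp_rw [mul_sub, Finset.sum_sub_distrib]
    ring
  have hI0 : 0 ≤ ∫ t in Real.exp (-b)..Real.exp (-a), (f t - P t) :=
    intervalIntegral.integral_nonneg hlt.le fun t ht => (hfP t ht).1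
  have hI1 : ∫ t in Real.exp (-b)..Real.exp (-a), (f t - P t) ≤
      (1 / 2) ^ m * (Real.exp (-a) - Real.exp (-b)) := by
    calc _ ≤ ∫ t in Real.exp (-b)..Real.exp (-a), ((1 / 2 : ℝ) ^ m) :=
          intervalIntegral.integral_mono_on hlt.le (hfi.sub hPi) intervalIntegrable_const
            fun t ht => (hfP t ht).2
      _ = _ := by
          rw [intervalIntegral.integral_const, smul_eq_mul, mul_comm]
  have hS0 : 0 ≤ ∑ i, w i * (f (x i) - P (x i)) :=
    Finset.sum_nonneg fun i _ => mul_nonneg (hw i) (hfP _ (hx i)).1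
  have hS1 : ∑ i, w i * (f (x i) - P (x i)) ≤ (1 / 2) ^ m * (Real.exp (-a) - Real.exp (-b)) := by
    rw [← hw1, mul_comm, Finset.sum_mul]
    exact Finset.sum_le_sum fun i _ => mul_le_mul_of_nonneg_left (hfP _ (hx i)).2 (hw i)
  show |∑ i, w i * f (x i) - ∫ t in Real.exp (-b)..Real.exp (-a), f t| ≤ _
  rw [hdec, abs_le]
  constructor <;> linarith

/-- positive quadrature with nodes `≥ h`, at most `c` of them, total mass `M`, target `I`,
error `e`. -/
def QP (h : ℝ) (c : ℕ) (M : ℝ) (I : ℝ → ℝ) (e : ℝ) : Prop :=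
  ∃ (n : ℕ) (s w : Fin n → ℝ), n ≤ c ∧ (∀ i, h ≤ s i) ∧ (∀ i, 0 ≤ w i) ∧ ∑ i, w i = M ∧
    ∀ y : ℝ, 0 ≤ y → |∑ i, w i * Real.exp (-(s i) * y) - I y| ≤ e

theorem QP.add {h : ℝ} {c₁ c₂ : ℕ} {M₁ M₂ : ℝ} {I₁ I₂ : ℝ → ℝ} {e₁ e₂ : ℝ}
    (h₁ : QP h c₁ M₁ I₁ e₁) (h₂ : QP h c₂ M₂ I₂ e₂) :
    QP h (c₁ + c₂) (M₁ + M₂) (fun y => I₁ y + I₂ y) (e₁ + e₂) := by
  obtain ⟨n, s, w, hn, hs, hw, hM, hI⟩ := h₁
  obtain ⟨n', s', w', hn', hs', hw', hM', hI'⟩ := h₂
  refine ⟨n + n', Fin.append s s', Fin.append w w', by omega, fun i => ?_, fun i => ?_, ?_,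
    fun y hy => ?_⟩
  · refine Fin.addCases (fun i => ?_) (fun i => ?_) i
    · rw [Fin.append_left]; exact hs i
    · rw [Fin.append_right]; exact hs' i
  · refine Fin.addCases (fun i => ?_) (fun i => ?_) i
    · rw [Fin.append_left]; exact hw i
    · rw [Fin.append_right]; exact hw' i
  · rw [Fin.sum_univ_add]
    simp only [Fin.append_left, Fin.append_right]
    rw [hM, hM']
  · rw [Fin.sum_univ_add]
    simp only [Fin.append_left, Fin.append_right]
    have a1 := hI y hy
    have a2 := hI' y hy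
    rw [abs_le] at a1 a2 ⊢
    constructor <;> linarith [a1.1, a1.2, a2.1, a2.2]

theorem QP.mono {h h' : ℝ} {c c' : ℕ} {M : ℝ} {I : ℝ → ℝ} {e e' : ℝ}
    (hq : QP h c M I e) (hh : h' ≤ h) (hc : c ≤ c') (he : e ≤ e') : QP h' c' M I e' := by
  obtain ⟨n, s, w, hn, hs, hw, hM, hI⟩ := hq
  exact ⟨n, s, w, hn.trans hc, fun i => hh.trans (hs i), hw, hM, fun y hy => (hI y hy).trans he⟩

theorem QP.congr {h : ℝ} {c : ℕ} {M M' : ℝ} {I I' : ℝ → ℝ} {e : ℝ}
    (hq : QP h c M I e) (hM : M = M') (hI : ∀ y, 0 ≤ y → I y = I' y) : QP h c M' I' e := by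
  obtain ⟨n, s, w, hn, hs, hw, hM1, hI1⟩ := hq
  exact ⟨n, s, w, hn, hs, hw, hM1.trans hM, fun y hy => by rw [← hI y hy]; exact hI1 y hy⟩

/-- one node at `s`, for an interval `[ρ₁, ρ₂] ⊆ [0,1]`. -/
theorem QP.single {s ρ₁ ρ₂ : ℝ} (hs : 0 ≤ s) (h0 : 0 ≤ ρ₁) (h12 : ρ₁ ≤ ρ₂) (h1 : ρ₂ ≤ 1) :
    QP s 1 (ρ₂ - ρ₁) (fun y => ∫ t in ρ₁..ρ₂, t ^ y) (ρ₂ - ρ₁) := by
  refine ⟨1, fun _ => s, fun _ => ρ₂ - ρ₁, le_rfl, fun _ => le_rfl, fun _ => sub_nonneg.2 h12,
    by simp, fun y hy => ?_⟩
  rw [Fin.sum_univ_one]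
  have hM : 0 ≤ ρ₂ - ρ₁ := sub_nonneg.2 h12
  have hI0 : 0 ≤ ∫ t in ρ₁..ρ₂, t ^ y :=
    intervalIntegral.integral_nonneg h12 fun t ht => Real.rpow_nonneg (h0.trans ht.1) y
  have hI1 : ∫ t in ρ₁..ρ₂, t ^ y ≤ ρ₂ - ρ₁ := by
    calc _ ≤ ∫ t in ρ₁..ρ₂, (1 : ℝ) :=
          intervalIntegral.integral_mono_on h12 ((cont_rpow hy).intervalIntegrable _ _)
            intervalIntegrable_const
            fun t ht => Real.rpow_le_one (h0.trans ht.1) (ht.2.trans h1) hy
      _ = _ := by simp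
  have hE0 : 0 ≤ (ρ₂ - ρ₁) * Real.exp (-s * y) := mul_nonneg hM (Real.exp_pos _).le
  have hE1 : (ρ₂ - ρ₁) * Real.exp (-s * y) ≤ (ρ₂ - ρ₁) := by
    refine mul_le_of_le_one_right hM (Real.exp_le_one_iff.2 ?_)
    nlinarith
  rw [abs_le]
  constructor <;> linarith

theorem pieces (m : ℕ) (a : ℝ) (ha : 0 < a) (L : ℕ) :
    QP a (L * (m + 1)) (Real.exp (-a) - Real.exp (-((3 / 2) ^ L * a)))
      (fun y => ∫ t in Real.exp (-((3 / 2) ^ L * a))..Real.exp (-a), t ^ y)
      ((1 / 2) ^ m * (Real.exp (-a) - Real.exp (-((3 / 2) ^ L * a)))) := by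
  induction L with
  | zero =>
    refine ⟨0, Fin.elim0, Fin.elim0, by simp, fun i => i.elim0, fun i => i.elim0, by simp,
      fun y hy => by simp⟩
  | succ L ih =>
    have ha' : 0 < (3 / 2 : ℝ) ^ L * a := by positivity
    have haa : a ≤ (3 / 2 : ℝ) ^ L * a := by
      have : (1 : ℝ) ≤ (3 / 2 : ℝ) ^ L := one_le_pow₀ (by norm_num)
      nlinarith
    have h2 : QP ((3 / 2) ^ L * a) (m + 1) _ _ _ := piece2 ((3 / 2) ^ L * a) ha' m
    have h3 := ih.add (h2.mono haa le_rfl le_rfl)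
    have e : (3 / 2 : ℝ) * ((3 / 2) ^ L * a) = (3 / 2) ^ (L + 1) * a := by ring
    rw [e] at h3
    have h4 := h3.congr (M' := Real.exp (-a) - Real.exp (-((3 / 2) ^ (L + 1) * a)))
      (I' := fun y => ∫ t in Real.exp (-((3 / 2) ^ (L + 1) * a))..Real.exp (-a), t ^ y)
      (by ring) (fun y hy => by
        rw [add_comm]
        exact intervalIntegral.integral_add_adjacent_intervals
          ((cont_rpow hy).intervalIntegrable _ _) ((cont_rpow hy).intervalIntegrable _ _))
    refine h4.mono le_rfl (by rw [Nat.succ_mul]) ?_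
    rw [← mul_add]
    refine mul_le_mul_of_nonneg_left ?_ (by positivity)
    linarith

/-- all of `[0,1]`, before rounding -/
theorem full (N : ℕ) (hN : 1 ≤ N) :
    QP ((1 / 2 : ℝ) ^ N) (4 * N * (N + 1) + 2) 1 (fun y => 1 / (1 + y)) (3 * (1 / 2) ^ N) := by
  set a : ℝ := (1 / 2) ^ N with ha
  have ha0 : 0 < a := by positivity
  have hp := pieces N a ha0 (4 * N)
  set b : ℝ := (3 / 2) ^ (4 * N) * a with hb
  have hab : a ≤ b := by
    have : (1 : ℝ) ≤ (3 / 2 : ℝ) ^ (4 * N) := one_le_pow₀ (by norm_num)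
    rw [hb]
    nlinarith
  have hbN : (N : ℝ) ≤ b := by
    have h1 : (3 / 2 : ℝ) ^ (4 * N) = (81 / 16) ^ N := by
      rw [pow_mul]; norm_num
    have h2 : b = (81 / 32) ^ N := by
      rw [hb, h1, ha, ← mul_pow]; norm_num
    have h3 : (2 : ℝ) ^ N ≤ (81 / 32) ^ N := pow_le_pow_left₀ (by norm_num) (by norm_num) N
    have h4 : (N : ℝ) ≤ 2 ^ N := by exact_mod_cast Nat.lt_two_pow_self.le
    rw [h2]; linarith
  have hebN : Real.exp (-b) ≤ a := by
    have h1 : Real.exp (-b) ≤ Real.exp (-(N : ℝ)) := Real.exp_le_exp.2 (by linarith)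
    have h2 : Real.exp (-(N : ℝ)) = (Real.exp (-1)) ^ N := by
      rw [← Real.exp_nat_mul]; congr 1; ring
    have h3 : Real.exp (-1) ≤ 1 / 2 := by
      rw [Real.exp_neg, inv_eq_one_div]
      refine one_div_le_one_div_of_le (by norm_num) ?_
      have := Real.add_one_le_exp (1 : ℝ)
      linarith
    rw [h2] at h1
    exact h1.trans (pow_le_pow_left₀ (Real.exp_pos _).le h3 N)
  have hea : 1 - Real.exp (-a) ≤ a := by
    have := Real.add_one_le_exp (-a)
    linarith
  have hea1 : Real.exp (-a) ≤ 1 := Real.exp_le_one_iff.2 (by linarith)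
  have heb0 : 0 < Real.exp (-b) := Real.exp_pos _
  have heab : Real.exp (-b) ≤ Real.exp (-a) := Real.exp_le_exp.2 (by linarith)
  have hhead := QP.single (s := a) ha0.le (Real.exp_pos (-a)).le hea1 le_rfl
  have htail := QP.single (s := b) (ha0.le.trans hab) le_rfl heb0.le (heab.trans hea1)
  have h1 := (hp.add hhead).add (htail.mono hab le_rfl le_rfl)
  have h2 := h1.congr (M' := 1) (I' := fun y => 1 / (1 + y)) (by ring) (fun y hy => by
    have c := fun u v => (cont_rpow hy).intervalIntegrable (μ := volume) u v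
    have e1 : (∫ t in Real.exp (-b)..Real.exp (-a), t ^ y) + ∫ t in Real.exp (-a)..1, t ^ y =
        ∫ t in Real.exp (-b)..1, t ^ y :=
      intervalIntegral.integral_add_adjacent_intervals (c _ _) (c _ _)
    have e2 : (∫ t in (0 : ℝ)..Real.exp (-b), t ^ y) + ∫ t in Real.exp (-b)..1, t ^ y =
        ∫ t in (0 : ℝ)..1, t ^ y :=
      intervalIntegral.integral_add_adjacent_intervals (c _ _) (c _ _)
    rw [e1, add_comm, e2, integral_rpow (Or.inl (by linarith))]
    rw [Real.one_rpow, Real.zero_rpow (by linarith), sub_zero, add_comm])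
  refine h2.mono le_rfl (by ring_nf; omega) ?_
  have hpow1 : (1 / 2 : ℝ) ^ N * (Real.exp (-a) - Real.exp (-b)) ≤ a := by
    rw [← ha]
    refine mul_le_of_le_one_right ha0.le ?_
    linarith
  linarith

end Quad

open Quad Finset in
/-- nodes `r^(k i)`, weights `p i`; the number of nodes is at most `C (1+log(1/τ))²`. -/
theorem exists_quad : ∃ C : ℝ, ∀ τ : ℝ, 0 < τ → τ ≤ 1 / 2 →
    ∃ (n : ℕ) (r : ℝ) (k : Fin n → ℕ) (p : Fin n → ℝ),
      (n : ℝ) ≤ C * (1 + Real.log (1 / τ)) ^ 2 ∧ 0 < r ∧ r < 1 ∧ (∀ i, 0 ≤ p i) ∧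
      ∑ i, p i = 1 ∧ (∀ i, 1 ≤ k i) ∧
      ∀ y : ℝ, 0 ≤ y → |∑ i, p i * (r ^ (k i : ℝ)) ^ y - 1 / (1 + y)| ≤ τ := by
  refine ⟨200, fun τ h0 h1 => ?_⟩
  set ℓ : ℝ := Real.log (1 / τ) with hℓ
  have hℓ0 : 0 ≤ ℓ := Real.log_nonneg (by
    rw [le_div_iff₀ h0]; linarith)
  have hlog2 : 1 / 2 ≤ Real.log 2 := by
    have := Real.log_two_gt_d9
    linarith
  set N : ℕ := ⌈2 * ℓ⌉₊ + 2 with hN
  have hN1 : 1 ≤ N := by omega
  have hNr : (N : ℝ) ≤ 2 * ℓ + 3 := by
    have := (Nat.ceil_lt_add_one (show 0 ≤ 2 * ℓ by positivity)).le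
    rw [hN]; push_cast; linarith
  have hNl : 2 * ℓ + 2 ≤ (N : ℝ) := by
    have := Nat.le_ceil (2 * ℓ)
    rw [hN]; push_cast; linarith
  have hpow : (1 / 2 : ℝ) ^ N ≤ τ / 4 := by
    have e1 : (1 / 2 : ℝ) ^ N = (1 / 2) ^ ⌈2 * ℓ⌉₊ * (1 / 4) := by
      rw [hN, pow_add]; norm_num
    have e2 : (1 / 2 : ℝ) ^ ⌈2 * ℓ⌉₊ ≤ τ := by
      have h3 : (1 / 2 : ℝ) ^ ⌈2 * ℓ⌉₊ = Real.exp (-(Real.log 2 * ⌈2 * ℓ⌉₊)) := by
        rw [← Real.rpow_natCast, Real.rpow_def_of_pos (by norm_num)]
        congr 1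
        rw [one_div, Real.log_inv]; ring
      have h4 : τ = Real.exp (-ℓ) := by
        rw [hℓ, one_div, Real.log_inv, neg_neg, Real.exp_log h0]
      rw [h3]
      conv_rhs => rw [h4]
      refine Real.exp_le_exp.2 ?_
      have h5 := Nat.le_ceil (2 * ℓ)
      nlinarith
    rw [e1]; linarith
  obtain ⟨n, s, w, hn, hs, hw, hw1, hI⟩ := full N hN1
  set a : ℝ := (1 / 2) ^ N with ha
  have ha0 : 0 < a := by positivity
  set h : ℝ := a * a with hh
  have hh0 : 0 < h := by positivity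
  refine ⟨n, Real.exp (-h), fun i => ⌈s i / h⌉₊, w, ?_, Real.exp_pos _,
    by rw [Real.exp_lt_one_iff]; linarith, hw, hw1, fun i => ?_, fun y hy => ?_⟩
  · have h5 : (n : ℝ) ≤ 4 * N * (N + 1) + 2 := by exact_mod_cast hn
    have h6 : 4 * (N : ℝ) * (N + 1) + 2 ≤ 4 * (2 * ℓ + 3) * (2 * ℓ + 3 + 1) + 2 := by
      have : (0 : ℝ) ≤ N := by positivity
      nlinarith
    nlinarith
  · have : 0 < s i / h := div_pos (ha0.trans_le (hs i)) hh0
    exact Nat.one_le_iff_ne_zero.2 (Nat.ceil_pos.2 this).ne'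
  · have hnode : ∀ i, (Real.exp (-h) ^ ((⌈s i / h⌉₊ : ℕ) : ℝ)) ^ y =
        Real.exp (-((⌈s i / h⌉₊ : ℕ) * h) * y) := by
      intro i
      rw [← Real.exp_mul, ← Real.exp_mul]
      congr 1; ring
    have hround : ∀ i, |Real.exp (-((⌈s i / h⌉₊ : ℕ) * h) * y) - Real.exp (-(s i) * y)| ≤ a := by
      intro i
      have hsi : 0 < s i := ha0.trans_le (hs i)
      set s' : ℝ := (⌈s i / h⌉₊ : ℕ) * h with hs'
      have hs1 : s i ≤ s' := by
        have := Nat.le_ceil (s i / h)
        rw [hs']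
        rwa [div_le_iff₀ hh0] at this
      have hs2 : s' ≤ s i + h := by
        have := (Nat.ceil_lt_add_one (show 0 ≤ s i / h by positivity)).le
        rw [hs']
        calc ((⌈s i / h⌉₊ : ℕ) : ℝ) * h ≤ (s i / h + 1) * h := by gcongr
          _ = s i + h := by field_simp
      have hle : Real.exp (-s' * y) ≤ Real.exp (-(s i) * y) :=
        Real.exp_le_exp.2 (by nlinarith)
      rw [abs_sub_comm, abs_of_nonneg (sub_nonneg.2 hle)]
      have e1 : Real.exp (-s' * y) = Real.exp (-(s i) * y) * Real.exp (-((s' - s i) * y)) := by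
        rw [← Real.exp_add]; congr 1; ring
      have e2 : 1 - Real.exp (-((s' - s i) * y)) ≤ h * y := by
        have := Real.add_one_le_exp (-((s' - s i) * y))
        nlinarith
      have e3 : s i * y * Real.exp (-(s i) * y) ≤ 1 := by
        have h7 := Real.add_one_le_exp (s i * y)
        rw [neg_mul, Real.exp_neg, ← div_eq_mul_inv, div_le_one (Real.exp_pos _)]
        linarith
      have e4 : 0 ≤ Real.exp (-(s i) * y) := (Real.exp_pos _).le
      calc Real.exp (-(s i) * y) - Real.exp (-s' * y)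
          = Real.exp (-(s i) * y) * (1 - Real.exp (-((s' - s i) * y))) := by rw [e1]; ring
        _ ≤ Real.exp (-(s i) * y) * (h * y) := mul_le_mul_of_nonneg_left e2 e4
        _ = h / s i * (s i * y * Real.exp (-(s i) * y)) := by field_simp
        _ ≤ h / s i * 1 := mul_le_mul_of_nonneg_left e3 (by positivity)
        _ ≤ a := by
            rw [mul_one, div_le_iff₀ hsi, hh]
            exact mul_le_mul_of_nonneg_left (hs i) ha0.le
    simp_rw [hnode]
    have hsum : |∑ i, w i * Real.exp (-((⌈s i / h⌉₊ : ℕ) * h) * y) -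
        ∑ i, w i * Real.exp (-(s i) * y)| ≤ a := by
      rw [← Finset.sum_sub_distrib]
      refine (Finset.abs_sum_le_sum_abs _ _).trans ?_
      calc ∑ i, |w i * Real.exp (-((⌈s i / h⌉₊ : ℕ) * h) * y) - w i * Real.exp (-(s i) * y)|
          ≤ ∑ i, w i * a := by
            refine Finset.sum_le_sum fun i _ => ?_
            rw [← mul_sub, abs_mul, abs_of_nonneg (hw i)]
            exact mul_le_mul_of_nonneg_left (hround i) (hw i)
        _ = a := by rw [← Finset.sum_mul, hw1, one_mul]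
    have h8 := hI y hy
    have h9 : a ≤ τ / 4 := hpow
    rw [abs_le] at hsum h8 ⊢
    constructor <;> linarith [hsum.1, hsum.2, h8.1, h8.2]

end Vale.Agent.P347
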