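import Vale.Agent.P347.KAlgo
import Vale.Agent.P347.Asym
import Vale.Agent.P347.Quad
import Vale.Agent.P347.KParam
import Vale.Agent.P347.KTotal

/-!
# P347: final assembly, `Q(d) ≤ C d^{1/6} (log d)^m` and `gammaStar ≤ 1/6`
-/

open MeasureTheory ProbabilityTheory
open scoped ENNReal NNReal RealInnerProductSpace

namespace Vale.Agent.P347

/-- For large `d` there is an algorithm with at most `C d^{1/6} (log d)^m` queries. -/
theorem exists_alg_sixth : ∃ (C : ℝ) (m d₀ : ℕ), ∀ d : ℕ, d₀ ≤ d →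
    ∃ q : ℕ, (q : ℝ) ≤ C * (d : ℝ) ^ ((1 : ℝ) / 6) * Real.log d ^ m ∧
      ∃ A : Alg d q, A.Samples := by
  obtain ⟨C₁, hC1, hT⟩ := total_error
  obtain ⟨C₂, hQ⟩ := exists_quad
  obtain ⟨C, m, d₀, hP⟩ := params C₁ C₂ hC1
  refine ⟨C, m, max d₀ 1, fun d hd => ?_⟩
  have hd0 : d₀ ≤ d := (le_max_left _ _).trans hd
  have hd1 : 1 ≤ d := (le_max_right _ _).trans hd
  obtain ⟨h, τ, N, J, h0, hh, τ0, τ1, hτ, herr, hcount⟩ := hP d hd0
  obtain ⟨n, r, k, p, hn, r0, r1, p0, ps, k1, hacc⟩ := hQ τ τ0 τ1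
  have hquad : IsQuad r τ k p := ⟨r0, r1, p0, ps, k1, τ0, τ1, hacc⟩
  refine ⟨N * (2 * n + 1) + J * (n + 1), hcount n hn, ?_⟩
  refine (algo_opComp (d := d) (n := n) h0 (N := N) (J := J) (p := p)
    (ρ := fun i => r ^ k i)).exists_alg ?_
  intro V hV B hB
  have hf : Measurable (B.indicator fun _ => (1 : ℝ)) := measurable_const.indicator hB
  have hb : ∀ x, |B.indicator (fun _ => (1 : ℝ)) x| ≤ 1 := fun x => by
    by_cases hx : x ∈ B <;> simp [hx]
  have h1 := hT (d := d) (V := V) hd1 hV h0 hh hτ hquad hf hb N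
  have e : ∫ x, B.indicator (fun _ => (1 : ℝ)) x ∂gibbs V = (gibbs V).real B :=
    integral_indicator_one hB
  rw [e] at h1
  exact h1.trans herr

end Vale.Agent.P347
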