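import Vale.Agent.P347.DefsC
import Vale.Agent.P347.PotBasic

/-!
# P347, K11: the concrete force of the kinetic chain is Lipschitz and close to `3 id`
-/

open MeasureTheory ProbabilityTheory
open scoped ENNReal NNReal RealInnerProductSpace

namespace Vale.Agent.P347

namespace KForceAux

variable {d : ℕ}

/-- Cauchy-Schwarz for a positive symmetric form -/
theorem cs_form {T : E d →L[ℝ] E d} (hs : ∀ u v, ⟪T u, v⟫ = ⟪T v, u⟫)
    (h0 : ∀ v, 0 ≤ ⟪T v, v⟫) (u v : E d) : ⟪T u, v⟫ ^ 2 ≤ ⟪T u, u⟫ * ⟪T v, v⟫ := by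
  have hq : ∀ t : ℝ, 0 ≤ ⟪T v, v⟫ * (t * t) + (2 * ⟪T u, v⟫) * t + ⟪T u, u⟫ := by
    intro t
    have := h0 (u + t • v)
    simp only [map_add, map_smul, inner_add_left, inner_add_right, inner_smul_left,
      inner_smul_right] at this
    rw [hs v u] at this
    simp only [conj_trivial] at this
    linarith
  have hd := discrim_le_zero hq
  unfold discrim at hd
  nlinarith

/-- a symmetric operator between `0` and `1` is within `1/2` of `1/2` -/
theorem half_of_form {T : E d →L[ℝ] E d} (hs : ∀ u v, ⟪T u, v⟫ = ⟪T v, u⟫)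
    (h0 : ∀ v, 0 ≤ ⟪T v, v⟫) (h1 : ∀ v, ⟪T v, v⟫ ≤ ‖v‖ ^ 2) (u : E d) :
    ‖T u - (1 / 2 : ℝ) • u‖ ≤ 1 / 2 * ‖u‖ := by
  have h2 := cs_form hs h0 u (T u)
  rw [real_inner_self_eq_norm_sq] at h2
  have h3 := h1 (T u)
  have h4 := h0 u
  have h5 : ‖T u‖ ^ 2 ≤ ⟪T u, u⟫ := by
    rcases (norm_nonneg (T u)).eq_or_lt with h | h
    · rw [← h]
      simpa using h4
    · have h6 : ‖T u‖ ^ 2 * ‖T u‖ ^ 2 ≤ ⟪T u, u⟫ * ‖T u‖ ^ 2 := by
        calc ‖T u‖ ^ 2 * ‖T u‖ ^ 2 = (‖T u‖ ^ 2) ^ 2 := by ring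
          _ ≤ ⟪T u, u⟫ * ⟪T (T u), T u⟫ := h2
          _ ≤ ⟪T u, u⟫ * ‖T u‖ ^ 2 := mul_le_mul_of_nonneg_left h3 h4
      exact le_of_mul_le_mul_right h6 (by positivity)
  have h7 : ‖T u - (1 / 2 : ℝ) • u‖ ^ 2 ≤ (1 / 2 * ‖u‖) ^ 2 := by
    rw [norm_sub_sq_real, inner_smul_right, norm_smul]
    norm_num
    nlinarith
  exact abs_le_of_sq_le_sq h7 (by positivity) |> fun h => by
    rwa [abs_of_nonneg (norm_nonneg _)] at h

/-- `w - 3/2` is `1/2`-Lipschitz -/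
theorem half_lip {W : E d → ℝ} (hW : Pot d 1 2 W) (x y : E d) :
    ‖gradient W x - gradient W y - (3 / 2 : ℝ) • (x - y)‖ ≤ 1 / 2 * ‖x - y‖ := by
  have h := PotAux.lip_of_bound (g := fun x => gradient W x - (3 / 2 : ℝ) • x)
    (g' := fun x => fderiv ℝ (gradient W) x - (3 / 2 : ℝ) • ContinuousLinearMap.id ℝ (E d))
    (B := 1 / 2)
    (fun x => (hW.grad_hasFDerivAt x).sub ((hasFDerivAt_id x).const_smul (3 / 2 : ℝ)))
    (fun x v => ?_) x y
  · have e : gradient W x - gradient W y - (3 / 2 : ℝ) • (x - y) =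
        (gradient W x - (3 / 2 : ℝ) • x) - (gradient W y - (3 / 2 : ℝ) • y) := by
      rw [smul_sub]
      abel
    rw [e]
    exact h
  · have hT := half_of_form (T := fderiv ℝ (gradient W) x - ContinuousLinearMap.id ℝ (E d))
      (fun u v => ?_) (fun v => ?_) (fun v => ?_) v
    · have e : (fderiv ℝ (gradient W) x - (3 / 2 : ℝ) • ContinuousLinearMap.id ℝ (E d)) v =
          (fderiv ℝ (gradient W) x - ContinuousLinearMap.id ℝ (E d)) v - (1 / 2 : ℝ) • v := by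
        simp only [sub_apply, ContinuousLinearMap.id_apply, smul_apply]
        module
      rw [e]
      exact hT
    · simp only [sub_apply, ContinuousLinearMap.id_apply, inner_sub_left]
      rw [hW.inner_fderiv_symm x u v, real_inner_comm v u]
    · simp only [sub_apply, ContinuousLinearMap.id_apply, inner_sub_left]
      rw [hW.inner_fderiv_grad, real_inner_self_eq_norm_sq]
      linarith [hW.lower x v]
    · simp only [sub_apply, ContinuousLinearMap.id_apply, inner_sub_left]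
      rw [hW.inner_fderiv_grad, real_inner_self_eq_norm_sq]
      linarith [hW.upper x v]

/-- one node -/
theorem node {w : E d → E d} (hw : ∀ x y, ‖w x - w y - (3 / 2 : ℝ) • (x - y)‖ ≤ 1 / 2 * ‖x - y‖)
    {a b D : E d} {M : ℝ} (h : ‖(a - b) - D‖ ≤ M) :
    ‖w a - w b - (3 / 2 : ℝ) • D‖ ≤ 1 / 2 * ‖D‖ + 2 * M := by
  have e : w a - w b - (3 / 2 : ℝ) • D =
      (w a - w b - (3 / 2 : ℝ) • (a - b)) + (3 / 2 : ℝ) • ((a - b) - D) := by module
  have h1 := hw a b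
  have h2 : ‖a - b‖ ≤ ‖D‖ + M := by
    have e2 : a - b = D + ((a - b) - D) := by abel
    rw [e2]
    exact (norm_add_le _ _).trans (by linarith)
  rw [e]
  refine (norm_add_le _ _).trans ?_
  rw [norm_smul]
  norm_num
  linarith

/-- weighted averages of nodes -/
theorem nodes {n : ℕ} {w : E d → E d}
    (hw : ∀ x y, ‖w x - w y - (3 / 2 : ℝ) • (x - y)‖ ≤ 1 / 2 * ‖x - y‖)
    {p : Fin n → ℝ} (hp : ∀ i, 0 ≤ p i) (hs : ∑ i, p i = 1) {a b : Fin n → E d} {D : E d} {M : ℝ}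
    (h : ∀ i, ‖(a i - b i) - D‖ ≤ M) :
    ‖∑ i, p i • w (a i) - ∑ i, p i • w (b i) - (3 / 2 : ℝ) • D‖ ≤ 1 / 2 * ‖D‖ + 2 * M := by
  have e : ∑ i, p i • w (a i) - ∑ i, p i • w (b i) - (3 / 2 : ℝ) • D =
      ∑ i, p i • (w (a i) - w (b i) - (3 / 2 : ℝ) • D) := by
    simp only [smul_sub, Finset.sum_sub_distrib]
    rw [← Finset.sum_smul, hs, one_smul]
  rw [e]
  calc ‖∑ i, p i • (w (a i) - w (b i) - (3 / 2 : ℝ) • D)‖
      ≤ ∑ i, ‖p i • (w (a i) - w (b i) - (3 / 2 : ℝ) • D)‖ := norm_sum_le _ _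
    _ ≤ ∑ i, p i * (1 / 2 * ‖D‖ + 2 * M) := by
        refine Finset.sum_le_sum fun i _ => ?_
        rw [norm_smul, Real.norm_of_nonneg (hp i)]
        exact mul_le_mul_of_nonneg_left (node hw (h i)) (hp i)
    _ = 1 / 2 * ‖D‖ + 2 * M := by rw [← Finset.sum_mul, hs, one_mul]

theorem lip_two {w : E d → E d}
    (hw : ∀ x y, ‖w x - w y - (3 / 2 : ℝ) • (x - y)‖ ≤ 1 / 2 * ‖x - y‖) (x y : E d) :
    ‖w x - w y‖ ≤ 2 * ‖x - y‖ := by
  have e : w x - w y = (w x - w y - (3 / 2 : ℝ) • (x - y)) + (3 / 2 : ℝ) • (x - y) := by abel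
  rw [e]
  refine (norm_add_le _ _).trans ?_
  rw [norm_smul]
  norm_num
  linarith [hw x y]

theorem frc_mono' {n : ℕ} {w : E d → E d}
    (hw : ∀ x y, ‖w x - w y - (3 / 2 : ℝ) • (x - y)‖ ≤ 1 / 2 * ‖x - y‖)
    {p ρ : Fin n → ℝ} {ε : ℝ} (hp : ∀ i, 0 ≤ p i) (hs : ∑ i, p i = 1) (h0 : ∀ i, 0 ≤ ρ i)
    (h1 : ∀ i, ρ i ≤ 1) (hε0 : 0 ≤ ε) (hε1 : ε ≤ 1 / 16) (s s' : E2 d) (ω : Fin n ⊕ Fin n → E d) :
    ‖frc w p ρ ε s ω - frc w p ρ ε s' ω - (3 : ℝ) • (s.1 - s'.1)‖ ≤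
      (1 + 20 * ε) * ‖s.1 - s'.1‖ + 7 * ‖s.2 - s'.2‖ := by
  obtain ⟨x, z⟩ := s
  obtain ⟨x', z'⟩ := s'
  simp only
  set dx := x - x' with hdx
  set dz := z - z' with hdz
  set X := ‖dx‖ with hX
  set Z := ‖dz‖ with hZ
  have hX0 : 0 ≤ X := norm_nonneg _
  have hZ0 : 0 ≤ Z := norm_nonneg _
  -- the centre
  set dw := w (x + z) - w (x' + z') with hdw
  have hdwn : ‖dw‖ ≤ 2 * (X + Z) := by
    refine (lip_two hw _ _).trans ?_
    have e : x + z - (x' + z') = dx + dz := by rw [hdx, hdz]; abel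
    rw [e]
    exact mul_le_mul_of_nonneg_left (norm_add_le _ _) (by norm_num)
  have hc : cen w ε (x + z) - cen w ε (x' + z') = dx + dz - ε • dw := by
    simp only [cen]
    rw [hdx, hdz, hdw, smul_sub]
    abel
  -- first cloud
  set V := cloud1 w p ρ ε (x, z) (fun i => ω (Sum.inl i)) with hV
  set V' := cloud1 w p ρ ε (x', z') (fun i => ω (Sum.inl i)) with hV'
  have hM1 : ‖dz - ε • dw‖ ≤ Z + 2 * ε * (X + Z) := by
    refine (norm_sub_le _ _).trans ?_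
    rw [norm_smul, Real.norm_of_nonneg hε0]
    have := mul_le_mul_of_nonneg_left hdwn hε0
    linarith
  have hV1 : ‖V - V' - (3 / 2 : ℝ) • dx‖ ≤ 1 / 2 * X + 2 * (Z + 2 * ε * (X + Z)) := by
    rw [hV, hV']
    simp only [cloud1, lev1]
    refine nodes hw hp hs fun i => ?_
    set g := Real.sqrt (1 - ρ i ^ 2) • ω (Sum.inl i) with hg
    have e : cen w ε (x + z) + (ρ i • (x - cen w ε (x + z)) + g) -
        (cen w ε (x' + z') + (ρ i • (x' - cen w ε (x' + z')) + g)) - dx =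
        (1 - ρ i) • (dz - ε • dw) := by
      have e1 : cen w ε (x + z) = cen w ε (x' + z') + (dx + dz - ε • dw) := by
        rw [← hc]; abel
      rw [e1, hdx]
      module
    rw [e, norm_smul, Real.norm_of_nonneg (by linarith [h1 i])]
    calc (1 - ρ i) * ‖dz - ε • dw‖ ≤ 1 * ‖dz - ε • dw‖ :=
          mul_le_mul_of_nonneg_right (by linarith [h0 i]) (norm_nonneg _)
      _ ≤ _ := by rw [one_mul]; exact hM1
  have hVn : ‖V - V'‖ ≤ 2 * X + 2 * (Z + 2 * ε * (X + Z)) := by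
    have e : V - V' = (V - V' - (3 / 2 : ℝ) • dx) + (3 / 2 : ℝ) • dx := by abel
    rw [e]
    refine (norm_add_le _ _).trans ?_
    rw [norm_smul]
    norm_num
    linarith
  -- second cloud
  have hU1 : ‖cloud2 w p ρ ε (x, z) (fun i => ω (Sum.inl i)) (fun i => ω (Sum.inr i)) -
      cloud2 w p ρ ε (x', z') (fun i => ω (Sum.inl i)) (fun i => ω (Sum.inr i)) -
      (3 / 2 : ℝ) • dx‖ ≤ 1 / 2 * X +
        2 * ((Z + 2 * ε * (X + Z)) + (Z + ε * (2 * X + 2 * (Z + 2 * ε * (X + Z))))) := by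
    simp only [cloud2, lev1, seed]
    refine nodes hw hp hs fun i => ?_
    set g := Real.sqrt (1 - ρ i ^ 2) • ω (Sum.inr i) with hg
    rw [← hV, ← hV']
    have e : cen w ε (x + z) + (ρ i • (z - ε • V) + g) -
        (cen w ε (x' + z') + (ρ i • (z' - ε • V') + g)) - dx =
        (dz - ε • dw) + ρ i • (dz - ε • (V - V')) := by
      have e1 : cen w ε (x + z) = cen w ε (x' + z') + (dx + dz - ε • dw) := by
        rw [← hc]; abel
      rw [e1, hdz]
      module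
    rw [e]
    refine (norm_add_le _ _).trans (add_le_add hM1 ?_)
    rw [norm_smul, Real.norm_of_nonneg (h0 i)]
    calc ρ i * ‖dz - ε • (V - V')‖ ≤ 1 * ‖dz - ε • (V - V')‖ :=
          mul_le_mul_of_nonneg_right (h1 i) (norm_nonneg _)
      _ ≤ Z + ε * (2 * X + 2 * (Z + 2 * ε * (X + Z))) := by
          rw [one_mul]
          refine (norm_sub_le _ _).trans ?_
          rw [norm_smul, Real.norm_of_nonneg hε0]
          have := mul_le_mul_of_nonneg_left hVn hε0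
          linarith
  have e : frc w p ρ ε (x, z) ω - frc w p ρ ε (x', z') ω - (3 : ℝ) • dx =
      (V - V' - (3 / 2 : ℝ) • dx) +
      (cloud2 w p ρ ε (x, z) (fun i => ω (Sum.inl i)) (fun i => ω (Sum.inr i)) -
        cloud2 w p ρ ε (x', z') (fun i => ω (Sum.inl i)) (fun i => ω (Sum.inr i)) -
        (3 / 2 : ℝ) • dx) := by
    simp only [frc]
    rw [← hV, ← hV']
    module
  rw [e]
  refine (norm_add_le _ _).trans ((add_le_add hV1 hU1).trans ?_)
  have hεX : ε * ε * X ≤ 1 / 16 * ε * X := by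
    have := mul_le_mul_of_nonneg_left hε1 hε0
    nlinarith
  have hεZ : ε * ε * Z ≤ 1 / 16 * ε * Z := by
    have := mul_le_mul_of_nonneg_left hε1 hε0
    nlinarith
  have hεZ2 : ε * Z ≤ 1 / 16 * Z := mul_le_mul_of_nonneg_right hε1 hZ0
  have hεX2 : 0 ≤ ε * X := mul_nonneg hε0 hX0
  have hεZ3 : 0 ≤ ε * Z := mul_nonneg hε0 hZ0
  nlinarith

theorem contDiff_lev {n : ℕ} {A : Type*} [NormedAddCommGroup A] [NormedSpace ℝ A]
    {w : E d → E d} (hw : ContDiff ℝ 1 w) (p : Fin n → ℝ) {a : Fin n → A → E d}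
    (ha : ∀ i, ContDiff ℝ 1 (a i)) : ContDiff ℝ 1 (fun q => ∑ i, p i • w (a i q)) :=
  ContDiff.sum fun i _ => (hw.comp (ha i)).const_smul (p i)

end KForceAux

open KForceAux

variable {d n : ℕ} {W : E d → ℝ} {p ρ : Fin n → ℝ} {ε : ℝ}

theorem frc_mono (hW : Pot d 1 2 W) (hp : ∀ i, 0 ≤ p i) (hs : ∑ i, p i = 1) (h0 : ∀ i, 0 ≤ ρ i)
    (h1 : ∀ i, ρ i ≤ 1) (hε0 : 0 ≤ ε) (hε1 : ε ≤ 1 / 16) (s s' : E2 d) (ω : Fin n ⊕ Fin n → E d) :
    ‖frc (gradient W) p ρ ε s ω - frc (gradient W) p ρ ε s' ω - (3 : ℝ) • (s.1 - s'.1)‖ ≤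
      (1 + 20 * ε) * ‖s.1 - s'.1‖ + 8 * ‖s.2 - s'.2‖ := by
  refine (frc_mono' (half_lip hW) hp hs h0 h1 hε0 hε1 s s' ω).trans ?_
  have := norm_nonneg (s.2 - s'.2)
  linarith

theorem frc_force (hW : Pot d 1 2 W) (hp : ∀ i, 0 ≤ p i) (hs : ∑ i, p i = 1) (h0 : ∀ i, 0 ≤ ρ i)
    (h1 : ∀ i, ρ i ≤ 1) (hε0 : 0 ≤ ε) (hε1 : ε ≤ 1 / 16) :
    Force (Fin n ⊕ Fin n) (frc (gradient W) p ρ ε) where
  smooth := by
    have hw := hW.grad_contDiff
    have hx : ContDiff ℝ 1 (fun q : E2 d × (Fin n ⊕ Fin n → E d) => q.1.1) :=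
      contDiff_fst.fst
    have hz : ContDiff ℝ 1 (fun q : E2 d × (Fin n ⊕ Fin n → E d) => q.1.2) :=
      contDiff_fst.snd
    have hω : ∀ j, ContDiff ℝ 1 (fun q : E2 d × (Fin n ⊕ Fin n → E d) => q.2 j) :=
      fun j => (contDiff_apply ℝ (E d) j).comp contDiff_snd
    have hcen : ContDiff ℝ 1 (fun q : E2 d × (Fin n ⊕ Fin n → E d) =>
        cen (gradient W) ε (q.1.1 + q.1.2)) := by
      simp only [cen]
      exact (hx.add hz).sub ((hw.comp (hx.add hz)).const_smul ε)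
    have h1' : ContDiff ℝ 1 (fun q : E2 d × (Fin n ⊕ Fin n → E d) =>
        cloud1 (gradient W) p ρ ε q.1 (fun i => q.2 (Sum.inl i))) := by
      simp only [cloud1, lev1]
      refine contDiff_lev hw p fun i => ?_
      exact hcen.add (((hx.sub hcen).const_smul (ρ i)).add ((hω (Sum.inl i)).const_smul _))
    have h2' : ContDiff ℝ 1 (fun q : E2 d × (Fin n ⊕ Fin n → E d) =>
        cloud2 (gradient W) p ρ ε q.1 (fun i => q.2 (Sum.inl i)) (fun i => q.2 (Sum.inr i))) := by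
      simp only [cloud2, lev1, seed]
      refine contDiff_lev hw p fun i => ?_
      exact hcen.add (((hz.sub (h1'.const_smul ε)).const_smul (ρ i)).add
        ((hω (Sum.inr i)).const_smul _))
    exact h1'.add h2'
  lip := fun s s' ω => by
    have h := frc_mono hW hp hs h0 h1 hε0 hε1 s s' ω
    have e : frc (gradient W) p ρ ε s ω - frc (gradient W) p ρ ε s' ω =
        (frc (gradient W) p ρ ε s ω - frc (gradient W) p ρ ε s' ω - (3 : ℝ) • (s.1 - s'.1)) +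
        (3 : ℝ) • (s.1 - s'.1) := by abel
    rw [e]
    refine (norm_add_le _ _).trans ?_
    rw [norm_smul]
    have h3 := norm_nonneg (s.1 - s'.1)
    have h4 := norm_nonneg (s.2 - s'.2)
    have h5 : ε * ‖s.1 - s'.1‖ ≤ 1 / 16 * ‖s.1 - s'.1‖ := mul_le_mul_of_nonneg_right hε1 h3
    norm_num
    nlinarith

end Vale.Agent.P347
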