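import Vale.Agent.P347.DefsC
import Vale.Agent.P347.Compare

/-!
# P347, C'3: form inequalities (pure linear algebra)
-/

open MeasureTheory ProbabilityTheory
open scoped ENNReal NNReal RealInnerProductSpace

namespace Vale.Agent.P347

section form
variable {d : ℕ} {G : Type*} [NormedAddCommGroup G] [InnerProductSpace ℝ G]

/-- right multiplication: `|T A|_HS ≤ |A| |T|_HS` -/
theorem hs2_comp_right {T : E d →L[ℝ] G} {A : E d →L[ℝ] E d} {c : ℝ} (hA : ∀ a, ‖A a‖ ≤ c * ‖a‖) :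
    hs2 (T.comp A) ≤ c ^ 2 * hs2 T := by
  rcases Nat.eq_zero_or_pos d with hd | hd
  · subst hd
    simp [hs2]
  have hc : 0 ≤ c := by
    have h1 := hA (eb ⟨0, hd⟩)
    have h2 : ‖(eb ⟨0, hd⟩ : E d)‖ = 1 := by simp [eb]
    rw [h2, mul_one] at h1
    exact (norm_nonneg _).trans h1
  have hAn : ‖A‖ ≤ c := A.opNorm_le_bound hc hA
  set S : Submodule ℝ G := LinearMap.range T.toLinearMap with hS
  let b := (stdOrthonormalBasis ℝ S).repr
  let T1 : E d →L[ℝ] S := LinearMap.toContinuousLinearMap (LinearMap.rangeRestrict T.toLinearMap)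
  let T2 : E d →L[ℝ] E (Module.finrank ℝ S) := (b.toContinuousLinearEquiv : _ →L[ℝ] _).comp T1
  have hn : ∀ x, ‖T2 x‖ = ‖T x‖ := by
    intro x
    change ‖b (T1 x)‖ = ‖T x‖
    rw [LinearIsometryEquiv.norm_map]
    rfl
  have h1 : hs2 (T.comp A) = hs2 (T2.comp A) := by
    unfold hs2
    refine Finset.sum_congr rfl fun i _ => ?_
    change ‖T (A (eb i))‖ ^ 2 = ‖T2 (A (eb i))‖ ^ 2
    rw [hn]
  have h2 : hs2 T = hs2 T2 := by
    unfold hs2
    refine Finset.sum_congr rfl fun i _ => ?_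
    rw [hn]
  rw [h1, h2]
  refine (CmpAux.hs2_comp_le T2 A).trans ?_
  exact mul_le_mul_of_nonneg_right (pow_le_pow_left₀ (norm_nonneg _) hAn 2) (GPAux.hs2_nonneg _)

namespace KFormAux

/-- the Hilbert-Schmidt norm -/
noncomputable def N (T : E d →L[ℝ] G) : ℝ :=
  ‖(WithLp.toLp 2 (fun i => T (eb i)) : PiLp 2 (fun _ : Fin d => G))‖

theorem N_nonneg (T : E d →L[ℝ] G) : 0 ≤ N T := norm_nonneg _

theorem N_sq (T : E d →L[ℝ] G) : N T ^ 2 = hs2 T := by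
  unfold N hs2
  rw [PiLp.norm_sq_eq_of_L2]

theorem N_add (T S : E d →L[ℝ] G) : N (T + S) ≤ N T + N S := by
  unfold N
  have : (WithLp.toLp 2 (fun i => (T + S) (eb i)) : PiLp 2 (fun _ : Fin d => G)) =
      WithLp.toLp 2 (fun i => T (eb i)) + WithLp.toLp 2 (fun i => S (eb i)) := rfl
  rw [this]
  exact norm_add_le _ _

theorem N_smul (c : ℝ) (T : E d →L[ℝ] G) : N (c • T) = |c| * N T := by
  unfold N
  have : (WithLp.toLp 2 (fun i => (c • T) (eb i)) : PiLp 2 (fun _ : Fin d => G)) =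
      c • WithLp.toLp 2 (fun i => T (eb i)) := rfl
  rw [this, norm_smul, Real.norm_eq_abs]

theorem N_comp {T : E d →L[ℝ] G} {A : E d →L[ℝ] E d} {c : ℝ} (hc : 0 ≤ c)
    (hA : ∀ a, ‖A a‖ ≤ c * ‖a‖) : N (T.comp A) ≤ c * N T := by
  have h := hs2_comp_right (T := T) hA
  rw [← N_sq, ← N_sq, ← mul_pow] at h
  exact le_of_sq_le_sq h (mul_nonneg hc (N_nonneg _))

/-- the `x`-part of a map on phase space -/
noncomputable def px (T : E2 d →L[ℝ] G) : E d →L[ℝ] G :=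
  T.comp (ContinuousLinearMap.inl ℝ (E d) (E d))

/-- the `z`-part of a map on phase space -/
noncomputable def pz (T : E2 d →L[ℝ] G) : E d →L[ℝ] G :=
  T.comp (ContinuousLinearMap.inr ℝ (E d) (E d))

theorem px_apply (T : E2 d →L[ℝ] G) (a : E d) : px T a = T (a, 0) := rfl

theorem pz_apply (T : E2 d →L[ℝ] G) (a : E d) : pz T a = T (0, a) := rfl

theorem split (T : E2 d →L[ℝ] G) (a b : E d) : T (a, b) = px T a + pz T b := by
  rw [px_apply, pz_apply, ← map_add]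
  simp

theorem hx_eq (T : E2 d →L[ℝ] G) : hx T = N (px T) ^ 2 := by
  rw [N_sq]; rfl

theorem hz_eq (T : E2 d →L[ℝ] G) : hz T = N (pz T) ^ 2 := by
  rw [N_sq]; rfl

theorem hd_eq (a : ℝ) (T : E2 d →L[ℝ] G) : hd a T = N (pz T - a • px T) ^ 2 := by
  rw [N_sq]
  unfold hd hs2
  refine Finset.sum_congr rfl fun i _ => ?_
  rw [split]
  congr 2
  simp only [sub_apply, smul_apply, map_neg, map_smul]
  abel

/-- the `x`-part after the kinetic map -/
theorem px_kjac (T : E2 d →L[ℝ] G) (ε : ℝ) (L : E2 d →L[ℝ] E d) :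
    px (T.comp (kjac ε L)) = px T + (-ε) • ((px T + pz T).comp (px L)) := by
  ext a
  rw [px_apply]
  change T (kjac ε L (a, 0)) = _
  have : kjac ε L (a, 0) = (a - ε • L (a, 0), - (ε • L (a, 0))) := by
    simp [kjac]
  rw [this, split]
  simp only [add_apply, smul_apply, map_neg, map_smul,
    map_sub, ContinuousLinearMap.comp_apply, px_apply L]
  module

/-- the `z`-part after the kinetic map -/
theorem pz_kjac (T : E2 d →L[ℝ] G) (ε : ℝ) (L : E2 d →L[ℝ] E d) :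
    pz (T.comp (kjac ε L)) = (2 : ℝ) • px T + pz T + (-ε) • ((px T + pz T).comp (pz L)) := by
  ext a
  rw [pz_apply]
  change T (kjac ε L (0, a)) = _
  have : kjac ε L (0, a) = ((2 : ℝ) • a - ε • L (0, a), a - ε • L (0, a)) := by
    simp [kjac]
  rw [this, split]
  simp only [add_apply, smul_apply, map_smul,
    map_sub, ContinuousLinearMap.comp_apply, pz_apply L]
  module

variable {T : E2 d →L[ℝ] G} {L : E2 d →L[ℝ] E d}

theorem N_px_kjac (hLx : ∀ a, ‖L (a, 0)‖ ≤ 8 * ‖a‖) {ε : ℝ} (hε : 0 ≤ ε) :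
    N (px (T.comp (kjac ε L))) ≤ N (px T) + 8 * ε * N (px T + pz T) := by
  rw [px_kjac]
  refine (N_add _ _).trans ?_
  rw [N_smul, abs_neg, abs_of_nonneg hε]
  have := N_comp (T := px T + pz T) (A := px L) (c := 8) (by norm_num) hLx
  nlinarith

theorem N_pd_kjac (hLx : ∀ a, ‖L (a, 0)‖ ≤ 8 * ‖a‖) (hLz : ∀ a, ‖L (0, a)‖ ≤ 8 * ‖a‖) {ε : ℝ}
    (hε : 0 ≤ ε) {n : ℝ} (hn : 0 ≤ n + 2) :
    N (pz (T.comp (kjac ε L)) - (n + 2) • px (T.comp (kjac ε L))) ≤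
      N (pz T - n • px T) + 8 * (n + 3) * ε * N (px T + pz T) := by
  have e : pz (T.comp (kjac ε L)) - (n + 2) • px (T.comp (kjac ε L)) =
      (pz T - n • px T) + ((-ε) • ((px T + pz T).comp (pz L)) +
        ((n + 2) * ε) • ((px T + pz T).comp (px L))) := by
    rw [px_kjac, pz_kjac]
    module
  rw [e]
  refine (N_add _ _).trans ?_
  have h1 := N_comp (T := px T + pz T) (A := px L) (c := 8) (by norm_num) hLx
  have h2 := N_comp (T := px T + pz T) (A := pz L) (c := 8) (by norm_num) hLz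
  have h3 := N_add ((-ε) • ((px T + pz T).comp (pz L))) (((n + 2) * ε) • ((px T + pz T).comp (px L)))
  rw [N_smul, N_smul, abs_neg, abs_of_nonneg hε, abs_of_nonneg (mul_nonneg hn hε)] at h3
  have h4 : ε * N ((px T + pz T).comp (pz L)) ≤ ε * (8 * N (px T + pz T)) :=
    mul_le_mul_of_nonneg_left h2 hε
  have h5 : (n + 2) * ε * N ((px T + pz T).comp (px L)) ≤ (n + 2) * ε * (8 * N (px T + pz T)) :=
    mul_le_mul_of_nonneg_left h1 (mul_nonneg hn hε)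
  linarith

theorem N_sum (T : E2 d →L[ℝ] G) {n : ℝ} (hn : 0 ≤ n + 1) :
    N (px T + pz T) ≤ (n + 1) * N (px T) + N (pz T - n • px T) := by
  have e : px T + pz T = (n + 1) • px T + (pz T - n • px T) := by module
  rw [e]
  refine (N_add _ _).trans ?_
  rw [N_smul, abs_of_nonneg hn]

/-- real inequality behind `frm_comp` -/
theorem real_frm {X D S ε n : ℝ} (gX : 0 ≤ X) (gD : 0 ≤ D) (gS : 0 ≤ S) (hε : 0 ≤ ε) (hn : 1 ≤ n)
    (h3 : S ≤ (n + 1) * X + D) :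
    n ^ 3 / 8 * (X + 8 * ε * S) ^ 2 + 7 * n / 8 * (D + 32 * n * ε * S) ^ 2 ≤
      (1 + 250 * ε * n) ^ 2 * (n ^ 3 / 8 * X ^ 2 + 7 * n / 8 * D ^ 2) := by
  have hn0 : 0 ≤ n := by linarith
  have hS : S ≤ 2 * (n * X) + D := by
    have : (n + 1) * X ≤ 2 * (n * X) := by
      have := mul_le_mul_of_nonneg_right (by linarith : n + 1 ≤ 2 * n) gX
      linarith
    linarith
  have e1 : n ^ 3 / 8 * (X + 8 * ε * S) ^ 2 + 7 * n / 8 * (D + 32 * n * ε * S) ^ 2 =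
      (n ^ 3 / 8 * X ^ 2 + 7 * n / 8 * D ^ 2) + ε * n ^ 2 * ((2 * (n * X) + 56 * D) * S) +
        ε ^ 2 * n ^ 3 * (904 * S ^ 2) := by ring
  have e2 : (1 + 250 * ε * n) ^ 2 * (n ^ 3 / 8 * X ^ 2 + 7 * n / 8 * D ^ 2) =
      (n ^ 3 / 8 * X ^ 2 + 7 * n / 8 * D ^ 2) +
      ε * n ^ 2 * (500 / 8 * ((n * X) ^ 2 + 7 * D ^ 2)) +
        ε ^ 2 * n ^ 3 * (62500 / 8 * ((n * X) ^ 2 + 7 * D ^ 2)) := by ring
  rw [e1, e2]
  have hx0 : 0 ≤ n * X := mul_nonneg hn0 gX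
  generalize n * X = x at *
  have m1 : (2 * x + 56 * D) * S ≤ 500 / 8 * (x ^ 2 + 7 * D ^ 2) := by
    have : (2 * x + 56 * D) * S ≤ (2 * x + 56 * D) * (2 * x + D) :=
      mul_le_mul_of_nonneg_left hS (by positivity)
    nlinarith [sq_nonneg (x - D)]
  have m2 : 904 * S ^ 2 ≤ 62500 / 8 * (x ^ 2 + 7 * D ^ 2) := by
    have : S ^ 2 ≤ (2 * x + D) ^ 2 := pow_le_pow_left₀ gS hS 2
    nlinarith [sq_nonneg (x - D)]
  have m3 := mul_le_mul_of_nonneg_left m1 (mul_nonneg hε (sq_nonneg n))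
  have m4 := mul_le_mul_of_nonneg_left m2 (by positivity : 0 ≤ ε ^ 2 * n ^ 3)
  linarith

/-- real inequality behind `base_comp` -/
theorem real_base {X Z h : ℝ} (gX : 0 ≤ X) (gZ : 0 ≤ Z) (h0 : 0 < h) (h1 : h ≤ 1 / 10000) :
    (h ^ 2) ^ 2 / 6 * (X + 8 * h ^ 2 * (X + Z)) ^ 2 +
      8 * h / 6 * (Z + 24 * h ^ 2 * (X + Z)) ^ 2 ≤ (h ^ 2) ^ 2 * X ^ 2 + 8 * h * Z ^ 2 := by
  have hε : 0 ≤ h ^ 2 := sq_nonneg h
  have hh : h ^ 2 ≤ 1 / 10000 := by nlinarith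
  have l1 : (X + 8 * h ^ 2 * (X + Z)) ^ 2 ≤ 3 * X ^ 2 + 3 * Z ^ 2 := by
    have t1 : 8 * h ^ 2 * (X + Z) ≤ (X + Z) / 10 := by
      have := mul_le_mul_of_nonneg_right hh (add_nonneg gX gZ)
      linarith
    have t2 : X + 8 * h ^ 2 * (X + Z) ≤ X + (X + Z) / 10 := by linarith
    have t3 : (X + 8 * h ^ 2 * (X + Z)) ^ 2 ≤ (X + (X + Z) / 10) ^ 2 :=
      pow_le_pow_left₀ (by positivity) t2 2
    nlinarith [sq_nonneg (X - Z)]
  have l2 : (Z + 24 * h ^ 2 * (X + Z)) ^ 2 ≤ 3 * Z ^ 2 + 2000 * (h ^ 4 * X ^ 2) := by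
    have t1 : Z + 24 * h ^ 2 * (X + Z) ≤ 1.1 * Z + 24 * (h ^ 2 * X) := by
      have := mul_le_mul_of_nonneg_right hh gZ
      nlinarith
    have t2 : (Z + 24 * h ^ 2 * (X + Z)) ^ 2 ≤ (1.1 * Z + 24 * (h ^ 2 * X)) ^ 2 :=
      pow_le_pow_left₀ (by positivity) t1 2
    have t3 : h ^ 4 * X ^ 2 = (h ^ 2 * X) ^ 2 := by ring
    rw [t3]
    generalize h ^ 2 * X = y at *
    nlinarith [sq_nonneg (1.1 * Z - 24 * y), sq_nonneg Z, sq_nonneg y]
  have m1 := mul_le_mul_of_nonneg_left l1 (by positivity : 0 ≤ (h ^ 2) ^ 2 / 6)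
  have m2 := mul_le_mul_of_nonneg_left l2 (by positivity : 0 ≤ 8 * h / 6)
  have n1 : 8 * h / 6 * (2000 * (h ^ 4 * X ^ 2)) ≤ h ^ 4 * X ^ 2 / 3 := by
    have h2 : 8 * h / 6 * 2000 ≤ 1 / 3 := by linarith
    have := mul_le_mul_of_nonneg_right h2 (by positivity : 0 ≤ h ^ 4 * X ^ 2)
    linarith
  have n2 : h ^ 4 * Z ^ 2 ≤ h * Z ^ 2 := by
    have h3 : h ^ 4 ≤ h := by
      have := pow_le_pow_of_le_one h0.le (by linarith : h ≤ 1) (show 1 ≤ 4 by norm_num)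
      simpa using this
    exact mul_le_mul_of_nonneg_right h3 (sq_nonneg Z)
  have p1 : 0 ≤ h * Z ^ 2 := by positivity
  have p2 : 0 ≤ h ^ 4 * X ^ 2 := by positivity
  linarith [m1, m2, n1, n2, p1, p2]

end KFormAux

open KFormAux in
theorem frm_comp {T : E2 d →L[ℝ] G} {L : E2 d →L[ℝ] E d} (hLx : ∀ a, ‖L (a, 0)‖ ≤ 8 * ‖a‖)
    (hLz : ∀ a, ‖L (0, a)‖ ≤ 8 * ‖a‖) {ε n : ℝ} (hε : 0 ≤ ε) (hn : 1 ≤ n) :
    frm' n (T.comp (kjac ε L)) ≤ (1 + 250 * ε * n) ^ 2 * frm n T := by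
  unfold frm' frm
  rw [hx_eq, hx_eq, hd_eq, hd_eq]
  have h1 := N_px_kjac (T := T) hLx hε
  have h2 := N_pd_kjac (T := T) hLx hLz hε (n := n) (by linarith)
  have h3 := N_sum T (n := n) (by linarith)
  have g1 := N_nonneg (px (T.comp (kjac ε L)))
  have g2 := N_nonneg (pz (T.comp (kjac ε L)) - (n + 2) • px (T.comp (kjac ε L)))
  have gX := N_nonneg (px T)
  have gD := N_nonneg (pz T - n • px T)
  have gS := N_nonneg (px T + pz T)
  generalize N (px (T.comp (kjac ε L))) = X' at *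
  generalize N (pz (T.comp (kjac ε L)) - (n + 2) • px (T.comp (kjac ε L))) = D' at *
  generalize N (px T) = X at *
  generalize N (pz T - n • px T) = D at *
  generalize N (px T + pz T) = S at *
  refine le_trans ?_ (real_frm gX gD gS hε hn h3)
  have hn0 : 0 ≤ n := by linarith
  have hS : 0 ≤ ε * S := mul_nonneg hε gS
  have k2 : D' ≤ D + 32 * n * ε * S := by
    refine h2.trans ?_
    have := mul_le_mul_of_nonneg_right (by linarith : 8 * (n + 3) ≤ 32 * n) hS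
    linarith
  exact add_le_add (mul_le_mul_of_nonneg_left (pow_le_pow_left₀ g1 h1 2) (by positivity))
    (mul_le_mul_of_nonneg_left (pow_le_pow_left₀ g2 k2 2) (by positivity))

open KFormAux in
/-- the first step -/
theorem base_comp {T : E2 d →L[ℝ] G} {L : E2 d →L[ℝ] E d} (hLx : ∀ a, ‖L (a, 0)‖ ≤ 8 * ‖a‖)
    (hLz : ∀ a, ‖L (0, a)‖ ≤ 8 * ‖a‖) {h : ℝ} (h0 : 0 < h) (h1 : h ≤ 1 / 10000) :
    (h ^ 2) ^ 2 / 6 * hx (T.comp (kjac (h ^ 2) L)) + 8 * h / 6 * hd 2 (T.comp (kjac (h ^ 2) L)) ≤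
      (h ^ 2) ^ 2 * hx T + 8 * h * hz T := by
  rw [hx_eq, hx_eq, hd_eq, hz_eq]
  have hε : 0 ≤ h ^ 2 := sq_nonneg h
  have i1 := N_px_kjac (T := T) hLx hε
  have i2 := N_pd_kjac (T := T) hLx hLz hε (n := 0) (by norm_num)
  have i3 := N_sum T (n := 0) (by norm_num)
  simp only [zero_add, zero_smul, sub_zero, one_mul] at i2 i3
  have g1 := N_nonneg (px (T.comp (kjac (h ^ 2) L)))
  have g2 := N_nonneg (pz (T.comp (kjac (h ^ 2) L)) - (2 : ℝ) • px (T.comp (kjac (h ^ 2) L)))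
  have gX := N_nonneg (px T)
  have gZ := N_nonneg (pz T)
  have gS := N_nonneg (px T + pz T)
  generalize N (px (T.comp (kjac (h ^ 2) L))) = X' at *
  generalize N (pz (T.comp (kjac (h ^ 2) L)) - (2 : ℝ) • px (T.comp (kjac (h ^ 2) L))) = D' at *
  generalize N (px T) = X at *
  generalize N (pz T) = Z at *
  generalize N (px T + pz T) = S at *
  refine le_trans ?_ (real_base gX gZ h0 h1)
  have j0 := mul_le_mul_of_nonneg_left i3 hε
  have j1 : X' ≤ X + 8 * h ^ 2 * (X + Z) := by linarith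
  have j2 : D' ≤ Z + 24 * h ^ 2 * (X + Z) := by linarith
  exact add_le_add (mul_le_mul_of_nonneg_left (pow_le_pow_left₀ g1 j1 2) (by positivity))
    (mul_le_mul_of_nonneg_left (pow_le_pow_left₀ g2 j2 2) (by positivity))

end form

end Vale.Agent.P347
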