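import Vale.Agent.P347.DefsC
import Vale.Agent.P347.GibbsBasic
import Vale.Agent.P347.IBP
import Vale.Agent.P347.Rot

/-! P347, piece K12: invariance of the noise step in `x`. -/

open MeasureTheory ProbabilityTheory
open scoped ENNReal NNReal RealInnerProductSpace

namespace Vale.Agent.P347

/-- multiples of a potential -/
theorem Pot.smul' {d : ℕ} {α β : ℝ} {W : E d → ℝ} (hW : Pot d α β W) {ε : ℝ} (hε : 0 ≤ ε) :
    Pot d (ε * α) (ε * β) (fun x => ε * W x) := by
  obtain ⟨h1, h2, h3⟩ := PotAux.comb hW ε 0 0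
  have e : (fun x : E d => ε * W x + 0 * ‖x - 0‖ ^ 2) = fun x => ε * W x := by
    funext x; ring
  rw [e] at h1
  simp_rw [show (fun x : E d => ε * W x + 0 * ‖x - 0‖ ^ 2) = fun x => ε * W x from e] at h3
  refine ⟨h1, fun x v => ?_, fun x v => ?_⟩
  · rw [h3 x v]
    have := mul_le_mul_of_nonneg_left (hW.lower x v) hε
    linarith
  · rw [h3 x v]
    have := mul_le_mul_of_nonneg_left (hW.upper x v) hε
    linarith

theorem gradient_smul' {d : ℕ} {α β : ℝ} {W : E d → ℝ} (hW : Pot d α β W) (ε : ℝ) (x : E d) :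
    gradient (fun x => ε * W x) x = ε • gradient W x := by
  have h1 : HasFDerivAt (fun x => ε * W x) (ε • fderiv ℝ W x) x := (hW.hasFDerivAt x).const_mul ε
  refine ext_inner_right ℝ fun v => ?_
  rw [Pot.inner_grad, h1.fderiv, inner_smul_left, Pot.inner_grad]
  rfl

namespace KInvAux

variable {d : ℕ} {W : E d → ℝ} {ε : ℝ}

theorem pot_eps (hW : Pot d 1 2 W) (hε0 : 0 < ε) : Pot d ε (2 * ε) (fun x => ε * W x) := by
  have := hW.smul' hε0.le
  rwa [mul_one, mul_comm ε 2] at this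

theorem grad_le (hW : Pot d 1 2 W) (hW0 : gradient W 0 = 0) (x : E d) :
    ‖gradient W x‖ ≤ 2 * ‖x‖ := by
  have := hW.grad_lip zero_le_one x 0
  rwa [hW0, sub_zero, sub_zero] at this

theorem grad_cont (hW : Pot d 1 2 W) : Continuous (gradient W) := hW.grad_contDiff.continuous

theorem norm_int (hW : Pot d 1 2 W) (hW0 : gradient W 0 = 0) (hε0 : 0 < ε) :
    ∫ x, ‖x‖ ∂gibbs (fun x => ε * W x) ≤ 2 * Real.sqrt (d / ε) := by
  have hP := pot_eps hW hε0
  have := gibbs_prob hP hε0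
  have h2 := gibbs_sq hP hε0
  rw [gradient_smul' hW, hW0, smul_zero, norm_zero, zero_pow two_ne_zero, zero_div, add_zero] at h2
  have i2 : Integrable (fun x : E d => ‖x‖ ^ 2) (gibbs fun x => ε * W x) :=
    gibbs_integrable hP hε0 (by fun_prop) GibbsAux.sq_poly
  have i1 : Integrable (fun x : E d => ‖x‖) (gibbs fun x => ε * W x) := by
    refine gibbs_integrable hP hε0 (by fun_prop) ⟨1, 1, fun x => ?_⟩
    rw [norm_norm, one_mul, pow_one]
    linarith
  have h3 : (∫ x, ‖x‖ ∂gibbs (fun x => ε * W x)) ^ 2 ≤ ∫ x, ‖x‖ ^ 2 ∂gibbs (fun x => ε * W x) := by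
    set m := ∫ x, ‖x‖ ∂gibbs (fun x => ε * W x) with hm
    have h4 : 0 ≤ ∫ x, (‖x‖ - m) ^ 2 ∂gibbs (fun x => ε * W x) :=
      integral_nonneg fun x => sq_nonneg _
    have h5 : ∀ x : E d, (‖x‖ - m) ^ 2 = ‖x‖ ^ 2 - 2 * m * ‖x‖ + m ^ 2 := fun x => by ring
    simp_rw [h5] at h4
    have i3 : Integrable (fun x : E d => ‖x‖ ^ 2 - 2 * m * ‖x‖) (gibbs fun x => ε * W x) :=
      i2.sub (i1.const_mul (2 * m))
    rw [integral_add i3 (integrable_const _),
      integral_sub i2 (i1.const_mul (2 * m)), integral_const_mul] at h4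
    simp only [integral_const, probReal_univ, smul_eq_mul, one_mul] at h4
    rw [← hm] at h4
    nlinarith
  have hd : (0 : ℝ) ≤ d / ε := by positivity
  rw [show 2 * Real.sqrt (d / ε) = Real.sqrt (4 * (d / ε)) by
    rw [Real.sqrt_mul (by norm_num), show (4 : ℝ) = 2 ^ 2 by norm_num, Real.sqrt_sq (by norm_num)]]
  exact Real.le_sqrt_of_sq_le (h3.trans h2)

end KInvAux

open KInvAux in
/-- second moment of the force under `π` -/
theorem pi_w_sq {d : ℕ} {W : E d → ℝ} {ε : ℝ} (hW : Pot d 1 2 W) (hW0 : gradient W 0 = 0)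
    (hε0 : 0 < ε) (_hε1 : ε ≤ 1) :
    ∫ x, ‖gradient W x‖ ∂gibbs (fun x => ε * W x) ≤ 4 * Real.sqrt (d / ε) := by
  have hP := pot_eps hW hε0
  have h1 := norm_int hW hW0 hε0
  have i1 : Integrable (fun x : E d => ‖x‖) (gibbs fun x => ε * W x) := by
    refine gibbs_integrable hP hε0 (by fun_prop) ⟨1, 1, fun x => ?_⟩
    rw [norm_norm, one_mul, pow_one]
    linarith
  calc ∫ x, ‖gradient W x‖ ∂gibbs (fun x => ε * W x)
      ≤ ∫ x, 2 * ‖x‖ ∂gibbs (fun x => ε * W x) :=
        integral_mono_of_nonneg (Filter.Eventually.of_forall fun x => norm_nonneg _)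
          (i1.const_mul 2) (Filter.Eventually.of_forall fun x => grad_le hW hW0 x)
    _ ≤ _ := by rw [integral_const_mul]; linarith

namespace KInvAux

variable {d : ℕ} {W : E d → ℝ} {ε : ℝ}

/-- `exp(-ε W)` -/
noncomputable def ew (W : E d → ℝ) (ε : ℝ) (x : E d) : ℝ := Real.exp (-(ε * W x))

theorem ew_pos (W : E d → ℝ) (ε : ℝ) (x : E d) : 0 < ew W ε x := Real.exp_pos _

theorem ew_contDiff (hW : Pot d 1 2 W) : ContDiff ℝ 1 (ew W ε) := by
  have : ContDiff ℝ 1 W := hW.smooth.of_le (by norm_num)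
  unfold ew
  fun_prop

theorem ew_bdd (hW : Pot d 1 2 W) (hW0 : gradient W 0 = 0) (hε0 : 0 < ε) (x : E d) :
    ew W ε x ≤ Real.exp (-(ε * W 0)) := by
  refine Real.exp_le_exp.2 (neg_le_neg ?_)
  have := (hW.taylor x 0).1
  rw [hW0, inner_zero_left] at this
  have h2 : W 0 ≤ W x := by
    have := sq_nonneg ‖x - 0‖
    linarith
  exact mul_le_mul_of_nonneg_left h2 hε0.le

theorem ew_fderiv (hW : Pot d 1 2 W) (x v : E d) :
    fderiv ℝ (ew W ε) x v = -(ε * ⟪gradient W x, v⟫ * ew W ε x) := by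
  have h1 : HasFDerivAt (ew W ε) (Real.exp (-(ε * W x)) • -(ε • fderiv ℝ W x)) x :=
    ((hW.hasFDerivAt x).const_mul ε).neg.exp
  rw [h1.fderiv, Pot.inner_grad]
  show Real.exp (-(ε * W x)) * -(ε * fderiv ℝ W x v) = _
  unfold ew
  ring

theorem ew_int (hW : Pot d 1 2 W) (hε0 : 0 < ε) : Integrable (ew W ε) :=
  GibbsAux.int_exp (pot_eps hW hε0) hε0

theorem ew_int_norm (hW : Pot d 1 2 W) (hε0 : 0 < ε) : Integrable fun x => ‖x‖ * ew W ε x := by
  have := GibbsAux.int_poly (f := fun x : E d => ‖x‖) (pot_eps hW hε0) hε0 (by fun_prop)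
    ⟨1, 1, fun x => by rw [norm_norm, one_mul, pow_one]; linarith⟩
  refine this.congr (Filter.Eventually.of_forall fun x => ?_)
  show Real.exp (-(ε * W x)) * ‖x‖ = ‖x‖ * ew W ε x
  rw [mul_comm]; rfl

theorem mp_shear (a : ℝ) : MeasurePreserving (fun p : E d × E d => (p.1, p.2 + a • p.1))
    ((gam d).prod volume) ((gam d).prod volume) := by
  refine (MeasurePreserving.id (gam d)).skew_product (g := fun ξ x => x + a • ξ) (by fun_prop) ?_
  refine Filter.Eventually.of_forall fun ξ => ?_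
  exact map_add_right_eq_self volume (a • ξ)

/-- the sum over coordinates -/
theorem sum_coord (T : E d →L[ℝ] ℝ) (b : E d) : ∑ i, ⟪(T (eb i)) • b, (eb i : E d)⟫ = T b := by
  have h1 : b = ∑ i, b i • (eb i : E d) := by
    ext j
    simp [eb, Pi.single_apply]
  have h2 : ∀ i, ⟪(T (eb i)) • b, (eb i : E d)⟫ = b i * T (eb i) := by
    intro i
    rw [inner_smul_left, inner_eb]
    simp [mul_comm]
  simp_rw [h2]
  conv_rhs => rw [h1]
  rw [map_sum]
  simp

/-- Gaussian integration by parts for fixed `x` -/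
theorem ibp_fixed (hW : Pot d 1 2 W) (hW0 : gradient W 0 = 0) (hε0 : 0 < ε) (a : ℝ) (x b : E d) :
    ∫ ξ, ⟪b, ξ⟫ * ew W ε (x - a • ξ) ∂gam d =
      a * ε * ∫ ξ, ⟪b, gradient W (x - a • ξ)⟫ * ew W ε (x - a • ξ) ∂gam d := by
  set f : E d → ℝ := fun ξ => ew W ε (x - a • ξ) with hf
  have hfd : ∀ ξ, HasFDerivAt f ((fderiv ℝ (ew W ε) (x - a • ξ)).comp
      (-(a • ContinuousLinearMap.id ℝ (E d)))) ξ := by
    intro ξ
    have h1 : HasFDerivAt (fun ξ : E d => x - a • ξ) (-(a • ContinuousLinearMap.id ℝ (E d))) ξ :=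
      ((hasFDerivAt_id ξ).const_smul a).const_sub x
    exact (((ew_contDiff hW).differentiable (by norm_num) _).hasFDerivAt).comp ξ h1
  have hfc : ContDiff ℝ 1 f := (ew_contDiff hW).comp (by fun_prop)
  have hf0 : ∀ ξ, |f ξ| ≤ Real.exp (-(ε * W 0)) := fun ξ => by
    rw [abs_of_pos (ew_pos _ _ _)]; exact ew_bdd hW hW0 hε0 _
  set v : E d → E d := fun ξ => f ξ • b with hv
  have hvc : ContDiff ℝ 1 v := hfc.smul contDiff_const
  have hvd : ∀ ξ, HasFDerivAt v ((fderiv ℝ f ξ).smulRight b) ξ := fun ξ => by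
    have := (hfc.differentiable (by norm_num) ξ).hasFDerivAt.smul_const b
    exact this
  have hv0 : PolyGrowth v := polyGrowth_of_bdd (C := Real.exp (-(ε * W 0)) * ‖b‖) fun ξ => by
    rw [hv]
    show ‖f ξ • b‖ ≤ _
    rw [norm_smul]
    exact mul_le_mul_of_nonneg_right (hf0 ξ) (norm_nonneg _)
  have hfdv : ∀ ξ h, fderiv ℝ f ξ h = a * ε * ⟪gradient W (x - a • ξ), h⟫ * f ξ := by
    intro ξ h
    rw [(hfd ξ).fderiv]
    show fderiv ℝ (ew W ε) (x - a • ξ) (-(a • h)) = _
    rw [ew_fderiv hW, inner_neg_right, inner_smul_right]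
    ring
  have hfn : ∀ ξ, ‖fderiv ℝ f ξ‖ ≤ |a| * ε * (2 * (‖x‖ + |a| * ‖ξ‖)) * Real.exp (-(ε * W 0)) := by
    intro ξ
    refine ContinuousLinearMap.opNorm_le_bound _ (by positivity) fun h => ?_
    rw [hfdv, Real.norm_eq_abs, abs_mul, abs_mul, abs_mul, abs_of_pos hε0]
    have h1 : |⟪gradient W (x - a • ξ), h⟫| ≤ 2 * (‖x‖ + |a| * ‖ξ‖) * ‖h‖ := by
      refine (abs_real_inner_le_norm _ _).trans ?_
      refine mul_le_mul_of_nonneg_right ((grad_le hW hW0 _).trans ?_) (norm_nonneg _)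
      have := norm_sub_le x (a • ξ)
      rw [norm_smul, Real.norm_eq_abs] at this
      linarith
    calc |a| * ε * |⟪gradient W (x - a • ξ), h⟫| * |f ξ|
        ≤ |a| * ε * (2 * (‖x‖ + |a| * ‖ξ‖) * ‖h‖) * Real.exp (-(ε * W 0)) := by
          have := hf0 ξ
          gcongr
      _ = _ := by ring
  have hv1 : PolyGrowth (fderiv ℝ v) := by
    refine ⟨|a| * ε * (2 * (‖x‖ + |a|)) * Real.exp (-(ε * W 0)) * ‖b‖, 1, fun ξ => ?_⟩
    rw [(hvd ξ).fderiv, ContinuousLinearMap.norm_smulRight_apply, pow_one]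
    have h1 := hfn ξ
    have h2 := norm_nonneg b
    have h3 : ‖x‖ + |a| * ‖ξ‖ ≤ (‖x‖ + |a|) * (1 + ‖ξ‖) := by
      have := norm_nonneg x
      have := norm_nonneg ξ
      have := abs_nonneg a
      nlinarith [mul_nonneg (norm_nonneg x) (norm_nonneg ξ)]
    have h4 : |a| * ε * (2 * (‖x‖ + |a| * ‖ξ‖)) * Real.exp (-(ε * W 0)) ≤
        |a| * ε * (2 * ((‖x‖ + |a|) * (1 + ‖ξ‖))) * Real.exp (-(ε * W 0)) := by gcongr
    calc ‖fderiv ℝ f ξ‖ * ‖b‖ ≤
        |a| * ε * (2 * ((‖x‖ + |a|) * (1 + ‖ξ‖))) * Real.exp (-(ε * W 0)) * ‖b‖ :=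
          mul_le_mul_of_nonneg_right (h1.trans h4) h2
      _ = _ := by ring
  have key := gauss_ibp v hvc hv0 hv1
  have e1 : ∀ ξ, ⟪ξ, v ξ⟫ = ⟪b, ξ⟫ * ew W ε (x - a • ξ) := by
    intro ξ
    show ⟪ξ, f ξ • b⟫ = _
    rw [inner_smul_right, real_inner_comm, mul_comm]
  have e2 : ∀ ξ, diverg v ξ = a * ε * (⟪b, gradient W (x - a • ξ)⟫ * ew W ε (x - a • ξ)) := by
    intro ξ
    unfold diverg
    rw [(hvd ξ).fderiv]
    have h1 : ∀ i, ⟪((fderiv ℝ f ξ).smulRight b) (eb i), (eb i : E d)⟫ =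
        ⟪(fderiv ℝ f ξ (eb i)) • b, (eb i : E d)⟫ := fun i => rfl
    simp_rw [h1]
    rw [sum_coord, hfdv, real_inner_comm]
    ring
  simp_rw [e1, e2] at key
  rw [key, integral_const_mul]

/-- the key identity -/
theorem key (hW : Pot d 1 2 W) (hW0 : gradient W 0 = 0) (hε0 : 0 < ε) {b : E d → E d}
    (hb : Continuous b) {L : ℝ} (hL : ∀ x, ‖b x‖ ≤ L) (a : ℝ) :
    ∫ p : E d × E d, ⟪b (p.2 + a • p.1), p.1⟫ * ew W ε p.2 ∂((gam d).prod volume) =
      a * ε * ∫ p : E d × E d, ⟪b (p.2 + a • p.1), gradient W p.2⟫ * ew W ε p.2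
        ∂((gam d).prod volume) := by
  have hL0 : 0 ≤ L := (norm_nonneg _).trans (hL 0)
  have hec : Continuous (ew W ε) := (ew_contDiff hW).continuous
  have hgc := grad_cont hW
  have hmp := mp_shear (d := d) a
  set g1 : E d × E d → ℝ := fun p => ⟪b p.2, p.1⟫ * ew W ε (p.2 - a • p.1) with hg1
  set g2 : E d × E d → ℝ := fun p => ⟪b p.2, gradient W (p.2 - a • p.1)⟫ * ew W ε (p.2 - a • p.1)
    with hg2
  have hg1c : Continuous g1 := by
    refine Continuous.mul ?_ (hec.comp (by fun_prop))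
    exact (hb.comp continuous_snd).inner continuous_fst
  have hg2c : Continuous g2 := by
    refine Continuous.mul ?_ (hec.comp (by fun_prop))
    exact (hb.comp continuous_snd).inner (hgc.comp (by fun_prop))
  have c1 : ∀ p : E d × E d, g1 (p.1, p.2 + a • p.1) = ⟪b (p.2 + a • p.1), p.1⟫ * ew W ε p.2 := by
    intro p
    simp only [hg1, add_sub_cancel_right]
  have c2 : ∀ p : E d × E d, g2 (p.1, p.2 + a • p.1) =
      ⟪b (p.2 + a • p.1), gradient W p.2⟫ * ew W ε p.2 := by
    intro p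
    simp only [hg2, add_sub_cancel_right]
  have hgn : Integrable (fun z : E d => ‖z‖) (gam d) := by
    have h1 : MemLp (id : E d → E d) 1 (gam d) :=
      IsGaussian.memLp_id (stdGaussian (E d)) 1 (by norm_num)
    exact (memLp_one_iff_integrable.1 h1).norm
  have i1' : Integrable (fun p : E d × E d => ⟪b (p.2 + a • p.1), p.1⟫ * ew W ε p.2)
      ((gam d).prod volume) := by
    refine ((hgn.mul_prod (ew_int hW hε0)).const_mul L).mono' ?_
      (Filter.Eventually.of_forall fun p => ?_)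
    · refine Continuous.aestronglyMeasurable (Continuous.mul ?_ (hec.comp continuous_snd))
      exact (hb.comp (by fun_prop)).inner continuous_fst
    · rw [norm_mul, Real.norm_of_nonneg (ew_pos _ _ _).le, ← mul_assoc]
      refine mul_le_mul_of_nonneg_right ?_ (ew_pos _ _ _).le
      refine (abs_real_inner_le_norm _ _).trans ?_
      exact mul_le_mul_of_nonneg_right (hL _) (norm_nonneg _)
  have i2' : Integrable (fun p : E d × E d => ⟪b (p.2 + a • p.1), gradient W p.2⟫ * ew W ε p.2)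
      ((gam d).prod volume) := by
    refine (((integrable_const (1 : ℝ)).mul_prod (ew_int_norm hW hε0)).const_mul (2 * L)).mono' ?_
      (Filter.Eventually.of_forall fun p => ?_)
    · refine Continuous.aestronglyMeasurable (Continuous.mul ?_ (hec.comp continuous_snd))
      exact (hb.comp (by fun_prop)).inner (hgc.comp continuous_snd)
    · rw [norm_mul, Real.norm_of_nonneg (ew_pos _ _ _).le]
      have h1 : ‖⟪b (p.2 + a • p.1), gradient W p.2⟫‖ ≤ L * (2 * ‖p.2‖) := by
        refine (abs_real_inner_le_norm _ _).trans ?_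
        exact mul_le_mul (hL _) (grad_le hW hW0 _) (norm_nonneg _) hL0
      calc _ ≤ L * (2 * ‖p.2‖) * ew W ε p.2 := mul_le_mul_of_nonneg_right h1 (ew_pos _ _ _).le
        _ = _ := by ring
  have i1 : Integrable g1 ((gam d).prod volume) :=
    (hmp.integrable_comp hg1c.aestronglyMeasurable).1
      (i1'.congr (Filter.Eventually.of_forall fun p => (c1 p).symm))
  have i2 : Integrable g2 ((gam d).prod volume) :=
    (hmp.integrable_comp hg2c.aestronglyMeasurable).1
      (i2'.congr (Filter.Eventually.of_forall fun p => (c2 p).symm))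
  have s1 : ∫ p : E d × E d, ⟪b (p.2 + a • p.1), p.1⟫ * ew W ε p.2 ∂((gam d).prod volume) =
      ∫ p, g1 p ∂((gam d).prod volume) := by
    simp_rw [← c1]
    conv_rhs => rw [← hmp.map_eq]
    rw [integral_map hmp.measurable.aemeasurable hg1c.aestronglyMeasurable]
  have s2 : ∫ p : E d × E d, ⟪b (p.2 + a • p.1), gradient W p.2⟫ * ew W ε p.2
      ∂((gam d).prod volume) = ∫ p, g2 p ∂((gam d).prod volume) := by
    simp_rw [← c2]
    conv_rhs => rw [← hmp.map_eq]
    rw [integral_map hmp.measurable.aemeasurable hg2c.aestronglyMeasurable]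
  rw [s1, s2, integral_prod_symm _ i1, integral_prod_symm _ i2, ← integral_const_mul]
  refine integral_congr_ae (Filter.Eventually.of_forall fun x => ?_)
  exact ibp_fixed hW hW0 hε0 a x (b x)

end KInvAux

open KInvAux in
/-- the `x`-noise moves `π` by very little in the Lipschitz sense -/
theorem noise_inv {d : ℕ} {W : E d → ℝ} {ε : ℝ} (hW : Pot d 1 2 W) (hW0 : gradient W 0 = 0)
    (hε0 : 0 < ε) (hε1 : ε ≤ 1)
    {σ : ℝ} (_hσ : 0 ≤ σ) {v : E d → ℝ} (hv : ContDiff ℝ 1 v) {B L : ℝ} (hB : ∀ x, |v x| ≤ B)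
    (hL : ∀ x, ‖fderiv ℝ v x‖ ≤ L) :
    |∫ x, ∫ ξ, v (x + σ • ξ) ∂gam d ∂gibbs (fun x => ε * W x) - ∫ x, v x ∂gibbs (fun x => ε * W x)| ≤
      2 * σ ^ 2 * L * Real.sqrt (ε * d) := by
  have hP := pot_eps hW hε0
  have := gibbs_prob hP hε0
  have hL0 : 0 ≤ L := (norm_nonneg _).trans (hL 0)
  have hec : Continuous (ew W ε) := (ew_contDiff hW).continuous
  have hgc := grad_cont hW
  set b : E d → E d := gradient v with hb
  have hbi : ∀ x h, ⟪b x, h⟫ = fderiv ℝ v x h := fun x h => Pot.inner_grad v x h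
  have hbc : Continuous b := by
    have h1 : Continuous (fderiv ℝ v) := hv.continuous_fderiv (by norm_num)
    exact ((InnerProductSpace.toDual ℝ (E d)).symm.continuous).comp h1
  have hbL : ∀ x, ‖b x‖ ≤ L := by
    intro x
    have : ‖b x‖ = ‖fderiv ℝ v x‖ := (InnerProductSpace.toDual ℝ (E d)).symm.norm_map _
    rw [this]; exact hL x
  set Z := ∫ x, ew W ε x with hZ
  have hZ0 : 0 < Z := GibbsAux.exp_pos' hP hε0
  set P : Measure (E d × E d) := (gam d).prod volume with hPdef
  -- the difference as an integral over `P`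
  have hgn : Integrable (fun z : E d => ‖z‖) (gam d) := by
    have h1 : MemLp (id : E d → E d) 1 (gam d) :=
      IsGaussian.memLp_id (stdGaussian (E d)) 1 (by norm_num)
    exact (memLp_one_iff_integrable.1 h1).norm
  have hint : ∀ x ξ : E d, v (x + σ • ξ) - v x =
      ∫ t in (0 : ℝ)..1, σ * ⟪b (x + (t * σ) • ξ), ξ⟫ := by
    intro x ξ
    have h1 : ∀ t : ℝ, HasDerivAt (fun t : ℝ => v (x + (t * σ) • ξ))
        (σ * ⟪b (x + (t * σ) • ξ), ξ⟫) t := by
      intro t
      have h2 : HasDerivAt (fun t : ℝ => x + (t * σ) • ξ) (σ • ξ) t := by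
        have := (((hasDerivAt_id t).mul_const σ).smul_const ξ).const_add x
        simpa using this
      have h3 := (hv.differentiable (by norm_num) (x + (t * σ) • ξ)).hasFDerivAt.comp_hasDerivAt t h2
      rw [map_smul, ← hbi, smul_eq_mul] at h3
      exact h3
    have h4 := intervalIntegral.integral_eq_sub_of_hasDerivAt (a := 0) (b := 1)
      (fun t _ => h1 t) (by
        refine Continuous.intervalIntegrable ?_ 0 1
        exact continuous_const.mul ((hbc.comp (by fun_prop)).inner continuous_const))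
    rw [h4]
    simp
  -- integrability on the product with the time interval
  set Φ : ℝ → E d × E d → ℝ := fun t p => σ * ⟪b (p.2 + (t * σ) • p.1), p.1⟫ * ew W ε p.2 with hΦ
  have hΦc : Continuous (Function.uncurry Φ) := by
    have h1 : Continuous fun q : ℝ × (E d × E d) => b (q.2.2 + (q.1 * σ) • q.2.1) :=
      hbc.comp (by fun_prop)
    have h2 : Continuous fun q : ℝ × (E d × E d) => ew W ε q.2.2 := hec.comp (by fun_prop)
    show Continuous fun q : ℝ × (E d × E d) =>
      σ * ⟪b (q.2.2 + (q.1 * σ) • q.2.1), q.2.1⟫ * ew W ε q.2.2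
    exact (continuous_const.mul (h1.inner (by fun_prop))).mul h2
  have hΦi : Integrable (Function.uncurry Φ)
      ((volume.restrict (Set.uIoc (0 : ℝ) 1)).prod P) := by
    have h1 : Integrable (fun p : E d × E d => |σ| * L * (‖p.1‖ * ew W ε p.2)) P :=
      (hgn.mul_prod (ew_int hW hε0)).const_mul (|σ| * L)
    have : IsFiniteMeasure (volume.restrict (Set.uIoc (0 : ℝ) 1)) := by
      rw [Set.uIoc_of_le zero_le_one]; infer_instance
    have h2 : Integrable (fun q : ℝ × (E d × E d) => |σ| * L * (‖q.2.1‖ * ew W ε q.2.2))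
        ((volume.restrict (Set.uIoc (0 : ℝ) 1)).prod P) := h1.comp_snd _
    refine h2.mono' hΦc.aestronglyMeasurable (Filter.Eventually.of_forall fun q => ?_)
    show ‖σ * ⟪b (q.2.2 + (q.1 * σ) • q.2.1), q.2.1⟫ * ew W ε q.2.2‖ ≤ _
    rw [norm_mul, norm_mul, Real.norm_of_nonneg (ew_pos _ _ _).le, Real.norm_eq_abs σ]
    have h3 : ‖⟪b (q.2.2 + (q.1 * σ) • q.2.1), q.2.1⟫‖ ≤ L * ‖q.2.1‖ :=
      (abs_real_inner_le_norm _ _).trans (mul_le_mul_of_nonneg_right (hbL _) (norm_nonneg _))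
    calc _ ≤ |σ| * (L * ‖q.2.1‖) * ew W ε q.2.2 := by
          have := (ew_pos W ε q.2.2).le
          gcongr
      _ = _ := by ring
  have hswap : ∫ p : E d × E d, (v (p.2 + σ • p.1) - v p.2) * ew W ε p.2 ∂P =
      ∫ t in (0 : ℝ)..1, ∫ p, Φ t p ∂P := by
    rw [intervalIntegral_integral_swap hΦi]
    refine integral_congr_ae (Filter.Eventually.of_forall fun p => ?_)
    show (v (p.2 + σ • p.1) - v p.2) * ew W ε p.2 = ∫ t in (0 : ℝ)..1, Φ t p
    rw [hint, ← intervalIntegral.integral_mul_const]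
  have hbound : ∀ t ∈ Set.Icc (0 : ℝ) 1, |∫ p, Φ t p ∂P| ≤
      t * (σ ^ 2 * (ε * L * (4 * Real.sqrt (d / ε) * Z))) := by
    intro t ht
    have h1 : ∫ p, Φ t p ∂P = σ * ∫ p : E d × E d, ⟪b (p.2 + (t * σ) • p.1), p.1⟫ *
        ew W ε p.2 ∂P := by
      rw [← integral_const_mul]
      refine integral_congr_ae (Filter.Eventually.of_forall fun p => ?_)
      show σ * ⟪b (p.2 + (t * σ) • p.1), p.1⟫ * ew W ε p.2 = _
      ring
    rw [h1, hPdef, key hW hW0 hε0 hbc hbL (t * σ)]
    have h2 : |∫ p : E d × E d, ⟪b (p.2 + (t * σ) • p.1), gradient W p.2⟫ * ew W ε p.2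
        ∂((gam d).prod volume)| ≤ L * (4 * Real.sqrt (d / ε) * Z) := by
      have i3 : Integrable (fun x => ‖gradient W x‖ * ew W ε x) := by
        refine ((ew_int_norm hW hε0).const_mul 2).mono' ?_ (Filter.Eventually.of_forall fun x => ?_)
        · exact (hgc.norm.mul hec).aestronglyMeasurable
        · rw [Real.norm_of_nonneg (mul_nonneg (norm_nonneg _) (ew_pos _ _ _).le), ← mul_assoc]
          exact mul_le_mul_of_nonneg_right (grad_le hW hW0 x) (ew_pos _ _ _).le
      have h3 : ∫ x, ‖gradient W x‖ * ew W ε x ≤ 4 * Real.sqrt (d / ε) * Z := by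
        have h4 := pi_w_sq hW hW0 hε0 hε1
        rw [gibbs_integral, smul_eq_mul] at h4
        have h4' : Z⁻¹ * ∫ x, Real.exp (-(ε * W x)) • ‖gradient W x‖ ≤ 4 * Real.sqrt (d / ε) := h4
        rw [inv_mul_le_iff₀ hZ0] at h4'
        calc _ = ∫ x, Real.exp (-(ε * W x)) • ‖gradient W x‖ :=
              integral_congr_ae (Filter.Eventually.of_forall fun x => mul_comm _ _)
          _ ≤ _ := by rw [mul_comm]; exact h4'
      refine (abs_integral_le_integral_abs).trans ?_
      calc ∫ p : E d × E d, |⟪b (p.2 + (t * σ) • p.1), gradient W p.2⟫ * ew W ε p.2|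
            ∂((gam d).prod volume)
          ≤ ∫ p : E d × E d, L * (1 * (‖gradient W p.2‖ * ew W ε p.2)) ∂((gam d).prod volume) := by
            refine integral_mono_of_nonneg (Filter.Eventually.of_forall fun p => abs_nonneg _)
              (((integrable_const (1 : ℝ)).mul_prod i3).const_mul L)
              (Filter.Eventually.of_forall fun p => ?_)
            show |⟪b (p.2 + (t * σ) • p.1), gradient W p.2⟫ * ew W ε p.2| ≤ _
            rw [abs_mul, abs_of_pos (ew_pos _ _ _)]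
            calc _ ≤ (L * ‖gradient W p.2‖) * ew W ε p.2 :=
                  mul_le_mul_of_nonneg_right ((abs_real_inner_le_norm _ _).trans
                    (mul_le_mul_of_nonneg_right (hbL _) (norm_nonneg _))) (ew_pos _ _ _).le
              _ = _ := by ring
        _ = L * ∫ x, ‖gradient W x‖ * ew W ε x := by
            rw [integral_const_mul, integral_prod_mul (fun _ : E d => (1 : ℝ))
              (fun x => ‖gradient W x‖ * ew W ε x)]
            simp
        _ ≤ _ := mul_le_mul_of_nonneg_left h3 hL0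
    rw [abs_mul, abs_mul, abs_mul, abs_of_pos hε0, abs_mul, abs_of_nonneg ht.1]
    have hs : |σ| * |σ| = σ ^ 2 := by rw [← sq, sq_abs]
    calc |σ| * (t * |σ| * ε * |∫ p : E d × E d, ⟪b (p.2 + (t * σ) • p.1), gradient W p.2⟫ *
          ew W ε p.2 ∂((gam d).prod volume)|)
        ≤ |σ| * (t * |σ| * ε * (L * (4 * Real.sqrt (d / ε) * Z))) := by
          have := ht.1
          gcongr
      _ = t * (|σ| * |σ| * (ε * L * (4 * Real.sqrt (d / ε) * Z))) := by ring
      _ = _ := by rw [hs]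
  have hmain : |∫ p : E d × E d, (v (p.2 + σ • p.1) - v p.2) * ew W ε p.2 ∂P| ≤
      1 / 2 * (σ ^ 2 * (ε * L * (4 * Real.sqrt (d / ε) * Z))) := by
    rw [hswap]
    have h1 := intervalIntegral.norm_integral_le_of_norm_le (μ := volume) (a := (0 : ℝ)) (b := 1)
      (f := fun t => ∫ p, Φ t p ∂P)
      (g := fun t => t * (σ ^ 2 * (ε * L * (4 * Real.sqrt (d / ε) * Z)))) zero_le_one
      (Filter.Eventually.of_forall fun t ht => hbound t ⟨ht.1.le, ht.2⟩)
      (Continuous.intervalIntegrable (by fun_prop) 0 1)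
    rw [Real.norm_eq_abs] at h1
    refine h1.trans (le_of_eq ?_)
    rw [intervalIntegral.integral_mul_const, integral_id]
    norm_num
  -- back to `gibbs`
  have hvi : Integrable (fun p : E d × E d => (v (p.2 + σ • p.1) - v p.2) * ew W ε p.2) P := by
    have h1 : Integrable (fun p : E d × E d => 2 * B * (1 * ew W ε p.2)) P :=
      (((integrable_const (1 : ℝ)).mul_prod (ew_int hW hε0)).const_mul (2 * B))
    refine h1.mono' ?_ (Filter.Eventually.of_forall fun p => ?_)
    · have hvc := hv.continuous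
      refine Continuous.aestronglyMeasurable (Continuous.mul ?_ (hec.comp continuous_snd))
      exact (hvc.comp (by fun_prop)).sub (hvc.comp continuous_snd)
    · rw [norm_mul, Real.norm_of_nonneg (ew_pos _ _ _).le, Real.norm_eq_abs]
      have h2 : |v (p.2 + σ • p.1) - v p.2| ≤ 2 * B := by
        have h3 := hB (p.2 + σ • p.1)
        have h4 := hB p.2
        rw [abs_le] at h3 h4 ⊢
        constructor <;> linarith [h3.1, h3.2, h4.1, h4.2]
      calc _ ≤ 2 * B * ew W ε p.2 := mul_le_mul_of_nonneg_right h2 (ew_pos _ _ _).le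
        _ = _ := by ring
  have hvc := hv.continuous
  have hvint : ∀ x, Integrable (fun ξ => v (x + σ • ξ)) (gam d) := fun x =>
    Integrable.of_bound (hvc.comp (by fun_prop)).aestronglyMeasurable B
      (Filter.Eventually.of_forall fun ξ => hB _)
  have hVc : Continuous fun x => ∫ ξ, v (x + σ • ξ) ∂gam d := by
    refine continuous_of_dominated (bound := fun _ => B) (fun x => ?_) (fun x => ?_)
      (integrable_const B) ?_
    · exact (hvc.comp (by fun_prop)).aestronglyMeasurable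
    · exact Filter.Eventually.of_forall fun z => hB _
    · exact Filter.Eventually.of_forall fun z => hvc.comp (by fun_prop)
  have hVi : Integrable (fun x => ∫ ξ, v (x + σ • ξ) ∂gam d) (gibbs fun x => ε * W x) :=
    Integrable.of_bound hVc.aestronglyMeasurable B (Filter.Eventually.of_forall fun x => by
      have := norm_integral_le_of_norm_le_const (μ := gam d) (f := fun ξ => v (x + σ • ξ)) (C := B)
        (Filter.Eventually.of_forall fun z => hB _)
      simpa using this)
  have hvI : Integrable v (gibbs fun x => ε * W x) :=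
    Integrable.of_bound hvc.aestronglyMeasurable B (Filter.Eventually.of_forall hB)
  have hfin : ∫ x, ∫ ξ, v (x + σ • ξ) ∂gam d ∂gibbs (fun x => ε * W x) -
      ∫ x, v x ∂gibbs (fun x => ε * W x) =
      Z⁻¹ * ∫ p : E d × E d, (v (p.2 + σ • p.1) - v p.2) * ew W ε p.2 ∂P := by
    rw [← integral_sub hVi hvI, gibbs_integral, smul_eq_mul, hPdef, integral_prod_symm _ hvi]
    congr 1
    refine integral_congr_ae (Filter.Eventually.of_forall fun x => ?_)
    show Real.exp (-(ε * W x)) * (∫ ξ, v (x + σ • ξ) ∂gam d - v x) =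
      ∫ ξ, (v (x + σ • ξ) - v x) * ew W ε x ∂gam d
    rw [integral_mul_const, integral_sub (hvint x) (integrable_const _)]
    simp [ew, mul_comm]
  rw [hfin, abs_mul, abs_of_pos (inv_pos.2 hZ0)]
  calc Z⁻¹ * |∫ p : E d × E d, (v (p.2 + σ • p.1) - v p.2) * ew W ε p.2 ∂P|
      ≤ Z⁻¹ * (1 / 2 * (σ ^ 2 * (ε * L * (4 * Real.sqrt (d / ε) * Z)))) :=
        mul_le_mul_of_nonneg_left hmain (inv_pos.2 hZ0).le
    _ = 2 * σ ^ 2 * L * (ε * Real.sqrt (d / ε)) := by field_simp; ring
    _ = 2 * σ ^ 2 * L * Real.sqrt (ε * d) := by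
        have : ε * Real.sqrt (d / ε) = Real.sqrt (ε * d) := by
          conv_lhs => rw [← Real.sqrt_sq hε0.le]
          rw [← Real.sqrt_mul (sq_nonneg ε)]
          congr 1
          rw [Real.sqrt_sq hε0.le]
          field_simp
        rw [this]

end Vale.Agent.P347
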