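import Vale.Agent.P347.KRefl
import Vale.Agent.P347.KNoise

/-! P347, piece K14: one step of the chain leaves `π ⊗ γ` almost invariant. -/

open MeasureTheory ProbabilityTheory
open scoped ENNReal NNReal RealInnerProductSpace

namespace Vale.Agent.P347

namespace KInvTAux

variable {d : ℕ}

theorem inner_gx (u : E2 d → ℝ) (s : E2 d) (a : E d) : ⟪gx u s, a⟫ = fderiv ℝ u s (a, 0) := by
  unfold gx
  rw [sum_inner]
  have hv : a = ∑ i, a i • (eb i : E d) := by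
    ext j
    simp [eb, Pi.single_apply]
  have e2 : fderiv ℝ u s (a, 0) = ∑ i, a i * fderiv ℝ u s (eb i, 0) := by
    have := congrArg ((fderiv ℝ u s).comp (ContinuousLinearMap.inl ℝ (E d) (E d))) hv
    rw [map_sum] at this
    simpa using this
  rw [e2]
  refine Finset.sum_congr rfl fun i _ => ?_
  rw [inner_smul_left, real_inner_comm, inner_eb]
  simp [mul_comm]

theorem inner_gz (u : E2 d → ℝ) (s : E2 d) (a : E d) : ⟪gz u s, a⟫ = fderiv ℝ u s (0, a) := by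
  unfold gz
  rw [sum_inner]
  have hv : a = ∑ i, a i • (eb i : E d) := by
    ext j
    simp [eb, Pi.single_apply]
  have e2 : fderiv ℝ u s (0, a) = ∑ i, a i * fderiv ℝ u s (0, eb i) := by
    have := congrArg ((fderiv ℝ u s).comp (ContinuousLinearMap.inr ℝ (E d) (E d))) hv
    rw [map_sum] at this
    simpa using this
  rw [e2]
  refine Finset.sum_congr rfl fun i _ => ?_
  rw [inner_smul_left, real_inner_comm, inner_eb]
  simp [mul_comm]

theorem fderiv_le {u : E2 d → ℝ} {A : ℝ} (hA : 0 ≤ A) {s : E2 d} (hgx : ‖gx u s‖ ≤ A)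
    (hgz : ‖gz u s‖ ≤ A) : ‖fderiv ℝ u s‖ ≤ 2 * A := by
  refine ContinuousLinearMap.opNorm_le_bound _ (by positivity) fun t => ?_
  have e1 : t = (t.1, 0) + (0, t.2) := by ext <;> simp
  rw [e1, map_add, ← inner_gx, ← inner_gz, Real.norm_eq_abs]
  have h1 := abs_real_inner_le_norm (gx u s) t.1
  have h2 := abs_real_inner_le_norm (gz u s) t.2
  have h3 := norm_fst_le t
  have h4 := norm_snd_le t
  have h5 : ‖gx u s‖ * ‖t.1‖ ≤ A * ‖t‖ := mul_le_mul hgx h3 (norm_nonneg _) hA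
  have h6 : ‖gz u s‖ * ‖t.2‖ ≤ A * ‖t‖ := mul_le_mul hgz h4 (norm_nonneg _) hA
  rw [← e1]
  have := abs_add_le ⟪gx u s, t.1⟫ ⟪gz u s, t.2⟫
  linarith

theorem u_lip {u : E2 d → ℝ} (hu : Differentiable ℝ u) {A : ℝ} (hA : 0 ≤ A)
    (hgx : ∀ s, ‖gx u s‖ ≤ A) (hgz : ∀ s, ‖gz u s‖ ≤ A) (s s' : E2 d) :
    |u s - u s'| ≤ 2 * A * ‖s - s'‖ :=
  Convex.norm_image_sub_le_of_norm_fderiv_le (𝕜 := ℝ) (s := Set.univ)
    (fun z _ => hu.differentiableAt) (fun z _ => fderiv_le hA (hgx z) (hgz z))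
    convex_univ (Set.mem_univ s') (Set.mem_univ s)

/-- Lipschitz constant in `x` of the averaged test function -/
theorem opM_lip {κ : Type} [Fintype κ] {F : E2 d → (κ → E d) → E d} (hF : Force κ F)
    {ε : ℝ} (h0 : 0 ≤ ε) (h1 : ε ≤ 1 / 16) {u : E2 d → ℝ} (hu : ContDiff ℝ 1 u) {B : ℝ}
    (hB : ∀ s, |u s| ≤ B) {A : ℝ} (hA : 0 ≤ A) (hgx : ∀ s, ‖gx u s‖ ≤ A)
    (hgz : ∀ s, ‖gz u s‖ ≤ A) (x x' z : E d) :
    |opM F ε u (x, z) - opM F ε u (x', z)| ≤ 4 * A * ‖x - x'‖ := by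
  have hc : ∀ s, Continuous fun ω => u (kmap F ε s ω) := fun s =>
    hu.continuous.comp ((KMapAux.cont_kmap hF ε).comp (Continuous.prodMk_right _))
  have hi : ∀ s, Integrable (fun ω => u (kmap F ε s ω)) (gamPi d κ) := fun s =>
    Integrable.of_bound (hc s).aestronglyMeasurable B (Filter.Eventually.of_forall fun ω => hB _)
  have e : opM F ε u (x, z) - opM F ε u (x', z) =
      ∫ ω, (u (kmap F ε (x, z) ω) - u (kmap F ε (x', z) ω)) ∂gamPi d κ :=
    (integral_sub (hi _) (hi _)).symm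
  rw [e]
  have := norm_integral_le_of_norm_le_const (μ := gamPi d κ)
    (f := fun ω => u (kmap F ε (x, z) ω) - u (kmap F ε (x', z) ω)) (C := 4 * A * ‖x - x'‖)
    (Filter.Eventually.of_forall fun ω => ?_)
  · simpa using this
  rw [Real.norm_eq_abs]
  refine (u_lip (hu.differentiable (by norm_num)) hA hgx hgz _ _).trans ?_
  have hL := hF.lip (x, z) (x', z) ω
  simp only [sub_self, norm_zero, add_zero] at hL
  set δ := F (x, z) ω - F (x', z) ω with hδ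
  have hk : kmap F ε (x, z) ω - kmap F ε (x', z) ω = ((x - x') - ε • δ, -(ε • δ)) := by
    unfold kmap
    ext1
    · show (x + (2 : ℝ) • z - ε • F (x, z) ω) - (x' + (2 : ℝ) • z - ε • F (x', z) ω) =
        x - x' - ε • δ
      rw [hδ]; module
    · show (z - ε • F (x, z) ω) - (z - ε • F (x', z) ω) = -(ε • δ)
      rw [hδ]; module
  rw [hk]
  have hεδ : ‖ε • δ‖ ≤ 1 / 2 * ‖x - x'‖ := by
    rw [norm_smul, Real.norm_of_nonneg h0]
    calc ε * ‖δ‖ ≤ 1 / 16 * (8 * ‖x - x'‖) := mul_le_mul h1 hL (norm_nonneg _) (by norm_num)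
      _ = _ := by ring
  have hn : ‖((x - x') - ε • δ, -(ε • δ))‖ ≤ 3 / 2 * ‖x - x'‖ := by
    rw [Prod.norm_def]
    refine max_le ?_ ?_
    · refine (norm_sub_le _ _).trans ?_
      linarith
    · rw [norm_neg]
      have := norm_nonneg (x - x')
      linarith
  have h2 := norm_nonneg (x - x')
  calc 2 * A * ‖((x - x') - ε • δ, -(ε • δ))‖ ≤ 2 * A * (3 / 2 * ‖x - x'‖) :=
        mul_le_mul_of_nonneg_left hn (by positivity)
    _ ≤ _ := by nlinarith [mul_nonneg hA h2]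

/-- the `z`-refreshment disappears on average -/
theorem avg_z {v : E2 d → ℝ} (hv : Continuous v) {B : ℝ} (hB : ∀ s, |v s| ≤ B) {σ ρ r : ℝ}
    (h : ρ ^ 2 + r ^ 2 = 1) (x : E d) :
    ∫ z, opN σ ρ r v (x, z) ∂gam d = ∫ ξ, ∫ z, v (x + σ • ξ, z) ∂gam d ∂gam d := by
  have hb : ∀ {Ω : Type} [MeasurableSpace Ω] [TopologicalSpace Ω] [OpensMeasurableSpace Ω]
      [SecondCountableTopology Ω] (μ : Measure Ω) [IsProbabilityMeasure μ] {f : Ω → E2 d}
      (_ : Continuous f), Integrable (fun o => v (f o)) μ := by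
    intro Ω _ _ _ _ μ _ f hf
    exact Integrable.of_bound (hv.comp hf).aestronglyMeasurable B
      (Filter.Eventually.of_forall fun o => hB _)
  have e1 : ∀ z : E d, opN σ ρ r v (x, z) =
      ∫ ξ, ∫ ξ', v (x + σ • ξ, ρ • z + r • ξ') ∂gam d ∂gam d := by
    intro z
    unfold opN
    exact integral_prod _ (hb ((gam d).prod (gam d)) (f := fun q : E d × E d =>
      (x + σ • q.1, ρ • z + r • q.2)) (by fun_prop))
  simp_rw [e1]
  have hsw : ∫ z, ∫ ξ, ∫ ξ', v (x + σ • ξ, ρ • z + r • ξ') ∂gam d ∂gam d ∂gam d =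
      ∫ ξ, ∫ z, ∫ ξ', v (x + σ • ξ, ρ • z + r • ξ') ∂gam d ∂gam d ∂gam d := by
    rw [integral_integral_swap]
    have hc : Continuous fun q : E d × E d =>
        ∫ ξ', v (x + σ • q.2, ρ • q.1 + r • ξ') ∂gam d := by
      refine continuous_of_dominated (bound := fun _ => B) (fun q => ?_) (fun q => ?_)
        (integrable_const B) ?_
      · exact (hv.comp (by fun_prop)).aestronglyMeasurable
      · exact Filter.Eventually.of_forall fun z => hB _
      · exact Filter.Eventually.of_forall fun z => hv.comp (by fun_prop)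
    refine Integrable.of_bound hc.aestronglyMeasurable B
      (Filter.Eventually.of_forall fun q => ?_)
    have := norm_integral_le_of_norm_le_const (μ := gam d)
      (f := fun ξ' => v (x + σ • q.2, ρ • q.1 + r • ξ')) (C := B)
      (Filter.Eventually.of_forall fun z => hB _)
    rw [probReal_univ, mul_one] at this
    exact this
  rw [hsw]
  refine integral_congr_ae (Filter.Eventually.of_forall fun ξ => ?_)
  show ∫ z, ∫ ξ', v (x + σ • ξ, ρ • z + r • ξ') ∂gam d ∂gam d = ∫ z, v (x + σ • ξ, z) ∂gam d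
  have hmp := mp_comb (d := d) h
  have h2 := integral_map (μ := (gam d).prod (gam d)) hmp.measurable.aemeasurable
    (f := fun z => v (x + σ • ξ, z))
    (by exact (hv.comp (by fun_prop)).aestronglyMeasurable)
  rw [hmp.map_eq] at h2
  rw [h2]
  exact (integral_prod _ (hb ((gam d).prod (gam d)) (f := fun q : E d × E d =>
      (x + σ • ξ, ρ • q.1 + r • q.2)) (by fun_prop))).symm

/-- the noise step is almost invariant -/
theorem noise_step {W : E d → ℝ} {ε : ℝ} (hW : Pot d 1 2 W) (hW0 : gradient W 0 = 0)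
    (hε0 : 0 < ε) (hε1 : ε ≤ 1) {σ ρ r : ℝ} (hσ : 0 ≤ σ) (h : ρ ^ 2 + r ^ 2 = 1) {v : E2 d → ℝ}
    (hv : ContDiff ℝ 1 v) {B L : ℝ} (hB : ∀ s, |v s| ≤ B)
    (hL : ∀ x x' z, |v (x, z) - v (x', z)| ≤ L * ‖x - x'‖) (hL0 : 0 ≤ L) :
    |∫ x, ∫ z, opN σ ρ r v (x, z) ∂gam d ∂gibbs (fun x => ε * W x) -
      ∫ x, ∫ z, v (x, z) ∂gam d ∂gibbs (fun x => ε * W x)| ≤
      2 * σ ^ 2 * L * Real.sqrt (ε * d) := by
  have hP := KInvAux.pot_eps hW hε0
  have := gibbs_prob hP hε0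
  set π := gibbs fun x => ε * W x with hπ
  have hvc := hv.continuous
  -- rewrite
  have e1 : ∫ x, ∫ z, opN σ ρ r v (x, z) ∂gam d ∂π =
      ∫ x, ∫ z, ∫ ξ, v (x + σ • ξ, z) ∂gam d ∂gam d ∂π := by
    refine integral_congr_ae (Filter.Eventually.of_forall fun x => ?_)
    show ∫ z, opN σ ρ r v (x, z) ∂gam d = ∫ z, ∫ ξ, v (x + σ • ξ, z) ∂gam d ∂gam d
    rw [avg_z hvc hB h x, integral_integral_swap]
    exact Integrable.of_bound (hvc.comp (by fun_prop : Continuous fun q : E d × E d =>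
      ((x + σ • q.1, q.2) : E2 d))).aestronglyMeasurable B
      (Filter.Eventually.of_forall fun q => hB _)
  have c1 : Continuous fun q : E d × E d => ∫ ξ, v (q.1 + σ • ξ, q.2) ∂gam d := by
    refine continuous_of_dominated (bound := fun _ => B) (fun q => ?_) (fun q => ?_)
      (integrable_const B) ?_
    · exact (hvc.comp (by fun_prop)).aestronglyMeasurable
    · exact Filter.Eventually.of_forall fun z => hB _
    · exact Filter.Eventually.of_forall fun z => hvc.comp (by fun_prop)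
  have b1 : ∀ q : E d × E d, |∫ ξ, v (q.1 + σ • ξ, q.2) ∂gam d| ≤ B := by
    intro q
    have := norm_integral_le_of_norm_le_const (μ := gam d)
      (f := fun ξ => v (q.1 + σ • ξ, q.2)) (C := B)
      (Filter.Eventually.of_forall fun z => hB _)
    simpa using this
  have i1 : Integrable (fun q : E d × E d => ∫ ξ, v (q.1 + σ • ξ, q.2) ∂gam d) (π.prod (gam d)) :=
    Integrable.of_bound c1.aestronglyMeasurable B (Filter.Eventually.of_forall b1)
  have i2 : Integrable (fun q : E d × E d => v (q.1, q.2)) (π.prod (gam d)) :=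
    Integrable.of_bound (hvc.comp (by fun_prop)).aestronglyMeasurable B
      (Filter.Eventually.of_forall fun q => hB _)
  have e2 : ∫ x, ∫ z, ∫ ξ, v (x + σ • ξ, z) ∂gam d ∂gam d ∂π =
      ∫ z, ∫ x, ∫ ξ, v (x + σ • ξ, z) ∂gam d ∂π ∂gam d := integral_integral_swap i1
  have e3 : ∫ x, ∫ z, v (x, z) ∂gam d ∂π = ∫ z, ∫ x, v (x, z) ∂π ∂gam d :=
    integral_integral_swap i2
  have j1 : Integrable (fun z => ∫ x, ∫ ξ, v (x + σ • ξ, z) ∂gam d ∂π) (gam d) :=
    i1.integral_prod_right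
  have j2 : Integrable (fun z => ∫ x, v (x, z) ∂π) (gam d) := i2.integral_prod_right
  rw [e1, e2, e3, ← integral_sub j1 j2]
  have hz : ∀ z, |∫ x, ∫ ξ, v (x + σ • ξ, z) ∂gam d ∂π - ∫ x, v (x, z) ∂π| ≤
      2 * σ ^ 2 * L * Real.sqrt (ε * d) := by
    intro z
    refine noise_inv hW hW0 hε0 hε1 hσ (v := fun x => v (x, z)) (hv.comp (by fun_prop)) (B := B)
      (fun x => hB _) (fun x => ?_)
    have hlip : LipschitzWith L.toNNReal (fun x => v (x, z)) :=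
      LipschitzWith.of_dist_le_mul fun x y => by
        rw [Real.dist_eq, dist_eq_norm, Real.coe_toNNReal _ hL0]
        exact hL x y z
    have := norm_fderiv_le_of_lipschitz ℝ hlip (x₀ := x)
    rwa [Real.coe_toNNReal _ hL0] at this
  have := norm_integral_le_of_norm_le_const (μ := gam d)
    (f := fun z => ∫ x, ∫ ξ, v (x + σ • ξ, z) ∂gam d ∂π - ∫ x, v (x, z) ∂π)
    (C := 2 * σ ^ 2 * L * Real.sqrt (ε * d)) (Filter.Eventually.of_forall hz)
  simpa using this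

end KInvTAux

open KInvTAux in
theorem one_inv : ∃ C : ℝ, 1 ≤ C ∧ ∀ {d : ℕ} {W : E d → ℝ}, Pot d 1 2 W → gradient W 0 = 0 →
    ∀ {h τ : ℝ}, 0 < h → h ≤ 1 / 10000 → τ ≤ h ^ 2 →
    ∀ {n : ℕ} {r : ℝ} {k : Fin n → ℕ} {p : Fin n → ℝ},
    IsQuad r τ k p → ∀ {u : E2 d → ℝ}, Nice u → ContDiff ℝ 2 u → ∀ {A : ℝ}, 0 ≤ A →
    (∀ s, ‖gx u s‖ ≤ A) → (∀ s, ‖gz u s‖ ≤ A) →
    (∀ s, hx (fderiv ℝ (gx u) s) ≤ A ^ 2 ∧ hz (fderiv ℝ (gx u) s) ≤ A ^ 2 ∧
      hx (fderiv ℝ (gz u) s) ≤ A ^ 2 ∧ hz (fderiv ℝ (gz u) s) ≤ A ^ 2) →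
    |∫ x, ∫ z, opT (frc (gradient W) p (fun i => r ^ k i) (h ^ 2)) h u (x, z) ∂gam d
        ∂gibbs (fun x => h ^ 2 * W x) - ∫ x, ∫ z, u (x, z) ∂gam d ∂gibbs (fun x => h ^ 2 * W x)| ≤
      C * Real.sqrt d * h ^ 4 * A := by
  obtain ⟨C, hC1, hC⟩ := refl_inv
  refine ⟨2 * C + 8, by linarith, ?_⟩
  intro d W hW hW0 h τ h0 h1 hτ n r k p hQ u hun hu2 A hA0 hgx hgz hsec
  have hε0 : 0 < h ^ 2 := by positivity
  have hε1 : h ^ 2 ≤ 1 / 16 := by nlinarith
  obtain ⟨B, hB⟩ := hun.bd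
  have hB' : ∀ s, |u s| ≤ B := hB
  have hρ0 : ∀ i, 0 ≤ (fun i => r ^ k i) i := fun i => pow_nonneg hQ.r0.le _
  have hρ1 : ∀ i, (fun i => r ^ k i) i ≤ 1 := fun i => pow_le_one₀ hQ.r0.le hQ.r1.le
  have hF : Force (Fin n ⊕ Fin n) (frc (gradient W) p (fun i => r ^ k i) (h ^ 2)) :=
    frc_force hW hQ.p0 hQ.ps hρ0 hρ1 hε0.le hε1
  set F := frc (gradient W) p (fun i => r ^ k i) (h ^ 2) with hFdef
  have hvn : Nice (opM F (h ^ 2) u) := opM_nice hF hε0.le (by linarith) hun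
  have hvb : ∀ s, |opM F (h ^ 2) u s| ≤ B := fun s => opM_norm_le (F := F) (ε := h ^ 2) hB s
  have hs : Real.sqrt (1 - 8 * h) ^ 2 + Real.sqrt (8 * h) ^ 2 = 1 := by
    rw [Real.sq_sqrt (by linarith), Real.sq_sqrt (by linarith)]
    ring
  have a1 := noise_step hW hW0 hε0 (by linarith) hε0.le hs hvn.smooth hvb
    (fun x x' z => opM_lip hF hε0.le hε1 hun.smooth hB' hA0 hgx hgz x x' z) (by positivity)
  have a2 := hC hW hW0 hε0 hε1 hQ hun hu2 hA0 hgx hgz hsec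
  have a3 := abs_sub_le
    (∫ x, ∫ z, opT F h u (x, z) ∂gam d ∂gibbs (fun x => h ^ 2 * W x))
    (∫ x, ∫ z, opM F (h ^ 2) u (x, z) ∂gam d ∂gibbs (fun x => h ^ 2 * W x))
    (∫ x, ∫ z, u (x, z) ∂gam d ∂gibbs (fun x => h ^ 2 * W x))
  refine a3.trans ?_
  have a1' : |∫ x, ∫ z, opT F h u (x, z) ∂gam d ∂gibbs (fun x => h ^ 2 * W x) -
      ∫ x, ∫ z, opM F (h ^ 2) u (x, z) ∂gam d ∂gibbs (fun x => h ^ 2 * W x)| ≤
      2 * (h ^ 2) ^ 2 * (4 * A) * Real.sqrt (h ^ 2 * d) := a1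
  have e1 : Real.sqrt (h ^ 2 * d) = h * Real.sqrt d := by
    rw [Real.sqrt_mul (by positivity), Real.sqrt_sq h0.le]
  rw [e1] at a1'
  have hsd := Real.sqrt_nonneg (d : ℝ)
  have b1 : 2 * (h ^ 2) ^ 2 * (4 * A) * (h * Real.sqrt d) ≤ 8 * Real.sqrt d * h ^ 4 * A := by
    have : 2 * (h ^ 2) ^ 2 * (4 * A) * (h * Real.sqrt d) = h * (8 * Real.sqrt d * h ^ 4 * A) := by
      ring
    rw [this]
    exact mul_le_of_le_one_left (by positivity) (by linarith)
  have hτ0 := hQ.τ0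
  have b2 : C * Real.sqrt d * ((h ^ 2) ^ 2 + h ^ 2 * τ) * A ≤ 2 * C * Real.sqrt d * h ^ 4 * A := by
    have h3 : (h ^ 2) ^ 2 + h ^ 2 * τ ≤ 2 * h ^ 4 := by
      have := mul_le_mul_of_nonneg_left hτ hε0.le
      nlinarith
    calc C * Real.sqrt d * ((h ^ 2) ^ 2 + h ^ 2 * τ) * A ≤ C * Real.sqrt d * (2 * h ^ 4) * A := by
          gcongr
      _ = _ := by ring
  calc _ ≤ 8 * Real.sqrt d * h ^ 4 * A + 2 * C * Real.sqrt d * h ^ 4 * A := by linarith
    _ = _ := by ring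

end Vale.Agent.P347
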