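import Vale.Agent.P347.DefsC

/-!
# P347, C'4: the `2x2` inequalities
-/

open MeasureTheory ProbabilityTheory
open scoped ENNReal NNReal RealInnerProductSpace

namespace Vale.Agent.P347

section form
variable {d : ℕ} {G : Type*} [NormedAddCommGroup G] [InnerProductSpace ℝ G]

namespace KStepAux

/-- the cross term -/
noncomputable def cr (T : E2 d →L[ℝ] G) : ℝ := ∑ i, ⟪T (eb i, 0), T (0, eb i)⟫

theorem hx_nonneg (T : E2 d →L[ℝ] G) : 0 ≤ hx T := Finset.sum_nonneg fun _ _ => sq_nonneg _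

theorem hz_nonneg (T : E2 d →L[ℝ] G) : 0 ≤ hz T := Finset.sum_nonneg fun _ _ => sq_nonneg _

theorem hd_nonneg (a : ℝ) (T : E2 d →L[ℝ] G) : 0 ≤ hd a T :=
  Finset.sum_nonneg fun _ _ => sq_nonneg _

/-- Cauchy-Schwarz -/
theorem cr_sq (T : E2 d →L[ℝ] G) : cr T ^ 2 ≤ hx T * hz T := by
  have h1 : |cr T| ≤ ∑ i, ‖T (eb i, 0)‖ * ‖T (0, eb i)‖ :=
    (Finset.abs_sum_le_sum_abs _ _).trans
      (Finset.sum_le_sum fun i _ => abs_real_inner_le_norm _ _)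
  have h2 : cr T ^ 2 ≤ (∑ i, ‖T (eb i, 0)‖ * ‖T (0, eb i)‖) ^ 2 := by
    rw [← sq_abs]
    exact pow_le_pow_left₀ (abs_nonneg _) h1 2
  exact h2.trans (Finset.sum_mul_sq_le_sq_mul_sq _ _ _)

theorem hd_expand (a : ℝ) (T : E2 d →L[ℝ] G) : hd a T = hz T - 2 * a * cr T + a ^ 2 * hx T := by
  unfold hd hz cr hx
  rw [Finset.mul_sum, Finset.mul_sum, ← Finset.sum_sub_distrib, ← Finset.sum_add_distrib]
  refine Finset.sum_congr rfl fun i _ => ?_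
  have e : T (-(a • eb i), eb i) = T (0, eb i) - a • T (eb i, 0) := by
    have : ((-(a • eb i), eb i) : E2 d) = (0, eb i) - a • (eb i, 0) := by
      ext1 <;> simp
    rw [this, map_sub, map_smul]
  rw [e, norm_sub_sq_real, norm_smul, inner_smul_right, real_inner_comm, mul_pow,
    Real.norm_eq_abs, sq_abs]
  ring

theorem hx_dil (T : E2 d →L[ℝ] G) (ρ : ℝ) : hx (T.comp (dil d ρ)) = hx T := by
  unfold hx
  refine Finset.sum_congr rfl fun i _ => ?_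
  change ‖T (dil d ρ (eb i, 0))‖ ^ 2 = _
  have : dil d ρ (eb i, 0) = (eb i, 0) := by simp [dil]
  rw [this]

theorem dil_z (T : E2 d →L[ℝ] G) (ρ : ℝ) (i : Fin d) :
    (T.comp (dil d ρ)) (0, eb i) = ρ • T (0, eb i) := by
  change T (dil d ρ (0, eb i)) = _
  have : dil d ρ (0, eb i) = ρ • ((0 : E d), (eb i : E d)) := by simp [dil]
  rw [this, map_smul]

theorem dil_x (T : E2 d →L[ℝ] G) (ρ : ℝ) (i : Fin d) :
    (T.comp (dil d ρ)) (eb i, 0) = T (eb i, 0) := by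
  change T (dil d ρ (eb i, 0)) = _
  have : dil d ρ (eb i, 0) = (eb i, 0) := by simp [dil]
  rw [this]

theorem hz_dil (T : E2 d →L[ℝ] G) (ρ : ℝ) : hz (T.comp (dil d ρ)) = ρ ^ 2 * hz T := by
  unfold hz
  rw [Finset.mul_sum]
  refine Finset.sum_congr rfl fun i _ => ?_
  rw [dil_z, norm_smul, mul_pow, Real.norm_eq_abs, sq_abs]

theorem cr_dil (T : E2 d →L[ℝ] G) (ρ : ℝ) : cr (T.comp (dil d ρ)) = ρ * cr T := by
  unfold cr
  rw [Finset.mul_sum]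
  refine Finset.sum_congr rfl fun i _ => ?_
  rw [dil_z, dil_x, inner_smul_right]

/-- a nonnegative `2x2` form -/
theorem quad {X Y Z A B C : ℝ} (hX : 0 ≤ X) (hZ : 0 ≤ Z) (hY : Y ^ 2 ≤ X * Z) (hA : 0 ≤ A)
    (hC : 0 ≤ C) (hB : B ^ 2 ≤ 4 * A * C) : 0 ≤ A * X + B * Y + C * Z := by
  have h1 : (B * Y) ^ 2 ≤ (A * X + C * Z) ^ 2 := by
    calc (B * Y) ^ 2 = B ^ 2 * Y ^ 2 := by ring
      _ ≤ (4 * A * C) * (X * Z) :=
          mul_le_mul hB hY (sq_nonneg _) (by positivity)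
      _ ≤ (A * X + C * Z) ^ 2 := by nlinarith [sq_nonneg (A * X - C * Z)]
  have h2 := abs_le_of_sq_le_sq h1 (by positivity)
  linarith [neg_abs_le (B * Y)]

/-- coefficients of `frm_step` -/
theorem coeff {h n ρ θ : ℝ} (h0 : 0 < h) (hn : 2 ≤ n) (hnh : n * h ≤ 1 / 100) (hρ0 : 0 ≤ ρ)
    (hρ : ρ ^ 2 = 1 - 8 * h) (hθ : θ = (1 + 250 * h ^ 2 * n)⁻¹ ^ 2) :
    3 / 10 * n ^ 2 ≤ θ * (n ^ 3 + 7 / 2 * n ^ 2 + 7 / 2 * n) - (n + 1) ^ 3 ∧
    29 ≤ θ * (7 * n / 8) + 30 - 7 / 8 * (n + 1) * ρ ^ 2 ∧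
    |7 / 4 * (n + 1) ^ 2 * ρ - θ * (7 / 4 * n * (n + 2))| ≤ 7 / 5 * n := by
  have hh : h ≤ 1 / 200 := by nlinarith
  have hθ1 : θ ≤ 1 := by
    rw [hθ]
    have : (1 + 250 * h ^ 2 * n)⁻¹ ≤ 1 := inv_le_one_of_one_le₀ (by
      have : 0 ≤ 250 * h ^ 2 * n := by positivity
      linarith)
    exact pow_le_one₀ (by positivity) this
  have hθ2 : 1 - 5 * h ≤ θ := by
    rw [hθ, inv_pow]
    have h1 : 250 * h ^ 2 * n ≤ 5 / 2 * h := by nlinarith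
    have h2 : 0 ≤ 250 * h ^ 2 * n := by positivity
    have h3 : 0 < (1 + 250 * h ^ 2 * n) ^ 2 := by positivity
    rw [← one_div, le_div_iff₀ h3]
    have h4 : (1 + 250 * h ^ 2 * n) ^ 2 ≤ (1 + 5 / 2 * h) ^ 2 :=
      pow_le_pow_left₀ (by linarith) (by linarith) 2
    calc (1 - 5 * h) * (1 + 250 * h ^ 2 * n) ^ 2 ≤ (1 - 5 * h) * (1 + 5 / 2 * h) ^ 2 :=
          mul_le_mul_of_nonneg_left h4 (by linarith)
      _ ≤ 1 := by nlinarith [sq_nonneg h, pow_nonneg h0.le 3]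
  have hρ1 : ρ ≤ 1 - 4 * h := by
    by_contra hc
    push Not at hc
    nlinarith [sq_nonneg h]
  have hρ2 : 1 - 8 * h ≤ ρ := by
    rw [← hρ]
    nlinarith
  have hδ0 : 0 ≤ 1 - θ := by linarith
  have hδ : n * (1 - θ) ≤ 1 / 20 := by nlinarith
  refine ⟨?_, ?_, ?_⟩
  · have e : θ * (n ^ 3 + 7 / 2 * n ^ 2 + 7 / 2 * n) - (n + 1) ^ 3 =
        1 / 2 * n ^ 2 + 1 / 2 * n - 1 - n * (1 - θ) * (n ^ 2 + 7 / 2 * n + 7 / 2) := by ring
    rw [e]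
    have := mul_le_mul_of_nonneg_right hδ (by positivity : 0 ≤ n ^ 2 + 7 / 2 * n + 7 / 2)
    nlinarith
  · have : 7 / 8 * (n + 1) * ρ ^ 2 ≤ 7 / 8 * (n + 1) * 1 :=
      mul_le_mul_of_nonneg_left (by linarith) (by positivity)
    nlinarith
  · have e : 7 / 4 * (n + 1) ^ 2 * ρ - θ * (7 / 4 * n * (n + 2)) =
        7 / 4 * ((n + 1) ^ 2 * (ρ - θ) + θ) := by ring
    rw [e]
    have h1 : |ρ - θ| ≤ 8 * h := abs_le.2 ⟨by linarith, by linarith⟩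
    have h2 : (n + 1) ^ 2 * |ρ - θ| ≤ 9 / 50 * n := by
      calc (n + 1) ^ 2 * |ρ - θ| ≤ (n + 1) ^ 2 * (8 * h) :=
            mul_le_mul_of_nonneg_left h1 (by positivity)
        _ ≤ (9 / 4 * n ^ 2) * (8 * h) := mul_le_mul_of_nonneg_right (by nlinarith) (by positivity)
        _ = 18 * n * (n * h) := by ring
        _ ≤ 18 * n * (1 / 100) := mul_le_mul_of_nonneg_left hnh (by positivity)
        _ = 9 / 50 * n := by ring
    have h3 : |7 / 4 * ((n + 1) ^ 2 * (ρ - θ) + θ)| ≤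
        7 / 4 * ((n + 1) ^ 2 * |ρ - θ| + |θ|) := by
      rw [abs_mul, abs_of_pos (by norm_num : (0 : ℝ) < 7 / 4)]
      refine mul_le_mul_of_nonneg_left ?_ (by norm_num)
      refine (abs_add_le _ _).trans ?_
      rw [abs_mul, abs_of_nonneg (sq_nonneg (n + 1))]
    have h4 : |θ| ≤ 1 := abs_le.2 ⟨by linarith, hθ1⟩
    refine h3.trans ?_
    linarith

end KStepAux

open KStepAux in
theorem frm_step {q : E2 d →L[ℝ] G} {h n : ℝ} (h0 : 0 < h) (hn : 2 ≤ n) (hnh : n * h ≤ 1 / 100) :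
    8 * h / 30 * frm (n + 1) (q.comp (dil d (Real.sqrt (1 - 8 * h)))) ≤
      (1 + 250 * h ^ 2 * n)⁻¹ ^ 2 * (8 * h / 30 * frm' n q) + 8 * h * hz q := by
  have hh : h ≤ 1 / 200 := by nlinarith
  have hρ0 := Real.sqrt_nonneg (1 - 8 * h)
  have hρ : Real.sqrt (1 - 8 * h) ^ 2 = 1 - 8 * h := Real.sq_sqrt (by linarith)
  obtain ⟨c1, c2, c3⟩ := coeff h0 hn hnh hρ0 hρ rfl
  unfold frm frm'
  rw [hd_expand, hd_expand, hx_dil, hz_dil, cr_dil]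
  have hX := hx_nonneg q
  have hZ := hz_nonneg q
  have hY := cr_sq q
  generalize Real.sqrt (1 - 8 * h) = ρ at *
  generalize (1 + 250 * h ^ 2 * n)⁻¹ ^ 2 = θ at *
  generalize hx q = X at *
  generalize hz q = Z at *
  generalize cr q = Y at *
  have hA : 0 ≤ 3 / 10 * n ^ 2 := by positivity
  have hB : (7 / 4 * (n + 1) ^ 2 * ρ - θ * (7 / 4 * n * (n + 2))) ^ 2 ≤
      4 * (θ * (n ^ 3 + 7 / 2 * n ^ 2 + 7 / 2 * n) - (n + 1) ^ 3) *
        (θ * (7 * n / 8) + 30 - 7 / 8 * (n + 1) * ρ ^ 2) := by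
    have b1 : (7 / 4 * (n + 1) ^ 2 * ρ - θ * (7 / 4 * n * (n + 2))) ^ 2 ≤ (7 / 5 * n) ^ 2 := by
      rw [← sq_abs]
      exact pow_le_pow_left₀ (abs_nonneg _) c3 2
    have b2 : (3 / 10 * n ^ 2) * 29 ≤ (θ * (n ^ 3 + 7 / 2 * n ^ 2 + 7 / 2 * n) - (n + 1) ^ 3) *
        (θ * (7 * n / 8) + 30 - 7 / 8 * (n + 1) * ρ ^ 2) :=
      mul_le_mul c1 c2 (by norm_num) (hA.trans c1)
    nlinarith
  have key := quad hX hZ hY (hA.trans c1) (le_trans (by norm_num) c2) hB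
  have e : θ * (8 * h / 30 * (n ^ 3 / 8 * X + 7 * n / 8 * (Z - 2 * (n + 2) * Y +
      (n + 2) ^ 2 * X))) + 8 * h * Z -
      8 * h / 30 * ((n + 1) ^ 3 / 8 * X + 7 * (n + 1) / 8 * (ρ ^ 2 * Z -
        2 * (n + 1) * (ρ * Y) + (n + 1) ^ 2 * X)) =
      8 * h / 30 * ((θ * (n ^ 3 + 7 / 2 * n ^ 2 + 7 / 2 * n) - (n + 1) ^ 3) * X +
        (7 / 4 * (n + 1) ^ 2 * ρ - θ * (7 / 4 * n * (n + 2))) * Y +
        (θ * (7 * n / 8) + 30 - 7 / 8 * (n + 1) * ρ ^ 2) * Z) := by ring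
  have f := mul_nonneg (by positivity : 0 ≤ 8 * h / 30) key
  rw [← e] at f
  linarith

open KStepAux in
theorem base_step {q : E2 d →L[ℝ] G} {h : ℝ} (h0 : 0 < h) (h1 : h ≤ 1 / 100) :
    8 * h / 30 * frm 2 (q.comp (dil d (Real.sqrt (1 - 8 * h)))) ≤
      (h ^ 2) ^ 2 / 6 * hx q + 8 * h / 6 * hd 2 q + 8 * h * hz q := by
  have hρ0 := Real.sqrt_nonneg (1 - 8 * h)
  have hρ : Real.sqrt (1 - 8 * h) ^ 2 = 1 - 8 * h := Real.sq_sqrt (by linarith)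
  unfold frm
  rw [hd_expand, hd_expand, hx_dil, hz_dil, cr_dil]
  have hX := hx_nonneg q
  have hZ := hz_nonneg q
  have hY := cr_sq q
  generalize Real.sqrt (1 - 8 * h) = ρ at *
  generalize hx q = X at *
  generalize hz q = Z at *
  generalize cr q = Y at *
  have hρ1 : ρ ≤ 1 := by nlinarith
  have key := quad (A := 12) (B := -20 + 7 * ρ) (C := 33) hX hZ hY (by norm_num) (by norm_num)
    (by nlinarith)
  have f := mul_nonneg (by positivity : 0 ≤ 8 * h / 30) key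
  have g1 : 0 ≤ (h ^ 2) ^ 2 / 6 * X := by positivity
  have g2 : 8 * h / 30 * (7 / 4 * ρ ^ 2 * Z) ≤ 8 * h / 30 * (2 * Z) := by
    refine mul_le_mul_of_nonneg_left ?_ (by positivity)
    refine mul_le_mul_of_nonneg_right ?_ hZ
    rw [hρ]; linarith
  have e : (h ^ 2) ^ 2 / 6 * X + 8 * h / 6 * (Z - 2 * 2 * Y + 2 ^ 2 * X) + 8 * h * Z -
      8 * h / 30 * (2 ^ 3 / 8 * X + 7 * 2 / 8 * (ρ ^ 2 * Z - 2 * 2 * (ρ * Y) + 2 ^ 2 * X)) =
      (h ^ 2) ^ 2 / 6 * X + 8 * h / 30 * (12 * X + (-20 + 7 * ρ) * Y + 33 * Z) +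
        (8 * h / 30 * (2 * Z) - 8 * h / 30 * (7 / 4 * ρ ^ 2 * Z)) := by ring
  linarith

open KStepAux in
theorem frm_lower_x {q : E2 d →L[ℝ] G} {n : ℝ} (hn : 0 < n) : hx q ≤ 8 / n ^ 3 * frm n q := by
  have h1 := hd_nonneg n q
  unfold frm
  have h3 : 8 / n ^ 3 * (n ^ 3 / 8 * hx q + 7 * n / 8 * hd n q) =
      hx q + 7 / n ^ 2 * hd n q := by
    field_simp
  rw [h3]
  have : 0 ≤ 7 / n ^ 2 * hd n q := by positivity
  linarith

open KStepAux in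
theorem frm_lower_z {q : E2 d →L[ℝ] G} {n : ℝ} (hn : 0 < n) : hz q ≤ 20 / n * frm n q := by
  unfold frm
  have h3 : 20 / n * (n ^ 3 / 8 * hx q + 7 * n / 8 * hd n q) =
      5 / 2 * (n ^ 2 * hx q) + 35 / 2 * hd n q := by
    field_simp
    ring
  rw [h3, hd_expand]
  have hX := hx_nonneg q
  have hZ := hz_nonneg q
  have hY := cr_sq q
  have key := quad (A := 20 * n ^ 2) (B := -35 * n) (C := 33 / 2) hX hZ hY (by positivity)
    (by norm_num) (by nlinarith [sq_nonneg n])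
  linarith

end form

end Vale.Agent.P347
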