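import Vale.Agent.P347.KMap2
import Vale.Agent.P347.KForm
import Vale.Agent.P347.KStep

/-!
# P347, C'5: the smoothing estimate (S)
-/

open MeasureTheory ProbabilityTheory
open scoped ENNReal NNReal RealInnerProductSpace

namespace Vale.Agent.P347

namespace KSm

/-- a nonnegative form `α |T_x|² + β |T_z - a T_x|²` -/
noncomputable def qf {d : ℕ} {G : Type*} [NormedAddCommGroup G] [NormedSpace ℝ G] (α a β : ℝ)
    (T : E2 d →L[ℝ] G) : ℝ := α * hx T + β * hd a T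

section basic

variable {d : ℕ} {G : Type*} [NormedAddCommGroup G] [InnerProductSpace ℝ G]

theorem hx_nonneg (T : E2 d →L[ℝ] G) : 0 ≤ hx T := Finset.sum_nonneg fun _ _ => by positivity

theorem hz_nonneg (T : E2 d →L[ℝ] G) : 0 ≤ hz T := Finset.sum_nonneg fun _ _ => by positivity

theorem hd_nonneg (a : ℝ) (T : E2 d →L[ℝ] G) : 0 ≤ hd a T :=
  Finset.sum_nonneg fun _ _ => by positivity

theorem hx_cont : Continuous fun T : E2 d →L[ℝ] G => hx T := by
  unfold hx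
  fun_prop

theorem hd_cont (a : ℝ) : Continuous fun T : E2 d →L[ℝ] G => hd a T := by
  unfold hd
  fun_prop

theorem qf_cont (α a β : ℝ) : Continuous fun T : E2 d →L[ℝ] G => qf α a β T :=
  (hx_cont.const_mul α).add ((hd_cont a).const_mul β)

theorem qf_nonneg {α a β : ℝ} (hα : 0 ≤ α) (hβ : 0 ≤ β) (T : E2 d →L[ℝ] G) : 0 ≤ qf α a β T :=
  add_nonneg (mul_nonneg hα (hx_nonneg T)) (mul_nonneg hβ (hd_nonneg a T))

theorem sum_le {T : E2 d →L[ℝ] G} {C : ℝ} (hT : ‖T‖ ≤ C) (e : Fin d → E2 d) :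
    ∑ i, ‖T (e i)‖ ^ 2 ≤ C ^ 2 * ∑ i, ‖e i‖ ^ 2 := by
  rw [Finset.mul_sum]
  refine Finset.sum_le_sum fun i _ => ?_
  rw [← mul_pow]
  exact pow_le_pow_left₀ (norm_nonneg _) (T.le_of_opNorm_le hT _) 2

/-- the form is bounded on bounded sets -/
theorem qf_bound (α a β : ℝ) (C : ℝ) : ∃ B, ∀ T : E2 d →L[ℝ] G, ‖T‖ ≤ C → |qf α a β T| ≤ B := by
  refine ⟨|α| * (C ^ 2 * ∑ i : Fin d, ‖((eb i : E d), (0 : E d))‖ ^ 2) +
    |β| * (C ^ 2 * ∑ i : Fin d, ‖(-(a • (eb i : E d)), (eb i : E d))‖ ^ 2), fun T hT => ?_⟩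
  unfold qf
  refine (abs_add_le _ _).trans ?_
  rw [abs_mul, abs_mul, abs_of_nonneg (hx_nonneg T), abs_of_nonneg (hd_nonneg a T)]
  exact add_le_add (mul_le_mul_of_nonneg_left (sum_le hT _) (abs_nonneg _))
    (mul_le_mul_of_nonneg_left (sum_le hT _) (abs_nonneg _))

end basic

section jen

variable {d : ℕ} {Ω G : Type*} [MeasurableSpace Ω] [NormedAddCommGroup G]
  [InnerProductSpace ℝ G] [CompleteSpace G] {μ : Measure Ω} [IsProbabilityMeasure μ]
  {T : Ω → (E2 d →L[ℝ] G)}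

theorem jen_qf {α a β : ℝ} (hα : 0 ≤ α) (hβ : 0 ≤ β) (hm : AEStronglyMeasurable T μ) {C : ℝ}
    (hT : ∀ ω, ‖T ω‖ ≤ C) : qf α a β (∫ ω, T ω ∂μ) ≤ ∫ ω, qf α a β (T ω) ∂μ := by
  unfold qf
  rw [integral_add ((KN.hx_integrable hm hT).const_mul _)
    ((KN.hd_integrable _ hm hT).const_mul _), integral_const_mul, integral_const_mul]
  exact add_le_add (mul_le_mul_of_nonneg_left (KN.jen_hx hm hT) hα)
    (mul_le_mul_of_nonneg_left (KN.jen_hd _ hm hT) hβ)

end jen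

section mono

variable {d : ℕ} {κ : Type} [Fintype κ] {F : E2 d → (κ → E d) → E d} {h ε σ ρ r : ℝ}

theorem opM_mono (hF : Force κ F) {f g : E2 d → ℝ} (hf : StronglyMeasurable f)
    (hg : StronglyMeasurable g) {B : ℝ} (bf : ∀ s, ‖f s‖ ≤ B) (bg : ∀ s, ‖g s‖ ≤ B)
    (hfg : ∀ s, f s ≤ g s) (s : E2 d) : opM F ε f s ≤ opM F ε g s := by
  have hk : Measurable fun ω => kmap F ε s ω :=
    ((KMapAux.cont_kmap hF ε).comp (continuous_const.prodMk continuous_id)).measurable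
  exact integral_mono
    (Integrable.mono' (integrable_const B) (hf.comp_measurable hk).aestronglyMeasurable
      (ae_of_all _ fun _ => bf _))
    (Integrable.mono' (integrable_const B) (hg.comp_measurable hk).aestronglyMeasurable
      (ae_of_all _ fun _ => bg _)) fun _ => hfg _

theorem opN_mono {f g : E2 d → ℝ} (hf : StronglyMeasurable f)
    (hg : StronglyMeasurable g) {B : ℝ} (bf : ∀ s, ‖f s‖ ≤ B) (bg : ∀ s, ‖g s‖ ≤ B)
    (hfg : ∀ s, f s ≤ g s) (s : E2 d) : opN σ ρ r f s ≤ opN σ ρ r g s := by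
  have hk : Measurable fun q : E2 d => (s.1 + σ • q.1, ρ • s.2 + r • q.2) := by fun_prop
  exact integral_mono
    (Integrable.mono' (integrable_const B) (hf.comp_measurable hk).aestronglyMeasurable
      (ae_of_all _ fun _ => bf _))
    (Integrable.mono' (integrable_const B) (hg.comp_measurable hk).aestronglyMeasurable
      (ae_of_all _ fun _ => bg _)) fun _ => hfg _

theorem opN_add {f g : E2 d → ℝ} (hf : StronglyMeasurable f)
    (hg : StronglyMeasurable g) {B : ℝ} (bf : ∀ s, ‖f s‖ ≤ B) (bg : ∀ s, ‖g s‖ ≤ B)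
    (s : E2 d) : opN σ ρ r (fun s => f s + g s) s = opN σ ρ r f s + opN σ ρ r g s := by
  have hk : Measurable fun q : E2 d => (s.1 + σ • q.1, ρ • s.2 + r • q.2) := by fun_prop
  exact integral_add
    (Integrable.mono' (integrable_const B) (hf.comp_measurable hk).aestronglyMeasurable
      (ae_of_all _ fun _ => bf _))
    (Integrable.mono' (integrable_const B) (hg.comp_measurable hk).aestronglyMeasurable
      (ae_of_all _ fun _ => bg _))

end mono

section step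

variable {d : ℕ} {κ : Type} [Fintype κ] {G : Type*} [NormedAddCommGroup G] [InnerProductSpace ℝ G]
  [CompleteSpace G] {F : E2 d → (κ → E d) → E d} {h σ ρ r : ℝ}

theorem opN_comp_dil {T : E2 d → (E2 d →L[ℝ] G)} (hm : StronglyMeasurable T) {C : ℝ}
    (hT : ∀ s, ‖T s‖ ≤ C) (ρ' : ℝ) (s : E2 d) :
    opN σ ρ r (fun s' => (T s').comp (dil d ρ')) s = (opN σ ρ r T s).comp (dil d ρ') := by
  have hk : Measurable fun q : E2 d => (s.1 + σ • q.1, ρ • s.2 + r • q.2) := by fun_prop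
  have hi : Integrable (fun q : E2 d => T (s.1 + σ • q.1, ρ • s.2 + r • q.2))
      ((gam d).prod (gam d)) :=
    Integrable.mono' (integrable_const C) (hm.comp_measurable hk).aestronglyMeasurable
      (ae_of_all _ fun _ => hT _)
  exact ContinuousLinearMap.integral_comp_comm
    ((ContinuousLinearMap.compL ℝ (E2 d) (E2 d) G).flip (dil d ρ')) hi

omit [CompleteSpace G] in
theorem hz_dil (q : E2 d →L[ℝ] G) (ρ : ℝ) : hz (q.comp (dil d ρ)) = ρ ^ 2 * hz q := by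
  unfold hz
  rw [Finset.mul_sum]
  refine Finset.sum_congr rfl fun i _ => ?_
  have h1 : (q.comp (dil d ρ)) (0, eb i) = ρ • q (0, eb i) := by
    have h2 : dil d ρ (0, eb i) = ρ • ((0, eb i) : E2 d) := by simp [dil]
    rw [← map_smul, ← h2]
    rfl
  rw [h1, norm_smul, mul_pow, Real.norm_eq_abs, sq_abs]

theorem step_gen (hF : Force κ F) (h0 : 0 < h) (h1 : h ≤ 1 / 10000) {u : E2 d → G} (hu : Nice u)
    {w : E2 d → ℝ} (hw : StronglyMeasurable w) {B : ℝ} (bw : ∀ s, ‖w s‖ ≤ B)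
    {m α a β α' a' β' : ℝ} (hα : 0 ≤ α') (hβ : 0 ≤ β')
    (hcomp : ∀ (T : E2 d →L[ℝ] G) (L : E2 d →L[ℝ] E d), (∀ a, ‖L (a, 0)‖ ≤ 8 * ‖a‖) →
      (∀ a, ‖L (0, a)‖ ≤ 8 * ‖a‖) → qf α' a' β' (T.comp (kjac (h ^ 2) L)) ≤ qf α a β T)
    (hstep : ∀ q : E2 d →L[ℝ] G, 8 * h / 30 * frm m (q.comp (dil d (Real.sqrt (1 - 8 * h)))) ≤
      qf α' a' β' q + 8 * h * hz q)
    (hyp : ∀ s, qf α a β (fderiv ℝ u s) + ‖u s‖ ^ 2 ≤ w s) (s : E2 d) :
    8 * h / 30 * frm m (fderiv ℝ (opT F h u) s) + ‖opT F h u s‖ ^ 2 ≤ opT F h w s := by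
  have hε0 : (0 : ℝ) ≤ h ^ 2 := by positivity
  have hε1 : h ^ 2 ≤ 1 := by nlinarith
  have hσ : 0 < h ^ 2 := by positivity
  have hρ : 0 < Real.sqrt (1 - 8 * h) := Real.sqrt_pos.2 (by linarith)
  have hr : 0 < Real.sqrt (8 * h) := Real.sqrt_pos.2 (by linarith)
  set v := opM F (h ^ 2) u with hv
  have nv : Nice v := opM_nice hF hε0 hε1 hu
  obtain ⟨Cu, hCu⟩ := hu.bd
  obtain ⟨Du, hDu⟩ := hu.dbd
  obtain ⟨Cv, hCv⟩ := nv.bd
  obtain ⟨Dv, hDv⟩ := nv.dbd
  have cu := hu.smooth.continuous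
  have cu' := hu.smooth.continuous_fderiv one_ne_zero
  have cv := nv.smooth.continuous
  have cv' := nv.smooth.continuous_fderiv one_ne_zero
  set q := opN (h ^ 2) (Real.sqrt (1 - 8 * h)) (Real.sqrt (8 * h)) (fderiv ℝ v) s with hq
  have e1 : fderiv ℝ (opT F h u) s = q.comp (dil d (Real.sqrt (1 - 8 * h))) := by
    have := opN_fderiv hσ hρ hr nv s
    rw [opN_comp_dil cv'.stronglyMeasurable hDv] at this
    exact this
  have bes := opN_bessel hσ hρ hr cv.stronglyMeasurable hCv s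
  have e2 : fderiv ℝ (opN (h ^ 2) (Real.sqrt (1 - 8 * h)) (Real.sqrt (8 * h)) v) s =
      q.comp (dil d (Real.sqrt (1 - 8 * h))) := e1
  rw [e2, hz_dil] at bes
  have e3 : (Real.sqrt (8 * h) / Real.sqrt (1 - 8 * h)) ^ 2 *
      (Real.sqrt (1 - 8 * h) ^ 2 * hz q) = 8 * h * hz q := by
    have gen : ∀ a b c : ℝ, b ≠ 0 → (a / b) ^ 2 * (b ^ 2 * c) = a ^ 2 * c := by
      intro a b c hb
      field_simp
    rw [gen _ _ _ hρ.ne', Real.sq_sqrt (by linarith)]
  rw [e3] at bes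
  have e4 : 0 ≤ (h ^ 2) ^ 2 * hx (q.comp (dil d (Real.sqrt (1 - 8 * h)))) :=
    mul_nonneg (by positivity) (hx_nonneg _)
  have hs := hstep q
  have hk : Measurable fun q : E2 d => (s.1 + h ^ 2 • q.1,
    Real.sqrt (1 - 8 * h) • s.2 + Real.sqrt (8 * h) • q.2) := by fun_prop
  have hj : qf α' a' β' q ≤ opN (h ^ 2) (Real.sqrt (1 - 8 * h)) (Real.sqrt (8 * h))
      (fun s' => qf α' a' β' (fderiv ℝ v s')) s :=
    jen_qf hα hβ (cv'.stronglyMeasurable.comp_measurable hk).aestronglyMeasurable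
      (fun _ => hDv _)
  -- pointwise
  have pw : ∀ s', qf α' a' β' (fderiv ℝ v s') + ‖v s'‖ ^ 2 ≤ opM F (h ^ 2) w s' := by
    intro s'
    have hkc : Continuous fun ω => kmap F (h ^ 2) s' ω :=
      (KMapAux.cont_kmap hF (h ^ 2)).comp (continuous_const.prodMk continuous_id)
    have hfc : Continuous fun ω => fderiv ℝ (fun s => F s ω) s' :=
      (force_fderiv_cont hF).comp (continuous_const.prodMk continuous_id)
    have hTc : Continuous fun ω => (fderiv ℝ u (kmap F (h ^ 2) s' ω)).comp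
        (kjac (h ^ 2) (fderiv ℝ (fun s => F s ω) s')) :=
      (cu'.comp hkc).clm_comp ((KMapAux.cont_kjac (h ^ 2)).comp hfc)
    have hDu0 : 0 ≤ Du := (norm_nonneg _).trans (hDu 0)
    have hTb : ∀ ω, ‖(fderiv ℝ u (kmap F (h ^ 2) s' ω)).comp
        (kjac (h ^ 2) (fderiv ℝ (fun s => F s ω) s'))‖ ≤ Du * 19 := fun ω =>
      (ContinuousLinearMap.opNorm_comp_le _ _).trans (mul_le_mul (hDu _)
        (KMapAux.norm_kjac_le hε0 hε1 (KMapAux.norm_fderiv_le hF s' ω)) (norm_nonneg _) hDu0)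
    have f1 : qf α' a' β' (fderiv ℝ v s') ≤ ∫ ω, qf α' a' β' ((fderiv ℝ u
        (kmap F (h ^ 2) s' ω)).comp (kjac (h ^ 2) (fderiv ℝ (fun s => F s ω) s')))
        ∂gamPi d κ := by
      rw [hv, opM_fderiv hF hε0 hε1 hu]
      exact jen_qf hα hβ hTc.aestronglyMeasurable hTb
    obtain ⟨B1, hB1⟩ := qf_bound (d := d) (G := G) α' a' β' (Du * 19)
    obtain ⟨B2, hB2⟩ := qf_bound (d := d) (G := G) α a β Du
    have i1 : Integrable (fun ω => qf α' a' β' ((fderiv ℝ u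
        (kmap F (h ^ 2) s' ω)).comp (kjac (h ^ 2) (fderiv ℝ (fun s => F s ω) s'))))
        (gamPi d κ) :=
      Integrable.mono' (integrable_const B1) ((qf_cont _ _ _).comp hTc).aestronglyMeasurable
        (ae_of_all _ fun ω => hB1 _ (hTb ω))
    have i2 : Integrable (fun ω => qf α a β (fderiv ℝ u (kmap F (h ^ 2) s' ω))) (gamPi d κ) :=
      Integrable.mono' (integrable_const B2)
        ((qf_cont _ _ _).comp (cu'.comp hkc)).aestronglyMeasurable
        (ae_of_all _ fun ω => hB2 _ (hDu _))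
    have i3 : Integrable (fun ω => ‖u (kmap F (h ^ 2) s' ω)‖ ^ 2) (gamPi d κ) :=
      Integrable.mono' (integrable_const (Cu ^ 2))
        (((cu.comp hkc).norm).pow 2).aestronglyMeasurable (ae_of_all _ fun ω => by
          rw [Real.norm_of_nonneg (by positivity)]
          exact pow_le_pow_left₀ (norm_nonneg _) (hCu _) 2)
    have i4 : Integrable (fun ω => u (kmap F (h ^ 2) s' ω)) (gamPi d κ) :=
      Integrable.mono' (integrable_const Cu) (cu.comp hkc).aestronglyMeasurable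
        (ae_of_all _ fun ω => hCu _)
    have i5 : Integrable (fun ω => w (kmap F (h ^ 2) s' ω)) (gamPi d κ) :=
      Integrable.mono' (integrable_const B)
        (hw.comp_measurable hkc.measurable).aestronglyMeasurable (ae_of_all _ fun ω => bw _)
    have f2 : ∫ ω, qf α' a' β' ((fderiv ℝ u (kmap F (h ^ 2) s' ω)).comp
        (kjac (h ^ 2) (fderiv ℝ (fun s => F s ω) s'))) ∂gamPi d κ ≤
        ∫ ω, qf α a β (fderiv ℝ u (kmap F (h ^ 2) s' ω)) ∂gamPi d κ :=
      integral_mono i1 i2 fun ω => hcomp _ _ (force_fderiv_x hF s' ω) (force_fderiv_z hF s' ω)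
    have f3 : ‖v s'‖ ^ 2 ≤ ∫ ω, ‖u (kmap F (h ^ 2) s' ω)‖ ^ 2 ∂gamPi d κ :=
      MehlerAux.jensen (gamPi d κ) i4 i3
    calc qf α' a' β' (fderiv ℝ v s') + ‖v s'‖ ^ 2 ≤
        ∫ ω, qf α a β (fderiv ℝ u (kmap F (h ^ 2) s' ω)) ∂gamPi d κ +
          ∫ ω, ‖u (kmap F (h ^ 2) s' ω)‖ ^ 2 ∂gamPi d κ := add_le_add (f1.trans f2) f3
      _ = ∫ ω, (qf α a β (fderiv ℝ u (kmap F (h ^ 2) s' ω)) +
          ‖u (kmap F (h ^ 2) s' ω)‖ ^ 2) ∂gamPi d κ := (integral_add i2 i3).symm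
      _ ≤ ∫ ω, w (kmap F (h ^ 2) s' ω) ∂gamPi d κ :=
          integral_mono (i2.add i3) i5 fun ω => hyp _
      _ = opM F (h ^ 2) w s' := rfl
  obtain ⟨B3, hB3⟩ := qf_bound (d := d) (G := G) α' a' β' Dv
  have m1 : StronglyMeasurable fun s' => qf α' a' β' (fderiv ℝ v s') :=
    ((qf_cont _ _ _).comp cv').stronglyMeasurable
  have m2 : StronglyMeasurable fun s' => ‖v s'‖ ^ 2 := (cv.norm.pow 2).stronglyMeasurable
  have b1 : ∀ s', ‖qf α' a' β' (fderiv ℝ v s')‖ ≤ |B3| + Cv ^ 2 + |B| := fun s' => by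
    have := hB3 _ (hDv s')
    rw [Real.norm_eq_abs]
    nlinarith [le_abs_self B3, abs_nonneg B, sq_nonneg Cv]
  have b2 : ∀ s', ‖‖v s'‖ ^ 2‖ ≤ |B3| + Cv ^ 2 + |B| := fun s' => by
    rw [Real.norm_of_nonneg (by positivity)]
    have := pow_le_pow_left₀ (norm_nonneg _) (hCv s') 2
    nlinarith [abs_nonneg B3, abs_nonneg B]
  have b3 : ∀ s', ‖qf α' a' β' (fderiv ℝ v s') + ‖v s'‖ ^ 2‖ ≤
      2 * (|B3| + Cv ^ 2 + |B|) := fun s' => by
    refine (norm_add_le _ _).trans ?_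
    linarith [b1 s', b2 s']
  have b4 : ∀ s', ‖opM F (h ^ 2) w s'‖ ≤ 2 * (|B3| + Cv ^ 2 + |B|) := fun s' => by
    refine (opM_norm_le bw s').trans ?_
    nlinarith [abs_nonneg B3, abs_nonneg B, le_abs_self B, sq_nonneg Cv]
  have fin : opN (h ^ 2) (Real.sqrt (1 - 8 * h)) (Real.sqrt (8 * h))
      (fun s' => qf α' a' β' (fderiv ℝ v s') + ‖v s'‖ ^ 2) s ≤ opT F h w s :=
    opN_mono (m1.add m2) (opM_stronglyMeasurable hF hw) b3 b4 pw s
  rw [opN_add m1 m2 b1 b2] at fin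
  rw [e1]
  have e5 : opT F h u s = opN (h ^ 2) (Real.sqrt (1 - 8 * h)) (Real.sqrt (8 * h)) v s := rfl
  rw [e5]
  linarith

/-- the bound for one step of the chain -/
theorem one_step (hF : Force κ F) (h0 : 0 < h) (h1 : h ≤ 1 / 10000) {p : E2 d → G}
    (hm : StronglyMeasurable p) {P : ℝ} (hp : ∀ s, ‖p s‖ ≤ P) (s : E2 d) :
    (h ^ 2) ^ 2 * hx (fderiv ℝ (opT F h p) s) + 8 * h * hz (fderiv ℝ (opT F h p) s) +
      ‖opT F h p s‖ ^ 2 ≤ opT F h (fun s => ‖p s‖ ^ 2) s := by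
  have hσ : 0 < h ^ 2 := by positivity
  have hρ : 0 < Real.sqrt (1 - 8 * h) := Real.sqrt_pos.2 (by linarith)
  have hr : 0 < Real.sqrt (8 * h) := Real.sqrt_pos.2 (by linarith)
  have mv : StronglyMeasurable (opM F (h ^ 2) p) := opM_stronglyMeasurable hF hm
  have bv : ∀ s, ‖opM F (h ^ 2) p s‖ ≤ P := opM_norm_le hp
  have bes := opN_bessel hσ hρ hr mv bv s
  have e1 : 8 * h ≤ (Real.sqrt (8 * h) / Real.sqrt (1 - 8 * h)) ^ 2 := by
    rw [div_pow, Real.sq_sqrt (by linarith), Real.sq_sqrt (by linarith),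
      le_div_iff₀ (by linarith)]
    nlinarith
  have e2 := mul_le_mul_of_nonneg_right e1 (hz_nonneg (fderiv ℝ (opT F h p) s))
  have m2 : StronglyMeasurable fun s => ‖p s‖ ^ 2 := hm.norm.pow 2
  have b2 : ∀ s, ‖‖p s‖ ^ 2‖ ≤ P ^ 2 := fun s => by
    rw [Real.norm_of_nonneg (by positivity)]
    exact pow_le_pow_left₀ (norm_nonneg _) (hp s) 2
  have pw : ∀ s', ‖opM F (h ^ 2) p s'‖ ^ 2 ≤ opM F (h ^ 2) (fun s => ‖p s‖ ^ 2) s' := by
    intro s'
    have hkc : Continuous fun ω => kmap F (h ^ 2) s' ω :=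
      (KMapAux.cont_kmap hF (h ^ 2)).comp (continuous_const.prodMk continuous_id)
    refine MehlerAux.jensen (gamPi d κ) ?_ ?_
    · exact Integrable.mono' (integrable_const P)
        (hm.comp_measurable hkc.measurable).aestronglyMeasurable (ae_of_all _ fun ω => hp _)
    · exact Integrable.mono' (integrable_const (P ^ 2))
        (m2.comp_measurable hkc.measurable).aestronglyMeasurable (ae_of_all _ fun ω => b2 _)
  have b5 : ∀ s', ‖‖opM F (h ^ 2) p s'‖ ^ 2‖ ≤ P ^ 2 := fun s' => by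
    rw [Real.norm_of_nonneg (by positivity)]
    exact pow_le_pow_left₀ (norm_nonneg _) (bv s') 2
  have fin : opN (h ^ 2) (Real.sqrt (1 - 8 * h)) (Real.sqrt (8 * h))
      (fun s' => ‖opM F (h ^ 2) p s'‖ ^ 2) s ≤ opT F h (fun s => ‖p s‖ ^ 2) s :=
    opN_mono (mv.norm.pow 2) (opM_stronglyMeasurable hF m2) b5 (opM_norm_le b2) pw s
  have e5 : opT F h p = opN (h ^ 2) (Real.sqrt (1 - 8 * h)) (Real.sqrt (8 * h))
    (opM F (h ^ 2) p) := rfl
  rw [e5] at e2 ⊢
  linarith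

end step

end KSm

section smooth
variable {d : ℕ} {κ : Type} [Fintype κ] {G : Type*} [NormedAddCommGroup G] [InnerProductSpace ℝ G]
  [CompleteSpace G] {F : E2 d → (κ → E d) → E d} {h : ℝ}

open KSm

namespace KSm

/-- powers applied to a bounded function -/
theorem iter_le {p : E2 d → G} {P : ℝ} (hp : ∀ s, ‖p s‖ ≤ P) (n : ℕ) (s : E2 d) :
    ‖(opT F h)^[n] p s‖ ≤ P := by
  induction n generalizing s with
  | zero => exact hp s
  | succ n ih =>
    rw [Function.iterate_succ_apply']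
    exact opT_norm_le ih s

theorem iter_meas (hF : Force κ F) (h0 : 0 < h) (h1 : h ≤ 1 / 16) {p : E2 d → G}
    (hm : StronglyMeasurable p) {P : ℝ} (hp : ∀ s, ‖p s‖ ≤ P) (n : ℕ) :
    StronglyMeasurable ((opT F h)^[n] p) := by
  induction n with
  | zero => exact hm
  | succ n ih =>
    rw [Function.iterate_succ_apply']
    exact (opT_nice hF h0 h1 ih (iter_le hp n)).smooth.continuous.stronglyMeasurable

theorem iter_nice (hF : Force κ F) (h0 : 0 < h) (h1 : h ≤ 1 / 16) {p : E2 d → G}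
    (hm : StronglyMeasurable p) {P : ℝ} (hp : ∀ s, ‖p s‖ ≤ P) {n : ℕ} (hn : 1 ≤ n) :
    Nice ((opT F h)^[n] p) := by
  obtain ⟨m, rfl⟩ := Nat.exists_eq_add_of_le' hn
  rw [Function.iterate_succ_apply']
  exact opT_nice hF h0 h1 (iter_meas hF h0 h1 hm hp m) (iter_le hp m)

end KSm

/-- induction statement -/
theorem chain_S (hF : Force κ F) (h0 : 0 < h) (h1 : h ≤ 1 / 10000) {p : E2 d → G}
    (hm : StronglyMeasurable p) {P : ℝ} (hp : ∀ s, ‖p s‖ ≤ P) (n : ℕ) (hn : 2 ≤ n)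
    (hnh : (n : ℝ) * h ≤ 1 / 100) (s : E2 d) :
    8 * h / 30 * frm n (fderiv ℝ ((opT F h)^[n] p) s) + ‖(opT F h)^[n] p s‖ ^ 2 ≤
      (opT F h)^[n] (fun s => ‖p s‖ ^ 2) s := by
  have h16 : h ≤ 1 / 16 := by linarith
  have m2 : StronglyMeasurable fun s => ‖p s‖ ^ 2 := hm.norm.pow 2
  have b2 : ∀ s, ‖‖p s‖ ^ 2‖ ≤ P ^ 2 := fun s => by
    rw [Real.norm_of_nonneg (by positivity)]
    exact pow_le_pow_left₀ (norm_nonneg _) (hp s) 2
  induction n, hn using Nat.le_induction generalizing s with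
  | base =>
    rw [Function.iterate_succ_apply', Function.iterate_succ_apply']
    have nu : Nice ((opT F h)^[1] p) := iter_nice hF h0 h16 hm hp le_rfl
    refine step_gen hF h0 h1 (m := ((2 : ℕ) : ℝ)) (α := (h ^ 2) ^ 2) (a := 0) (β := 8 * h)
      (α' := (h ^ 2) ^ 2 / 6) (a' := 2) (β' := 8 * h / 6) (B := P ^ 2) nu
      (iter_meas hF h0 h16 m2 b2 1) (iter_le b2 1) (by positivity) (by positivity) ?_ ?_ ?_ s
    · intro T L hLx hLz
      have := base_comp (T := T) hLx hLz h0 h1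
      unfold qf
      have e : hd 0 T = hz T := by simp [hd, hz]
      rw [e]
      exact this
    · intro q
      have := base_step (q := q) h0 (by linarith : h ≤ 1 / 100)
      unfold qf
      push_cast
      exact this
    · intro s
      have := one_step hF h0 h1 hm hp s
      unfold qf
      have e : hd 0 (fderiv ℝ ((opT F h)^[1] p) s) = hz (fderiv ℝ ((opT F h)^[1] p) s) := by
        simp [hd, hz]
      rw [e]
      exact this
  | succ n hn ih =>
    have hn2 : (2 : ℝ) ≤ n := by exact_mod_cast hn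
    push_cast at hnh
    have hnh' : (n : ℝ) * h ≤ 1 / 100 := by nlinarith
    rw [Function.iterate_succ_apply', Function.iterate_succ_apply']
    have nu : Nice ((opT F h)^[n] p) := iter_nice hF h0 h16 hm hp (by omega)
    set c : ℝ := (1 + 250 * h ^ 2 * n)⁻¹ ^ 2 with hc
    have hc0 : 0 ≤ c := by positivity
    have hc1 : c * (1 + 250 * h ^ 2 * n) ^ 2 = 1 := by
      rw [hc, ← mul_pow, inv_mul_cancel₀ (by positivity), one_pow]
    refine step_gen hF h0 h1 (m := ((n + 1 : ℕ) : ℝ)) (α := 8 * h / 30 * ((n : ℝ) ^ 3 / 8))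
      (a := n) (β := 8 * h / 30 * (7 * n / 8)) (α' := c * (8 * h / 30 * ((n : ℝ) ^ 3 / 8)))
      (a' := n + 2) (β' := c * (8 * h / 30 * (7 * n / 8))) (B := P ^ 2) nu
      (iter_meas hF h0 h16 m2 b2 n) (iter_le b2 n) (by positivity) (by positivity) ?_ ?_ ?_ s
    · intro T L hLx hLz
      have h3 := frm_comp (T := T) hLx hLz (ε := h ^ 2) (n := n) (by positivity)
        (by linarith)
      have h4 : qf (c * (8 * h / 30 * ((n : ℝ) ^ 3 / 8))) (n + 2)
          (c * (8 * h / 30 * (7 * n / 8))) (T.comp (kjac (h ^ 2) L)) =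
          c * (8 * h / 30) * frm' n (T.comp (kjac (h ^ 2) L)) := by
        unfold qf frm'
        ring
      have h5 : qf (8 * h / 30 * ((n : ℝ) ^ 3 / 8)) n (8 * h / 30 * (7 * n / 8)) T =
          (8 * h / 30) * frm n T := by
        unfold qf frm
        ring
      rw [h4, h5]
      calc c * (8 * h / 30) * frm' n (T.comp (kjac (h ^ 2) L)) ≤
          c * (8 * h / 30) * ((1 + 250 * h ^ 2 * n) ^ 2 * frm n T) :=
            mul_le_mul_of_nonneg_left h3 (by positivity)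
        _ = (c * (1 + 250 * h ^ 2 * n) ^ 2) * ((8 * h / 30) * frm n T) := by ring
        _ = (8 * h / 30) * frm n T := by rw [hc1, one_mul]
    · intro q
      have := frm_step (q := q) h0 hn2 hnh'
      have h4 : qf (c * (8 * h / 30 * ((n : ℝ) ^ 3 / 8))) (n + 2)
          (c * (8 * h / 30 * (7 * n / 8))) q = c * (8 * h / 30 * frm' n q) := by
        unfold qf frm'
        ring
      rw [h4]
      push_cast
      exact this
    · intro s
      have := ih hnh' s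
      have h5 : qf (8 * h / 30 * ((n : ℝ) ^ 3 / 8)) n (8 * h / 30 * (7 * n / 8))
          (fderiv ℝ ((opT F h)^[n] p) s) = (8 * h / 30) * frm n (fderiv ℝ ((opT F h)^[n] p) s) := by
        unfold qf frm
        ring
      rw [h5]
      exact this

namespace KSm

theorem frm_le (hF : Force κ F) (h0 : 0 < h) (h1 : h ≤ 1 / 10000) {p : E2 d → G}
    (hm : StronglyMeasurable p) {P : ℝ} (hp : ∀ s, ‖p s‖ ≤ P) (n : ℕ) (hn : 2 ≤ n)
    (hnh : (n : ℝ) * h ≤ 1 / 100) (s : E2 d) :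
    8 * h / 30 * frm n (fderiv ℝ ((opT F h)^[n] p) s) ≤ P ^ 2 := by
  have b2 : ∀ s, ‖‖p s‖ ^ 2‖ ≤ P ^ 2 := fun s => by
    rw [Real.norm_of_nonneg (by positivity)]
    exact pow_le_pow_left₀ (norm_nonneg _) (hp s) 2
  have h2 := chain_S hF h0 h1 hm hp n hn hnh s
  have h3 := iter_le (F := F) (h := h) b2 n s
  have h4 := le_abs_self ((opT F h)^[n] (fun s => ‖p s‖ ^ 2) s)
  rw [Real.norm_eq_abs] at h3
  nlinarith [sq_nonneg ‖(opT F h)^[n] p s‖]

end KSm

theorem smooth_x (hF : Force κ F) (h0 : 0 < h) (h1 : h ≤ 1 / 10000) {p : E2 d → G}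
    (hm : StronglyMeasurable p) {P : ℝ} (hp : ∀ s, ‖p s‖ ≤ P) (n : ℕ) (hn : 2 ≤ n)
    (hnh : (n : ℝ) * h ≤ 1 / 100) (s : E2 d) :
    hx (fderiv ℝ ((opT F h)^[n] p) s) ≤ 100 * P ^ 2 / (h * n ^ 3) := by
  have hn0 : (0 : ℝ) < n := by
    have : 0 < n := by omega
    exact_mod_cast this
  have h2 := frm_le hF h0 h1 hm hp n hn hnh s
  have h3 := frm_lower_x (q := fderiv ℝ ((opT F h)^[n] p) s) hn0
  refine h3.trans ?_
  rw [div_mul_eq_mul_div, div_le_div_iff₀ (by positivity) (by positivity)]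
  have h4 : 0 ≤ (n : ℝ) ^ 3 := by positivity
  have h5 : 8 * frm n (fderiv ℝ ((opT F h)^[n] p) s) * h ≤ 100 * P ^ 2 := by
    nlinarith [sq_nonneg P]
  calc 8 * frm n (fderiv ℝ ((opT F h)^[n] p) s) * (h * (n : ℝ) ^ 3) =
      (8 * frm n (fderiv ℝ ((opT F h)^[n] p) s) * h) * (n : ℝ) ^ 3 := by ring
    _ ≤ 100 * P ^ 2 * (n : ℝ) ^ 3 := mul_le_mul_of_nonneg_right h5 h4

theorem smooth_z (hF : Force κ F) (h0 : 0 < h) (h1 : h ≤ 1 / 10000) {p : E2 d → G}
    (hm : StronglyMeasurable p) {P : ℝ} (hp : ∀ s, ‖p s‖ ≤ P) (n : ℕ) (hn : 1 ≤ n)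
    (hnh : (n : ℝ) * h ≤ 1 / 100) (s : E2 d) :
    hz (fderiv ℝ ((opT F h)^[n] p) s) ≤ 100 * P ^ 2 / (h * n) := by
  rcases Nat.lt_or_ge 1 n with h2 | h2
  · have hn0 : (0 : ℝ) < n := by
      have : 0 < n := by omega
      exact_mod_cast this
    have h2 := frm_le hF h0 h1 hm hp n h2 hnh s
    have h3 := frm_lower_z (q := fderiv ℝ ((opT F h)^[n] p) s) hn0
    refine h3.trans ?_
    rw [div_mul_eq_mul_div, div_le_div_iff₀ (by positivity) (by positivity)]
    have h5 : 20 * frm n (fderiv ℝ ((opT F h)^[n] p) s) * h ≤ 100 * P ^ 2 := by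
      nlinarith [sq_nonneg P]
    calc 20 * frm n (fderiv ℝ ((opT F h)^[n] p) s) * (h * (n : ℝ)) =
        (20 * frm n (fderiv ℝ ((opT F h)^[n] p) s) * h) * (n : ℝ) := by ring
      _ ≤ 100 * P ^ 2 * (n : ℝ) := mul_le_mul_of_nonneg_right h5 hn0.le
  · obtain rfl : n = 1 := by omega
    have b2 : ∀ s, ‖‖p s‖ ^ 2‖ ≤ P ^ 2 := fun s => by
      rw [Real.norm_of_nonneg (by positivity)]
      exact pow_le_pow_left₀ (norm_nonneg _) (hp s) 2
    have h3 := one_step hF h0 h1 hm hp s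
    have h4 := iter_le (F := F) (h := h) b2 1 s
    rw [Function.iterate_one] at h4 ⊢
    have h5 := le_abs_self (opT F h (fun s => ‖p s‖ ^ 2) s)
    rw [Real.norm_eq_abs] at h4
    have h6 : 0 ≤ (h ^ 2) ^ 2 * hx (fderiv ℝ (opT F h p) s) :=
      mul_nonneg (by positivity) (hx_nonneg _)
    have h7 := sq_nonneg ‖opT F h p s‖
    rw [le_div_iff₀ (by positivity)]
    push_cast
    nlinarith [sq_nonneg P, hz_nonneg (fderiv ℝ (opT F h p) s)]

theorem smooth_x1 (hF : Force κ F) (h0 : 0 < h) (h1 : h ≤ 1 / 10000) {p : E2 d → G}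
    (hm : StronglyMeasurable p) {P : ℝ} (hp : ∀ s, ‖p s‖ ≤ P) (s : E2 d) :
    hx (fderiv ℝ (opT F h p) s) ≤ P ^ 2 / h ^ 4 := by
  have b2 : ∀ s, ‖‖p s‖ ^ 2‖ ≤ P ^ 2 := fun s => by
    rw [Real.norm_of_nonneg (by positivity)]
    exact pow_le_pow_left₀ (norm_nonneg _) (hp s) 2
  have h3 := one_step hF h0 h1 hm hp s
  have h4 := iter_le (F := F) (h := h) b2 1 s
  rw [Function.iterate_one] at h4
  have h5 := le_abs_self (opT F h (fun s => ‖p s‖ ^ 2) s)
  rw [Real.norm_eq_abs] at h4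
  have h6 : 0 ≤ 8 * h * hz (fderiv ℝ (opT F h p) s) := mul_nonneg (by positivity) (hz_nonneg _)
  have h7 := sq_nonneg ‖opT F h p s‖
  rw [le_div_iff₀ (by positivity)]
  nlinarith

end smooth

end Vale.Agent.P347
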