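import Vale.Agent.P347.KSecA
import Vale.Agent.P347.KGrad
import Vale.Agent.P347.KForm

/-!
# P347: one step of the kinetic chain keeps bounded second derivatives
-/

open MeasureTheory ProbabilityTheory
open scoped ENNReal NNReal RealInnerProductSpace

namespace Vale.Agent.P347
namespace K8

section
variable {d : ℕ} {κ : Type} [Fintype κ] {F : E2 d → (κ → E d) → E d} {h : ℝ}
  {G : Type*} [NormedAddCommGroup G] [InnerProductSpace ℝ G]

theorem hx_nonneg (T : E2 d →L[ℝ] G) : 0 ≤ hx T := Finset.sum_nonneg fun _ _ => sq_nonneg _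
theorem hz_nonneg (T : E2 d →L[ℝ] G) : 0 ≤ hz T := Finset.sum_nonneg fun _ _ => sq_nonneg _
theorem hd_nonneg (a : ℝ) (T : E2 d →L[ℝ] G) : 0 ≤ hd a T :=
  Finset.sum_nonneg fun _ _ => sq_nonneg _

theorem hd_zero (T : E2 d →L[ℝ] G) : hd 0 T = hz T := by simp [hd, hz]

theorem hd_le (a : ℝ) (T : E2 d →L[ℝ] G) : hd a T ≤ 2 * hz T + 2 * a ^ 2 * hx T := by
  unfold hd hz hx
  rw [Finset.mul_sum, Finset.mul_sum, ← Finset.sum_add_distrib]
  refine Finset.sum_le_sum fun i _ => ?_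
  have e : T (-(a • eb i), eb i) = T (0, eb i) - a • T (eb i, 0) := by
    rw [← map_smul, ← map_sub]
    simp
  rw [e]
  have h1 : ‖T (0, eb i) - a • T (eb i, 0)‖ ≤ ‖T (0, eb i)‖ + |a| * ‖T (eb i, 0)‖ := by
    refine (norm_sub_le _ _).trans (le_of_eq ?_)
    rw [norm_smul, Real.norm_eq_abs]
  have h2 : ‖T (0, eb i) - a • T (eb i, 0)‖ ^ 2 ≤ (‖T (0, eb i)‖ + |a| * ‖T (eb i, 0)‖) ^ 2 :=
    pow_le_pow_left₀ (norm_nonneg _) h1 2
  have h3 : (|a| * ‖T (eb i, 0)‖) ^ 2 = a ^ 2 * ‖T (eb i, 0)‖ ^ 2 := by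
    rw [mul_pow, sq_abs]
  nlinarith [sq_nonneg (‖T (0, eb i)‖ - |a| * ‖T (eb i, 0)‖)]

theorem hz_le (a : ℝ) (T : E2 d →L[ℝ] G) : hz T ≤ 2 * hd a T + 2 * a ^ 2 * hx T := by
  unfold hd hz hx
  rw [Finset.mul_sum, Finset.mul_sum, ← Finset.sum_add_distrib]
  refine Finset.sum_le_sum fun i _ => ?_
  have e : T (0, eb i) = T (-(a • eb i), eb i) + a • T (eb i, 0) := by
    rw [← map_smul, ← map_add]
    simp
  rw [e]
  have h1 : ‖T (-(a • eb i), eb i) + a • T (eb i, 0)‖ ≤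
      ‖T (-(a • eb i), eb i)‖ + |a| * ‖T (eb i, 0)‖ := by
    refine (norm_add_le _ _).trans (le_of_eq ?_)
    rw [norm_smul, Real.norm_eq_abs]
  have h2 := pow_le_pow_left₀ (norm_nonneg _) h1 2
  have h3 : (|a| * ‖T (eb i, 0)‖) ^ 2 = a ^ 2 * ‖T (eb i, 0)‖ ^ 2 := by
    rw [mul_pow, sq_abs]
  nlinarith [sq_nonneg (‖T (-(a • eb i), eb i)‖ - |a| * ‖T (eb i, 0)‖)]

/-- the forms after composition with the Jacobian -/
theorem jac_le {T : E2 d →L[ℝ] G} {L : E2 d →L[ℝ] E d} (hLx : ∀ a, ‖L (a, 0)‖ ≤ 8 * ‖a‖)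
    (hLz : ∀ a, ‖L (0, a)‖ ≤ 8 * ‖a‖) {ε B : ℝ} (hε : 0 ≤ ε) (hε1 : ε ≤ 1 / 250)
    (h1 : hx T ≤ B) (h2 : hz T ≤ B) :
    hx (T.comp (kjac ε L)) ≤ 3000 * B ∧ hz (T.comp (kjac ε L)) ≤ 3000 * B := by
  have hf := frm_comp (T := T) hLx hLz hε (le_refl (1 : ℝ))
  have hB : 0 ≤ B := (hx_nonneg T).trans h1
  have h3 := hd_le 1 T
  have h4 : frm 1 T ≤ 4 * B := by
    unfold frm
    linarith
  have h5 : (1 + 250 * ε * 1) ^ 2 ≤ 4 := by nlinarith
  have h6 : frm' 1 (T.comp (kjac ε L)) ≤ 16 * B := by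
    refine hf.trans ?_
    have h7 : 0 ≤ frm 1 T := by
      unfold frm
      have := hx_nonneg T
      have := hd_nonneg 1 T
      positivity
    nlinarith
  unfold frm' at h6
  have h8 := hx_nonneg (T.comp (kjac ε L))
  have h9 := hd_nonneg (1 + 2) (T.comp (kjac ε L))
  have h10 := hz_le (1 + 2) (T.comp (kjac ε L))
  generalize hx (T.comp (kjac ε L)) = X at *
  generalize hd (1 + 2) (T.comp (kjac ε L)) = Y at *
  generalize hz (T.comp (kjac ε L)) = Z at *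
  norm_num at h6 h10
  constructor <;> linarith

theorem hx_dil (ρ : ℝ) (T : E2 d →L[ℝ] G) : hx (T.comp (dil d ρ)) = hx T := by
  simp [hx, dil]

theorem hz_dil (ρ : ℝ) (T : E2 d →L[ℝ] G) : hz (T.comp (dil d ρ)) = ρ ^ 2 * hz T := by
  simp only [hz, dil]
  rw [Finset.mul_sum]
  refine Finset.sum_congr rfl fun i _ => ?_
  have e : (T.comp ((ContinuousLinearMap.fst ℝ (E d) (E d)).prod
      (ρ • ContinuousLinearMap.snd ℝ (E d) (E d)))) (0, eb i) = ρ • T (0, eb i) := by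
    rw [← map_smul]
    simp
  rw [e, norm_smul, mul_pow, Real.norm_eq_abs, sq_abs]

theorem kjac_cont (ε : ℝ) : Continuous (kjac (d := d) ε) := by
  unfold kjac
  have h1 : Continuous fun L : E2 d →L[ℝ] E d =>
      ContinuousLinearMap.fst ℝ (E d) (E d) + (2 : ℝ) • ContinuousLinearMap.snd ℝ (E d) (E d) -
        ε • L := continuous_const.sub (continuous_const_smul ε)
  have h2 : Continuous fun L : E2 d →L[ℝ] E d =>
      ContinuousLinearMap.snd ℝ (E d) (E d) - ε • L :=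
    continuous_const.sub (continuous_const_smul ε)
  have h3 : Continuous fun L : E2 d →L[ℝ] E d =>
      (ContinuousLinearMap.inl ℝ (E d) (E d)).comp (ContinuousLinearMap.fst ℝ (E d) (E d) +
        (2 : ℝ) • ContinuousLinearMap.snd ℝ (E d) (E d) - ε • L) +
      (ContinuousLinearMap.inr ℝ (E d) (E d)).comp
        (ContinuousLinearMap.snd ℝ (E d) (E d) - ε • L) :=
    (continuous_const.clm_comp h1).add (continuous_const.clm_comp h2)
  refine h3.congr fun L => ?_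
  refine ContinuousLinearMap.ext fun w => ?_
  refine Prod.ext ?_ ?_ <;> simp

theorem kjac_norm {L : E2 d →L[ℝ] E d} (hLx : ∀ a, ‖L (a, 0)‖ ≤ 8 * ‖a‖)
    (hLz : ∀ a, ‖L (0, a)‖ ≤ 8 * ‖a‖) {ε : ℝ} (hε : 0 ≤ ε) (hε1 : ε ≤ 1) :
    ‖kjac ε L‖ ≤ 19 := by
  refine ContinuousLinearMap.opNorm_le_bound _ (by norm_num) fun w => ?_
  have h1 : ‖L w‖ ≤ 16 * ‖w‖ := by
    have e : w = (w.1, 0) + (0, w.2) := by simp
    have e2 : L w = L (w.1, 0) + L (0, w.2) := by rw [← map_add, ← e]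
    rw [e2]
    have h3 := norm_fst_le w
    have h4 := norm_snd_le w
    exact (norm_add_le _ _).trans (by linarith [hLx w.1, hLz w.2])
  have h2 : ‖ε • L w‖ ≤ 16 * ‖w‖ := by
    rw [norm_smul, Real.norm_eq_abs, abs_of_nonneg hε]
    have := norm_nonneg (L w)
    nlinarith
  have e : kjac ε L w = (w.1 + (2 : ℝ) • w.2 - ε • L w, w.2 - ε • L w) := rfl
  rw [e, Prod.norm_def]
  have h3 := norm_fst_le w
  have h4 := norm_snd_le w
  refine max_le ?_ ?_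
  · calc ‖w.1 + (2 : ℝ) • w.2 - ε • L w‖ ≤ ‖w.1 + (2 : ℝ) • w.2‖ + ‖ε • L w‖ := norm_sub_le _ _
      _ ≤ ‖w.1‖ + ‖(2 : ℝ) • w.2‖ + ‖ε • L w‖ := by gcongr; exact norm_add_le _ _
      _ ≤ 19 * ‖w‖ := by
          rw [norm_smul]
          norm_num
          linarith
  · calc ‖w.2 - ε • L w‖ ≤ ‖w.2‖ + ‖ε • L w‖ := norm_sub_le _ _
      _ ≤ 19 * ‖w‖ := by linarith [norm_nonneg w]

variable [CompleteSpace G]

theorem int_le {Ω : Type*} [MeasurableSpace Ω] {μ : Measure Ω} [IsProbabilityMeasure μ]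
    {g : Ω → ℝ} {B : ℝ} (h0 : ∀ x, 0 ≤ g x) (h1 : ∀ x, g x ≤ B) : ∫ x, g x ∂μ ≤ B := by
  have := integral_mono_of_nonneg (μ := μ) (Filter.Eventually.of_forall h0)
    (integrable_const B) (Filter.Eventually.of_forall h1)
  simpa using this

theorem opM_forms (hF : Force κ F) {ε : ℝ} (h0 : 0 ≤ ε) (h1 : ε ≤ 1 / 250) {q : E2 d → G}
    (hq : Nice q) {B : ℝ} (hqB : ∀ s, hx (fderiv ℝ q s) ≤ B ∧ hz (fderiv ℝ q s) ≤ B) (s : E2 d) :
    hx (fderiv ℝ (opM F ε q) s) ≤ 3000 * B ∧ hz (fderiv ℝ (opM F ε q) s) ≤ 3000 * B := by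
  obtain ⟨C, hC⟩ := hq.dbd
  have hcont : Continuous fun ω : κ → E d =>
      (fderiv ℝ q (kmap F ε s ω)).comp (kjac ε (fderiv ℝ (fun s => F s ω) s)) := by
    have e1 : Continuous fun ω : κ → E d => fderiv ℝ (fun s => F s ω) s :=
      (force_fderiv_cont hF).comp (Continuous.prodMk_right s)
    have e2 : Continuous fun ω : κ → E d => F s ω :=
      hF.smooth.continuous.comp (Continuous.prodMk_right s)
    have e3 : Continuous fun ω : κ → E d => kmap F ε s ω := by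
      unfold kmap
      exact (continuous_const.sub (e2.const_smul ε)).prodMk
        (continuous_const.sub (e2.const_smul ε))
    have e4 : Continuous (fderiv ℝ q) := hq.smooth.continuous_fderiv one_ne_zero
    exact (e4.comp e3).clm_comp ((kjac_cont ε).comp e1)
  have hb : ∀ ω : κ → E d,
      ‖(fderiv ℝ q (kmap F ε s ω)).comp (kjac ε (fderiv ℝ (fun s => F s ω) s))‖ ≤ C * 19 := by
    intro ω
    refine (ContinuousLinearMap.opNorm_comp_le _ _).trans ?_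
    exact mul_le_mul (hC _) (kjac_norm (force_fderiv_x hF s ω) (force_fderiv_z hF s ω) h0
      (by linarith)) (norm_nonneg _) ((norm_nonneg _).trans (hC s))
  rw [opM_fderiv hF h0 (by linarith) hq s, ← hd_zero]
  have hj := fun ω : κ → E d => jac_le (T := fderiv ℝ q (kmap F ε s ω))
    (force_fderiv_x hF s ω) (force_fderiv_z hF s ω) h0 h1 (hqB _).1 (hqB _).2
  constructor
  · exact (avg_hx hcont.aestronglyMeasurable hb).trans (int_le (fun ω => hx_nonneg _)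
      fun ω => (hj ω).1)
  · exact (avg_hd 0 hcont.aestronglyMeasurable hb).trans (int_le (fun ω => hd_nonneg _ _)
      fun ω => by rw [hd_zero]; exact (hj ω).2)

theorem opT_forms (hF : Force κ F) (h0 : 0 < h) (h1 : h ≤ 1 / 10000) {q : E2 d → G}
    (hq : Nice q) {B : ℝ} (hqB : ∀ s, hx (fderiv ℝ q s) ≤ B ∧ hz (fderiv ℝ q s) ≤ B) (s : E2 d) :
    hx (fderiv ℝ (opT F h q) s) ≤ 3000 * B ∧ hz (fderiv ℝ (opT F h q) s) ≤ 3000 * B := by
  have hh : h ^ 2 ≤ 1 / 250 := by nlinarith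
  have hρ : 0 < Real.sqrt (1 - 8 * h) := Real.sqrt_pos.2 (by linarith)
  have hr : 0 < Real.sqrt (8 * h) := Real.sqrt_pos.2 (by linarith)
  have hv : Nice (opM F (h ^ 2) q) := opM_nice hF (by positivity) (by linarith) hq
  have hf := opM_forms hF (by positivity : 0 ≤ h ^ 2) hh hq hqB
  unfold opT
  rw [opN_fderiv (by positivity) hρ hr hv s]
  obtain ⟨C, hC⟩ := hv.dbd
  have hcont : Continuous fun s' : E2 d =>
      (fderiv ℝ (opM F (h ^ 2) q) s').comp (dil d (Real.sqrt (1 - 8 * h))) :=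
    (hv.smooth.continuous_fderiv one_ne_zero).clm_comp continuous_const
  have hb : ∀ s' : E2 d, ‖(fderiv ℝ (opM F (h ^ 2) q) s').comp (dil d (Real.sqrt (1 - 8 * h)))‖ ≤
      C * ‖dil d (Real.sqrt (1 - 8 * h))‖ := fun s' =>
    (ContinuousLinearMap.opNorm_comp_le _ _).trans
      (mul_le_mul_of_nonneg_right (hC s') (norm_nonneg _))
  rw [← hd_zero]
  constructor
  · refine (opN_hx hcont.stronglyMeasurable hb s).trans (int_le (fun _ => hx_nonneg _) fun _ => ?_)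
    beta_reduce
    rw [hx_dil]
    exact (hf _).1
  · refine (opN_hd 0 hcont.stronglyMeasurable hb s).trans
      (int_le (fun _ => hd_nonneg _ _) fun _ => ?_)
    beta_reduce
    rw [hd_zero, hz_dil]
    have h2 : Real.sqrt (1 - 8 * h) ^ 2 ≤ 1 := rho_pow h0 2
    refine (mul_le_mul_of_nonneg_right h2 (hz_nonneg _)).trans ?_
    rw [one_mul]
    exact (hf _).2

omit [CompleteSpace G] in
/-- the gradients of a `C²` function are nice -/
theorem nice_gx {u : E2 d → ℝ} (hu : ContDiff ℝ 2 u) (hB : ∃ B, ∀ s, ‖fderiv ℝ (fderiv ℝ u) s‖ ≤ B)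
    {t : ℝ} (ht : ∀ s, ‖gx u s‖ ≤ t) : Nice (gx u) := by
  obtain ⟨B, hB⟩ := hB
  have hu' : ContDiff ℝ 1 (fderiv ℝ u) :=
    (contDiff_succ_iff_fderiv.1 (by rw [one_add_one_eq_two]; exact hu)).2.2
  let L : (E2 d →L[ℝ] ℝ) →L[ℝ] E d :=
    ∑ i, (ContinuousLinearMap.apply ℝ ℝ ((eb i, 0) : E2 d)).smulRight (eb i : E d)
  have e : gx u = fun s => L (fderiv ℝ u s) := by
    funext s
    simp [gx, L]
  refine ⟨?_, ⟨t, ht⟩, ⟨‖L‖ * B, fun s => ?_⟩⟩
  · rw [e]; exact L.contDiff.comp hu'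
  · rw [e, fderiv_fun_comp (g := L) s L.differentiableAt (hu'.differentiable one_ne_zero s),
      ContinuousLinearMap.fderiv]
    exact (ContinuousLinearMap.opNorm_comp_le _ _).trans
      (mul_le_mul_of_nonneg_left (hB s) (norm_nonneg _))

omit [CompleteSpace G] in
theorem nice_gz {u : E2 d → ℝ} (hu : ContDiff ℝ 2 u) (hB : ∃ B, ∀ s, ‖fderiv ℝ (fderiv ℝ u) s‖ ≤ B)
    {t : ℝ} (ht : ∀ s, ‖gz u s‖ ≤ t) : Nice (gz u) := by
  obtain ⟨B, hB⟩ := hB
  have hu' : ContDiff ℝ 1 (fderiv ℝ u) :=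
    (contDiff_succ_iff_fderiv.1 (by rw [one_add_one_eq_two]; exact hu)).2.2
  let L : (E2 d →L[ℝ] ℝ) →L[ℝ] E d :=
    ∑ i, (ContinuousLinearMap.apply ℝ ℝ ((0, eb i) : E2 d)).smulRight (eb i : E d)
  have e : gz u = fun s => L (fderiv ℝ u s) := by
    funext s
    simp [gz, L]
  refine ⟨?_, ⟨t, ht⟩, ⟨‖L‖ * B, fun s => ?_⟩⟩
  · rw [e]; exact L.contDiff.comp hu'
  · rw [e, fderiv_fun_comp (g := L) s L.differentiableAt (hu'.differentiable one_ne_zero s),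
      ContinuousLinearMap.fderiv]
    exact (ContinuousLinearMap.opNorm_comp_le _ _).trans
      (mul_le_mul_of_nonneg_left (hB s) (norm_nonneg _))

omit [CompleteSpace G] in
theorem sq_le_of {ι : Type} [Fintype ι] {e : ι → E2 d} {T : E2 d →L[ℝ] G} {c b : ℝ} (hb : 0 ≤ b)
    (hcb : c ≤ (b / 55) ^ 2) (h : ∑ i, ‖T (e i)‖ ^ 2 ≤ 3000 * c) : sn e T ≤ b := by
  refine sn_le_of_sq hb (h.trans ?_)
  nlinarith [sq_nonneg b]

end

end K8

/-- one step keeps bounded second derivatives (used for the first few steps) -/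
theorem step_D2 : ∃ C : ℝ, 1 ≤ C ∧ ∀ {κ : Type} [Fintype κ] {d : ℕ}
    {F : E2 d → (κ → E d) → E d}, Force κ F →
    ∀ {h : ℝ}, 0 < h → h ≤ 1 / 10000 → ∀ {u : E2 d → ℝ}, Nice u → ContDiff ℝ 2 u →
    (∃ B, ∀ s, ‖fderiv ℝ (fderiv ℝ u) s‖ ≤ B) → ∀ {t : ℝ}, 0 ≤ t →
    (∀ s, ‖gx u s‖ ≤ t) → (∀ s, ‖gz u s‖ ≤ t) →
    (∀ s, hx (fderiv ℝ (gx u) s) ≤ t ^ 2 ∧ hz (fderiv ℝ (gx u) s) ≤ t ^ 2 ∧
      hx (fderiv ℝ (gz u) s) ≤ t ^ 2 ∧ hz (fderiv ℝ (gz u) s) ≤ t ^ 2) →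
    ContDiff ℝ 2 (opT F h u) ∧ (∃ B, ∀ s, ‖fderiv ℝ (fderiv ℝ (opT F h u)) s‖ ≤ B) ∧
    (∀ s, ‖gx (opT F h u) s‖ ≤ C * t) ∧ (∀ s, ‖gz (opT F h u) s‖ ≤ C * t) ∧ ∀ s,
      hx (fderiv ℝ (gx (opT F h u)) s) ≤ (C * t) ^ 2 ∧ hz (fderiv ℝ (gx (opT F h u)) s) ≤ (C * t) ^ 2 ∧
      hx (fderiv ℝ (gz (opT F h u)) s) ≤ (C * t) ^ 2 ∧
      hz (fderiv ℝ (gz (opT F h u)) s) ≤ (C * t) ^ 2 := by
  refine ⟨200, by norm_num, ?_⟩
  intro κ _ d F hF h h0 h1 u hu hu2 hB t ht hX hZ hD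
  have h16 : h ≤ 1 / 16 := by linarith
  have hN1 : Nice (gx u) := K8.nice_gx hu2 hB hX
  have hN2 : Nice (gz u) := K8.nice_gz hu2 hB hZ
  set ρ := Real.sqrt (1 - 8 * h) with hρ
  have hρ0 : 0 ≤ ρ := Real.sqrt_nonneg _
  have hρ1 : ρ ≤ 1 := K8.rho_le h0
  -- the sum of the gradients
  have hqb : ∀ s, ‖(gx u + gz u) s‖ ≤ 2 * t := fun s => (norm_add_le _ _).trans
    (by linarith [hX s, hZ s])
  have hqc : Continuous (gx u + gz u) := (K8.Nice.cont hN1).add (K8.Nice.cont hN2)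
  have hAx := opAx_nice hF h0 h16 hqc hqb
  have hAz := opAz_nice hF h0 h16 hqc hqb
  -- the combination for the `z`-gradient
  have hN3 : Nice ((2 : ℝ) • gx u + gz u) := K8.Nice.add (K8.Nice.smul hN1 2) hN2
  have h3b : ∀ s, ‖((2 : ℝ) • gx u + gz u) s‖ ≤ 3 * t := fun s => by
    refine (norm_add_le _ _).trans ?_
    rw [Pi.smul_apply, norm_smul]
    norm_num
    linarith [hX s, hZ s]
  have hT1 : Nice (opT F h (gx u)) := opT_nice hF h0 h16 (K8.Nice.cont hN1).stronglyMeasurable hX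
  have hT3 : Nice (opT F h ((2 : ℝ) • gx u + gz u)) :=
    opT_nice hF h0 h16 (K8.Nice.cont hN3).stronglyMeasurable h3b
  have hh : h ^ 2 ≤ 1 / 100 := by nlinarith
  have hh0 : 0 ≤ h ^ 2 := by positivity
  have eX := gx_opT hF h0 h16 hu
  have eZ := gz_opT hF h0 h16 hu
  have hAxb := fun s => opAx_norm (h := h) hF hqc hqb s
  have hAzb := fun s => opAz_norm (h := h) hF hqc hqb s
  have hnX : Nice (gx (opT F h u)) := by
    rw [eX]; exact K8.Nice.sub hT1 (K8.Nice.smul hAx _)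
  have hnZ : Nice (gz (opT F h u)) := by
    rw [eZ]; exact K8.Nice.smul (K8.Nice.sub hT3 (K8.Nice.smul hAz _)) _
  have hTu : Nice (opT F h u) := by
    obtain ⟨C, hC⟩ := hu.bd
    exact opT_nice hF h0 h16 (K8.Nice.cont hu).stronglyMeasurable hC
  refine ⟨K8.contDiff_two hTu.smooth hnX.smooth hnZ.smooth, K8.fderiv2_bdd hnX hnZ, ?_, ?_, ?_⟩
  · intro s
    rw [eX]
    have e1 : ‖opT F h (gx u) s‖ ≤ t := opT_norm_le hX s
    have e2 : ‖(h ^ 2 • opAx F h (gx u + gz u)) s‖ ≤ 1 / 100 * (8 * (2 * t)) := by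
      rw [Pi.smul_apply, norm_smul, Real.norm_eq_abs, abs_of_nonneg hh0]
      exact mul_le_mul hh (hAxb s) (norm_nonneg _) (by norm_num)
    exact (norm_sub_le _ _).trans (by linarith)
  · intro s
    rw [eZ]
    have e1 : ‖opT F h ((2 : ℝ) • gx u + gz u) s‖ ≤ 3 * t := opT_norm_le h3b s
    have e2 : ‖(h ^ 2 • opAz F h (gx u + gz u)) s‖ ≤ 1 / 100 * (8 * (2 * t)) := by
      rw [Pi.smul_apply, norm_smul, Real.norm_eq_abs, abs_of_nonneg hh0]
      exact mul_le_mul hh (hAzb s) (norm_nonneg _) (by norm_num)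
    rw [Pi.smul_apply, norm_smul, Real.norm_eq_abs, abs_of_nonneg hρ0]
    have e3 : ‖(opT F h ((2 : ℝ) • gx u + gz u) - h ^ 2 • opAz F h (gx u + gz u)) s‖ ≤ 4 * t :=
      (norm_sub_le _ _).trans (by linarith)
    calc ρ * ‖(opT F h ((2 : ℝ) • gx u + gz u) - h ^ 2 • opAz F h (gx u + gz u)) s‖
        ≤ 1 * (4 * t) := mul_le_mul hρ1 e3 (norm_nonneg _) zero_le_one
      _ ≤ 200 * t := by linarith
  · intro s
    have f1 := K8.opT_forms hF h0 h1 hN1 (fun s => ⟨(hD s).1, (hD s).2.1⟩) s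
    have hN3f : ∀ s, hx (fderiv ℝ ((2 : ℝ) • gx u + gz u) s) ≤ 9 * t ^ 2 ∧
        hz (fderiv ℝ ((2 : ℝ) • gx u + gz u) s) ≤ 9 * t ^ 2 := by
      intro s
      have e0 : fderiv ℝ ((2 : ℝ) • gx u + gz u) s =
          (2 : ℝ) • fderiv ℝ (gx u) s + fderiv ℝ (gz u) s := by
        rw [fderiv_add (K8.Nice.diff (K8.Nice.smul hN1 2) s) (K8.Nice.diff hN2 s),
          fderiv_const_smul (K8.Nice.diff hN1 s)]
      rw [e0]
      have key : ∀ {ι : Type} [Fintype ι] (e : ι → E2 d), K8.sn e (fderiv ℝ (gx u) s) ^ 2 ≤ t ^ 2 →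
          K8.sn e (fderiv ℝ (gz u) s) ^ 2 ≤ t ^ 2 →
          K8.sn e ((2 : ℝ) • fderiv ℝ (gx u) s + fderiv ℝ (gz u) s) ^ 2 ≤ 9 * t ^ 2 := by
        intro ι _ e g1 g2
        have g3 := abs_le_of_sq_le_sq g1 ht
        have g4 := abs_le_of_sq_le_sq g2 ht
        rw [abs_of_nonneg (K8.sn_nonneg _ _)] at g3 g4
        have g5 := K8.sn_add e ((2 : ℝ) • fderiv ℝ (gx u) s) (fderiv ℝ (gz u) s)
        rw [K8.sn_smul, abs_two] at g5
        have g6 : K8.sn e ((2 : ℝ) • fderiv ℝ (gx u) s + fderiv ℝ (gz u) s) ≤ 3 * t := by linarith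
        calc _ ≤ (3 * t) ^ 2 := pow_le_pow_left₀ (K8.sn_nonneg _ _) g6 2
          _ = _ := by ring
      rw [← K8.sn_ex_sq, ← K8.sn_ez_sq]
      refine ⟨key _ ?_ ?_, key _ ?_ ?_⟩
      · rw [K8.sn_ex_sq]; exact (hD s).1
      · rw [K8.sn_ex_sq]; exact (hD s).2.2.1
      · rw [K8.sn_ez_sq]; exact (hD s).2.1
      · rw [K8.sn_ez_sq]; exact (hD s).2.2.2
    have f3 := K8.opT_forms hF h0 h1 hN3 hN3f s
    have fX : fderiv ℝ (gx (opT F h u)) s =
        fderiv ℝ (opT F h (gx u)) s - h ^ 2 • fderiv ℝ (opAx F h (gx u + gz u)) s := by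
      rw [eX, fderiv_sub (K8.Nice.diff hT1 s) (K8.Nice.diff (K8.Nice.smul hAx _) s),
        fderiv_const_smul (K8.Nice.diff hAx s)]
    have fZ : fderiv ℝ (gz (opT F h u)) s =
        ρ • (fderiv ℝ (opT F h ((2 : ℝ) • gx u + gz u)) s -
          h ^ 2 • fderiv ℝ (opAz F h (gx u + gz u)) s) := by
      rw [eZ, fderiv_const_smul
        (K8.Nice.diff (K8.Nice.sub hT3 (K8.Nice.smul hAz _)) s),
        fderiv_sub (K8.Nice.diff hT3 s) (K8.Nice.diff (K8.Nice.smul hAz _) s),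
        fderiv_const_smul (K8.Nice.diff hAz s)]
    have main : ∀ {ι : Type} [Fintype ι] (e : ι → E2 d), K8.SmA F h e →
        K8.sn e (fderiv ℝ (opT F h (gx u)) s) ≤ 165 * t →
        K8.sn e (fderiv ℝ (opT F h ((2 : ℝ) • gx u + gz u)) s) ≤ 165 * t →
        K8.sn e (fderiv ℝ (gx (opT F h u)) s) ^ 2 ≤ (200 * t) ^ 2 ∧
        K8.sn e (fderiv ℝ (gz (opT F h u)) s) ^ 2 ≤ (200 * t) ^ 2 := by
      intro ι _ e hA g1 g3
      have ha := hA (gx u + gz u) hqc (2 * t) (by positivity) hqb s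
      have ha1 : h ^ 2 * K8.sn e (fderiv ℝ (opAx F h (gx u + gz u)) s) ≤ 16 * t := by
        have := ha.1
        rw [le_div_iff₀ (by positivity)] at this
        linarith
      have ha2 : h ^ 2 * K8.sn e (fderiv ℝ (opAz F h (gx u + gz u)) s) ≤ 16 * t := by
        have := ha.2
        rw [le_div_iff₀ (by positivity)] at this
        linarith
      constructor
      · refine pow_le_pow_left₀ (K8.sn_nonneg _ _) ?_ 2
        rw [fX]
        refine (K8.sn_sub _ _ _).trans ?_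
        rw [K8.sn_smul, abs_of_nonneg hh0]
        linarith
      · refine pow_le_pow_left₀ (K8.sn_nonneg _ _) ?_ 2
        rw [fZ, K8.sn_smul, abs_of_nonneg hρ0]
        have g4 : K8.sn e (fderiv ℝ (opT F h ((2 : ℝ) • gx u + gz u)) s -
            h ^ 2 • fderiv ℝ (opAz F h (gx u + gz u)) s) ≤ 200 * t := by
          refine (K8.sn_sub _ _ _).trans ?_
          rw [K8.sn_smul, abs_of_nonneg hh0]
          linarith
        calc _ ≤ 1 * (200 * t) := mul_le_mul hρ1 g4 (K8.sn_nonneg _ _) zero_le_one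
          _ = _ := one_mul _
    have mx := main (K8.ex d) (K8.smA_x hF h0 h1)
      (K8.sq_le_of (c := t ^ 2) (by positivity) (by nlinarith [sq_nonneg t]) f1.1)
      (K8.sq_le_of (c := 9 * t ^ 2) (by positivity) (by nlinarith [sq_nonneg t]) f3.1)
    have mz := main (K8.ez d) (K8.smA_z hF h0 h1)
      (K8.sq_le_of (c := t ^ 2) (by positivity) (by nlinarith [sq_nonneg t]) f1.2)
      (K8.sq_le_of (c := 9 * t ^ 2) (by positivity) (by nlinarith [sq_nonneg t]) f3.2)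
    rw [K8.sn_ex_sq, K8.sn_ex_sq] at mx
    rw [K8.sn_ez_sq, K8.sn_ez_sq] at mz
    exact ⟨mx.1, mz.1, mx.2, mz.2⟩

end Vale.Agent.P347
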