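import Vale.Agent.P347.KSecond
import Vale.Agent.P347.KStepD2
import Vale.Agent.P347.KMap2
import Vale.Agent.P347.KSmooth
import Vale.Agent.P347.KGrad
import Vale.Agent.P347.Conv2
import Vale.Agent.P347.PotBasic

/-! P347, piece K9: regularity of the test functions along the chain. -/

open MeasureTheory ProbabilityTheory
open scoped ENNReal NNReal RealInnerProductSpace

namespace Vale.Agent.P347

namespace KReg

variable {d : ℕ} {f : E d → ℝ}

theorem conv_fun (hf : Measurable f) (hb : ∀ x, |f x| ≤ 1) :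
    conv 1 f = conv (1 / 2) (conv (1 / 2) f) := by
  funext x
  exact (conv_half one_pos hf.stronglyMeasurable (C := 1) hb x).symm

theorem sm (hf : Measurable f) (hb : ∀ x, |f x| ≤ 1) : ContDiff ℝ 2 (conv 1 f) :=
  conv_contDiff one_pos hf.stronglyMeasurable (C := 1) hb

theorem sq_le {η : ℝ} {c : ℝ} {F : Type*} {g : E d → F} [NormedAddCommGroup F]
    (hb : ∀ x, ‖g x‖ ≤ c) (x : E d) : conv η (fun x => ‖g x‖ ^ 2) x ≤ c ^ 2 := by
  have h := conv_norm_le (η := η) (f := fun x => ‖g x‖ ^ 2) (C := c ^ 2) (fun x => by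
    rw [Real.norm_of_nonneg (sq_nonneg _)]
    exact pow_le_pow_left₀ (norm_nonneg _) (hb x) 2) x
  exact (le_abs_self _).trans h

/-- gradient of `conv η f` for bounded `f` -/
theorem grad_sq {η : ℝ} (hη : 0 < η) (hf : Measurable f) (hb : ∀ x, |f x| ≤ 1) (x : E d) :
    η * ‖gradient (conv η f) x‖ ^ 2 ≤ 1 := by
  have h := conv_reverse_scalar hη hf hb x
  have h2 := sq_le (η := η) (g := f) (c := 1) hb x
  have h3 : (fun x => ‖f x‖ ^ 2) = fun x => f x ^ 2 := by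
    funext x
    rw [Real.norm_eq_abs, sq_abs]
  rw [h3] at h2
  nlinarith [sq_nonneg (conv η f x)]

theorem grad_le (hf : Measurable f) (hb : ∀ x, |f x| ≤ 1) (x : E d) :
    ‖gradient (conv 1 f) x‖ ≤ 1 := by
  have h := grad_sq one_pos hf hb x
  nlinarith [norm_nonneg (gradient (conv 1 f) x)]

theorem grad_half (hf : Measurable f) (hb : ∀ x, |f x| ≤ 1) (x : E d) :
    ‖gradient (conv (1 / 2) f) x‖ ^ 2 ≤ 2 := by
  have h := grad_sq (by norm_num : (0 : ℝ) < 1 / 2) hf hb x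
  linarith

/-- the Hilbert-Schmidt norm of the Hessian of `conv 1 f` -/
theorem hess_le (hf : Measurable f) (hb : ∀ x, |f x| ≤ 1) (x : E d) :
    hs2 (fderiv ℝ (gradient (conv 1 f)) x) ≤ 4 := by
  have hh : (0 : ℝ) < 1 / 2 := by norm_num
  have hg2 : ContDiff ℝ 2 (conv (1 / 2) f) := conv_contDiff hh hf.stronglyMeasurable (C := 1) hb
  have hgb : ∀ x, |conv (1 / 2) f x| ≤ 1 := fun x => conv_norm_le (η := 1 / 2) (f := f) (C := 1) hb x
  have hgL := ConvAux.fderiv_le hh hf.stronglyMeasurable (C := 1) hb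
  have e : gradient (conv 1 f) = conv (1 / 2) (gradient (conv (1 / 2) f)) := by
    rw [conv_fun hf hb]
    funext x
    exact conv_gradient hh (hg2.of_le (by norm_num)) hgb hgL x
  have hc : Continuous (gradient (conv (1 / 2) f)) := by
    have : ContDiff ℝ 1 (fderiv ℝ (conv (1 / 2) f)) := hg2.fderiv_right (by norm_num)
    exact (InnerProductSpace.toDual ℝ (E d)).symm.continuous.comp this.continuous
  have hs2 : ∀ x, ‖gradient (conv (1 / 2) f) x‖ ≤ Real.sqrt 2 := fun x =>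
    Real.le_sqrt_of_sq_le (grad_half hf hb x)
  have h := conv_reverse hh hc.stronglyMeasurable hs2 x
  have h2 := sq_le (η := 1 / 2) hs2 x
  rw [Real.sq_sqrt (by norm_num)] at h2
  rw [e]
  nlinarith [sq_nonneg ‖conv (1 / 2) (gradient (conv (1 / 2) f)) x‖]

/-- some bound of the Hessian in operator norm -/
theorem hess_bdd (hf : Measurable f) (hb : ∀ x, |f x| ≤ 1) :
    ∃ B, ∀ x, ‖fderiv ℝ (fderiv ℝ (conv 1 f)) x‖ ≤ B := by
  have hh : (0 : ℝ) < 1 / 2 := by norm_num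
  have hg2 : ContDiff ℝ 2 (conv (1 / 2) f) := conv_contDiff hh hf.stronglyMeasurable (C := 1) hb
  have hgb : ∀ x, ‖conv (1 / 2) f x‖ ≤ 1 := fun x => conv_norm_le (η := 1 / 2) (f := f) (C := 1) hb x
  have hgL := ConvAux.fderiv_le hh hf.stronglyMeasurable (C := 1) hb
  have hcd : ContDiff ℝ 1 (fderiv ℝ (conv (1 / 2) f)) := hg2.fderiv_right (by norm_num)
  have e : fderiv ℝ (conv 1 f) = conv (1 / 2) (fderiv ℝ (conv (1 / 2) f)) := by
    rw [conv_fun hf hb]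
    funext x
    exact (ConvAux.hasFDerivAt_smooth (η := 1 / 2) (hg2.of_le (by norm_num)) hgb hgL x).fderiv
  rw [e]
  exact ⟨_, ConvAux.fderiv_le hh hcd.continuous.stronglyMeasurable hgL⟩

/-! ### the start function -/

theorem u0_hasFDerivAt (hf : Measurable f) (hb : ∀ x, |f x| ≤ 1) (s : E2 d) :
    HasFDerivAt (u0 f) ((fderiv ℝ (conv 1 f) s.1).comp (ContinuousLinearMap.fst ℝ (E d) (E d))) s :=
  (((sm hf hb).differentiable (by norm_num)) s.1).hasFDerivAt.comp s hasFDerivAt_fst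

theorem u0_fderiv (hf : Measurable f) (hb : ∀ x, |f x| ≤ 1) :
    fderiv ℝ (u0 f) =
      fun s => (fderiv ℝ (conv 1 f) s.1).comp (ContinuousLinearMap.fst ℝ (E d) (E d)) :=
  funext fun s => (u0_hasFDerivAt hf hb s).fderiv

theorem u0_contDiff (hf : Measurable f) (hb : ∀ x, |f x| ≤ 1) : ContDiff ℝ 2 (u0 f) :=
  (sm hf hb).comp contDiff_fst

theorem u0_bdd (hb : ∀ x, |f x| ≤ 1) (s : E2 d) : |u0 f s| ≤ 1 :=
  conv_norm_le (η := 1) (f := f) (C := 1) hb s.1

theorem sum_eb (x : E d) : ∑ i, (x i) • (eb i : E d) = x := by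
  have h := ((EuclideanSpace.basisFun (Fin d) ℝ).sum_repr x)
  simpa [eb] using h

theorem sum_inner_eb (x : E d) : ∑ i, ⟪x, (eb i : E d)⟫ • (eb i : E d) = x := by
  conv_rhs => rw [← sum_eb x]
  refine Finset.sum_congr rfl fun i _ => ?_
  congr 1
  simp [eb, PiLp.inner_apply]

theorem u0_gx (hf : Measurable f) (hb : ∀ x, |f x| ≤ 1) :
    gx (u0 f) = fun s => gradient (conv 1 f) s.1 := by
  funext s
  rw [gx, u0_fderiv hf hb]
  simp only [ContinuousLinearMap.comp_apply, ContinuousLinearMap.coe_fst', ← Pot.inner_grad]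
  exact sum_inner_eb _

theorem u0_gz (hf : Measurable f) (hb : ∀ x, |f x| ≤ 1) : gz (u0 f) = fun _ => 0 := by
  funext s
  rw [gz, u0_fderiv hf hb]
  simp

theorem u0_gx_fderiv (hf : Measurable f) (hb : ∀ x, |f x| ≤ 1) (s : E2 d) :
    fderiv ℝ (gx (u0 f)) s =
      (fderiv ℝ (gradient (conv 1 f)) s.1).comp (ContinuousLinearMap.fst ℝ (E d) (E d)) := by
  rw [u0_gx hf hb]
  have h := (PotAux.hasFDerivAt_gradient (sm hf hb) s.1)
  rw [← h.fderiv] at h
  exact (h.comp s hasFDerivAt_fst).fderiv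

theorem u0_nice (hf : Measurable f) (hb : ∀ x, |f x| ≤ 1) : Nice (u0 f) := by
  refine ⟨(u0_contDiff hf hb).of_le (by norm_num), ⟨1, u0_bdd hb⟩, ?_⟩
  have hgL := ConvAux.fderiv_le (η := 1) one_pos hf.stronglyMeasurable (C := 1) hb
  refine ⟨(Real.sqrt 1)⁻¹ * (1 * ∫ z : E d, ‖z‖ ∂gam d) * ‖ContinuousLinearMap.fst ℝ (E d) (E d)‖,
    fun s => ?_⟩
  rw [u0_fderiv hf hb]
  exact (ContinuousLinearMap.opNorm_comp_le _ _).trans
    (mul_le_mul_of_nonneg_right (hgL _) (norm_nonneg _))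

theorem u0_second (hf : Measurable f) (hb : ∀ x, |f x| ≤ 1) :
    ∃ B, ∀ s, ‖fderiv ℝ (fderiv ℝ (u0 f)) s‖ ≤ B := by
  obtain ⟨B, hB⟩ := hess_bdd hf hb
  set LC : (E d →L[ℝ] ℝ) →L[ℝ] (E2 d →L[ℝ] ℝ) :=
    (ContinuousLinearMap.compL ℝ (E2 d) (E d) ℝ).flip (ContinuousLinearMap.fst ℝ (E d) (E d))
    with hLC
  have h1 : ∀ s : E2 d, HasFDerivAt (fderiv ℝ (u0 f)) (LC.comp ((fderiv ℝ (fderiv ℝ (conv 1 f)) s.1).comp
      (ContinuousLinearMap.fst ℝ (E d) (E d)))) s := by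
    intro s
    rw [u0_fderiv hf hb]
    have h2 := PotAux.hasFDerivAt_fderiv (sm hf hb) s.1
    have h3 : HasFDerivAt (fun s : E2 d => fderiv ℝ (conv 1 f) s.1)
        ((fderiv ℝ (fderiv ℝ (conv 1 f)) s.1).comp (ContinuousLinearMap.fst ℝ (E d) (E d))) s :=
      h2.comp s hasFDerivAt_fst
    exact LC.hasFDerivAt.comp s h3
  refine ⟨‖LC‖ * (B * ‖ContinuousLinearMap.fst ℝ (E d) (E d)‖), fun s => ?_⟩
  rw [(h1 s).fderiv]
  refine (ContinuousLinearMap.opNorm_comp_le _ _).trans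
    (mul_le_mul_of_nonneg_left ?_ (norm_nonneg _))
  exact (ContinuousLinearMap.opNorm_comp_le _ _).trans
    (mul_le_mul_of_nonneg_right (hB _) (norm_nonneg _))

theorem hx_fst {G : Type*} [NormedAddCommGroup G] [NormedSpace ℝ G] (T : E d →L[ℝ] G) :
    hx (T.comp (ContinuousLinearMap.fst ℝ (E d) (E d))) = hs2 T := by
  simp [hx, hs2]

theorem hz_fst {G : Type*} [NormedAddCommGroup G] [NormedSpace ℝ G] (T : E d →L[ℝ] G) :
    hz (T.comp (ContinuousLinearMap.fst ℝ (E d) (E d))) = 0 := by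
  simp [hz]

theorem u0_hess (hf : Measurable f) (hb : ∀ x, |f x| ≤ 1) (s : E2 d) :
    hx (fderiv ℝ (gx (u0 f)) s) ≤ 2 ^ 2 ∧ hz (fderiv ℝ (gx (u0 f)) s) ≤ 2 ^ 2 ∧
      hx (fderiv ℝ (gz (u0 f)) s) ≤ 2 ^ 2 ∧ hz (fderiv ℝ (gz (u0 f)) s) ≤ 2 ^ 2 := by
  have e0 : fderiv ℝ (gz (u0 f)) s = 0 := by
    rw [u0_gz hf hb]
    simp
  rw [u0_gx_fderiv hf hb, hx_fst, hz_fst, e0]
  refine ⟨(hess_le hf hb _).trans (by norm_num), by norm_num, ?_, ?_⟩ <;> simp [hx, hz]

/-! ### iteration -/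

section iter
variable {κ : Type} [Fintype κ] {F : E2 d → (κ → E d) → E d} {h : ℝ}

theorem iter_basic (hF : Force κ F) (h0 : 0 < h) (h1 : h ≤ 1 / 16) (hf : Measurable f)
    (hb : ∀ x, |f x| ≤ 1) (m : ℕ) :
    Nice ((opT F h)^[m] (u0 f)) ∧ ∀ s, ‖(opT F h)^[m] (u0 f) s‖ ≤ 1 := by
  induction m with
  | zero => exact ⟨u0_nice hf hb, u0_bdd hb⟩
  | succ m ih =>
    rw [Function.iterate_succ_apply']
    exact ⟨opT_nice hF h0 h1 ih.1.smooth.continuous.stronglyMeasurable ih.2,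
      fun s => opT_norm_le ih.2 s⟩

end iter

/-- the choice of the number of smoothing steps -/
theorem choice {h : ℝ} (h0 : 0 < h) (h1 : h ≤ 1 / 10000) {m : ℕ} (hm : 4 ≤ m) :
    ∃ n : ℕ, 2 ≤ n ∧ 2 * n ≤ m ∧ (n : ℝ) * h ≤ 1 / 100 ∧
      1 / (h * n) ≤ 102 * (1 + 1 / (h * (m + 1))) := by
  have hx : (100 : ℝ) ≤ 1 / (100 * h) := by
    rw [le_div_iff₀ (by positivity)]
    linarith
  have hfl : (100 : ℕ) ≤ ⌊1 / (100 * h)⌋₊ := Nat.le_floor (by exact_mod_cast hx)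
  have hfl2 : ((⌊1 / (100 * h)⌋₊ : ℕ) : ℝ) ≤ 1 / (100 * h) := Nat.floor_le (by positivity)
  have hD : 0 ≤ 1 / (h * ((m : ℝ) + 1)) := by positivity
  rcases le_total (m / 2) ⌊1 / (100 * h)⌋₊ with hc | hc
  · refine ⟨m / 2, by omega, by omega, ?_, ?_⟩
    · have : ((m / 2 : ℕ) : ℝ) ≤ 1 / (100 * h) := le_trans (by exact_mod_cast hc) hfl2
      calc ((m / 2 : ℕ) : ℝ) * h ≤ 1 / (100 * h) * h := mul_le_mul_of_nonneg_right this h0.le
        _ = 1 / 100 := by field_simp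
    · have h2 : ((m : ℝ) + 1) / 4 ≤ ((m / 2 : ℕ) : ℝ) := by
        have h3 : m + 1 ≤ 4 * (m / 2) := by omega
        have h4 : ((m : ℝ) + 1) ≤ 4 * ((m / 2 : ℕ) : ℝ) := by exact_mod_cast h3
        linarith
      have h5 : 1 / (h * ((m / 2 : ℕ) : ℝ)) ≤ 1 / (h * (((m : ℝ) + 1) / 4)) := by
        apply one_div_le_one_div_of_le (by positivity)
        exact mul_le_mul_of_nonneg_left h2 h0.le
      have h6 : 1 / (h * (((m : ℝ) + 1) / 4)) = 4 * (1 / (h * ((m : ℝ) + 1))) := by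
        field_simp
      rw [h6] at h5
      linarith
  · refine ⟨⌊1 / (100 * h)⌋₊, by omega, by omega, ?_, ?_⟩
    · calc ((⌊1 / (100 * h)⌋₊ : ℕ) : ℝ) * h ≤ 1 / (100 * h) * h :=
          mul_le_mul_of_nonneg_right hfl2 h0.le
        _ = 1 / 100 := by field_simp
    · have h2 : 1 / (100 * h) - 1 ≤ ((⌊1 / (100 * h)⌋₊ : ℕ) : ℝ) := (Nat.sub_one_lt_floor _).le
      have h3 : 1 / (102 * h) ≤ 1 / (100 * h) - 1 := by
        have e1 : 1 / (100 * h) - 1 / (102 * h) = (1 / (100 * h)) * (2 / 102) := by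
          field_simp
          norm_num
        nlinarith
      have h4 : 1 / 102 ≤ h * ((⌊1 / (100 * h)⌋₊ : ℕ) : ℝ) := by
        calc (1 : ℝ) / 102 = h * (1 / (102 * h)) := by field_simp
          _ ≤ _ := mul_le_mul_of_nonneg_left (h3.trans h2) h0.le
      have h5 : 1 / (h * ((⌊1 / (100 * h)⌋₊ : ℕ) : ℝ)) ≤ 1 / (1 / 102) :=
        one_div_le_one_div_of_le (by norm_num) h4
      rw [one_div_one_div] at h5
      linarith

end KReg

open KReg

theorem chain_reg : ∃ C : ℝ, 1 ≤ C ∧ ∀ {κ : Type} [Fintype κ] {d : ℕ}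
    {F : E2 d → (κ → E d) → E d}, Force κ F →
    ∀ {h : ℝ}, 0 < h → h ≤ 1 / 10000 → ∀ {f : E d → ℝ}, Measurable f → (∀ x, |f x| ≤ 1) → ∀ m : ℕ,
    Nice ((opT F h)^[m] (u0 f)) ∧ ContDiff ℝ 2 ((opT F h)^[m] (u0 f)) ∧ ∀ s,
      |(opT F h)^[m] (u0 f) s| ≤ 1 ∧
      ‖gx ((opT F h)^[m] (u0 f)) s‖ ≤ C * (1 + 1 / (h * (m + 1))) ∧
      ‖gz ((opT F h)^[m] (u0 f)) s‖ ≤ C * (1 + 1 / (h * (m + 1))) ∧
      hx (fderiv ℝ (gx ((opT F h)^[m] (u0 f))) s) ≤ (C * (1 + 1 / (h * (m + 1)))) ^ 2 ∧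
      hz (fderiv ℝ (gx ((opT F h)^[m] (u0 f))) s) ≤ (C * (1 + 1 / (h * (m + 1)))) ^ 2 ∧
      hx (fderiv ℝ (gz ((opT F h)^[m] (u0 f))) s) ≤ (C * (1 + 1 / (h * (m + 1)))) ^ 2 ∧
      hz (fderiv ℝ (gz ((opT F h)^[m] (u0 f))) s) ≤ (C * (1 + 1 / (h * (m + 1)))) ^ 2 := by
  obtain ⟨C1, hC1, H1⟩ := chain_D2
  obtain ⟨C2, hC2, H2⟩ := step_D2
  set C : ℝ := 1020 * C1 + 2 * C2 ^ 3 with hC
  have hC2p : 1 ≤ C2 ^ 3 := one_le_pow₀ hC2
  have hCge : 1 ≤ C := by linarith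
  refine ⟨C, hCge, ?_⟩
  intro κ _ d F hF h h0 h1 f hf hb m
  have h16 : h ≤ 1 / 16 := h1.trans (by norm_num)
  obtain ⟨hn, hbd⟩ := iter_basic hF h0 h16 hf hb m
  set D : ℝ := 1 + 1 / (h * ((m : ℝ) + 1)) with hD
  have hD1 : 1 ≤ D := by
    rw [hD]
    have : 0 ≤ 1 / (h * ((m : ℝ) + 1)) := by positivity
    linarith
  rcases Nat.lt_or_ge m 4 with hm | hm
  · -- the first steps
    have key : ∀ j : ℕ, ContDiff ℝ 2 ((opT F h)^[j] (u0 f)) ∧
        (∃ B, ∀ s, ‖fderiv ℝ (fderiv ℝ ((opT F h)^[j] (u0 f))) s‖ ≤ B) ∧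
        (∀ s, ‖gx ((opT F h)^[j] (u0 f)) s‖ ≤ 2 * C2 ^ j) ∧
        (∀ s, ‖gz ((opT F h)^[j] (u0 f)) s‖ ≤ 2 * C2 ^ j) ∧
        ∀ s, hx (fderiv ℝ (gx ((opT F h)^[j] (u0 f))) s) ≤ (2 * C2 ^ j) ^ 2 ∧
          hz (fderiv ℝ (gx ((opT F h)^[j] (u0 f))) s) ≤ (2 * C2 ^ j) ^ 2 ∧
          hx (fderiv ℝ (gz ((opT F h)^[j] (u0 f))) s) ≤ (2 * C2 ^ j) ^ 2 ∧
          hz (fderiv ℝ (gz ((opT F h)^[j] (u0 f))) s) ≤ (2 * C2 ^ j) ^ 2 := by
      intro j
      induction j with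
      | zero =>
        refine ⟨u0_contDiff hf hb, u0_second hf hb, fun s => ?_, fun s => ?_, fun s => ?_⟩
        · show ‖gx (u0 f) s‖ ≤ _
          rw [u0_gx hf hb, pow_zero, mul_one]
          exact (grad_le hf hb s.1).trans (by norm_num)
        · show ‖gz (u0 f) s‖ ≤ _
          rw [u0_gz hf hb, pow_zero, mul_one, norm_zero]
          norm_num
        · rw [pow_zero, mul_one]
          exact u0_hess hf hb s
      | succ j ih =>
        obtain ⟨i1, i2, i3, i4, i5⟩ := ih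
        have hC2j : 0 ≤ 2 * C2 ^ j := by positivity
        have := H2 hF h0 h1 (iter_basic hF h0 h16 hf hb j).1 i1 i2 hC2j i3 i4 i5
        have e : C2 * (2 * C2 ^ j) = 2 * C2 ^ (j + 1) := by ring
        rw [e] at this
        rw [Function.iterate_succ_apply']
        exact this
    obtain ⟨k1, _, k3, k4, k5⟩ := key m
    have hle : 2 * C2 ^ m ≤ C * D := by
      have e1 : C2 ^ m ≤ C2 ^ 3 := pow_le_pow_right₀ hC2 (by omega)
      nlinarith
    have hle0 : 0 ≤ 2 * C2 ^ m := by positivity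
    have hsq : (2 * C2 ^ m) ^ 2 ≤ (C * D) ^ 2 := pow_le_pow_left₀ hle0 hle 2
    refine ⟨hn, k1, fun s => ?_⟩
    obtain ⟨k6, k7, k8, k9⟩ := k5 s
    exact ⟨hbd s, (k3 s).trans hle, (k4 s).trans hle, k6.trans hsq, k7.trans hsq,
      k8.trans hsq, k9.trans hsq⟩
  · obtain ⟨n, hn2, hnm, hnh, hnD⟩ := choice h0 h1 hm
    have hnpos : (0 : ℝ) < n := by
      have : (2 : ℝ) ≤ n := by exact_mod_cast hn2
      linarith
    have hhn : 0 < h * n := by positivity
    have hhn1 : h * n ≤ 1 / 100 := by linarith [mul_comm (n : ℝ) h]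
    set R : ℝ := 1 / (h * n) with hR
    have hR0 : 0 < R := by positivity
    have hR100 : 100 ≤ R := by
      rw [hR, le_div_iff₀ hhn]
      linarith
    have hRC : R ≤ 102 * D := hnD
    -- gradient bounds after `n` smoothing steps
    have grad : ∀ p : E2 d → ℝ, Nice p → (∀ s, ‖p s‖ ≤ 1) → ∀ s,
        ‖gx ((opT F h)^[n] p) s‖ ≤ 10 * Real.sqrt R / n ∧
          ‖gz ((opT F h)^[n] p) s‖ ≤ 10 * Real.sqrt R := by
      intro p hp hpb s
      have hsR : Real.sqrt R ^ 2 = R := Real.sq_sqrt hR0.le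
      constructor
      · have h2 := smooth_x hF h0 h1 hp.smooth.continuous.stronglyMeasurable hpb n hn2 hnh s
        rw [← gx_norm] at h2
        refine (pow_le_pow_iff_left₀ (norm_nonneg _) (by positivity) two_ne_zero).1 ?_
        refine h2.trans (le_of_eq ?_)
        rw [div_pow, mul_pow, hsR, hR]
        field_simp
        norm_num
      · have h2 := smooth_z hF h0 h1 hp.smooth.continuous.stronglyMeasurable hpb n (by omega) hnh s
        rw [← gz_norm] at h2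
        refine (pow_le_pow_iff_left₀ (norm_nonneg _) (by positivity) two_ne_zero).1 ?_
        refine h2.trans (le_of_eq ?_)
        rw [mul_pow, hsR, hR]
        field_simp
        norm_num
    -- second derivatives
    obtain ⟨b1, b2⟩ := iter_basic hF h0 h16 hf hb (m - 2 * n)
    have hv := grad _ b1 b2
    have hvn : Nice ((opT F h)^[n] ((opT F h)^[m - 2 * n] (u0 f))) := by
      rw [← Function.iterate_add_apply]
      exact (iter_basic hF h0 h16 hf hb _).1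
    have ht : 0 ≤ 10 * Real.sqrt R := by positivity
    obtain ⟨d1, d2⟩ := H1 hF h0 h1 hvn hn2 hnh ht (fun s => (hv s).1) (fun s => (hv s).2)
    have e : (opT F h)^[n] ((opT F h)^[n] ((opT F h)^[m - 2 * n] (u0 f))) =
        (opT F h)^[m] (u0 f) := by
      rw [← Function.iterate_add_apply, ← Function.iterate_add_apply]
      congr 2
      omega
    rw [e] at d1 d2
    have e2 : C1 * (10 * Real.sqrt R) ^ 2 / (h * n) = 100 * C1 * R ^ 2 := by
      rw [mul_pow, Real.sq_sqrt hR0.le, hR]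
      field_simp
      norm_num
    rw [e2] at d2
    have hbound : 100 * C1 * R ^ 2 ≤ (C * D) ^ 2 := by
      have e3 : 100 * C1 * R ^ 2 ≤ (10 * C1 * R) ^ 2 := by
        have : 100 * R ^ 2 * C1 ≤ 100 * R ^ 2 * C1 ^ 2 :=
          mul_le_mul_of_nonneg_left (by nlinarith) (by positivity)
        nlinarith
      refine e3.trans (pow_le_pow_left₀ (by positivity) ?_ 2)
      calc 10 * C1 * R ≤ 10 * C1 * (102 * D) :=
            mul_le_mul_of_nonneg_left hRC (by linarith)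
        _ = 1020 * C1 * D := by ring
        _ ≤ C * D := mul_le_mul_of_nonneg_right (by linarith) (by linarith)
    -- first derivatives
    obtain ⟨g1, g2⟩ := iter_basic hF h0 h16 hf hb (m - n)
    have hw := grad _ g1 g2
    have e4 : (opT F h)^[n] ((opT F h)^[m - n] (u0 f)) = (opT F h)^[m] (u0 f) := by
      rw [← Function.iterate_add_apply]
      congr 2
      omega
    rw [e4] at hw
    have hg : 10 * Real.sqrt R ≤ C * D := by
      have e5 : Real.sqrt R ≤ R / 10 := by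
        rw [Real.sqrt_le_left (by positivity)]
        nlinarith
      calc 10 * Real.sqrt R ≤ R := by linarith
        _ ≤ 102 * D := hRC
        _ ≤ C * D := mul_le_mul_of_nonneg_right (by linarith) (by linarith)
    have hg' : 10 * Real.sqrt R / n ≤ 10 * Real.sqrt R :=
      div_le_self ht (by
        have : (2 : ℝ) ≤ n := by exact_mod_cast hn2
        linarith)
    refine ⟨hn, d1, fun s => ?_⟩
    obtain ⟨k6, k7, k8, k9⟩ := d2 s
    exact ⟨hbd s, (hw s).1.trans (hg'.trans hg), (hw s).2.trans hg, k6.trans hbound,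
      k7.trans hbound, k8.trans hbound, k9.trans hbound⟩

end Vale.Agent.P347
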