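import Vale.Agent.P347.KMainCore
import Vale.Agent.P347.KInvT
import Vale.Agent.P347.KReg

/-! P347, piece K15: the main phase. -/

open MeasureTheory ProbabilityTheory
open scoped ENNReal NNReal RealInnerProductSpace

namespace Vale.Agent.P347

theorem main_phase : ∃ C : ℝ, 1 ≤ C ∧ ∀ {d : ℕ} {W : E d → ℝ}, 1 ≤ d → Pot d 1 2 W →
    gradient W 0 = 0 → ∀ {h τ : ℝ}, 0 < h → h ≤ 1 / C → τ ≤ h ^ 2 →
    ∀ {n : ℕ} {r : ℝ} {k : Fin n → ℕ} {p : Fin n → ℝ}, IsQuad r τ k p →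
    ∀ {f : E d → ℝ}, Measurable f → (∀ x, |f x| ≤ 1) → ∀ N : ℕ,
    |(opT (frc (gradient W) p (fun i => r ^ k i) (h ^ 2)) h)^[N] (u0 f) (0, 0) -
        ∫ x, conv 1 f x ∂gibbs (fun x => h ^ 2 * W x)| ≤
      C * Real.sqrt d * (h ^ 4 * N + h ^ 3 * (1 + Real.log (N + 1)) +
        1 / h ^ 2 * (1 - h / C) ^ N) :=
  main_phase_of one_inv chain_reg

end Vale.Agent.P347
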