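import Vale.Agent.P347.DefsD
import Vale.Agent.P347.KContr
import Vale.Agent.P347.KForce
import Vale.Agent.P347.RefOne
import Vale.Agent.P347.GibbsBasic
import Vale.Agent.P347.Conv

/-! P347, piece K15: the main phase (telescoping), from the statements of `one_inv` and
`chain_reg`. -/

open MeasureTheory ProbabilityTheory
open scoped ENNReal NNReal RealInnerProductSpace

namespace Vale.Agent.P347

namespace MainAux

variable {d : ℕ}

/-- scaling of a potential -/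
theorem pot_smul {α β : ℝ} {U : E d → ℝ} (hU : Pot d α β U) {ε : ℝ} (hε : 0 ≤ ε) :
    Pot d (ε * α) (ε * β) (fun x => ε * U x) := by
  obtain ⟨h1, _, h3⟩ := PotAux.comb hU ε 0 0
  have e : (fun x : E d => ε * U x) = fun x => ε * U x + 0 * ‖x - 0‖ ^ 2 := by
    funext x; ring
  rw [e]
  refine ⟨h1, fun x v => ?_, fun x v => ?_⟩
  · rw [h3]
    have := mul_le_mul_of_nonneg_left (hU.lower x v) hε
    linarith
  · rw [h3]
    have := mul_le_mul_of_nonneg_left (hU.upper x v) hε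
    linarith

theorem gradient_smul' {α β : ℝ} {U : E d → ℝ} (hU : Pot d α β U) (ε : ℝ) (x : E d) :
    gradient (fun x => ε * U x) x = ε • gradient U x := by
  obtain ⟨_, h2, _⟩ := PotAux.comb hU ε 0 0
  have e : (fun x : E d => ε * U x) = fun x => ε * U x + 0 * ‖x - 0‖ ^ 2 := by
    funext x; ring
  rw [e]
  apply ext_inner_right ℝ
  intro v
  rw [Pot.inner_grad, (h2 x).fderiv, inner_smul_left, Pot.inner_grad]
  simp

/-- first moment of a Gibbs law with critical point `0` -/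
theorem gibbs_norm_le {α β : ℝ} {U : E d → ℝ} (hU : Pot d α β U) (hα : 0 < α)
    (h0 : gradient U 0 = 0) : ∫ x, ‖x‖ ∂gibbs U ≤ 2 * Real.sqrt (d / α) := by
  have := gibbs_prob hU hα
  have i1 : Integrable (fun x : E d => ‖x‖) (gibbs U) :=
    gibbs_integrable hU hα (by fun_prop) ⟨1, 1, fun x => by
      rw [norm_norm]; linarith [norm_nonneg x]⟩
  have i2 : Integrable (fun x : E d => ‖x‖ ^ 2) (gibbs U) :=
    gibbs_integrable hU hα (by fun_prop) ⟨1, 2, fun x => by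
      rw [Real.norm_of_nonneg (by positivity), one_mul]
      exact pow_le_pow_left₀ (norm_nonneg _) (by linarith) 2⟩
  set m := ∫ x, ‖x‖ ∂gibbs U with hm
  have hm0 : 0 ≤ m := integral_nonneg fun x => norm_nonneg x
  have i3 : Integrable (fun x : E d => 2 * m * ‖x‖) (gibbs U) := i1.const_mul (2 * m)
  have i4 : Integrable (fun x : E d => ‖x‖ ^ 2 - 2 * m * ‖x‖) (gibbs U) := i2.sub i3
  have h : 0 ≤ ∫ x : E d, (‖x‖ ^ 2 - 2 * m * ‖x‖ + m ^ 2) ∂gibbs U := by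
    refine integral_nonneg fun x => ?_
    have : ‖x‖ ^ 2 - 2 * m * ‖x‖ + m ^ 2 = (‖x‖ - m) ^ 2 := by ring
    show 0 ≤ ‖x‖ ^ 2 - 2 * m * ‖x‖ + m ^ 2
    rw [this]
    positivity
  rw [integral_add i4 (integrable_const _), integral_sub i2 i3,
    integral_const_mul, ← hm] at h
  simp only [integral_const, probReal_univ, one_smul] at h
  have h2 := gibbs_sq hU hα
  rw [h0, norm_zero] at h2
  have h3 : m ^ 2 ≤ 4 * (d / α) := by
    have : (0 : ℝ) ^ 2 / α ^ 2 = 0 := by simp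
    rw [this, add_zero] at h2
    nlinarith
  have h4 : m ≤ Real.sqrt (4 * (d / α)) := Real.le_sqrt_of_sq_le h3
  rwa [Real.sqrt_mul (by norm_num), show Real.sqrt 4 = 2 by
    rw [show (4 : ℝ) = 2 ^ 2 by norm_num]; exact Real.sqrt_sq (by norm_num)] at h4

/-- the Gaussian convolution of a bounded function is 1-Lipschitz -/
theorem conv_one_lip {f : E d → ℝ} (hf : Measurable f) (hb : ∀ x, |f x| ≤ 1) (x y : E d) :
    |conv 1 f x - conv 1 f y| ≤ ‖x - y‖ := by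
  have hc : ContDiff ℝ 2 (conv 1 f) :=
    conv_contDiff one_pos hf.stronglyMeasurable (C := 1) hb
  have hg : ∀ x, ‖fderiv ℝ (conv 1 f) x‖ ≤ 1 := by
    intro x
    have h1 := conv_reverse_scalar (η := 1) one_pos hf hb x
    have h2 : conv 1 (fun x => (f x) ^ 2) x ≤ 1 := by
      have h3 := conv_norm_le (η := 1) (f := fun x => (f x) ^ 2) (C := 1) (fun x => by
        rw [Real.norm_eq_abs, abs_pow]
        exact pow_le_one₀ (abs_nonneg _) (hb x)) x
      rw [Real.norm_eq_abs] at h3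
      exact (le_abs_self _).trans h3
    have h4 : ‖gradient (conv 1 f) x‖ = ‖fderiv ℝ (conv 1 f) x‖ := by
      rw [gradient, LinearIsometryEquiv.norm_map]
    rw [← h4]
    have h5 : ‖gradient (conv 1 f) x‖ ^ 2 ≤ 1 := by nlinarith [sq_nonneg (conv 1 f x)]
    nlinarith [norm_nonneg (gradient (conv 1 f) x)]
  have := Convex.norm_image_sub_le_of_norm_fderiv_le (𝕜 := ℝ) (f := conv 1 f) (s := Set.univ)
    (C := 1) (fun x _ => (hc.differentiable (by norm_num)) x) (fun x _ => hg x) convex_univ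
    (Set.mem_univ y) (Set.mem_univ x)
  rwa [one_mul, Real.norm_eq_abs] at this

theorem harmonic_le (N : ℕ) : ∑ m ∈ Finset.range N, 1 / ((m : ℝ) + 1) ≤ 1 + Real.log (N + 1) := by
  have h1 := harmonic_le_one_add_log N
  have h2 : ((harmonic N : ℚ) : ℝ) = ∑ m ∈ Finset.range N, 1 / ((m : ℝ) + 1) := by
    rw [harmonic]
    push_cast
    exact Finset.sum_congr rfl fun m _ => by rw [one_div]
  rw [← h2]
  refine h1.trans ?_
  rcases Nat.eq_zero_or_pos N with h | h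
  · subst h; simp
  · have : Real.log N ≤ Real.log (N + 1) := Real.log_le_log (by exact_mod_cast h) (by linarith)
    linarith

theorem forget {W : E d → ℝ} (hW : Pot d 1 2 W) (hW0 : gradient W 0 = 0) {h : ℝ} (h0 : 0 < h)
    {v : E2 d → ℝ} (hcont : Continuous v) (hbN : ∀ s, |v s| ≤ 1) {c : ℝ} (hc0 : 0 ≤ c)
    (con : ∀ s : E2 d, |v (0, 0) - v s| ≤ c * (h * ‖s.1‖ + ‖s.2‖)) :
    |v (0, 0) - ∫ x, ∫ z, v (x, z) ∂gam d ∂gibbs (fun x => h ^ 2 * W x)| ≤
      c * (3 * Real.sqrt d) := by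
  set μ := gibbs (fun x => h ^ 2 * W x) with hμ
  have hU : Pot d (h ^ 2 * 1) (h ^ 2 * 2) (fun x => h ^ 2 * W x) := pot_smul hW (sq_nonneg h)
  have hα : 0 < h ^ 2 * 1 := by positivity
  have hprob : IsProbabilityMeasure μ := gibbs_prob hU hα
  have hgU : gradient (fun x => h ^ 2 * W x) 0 = 0 := by
    rw [gradient_smul' hW, hW0, smul_zero]
  have ix : Integrable (fun x : E d => ‖x‖) μ :=
    gibbs_integrable hU hα (by fun_prop) ⟨1, 1, fun x => by
      rw [norm_norm]; linarith [norm_nonneg x]⟩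
  have iz : Integrable (fun x : E d => ‖x‖) (gam d) := RefAux.norm_integrable d
  have hx1 : h * ∫ x, ‖x‖ ∂μ ≤ 2 * Real.sqrt d := by
    have := gibbs_norm_le hU hα hgU
    have e : Real.sqrt (d / (h ^ 2 * 1)) = Real.sqrt d / h := by
      rw [mul_one, Real.sqrt_div (by positivity), Real.sqrt_sq h0.le]
    rw [e] at this
    calc h * ∫ x, ‖x‖ ∂μ ≤ h * (2 * (Real.sqrt d / h)) := mul_le_mul_of_nonneg_left this h0.le
      _ = _ := by field_simp
  have hz1 := RefOne.gam_norm_le d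
  have iv : ∀ x, Integrable (fun z => v (x, z)) (gam d) := fun x =>
    (integrable_const (1 : ℝ)).mono' (by fun_prop) (Filter.Eventually.of_forall fun z => hbN _)
  have ivv : Integrable (fun x => ∫ z, v (x, z) ∂gam d) μ := by
    refine (integrable_const (1 : ℝ)).mono' ?_ (Filter.Eventually.of_forall fun x => ?_)
    · exact (hcont.stronglyMeasurable.integral_prod_right'
        (ν := gam d)).aestronglyMeasurable
    · refine (norm_integral_le_of_norm_le_const (C := 1)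
        (Filter.Eventually.of_forall fun z => hbN _)).trans ?_
      simp
  have e : v (0, 0) - ∫ x, ∫ z, v (x, z) ∂gam d ∂μ =
      ∫ x, ∫ z, (v (0, 0) - v (x, z)) ∂gam d ∂μ := by
    have e1 : ∀ x, ∫ z, (v (0, 0) - v (x, z)) ∂gam d = v (0, 0) - ∫ z, v (x, z) ∂gam d := by
      intro x
      rw [integral_sub (integrable_const _) (iv x)]
      simp
    simp_rw [e1]
    rw [integral_sub (integrable_const _) ivv]
    simp
  rw [e]
  have b1 : ∀ x, |∫ z, (v (0, 0) - v (x, z)) ∂gam d| ≤ c * (h * ‖x‖ + Real.sqrt d) := by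
    intro x
    calc |∫ z, (v (0, 0) - v (x, z)) ∂gam d|
        ≤ ∫ z, c * (h * ‖x‖ + ‖z‖) ∂gam d := by
          rw [← Real.norm_eq_abs]
          refine norm_integral_le_of_norm_le ?_ (Filter.Eventually.of_forall fun z => ?_)
          · exact ((integrable_const _).add iz).const_mul c
          · rw [Real.norm_eq_abs]
            exact con (x, z)
      _ = c * (h * ‖x‖ + ∫ z, ‖z‖ ∂gam d) := by
          rw [integral_const_mul, integral_add (integrable_const _) iz]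
          simp
      _ ≤ _ := mul_le_mul_of_nonneg_left (by linarith) hc0
  calc |∫ x, ∫ z, (v (0, 0) - v (x, z)) ∂gam d ∂μ|
      ≤ ∫ x, c * (h * ‖x‖ + Real.sqrt d) ∂μ := by
        rw [← Real.norm_eq_abs]
        refine norm_integral_le_of_norm_le ?_ (Filter.Eventually.of_forall fun x => ?_)
        · exact ((ix.const_mul h).add (integrable_const _)).const_mul c
        · rw [Real.norm_eq_abs]; exact b1 x
    _ = c * (h * ∫ x, ‖x‖ ∂μ + Real.sqrt d) := by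
        rw [integral_const_mul, integral_add (ix.const_mul h) (integrable_const _),
          integral_const_mul]
        simp
    _ ≤ _ := mul_le_mul_of_nonneg_left (by linarith) hc0

theorem final_num {h C C3 a : ℝ} (h0 : 0 < h) (hh1 : h ≤ 1) (hC3 : 1 ≤ C3) (hCC : 3 * C3 ≤ C)
    (hb1 : 0 ≤ 1 - h / C3) (N : ℕ) (ha : 0 ≤ a) :
    C3 / h * (1 - h / C3) ^ N * (3 * a) ≤ C * a * (1 / h ^ 2 * (1 - h / C) ^ N) := by
  have hC0 : 0 < C := by linarith
  have q1 : (1 - h / C3) ^ N ≤ (1 - h / C) ^ N := by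
    refine pow_le_pow_left₀ hb1 ?_ N
    have : h / C ≤ h / C3 := div_le_div_of_nonneg_left h0.le (by linarith) (by linarith)
    linarith
  have q2 : 3 * C3 / h ≤ C / h ^ 2 := by
    rw [div_le_div_iff₀ h0 (by positivity)]
    have : 3 * C3 * h ≤ C * 1 := mul_le_mul hCC hh1 h0.le hC0.le
    nlinarith
  have q3 : 0 ≤ (1 - h / C3) ^ N := pow_nonneg hb1 N
  calc C3 / h * (1 - h / C3) ^ N * (3 * a) = a * (3 * C3 / h * (1 - h / C3) ^ N) := by
        ring
    _ ≤ a * (C / h ^ 2 * (1 - h / C) ^ N) :=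
        mul_le_mul_of_nonneg_left (mul_le_mul q2 q1 q3 (by positivity)) ha
    _ = _ := by ring

end MainAux

open MainAux

theorem main_phase_of
    (one_inv : ∃ C : ℝ, 1 ≤ C ∧ ∀ {d : ℕ} {W : E d → ℝ}, Pot d 1 2 W → gradient W 0 = 0 →
      ∀ {h τ : ℝ}, 0 < h → h ≤ 1 / 10000 → τ ≤ h ^ 2 →
      ∀ {n : ℕ} {r : ℝ} {k : Fin n → ℕ} {p : Fin n → ℝ},
      IsQuad r τ k p → ∀ {u : E2 d → ℝ}, Nice u → ContDiff ℝ 2 u → ∀ {A : ℝ}, 0 ≤ A →
      (∀ s, ‖gx u s‖ ≤ A) → (∀ s, ‖gz u s‖ ≤ A) →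
      (∀ s, hx (fderiv ℝ (gx u) s) ≤ A ^ 2 ∧ hz (fderiv ℝ (gx u) s) ≤ A ^ 2 ∧
        hx (fderiv ℝ (gz u) s) ≤ A ^ 2 ∧ hz (fderiv ℝ (gz u) s) ≤ A ^ 2) →
      |∫ x, ∫ z, opT (frc (gradient W) p (fun i => r ^ k i) (h ^ 2)) h u (x, z) ∂gam d
          ∂gibbs (fun x => h ^ 2 * W x) -
        ∫ x, ∫ z, u (x, z) ∂gam d ∂gibbs (fun x => h ^ 2 * W x)| ≤ C * Real.sqrt d * h ^ 4 * A)
    (chain_reg : ∃ C : ℝ, 1 ≤ C ∧ ∀ {κ : Type} [Fintype κ] {d : ℕ}
      {F : E2 d → (κ → E d) → E d}, Force κ F →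
      ∀ {h : ℝ}, 0 < h → h ≤ 1 / 10000 → ∀ {f : E d → ℝ}, Measurable f → (∀ x, |f x| ≤ 1) →
      ∀ m : ℕ,
      Nice ((opT F h)^[m] (u0 f)) ∧ ContDiff ℝ 2 ((opT F h)^[m] (u0 f)) ∧ ∀ s,
        |(opT F h)^[m] (u0 f) s| ≤ 1 ∧
        ‖gx ((opT F h)^[m] (u0 f)) s‖ ≤ C * (1 + 1 / (h * (m + 1))) ∧
        ‖gz ((opT F h)^[m] (u0 f)) s‖ ≤ C * (1 + 1 / (h * (m + 1))) ∧
        hx (fderiv ℝ (gx ((opT F h)^[m] (u0 f))) s) ≤ (C * (1 + 1 / (h * (m + 1)))) ^ 2 ∧
        hz (fderiv ℝ (gx ((opT F h)^[m] (u0 f))) s) ≤ (C * (1 + 1 / (h * (m + 1)))) ^ 2 ∧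
        hx (fderiv ℝ (gz ((opT F h)^[m] (u0 f))) s) ≤ (C * (1 + 1 / (h * (m + 1)))) ^ 2 ∧
        hz (fderiv ℝ (gz ((opT F h)^[m] (u0 f))) s) ≤ (C * (1 + 1 / (h * (m + 1)))) ^ 2) :
    ∃ C : ℝ, 1 ≤ C ∧ ∀ {d : ℕ} {W : E d → ℝ}, 1 ≤ d → Pot d 1 2 W →
    gradient W 0 = 0 → ∀ {h τ : ℝ}, 0 < h → h ≤ 1 / C → τ ≤ h ^ 2 →
    ∀ {n : ℕ} {r : ℝ} {k : Fin n → ℕ} {p : Fin n → ℝ}, IsQuad r τ k p →
    ∀ {f : E d → ℝ}, Measurable f → (∀ x, |f x| ≤ 1) → ∀ N : ℕ,
    |(opT (frc (gradient W) p (fun i => r ^ k i) (h ^ 2)) h)^[N] (u0 f) (0, 0) -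
        ∫ x, conv 1 f x ∂gibbs (fun x => h ^ 2 * W x)| ≤
      C * Real.sqrt d * (h ^ 4 * N + h ^ 3 * (1 + Real.log (N + 1)) +
        1 / h ^ 2 * (1 - h / C) ^ N) := by
  obtain ⟨C1, hC1, K1⟩ := one_inv
  obtain ⟨C2, hC2, K2⟩ := chain_reg
  obtain ⟨C3, hC3, K3⟩ := chain_contr
  refine ⟨C1 * C2 + 3 * C3 + 10000, by nlinarith, ?_⟩
  set C := C1 * C2 + 3 * C3 + 10000 with hC
  have hCp : 1 ≤ C1 * C2 := by nlinarith
  intro d W hd hW hW0 h τ h0 hh hτ n r k p hq f hf hfb N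
  have hCC : 10000 ≤ C := by nlinarith
  have hC0 : 0 < C := by linarith
  have hh4 : h ≤ 1 / 10000 := hh.trans (one_div_le_one_div_of_le (by norm_num) hCC)
  have hhC3 : h ≤ 1 / C3 := hh.trans (one_div_le_one_div_of_le (by linarith) (by nlinarith))
  have hh1 : h ≤ 1 := hh4.trans (by norm_num)
  have hε : h ^ 2 ≤ 1 / 16 := by nlinarith
  have hρ0 : ∀ i, 0 ≤ (fun i => r ^ k i) i := fun i => pow_nonneg hq.r0.le _
  have hρ1 : ∀ i, (fun i => r ^ k i) i ≤ 1 := fun i => pow_le_one₀ hq.r0.le hq.r1.le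
  have hF := frc_force hW hq.p0 hq.ps hρ0 hρ1 (sq_nonneg h) hε
  have hFm := frc_mono hW hq.p0 hq.ps hρ0 hρ1 (sq_nonneg h) hε
  set F := frc (gradient W) p (fun i => r ^ k i) (h ^ 2) with hFdef
  set μ := gibbs (fun x => h ^ 2 * W x) with hμ
  have hU : Pot d (h ^ 2 * 1) (h ^ 2 * 2) (fun x => h ^ 2 * W x) := pot_smul hW (sq_nonneg h)
  have hα : 0 < h ^ 2 * 1 := by positivity
  have hprob : IsProbabilityMeasure μ := gibbs_prob hU hα
  have hgU : gradient (fun x => h ^ 2 * W x) 0 = 0 := by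
    rw [gradient_smul' hW, hW0, smul_zero]
  set v : ℕ → E2 d → ℝ := fun m => (opT F h)^[m] (u0 f) with hv
  set I : ℕ → ℝ := fun m => ∫ x, ∫ z, v m (x, z) ∂gam d ∂μ with hI
  -- one step
  have step : ∀ m, |I (m + 1) - I m| ≤ C1 * C2 * Real.sqrt d * (h ^ 4 + h ^ 3 * (1 / ((m : ℝ) + 1))) := by
    intro m
    obtain ⟨r1, r2, r3⟩ := K2 hF h0 hh4 hf hfb m
    have hA : 0 ≤ C2 * (1 + 1 / (h * ((m : ℝ) + 1))) := by positivity
    have := K1 hW hW0 h0 hh4 hτ hq r1 r2 hA (fun s => (r3 s).2.1) (fun s => (r3 s).2.2.1)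
      (fun s => ⟨(r3 s).2.2.2.1, (r3 s).2.2.2.2.1, (r3 s).2.2.2.2.2.1, (r3 s).2.2.2.2.2.2⟩)
    have e1 : I (m + 1) = ∫ x, ∫ z, opT F h (v m) (x, z) ∂gam d ∂μ := by
      simp only [hI, hv, Function.iterate_succ_apply']
    rw [e1]
    refine this.trans (le_of_eq ?_)
    have : (m : ℝ) + 1 ≠ 0 := by positivity
    field_simp
  have tele : |I N - I 0| ≤ C1 * C2 * Real.sqrt d * (h ^ 4 * N + h ^ 3 * (1 + Real.log (N + 1))) := by
    have e : I N - I 0 = ∑ m ∈ Finset.range N, (I (m + 1) - I m) := (Finset.sum_range_sub I N).symm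
    rw [e]
    refine (Finset.abs_sum_le_sum_abs _ _).trans ((Finset.sum_le_sum fun m _ => step m).trans ?_)
    rw [← Finset.mul_sum, Finset.sum_add_distrib, ← Finset.mul_sum, Finset.sum_const,
      Finset.card_range, nsmul_eq_mul]
    have := harmonic_le N
    have h3 : (0 : ℝ) ≤ h ^ 3 := by positivity
    refine mul_le_mul_of_nonneg_left ?_ (by positivity)
    nlinarith [mul_le_mul_of_nonneg_left this h3]
  -- the start
  have hI0 : I 0 = ∫ x, conv 1 f x ∂μ := by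
    simp only [hI, hv, Function.iterate_zero, id, u0, integral_const, probReal_univ, one_smul]
  -- forgetting
  have hlip : ∀ s s' : E2 d, |u0 f s - u0 f s'| ≤ ‖s.1 - s'.1‖ + ‖s.2 - s'.2‖ := fun s s' =>
    (conv_one_lip hf hfb _ _).trans (by linarith [norm_nonneg (s.2 - s'.2)])
  have hbd : ∃ B, ∀ s : E2 d, |u0 f s| ≤ B := ⟨1, fun s => by
    have := conv_norm_le (η := 1) (f := f) (C := 1) hfb s.1
    rwa [Real.norm_eq_abs] at this⟩
  have con := K3 hF h0 hhC3 hFm hlip hbd N (0, 0)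
  set c := C3 / h * (1 - h / C3) ^ N with hc
  have hb1 : 0 ≤ 1 - h / C3 := by
    rw [sub_nonneg, div_le_one (by linarith)]
    linarith
  have hc0 : 0 ≤ c := by positivity
  obtain ⟨rN, -, rb⟩ := K2 hF h0 hh4 hf hfb N
  have forget : |v N (0, 0) - I N| ≤ c * (3 * Real.sqrt d) := by
    refine forget hW hW0 h0 rN.smooth.continuous (fun s => (rb s).1) hc0 fun s => ?_
    have := con s
    simpa using this
  -- conclusion
  have hlog : 0 ≤ 1 + Real.log ((N : ℝ) + 1) := by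
    have : 0 ≤ Real.log ((N : ℝ) + 1) := Real.log_nonneg (by linarith [(Nat.cast_nonneg N : (0:ℝ) ≤ N)])
    linarith
  have hX : 0 ≤ h ^ 4 * N + h ^ 3 * (1 + Real.log (N + 1)) := by positivity
  have fin1 : c * (3 * Real.sqrt d) ≤ C * Real.sqrt d * (1 / h ^ 2 * (1 - h / C) ^ N) :=
    final_num h0 hh1 hC3 (by nlinarith) hb1 N (Real.sqrt_nonneg _)
  have fin2 : C1 * C2 * Real.sqrt d * (h ^ 4 * N + h ^ 3 * (1 + Real.log (N + 1))) ≤
      C * Real.sqrt d * (h ^ 4 * N + h ^ 3 * (1 + Real.log (N + 1))) := by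
    refine mul_le_mul_of_nonneg_right (mul_le_mul_of_nonneg_right (by nlinarith)
      (Real.sqrt_nonneg _)) hX
  rw [← hI0]
  calc |v N (0, 0) - I 0| ≤ |v N (0, 0) - I N| + |I N - I 0| := abs_sub_le _ _ _
    _ ≤ _ := by
      have : C * Real.sqrt d * (h ^ 4 * N + h ^ 3 * (1 + Real.log (N + 1)) +
        1 / h ^ 2 * (1 - h / C) ^ N) = C * Real.sqrt d * (h ^ 4 * N + h ^ 3 * (1 + Real.log (N + 1))) +
        C * Real.sqrt d * (1 / h ^ 2 * (1 - h / C) ^ N) := by ring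
      rw [this]
      linarith

end Vale.Agent.P347
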