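import Vale.Agent.P347.DefsD
import Vale.Agent.P347.LocalR
import Vale.Agent.P347.ProxLoc
import Vale.Agent.P347.ProxDisint
import Vale.Agent.P347.KForce
import Vale.Agent.P347.KMap
import Vale.Agent.P347.KInv

/-! P347, piece K13: the reflection leaves `π ⊗ γ` almost invariant. -/

open MeasureTheory ProbabilityTheory
open scoped ENNReal NNReal RealInnerProductSpace

namespace Vale.Agent.P347

namespace KReflAux

variable {d : ℕ}

/-- measurability of the proximal average -/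
theorem prox_meas {U : E d → ℝ} (hU : Measurable U) (η : ℝ) {F : E d → E d → ℝ}
    (hF : Measurable fun q : E d × E d => F q.1 q.2) :
    Measurable fun y => ∫ x', F x' y ∂prox U η y := by
  have h1 : ∀ y, ∫ x', F x' y ∂prox U η y =
      (∫ x, Real.exp (-(U x + ‖x - y‖ ^ 2 / (2 * η))))⁻¹ *
        ∫ x, Real.exp (-(U x + ‖x - y‖ ^ 2 / (2 * η))) * F x y := by
    intro y
    rw [prox, gibbs_integral]
    rfl
  simp_rw [h1]
  have hk : Measurable fun q : E d × E d => Real.exp (-(U q.1 + ‖q.1 - q.2‖ ^ 2 / (2 * η))) := by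
    fun_prop
  have m1 := (hk.stronglyMeasurable).integral_prod_left' (μ := (volume : Measure (E d)))
  have m2 := ((hk.mul hF).stronglyMeasurable).integral_prod_left' (μ := (volume : Measure (E d)))
  exact m1.measurable.inv.mul m2.measurable

theorem gam_neg (f : E d → ℝ) (hf : Measurable f) :
    ∫ z, f (-z) ∂gam d = ∫ z, f z ∂gam d := by
  have h := mp_comb (d := d) (c := -1) (s := 0) (by norm_num)
  have h1 := integral_map (μ := (gam d).prod (gam d)) h.measurable.aemeasurable (f := f)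
    (by rw [h.map_eq]; exact hf.aestronglyMeasurable)
  rw [h.map_eq] at h1
  rw [h1]
  have h2 : ∀ p : E d × E d, (-1 : ℝ) • p.1 + (0 : ℝ) • p.2 = -p.1 := by
    intro p; rw [neg_one_smul, zero_smul, add_zero]
  simp_rw [h2]
  rw [integral_fun_fst (μ := gam d) (ν := gam d) (fun z => f (-z))]
  simp

/-- splitting the cloud noise -/
theorem split {n : ℕ} (f : (Fin n ⊕ Fin n → E d) → ℝ) (hf : Continuous f) {C : ℝ}
    (hb : ∀ ω, |f ω| ≤ C) :
    ∫ ω, f ω ∂gamPi d (Fin n ⊕ Fin n) =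
      ∫ ζ, ∫ ζ', f (Sum.elim ζ ζ') ∂gamPi d (Fin n) ∂gamPi d (Fin n) := by
  have h := (measurePreserving_sumPiEquivProdPi (fun _ : Fin n ⊕ Fin n => gam d)).symm
  have h1 : ∫ ω, f ω ∂gamPi d (Fin n ⊕ Fin n) =
      ∫ q, f (Sum.elim q.1 q.2) ∂((gamPi d (Fin n)).prod (gamPi d (Fin n))) := by
    rw [← h.integral_comp' (g := f)]
    refine integral_congr_ae (Filter.Eventually.of_forall fun q => ?_)
    refine congrArg f (funext fun i => ?_)
    rcases i with i | i <;> rfl
  rw [h1, integral_prod]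
  refine Integrable.of_bound (hf.comp ?_).aestronglyMeasurable C
    (Filter.Eventually.of_forall fun q => hb _)
  refine continuous_pi fun i => ?_
  rcases i with i | i
  · exact (continuous_apply i).comp continuous_fst
  · exact (continuous_apply i).comp continuous_snd

/-- the local potential in the scaled coordinates -/
noncomputable def Wt (W : E d → ℝ) (ε : ℝ) (y u : E d) : ℝ :=
  W (y - ε • gradient W y + u) - ⟪gradient W y, u⟫

variable {W : E d → ℝ} {ε : ℝ}

theorem locW_eq_Wt (hW : Pot d 1 2 W) (y u : E d) :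
    locW (fun x => ε * W x) 1 y u = ε * Wt W ε y u := by
  unfold locW Wt
  rw [gradient_smul' hW, inv_one, one_mul, Real.sqrt_one, one_smul, one_smul, one_mul,
    inner_smul_left]
  simp only [conj_trivial]
  ring

theorem Wt_pot (hW : Pot d 1 2 W) (y : E d) : Pot d 1 2 (Wt W ε y) := by
  obtain ⟨h1, _, h3⟩ := LocAux.affine hW 1 1 (y - ε • gradient W y) (gradient W y)
  have e : (fun u => (1 : ℝ) * (W (y - ε • gradient W y + (1 : ℝ) • u) - ⟪gradient W y, u⟫)) =
      Wt W ε y := by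
    funext u
    unfold Wt
    rw [one_mul, one_smul]
  rw [e] at h1 h3
  refine ⟨h1, fun x v => ?_, fun x v => ?_⟩
  · rw [h3 x v]
    have := hW.lower (y - ε • gradient W y + (1 : ℝ) • x) v
    linarith
  · rw [h3 x v]
    have := hW.upper (y - ε • gradient W y + (1 : ℝ) • x) v
    linarith

theorem gradient_Wt (hW : Pot d 1 2 W) (y u : E d) :
    gradient (Wt W ε y) u = gradient W (y - ε • gradient W y + u) - gradient W y := by
  obtain ⟨_, h2, _⟩ := LocAux.affine hW 1 1 (y - ε • gradient W y) (gradient W y)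
  have e : (fun u => (1 : ℝ) * (W (y - ε • gradient W y + (1 : ℝ) • u) - ⟪gradient W y, u⟫)) =
      Wt W ε y := by
    funext u
    unfold Wt
    rw [one_mul, one_smul]
  rw [e] at h2
  refine ext_inner_right ℝ fun v => ?_
  rw [Pot.inner_grad, (h2 u).fderiv, inner_sub_left, Pot.inner_grad, Pot.inner_grad, one_smul,
    one_smul, one_smul]
  show fderiv ℝ W _ v - ⟪gradient W y, v⟫ = _
  rw [Pot.inner_grad]

/-- the exact identity for the step in local coordinates -/
theorem kmap_eq (hW : Pot d 1 2 W) {n : ℕ} {p ρ : Fin n → ℝ} (hs : ∑ i, p i = 1) (x z : E d)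
    (ζ ζ' : Fin n → E d) :
    kmap (frc (gradient W) p ρ ε) ε (x, z) (Sum.elim ζ ζ') =
      (cen (gradient W) ε (x + z) +
          refl (gradient (Wt W ε (x + z))) p ρ ε (x - cen (gradient W) ε (x + z)) ζ ζ',
        refl (gradient (Wt W ε (x + z))) p ρ ε (x - cen (gradient W) ε (x + z)) ζ ζ' -
          ε • gradient W (x + z)) := by
  set y := x + z with hy
  set w := gradient W with hw
  set c := cen w ε y with hc
  have hlev : ∀ (X : E d) (ζ : Fin n → E d), lev1 (fun t => w (c + t)) p ρ X ζ =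
      w y + lev1 (gradient (Wt W ε y)) p ρ X ζ := by
    intro X ζ
    unfold lev1
    have h1 : ∀ t, gradient (Wt W ε y) t = w (c + t) - w y := fun t => by
      rw [gradient_Wt hW]; rfl
    simp_rw [h1, smul_sub]
    rw [Finset.sum_sub_distrib, ← Finset.sum_smul, hs, one_smul]
    abel
  have hc1 : cloud1 w p ρ ε (x, z) ζ = w y + lev1 (gradient (Wt W ε y)) p ρ (x - c) ζ :=
    hlev (x - c) ζ
  have hcy : c = y - ε • w y := rfl
  have hseed : seed w p ρ ε (x, z) ζ = gseed (gradient (Wt W ε y)) p ρ ε (x - c) ζ := by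
    unfold seed gseed
    rw [hc1]
    show z - ε • (w y + lev1 (gradient (Wt W ε y)) p ρ (x - c) ζ) = _
    rw [hcy, hy]
    module
  have hc2 : cloud2 w p ρ ε (x, z) ζ ζ' =
      w y + lev1 (gradient (Wt W ε y)) p ρ (gseed (gradient (Wt W ε y)) p ρ ε (x - c) ζ) ζ' := by
    unfold cloud2
    rw [hseed]
    exact hlev _ ζ'
  have hF : frc w p ρ ε (x, z) (Sum.elim ζ ζ') =
      cloud1 w p ρ ε (x, z) ζ + cloud2 w p ρ ε (x, z) ζ ζ' := rfl
  have hz : z - ε • frc w p ρ ε (x, z) (Sum.elim ζ ζ') =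
      refl (gradient (Wt W ε y)) p ρ ε (x - c) ζ ζ' - ε • w y := by
    rw [hF, smul_add, ← sub_sub]
    have h1 : z - ε • cloud1 w p ρ ε (x, z) ζ = seed w p ρ ε (x, z) ζ := rfl
    rw [h1, hseed, hc2]
    unfold refl
    module
  unfold kmap
  refine Prod.ext ?_ hz
  show x + (2 : ℝ) • z - ε • frc w p ρ ε (x, z) (Sum.elim ζ ζ') =
    c + refl (gradient (Wt W ε y)) p ρ ε (x - c) ζ ζ'
  have h2 : x + (2 : ℝ) • z - ε • frc w p ρ ε (x, z) (Sum.elim ζ ζ') =
      y + (z - ε • frc w p ρ ε (x, z) (Sum.elim ζ ζ')) := by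
    rw [hy]; module
  rw [h2, hz, hcy]
  abel

/-- the test function in local coordinates -/
theorem phi_grad {u : E2 d → ℝ} (hu : ContDiff ℝ 2 u) (a b : E d) :
    ContDiff ℝ 2 (fun t => u (a + t, t + b)) ∧
    ∀ t, gradient (fun t => u (a + t, t + b)) t = gx u (a + t, t + b) + gz u (a + t, t + b) := by
  have hA : ∀ t : E d, HasFDerivAt (fun t : E d => ((a + t, t + b) : E2 d))
      ((ContinuousLinearMap.id ℝ (E d)).prod (ContinuousLinearMap.id ℝ (E d))) t := fun t =>
    ((hasFDerivAt_id t).const_add a).prodMk ((hasFDerivAt_id t).add_const b)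
  refine ⟨hu.comp (by fun_prop), fun t => ?_⟩
  have h1 := ((hu.differentiable (by norm_num) (a + t, t + b)).hasFDerivAt).comp t (hA t)
  refine ext_inner_right ℝ fun v => ?_
  rw [Pot.inner_grad]
  have h2 : fderiv ℝ (fun t => u (a + t, t + b)) t v = fderiv ℝ u (a + t, t + b) (v, v) := by
    have := h1.fderiv
    rw [show (u ∘ fun t : E d => ((a + t, t + b) : E2 d)) = fun t => u (a + t, t + b) from rfl]
      at this
    rw [this]
    rfl
  rw [h2, inner_add_left]
  unfold gx gz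
  rw [sum_inner, sum_inner]
  have hv : v = ∑ i, v i • (eb i : E d) := by
    ext j
    simp [eb, Pi.single_apply]
  have h3 : ∀ i, ⟪fderiv ℝ u (a + t, t + b) (eb i, 0) • (eb i : E d), v⟫ =
      v i * fderiv ℝ u (a + t, t + b) (eb i, 0) := by
    intro i
    rw [inner_smul_left, real_inner_comm, inner_eb]
    simp [mul_comm]
  have h4 : ∀ i, ⟪fderiv ℝ u (a + t, t + b) (0, eb i) • (eb i : E d), v⟫ =
      v i * fderiv ℝ u (a + t, t + b) (0, eb i) := by
    intro i
    rw [inner_smul_left, real_inner_comm, inner_eb]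
    simp [mul_comm]
  simp_rw [h3, h4]
  have h5 : ∀ (T : E2 d →L[ℝ] ℝ), T (v, v) = ∑ i, v i * T (eb i, 0) + ∑ i, v i * T (0, eb i) := by
    intro T
    have e1 : ((v, v) : E2 d) = (v, 0) + (0, v) := by simp
    have e2 : T (v, 0) = ∑ i, v i * T (eb i, 0) := by
      have := congrArg (T.comp (ContinuousLinearMap.inl ℝ (E d) (E d))) hv
      rw [map_sum] at this
      simpa using this
    have e3 : T (0, v) = ∑ i, v i * T (0, eb i) := by
      have := congrArg (T.comp (ContinuousLinearMap.inr ℝ (E d) (E d))) hv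
      rw [map_sum] at this
      simpa using this
    rw [e1, map_add, e2, e3]
  exact h5 _

theorem phi_hs2 {q : E2 d → E d} (hq : Differentiable ℝ q) (a b : E d) {A : ℝ}
    (hA : ∀ s, hx (fderiv ℝ q s) ≤ A ^ 2) (hB : ∀ s, hz (fderiv ℝ q s) ≤ A ^ 2) (t : E d) :
    hs2 (fderiv ℝ (fun t => q (a + t, t + b)) t) ≤ 4 * A ^ 2 := by
  have hL : HasFDerivAt (fun t : E d => ((a + t, t + b) : E2 d))
      ((ContinuousLinearMap.id ℝ (E d)).prod (ContinuousLinearMap.id ℝ (E d))) t :=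
    ((hasFDerivAt_id t).const_add a).prodMk ((hasFDerivAt_id t).add_const b)
  have h1 := ((hq (a + t, t + b)).hasFDerivAt).comp t hL
  have h2 : fderiv ℝ (fun t => q (a + t, t + b)) t =
      (fderiv ℝ q (a + t, t + b)).comp
        ((ContinuousLinearMap.id ℝ (E d)).prod (ContinuousLinearMap.id ℝ (E d))) := h1.fderiv
  rw [h2]
  unfold hs2
  have h3 : ∀ i, ‖((fderiv ℝ q (a + t, t + b)).comp
      ((ContinuousLinearMap.id ℝ (E d)).prod (ContinuousLinearMap.id ℝ (E d)))) (eb i)‖ ^ 2 ≤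
      2 * ‖fderiv ℝ q (a + t, t + b) (eb i, 0)‖ ^ 2 +
        2 * ‖fderiv ℝ q (a + t, t + b) (0, eb i)‖ ^ 2 := by
    intro i
    have e : ((fderiv ℝ q (a + t, t + b)).comp
      ((ContinuousLinearMap.id ℝ (E d)).prod (ContinuousLinearMap.id ℝ (E d)))) (eb i) =
        fderiv ℝ q (a + t, t + b) (eb i, 0) + fderiv ℝ q (a + t, t + b) (0, eb i) := by
      rw [← map_add]
      show fderiv ℝ q (a + t, t + b) (eb i, eb i) = _
      congr 1
      simp
    rw [e]
    have h4 := norm_add_le (fderiv ℝ q (a + t, t + b) (eb i, 0))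
      (fderiv ℝ q (a + t, t + b) (0, eb i))
    have h5 := pow_le_pow_left₀ (norm_nonneg _) h4 2
    nlinarith [sq_nonneg (‖fderiv ℝ q (a + t, t + b) (eb i, 0)‖ -
      ‖fderiv ℝ q (a + t, t + b) (0, eb i)‖)]
  calc _ ≤ ∑ i, (2 * ‖fderiv ℝ q (a + t, t + b) (eb i, 0)‖ ^ 2 +
        2 * ‖fderiv ℝ q (a + t, t + b) (0, eb i)‖ ^ 2) := Finset.sum_le_sum fun i _ => h3 i
    _ = 2 * hx (fderiv ℝ q (a + t, t + b)) + 2 * hz (fderiv ℝ q (a + t, t + b)) := by
        rw [Finset.sum_add_distrib, ← Finset.mul_sum, ← Finset.mul_sum]; rfl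
    _ ≤ _ := by linarith [hA (a + t, t + b), hB (a + t, t + b)]

theorem hx_add {A : ℝ} (T S : E2 d →L[ℝ] E d) (hT : hx T ≤ A ^ 2) (hS : hx S ≤ A ^ 2) :
    hx (T + S) ≤ (2 * A) ^ 2 := by
  unfold hx at *
  have h3 : ∀ i, ‖(T + S) (eb i, 0)‖ ^ 2 ≤ 2 * ‖T (eb i, 0)‖ ^ 2 + 2 * ‖S (eb i, 0)‖ ^ 2 := by
    intro i
    have h4 := norm_add_le (T (eb i, 0)) (S (eb i, 0))
    have h5 := pow_le_pow_left₀ (norm_nonneg _) h4 2
    have h6 : (T + S) (eb i, 0) = T (eb i, 0) + S (eb i, 0) := rfl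
    rw [h6]
    nlinarith [sq_nonneg (‖T (eb i, 0)‖ - ‖S (eb i, 0)‖)]
  calc _ ≤ ∑ i, (2 * ‖T (eb i, 0)‖ ^ 2 + 2 * ‖S (eb i, 0)‖ ^ 2) :=
        Finset.sum_le_sum fun i _ => h3 i
    _ ≤ _ := by
        rw [Finset.sum_add_distrib, ← Finset.mul_sum, ← Finset.mul_sum]
        nlinarith

theorem hz_add {A : ℝ} (T S : E2 d →L[ℝ] E d) (hT : hz T ≤ A ^ 2) (hS : hz S ≤ A ^ 2) :
    hz (T + S) ≤ (2 * A) ^ 2 := by
  unfold hz at *
  have h3 : ∀ i, ‖(T + S) (0, eb i)‖ ^ 2 ≤ 2 * ‖T (0, eb i)‖ ^ 2 + 2 * ‖S (0, eb i)‖ ^ 2 := by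
    intro i
    have h4 := norm_add_le (T (0, eb i)) (S (0, eb i))
    have h5 := pow_le_pow_left₀ (norm_nonneg _) h4 2
    have h6 : (T + S) (0, eb i) = T (0, eb i) + S (0, eb i) := rfl
    rw [h6]
    nlinarith [sq_nonneg (‖T (0, eb i)‖ - ‖S (0, eb i)‖)]
  calc _ ≤ ∑ i, (2 * ‖T (0, eb i)‖ ^ 2 + 2 * ‖S (0, eb i)‖ ^ 2) :=
        Finset.sum_le_sum fun i _ => h3 i
    _ ≤ _ := by
        rw [Finset.sum_add_distrib, ← Finset.mul_sum, ← Finset.mul_sum]
        nlinarith

/-- bounds for the test function in local coordinates -/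
theorem phi_bounds {u : E2 d → ℝ} (hu2 : ContDiff ℝ 2 u) {A : ℝ} (hgx : ∀ s, ‖gx u s‖ ≤ A)
    (hgz : ∀ s, ‖gz u s‖ ≤ A)
    (hsec : ∀ s, hx (fderiv ℝ (gx u) s) ≤ A ^ 2 ∧ hz (fderiv ℝ (gx u) s) ≤ A ^ 2 ∧
      hx (fderiv ℝ (gz u) s) ≤ A ^ 2 ∧ hz (fderiv ℝ (gz u) s) ≤ A ^ 2) (a b : E d) :
    ContDiff ℝ 2 (fun t => u (a + t, t + b)) ∧
      (∀ t, ‖gradient (fun t => u (a + t, t + b)) t‖ ≤ 2 * A) ∧
      ∀ t, hs2 (fderiv ℝ (gradient (fun t => u (a + t, t + b))) t) ≤ (4 * A) ^ 2 := by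
  obtain ⟨hφ2, hφg⟩ := phi_grad hu2 a b
  have hgφ : gradient (fun t => u (a + t, t + b)) = fun t => gx u (a + t, t + b) +
      gz u (a + t, t + b) := funext hφg
  have hgxd : ContDiff ℝ 1 (gx u) := by
    unfold gx
    refine ContDiff.sum fun i _ => ?_
    exact ((hu2.fderiv_right (m := 1) (by norm_num)).clm_apply contDiff_const).smul contDiff_const
  have hgzd : ContDiff ℝ 1 (gz u) := by
    unfold gz
    refine ContDiff.sum fun i _ => ?_
    exact ((hu2.fderiv_right (m := 1) (by norm_num)).clm_apply contDiff_const).smul contDiff_const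
  refine ⟨hφ2, fun t => ?_, fun t => ?_⟩
  · rw [hgφ]
    have := norm_add_le (gx u (a + t, t + b)) (gz u (a + t, t + b))
    linarith [hgx (a + t, t + b), hgz (a + t, t + b)]
  · have hq : Differentiable ℝ (fun s => gx u s + gz u s) :=
      (hgxd.differentiable (by norm_num)).add (hgzd.differentiable (by norm_num))
    have hfd : ∀ s, fderiv ℝ (fun s => gx u s + gz u s) s =
        fderiv ℝ (gx u) s + fderiv ℝ (gz u) s := fun s =>
      fderiv_add (hgxd.differentiable (by norm_num) s) (hgzd.differentiable (by norm_num) s)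
    have h3 := phi_hs2 hq a b (A := 2 * A)
      (fun s => by rw [hfd]; exact hx_add _ _ (hsec s).1 (hsec s).2.2.1)
      (fun s => by rw [hfd]; exact hz_add _ _ (hsec s).2.1 (hsec s).2.2.2) t
    rw [hgφ]
    exact h3.trans (le_of_eq (by ring))

theorem scal_end {D T ε τ A g y : ℝ} (hg : g ≤ 4 * ε * y) (hT : T = (ε ^ 2 + ε * τ) * A)
    (hA : 0 ≤ A) (hε : 0 ≤ ε) (hτ : 0 ≤ τ) (hD : 0 ≤ D) (hy : 0 ≤ y) :
    2000 * (D + g) * (ε ^ 2 * (2 * A + 4 * A) + ε * τ * (2 * A)) ≤
      12000 * (D + 4 * ε * y) * T := by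
  have h1 : 0 ≤ ε * τ * A := by positivity
  have h2 : ε ^ 2 * (2 * A + 4 * A) + ε * τ * (2 * A) ≤ 6 * T := by
    rw [hT]; nlinarith
  have h3 : 0 ≤ ε ^ 2 * (2 * A + 4 * A) + ε * τ * (2 * A) := by positivity
  calc 2000 * (D + g) * (ε ^ 2 * (2 * A + 4 * A) + ε * τ * (2 * A))
      ≤ 2000 * (D + 4 * ε * y) * (6 * T) :=
        mul_le_mul (by linarith) h2 h3 (by positivity)
    _ = _ := by ring

/-- local comparison -/
theorem local_cmp (hW : Pot d 1 2 W) (hW0 : gradient W 0 = 0) {τ : ℝ} (hε0 : 0 < ε)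
    (hε1 : ε ≤ 1 / 16) {n : ℕ} {r : ℝ} {k : Fin n → ℕ} {p : Fin n → ℝ} (hQ : IsQuad r τ k p)
    {u : E2 d → ℝ} (hu2 : ContDiff ℝ 2 u) {B : ℝ} (hB : ∀ s, |u s| ≤ B) {A : ℝ} (hA0 : 0 ≤ A)
    (hgx : ∀ s, ‖gx u s‖ ≤ A) (hgz : ∀ s, ‖gz u s‖ ≤ A)
    (hsec : ∀ s, hx (fderiv ℝ (gx u) s) ≤ A ^ 2 ∧ hz (fderiv ℝ (gx u) s) ≤ A ^ 2 ∧
      hx (fderiv ℝ (gz u) s) ≤ A ^ 2 ∧ hz (fderiv ℝ (gz u) s) ≤ A ^ 2) (y : E d) :
    |∫ x', opM (frc (gradient W) p (fun i => r ^ k i) ε) ε u (x', y - x')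
        ∂prox (fun x => ε * W x) 1 y - ∫ x', u (x', x' - y) ∂prox (fun x => ε * W x) 1 y| ≤
      12000 * (Real.sqrt d + 4 * ε * ‖y‖) * ((ε ^ 2 + ε * τ) * A) := by
  have hP : Pot d ε (2 * ε) (fun x => ε * W x) := KInvAux.pot_eps hW hε0
  set ρ : Fin n → ℝ := fun i => r ^ k i with hρ
  have hρ0 : ∀ i, 0 ≤ ρ i := fun i => pow_nonneg hQ.r0.le _
  have hρ1 : ∀ i, ρ i ≤ 1 := fun i => pow_le_one₀ hQ.r0.le hQ.r1.le
  have hF : Force (Fin n ⊕ Fin n) (frc (gradient W) p ρ ε) :=
    frc_force hW hQ.p0 hQ.ps hρ0 hρ1 hε0.le hε1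
  have huc : Continuous u := hu2.continuous
  set c : E d := y - ε • gradient W y with hc
  have hWt := Wt_pot (ε := ε) hW y
  have hmap := prox_eq_map hP hε0 one_pos y
  have hm0 : (fun u : E d => y - (1 : ℝ) • gradient (fun x => ε * W x) y + Real.sqrt 1 • u) =
      fun u => c + u := by
    funext u
    rw [gradient_smul' hW, one_smul, Real.sqrt_one, one_smul]
  have hm1 : (fun u : E d => ‖u‖ ^ 2 / 2 + 1 * locW (fun x => ε * W x) 1 y u) =
      fun u => ‖u‖ ^ 2 / 2 + ε * Wt W ε y u := by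
    funext u
    rw [locW_eq_Wt hW, one_mul]
  rw [hm0, hm1] at hmap
  have hmm : Measurable fun u : E d => c + u := measurable_const_add _
  have hΨm : Measurable fun x' => opM (frc (gradient W) p ρ ε) ε u (x', y - x') := by
    have h1 : StronglyMeasurable (opM (frc (gradient W) p ρ ε) ε u) :=
      opM_stronglyMeasurable hF huc.stronglyMeasurable
    exact h1.measurable.comp (by fun_prop)
  have hΘm : Measurable fun x' => u (x', x' - y) :=
    (huc.comp (by fun_prop : Continuous fun x' : E d => ((x', x' - y) : E2 d))).measurable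
  rw [hmap, integral_map hmm.aemeasurable (f := fun x' =>
      opM (frc (gradient W) p ρ ε) ε u (x', y - x')) hΨm.aestronglyMeasurable,
    integral_map hmm.aemeasurable (f := fun x' => u (x', x' - y)) hΘm.aestronglyMeasurable]
  have ea : ∀ X : E d, opM (frc (gradient W) p ρ ε) ε u (c + X, y - (c + X)) =
      ∫ ζ, ∫ ζ', (fun t => u (c + t, t + -(ε • gradient W y)))
        (refl (gradient (Wt W ε y)) p ρ ε X ζ ζ') ∂gamPi d (Fin n) ∂gamPi d (Fin n) := by
    intro X
    have h1 : opM (frc (gradient W) p ρ ε) ε u (c + X, y - (c + X)) =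
      ∫ ω, u (kmap (frc (gradient W) p ρ ε) ε (c + X, y - (c + X)) ω)
        ∂gamPi d (Fin n ⊕ Fin n) := rfl
    have h2 : Continuous fun ω : Fin n ⊕ Fin n → E d =>
        u (kmap (frc (gradient W) p ρ ε) ε (c + X, y - (c + X)) ω) :=
      huc.comp ((KMapAux.cont_kmap hF ε).comp (Continuous.prodMk_right _))
    rw [h1, split _ h2 (fun ω => hB _)]
    refine integral_congr_ae (Filter.Eventually.of_forall fun ζ => ?_)
    refine integral_congr_ae (Filter.Eventually.of_forall fun ζ' => ?_)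
    show u (kmap (frc (gradient W) p ρ ε) ε (c + X, y - (c + X)) (Sum.elim ζ ζ')) = _
    rw [kmap_eq hW hQ.ps, add_sub_cancel]
    have h3 : cen (gradient W) ε y = c := rfl
    rw [h3, add_sub_cancel_left, sub_eq_add_neg]
  have eb' : ∀ X : E d, u (c + X, c + X - y) = u (c + X, X + -(ε • gradient W y)) := by
    intro X
    have : c + X - y = X + -(ε • gradient W y) := by rw [hc]; abel
    rw [this]
  simp_rw [ea, eb']
  obtain ⟨hφ2, h1, h2⟩ := phi_bounds hu2 hgx hgz hsec c (-(ε • gradient W y))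
  have h3 := local_reflect hWt hε0 (by linarith) hQ.τ0 (by linarith [hQ.τ1]) hQ.r0 hQ.r1 hQ.p0
    hQ.ps hQ.k1 hQ.acc (g := fun t => u (c + t, t + -(ε • gradient W y))) hφ2 (g0 := B)
    (fun x => hB _) h1 h2 (by positivity)
  refine h3.trans ?_
  have hg0 : ‖gradient (Wt W ε y) 0‖ ≤ 4 * ε * ‖y‖ := by
    rw [gradient_Wt hW, add_zero]
    have h4 := hW.grad_lip zero_le_one (y - ε • gradient W y) y
    have h5 : y - ε • gradient W y - y = -(ε • gradient W y) := by abel
    rw [h5, norm_neg, norm_smul, Real.norm_of_nonneg hε0.le] at h4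
    have h6 := KInvAux.grad_le hW hW0 y
    have h7 : ε * ‖gradient W y‖ ≤ ε * (2 * ‖y‖) := mul_le_mul_of_nonneg_left h6 hε0.le
    linarith
  exact scal_end hg0 rfl hA0 hε0.le hQ.τ0.le (Real.sqrt_nonneg _) (norm_nonneg _)

theorem end_int (hW : Pot d 1 2 W) (hW0 : gradient W 0 = 0) (hε0 : 0 < ε) (hε1 : ε ≤ 1 / 16)
    {K : ℝ} (hK0 : 0 ≤ K) {f : E d → ℝ} (hf : ∀ y, |f y| ≤ 12000 * (Real.sqrt d + 4 * ε * ‖y‖) * K) :
    |∫ q : E d × E d, f (q.1 + q.2) ∂((gibbs fun x => ε * W x).prod (gam d))| ≤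
      48000 * Real.sqrt d * K := by
  have hP : Pot d ε (2 * ε) (fun x => ε * W x) := KInvAux.pot_eps hW hε0
  have := gibbs_prob hP hε0
  have ix : Integrable (fun x : E d => ‖x‖) (gibbs fun x => ε * W x) := by
    refine gibbs_integrable hP hε0 (by fun_prop) ⟨1, 1, fun x => ?_⟩
    rw [norm_norm, one_mul, pow_one]
    linarith
  have iz : Integrable (fun z : E d => ‖z‖) (gam d) := by
    have h1 : MemLp (id : E d → E d) 1 (gam d) :=
      IsGaussian.memLp_id (stdGaussian (E d)) 1 (by norm_num)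
    exact (memLp_one_iff_integrable.1 h1).norm
  have ixp : Integrable (fun q : E d × E d => ‖q.1‖) ((gibbs fun x => ε * W x).prod (gam d)) :=
    ix.comp_fst _
  have izp : Integrable (fun q : E d × E d => ‖q.2‖) ((gibbs fun x => ε * W x).prod (gam d)) :=
    iz.comp_snd _
  have i1 : Integrable (fun q : E d × E d => 4 * ε * (‖q.1‖ + ‖q.2‖))
      ((gibbs fun x => ε * W x).prod (gam d)) := (ixp.add izp).const_mul (4 * ε)
  have i2 : Integrable (fun q : E d × E d => Real.sqrt d + 4 * ε * (‖q.1‖ + ‖q.2‖))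
      ((gibbs fun x => ε * W x).prod (gam d)) := (integrable_const _).add i1
  have ibd : Integrable (fun q : E d × E d => 12000 * (Real.sqrt d + 4 * ε * (‖q.1‖ + ‖q.2‖)) * K)
      ((gibbs fun x => ε * W x).prod (gam d)) := (i2.const_mul 12000).mul_const K
  have hzn : ∫ z, ‖z‖ ∂gam d ≤ Real.sqrt d := RefOne.gam_norm_le d
  have hxn := KInvAux.norm_int hW hW0 hε0
  refine (abs_integral_le_integral_abs).trans ?_
  calc ∫ q : E d × E d, |f (q.1 + q.2)| ∂((gibbs fun x => ε * W x).prod (gam d))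
      ≤ ∫ q : E d × E d, 12000 * (Real.sqrt d + 4 * ε * (‖q.1‖ + ‖q.2‖)) * K
          ∂((gibbs fun x => ε * W x).prod (gam d)) := by
        refine integral_mono_of_nonneg (Filter.Eventually.of_forall fun q => abs_nonneg _) ibd
          (Filter.Eventually.of_forall fun q => ?_)
        refine (hf (q.1 + q.2)).trans ?_
        have h1 := norm_add_le q.1 q.2
        have h2 : 4 * ε * ‖q.1 + q.2‖ ≤ 4 * ε * (‖q.1‖ + ‖q.2‖) :=
          mul_le_mul_of_nonneg_left h1 (by positivity)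
        exact mul_le_mul_of_nonneg_right (by linarith) hK0
    _ = 12000 * (Real.sqrt d + 4 * ε * (∫ x, ‖x‖ ∂gibbs (fun x => ε * W x) +
          ∫ z, ‖z‖ ∂gam d)) * K := by
        rw [integral_mul_const, integral_const_mul, integral_add (integrable_const _) i1,
          integral_const_mul, integral_add ixp izp]
        have e1 : ∫ q : E d × E d, ‖q.1‖ ∂((gibbs fun x => ε * W x).prod (gam d)) =
            ∫ x, ‖x‖ ∂gibbs (fun x => ε * W x) := by
          rw [integral_fun_fst (μ := gibbs fun x => ε * W x) (ν := gam d) (fun x : E d => ‖x‖)]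
          simp
        have e2 : ∫ q : E d × E d, ‖q.2‖ ∂((gibbs fun x => ε * W x).prod (gam d)) =
            ∫ x, ‖x‖ ∂gam d := by
          rw [integral_fun_snd (μ := gibbs fun x => ε * W x) (ν := gam d) (fun x : E d => ‖x‖)]
          simp
        rw [e1, e2]
        simp
    _ ≤ 12000 * (4 * Real.sqrt d) * K := by
        refine mul_le_mul_of_nonneg_right (mul_le_mul_of_nonneg_left ?_ (by norm_num)) hK0
        have h1 : ε * Real.sqrt (d / ε) ≤ 1 / 4 * Real.sqrt d := by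
          have h2 : ε * Real.sqrt (d / ε) = Real.sqrt ε * Real.sqrt d := by
            rw [Real.sqrt_div (by positivity), mul_div_assoc']
            have h3 : Real.sqrt ε ≠ 0 := (Real.sqrt_pos.2 hε0).ne'
            rw [div_eq_iff h3]
            have h4 : Real.sqrt ε * Real.sqrt ε = ε := Real.mul_self_sqrt hε0.le
            calc ε * Real.sqrt d = (Real.sqrt ε * Real.sqrt ε) * Real.sqrt d := by rw [h4]
              _ = _ := by ring
          have h5 : Real.sqrt ε ≤ 1 / 4 := by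
            rw [show (1 : ℝ) / 4 = Real.sqrt (1 / 16) by
              rw [show (1 : ℝ) / 16 = (1 / 4) ^ 2 by norm_num, Real.sqrt_sq (by norm_num)]]
            exact Real.sqrt_le_sqrt hε1
          rw [h2]
          exact mul_le_mul_of_nonneg_right h5 (Real.sqrt_nonneg _)
        have h6 : ε * (∫ x, ‖x‖ ∂gibbs (fun x => ε * W x)) ≤ ε * (2 * Real.sqrt (d / ε)) :=
          mul_le_mul_of_nonneg_left hxn hε0.le
        have h7 : ε * (∫ z, ‖z‖ ∂gam d) ≤ 1 / 16 * Real.sqrt d :=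
          mul_le_mul hε1 hzn (integral_nonneg fun z => norm_nonneg _) (by norm_num)
        have h8 := Real.sqrt_nonneg (d : ℝ)
        linarith
    _ = 48000 * Real.sqrt d * K := by ring

end KReflAux

open KReflAux in
theorem refl_inv : ∃ C : ℝ, 1 ≤ C ∧ ∀ {d : ℕ} {W : E d → ℝ}, Pot d 1 2 W → gradient W 0 = 0 →
    ∀ {ε τ : ℝ}, 0 < ε → ε ≤ 1 / 16 → ∀ {n : ℕ} {r : ℝ} {k : Fin n → ℕ} {p : Fin n → ℝ},
    IsQuad r τ k p → ∀ {u : E2 d → ℝ}, Nice u → ContDiff ℝ 2 u → ∀ {A : ℝ}, 0 ≤ A →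
    (∀ s, ‖gx u s‖ ≤ A) → (∀ s, ‖gz u s‖ ≤ A) →
    (∀ s, hx (fderiv ℝ (gx u) s) ≤ A ^ 2 ∧ hz (fderiv ℝ (gx u) s) ≤ A ^ 2 ∧
      hx (fderiv ℝ (gz u) s) ≤ A ^ 2 ∧ hz (fderiv ℝ (gz u) s) ≤ A ^ 2) →
    |∫ x, ∫ z, opM (frc (gradient W) p (fun i => r ^ k i) ε) ε u (x, z) ∂gam d
        ∂gibbs (fun x => ε * W x) - ∫ x, ∫ z, u (x, z) ∂gam d ∂gibbs (fun x => ε * W x)| ≤
      C * Real.sqrt d * (ε ^ 2 + ε * τ) * A := by
  refine ⟨48000, by norm_num, ?_⟩
  intro d W hW hW0 ε τ hε0 hε1 n r k p hQ u hun hu2 A hA0 hgx hgz hsec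
  obtain ⟨B, hB⟩ := hun.bd
  have hB' : ∀ s, |u s| ≤ B := hB
  have hP : Pot d ε (2 * ε) (fun x => ε * W x) := KInvAux.pot_eps hW hε0
  have := gibbs_prob hP hε0
  have hUm : Measurable fun x => ε * W x := (hP.smooth.continuous).measurable
  have hρ0 : ∀ i, 0 ≤ (fun i => r ^ k i) i := fun i => pow_nonneg hQ.r0.le _
  have hρ1 : ∀ i, (fun i => r ^ k i) i ≤ 1 := fun i => pow_le_one₀ hQ.r0.le hQ.r1.le
  have hF : Force (Fin n ⊕ Fin n) (frc (gradient W) p (fun i => r ^ k i) ε) :=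
    frc_force hW hQ.p0 hQ.ps hρ0 hρ1 hε0.le hε1
  have huc : Continuous u := hu2.continuous
  set F := frc (gradient W) p (fun i => r ^ k i) ε with hFdef
  -- the function `Ψ`
  set Ψ : E d → E d → ℝ := fun x y => opM F ε u (x, y - x) with hΨ
  have hΨm : Measurable fun q : E d × E d => Ψ q.1 q.2 := by
    have h1 : StronglyMeasurable (opM F ε u) := opM_stronglyMeasurable hF huc.stronglyMeasurable
    exact h1.measurable.comp (by fun_prop)
  have hΨb : ∀ x y, |Ψ x y| ≤ B := fun x y => by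
    have := opM_norm_le (F := F) (ε := ε) hB (x, y - x)
    exact this
  -- first disintegration
  have D1 := prox_disint hP hε0 (η := 1) one_pos (F := Ψ) hΨm (C := B) (m := 0)
    (fun x y => by simpa using hΨb x y)
  simp only [Real.sqrt_one, one_smul] at D1
  have E1 : ∫ x, ∫ z, Ψ x (x + z) ∂gam d ∂gibbs (fun x => ε * W x) =
      ∫ x, ∫ z, opM F ε u (x, z) ∂gam d ∂gibbs (fun x => ε * W x) := by
    simp only [hΨ, add_sub_cancel_left]
  rw [E1] at D1
  -- second disintegration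
  set Θ : E d → E d → ℝ := fun x y => u (x, x - y) with hΘ
  have hΘm : Measurable fun q : E d × E d => Θ q.1 q.2 := by
    have : Continuous fun q : E d × E d => u (q.1, q.1 - q.2) := huc.comp (by fun_prop)
    exact this.measurable
  have D2 := prox_disint hP hε0 (η := 1) one_pos (F := Θ) hΘm (C := B) (m := 0)
    (fun x y => by simpa using hB' (x, x - y))
  simp only [Real.sqrt_one, one_smul] at D2
  have E2' : ∫ x, ∫ z, Θ x (x + z) ∂gam d ∂gibbs (fun x => ε * W x) =
      ∫ x, ∫ z, u (x, z) ∂gam d ∂gibbs (fun x => ε * W x) := by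
    refine integral_congr_ae (Filter.Eventually.of_forall fun x => ?_)
    show ∫ z, u (x, x - (x + z)) ∂gam d = ∫ z, u (x, z) ∂gam d
    have h1 : ∀ z : E d, x - (x + z) = -z := fun z => by abel
    simp_rw [h1]
    exact gam_neg (fun z => u (x, z)) (huc.comp (by fun_prop)).measurable
  rw [E2'] at D2
  rw [D1, D2]
  -- the two conditional averages
  set a : E d → ℝ := fun y => ∫ x', Ψ x' y ∂prox (fun x => ε * W x) 1 y with ha
  set b : E d → ℝ := fun y => ∫ x', Θ x' y ∂prox (fun x => ε * W x) 1 y with hb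
  have ham : Measurable a := prox_meas hUm 1 hΨm
  have hbm : Measurable b := prox_meas hUm 1 hΘm
  have hprob : ∀ y, IsProbabilityMeasure (prox (fun x => ε * W x) 1 y) := fun y => by
    unfold prox
    exact gibbs_prob (hP.add_sq one_pos y) (by positivity)
  have hab : ∀ y, |a y| ≤ B := fun y => by
    have := hprob y
    have h1 := norm_integral_le_of_norm_le_const (μ := prox (fun x => ε * W x) 1 y)
      (f := fun x' => Ψ x' y) (C := B) (Filter.Eventually.of_forall fun x => hΨb _ _)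
    simpa using h1
  have hbb : ∀ y, |b y| ≤ B := fun y => by
    have := hprob y
    have h1 := norm_integral_le_of_norm_le_const (μ := prox (fun x => ε * W x) 1 y)
      (f := fun x' => Θ x' y) (C := B) (Filter.Eventually.of_forall fun x => hB' _)
    simpa using h1
  -- integrability of the averages over `(x, z)`
  have hadd : Measurable fun q : E d × E d => q.1 + q.2 := measurable_add
  have ia : Integrable (fun q : E d × E d => a (q.1 + q.2))
      ((gibbs fun x => ε * W x).prod (gam d)) :=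
    Integrable.of_bound (ham.comp hadd).aestronglyMeasurable B
      (Filter.Eventually.of_forall fun q => hab _)
  have ib : Integrable (fun q : E d × E d => b (q.1 + q.2))
      ((gibbs fun x => ε * W x).prod (gam d)) :=
    Integrable.of_bound (hbm.comp hadd).aestronglyMeasurable B
      (Filter.Eventually.of_forall fun q => hbb _)
  have ep : ∫ x, ∫ z, a (x + z) ∂gam d ∂gibbs (fun x => ε * W x) -
      ∫ x, ∫ z, b (x + z) ∂gam d ∂gibbs (fun x => ε * W x) =
      ∫ q, (a (q.1 + q.2) - b (q.1 + q.2)) ∂((gibbs fun x => ε * W x).prod (gam d)) := by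
    rw [integral_sub ia ib, integral_prod _ ia, integral_prod _ ib]
  have hK0 : 0 ≤ (ε ^ 2 + ε * τ) * A := by
    have := hQ.τ0
    positivity
  have hfin := end_int hW hW0 hε0 hε1 hK0 (f := fun y => a y - b y)
    (fun y => local_cmp hW hW0 hε0 hε1 hQ hu2 hB' hA0 hgx hgz hsec y)
  rw [← ep] at hfin
  calc _ ≤ 48000 * Real.sqrt d * ((ε ^ 2 + ε * τ) * A) := hfin
    _ = _ := by ring

end Vale.Agent.P347
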