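import Vale.Agent.P347.KTool
import Vale.Agent.P347.KSmooth
import Vale.Agent.P347.KAop

/-!
# P347: smoothing seminorms and the Duhamel sum along the kinetic chain
-/

open MeasureTheory ProbabilityTheory
open scoped ENNReal NNReal RealInnerProductSpace

namespace Vale.Agent.P347
namespace K8

section
variable {d : ℕ} {κ : Type} [Fintype κ] {G : Type*} [NormedAddCommGroup G] [InnerProductSpace ℝ G]
  [CompleteSpace G] {F : E2 d → (κ → E d) → E d} {h : ℝ}

theorem iter_norm {Q : ℝ} {p : E2 d → G} (hp : ∀ s, ‖p s‖ ≤ Q) (k : ℕ) (s : E2 d) :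
    ‖(opT F h)^[k] p s‖ ≤ Q := by
  induction k generalizing s with
  | zero => exact hp s
  | succ k ih =>
    rw [Function.iterate_succ_apply']
    exact opT_norm_le ih s

end

section
variable {d : ℕ} {κ : Type} [Fintype κ] {F : E2 d → (κ → E d) → E d} {h : ℝ}

theorem Nice.cont {G : Type*} [NormedAddCommGroup G] [NormedSpace ℝ G] {v : E2 d → G}
    (hv : Nice v) : Continuous v := hv.smooth.continuous

theorem iter_nice {G : Type*} [NormedAddCommGroup G] [InnerProductSpace ℝ G]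
    [CompleteSpace G] (hF : Force κ F) (h0 : 0 < h) (h1 : h ≤ 1 / 16) {p : E2 d → G}
    (hp : Nice p) (k : ℕ) : Nice ((opT F h)^[k] p) := by
  induction k with
  | zero => exact hp
  | succ k ih =>
    rw [Function.iterate_succ_apply']
    obtain ⟨C, hC⟩ := ih.bd
    exact opT_nice hF h0 h1 (Nice.cont ih).stronglyMeasurable hC

theorem iter_nice' {G : Type*} [NormedAddCommGroup G] [InnerProductSpace ℝ G]
    [CompleteSpace G] (hF : Force κ F) (h0 : 0 < h) (h1 : h ≤ 1 / 16) {p : E2 d → G}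
    (hp : StronglyMeasurable p) {P : ℝ} (hP : ∀ s, ‖p s‖ ≤ P) {k : ℕ} (hk : 1 ≤ k) :
    Nice ((opT F h)^[k] p) := by
  obtain ⟨m, rfl⟩ : ∃ m, k = m + 1 := ⟨k - 1, by omega⟩
  rw [Function.iterate_succ_apply]
  exact iter_nice hF h0 h1 (opT_nice hF h0 h1 hp hP) m

theorem Nice.diff {G : Type*} [NormedAddCommGroup G] [NormedSpace ℝ G] {v : E2 d → G}
    (hv : Nice v) : Differentiable ℝ v := hv.smooth.differentiable one_ne_zero

theorem Nice.add {G : Type*} [NormedAddCommGroup G] [NormedSpace ℝ G] {v w : E2 d → G}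
    (hv : Nice v) (hw : Nice w) : Nice (v + w) := by
  obtain ⟨C, hC⟩ := hv.bd
  obtain ⟨D, hD⟩ := hw.bd
  obtain ⟨C', hC'⟩ := hv.dbd
  obtain ⟨D', hD'⟩ := hw.dbd
  refine ⟨hv.smooth.add hw.smooth, ⟨C + D, fun s => (norm_add_le _ _).trans
    (add_le_add (hC s) (hD s))⟩, ⟨C' + D', fun s => ?_⟩⟩
  rw [fderiv_add (Nice.diff hv s) (Nice.diff hw s)]
  exact (norm_add_le _ _).trans (add_le_add (hC' s) (hD' s))

theorem Nice.smul {G : Type*} [NormedAddCommGroup G] [NormedSpace ℝ G] {v : E2 d → G}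
    (hv : Nice v) (c : ℝ) : Nice (c • v) := by
  obtain ⟨C, hC⟩ := hv.bd
  obtain ⟨C', hC'⟩ := hv.dbd
  refine ⟨contDiff_const.smul hv.smooth, ⟨|c| * C, fun s => ?_⟩, ⟨|c| * C', fun s => ?_⟩⟩
  · rw [Pi.smul_apply, norm_smul, Real.norm_eq_abs]
    exact mul_le_mul_of_nonneg_left (hC s) (abs_nonneg c)
  · rw [fderiv_const_smul (Nice.diff hv s), norm_smul, Real.norm_eq_abs]
    exact mul_le_mul_of_nonneg_left (hC' s) (abs_nonneg c)

theorem Nice.zero {G : Type*} [NormedAddCommGroup G] [NormedSpace ℝ G] :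
    Nice (0 : E2 d → G) :=
  ⟨contDiff_const, ⟨0, fun s => by simp⟩, ⟨0, fun s => by simp⟩⟩

theorem Nice.sub {G : Type*} [NormedAddCommGroup G] [NormedSpace ℝ G] {v w : E2 d → G}
    (hv : Nice v) (hw : Nice w) : Nice (v - w) := by
  have := Nice.add hv (Nice.smul hw (-1))
  rwa [neg_one_smul, ← sub_eq_add_neg] at this

theorem Nice.sum {G : Type*} [NormedAddCommGroup G] [NormedSpace ℝ G] {v : ℕ → E2 d → G} (n : ℕ)
    (hv : ∀ k < n, Nice (v k)) : Nice (∑ k ∈ Finset.range n, v k) := by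
  induction n with
  | zero => simpa using Nice.zero
  | succ n ih =>
    rw [Finset.sum_range_succ]
    exact Nice.add (ih fun k hk => hv k (hk.trans (Nat.lt_succ_self n))) (hv n (Nat.lt_succ_self n))

/-- smoothing hypothesis for the seminorm `sn e` -/
def Sm (F : E2 d → (κ → E d) → E d) (h : ℝ) {ι : Type} [Fintype ι] (e : ι → E2 d) : Prop :=
  ∀ (p : E2 d → E d), StronglyMeasurable p → ∀ P : ℝ, 0 ≤ P → (∀ s, ‖p s‖ ≤ P) →
    (∀ s, sn e (fderiv ℝ (opT F h p) s) ≤ P / h ^ 2) ∧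
    ∀ n : ℕ, 2 ≤ n → (n : ℝ) * h ≤ 1 / 100 → ∀ s,
      sn e (fderiv ℝ ((opT F h)^[n] p) s) ≤ 10 * P / Real.sqrt (h * n)

theorem sm_x (hF : Force κ F) (h0 : 0 < h) (h1 : h ≤ 1 / 10000) : Sm F h (ex d) := by
  intro p hp P hP hpP
  refine ⟨fun s => sn_le_of_sq (by positivity) ?_, fun n hn hnh s => sn_le_of_sq (by positivity) ?_⟩
  · have := smooth_x1 hF h0 h1 hp hpP s
    have e : (P / h ^ 2) ^ 2 = P ^ 2 / h ^ 4 := by rw [div_pow]; ring
    rw [e]; exact this
  · have := smooth_x hF h0 h1 hp hpP n hn hnh s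
    have hn0 : (1 : ℝ) ≤ n := by exact_mod_cast (by omega : 1 ≤ n)
    have e : (10 * P / Real.sqrt (h * n)) ^ 2 = 100 * P ^ 2 / (h * n) := by
      rw [div_pow, Real.sq_sqrt (by positivity)]; ring
    rw [e]
    refine le_trans this ?_
    apply div_le_div_of_nonneg_left (by positivity) (by positivity)
    have : (n : ℝ) ≤ n ^ 3 := le_self_pow₀ hn0 (by norm_num)
    nlinarith

theorem sm_z (hF : Force κ F) (h0 : 0 < h) (h1 : h ≤ 1 / 10000) : Sm F h (ez d) := by
  intro p hp P hP hpP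
  refine ⟨fun s => sn_le_of_sq (by positivity) ?_, fun n hn hnh s => sn_le_of_sq (by positivity) ?_⟩
  · have := smooth_z hF h0 h1 hp hpP 1 le_rfl (by norm_num; linarith) s
    rw [Function.iterate_one] at this
    refine le_trans this ?_
    rw [div_pow, Nat.cast_one, mul_one, div_le_div_iff₀ h0 (by positivity)]
    have h3 : 100 * h ^ 3 ≤ 1 := by
      have : h ^ 3 ≤ (1 / 10000) ^ 3 := pow_le_pow_left₀ h0.le h1 3
      nlinarith
    have h4 : 0 ≤ P ^ 2 * h := by positivity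
    nlinarith
  · have := smooth_z hF h0 h1 hp hpP n (by omega) hnh s
    have hn0 : (1 : ℝ) ≤ n := by exact_mod_cast (by omega : 1 ≤ n)
    have e : (10 * P / Real.sqrt (h * n)) ^ 2 = 100 * P ^ 2 / (h * n) := by
      rw [div_pow, Real.sq_sqrt (by positivity)]; ring
    rw [e]
    exact this

/-- the Duhamel sum -/
theorem core {ι : Type} [Fintype ι] {e : ι → E2 d} (hS : Sm F h e) (hF : Force κ F) (h0 : 0 < h)
    (h1 : h ≤ 1 / 10000)
    {n : ℕ} (hn : 2 ≤ n) (hnh : (n : ℝ) * h ≤ 1 / 100) {t : ℝ} (ht : 0 ≤ t) {p : ℕ → E2 d → E d}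
    (hp : ∀ k < n, Nice (p k)) (hpn : ∀ k < n, 1 ≤ k → ∀ s, ‖p k s‖ ≤ 168 * t * k)
    (hp0 : ∀ s, sn e (fderiv ℝ (p 0) s) ≤ 56 * t / h ^ 2) (s : E2 d) :
    sn e (fderiv ℝ (h ^ 2 • ∑ k ∈ Finset.range n, (opT F h)^[k] (p k)) s) ≤
      24 * (t / Real.sqrt (h * n)) := by
  have hn0 : (2 : ℝ) ≤ n := by exact_mod_cast hn
  have hhn : 0 < h * n := by positivity
  set D := t / Real.sqrt (h * n) with hD
  have hD0 : 0 ≤ D := by positivity
  -- `10 t ≤ D`
  have hsq : Real.sqrt (h * n) ≤ 1 / 10 := by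
    rw [show (1 / 10 : ℝ) = Real.sqrt (1 / 100) by
      rw [show (1 / 100 : ℝ) = (1 / 10) ^ 2 by norm_num, Real.sqrt_sq (by norm_num)]]
    exact Real.sqrt_le_sqrt (by linarith)
  have hsq0 : 0 < Real.sqrt (h * n) := Real.sqrt_pos.2 hhn
  have htD : 10 * t ≤ D := by
    rw [hD, le_div_iff₀ hsq0]
    nlinarith
  have hnice : ∀ k < n, Nice ((opT F h)^[k] (p k)) := fun k hk =>
    iter_nice hF h0 (by linarith) (hp k hk) k
  -- the terms
  have hterm : ∀ k ∈ Finset.range n, h ^ 2 * sn e (fderiv ℝ ((opT F h)^[k] (p k)) s) ≤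
      (if k = 0 then 56 * t else 0) + (if k = 1 then 168 * t else 0) + 1680 * (h ^ 2 * n) * D := by
    intro k hk
    rw [Finset.mem_range] at hk
    rcases Nat.eq_zero_or_pos k with rfl | hk0
    · simp only [Function.iterate_zero, id_eq, if_true, zero_ne_one, if_false, add_zero]
      have := hp0 s
      rw [le_div_iff₀ (by positivity)] at this
      have : 0 ≤ 1680 * (h ^ 2 * n) * D := by positivity
      linarith
    · rcases Nat.lt_or_ge k 2 with hk2 | hk2
      · obtain rfl : k = 1 := by omega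
        have h2 := (hS (p 1) (Nice.cont (hp 1 hk)).stronglyMeasurable (168 * t * 1) (by positivity)
          (by simpa using hpn 1 hk le_rfl)).1 s
        rw [Function.iterate_one]
        rw [le_div_iff₀ (by positivity)] at h2
        simp only [one_ne_zero, if_false, if_true, zero_add]
        have : 0 ≤ 1680 * (h ^ 2 * n) * D := by positivity
        linarith
      · have hk1 : (2 : ℝ) ≤ k := by exact_mod_cast hk2
        have hkn : (k : ℝ) ≤ n := by exact_mod_cast hk.le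
        have hkh : (k : ℝ) * h ≤ 1 / 100 := by nlinarith
        have h2 := (hS (p k) (Nice.cont (hp k hk)).stronglyMeasurable (168 * t * k) (by positivity)
          (hpn k hk (by omega))).2 k hk2 hkh s
        rw [if_neg (by omega), if_neg (by omega), zero_add, zero_add]
        have h3 : 10 * (168 * t * k) / Real.sqrt (h * k) ≤ 1680 * n * D := by
          have hk' : 0 < h * k := by positivity
          have e1 : 10 * (168 * t * k) / Real.sqrt (h * k) = 1680 * t * Real.sqrt (h * k) / h := by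
            rw [div_eq_div_iff (Real.sqrt_pos.2 hk').ne' h0.ne']
            have := Real.mul_self_sqrt hk'.le
            linear_combination (-1680 * t) * this
          have e2 : 1680 * n * D = 1680 * t * Real.sqrt (h * n) / h := by
            rw [hD, mul_div_assoc', div_eq_div_iff hsq0.ne' h0.ne']
            have := Real.mul_self_sqrt hhn.le
            linear_combination (-1680 * t) * this
          rw [e1, e2]
          gcongr
        calc h ^ 2 * sn e (fderiv ℝ ((opT F h)^[k] (p k)) s) ≤ h ^ 2 * (1680 * n * D) :=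
              mul_le_mul_of_nonneg_left (h2.trans h3) (by positivity)
          _ = _ := by ring
  have hfd : fderiv ℝ (h ^ 2 • ∑ k ∈ Finset.range n, (opT F h)^[k] (p k)) s =
      h ^ 2 • ∑ k ∈ Finset.range n, fderiv ℝ ((opT F h)^[k] (p k)) s := by
    have hd : ∀ k ∈ Finset.range n, DifferentiableAt ℝ ((opT F h)^[k] (p k)) s := fun k hk =>
      Nice.diff (hnice k (Finset.mem_range.1 hk)) s
    rw [fderiv_const_smul (DifferentiableAt.sum hd), fderiv_sum hd]
  rw [hfd, sn_smul, abs_of_nonneg (by positivity)]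
  calc h ^ 2 * sn e (∑ k ∈ Finset.range n, fderiv ℝ ((opT F h)^[k] (p k)) s)
      ≤ h ^ 2 * ∑ k ∈ Finset.range n, sn e (fderiv ℝ ((opT F h)^[k] (p k)) s) :=
        mul_le_mul_of_nonneg_left (sn_sum _ _ _) (by positivity)
    _ = ∑ k ∈ Finset.range n, h ^ 2 * sn e (fderiv ℝ ((opT F h)^[k] (p k)) s) := Finset.mul_sum ..
    _ ≤ ∑ k ∈ Finset.range n, ((if k = 0 then 56 * t else 0) + (if k = 1 then 168 * t else 0) +
        1680 * (h ^ 2 * n) * D) := Finset.sum_le_sum hterm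
    _ = 56 * t + 168 * t + 1680 * (h * n) ^ 2 * D := by
        rw [Finset.sum_add_distrib, Finset.sum_add_distrib, Finset.sum_ite_eq' (Finset.range n) 0,
          Finset.sum_ite_eq' (Finset.range n) 1, if_pos (Finset.mem_range.2 (by omega)),
          if_pos (Finset.mem_range.2 (by omega)), Finset.sum_const, Finset.card_range, nsmul_eq_mul]
        ring
    _ ≤ 24 * D := by
        have : (h * n) ^ 2 ≤ (1 / 100) ^ 2 := pow_le_pow_left₀ hhn.le (by linarith) 2
        nlinarith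

/-- smoothing by the operators `A` -/
def SmA (F : E2 d → (κ → E d) → E d) (h : ℝ) {ι : Type} [Fintype ι] (e : ι → E2 d) : Prop :=
  ∀ (q : E2 d → E d), Continuous q → ∀ Q : ℝ, 0 ≤ Q → (∀ s, ‖q s‖ ≤ Q) → ∀ s,
    sn e (fderiv ℝ (opAx F h q) s) ≤ 8 * Q / h ^ 2 ∧ sn e (fderiv ℝ (opAz F h q) s) ≤ 8 * Q / h ^ 2

theorem smA_aux {Q h : ℝ} (h0 : 0 < h) (h1 : h ≤ 1 / 10000) :
    64 * Q ^ 2 / (8 * h) ≤ (8 * Q / h ^ 2) ^ 2 := by
  rw [div_pow, div_le_div_iff₀ (by positivity) (by positivity)]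
  have h3 : h ^ 3 ≤ (1 / 10000) ^ 3 := pow_le_pow_left₀ h0.le h1 3
  have h4 : 0 ≤ Q ^ 2 * h := by positivity
  nlinarith

theorem smA_x (hF : Force κ F) (h0 : 0 < h) (h1 : h ≤ 1 / 10000) : SmA F h (ex d) := by
  intro q hq Q hQ hqQ s
  have e : (8 * Q / h ^ 2) ^ 2 = 64 * Q ^ 2 / h ^ 4 := by rw [div_pow]; ring
  refine ⟨sn_le_of_sq (by positivity) ?_, sn_le_of_sq (by positivity) ?_⟩
  · rw [e]; exact (opAx_smooth hF h0 (by linarith) hq hqQ s).1
  · rw [e]; exact (opAz_smooth hF h0 (by linarith) hq hqQ s).1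

theorem smA_z (hF : Force κ F) (h0 : 0 < h) (h1 : h ≤ 1 / 10000) : SmA F h (ez d) := by
  intro q hq Q hQ hqQ s
  refine ⟨sn_le_of_sq (by positivity) ?_, sn_le_of_sq (by positivity) ?_⟩
  · exact (opAx_smooth hF h0 (by linarith) hq hqQ s).2.trans (smA_aux h0 h1)
  · exact (opAz_smooth hF h0 (by linarith) hq hqQ s).2.trans (smA_aux h0 h1)

theorem rho_le {h : ℝ} (h0 : 0 < h) : Real.sqrt (1 - 8 * h) ≤ 1 := by
  rw [Real.sqrt_le_left (by norm_num)]
  linarith

theorem rho_pow {h : ℝ} (h0 : 0 < h) (k : ℕ) : Real.sqrt (1 - 8 * h) ^ k ≤ 1 :=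
  pow_le_one₀ (Real.sqrt_nonneg _) (rho_le h0)

end

end K8
end Vale.Agent.P347
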