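import Vale.Agent.P347.KGrad
import Vale.Agent.P347.KAop
import Vale.Agent.P347.KSmooth

/-!
# P347, C'7: sup bounds of the gradients along the chain
-/

open MeasureTheory ProbabilityTheory
open scoped ENNReal NNReal RealInnerProductSpace

namespace Vale.Agent.P347

section sup
variable {d : ℕ} {κ : Type} [Fintype κ] {F : E2 d → (κ → E d) → E d} {h : ℝ}

namespace KSupAux

/-- one step -/
theorem step (hF : Force κ F) (h0 : 0 < h) (h1 : h ≤ 1 / 16) {u : E2 d → ℝ} (hu : Nice u)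
    {X Z : ℝ} (hX : ∀ s, ‖gx u s‖ ≤ X) (hZ : ∀ s, ‖gz u s‖ ≤ Z) (s : E2 d) :
    ‖gx (opT F h u) s‖ ≤ X + 8 * h ^ 2 * (X + Z) ∧
      ‖gz (opT F h u) s‖ ≤ Z + 2 * X + 8 * h ^ 2 * (X + Z) := by
  have cX := gx_cont hu
  have cZ := gz_cont hu
  have hXZ : ∀ s, ‖(gx u + gz u) s‖ ≤ X + Z := fun s => (norm_add_le _ _).trans
    (add_le_add (hX s) (hZ s))
  have h2X : ∀ s, ‖((2 : ℝ) • gx u + gz u) s‖ ≤ 2 * X + Z := fun s => by
    refine (norm_add_le _ _).trans (add_le_add ?_ (hZ s))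
    rw [Pi.smul_apply, norm_smul, Real.norm_of_nonneg (by norm_num)]
    exact mul_le_mul_of_nonneg_left (hX s) (by norm_num)
  constructor
  · rw [gx_opT hF h0 h1 hu]
    have e1 := opT_norm_le (F := F) (h := h) hX s
    have e2 := opAx_norm (h := h) hF (cX.add cZ) hXZ s
    have e3 : ‖(h ^ 2 • opAx F h (gx u + gz u)) s‖ ≤ 8 * h ^ 2 * (X + Z) := by
      rw [Pi.smul_apply, norm_smul, Real.norm_of_nonneg (by positivity)]
      have := mul_le_mul_of_nonneg_left e2 (by positivity : (0 : ℝ) ≤ h ^ 2)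
      linarith
    exact (norm_sub_le _ _).trans (add_le_add e1 e3)
  · rw [gz_opT hF h0 h1 hu]
    have e1 := opT_norm_le (F := F) (h := h) h2X s
    have e2 := opAz_norm (h := h) hF (cX.add cZ) hXZ s
    have e3 : ‖(h ^ 2 • opAz F h (gx u + gz u)) s‖ ≤ 8 * h ^ 2 * (X + Z) := by
      rw [Pi.smul_apply, norm_smul, Real.norm_of_nonneg (by positivity)]
      have := mul_le_mul_of_nonneg_left e2 (by positivity : (0 : ℝ) ≤ h ^ 2)
      linarith
    have e4 : ‖(opT F h ((2 : ℝ) • gx u + gz u) - h ^ 2 • opAz F h (gx u + gz u)) s‖ ≤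
        Z + 2 * X + 8 * h ^ 2 * (X + Z) := by
      refine (norm_sub_le _ _).trans ?_
      linarith
    rw [Pi.smul_apply, norm_smul, Real.norm_of_nonneg (Real.sqrt_nonneg _)]
    have e5 : Real.sqrt (1 - 8 * h) ≤ 1 := Real.sqrt_le_one.2 (by linarith)
    calc _ ≤ 1 * (Z + 2 * X + 8 * h ^ 2 * (X + Z)) :=
          mul_le_mul e5 e4 (norm_nonneg _) zero_le_one
      _ = _ := one_mul _

end KSupAux

/-- `|X_j| ≤ 2t/n`, `|Z_j| ≤ 6t` for `j ≤ n` -/
theorem grad_sup (hF : Force κ F) (h0 : 0 < h) {u : E2 d → ℝ} (hu : Nice u) {n : ℕ} (hn : 1 ≤ n)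
    (hnh : (n : ℝ) * h ≤ 1 / 100) {t : ℝ} (ht : 0 ≤ t) (hX : ∀ s, ‖gx u s‖ ≤ t / n)
    (hZ : ∀ s, ‖gz u s‖ ≤ t) (j : ℕ) (hj : j ≤ n) (s : E2 d) :
    ‖gx ((opT F h)^[j] u) s‖ ≤ 2 * t / n ∧ ‖gz ((opT F h)^[j] u) s‖ ≤ 6 * t := by
  have hn1 : (1 : ℝ) ≤ n := by exact_mod_cast hn
  have hn0 : (0 : ℝ) < n := by linarith
  have h100 : h ≤ 1 / 100 := by nlinarith
  have h16 : h ≤ 1 / 16 := by linarith
  obtain ⟨C, hC⟩ := hu.bd
  have nice : ∀ j, Nice ((opT F h)^[j] u) := by
    intro j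
    rcases Nat.eq_zero_or_pos j with rfl | hj
    · exact hu
    · exact KSm.iter_nice hF h0 h16 hu.smooth.continuous.stronglyMeasurable hC hj
  have key : ∀ j ≤ n, ∀ s, ‖gx ((opT F h)^[j] u) s‖ ≤ t / n * (1 + j / n) ∧
      ‖gz ((opT F h)^[j] u) s‖ ≤ t * (1 + 5 * j / n) := by
    intro j
    induction j with
    | zero =>
      intro _ s
      simpa using ⟨hX s, hZ s⟩
    | succ j ih =>
      intro hj s
      have ih' := ih (by omega)
      have hjn : (j : ℝ) + 1 ≤ n := by exact_mod_cast hj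
      rw [Function.iterate_succ_apply']
      have st := KSupAux.step hF h0 h16 (nice j) (fun s => (ih' s).1) (fun s => (ih' s).2) s
      have a1 : (j : ℝ) / n ≤ 1 := by
        rw [div_le_one hn0]
        linarith
      have a0 : 0 ≤ (j : ℝ) / n := by positivity
      have a2 : t / n ≤ t := div_le_self ht hn1
      have a3 : 0 ≤ t / n := by positivity
      have a4 : t / n * (1 + j / n) + t * (1 + 5 * j / n) ≤ 8 * t := by
        have e1 : t / n * (1 + j / n) ≤ t * 2 := mul_le_mul a2 (by linarith) (by positivity) ht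
        have e2 : t * (1 + 5 * j / n) ≤ t * 6 := by
          apply mul_le_mul_of_nonneg_left _ ht
          have : 5 * (j : ℝ) / n = 5 * (j / n) := by ring
          rw [this]
          linarith
        linarith
      have a5 : h ^ 2 * n ^ 2 ≤ 1 / 10000 := by
        have : 0 ≤ (n : ℝ) * h := by positivity
        nlinarith
      have a6 : 8 * h ^ 2 * (t / n * (1 + j / n) + t * (1 + 5 * j / n)) ≤ t / n * (1 / n) := by
        have e1 : 8 * h ^ 2 * (t / n * (1 + j / n) + t * (1 + 5 * j / n)) ≤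
            8 * h ^ 2 * (8 * t) := mul_le_mul_of_nonneg_left a4 (by positivity)
        refine e1.trans ?_
        rw [div_mul_div_comm, mul_one, le_div_iff₀ (by positivity)]
        nlinarith
      have a7 : t / n * (1 / n) ≤ t / n := by
        have : 1 / (n : ℝ) ≤ 1 := by
          rw [div_le_one hn0]
          exact hn1
        nlinarith
      push_cast
      refine ⟨st.1.trans ?_, st.2.trans ?_⟩
      · have : t / n * (1 + ((j : ℝ) + 1) / n) = t / n * (1 + j / n) + t / n * (1 / n) := by ring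
        rw [this]
        linarith
      · have e1 : t * (1 + 5 * ((j : ℝ) + 1) / n) = t * (1 + 5 * j / n) + 5 * (t / n) := by
          ring
        rw [e1]
        have e2 : t / n * (1 + j / n) ≤ t / n * 2 := mul_le_mul_of_nonneg_left (by linarith) a3
        linarith
  have hjn : (j : ℝ) / n ≤ 1 := by
    rw [div_le_one hn0]
    exact_mod_cast hj
  obtain ⟨k1, k2⟩ := key j hj s
  refine ⟨k1.trans ?_, k2.trans ?_⟩
  · have : t / n * (1 + j / n) ≤ t / n * 2 := mul_le_mul_of_nonneg_left (by linarith)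
      (by positivity)
    calc _ ≤ t / n * 2 := this
      _ = 2 * t / n := by ring
  · have e : 5 * (j : ℝ) / n = 5 * (j / n) := by ring
    rw [e]
    nlinarith

end sup

end Vale.Agent.P347
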