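import Vale.Agent.P347.KSecA
import Vale.Agent.P347.KDuhamel
import Vale.Agent.P347.KSup

/-!
# P347: second derivatives along the kinetic chain
-/

open MeasureTheory ProbabilityTheory
open scoped ENNReal NNReal RealInnerProductSpace

namespace Vale.Agent.P347
namespace K8

section
variable {d : ℕ} {κ : Type} [Fintype κ] {F : E2 d → (κ → E d) → E d} {h : ℝ}

theorem cK_nonneg (h : ℝ) (k : ℕ) : 0 ≤ cK h k := by
  unfold cK
  have : 0 ≤ ∑ i ∈ Finset.range k, Real.sqrt (1 - 8 * h) ^ (i + 1) :=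
    Finset.sum_nonneg fun i _ => pow_nonneg (Real.sqrt_nonneg _) _
  linarith

theorem cK_le {h : ℝ} (h0 : 0 < h) (k : ℕ) : cK h k ≤ 2 * k := by
  unfold cK
  have : ∑ i ∈ Finset.range k, Real.sqrt (1 - 8 * h) ^ (i + 1) ≤ ∑ _i ∈ Finset.range k, (1 : ℝ) :=
    Finset.sum_le_sum fun i _ => rho_pow h0 _
  rw [Finset.sum_const, Finset.card_range, nsmul_eq_mul, mul_one] at this
  linarith

theorem cK_zero (h : ℝ) : cK h 0 = 0 := by simp [cK]

/-- both gradients of the iterates -/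
theorem both (hF : Force κ F) (h0 : 0 < h) (h1 : h ≤ 1 / 10000) {u : E2 d → ℝ} (hu : Nice u)
    {n : ℕ} (hn : 2 ≤ n) (hnh : (n : ℝ) * h ≤ 1 / 100) {t : ℝ} (ht : 0 ≤ t)
    (hX : ∀ s, ‖gx u s‖ ≤ t / n) (hZ : ∀ s, ‖gz u s‖ ≤ t) :
    (Nice (gx ((opT F h)^[n] u)) ∧ Nice (gz ((opT F h)^[n] u))) ∧
      ∀ {ι : Type} [Fintype ι] {e : ι → E2 d}, Sm F h e → SmA F h e → ∀ s,
        sn e (fderiv ℝ (gx ((opT F h)^[n] u)) s) ≤ 60 * (t / Real.sqrt (h * n)) ∧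
        sn e (fderiv ℝ (gz ((opT F h)^[n] u)) s) ≤ 60 * (t / Real.sqrt (h * n)) := by
  have h16 : h ≤ 1 / 16 := by linarith
  have hn0 : (2 : ℝ) ≤ n := by exact_mod_cast hn
  have hhn : 0 < h * n := by positivity
  have hsq0 : 0 < Real.sqrt (h * n) := Real.sqrt_pos.2 hhn
  have hq7 : ∀ k < n, ∀ s, ‖(gx ((opT F h)^[n - 1 - k] u) + gz ((opT F h)^[n - 1 - k] u)) s‖ ≤
      7 * t := by
    intro k _ s
    have h2 := grad_sup hF h0 hu (by omega : 1 ≤ n) hnh ht hX hZ (n - 1 - k) (by omega) s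
    have h3 : 2 * t / n ≤ t := by
      rw [div_le_iff₀ (by linarith)]
      nlinarith
    refine (norm_add_le _ _).trans ?_
    linarith [h2.1, h2.2]
  have hqc : ∀ k, Continuous (gx ((opT F h)^[n - 1 - k] u) + gz ((opT F h)^[n - 1 - k] u)) :=
    fun k => (gx_cont (iter_nice hF h0 h16 hu _)).add (gz_cont (iter_nice hF h0 h16 hu _))
  set q : ℕ → E2 d → E d := fun k => gx ((opT F h)^[n - 1 - k] u) + gz ((opT F h)^[n - 1 - k] u)
    with hq
  have hAxn : ∀ k < n, Nice (opAx F h (q k)) := fun k hk => opAx_nice hF h0 h16 (hqc k) (hq7 k hk)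
  have hAzn : ∀ k < n, Nice (opAz F h (q k)) := fun k hk => opAz_nice hF h0 h16 (hqc k) (hq7 k hk)
  have hAxb : ∀ k < n, ∀ s, ‖opAx F h (q k) s‖ ≤ 56 * t := fun k hk s => by
    have := opAx_norm (h := h) hF (hqc k) (hq7 k hk) s
    linarith
  have hAzb : ∀ k < n, ∀ s, ‖opAz F h (q k) s‖ ≤ 56 * t := fun k hk s => by
    have := opAz_norm (h := h) hF (hqc k) (hq7 k hk) s
    linarith
  set ρ := Real.sqrt (1 - 8 * h) with hρ
  have hρ0 : 0 ≤ ρ := Real.sqrt_nonneg _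
  -- the two sums
  set pX : ℕ → E2 d → E d := fun k => opAx F h (q k) with hpX
  set pZ : ℕ → E2 d → E d := fun k => ρ ^ (k + 1) • opAz F h (q k) + cK h k • opAx F h (q k)
    with hpZ
  have hpXn : ∀ k < n, Nice (pX k) := hAxn
  have hpZn : ∀ k < n, Nice (pZ k) := fun k hk =>
    Nice.add (Nice.smul (hAzn k hk) _) (Nice.smul (hAxn k hk) _)
  have hpXb : ∀ k < n, 1 ≤ k → ∀ s, ‖pX k s‖ ≤ 168 * t * k := by
    intro k hk hk1 s
    have hk2 : (1 : ℝ) ≤ k := by exact_mod_cast hk1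
    have := hAxb k hk s
    nlinarith
  have hpZb : ∀ k < n, 1 ≤ k → ∀ s, ‖pZ k s‖ ≤ 168 * t * k := by
    intro k hk hk1 s
    have hk2 : (1 : ℝ) ≤ k := by exact_mod_cast hk1
    have e1 : ‖(ρ ^ (k + 1) • opAz F h (q k)) s‖ ≤ 56 * t := by
      rw [Pi.smul_apply, norm_smul, Real.norm_eq_abs, abs_of_nonneg (pow_nonneg hρ0 _)]
      calc ρ ^ (k + 1) * ‖opAz F h (q k) s‖ ≤ 1 * (56 * t) :=
            mul_le_mul (rho_pow h0 _) (hAzb k hk s) (norm_nonneg _) zero_le_one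
        _ = _ := one_mul _
    have e2 : ‖(cK h k • opAx F h (q k)) s‖ ≤ 2 * k * (56 * t) := by
      rw [Pi.smul_apply, norm_smul, Real.norm_eq_abs, abs_of_nonneg (cK_nonneg h k)]
      exact mul_le_mul (cK_le h0 k) (hAxb k hk s) (norm_nonneg _) (by positivity)
    have e3 : ‖pZ k s‖ ≤ 56 * t + 2 * k * (56 * t) := (norm_add_le _ _).trans (add_le_add e1 e2)
    nlinarith
  have hXeq := duhamel_x hF h0 h16 hu n
  have hZeq := duhamel_z hF h0 h16 hu n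
  have hsX : Nice (h ^ 2 • ∑ k ∈ Finset.range n, (opT F h)^[k] (pX k)) :=
    Nice.smul (Nice.sum n fun k hk => iter_nice hF h0 h16 (hpXn k hk) k) _
  have hsZ : Nice (h ^ 2 • ∑ k ∈ Finset.range n, (opT F h)^[k] (pZ k)) :=
    Nice.smul (Nice.sum n fun k hk => iter_nice hF h0 h16 (hpZn k hk) k) _
  have hgxm : StronglyMeasurable (gx u) := (gx_cont hu).stronglyMeasurable
  have hgzm : StronglyMeasurable (gz u) := (gz_cont hu).stronglyMeasurable
  have haX : Nice ((opT F h)^[n] (gx u)) := iter_nice' hF h0 h16 hgxm hX (by omega)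
  have haZ : Nice ((opT F h)^[n] (gz u)) := iter_nice' hF h0 h16 hgzm hZ (by omega)
  have hbZ : Nice (ρ ^ n • (opT F h)^[n] (gz u) + cK h n • (opT F h)^[n] (gx u)) :=
    Nice.add (Nice.smul haZ _) (Nice.smul haX _)
  refine ⟨⟨?_, ?_⟩, ?_⟩
  · rw [hXeq]; exact Nice.sub haX hsX
  · rw [hZeq]; exact Nice.sub hbZ hsZ
  intro ι _ e hS hA s
  set D := t / Real.sqrt (h * n) with hD
  have hD0 : 0 ≤ D := by positivity
  have hx1 : sn e (fderiv ℝ ((opT F h)^[n] (gx u)) s) ≤ 10 * D / n := by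
    have := (hS (gx u) hgxm (t / n) (by positivity) hX).2 n hn hnh s
    refine this.trans (le_of_eq ?_)
    rw [hD]; ring
  have hz1 : sn e (fderiv ℝ ((opT F h)^[n] (gz u)) s) ≤ 10 * D := by
    have := (hS (gz u) hgzm t ht hZ).2 n hn hnh s
    refine this.trans (le_of_eq ?_)
    rw [hD]; ring
  have h10 : 10 * D / n ≤ 10 * D := div_le_self (by positivity) (by linarith)
  constructor
  · rw [hXeq, fderiv_sub (Nice.diff haX s) (Nice.diff hsX s)]
    refine (sn_sub _ _ _).trans ?_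
    have h2 := core hS hF h0 h1 hn hnh ht hpXn hpXb (fun s => by
      have := (hA (q 0) (hqc 0) (7 * t) (by positivity) (hq7 0 (by omega)) s).1
      refine this.trans (le_of_eq ?_)
      ring) s
    linarith
  · rw [hZeq, fderiv_sub (Nice.diff hbZ s) (Nice.diff hsZ s)]
    refine (sn_sub _ _ _).trans ?_
    have h2 := core hS hF h0 h1 hn hnh ht hpZn hpZb (fun s => by
      have := (hA (q 0) (hqc 0) (7 * t) (by positivity) (hq7 0 (by omega)) s).2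
      rw [hpZ]
      simp only [cK_zero, zero_smul, add_zero, zero_add, pow_one]
      rw [fderiv_const_smul (Nice.diff (hAzn 0 (by omega)) s), sn_smul, abs_of_nonneg hρ0]
      calc ρ * sn e (fderiv ℝ (opAz F h (q 0)) s) ≤ 1 * (8 * (7 * t) / h ^ 2) :=
            mul_le_mul (rho_le h0) this (sn_nonneg _ _) zero_le_one
        _ = _ := by ring) s
    have h3 : sn e (fderiv ℝ (ρ ^ n • (opT F h)^[n] (gz u) + cK h n • (opT F h)^[n] (gx u)) s) ≤
        30 * D := by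
      rw [fderiv_add (Nice.diff (Nice.smul haZ _) s) (Nice.diff (Nice.smul haX _) s),
        fderiv_const_smul (Nice.diff haZ s), fderiv_const_smul (Nice.diff haX s)]
      refine (sn_add _ _ _).trans ?_
      rw [sn_smul, sn_smul, abs_of_nonneg (pow_nonneg hρ0 _), abs_of_nonneg (cK_nonneg h n)]
      have e1 : ρ ^ n * sn e (fderiv ℝ ((opT F h)^[n] (gz u)) s) ≤ 1 * (10 * D) :=
        mul_le_mul (rho_pow h0 _) hz1 (sn_nonneg _ _) zero_le_one
      have e2 : cK h n * sn e (fderiv ℝ ((opT F h)^[n] (gx u)) s) ≤ 2 * n * (10 * D / n) :=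
        mul_le_mul (cK_le h0 n) hx1 (sn_nonneg _ _) (by positivity)
      have e3 : 2 * n * (10 * D / n) = 20 * D := by
        field_simp
        ring
      linarith
    linarith

end

end K8

theorem chain_D2 : ∃ C : ℝ, 1 ≤ C ∧ ∀ {κ : Type} [Fintype κ] {d : ℕ}
    {F : E2 d → (κ → E d) → E d}, Force κ F →
    ∀ {h : ℝ}, 0 < h → h ≤ 1 / 10000 → ∀ {u : E2 d → ℝ}, Nice u → ∀ {n : ℕ}, 2 ≤ n →
    (n : ℝ) * h ≤ 1 / 100 → ∀ {t : ℝ}, 0 ≤ t → (∀ s, ‖gx u s‖ ≤ t / n) → (∀ s, ‖gz u s‖ ≤ t) →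
    ContDiff ℝ 2 ((opT F h)^[n] u) ∧ ∀ s,
      hx (fderiv ℝ (gx ((opT F h)^[n] u)) s) ≤ C * t ^ 2 / (h * n) ∧
      hz (fderiv ℝ (gx ((opT F h)^[n] u)) s) ≤ C * t ^ 2 / (h * n) ∧
      hx (fderiv ℝ (gz ((opT F h)^[n] u)) s) ≤ C * t ^ 2 / (h * n) ∧
      hz (fderiv ℝ (gz ((opT F h)^[n] u)) s) ≤ C * t ^ 2 / (h * n) := by
  refine ⟨3600, by norm_num, ?_⟩
  intro κ _ d F hF h h0 h1 u hu n hn hnh t ht hX hZ
  obtain ⟨⟨hN1, hN2⟩, hb⟩ := K8.both hF h0 h1 hu hn hnh ht hX hZ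
  have hU : Nice ((opT F h)^[n] u) := K8.iter_nice hF h0 (by linarith) hu n
  refine ⟨K8.contDiff_two hU.smooth hN1.smooth hN2.smooth, fun s => ?_⟩
  have hx' := hb (K8.sm_x hF h0 h1) (K8.smA_x hF h0 h1) s
  have hz' := hb (K8.sm_z hF h0 h1) (K8.smA_z hF h0 h1) s
  have hn0 : (2 : ℝ) ≤ n := by exact_mod_cast hn
  have e : (60 * (t / Real.sqrt (h * n))) ^ 2 = 3600 * t ^ 2 / (h * n) := by
    rw [mul_pow, div_pow, Real.sq_sqrt (by positivity)]; ring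
  rw [← e, ← K8.sn_ex_sq, ← K8.sn_ez_sq, ← K8.sn_ex_sq, ← K8.sn_ez_sq]
  exact ⟨pow_le_pow_left₀ (K8.sn_nonneg _ _) hx'.1 2, pow_le_pow_left₀ (K8.sn_nonneg _ _) hz'.1 2,
    pow_le_pow_left₀ (K8.sn_nonneg _ _) hx'.2 2, pow_le_pow_left₀ (K8.sn_nonneg _ _) hz'.2 2⟩

end Vale.Agent.P347
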