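import Vale.Agent.P347.DefsC
import Vale.Agent.P347.IBP

/-!
# P347: seminorms of derivatives on phase space, gradients on phase space
-/

open MeasureTheory ProbabilityTheory
open scoped ENNReal NNReal RealInnerProductSpace

namespace Vale.Agent.P347
namespace K8

section semi
variable {d : ℕ} {G : Type*} [NormedAddCommGroup G] [NormedSpace ℝ G] {ι : Type} [Fintype ι]

/-- square root of a sum of squares of the values at fixed vectors -/
noncomputable def sn (e : ι → E2 d) (T : E2 d →L[ℝ] G) : ℝ := Real.sqrt (∑ i, ‖T (e i)‖ ^ 2)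

/-- the basis of the `x`-space -/
noncomputable def ex (d : ℕ) (i : Fin d) : E2 d := (eb i, 0)

/-- the basis of the `z`-space -/
noncomputable def ez (d : ℕ) (i : Fin d) : E2 d := (0, eb i)

theorem sn_nonneg (e : ι → E2 d) (T : E2 d →L[ℝ] G) : 0 ≤ sn e T := Real.sqrt_nonneg _

theorem sn_sq (e : ι → E2 d) (T : E2 d →L[ℝ] G) : sn e T ^ 2 = ∑ i, ‖T (e i)‖ ^ 2 :=
  Real.sq_sqrt (Finset.sum_nonneg fun _ _ => sq_nonneg _)

theorem sn_ex_sq (T : E2 d →L[ℝ] G) : sn (ex d) T ^ 2 = hx T := sn_sq _ _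

theorem sn_ez_sq (T : E2 d →L[ℝ] G) : sn (ez d) T ^ 2 = hz T := sn_sq _ _

theorem sn_eq (e : ι → E2 d) (T : E2 d →L[ℝ] G) :
    sn e T = ‖(WithLp.toLp 2 (fun i => T (e i)) : PiLp 2 (fun _ : ι => G))‖ := by
  rw [PiLp.norm_eq_of_L2]; rfl

theorem sn_add (e : ι → E2 d) (T T' : E2 d →L[ℝ] G) : sn e (T + T') ≤ sn e T + sn e T' := by
  rw [sn_eq, sn_eq, sn_eq]
  refine le_trans (le_of_eq ?_) (norm_add_le _ _)
  congr 1

theorem sn_smul (e : ι → E2 d) (c : ℝ) (T : E2 d →L[ℝ] G) : sn e (c • T) = |c| * sn e T := by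
  rw [sn_eq, sn_eq, ← Real.norm_eq_abs, ← norm_smul]
  congr 1

theorem sn_sub (e : ι → E2 d) (T T' : E2 d →L[ℝ] G) : sn e (T - T') ≤ sn e T + sn e T' := by
  have h := sn_add e T ((-1 : ℝ) • T')
  rw [sn_smul, neg_one_smul ℝ T', ← sub_eq_add_neg] at h
  simpa using h

theorem sn_zero (e : ι → E2 d) : sn e (0 : E2 d →L[ℝ] G) = 0 := by simp [sn]

theorem sn_sum (e : ι → E2 d) {κ : Type*} (s : Finset κ) (T : κ → E2 d →L[ℝ] G) :
    sn e (∑ k ∈ s, T k) ≤ ∑ k ∈ s, sn e (T k) := by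
  classical
  induction s using Finset.induction_on with
  | empty => simp [sn_zero]
  | insert a s ha ih =>
    rw [Finset.sum_insert ha, Finset.sum_insert ha]
    exact (sn_add _ _ _).trans (by linarith)

theorem sn_le_of_sq {e : ι → E2 d} {T : E2 d →L[ℝ] G} {c : ℝ} (hc : 0 ≤ c)
    (h : ∑ i, ‖T (e i)‖ ^ 2 ≤ c ^ 2) : sn e T ≤ c := by
  rw [sn, show c = Real.sqrt (c ^ 2) from (Real.sqrt_sq hc).symm]
  exact Real.sqrt_le_sqrt h

end semi

section grads
variable {d : ℕ}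

theorem sum_coord (x : E d) : ∑ i, x i • (eb i : E d) = x := by
  ext j
  simp [eb, Finset.sum_apply, Pi.single_apply]

theorem fderiv_eq (u : E2 d → ℝ) (s : E2 d) :
    fderiv ℝ u s = (innerSL ℝ (gx u s)).comp (ContinuousLinearMap.fst ℝ (E d) (E d)) +
      (innerSL ℝ (gz u s)).comp (ContinuousLinearMap.snd ℝ (E d) (E d)) := by
  refine ContinuousLinearMap.ext fun ab => ?_
  obtain ⟨a, b⟩ := ab
  have h1 : ((a, b) : E2 d) = ∑ i, a i • ((eb i, 0) : E2 d) + ∑ i, b i • ((0, eb i) : E2 d) := by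
    refine Prod.ext ?_ ?_
    · simp [Prod.fst_sum, sum_coord]
    · simp [Prod.snd_sum, sum_coord]
  have h2 : ∀ (v : Fin d → ℝ) (x : E d), ⟪∑ i, v i • (eb i : E d), x⟫ = ∑ i, v i * x i := by
    intro v x
    rw [sum_inner]
    refine Finset.sum_congr rfl fun i _ => ?_
    rw [real_inner_smul_left, real_inner_comm, inner_eb]
  rw [h1, map_add, map_sum, map_sum]
  simp only [add_apply, ContinuousLinearMap.comp_apply, ← h1,
    ContinuousLinearMap.coe_fst', ContinuousLinearMap.coe_snd', innerSL_apply_apply, gx, gz, h2,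
    map_smul, smul_eq_mul]
  congr 1 <;> exact Finset.sum_congr rfl fun i _ => mul_comm _ _

theorem contDiff_gx {n : ℕ} {u : E2 d → ℝ} (hu : ContDiff ℝ (n + 1) u) : ContDiff ℝ n (gx u) := by
  unfold gx
  have h : ContDiff ℝ n (fderiv ℝ u) := (contDiff_succ_iff_fderiv.1 hu).2.2
  exact ContDiff.sum fun i _ => (h.clm_apply contDiff_const).smul contDiff_const

theorem contDiff_gz {n : ℕ} {u : E2 d → ℝ} (hu : ContDiff ℝ (n + 1) u) : ContDiff ℝ n (gz u) := by
  unfold gz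
  have h : ContDiff ℝ n (fderiv ℝ u) := (contDiff_succ_iff_fderiv.1 hu).2.2
  exact ContDiff.sum fun i _ => (h.clm_apply contDiff_const).smul contDiff_const

theorem contDiff_two {u : E2 d → ℝ} (hu : ContDiff ℝ 1 u) (hx : ContDiff ℝ 1 (gx u))
    (hz : ContDiff ℝ 1 (gz u)) : ContDiff ℝ 2 u := by
  rw [show (2 : WithTop ℕ∞) = 1 + 1 from (one_add_one_eq_two).symm]
  refine contDiff_succ_iff_fderiv.2 ⟨hu.differentiable one_ne_zero, by simp, ?_⟩
  have h : fderiv ℝ u = fun s => (innerSL ℝ (gx u s)).comp (ContinuousLinearMap.fst ℝ (E d) (E d)) +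
      (innerSL ℝ (gz u s)).comp (ContinuousLinearMap.snd ℝ (E d) (E d)) := funext (fderiv_eq u)
  rw [h]
  exact (((innerSL ℝ).contDiff.comp hx).clm_comp contDiff_const).add
    (((innerSL ℝ).contDiff.comp hz).clm_comp contDiff_const)

theorem fderiv2_bdd {u : E2 d → ℝ} (hx : Nice (gx u)) (hz : Nice (gz u)) :
    ∃ B, ∀ s, ‖fderiv ℝ (fderiv ℝ u) s‖ ≤ B := by
  obtain ⟨B1, h1⟩ := hx.dbd
  obtain ⟨B2, h2⟩ := hz.dbd
  have hB1 : 0 ≤ B1 := (norm_nonneg _).trans (h1 0)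
  have hB2 : 0 ≤ B2 := (norm_nonneg _).trans (h2 0)
  have h : fderiv ℝ u = fun s => (innerSL ℝ (gx u s)).comp (ContinuousLinearMap.fst ℝ (E d) (E d)) +
      (innerSL ℝ (gz u s)).comp (ContinuousLinearMap.snd ℝ (E d) (E d)) := funext (fderiv_eq u)
  refine ⟨B1 + B2, fun s => ?_⟩
  have d1 : Differentiable ℝ (gx u) := hx.smooth.differentiable one_ne_zero
  have d2 : Differentiable ℝ (gz u) := hz.smooth.differentiable one_ne_zero
  have hlip : ∀ a b, ‖fderiv ℝ u a - fderiv ℝ u b‖ ≤ (B1 + B2) * ‖a - b‖ := by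
    intro a b
    have e1 : ‖gx u a - gx u b‖ ≤ B1 * ‖a - b‖ :=
      Convex.norm_image_sub_le_of_norm_fderiv_le (fun x _ => d1 x) (fun x _ => h1 x)
        convex_univ (Set.mem_univ b) (Set.mem_univ a)
    have e2 : ‖gz u a - gz u b‖ ≤ B2 * ‖a - b‖ :=
      Convex.norm_image_sub_le_of_norm_fderiv_le (fun x _ => d2 x) (fun x _ => h2 x)
        convex_univ (Set.mem_univ b) (Set.mem_univ a)
    refine ContinuousLinearMap.opNorm_le_bound _ (by positivity) fun w => ?_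
    rw [h]
    have e3 : ((innerSL ℝ (gx u a)).comp (ContinuousLinearMap.fst ℝ (E d) (E d)) +
        (innerSL ℝ (gz u a)).comp (ContinuousLinearMap.snd ℝ (E d) (E d)) -
        ((innerSL ℝ (gx u b)).comp (ContinuousLinearMap.fst ℝ (E d) (E d)) +
        (innerSL ℝ (gz u b)).comp (ContinuousLinearMap.snd ℝ (E d) (E d)))) w =
        ⟪gx u a - gx u b, w.1⟫ + ⟪gz u a - gz u b, w.2⟫ := by
      simp only [sub_apply, add_apply,
        ContinuousLinearMap.comp_apply, ContinuousLinearMap.coe_fst',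
        ContinuousLinearMap.coe_snd', innerSL_apply_apply, inner_sub_left]
      ring
    rw [e3]
    calc ‖⟪gx u a - gx u b, w.1⟫ + ⟪gz u a - gz u b, w.2⟫‖
        ≤ ‖⟪gx u a - gx u b, w.1⟫‖ + ‖⟪gz u a - gz u b, w.2⟫‖ := norm_add_le _ _
      _ ≤ ‖gx u a - gx u b‖ * ‖w.1‖ + ‖gz u a - gz u b‖ * ‖w.2‖ :=
          add_le_add (norm_inner_le_norm _ _) (norm_inner_le_norm _ _)
      _ ≤ (B1 * ‖a - b‖) * ‖w‖ + (B2 * ‖a - b‖) * ‖w‖ :=
          add_le_add (mul_le_mul e1 (norm_fst_le w) (norm_nonneg _) (by positivity))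
            (mul_le_mul e2 (norm_snd_le w) (norm_nonneg _) (by positivity))
      _ = (B1 + B2) * ‖a - b‖ * ‖w‖ := by ring
  have := norm_fderiv_le_of_lip' ℝ (f := fderiv ℝ u) (x₀ := s) (C := B1 + B2) (by positivity)
    (Filter.Eventually.of_forall fun a => hlip a s)
  exact this

end grads

end K8
end Vale.Agent.P347
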