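import Vale.Agent.P347.Defs

/-!
# P347: the oracle model, the query complexity `Q d` and the dimension exponent `gammaStar`

* `VV d`      : the class of potentials of the problem;
* `oracle`    : the exact first-order oracle;
* `Alg d q`   : randomized adaptive algorithms making (at most) `q` queries;
* `Alg.Samples` : total variation error at most `1/10` for every `V` in the class;
* `Q d`       : the least number of queries (an element of `ℕ∞`);
* `gammaStar` : `limsup log Q(d) / log d`.
-/

open MeasureTheory ProbabilityTheory Filter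
open scoped ENNReal NNReal RealInnerProductSpace

namespace Vale.Agent.P347

/-- The class `𝒱_d`: `V ∈ C²(ℝ^d)`, `V(0) = 0`, `∇V(0) = 0`, `I ≤ D²V ≤ 2I`. -/
def VV (d : ℕ) : Set (E d → ℝ) :=
  {V | ContDiff ℝ 2 V ∧ V 0 = 0 ∧ gradient V 0 = 0 ∧
    ∀ x v, ‖v‖ ^ 2 ≤ iteratedFDeriv ℝ 2 V x (fun _ => v) ∧
      iteratedFDeriv ℝ 2 V x (fun _ => v) ≤ 2 * ‖v‖ ^ 2}

/-- The exact first-order oracle: a query at `x` returns `(V x, ∇V x)`. -/
noncomputable def oracle {d : ℕ} (V : E d → ℝ) (x : E d) : ℝ × E d := (V x, gradient V x)

/-- The random reals of an algorithm: a sequence of real numbers in `[0,1]`. -/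
abbrev Seed : Type := ℕ → unitInterval

/-- The random reals are independent and uniform on `[0,1]`. -/
noncomputable def seedLaw : Measure Seed :=
  Measure.infinitePi fun _ : ℕ => (volume : Measure unitInterval)

instance : IsProbabilityMeasure seedLaw := by unfold seedLaw; infer_instance

/-- A randomized adaptive algorithm in dimension `d` which makes `q` queries. The query number `k`
is a measurable function of the random reals and of the `k` answers received before; the output is
a measurable function of the random reals and of the `q` answers. -/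
structure Alg (d q : ℕ) where
  /-- the next query point, after `k` answers -/
  query : (k : ℕ) → Seed → (Fin k → ℝ × E d) → E d
  /-- the output, after `q` answers -/
  output : Seed → (Fin q → ℝ × E d) → E d
  measurable_query : ∀ k, Measurable (Function.uncurry (query k))
  measurable_output : Measurable (Function.uncurry output)

/-- The first `k` answers of the oracle for `V` when the query rules are `query`. -/
noncomputable def answers {d : ℕ} {X : Type} (query : (k : ℕ) → X → (Fin k → ℝ × E d) → E d)
    (V : E d → ℝ) (x : X) : (k : ℕ) → Fin k → ℝ × E d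
  | 0 => Fin.elim0
  | k + 1 => Fin.snoc (answers query V x k) (oracle V (query k x (answers query V x k)))

/-- The output of the algorithm `A` on the potential `V` with random reals `ω`. -/
noncomputable def Alg.run {d q : ℕ} (A : Alg d q) (V : E d → ℝ) (ω : Seed) : E d :=
  A.output ω (answers A.query V ω q)

/-- For every `V` in the class, the law of the output is at total variation distance at most
`1/10` from the Gibbs law of `V`. -/
def Alg.Samples {d q : ℕ} (A : Alg d q) : Prop :=
  ∀ V ∈ VV d, ∀ B : Set (E d), MeasurableSet B →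
    |(seedLaw.map (A.run V)).real B - (gibbs V).real B| ≤ 1 / 10

/-- The query complexity: the least `q` such that some algorithm with `q` queries samples from
every target of the class (`⊤` if there is none). -/
noncomputable def Q (d : ℕ) : ℕ∞ := ⨅ (q : ℕ) (_ : ∃ A : Alg d q, A.Samples), (q : ℕ∞)

/-- The dimension exponent `limsup log Q(d) / log d`. -/
noncomputable def gammaStar : EReal :=
  limsup (fun d : ℕ => ENNReal.log ((Q d : ℕ∞) : ℝ≥0∞) / ((Real.log d : ℝ) : EReal)) atTop

/-! ### Deterministic computations with `n` queries -/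

/-- `F V x` can be computed from `x` by `n` adaptive queries to the oracle of `V`. -/
def Comp {d : ℕ} : (n : ℕ) → {X : Type} → [MeasurableSpace X] → {Y : Type} →
    [MeasurableSpace Y] → ((E d → ℝ) → X → Y) → Prop
  | 0, X, _, Y, _, F => ∃ g : X → Y, Measurable g ∧ ∀ V x, F V x = g x
  | n + 1, X, _, _, _, F => ∃ q : X → E d, Measurable q ∧
      ∃ G : (E d → ℝ) → X × (ℝ × E d) → _, Comp n G ∧ ∀ V x, F V x = G V (x, oracle V (q x))

section comp

variable {d : ℕ} {X Y Z W : Type} [MeasurableSpace X] [MeasurableSpace Y] [MeasurableSpace Z]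
  [MeasurableSpace W]

theorem Comp.pure {g : X → Y} (hg : Measurable g) :
    Comp (d := d) 0 (fun _ x => g x) := ⟨g, hg, fun _ _ => rfl⟩

theorem measurable_oracle {V : E d → ℝ} (hV : Measurable V) (hV' : Measurable (gradient V)) :
    Measurable (oracle V) := hV.prodMk hV'

theorem Comp.measurable {n : ℕ} : ∀ {X : Type} [MeasurableSpace X] {Y : Type} [MeasurableSpace Y]
    {F : (E d → ℝ) → X → Y}, Comp n F → ∀ {V : E d → ℝ}, Measurable V →
    Measurable (gradient V) → Measurable (F V) := by
  induction n with
  | zero =>
    rintro X _ Y _ F ⟨g, hg, h⟩ V _ _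
    have : F V = g := funext fun x => h V x
    rw [this]; exact hg
  | succ n ih =>
    rintro X _ Y _ F ⟨q, hq, G, hG, h⟩ V hV hV'
    have : F V = fun x => G V (x, oracle V (q x)) := funext fun x => h V x
    rw [this]
    exact (ih hG hV hV').comp (measurable_id.prodMk ((measurable_oracle hV hV').comp hq))

theorem Comp.precomp {n : ℕ} : ∀ {X : Type} [MeasurableSpace X] {Y : Type} [MeasurableSpace Y]
    {Z : Type} [MeasurableSpace Z] {F : (E d → ℝ) → X → Y}, Comp n F →
    ∀ {g : Z → X}, Measurable g → Comp n (fun V z => F V (g z)) := by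
  induction n with
  | zero =>
    rintro X _ Y _ Z _ F ⟨f, hf, h⟩ g hg
    exact ⟨fun z => f (g z), hf.comp hg, fun V z => h V (g z)⟩
  | succ n ih =>
    rintro X _ Y _ Z _ F ⟨q, hq, G, hG, h⟩ g hg
    refine ⟨fun z => q (g z), hq.comp hg, fun V p => G V (g p.1, p.2), ?_, fun V z => h V (g z)⟩
    exact ih (g := fun p : Z × (ℝ × E d) => (g p.1, p.2)) hG
      ((hg.comp measurable_fst).prodMk measurable_snd)

theorem Comp.bind {n m : ℕ} : ∀ {X : Type} [MeasurableSpace X] {Y : Type} [MeasurableSpace Y]
    {Z : Type} [MeasurableSpace Z] {F : (E d → ℝ) → X → Y} {G : (E d → ℝ) → X × Y → Z},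
    Comp n F → Comp m G → Comp (n + m) (fun V x => G V (x, F V x)) := by
  induction n with
  | zero =>
    rintro X _ Y _ Z _ F G ⟨f, hf, h⟩ hG
    have : (fun (V : E d → ℝ) x => G V (x, F V x)) = fun V x => G V (x, f x) := by
      funext V x; rw [h V x]
    rw [this, Nat.zero_add]
    exact hG.precomp (measurable_id.prodMk hf)
  | succ n ih =>
    rintro X _ Y _ Z _ F G ⟨q, hq, F', hF', h⟩ hG
    have e : n + 1 + m = (n + m) + 1 := by omega
    rw [e]
    refine ⟨q, hq, fun V p => G V (p.1, F' V p), ?_, fun V x =>
      show G V (x, F V x) = G V (x, F' V (x, oracle V (q x))) by rw [h V x]⟩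
    have hG' : Comp m (fun V (p : (X × (ℝ × E d)) × Y) => G V (p.1.1, p.2)) :=
      hG.precomp (g := fun p : (X × (ℝ × E d)) × Y => (p.1.1, p.2))
        ((measurable_fst.comp measurable_fst).prodMk measurable_snd)
    exact ih hF' hG'

theorem Comp.succ {n : ℕ} {F : (E d → ℝ) → X → Y} (hF : Comp n F) : Comp (n + 1) F :=
  ⟨fun _ => 0, measurable_const, fun V p => F V p.1, hF.precomp measurable_fst, fun _ _ => rfl⟩

theorem Comp.mono {n m : ℕ} {F : (E d → ℝ) → X → Y} (hF : Comp n F) (h : n ≤ m) : Comp m F := by
  induction h with
  | refl => exact hF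
  | step _ ih => exact ih.succ

theorem Comp.post {n : ℕ} {F : (E d → ℝ) → X → Y} (hF : Comp n F) {g : X × Y → Z}
    (hg : Measurable g) : Comp n (fun V x => g (x, F V x)) :=
  Comp.bind (m := 0) hF (Comp.pure hg)

theorem Comp.comp {n m : ℕ} {F : (E d → ℝ) → X → Y} {G : (E d → ℝ) → Y → Z}
    (hF : Comp n F) (hG : Comp m G) : Comp (n + m) (fun V x => G V (F V x)) :=
  Comp.bind hF (G := fun V p => G V p.2) (hG.precomp measurable_snd)

theorem Comp.query {q : X → E d} (hq : Measurable q) : Comp 1 (fun V x => oracle V (q x)) :=
  ⟨q, hq, fun _ p => p.2, Comp.pure measurable_snd, fun _ _ => rfl⟩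

theorem Comp.grad {q : X → E d} (hq : Measurable q) : Comp 1 (fun V x => gradient V (q x)) :=
  (Comp.query hq).post (g := fun p : X × (ℝ × E d) => p.2.2)
    (measurable_snd.comp measurable_snd)

/-- pairing two computations from the same input -/
theorem Comp.prodMk {n m : ℕ} {F : (E d → ℝ) → X → Y} {G : (E d → ℝ) → X → Z}
    (hF : Comp n F) (hG : Comp m G) : Comp (n + m) (fun V x => (F V x, G V x)) := by
  have h1 : Comp m (fun V (p : X × Y) => (p.2, G V p.1)) :=
    (hG.precomp (g := fun p : X × Y => p.1) measurable_fst).post
      (g := fun p : (X × Y) × Z => (p.1.2, p.2))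
      ((measurable_snd.comp measurable_fst).prodMk measurable_snd)
  exact hF.bind h1

/-- non adaptive queries at `n` points -/
theorem Comp.grads_fin (n : ℕ) {q : Fin n → X → E d} (hq : ∀ i, Measurable (q i)) :
    Comp n (fun V x => fun i => gradient V (q i x)) := by
  induction n with
  | zero =>
    refine ⟨fun _ i => i.elim0, ?_, fun V x => funext fun i => i.elim0⟩
    exact measurable_pi_lambda _ fun i => i.elim0
  | succ n ih =>
    have h1 := (ih (q := fun i => q (Fin.castSucc i)) fun i => hq _).prodMk
      (Comp.grad (hq (Fin.last n)))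
    have h2 := h1.post (g := fun p : X × ((Fin n → E d) × E d) =>
      (Fin.snoc (α := fun _ => E d) p.2.1 p.2.2 : Fin (n + 1) → E d)) (by
        refine measurable_pi_lambda _ fun i => ?_
        refine Fin.lastCases ?_ (fun j => ?_) i
        · simp only [Fin.snoc_last]
          exact measurable_snd.comp measurable_snd
        · simp only [Fin.snoc_castSucc]
          exact (measurable_pi_apply j).comp (measurable_fst.comp measurable_snd))
    have e : (fun (V : E d → ℝ) (x : X) => fun i => gradient V (q i x)) =
        fun V x => (Fin.snoc (α := fun _ => E d) (fun i => gradient V (q (Fin.castSucc i) x))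
          (gradient V (q (Fin.last n) x)) : Fin (n + 1) → E d) := by
      funext V x i
      refine Fin.lastCases ?_ (fun j => ?_) i
      · simp only [Fin.snoc_last]
      · simp only [Fin.snoc_castSucc]
    rw [e]
    exact h2

/-- non adaptive queries at a finite family of points -/
theorem Comp.grads {ι : Type} [Fintype ι] {q : ι → X → E d} (hq : ∀ i, Measurable (q i)) :
    Comp (Fintype.card ι) (fun V x => fun i => gradient V (q i x)) := by
  let e := Fintype.equivFin ι
  have h1 := Comp.grads_fin (Fintype.card ι) (q := fun j => q (e.symm j)) fun j => hq _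
  have h2 := h1.post (g := fun p : X × (Fin (Fintype.card ι) → E d) => fun i => p.2 (e i))
    (measurable_pi_lambda _ fun i => (measurable_pi_apply (e i)).comp measurable_snd)
  simpa using h2

end comp

end Vale.Agent.P347
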