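import Vale.Agent.P347.Defs

/-! P347, piece A6: a polynomial of a positive symmetric contraction is bounded by its sup norm. -/

open MeasureTheory ProbabilityTheory
open scoped ENNReal NNReal RealInnerProductSpace

namespace Vale.Agent.P347

namespace PolyOp

open Polynomial Filter Topology Finset

/-- degree elevation -/
theorem elev (N k : ℕ) (hk : k ≤ N) :
    ∑ j ∈ range (N + 1), (j.choose k : ℝ[X]) * ((N.choose j : ℝ[X]) * (X ^ j * (1 - X) ^ (N - j))) =
      (N.choose k : ℝ[X]) * X ^ k := by
  have h1 : ∑ j ∈ range (N + 1),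
      (j.choose k : ℝ[X]) * ((N.choose j : ℝ[X]) * (X ^ j * (1 - X) ^ (N - j))) =
      ∑ j ∈ Ico k (N + 1),
      (j.choose k : ℝ[X]) * ((N.choose j : ℝ[X]) * (X ^ j * (1 - X) ^ (N - j))) := by
    rw [Finset.range_eq_Ico, ← Finset.sum_Ico_consecutive _ (Nat.zero_le k) (by omega : k ≤ N + 1)]
    rw [Finset.sum_eq_zero, zero_add]
    intro j hj
    rw [Finset.mem_Ico] at hj
    rw [Nat.choose_eq_zero_of_lt hj.2]
    simp
  rw [h1, Finset.sum_Ico_eq_sum_range]
  have h2 : ((X : ℝ[X]) + (1 - X)) ^ (N - k) = 1 := by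
    rw [add_sub_cancel, one_pow]
  calc _ = ∑ i ∈ range (N - k + 1), (N.choose k : ℝ[X]) * X ^ k *
        (X ^ i * (1 - X) ^ (N - k - i) * ((N - k).choose i : ℝ[X])) := by
        rw [show N + 1 - k = N - k + 1 by omega]
        refine Finset.sum_congr rfl fun i hi => ?_
        rw [Finset.mem_range] at hi
        have hc := Nat.choose_mul (n := N) (k := k + i) (s := k) (by omega)
        rw [show k + i - k = i by omega] at hc
        have hc' : (N.choose (k + i) : ℝ[X]) * ((k + i).choose k : ℝ[X]) =
            (N.choose k : ℝ[X]) * ((N - k).choose i : ℝ[X]) := by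
          exact_mod_cast congrArg (Nat.cast : ℕ → ℝ[X]) hc
        rw [show N - (k + i) = N - k - i by omega, pow_add]
        linear_combination (X ^ k * X ^ i * (1 - X) ^ (N - k - i)) * hc'
    _ = (N.choose k : ℝ[X]) * X ^ k * (X + (1 - X)) ^ (N - k) := by
        rw [← Finset.mul_sum, add_pow]
    _ = _ := by rw [h2, mul_one]

/-- the ratio of binomial coefficients is close to a power. -/
theorem ratio (N j : ℕ) (hN : 0 < N) (hj : j ≤ N) (D : ℕ) (hD : 2 * D ≤ N) (k : ℕ) (hk : k ≤ D) :
    |(j.choose k : ℝ) / (N.choose k : ℝ) - ((j : ℝ) / N) ^ k| ≤ k * (D / (N - D : ℝ)) := by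
  have hNr : (0 : ℝ) < N := by exact_mod_cast hN
  have hjr : (j : ℝ) ≤ N := by exact_mod_cast hj
  have hj0 : (0 : ℝ) ≤ j := by positivity
  have hDr : 2 * (D : ℝ) ≤ N := by exact_mod_cast hD
  have hD0 : (0 : ℝ) ≤ D := by positivity
  have hND : (0 : ℝ) < N - D := by linarith
  induction k with
  | zero => simp
  | succ k ih =>
    have ih := ih (by omega)
    have hkD : (k : ℝ) + 1 ≤ D := by exact_mod_cast hk
    have hk0 : (0 : ℝ) ≤ k := by positivity
    have hNk : (0 : ℝ) < N - k := by linarith
    have hckN : (0 : ℝ) < (N.choose k : ℝ) := by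
      exact_mod_cast Nat.choose_pos (by omega)
    have hckN' : (0 : ℝ) < (N.choose (k + 1) : ℝ) := by
      exact_mod_cast Nat.choose_pos (by omega)
    have e1 : (j.choose (k + 1) : ℝ) * (k + 1) = (j.choose k : ℝ) * (j - k) := by
      by_cases hjk : k ≤ j
      · have := Nat.choose_succ_right_eq j k
        have h2 : ((j.choose (k + 1) * (k + 1) : ℕ) : ℝ) = ((j.choose k * (j - k) : ℕ) : ℝ) := by
          rw [this]
        push_cast [Nat.cast_sub hjk] at h2
        exact h2
      · rw [Nat.choose_eq_zero_of_lt (by omega : j < k + 1),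
          Nat.choose_eq_zero_of_lt (by omega : j < k)]
        simp
    have e2 : (N.choose (k + 1) : ℝ) * (k + 1) = (N.choose k : ℝ) * (N - k) := by
      have := Nat.choose_succ_right_eq N k
      have h2 : ((N.choose (k + 1) * (k + 1) : ℕ) : ℝ) = ((N.choose k * (N - k) : ℕ) : ℝ) := by
        rw [this]
      push_cast [Nat.cast_sub (by omega : k ≤ N)] at h2
      exact h2
    have e3 : (j.choose (k + 1) : ℝ) / (N.choose (k + 1) : ℝ) =
        (j.choose k : ℝ) / (N.choose k : ℝ) * ((j - k) / (N - k)) := by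
      rw [div_mul_div_comm, div_eq_div_iff hckN'.ne' (by positivity)]
      have h3 : (j.choose (k + 1) : ℝ) * (N.choose k * (N - k)) * (k + 1) =
          j.choose k * (j - k) * (N.choose (k + 1)) * (k + 1) := by
        calc _ = (j.choose (k + 1) : ℝ) * (k + 1) * (N.choose k * (N - k)) := by ring
          _ = (j.choose k : ℝ) * (j - k) * (N.choose (k + 1) * (k + 1)) := by rw [e1, e2]
          _ = _ := by ring
      exact mul_right_cancel₀ (by positivity) h3
    have e4 : (j.choose (k + 1) : ℝ) / (N.choose (k + 1) : ℝ) - ((j : ℝ) / N) ^ (k + 1) =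
        ((j.choose k : ℝ) / (N.choose k : ℝ) - ((j : ℝ) / N) ^ k) * ((j - k) / (N - k)) -
        ((j : ℝ) / N) ^ k * ((j : ℝ) / N - (j - k) / (N - k)) := by
      rw [e3]; ring
    have e5 : (j : ℝ) / N - (j - k) / (N - k) = k * ((N - j) / (N * (N - k))) := by
      field_simp
      ring
    have b1 : |((j : ℝ) - k) / (N - k)| ≤ 1 := by
      rw [abs_div, abs_of_pos hNk, div_le_one hNk, abs_le]
      constructor <;> linarith
    have b2 : |((j : ℝ) / N) ^ k| ≤ 1 := by
      rw [abs_of_nonneg (by positivity)]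
      exact pow_le_one₀ (by positivity) ((div_le_one hNr).2 hjr)
    have b3 : |(j : ℝ) / N - (j - k) / (N - k)| ≤ D / (N - D) := by
      rw [e5, abs_of_nonneg (by
        have : (0 : ℝ) ≤ N - j := by linarith
        positivity)]
      calc (k : ℝ) * ((N - j) / (N * (N - k))) ≤ k * (1 / (N - k)) := by
            refine mul_le_mul_of_nonneg_left ?_ hk0
            rw [div_le_div_iff₀ (by positivity) hNk]
            nlinarith
        _ = k / (N - k) := by ring
        _ ≤ D / (N - D) := by
            rw [div_le_div_iff₀ hNk hND]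
            nlinarith
    rw [e4]
    calc _ ≤ |((j.choose k : ℝ) / (N.choose k : ℝ) - ((j : ℝ) / N) ^ k) * ((j - k) / (N - k))| +
        |((j : ℝ) / N) ^ k * ((j : ℝ) / N - (j - k) / (N - k))| := abs_sub _ _
      _ ≤ k * (D / (N - D : ℝ)) * 1 + 1 * (D / (N - D)) := by
          rw [abs_mul, abs_mul]
          gcongr
      _ = ((k + 1 : ℕ) : ℝ) * (D / (N - D : ℝ)) := by push_cast; ring

/-- A linear functional which is nonnegative on all `X^j (1-X)^l` is nonnegative on all
polynomials which are nonnegative on `[0,1]`. -/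
theorem pos_of_bern (Λ : ℝ[X] →ₗ[ℝ] ℝ) (h : ∀ j l : ℕ, 0 ≤ Λ (X ^ j * (1 - X) ^ l))
    (q : ℝ[X]) (hq : ∀ t ∈ Set.Icc (0 : ℝ) 1, 0 ≤ q.eval t) : 0 ≤ Λ q := by
  set w : ℕ → ℕ → ℝ := fun N j => (N.choose j : ℝ) * Λ (X ^ j * (1 - X) ^ (N - j)) with hw
  have hw0 : ∀ N j, 0 ≤ w N j := fun N j => mul_nonneg (by positivity) (h _ _)
  have hmom : ∀ N k, k ≤ N → Λ (X ^ k) =
      ∑ j ∈ range (N + 1), (j.choose k : ℝ) / (N.choose k : ℝ) * w N j := by
    intro N k hk
    have h1 := congrArg Λ (elev N k hk)
    rw [map_sum] at h1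
    have hcN : (0 : ℝ) < (N.choose k : ℝ) := by exact_mod_cast Nat.choose_pos hk
    have cast_mul : ∀ (c : ℕ) (p : ℝ[X]), Λ ((c : ℝ[X]) * p) = (c : ℝ) * Λ p := by
      intro c p
      rw [← nsmul_eq_mul, map_nsmul, nsmul_eq_mul]
    rw [cast_mul] at h1
    have h2 : ∑ j ∈ range (N + 1), Λ ((j.choose k : ℝ[X]) *
        ((N.choose j : ℝ[X]) * (X ^ j * (1 - X) ^ (N - j)))) =
        ∑ j ∈ range (N + 1), (j.choose k : ℝ) * w N j :=
      Finset.sum_congr rfl fun j _ => by rw [cast_mul, cast_mul]
    rw [h2] at h1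
    calc Λ (X ^ k) = (N.choose k : ℝ) * Λ (X ^ k) / (N.choose k : ℝ) := by
          field_simp
      _ = _ := by
          rw [← h1, Finset.sum_div]
          exact Finset.sum_congr rfl fun j _ => by ring
  have hsum : ∀ N, ∑ j ∈ range (N + 1), w N j = Λ 1 := by
    intro N
    have := hmom N 0 (Nat.zero_le _)
    simpa using this.symm
  set M : ℕ → ℝ[X] → ℝ := fun N q => ∑ j ∈ range (N + 1), q.eval ((j : ℝ) / N) * w N j with hM
  have hlim : ∀ q : ℝ[X], Tendsto (fun N => M N q) atTop (𝓝 (Λ q)) := by
    intro q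
    induction q using Polynomial.induction_on' with
    | add p q hp hq =>
      have : (fun N => M N (p + q)) = fun N => M N p + M N q := by
        funext N
        simp only [hM, Polynomial.eval_add, add_mul, Finset.sum_add_distrib]
      rw [this, map_add]
      exact hp.add hq
    | monomial k a =>
      have e1 : ∀ N, M N (monomial k a) = a * M N (X ^ k) := by
        intro N
        simp only [hM, Polynomial.eval_monomial, Polynomial.eval_pow, Polynomial.eval_X,
          Finset.mul_sum]
        exact Finset.sum_congr rfl fun j _ => by ring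
      have e2 : Λ (monomial k a) = a * Λ (X ^ k) := by
        rw [← Polynomial.smul_X_eq_monomial, map_smul, smul_eq_mul]
      simp only [e1, e2]
      refine Tendsto.const_mul a ?_
      rw [tendsto_iff_norm_sub_tendsto_zero]
      have hb : ∀ᶠ N : ℕ in atTop, ‖M N (X ^ k) - Λ (X ^ k)‖ ≤ k * (k / (N - k : ℝ)) * Λ 1 := by
        filter_upwards [eventually_ge_atTop (2 * k + 1)] with N hN
        have hkN : k ≤ N := by omega
        have e3 : M N (X ^ k) - Λ (X ^ k) = ∑ j ∈ range (N + 1),
            (((j : ℝ) / N) ^ k - (j.choose k : ℝ) / (N.choose k : ℝ)) * w N j := by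
          rw [hmom N k hkN, ← Finset.sum_sub_distrib]
          refine Finset.sum_congr rfl fun j _ => ?_
          simp only [Polynomial.eval_pow, Polynomial.eval_X]
          ring
        rw [e3]
        refine (norm_sum_le _ _).trans ?_
        rw [← hsum N, Finset.mul_sum]
        refine Finset.sum_le_sum fun j hj => ?_
        rw [Finset.mem_range] at hj
        rw [norm_mul, Real.norm_eq_abs, Real.norm_eq_abs, abs_of_nonneg (hw0 N j), abs_sub_comm]
        exact mul_le_mul_of_nonneg_right (ratio N j (by omega) (by omega) k (by omega) k le_rfl)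
          (hw0 N j)
      have hz : Tendsto (fun N : ℕ => k * (k / (N - k : ℝ)) * Λ 1) atTop (𝓝 0) := by
        have h1 : Tendsto (fun N : ℕ => ((N : ℝ) - k)) atTop atTop :=
          tendsto_atTop_add_const_right _ (-(k : ℝ)) tendsto_natCast_atTop_atTop
        have h2 : Tendsto (fun N : ℕ => (k : ℝ) / (N - k : ℝ)) atTop (𝓝 0) :=
          h1.const_div_atTop _
        simpa using (h2.const_mul (k : ℝ)).mul_const (Λ 1)
      exact squeeze_zero' (Eventually.of_forall fun _ => norm_nonneg _) hb hz
  refine ge_of_tendsto' (hlim q) fun N => ?_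
  refine Finset.sum_nonneg fun j hj => mul_nonneg (hq _ ⟨by positivity, ?_⟩) (hw0 N j)
  rw [Finset.mem_range] at hj
  rcases Nat.eq_zero_or_pos N with h0 | h0
  · subst h0; simp
  · rw [div_le_one (by exact_mod_cast h0)]
    exact_mod_cast (by omega : j ≤ N)

end PolyOp

open PolyOp in
theorem poly_op {V : Type*} [AddCommGroup V] [Module ℝ V] (B : LinearMap.BilinForm ℝ V)
    (hsymm : ∀ x y, B x y = B y x) (hnn : ∀ x, 0 ≤ B x x) (S : V →ₗ[ℝ] V)
    (hS : ∀ x y, B (S x) y = B x (S y)) (hc : ∀ x, B (S x) (S x) ≤ B x x)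
    (p : Polynomial ℝ) {τ : ℝ} (hp : ∀ t ∈ Set.Icc (0 : ℝ) 1, |p.eval t| ≤ τ) (x : V) :
    B (Polynomial.aeval (S * S) p x) (Polynomial.aeval (S * S) p x) ≤ τ ^ 2 * B x x := by
  set T : V →ₗ[ℝ] V := S * S with hT
  have hTs : ∀ x y, B (T x) y = B x (T y) := by
    intro x y
    rw [hT, Module.End.mul_apply, Module.End.mul_apply, hS, hS]
  -- symmetry of polynomials in `T`
  have hsym : ∀ (q : Polynomial ℝ) (x y : V),
      B (Polynomial.aeval T q x) y = B x (Polynomial.aeval T q y) := by
    intro q
    induction q using Polynomial.induction_on' with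
    | add p q hp hq =>
      intro x y
      rw [map_add, LinearMap.add_apply, LinearMap.add_apply, map_add, LinearMap.add_apply, map_add,
        hp, hq]
    | monomial k a =>
      have hk : ∀ x y, B ((T ^ k) x) y = B x ((T ^ k) y) := by
        induction k with
        | zero => intro x y; simp
        | succ k ih =>
          intro x y
          rw [pow_succ, Module.End.mul_apply, ih, hTs, ← Module.End.mul_apply, ← pow_succ', pow_succ,
            Module.End.mul_apply]
      intro x y
      rw [Polynomial.aeval_monomial]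
      simp only [Algebra.algebraMap_eq_smul_one, smul_mul_assoc, one_mul, LinearMap.smul_apply,
        map_smul, smul_eq_mul, hk]
  set Λ : Polynomial ℝ →ₗ[ℝ] ℝ :=
    { toFun := fun q => B (Polynomial.aeval T q x) x
      map_add' := fun p q => by simp
      map_smul' := fun a q => by simp } with hΛ
  have hU : ∀ y, 0 ≤ B ((1 - T) y) y := by
    intro y
    rw [LinearMap.sub_apply, map_sub, LinearMap.sub_apply, hT, Module.End.mul_apply, hS,
      Module.End.one_apply, sub_nonneg]
    exact hc y
  have haU : Polynomial.aeval T (1 - Polynomial.X : Polynomial ℝ) = 1 - T := by simp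
  have hUl : ∀ (l : ℕ) (y : V), 0 ≤ B (((1 - T) ^ l) y) y := by
    intro l y
    have hUs : ∀ (m : ℕ) (a b : V), B (((1 - T) ^ m) a) b = B a (((1 - T) ^ m) b) := by
      intro m a b
      have := hsym ((1 - Polynomial.X) ^ m) a b
      rwa [map_pow, haU] at this
    rcases Nat.even_or_odd' l with ⟨m, hm | hm⟩
    · rw [hm, two_mul, pow_add, Module.End.mul_apply, hUs]
      exact hnn _
    · rw [hm, show 2 * m + 1 = m + (1 + m) by ring, pow_add, Module.End.mul_apply, hUs, pow_add,
        pow_one, Module.End.mul_apply]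
      exact hU _
  have hpos : ∀ j l : ℕ, 0 ≤ Λ (Polynomial.X ^ j * (1 - Polynomial.X) ^ l) := by
    intro j l
    have e : Λ (Polynomial.X ^ j * (1 - Polynomial.X) ^ l) =
        B (((1 - T) ^ l) ((S ^ j) x)) ((S ^ j) x) := by
      show B (Polynomial.aeval T (Polynomial.X ^ j * (1 - Polynomial.X) ^ l) x) x = _
      rw [map_mul, map_pow, map_pow, haU, Polynomial.aeval_X]
      have hSj : ∀ (m : ℕ) (a b : V), B ((S ^ m) a) b = B a ((S ^ m) b) := by
        intro m
        induction m with
        | zero => intro a b; simp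
        | succ m ih =>
          intro a b
          rw [pow_succ, Module.End.mul_apply, ih, hS, ← Module.End.mul_apply, ← pow_succ', pow_succ,
            Module.End.mul_apply]
      have hcomm : T ^ j * (1 - T) ^ l = S ^ j * ((1 - T) ^ l * S ^ j) := by
        have c1 : Commute S (1 - T) := by
          refine (Commute.one_right S).sub_right ?_
          rw [hT]
          exact (Commute.refl S).mul_right (Commute.refl S)
        have c2 : Commute (S ^ j) ((1 - T) ^ l) := (c1.pow_pow j l)
        rw [hT, (Commute.refl S).mul_pow, mul_assoc, c2.eq]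
      rw [hcomm, Module.End.mul_apply, Module.End.mul_apply, hSj]
    rw [e]
    exact hUl _ _
  have hq : ∀ t ∈ Set.Icc (0 : ℝ) 1, 0 ≤ (Polynomial.C (τ ^ 2) - p ^ 2).eval t := by
    intro t ht
    have h1 := hp t ht
    rw [Polynomial.eval_sub, Polynomial.eval_C, Polynomial.eval_pow, sub_nonneg]
    calc p.eval t ^ 2 = |p.eval t| ^ 2 := (sq_abs _).symm
      _ ≤ τ ^ 2 := pow_le_pow_left₀ (abs_nonneg _) h1 2
  have hfin := pos_of_bern Λ hpos _ hq
  have e : Λ (Polynomial.C (τ ^ 2) - p ^ 2) =
      τ ^ 2 * B x x - B (Polynomial.aeval T p x) (Polynomial.aeval T p x) := by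
    show B (Polynomial.aeval T (Polynomial.C (τ ^ 2) - p ^ 2) x) x = _
    rw [map_sub, LinearMap.sub_apply, map_sub, LinearMap.sub_apply, Polynomial.aeval_C,
      Module.algebraMap_end_apply, map_smul, LinearMap.smul_apply, smul_eq_mul, sq p, map_mul,
      Module.End.mul_apply, hsym]
  rw [e] at hfin
  linarith

end Vale.Agent.P347
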