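import Vale.Agent.P347.Mehler2
import Vale.Agent.P347.PolyOp
import Vale.Agent.P347.Rot

/-!
P347, block A8a: the operator bound for differences of averages of Mehler operators.
-/

open MeasureTheory ProbabilityTheory
open scoped ENNReal NNReal RealInnerProductSpace

namespace Vale.Agent.P347

namespace OB

variable {d k : ℕ}

theorem poly_add {F : Type*} [NormedAddCommGroup F] {f g : E d → F} (hf : PolyGrowth f)
    (hg : PolyGrowth g) : PolyGrowth fun x => f x + g x := by
  obtain ⟨C, p, h1⟩ := hf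
  obtain ⟨D, q, h2⟩ := hg
  have hC : 0 ≤ C := by
    have := (norm_nonneg _).trans (h1 0)
    simpa using this
  have hD : 0 ≤ D := by
    have := (norm_nonneg _).trans (h2 0)
    simpa using this
  refine ⟨C + D, max p q, fun x => ?_⟩
  have hx : (1 : ℝ) ≤ 1 + ‖x‖ := by linarith [norm_nonneg x]
  calc ‖f x + g x‖ ≤ ‖f x‖ + ‖g x‖ := norm_add_le _ _
    _ ≤ C * (1 + ‖x‖) ^ p + D * (1 + ‖x‖) ^ q := add_le_add (h1 x) (h2 x)
    _ ≤ C * (1 + ‖x‖) ^ max p q + D * (1 + ‖x‖) ^ max p q := by
        gcongr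
        · exact le_max_left _ _
        · exact le_max_right _ _
    _ = (C + D) * (1 + ‖x‖) ^ max p q := by ring

theorem poly_smul {F : Type*} [NormedAddCommGroup F] [NormedSpace ℝ F] {f : E d → F} (c : ℝ)
    (hf : PolyGrowth f) : PolyGrowth fun x => c • f x := by
  obtain ⟨C, p, h1⟩ := hf
  refine ⟨|c| * C, p, fun x => ?_⟩
  rw [norm_smul, Real.norm_eq_abs, mul_assoc]
  exact mul_le_mul_of_nonneg_left (h1 x) (abs_nonneg c)

theorem poly_inner {f g : E d → E k} (hf : PolyGrowth f) (hg : PolyGrowth g) :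
    PolyGrowth fun x => (⟪f x, g x⟫ : ℝ) := by
  obtain ⟨C, p, h1⟩ := hf
  obtain ⟨D, q, h2⟩ := hg
  refine ⟨C * D, p + q, fun x => ?_⟩
  calc ‖(⟪f x, g x⟫ : ℝ)‖ ≤ ‖f x‖ * ‖g x‖ := norm_inner_le_norm _ _
    _ ≤ (C * (1 + ‖x‖) ^ p) * (D * (1 + ‖x‖) ^ q) :=
        mul_le_mul (h1 x) (h2 x) (norm_nonneg _) ((norm_nonneg _).trans (h1 x))
    _ = C * D * (1 + ‖x‖) ^ (p + q) := by rw [pow_add]; ring

theorem integrable_of_poly {F : Type*} [NormedAddCommGroup F] [NormedSpace ℝ F]
    [SecondCountableTopologyEither (E d) F] {f : E d → F} (hc : Continuous f)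
    (hf : PolyGrowth f) : Integrable f (gam d) := by
  obtain ⟨C, p, h1⟩ := hf
  refine ((gam_pow_integrable d p).const_mul C).mono' hc.aestronglyMeasurable
    (Filter.Eventually.of_forall h1)

theorem poly_shift {F : Type*} [NormedAddCommGroup F] {f : E d → F} (hf : PolyGrowth f)
    (x : E d) (c : ℝ) : PolyGrowth fun z => f (x + c • z) := by
  obtain ⟨C, p, h1⟩ := hf
  have hC : 0 ≤ C := by
    have := (norm_nonneg _).trans (h1 0)
    simpa using this
  refine ⟨C * (1 + ‖x‖ + |c|) ^ p, p, fun z => (h1 _).trans ?_⟩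
  rw [mul_assoc, ← mul_pow]
  apply mul_le_mul_of_nonneg_left _ hC
  apply pow_le_pow_left₀ (by positivity)
  have h2 : ‖x + c • z‖ ≤ ‖x‖ + |c| * ‖z‖ := by
    refine (norm_add_le _ _).trans ?_
    rw [norm_smul, Real.norm_eq_abs]
  nlinarith [norm_nonneg x, norm_nonneg z, abs_nonneg c,
    mul_nonneg (norm_nonneg x) (norm_nonneg z)]

theorem mehler_integrable {f : E d → E k} (hc : Continuous f) (hf : PolyGrowth f) (ρ : ℝ)
    (x : E d) : Integrable (fun z => f (ρ • x + Real.sqrt (1 - ρ ^ 2) • z)) (gam d) :=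
  integrable_of_poly (by fun_prop) (poly_shift hf _ _)

/-- continuous functions of polynomial growth -/
def V (d k : ℕ) : Submodule ℝ (E d → E k) where
  carrier := {f | Continuous f ∧ PolyGrowth f}
  zero_mem' := ⟨continuous_zero, 0, 0, fun x => by simp⟩
  add_mem' := fun hf hg => ⟨hf.1.add hg.1, poly_add hf.2 hg.2⟩
  smul_mem' := fun c _ hf => ⟨hf.1.const_smul c, poly_smul c hf.2⟩

/-- the Mehler operator on `V` -/
noncomputable def S (ρ : ℝ) (h0 : 0 ≤ ρ) (h1 : ρ ≤ 1) : V d k →ₗ[ℝ] V d k where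
  toFun f := ⟨mehler ρ f.1, mehler_continuous f.2.1 f.2.2, mehler_polyGrowth h0 h1 f.2.1 f.2.2⟩
  map_add' f g := by
    apply Subtype.ext
    funext x
    exact integral_add (mehler_integrable f.2.1 f.2.2 ρ x) (mehler_integrable g.2.1 g.2.2 ρ x)
  map_smul' c f := by
    apply Subtype.ext
    funext x
    exact integral_smul c _

theorem inner_integrable (f g : V d k) : Integrable (fun x => (⟪f.1 x, g.1 x⟫ : ℝ)) (gam d) :=
  integrable_of_poly (f.2.1.inner g.2.1) (poly_inner f.2.2 g.2.2)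

/-- the inner product on `V` -/
noncomputable def B (d k : ℕ) : LinearMap.BilinForm ℝ (V d k) :=
  LinearMap.mk₂ ℝ (fun f g => ∫ x, (⟪f.1 x, g.1 x⟫ : ℝ) ∂gam d)
    (fun f f' g => by
      rw [← integral_add (inner_integrable f g) (inner_integrable f' g)]
      refine integral_congr_ae (Filter.Eventually.of_forall fun x => ?_)
      exact inner_add_left _ _ _)
    (fun c f g => by
      rw [smul_eq_mul, ← integral_const_mul]
      refine integral_congr_ae (Filter.Eventually.of_forall fun x => ?_)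
      exact real_inner_smul_left _ _ _)
    (fun f g g' => by
      rw [← integral_add (inner_integrable f g) (inner_integrable f g')]
      refine integral_congr_ae (Filter.Eventually.of_forall fun x => ?_)
      exact inner_add_right _ _ _)
    (fun c f g => by
      rw [smul_eq_mul, ← integral_const_mul]
      refine integral_congr_ae (Filter.Eventually.of_forall fun x => ?_)
      exact real_inner_smul_right _ _ _)

theorem B_apply (f g : V d k) : B d k f g = ∫ x, (⟪f.1 x, g.1 x⟫ : ℝ) ∂gam d := rfl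

theorem B_self (f : V d k) : B d k f f = ∫ x, ‖f.1 x‖ ^ 2 ∂gam d := by
  rw [B_apply]
  exact integral_congr_ae (Filter.Eventually.of_forall fun x => real_inner_self_eq_norm_sq _)

theorem mehler_one (f : E d → E k) : mehler 1 f = f := by
  funext x
  simp [mehler]

/-- powers of the square of the Mehler operator -/
theorem pow_S {a : ℝ} (h0 : 0 ≤ a) (h1 : a ≤ 1) (T : Module.End ℝ (V d k))
    (hT : ∀ f, (T f).1 = mehler (√a) f.1) (e : ℕ) (f : V d k) :
    (((T * T) ^ e) f).1 = mehler (a ^ e) f.1 := by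
  induction e with
  | zero => simp [mehler_one]
  | succ e ih =>
    rw [pow_succ', Module.End.mul_apply, Module.End.mul_apply, hT, hT, ih]
    have he0 : 0 ≤ a ^ e := pow_nonneg h0 e
    have he1 : a ^ e ≤ 1 := pow_le_one₀ h0 h1
    have hs := Real.sqrt_nonneg a
    have hs1 : √a ≤ 1 := Real.sqrt_le_one.2 h1
    funext x
    rw [mehler_mehler hs hs1 hs hs1 (mehler_continuous f.2.1 f.2.2)
      (mehler_polyGrowth he0 he1 f.2.1 f.2.2), Real.mul_self_sqrt h0,
      mehler_mehler h0 h1 he0 he1 f.2.1 f.2.2, pow_succ']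

end OB

open OB

theorem avg_sub_le {d k : ℕ} {ι ι' : Type} [Fintype ι] [Fintype ι'] {a τ : ℝ} (h0 : 0 ≤ a)
    (h1 : a ≤ 1) (p : ι → ℝ) (e : ι → ℕ) (p' : ι' → ℝ) (e' : ι' → ℕ)
    (h : ∀ t ∈ Set.Icc (0 : ℝ) 1, |∑ i, p i * t ^ e i - ∑ j, p' j * t ^ e' j| ≤ τ)
    {φ : E d → E k} (hc : Continuous φ) (hg : PolyGrowth φ) :
    ∫ x, ‖avg p (fun i => a ^ e i) φ x - avg p' (fun j => a ^ e' j) φ x‖ ^ 2 ∂gam d ≤
      τ ^ 2 * ∫ x, ‖φ x‖ ^ 2 ∂gam d := by
  have hs := Real.sqrt_nonneg a
  have hs1 : √a ≤ 1 := Real.sqrt_le_one.2 h1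
  set T : Module.End ℝ (V d k) := S (√a) hs hs1 with hT
  set P : Polynomial ℝ := ∑ i, Polynomial.C (p i) * Polynomial.X ^ e i -
    ∑ j, Polynomial.C (p' j) * Polynomial.X ^ e' j with hP
  have hPe : ∀ t ∈ Set.Icc (0 : ℝ) 1, |P.eval t| ≤ τ := by
    intro t ht
    have := h t ht
    simpa [hP, Polynomial.eval_finsetSum] using this
  let f : V d k := ⟨φ, hc, hg⟩
  have hmain := poly_op (B d k)
    (fun x y => by
      rw [B_apply, B_apply]
      exact integral_congr_ae (Filter.Eventually.of_forall fun z => real_inner_comm _ _))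
    (fun x => by rw [B_self]; exact integral_nonneg fun z => by positivity) T
    (fun x y => mehler_symm hs hs1 x.2.1 x.2.2 y.2.1 y.2.2)
    (fun x => by
      rw [B_self, B_self]
      exact mehler_contr hs hs1 x.2.1 x.2.2) P hPe f
  rw [B_self, B_self] at hmain
  have hval : ((Polynomial.aeval (T * T) P) f).1 =
      fun x => avg p (fun i => a ^ e i) φ x - avg p' (fun j => a ^ e' j) φ x := by
    have hp : ∀ {κ : Type} [Fintype κ] (q : κ → ℝ) (m : κ → ℕ),
        ((Polynomial.aeval (T * T) (∑ i, Polynomial.C (q i) * Polynomial.X ^ m i)) f).1 =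
          fun x => avg q (fun i => a ^ m i) φ x := by
      intro κ _ q m
      rw [map_sum, LinearMap.sum_apply]
      funext x
      unfold avg
      rw [AddSubmonoidClass.coe_finsetSum, Finset.sum_apply]
      refine Finset.sum_congr rfl fun i _ => ?_
      have h3 : (Polynomial.aeval (T * T)) (Polynomial.C (q i) * Polynomial.X ^ m i) =
          q i • (T * T) ^ m i := by
        rw [map_mul, Polynomial.aeval_C, map_pow, Polynomial.aeval_X, Algebra.smul_def]
      rw [h3, LinearMap.smul_apply, Submodule.coe_smul, Pi.smul_apply,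
        pow_S h0 h1 T fun _ => rfl]
    funext x
    rw [hP, map_sub, LinearMap.sub_apply, Submodule.coe_sub, Pi.sub_apply, hp p e, hp p' e']
  rw [hval] at hmain
  exact hmain

end Vale.Agent.P347
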