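import Vale.Agent.P347.RefOne
import Vale.Agent.P347.GibbsBasic

/-! P347, piece B'3, part 1: the representation of the local Gibbs law (given the fine chain). -/

open MeasureTheory ProbabilityTheory Filter Topology
open scoped ENNReal NNReal RealInnerProductSpace

namespace Vale.Agent.P347

namespace ReprAux

variable {d : ℕ}

theorem a_lt {r : ℝ} (hr0 : 0 < r) (hr1 : r < 1) (l : ℕ) : r ^ ((1 : ℝ) / 2 ^ l) < 1 :=
  Real.rpow_lt_one hr0.le hr1 (by positivity)

theorem a_tendsto {r : ℝ} (hr0 : 0 < r) :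
    Tendsto (fun l : ℕ => r ^ ((1 : ℝ) / 2 ^ l)) atTop (𝓝 1) := by
  have h1 : Tendsto (fun l : ℕ => (1 : ℝ) / 2 ^ l) atTop (𝓝 0) := by
    have := tendsto_pow_atTop_nhds_zero_of_lt_one (r := (1 / 2 : ℝ)) (by norm_num) (by norm_num)
    simpa [one_div] using this
  have h2 : ContinuousAt (fun x : ℝ => r ^ x) 0 := Real.continuousAt_const_rpow hr0.ne'
  have h3 : Tendsto (fun l : ℕ => r ^ ((1 : ℝ) / 2 ^ l)) atTop (𝓝 (r ^ (0 : ℝ))) :=
    h2.tendsto.comp h1
  rwa [Real.rpow_zero] at h3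

theorem stepOp_smul (F : E d → E d) (s c : ℝ) (n : ℕ) (g : E d → ℝ) :
    (stepOp F s)^[n] (fun x => c * g x) = fun x => c * (stepOp F s)^[n] g x := by
  induction n generalizing g with
  | zero => rfl
  | succ n ih =>
    rw [Function.iterate_succ_apply, Function.iterate_succ_apply, ← ih]
    congr 1
    funext x
    exact integral_const_mul _ _

theorem stepOp_it {F : E d → E d} (hF : Continuous F) (s : ℝ) {C : ℝ} (n : ℕ) {g : E d → ℝ}
    (hg : Continuous g) (hb : ∀ x, |g x| ≤ C) :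
    Continuous ((stepOp F s)^[n] g) ∧ ∀ x, |(stepOp F s)^[n] g x| ≤ C := by
  induction n generalizing g with
  | zero => exact ⟨hg, hb⟩
  | succ n ih =>
    rw [Function.iterate_succ_apply]
    exact ih (RefLaw.stepOp_cont hF s hg hb) (RefLaw.stepOp_bdd F s hb)

/-- the step size condition -/
theorem s_close {a : ℝ} (h0 : 0 < a) (h1 : a < 1) :
    |Real.sqrt (1 - a ^ 2) - Real.sqrt (2 * (1 - a))| ≤ (1 - a) * Real.sqrt (1 - a) := by
  set h := 1 - a with hh
  have hpos : 0 < h := by linarith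
  have hle : h < 1 := by linarith
  have e1 : 1 - a ^ 2 = 2 * h - h ^ 2 := by rw [hh]; ring
  rw [e1]
  have h2 : Real.sqrt (2 * h - h ^ 2) ≤ Real.sqrt (2 * h) := Real.sqrt_le_sqrt (by nlinarith)
  rw [abs_sub_comm, abs_of_nonneg (by linarith)]
  have h3 : Real.sqrt (2 * h) ^ 2 = 2 * h := Real.sq_sqrt (by linarith)
  have h4 : Real.sqrt (2 * h - h ^ 2) ^ 2 = 2 * h - h ^ 2 := Real.sq_sqrt (by nlinarith)
  have h5 : Real.sqrt h ^ 2 = h := Real.sq_sqrt hpos.le
  have h6 : Real.sqrt h ≤ Real.sqrt (2 * h) := Real.sqrt_le_sqrt (by linarith)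
  have h7 : 0 < Real.sqrt h := Real.sqrt_pos.2 hpos
  have h8 : 0 ≤ Real.sqrt (2 * h - h ^ 2) := Real.sqrt_nonneg _
  -- (x - y)(x + y) = h², x + y ≥ x ≥ sqrt h
  have h9 : (Real.sqrt (2 * h) - Real.sqrt (2 * h - h ^ 2)) * Real.sqrt h ≤ h ^ 2 := by
    nlinarith [mul_nonneg (sub_nonneg.2 h2) h8, mul_nonneg (sub_nonneg.2 h2) (sub_nonneg.2 h6)]
  have h10 : h ^ 2 = (h * Real.sqrt h) * Real.sqrt h := by
    rw [mul_assoc, ← pow_two, h5]; ring
  exact le_of_mul_le_mul_right (h9.trans h10.le) h7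

/-- `gibbs_repr`, given the fine chain of the potential. -/
theorem repr_of {W : E d → ℝ} (hW : Pot d 1 2 W) {ε : ℝ} (hε0 : 0 < ε)
    (hε1 : ε ≤ 1 / 8) {r : ℝ} (hr0 : 0 < r) (hr1 : r < 1)
    (hfc : ∃ C h0 : ℝ, 0 < h0 ∧ ∀ h s : ℝ, 0 < h → h ≤ h0 →
      |s - Real.sqrt (2 * h)| ≤ h * Real.sqrt h →
      ∀ g : E d → ℝ, (∀ x y, |g x - g y| ≤ ‖x - y‖) → ∀ (n : ℕ) (x : E d),
      |(stepOp (fun x => x - h • gradient (fun u => ‖u‖ ^ 2 / 2 + ε * W u) x) s)^[n] g x -
          ∫ x, g x ∂gibbs (fun u => ‖u‖ ^ 2 / 2 + ε * W u)| ≤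
        C * (1 + ‖x‖) * ((1 - (1 + ε) * h) ^ n + Real.sqrt h)) :
    ∀ δ : ℝ, 0 < δ → ∃ l0 : ℕ, ∀ l ≥ l0, ∃ K0 : ℕ, ∀ K ≥ K0,
      ∀ {g : E d → ℝ} {C L : ℝ}, 0 ≤ L → (∀ x, |g x| ≤ C) → (∀ x y, |g x - g y| ≤ L * ‖x - y‖) →
      |∫ x, g x ∂gibbs (fun u => ‖u‖ ^ 2 / 2 + ε * W u) -
        ∫ G, ∫ ξ, g (G - ε • ref1 (gradient W) (r ^ ((1 : ℝ) / 2 ^ l)) K G ξ)
          ∂gamPi d (Fin K) ∂gam d| ≤ L * (10 * ε ^ 2 * (‖gradient W 0‖ + Real.sqrt d) + δ) := by
  intro δ hδ
  obtain ⟨C0, h0, hh0, hfc⟩ := hfc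
  set D : ℝ := (|C0| + 1) * (1 + Real.sqrt d) with hD
  have hDpos : 0 < D := by positivity
  -- small step
  have hlim : Tendsto (fun l : ℕ => 1 - r ^ ((1 : ℝ) / 2 ^ l)) atTop (𝓝 0) := by
    have := (a_tendsto hr0).const_sub 1
    simpa using this
  have hlim2 : Tendsto (fun l : ℕ => Real.sqrt (1 - r ^ ((1 : ℝ) / 2 ^ l))) atTop (𝓝 0) := by
    have : Tendsto (fun l : ℕ => Real.sqrt (1 - r ^ ((1 : ℝ) / 2 ^ l))) atTop
        (𝓝 (Real.sqrt 0)) := (Real.continuous_sqrt.tendsto 0).comp hlim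
    rwa [Real.sqrt_zero] at this
  have ev1 : ∀ᶠ l : ℕ in atTop, 1 - r ^ ((1 : ℝ) / 2 ^ l) < min h0 (1 / 2) :=
    hlim.eventually_lt_const (lt_min hh0 (by norm_num))
  have ev2 : ∀ᶠ l : ℕ in atTop, Real.sqrt (1 - r ^ ((1 : ℝ) / 2 ^ l)) < δ / (2 * D) :=
    hlim2.eventually_lt_const (by positivity)
  obtain ⟨l0, hl0⟩ := eventually_atTop.1 (ev1.and ev2)
  refine ⟨l0, fun l hl => ?_⟩
  obtain ⟨h1, h2⟩ := hl0 l hl
  set a := r ^ ((1 : ℝ) / 2 ^ l) with ha
  have ha0 : 0 < a := Real.rpow_pos_of_pos hr0 _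
  have ha1 : a < 1 := a_lt hr0 hr1 l
  set h := 1 - a with hh
  have hpos : 0 < h := by rw [hh]; linarith
  have hhalf : h < 1 / 2 := h1.trans_le (min_le_right _ _)
  have hq0 : 0 ≤ 1 - (1 + ε) * h := by nlinarith
  have hq1 : 1 - (1 + ε) * h < 1 := by nlinarith
  have ev3 : ∀ᶠ K : ℕ in atTop, (1 - (1 + ε) * h) ^ K < δ / (2 * D) :=
    (tendsto_pow_atTop_nhds_zero_of_lt_one hq0 hq1).eventually_lt_const (by positivity)
  obtain ⟨K0, hK0⟩ := eventually_atTop.1 ev3
  refine ⟨K0, fun K hK g C L hL hgC hgL => ?_⟩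
  have h3 := hK0 K hK
  set U : E d → ℝ := fun u => ‖u‖ ^ 2 / 2 + ε * W u with hU
  have hUP : Pot d (1 + ε * 1) (1 + ε * 2) U := hW.sq_add hε0.le
  have hprob : IsProbabilityMeasure (gibbs U) := gibbs_prob hUP (by linarith)
  have hwc : ContDiff ℝ 1 (gradient W) := hW.grad_contDiff
  have hwb : ∀ x, ‖fderiv ℝ (gradient W) x‖ ≤ 2 := hW.fderiv_grad_norm_le (by norm_num) (by norm_num)
  have hgc : Continuous g := by
    refine (LipschitzWith.of_dist_le_mul (K := ⟨L, hL⟩) fun x y => ?_).continuous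
    rw [Real.dist_eq, dist_eq_norm]
    exact hgL x y
  set F : E d → E d := fun x => a • x - ((1 - a) * ε) • gradient W x with hF
  have hFU : (fun x => x - h • gradient U x) = F := by
    funext x
    rw [hU, gradient_sq_add hW, hF]
    simp only [hh]
    module
  have hFc : Continuous F := by
    have := hwc.continuous
    rw [hF]; fun_prop
  set s := Real.sqrt (1 - a ^ 2) with hs
  -- the chain is close to the Gibbs law
  have key : ∀ x, |(stepOp F s)^[K] g x - ∫ x, g x ∂gibbs U| ≤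
      L * (|C0| * (1 + ‖x‖) * ((1 - (1 + ε) * h) ^ K + Real.sqrt h)) := by
    intro x
    have hsum : 0 ≤ (1 - (1 + ε) * h) ^ K + Real.sqrt h :=
      add_nonneg (pow_nonneg hq0 K) (Real.sqrt_nonneg _)
    rcases hL.eq_or_lt with hL0 | hLpos
    · -- constant function
      have hconst : ∀ x y, g x = g y := by
        intro x y
        have := hgL x y
        rw [← hL0, zero_mul] at this
        have := abs_nonpos_iff.1 this
        linarith
      have e1 : g = fun _ => g 0 := funext fun x => hconst x 0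
      have e2 : ∀ n : ℕ, (stepOp F s)^[n] (fun _ : E d => g 0) = fun _ => g 0 := by
        intro n
        induction n with
        | zero => rfl
        | succ n ih =>
          rw [Function.iterate_succ_apply]
          have : stepOp F s (fun _ : E d => g 0) = fun _ => g 0 := by
            funext x
            simp [stepOp]
          rw [this, ih]
      rw [e1, e2 K, ← hL0]
      simp
    · have h4 := hfc h s hpos (h1.le.trans (min_le_left _ _)) (s_close ha0 ha1)
        (fun x => L⁻¹ * g x) (fun x y => by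
          rw [← mul_sub, abs_mul, abs_of_pos (inv_pos.2 hLpos)]
          calc L⁻¹ * |g x - g y| ≤ L⁻¹ * (L * ‖x - y‖) :=
                mul_le_mul_of_nonneg_left (hgL x y) (inv_nonneg.2 hL)
            _ = ‖x - y‖ := by rw [← mul_assoc, inv_mul_cancel₀ hLpos.ne', one_mul]) K x
      rw [hFU, stepOp_smul, integral_const_mul, ← mul_sub, abs_mul,
        abs_of_pos (inv_pos.2 hLpos)] at h4
      have h5 : C0 * (1 + ‖x‖) * ((1 - (1 + ε) * h) ^ K + Real.sqrt h) ≤
          |C0| * (1 + ‖x‖) * ((1 - (1 + ε) * h) ^ K + Real.sqrt h) := by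
        have := le_abs_self C0
        gcongr
      calc |(stepOp F s)^[K] g x - ∫ x, g x ∂gibbs U|
          = L * (L⁻¹ * |(stepOp F s)^[K] g x - ∫ x, g x ∂gibbs U|) := by
            rw [← mul_assoc, mul_inv_cancel₀ hLpos.ne', one_mul]
        _ ≤ _ := mul_le_mul_of_nonneg_left (h4.trans h5) hL
  -- average over a Gaussian start
  have hcont := stepOp_it hFc s K hgc hgC
  have i1 : Integrable ((stepOp F s)^[K] g) (gam d) :=
    Integrable.of_bound hcont.1.aestronglyMeasurable C (Filter.Eventually.of_forall hcont.2)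
  have i2 : Integrable (fun x : E d =>
      L * (|C0| * (1 + ‖x‖) * ((1 - (1 + ε) * h) ^ K + Real.sqrt h))) (gam d) := by
    have i3 : Integrable (fun x : E d => 1 + ‖x‖) (gam d) :=
      (integrable_const _).add (RefAux.norm_integrable d)
    exact ((i3.const_mul |C0|).mul_const _).const_mul L
  have h6 : |(∫ x, (stepOp F s)^[K] g x ∂gam d) - ∫ x, g x ∂gibbs U| ≤ L * δ := by
    have e1 : (∫ x, (stepOp F s)^[K] g x ∂gam d) - ∫ x, g x ∂gibbs U =
        ∫ x, ((stepOp F s)^[K] g x - ∫ x, g x ∂gibbs U) ∂gam d := by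
      rw [integral_sub i1 (integrable_const _)]
      simp
    rw [e1]
    have h61 := norm_integral_le_of_norm_le (μ := gam d)
      (f := fun x => (stepOp F s)^[K] g x - ∫ x, g x ∂gibbs U) i2
      (Filter.Eventually.of_forall key)
    refine (le_of_eq ?_).trans (h61.trans ?_)
    · rw [Real.norm_eq_abs]
    rw [integral_const_mul, integral_mul_const, integral_const_mul,
      integral_add (integrable_const _) (RefAux.norm_integrable d)]
    simp only [integral_const, probReal_univ, one_smul]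
    refine mul_le_mul_of_nonneg_left ?_ hL
    have h7 := RefOne.gam_norm_le d
    have h8 : |C0| * (1 + ∫ x : E d, ‖x‖ ∂gam d) ≤ D := by
      rw [hD]
      have h9 : 0 ≤ ∫ x : E d, ‖x‖ ∂gam d := integral_nonneg fun x => norm_nonneg _
      nlinarith [abs_nonneg C0]
    have h10 : (1 - (1 + ε) * h) ^ K + Real.sqrt h ≤ δ / D := by
      have : δ / D = δ / (2 * D) + δ / (2 * D) := by field_simp; ring
      rw [this]
      linarith
    have h11 : 0 ≤ (1 - (1 + ε) * h) ^ K + Real.sqrt h :=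
      add_nonneg (pow_nonneg hq0 K) (Real.sqrt_nonneg _)
    calc _ ≤ D * (δ / D) := mul_le_mul h8 h10 h11 hDpos.le
      _ = δ := by field_simp
  -- reversal and one Picard step
  have h7 := revX_law (w := gradient W) (ε := ε) hwc ha0 ha1 K g hgc hgC
  have h8 := revX_ref1 (N := K) hwc hwb ha0 ha1 hε0.le hε1
  have c1 : Continuous fun q : E d × (Fin K → E d) => revX (gradient W) a ε K q.1 (extz q.2) K :=
    RefLaw.cont_revX hwc.continuous a ε K continuous_fst
      (fun j => (RefLaw.cont_extz j).comp continuous_snd) K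
  have c2 : Continuous fun q : E d × (Fin K → E d) => q.1 - ε • ref1 (gradient W) a K q.1 q.2 := by
    have := (ref1_contDiff (w := gradient W) (a := a) (K := K) hwc).continuous
    fun_prop
  have i3 : Integrable (fun q : E d × (Fin K → E d) =>
      g (revX (gradient W) a ε K q.1 (extz q.2) K)) (RefOne.PG d K) :=
    Integrable.of_bound (hgc.comp c1).aestronglyMeasurable C
      (Filter.Eventually.of_forall fun q => hgC _)
  have i4 : Integrable (fun q : E d × (Fin K → E d) =>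
      g (q.1 - ε • ref1 (gradient W) a K q.1 q.2)) (RefOne.PG d K) :=
    Integrable.of_bound (hgc.comp c2).aestronglyMeasurable C
      (Filter.Eventually.of_forall fun q => hgC _)
  have i5 : Integrable (fun q : E d × (Fin K → E d) =>
      ‖revX (gradient W) a ε K q.1 (extz q.2) K - (q.1 - ε • ref1 (gradient W) a K q.1 q.2)‖)
      (RefOne.PG d K) := by
    have := RefOne.DY_int (N := K) hwc hwb ha0 ha1 hε0.le K le_rfl
    refine this.congr (Filter.Eventually.of_forall fun q => ?_)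
    show ‖_‖ = ‖_‖
    congr 1
    rw [RefOne.Ym_last, RefOne.Dm, Nat.sub_self]
    show _ - q.1 - _ = _
    module
  have h9 : |(∫ G, ∫ ξ, g (revX (gradient W) a ε K G (extz ξ) K) ∂gamPi d (Fin K) ∂gam d) -
      ∫ G, ∫ ξ, g (G - ε • ref1 (gradient W) a K G ξ) ∂gamPi d (Fin K) ∂gam d| ≤
      L * (10 * ε ^ 2 * (‖gradient W 0‖ + Real.sqrt d)) := by
    have e3 := integral_prod _ i3
    have e4 := integral_prod _ i4
    have e5 := integral_prod _ i5
    simp only at e3 e4 e5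
    rw [← e3, ← e4, ← integral_sub i3 i4]
    rw [← e5] at h8
    have h91 := norm_integral_le_of_norm_le (μ := RefOne.PG d K)
      (f := fun q : E d × (Fin K → E d) => g (revX (gradient W) a ε K q.1 (extz q.2) K) -
        g (q.1 - ε • ref1 (gradient W) a K q.1 q.2)) (i5.const_mul L)
      (Filter.Eventually.of_forall fun q => hgL _ _)
    refine (le_of_eq ?_).trans (h91.trans ?_)
    · rw [Real.norm_eq_abs]
    rw [integral_const_mul]
    exact mul_le_mul_of_nonneg_left h8 hL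
  have h7' : (∫ G, ∫ ξ, g (revX (gradient W) a ε K G (extz ξ) K) ∂gamPi d (Fin K) ∂gam d) =
      ∫ x, (stepOp F s)^[K] g x ∂gam d := h7
  rw [h7'] at h9
  calc |∫ x, g x ∂gibbs U - ∫ G, ∫ ξ, g (G - ε • ref1 (gradient W) a K G ξ)
          ∂gamPi d (Fin K) ∂gam d|
      ≤ |∫ x, g x ∂gibbs U - ∫ x, (stepOp F s)^[K] g x ∂gam d| +
        |(∫ x, (stepOp F s)^[K] g x ∂gam d) -
          ∫ G, ∫ ξ, g (G - ε • ref1 (gradient W) a K G ξ) ∂gamPi d (Fin K) ∂gam d| :=
        abs_sub_le _ _ _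
    _ ≤ L * δ + L * (10 * ε ^ 2 * (‖gradient W 0‖ + Real.sqrt d)) := by
        rw [abs_sub_comm] at h6
        exact add_le_add h6 h9
    _ = _ := by ring

end ReprAux

end Vale.Agent.P347
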